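import Crest.Agent.R242.Defs

/-! Block A1: topology and measurability of curves.  `UCurve.toMap` is a homeomorphism onto
`C(unitInterval, X)` (the topology is induced, the map is bijective). -/

set_option autoImplicit false
set_option linter.unusedSectionVars false
set_option linter.unusedVariables false
open MeasureTheory Filter Set Metric
open scoped ENNReal NNReal Topology
open Crest.GeometryTopology.SyntheticRicci

noncomputable section
namespace Crest.Agent.R242

variable {X : Type*} [MetricSpace X]

theorem ext_coe (γ : UCurve X) (t : unitInterval) : γ.ext t = γ.toMap t := by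
  unfold UCurve.ext; rw [Set.projIcc_val]

theorem ext_zero (γ : UCurve X) : γ.ext 0 = γ.toMap 0 := by
  exact ext_coe γ 0

theorem ext_one (γ : UCurve X) : γ.ext 1 = γ.toMap 1 := by
  exact ext_coe γ 1

theorem len_eq (γ : UCurve X) : len γ = dist (γ.toMap 0) (γ.toMap 1) := by
  rw [len, ext_zero, ext_one]

/-- The homeomorphism with the space of continuous maps. -/
def ucurveHomeo : UCurve X ≃ₜ C(unitInterval, X) where
  toFun := UCurve.toMap
  invFun := UCurve.mk
  left_inv := fun _ => rfl
  right_inv := fun _ => rfl
  continuous_toFun := continuous_induced_dom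
  continuous_invFun := continuous_induced_rng.2 continuous_id

theorem continuous_ext : Continuous fun p : UCurve X × ℝ => p.1.ext p.2 := by
  unfold UCurve.ext
  exact Continuous.eval ((ucurveHomeo (X := X)).continuous.comp continuous_fst)
    (continuous_projIcc.comp continuous_snd)

theorem continuous_ext_at (t : ℝ) : Continuous fun γ : UCurve X => γ.ext t := by
  exact continuous_ext.comp (continuous_id.prodMk continuous_const)

theorem continuous_len : Continuous (len : UCurve X → ℝ) := by
  exact (continuous_ext_at 0).dist (continuous_ext_at 1)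

theorem continuous_subc (a b : ℝ) : Continuous fun γ : UCurve X => subc γ a b := by
  refine continuous_induced_rng.2 (ContinuousMap.continuous_of_continuous_uncurry _ ?_)
  exact continuous_ext.comp (f := fun p : UCurve X × unitInterval => (p.1, a + (p.2 : ℝ) * (b - a))) (by fun_prop)

theorem subc_ext (γ : UCurve X) (a b : ℝ) {t : ℝ} (ht : t ∈ Icc (0 : ℝ) 1) :
    (subc γ a b).ext t = γ.ext (a + t * (b - a)) := by
  exact ext_coe (subc γ a b) ⟨t, ht⟩

theorem isClosed_geo : IsClosed {γ : UCurve X | IsCSGeodesic γ} := by
  have h : ∀ t : unitInterval, Continuous fun γ : UCurve X => γ.toMap t := fun t => by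
    simpa only [ext_coe] using continuous_ext_at (X := X) (t : ℝ)
  simp only [IsCSGeodesic, ofPred_forall]
  exact isClosed_iInter fun s => isClosed_iInter fun t =>
    isClosed_eq ((h s).dist (h t)) (continuous_const.mul ((h 0).dist (h 1)))

theorem geo_dist {γ : UCurve X} (h : IsCSGeodesic γ) {s t : ℝ} (hs : s ∈ Icc (0 : ℝ) 1)
    (ht : t ∈ Icc (0 : ℝ) 1) : dist (γ.ext s) (γ.ext t) = |s - t| * len γ := by
  have := h ⟨s, hs⟩ ⟨t, ht⟩
  rw [← ext_coe, ← ext_coe, ← len_eq] at this
  exact this

/-- For all real times (clamping is `1`-Lipschitz). -/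
theorem geo_dist_le {γ : UCurve X} (h : IsCSGeodesic γ) (s t : ℝ) :
    dist (γ.ext s) (γ.ext t) ≤ |s - t| * len γ := by
  unfold UCurve.ext
  rw [h, ← len_eq]
  exact mul_le_mul_of_nonneg_right (Set.abs_projIcc_sub_projIcc zero_le_one) dist_nonneg

theorem geo_mem_ball {γ : UCurve X} (h : IsCSGeodesic γ) {o : X} {R : ℝ}
    (h0 : γ.ext 0 ∈ closedBall o R) (h1 : γ.ext 1 ∈ closedBall o R) (t : ℝ) :
    γ.ext t ∈ closedBall o (3 * R) := by
  rw [mem_closedBall] at h0 h1 ⊢
  have h2 : len γ ≤ 2 * R := by
    have := dist_triangle_right (γ.ext 0) (γ.ext 1) o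
    unfold len; linarith
  have h3 : dist (γ.ext t) (γ.ext 0) ≤ len γ := by
    have h4 := h (Set.projIcc (0 : ℝ) 1 zero_le_one t) 0
    rw [← len_eq, ← ext_zero] at h4
    have h5 := (Set.projIcc (0 : ℝ) 1 zero_le_one t).2
    have h6 : 0 ≤ len γ := dist_nonneg
    refine h4.le.trans (mul_le_of_le_one_left h6 ?_)
    rw [Set.Icc.coe_zero, sub_zero, abs_of_nonneg h5.1]
    exact h5.2
  linarith [dist_triangle (γ.ext t) (γ.ext 0) o]

instance ucurve_secondCountable [SecondCountableTopology X] :
    SecondCountableTopology (UCurve X) :=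
  ucurveHomeo.secondCountableTopology

instance ucurve_polish [SecondCountableTopology X] [CompleteSpace X] : PolishSpace (UCurve X) :=
  ucurveHomeo.isClosedEmbedding.polishSpace

instance ucurve_metrizable : TopologicalSpace.MetrizableSpace (UCurve X) :=
  ucurveHomeo.isEmbedding.metrizableSpace

/-- Arzelà-Ascoli: geodesics with endpoints in a closed ball of a proper space. -/
theorem isCompact_geo [ProperSpace X] (o : X) (R : ℝ) :
    IsCompact {γ : UCurve X |
      IsCSGeodesic γ ∧ γ.ext 0 ∈ closedBall o R ∧ γ.ext 1 ∈ closedBall o R} := by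
  let e : UCurve X ≃ₜ BoundedContinuousFunction unitInterval X :=
    ucurveHomeo.trans (ContinuousMap.isometryEquivBoundedOfCompact unitInterval X).toHomeomorph
  have he : ∀ (γ : UCurve X) (t : unitInterval), e γ t = γ.ext t := fun γ t => (ext_coe γ t).symm
  have hc : IsClosed {γ : UCurve X |
      IsCSGeodesic γ ∧ γ.ext 0 ∈ closedBall o R ∧ γ.ext 1 ∈ closedBall o R} :=
    isClosed_geo.inter ((isClosed_closedBall.preimage (continuous_ext_at 0)).inter
      (isClosed_closedBall.preimage (continuous_ext_at 1)))
  rw [← e.isCompact_image]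
  refine BoundedContinuousFunction.arzela_ascoli₂ (closedBall o (3 * R)) (isCompact_closedBall _ _)
    _ (e.isClosed_image.2 hc) ?_ ?_
  · rintro _ t ⟨γ, ⟨h, h0, h1⟩, rfl⟩
    rw [he]
    exact geo_mem_ball h h0 h1 t
  · refine Metric.equicontinuous_of_continuity_modulus (fun r => r * (2 * R)) ?_ _ ?_
    · have : Continuous fun r : ℝ => r * (2 * R) := by fun_prop
      simpa using this.tendsto 0
    · rintro s t ⟨_, γ, ⟨h, h0, h1⟩, rfl⟩
      show dist (e γ s) (e γ t) ≤ dist s t * (2 * R)
      rw [he, he, Subtype.dist_eq, Real.dist_eq]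
      refine (geo_dist_le h s t).trans (mul_le_mul_of_nonneg_left ?_ (abs_nonneg _))
      have := dist_triangle_right (γ.ext 0) (γ.ext 1) o
      rw [mem_closedBall] at h0 h1
      unfold len
      linarith

variable [MeasurableSpace X] [BorelSpace X]

theorem measurable_ext_at (t : ℝ) : Measurable fun γ : UCurve X => γ.ext t :=
  (continuous_ext_at t).measurable

theorem measurable_ext [SecondCountableTopology X] :
    Measurable fun p : UCurve X × ℝ => p.1.ext p.2 :=
  continuous_ext.measurable

theorem measurable_subc (a b : ℝ) : Measurable fun γ : UCurve X => subc γ a b :=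
  (continuous_subc a b).measurable

theorem measurable_len : Measurable (len : UCurve X → ℝ) := continuous_len.measurable

theorem timeMarginal_eq (P : Measure (UCurve X)) (t : unitInterval) :
    timeMarginal P t = marg P t := by
  simp only [timeMarginal, marg, ext_coe]

theorem endpointLaw_eq (P : Measure (UCurve X)) :
    endpointLaw P = P.map fun γ => (γ.ext 0, γ.ext 1) := by
  simp only [endpointLaw, ext_zero, ext_one]

end Crest.Agent.R242
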