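import Crest.Agent.R242.A1

/-! Block A2: the upper metric speed.
`measurable_upperSpeed`: the limsup over `s → t` equals `⨅ n, ⨆ q : ℚ, 0 < |q| < 1/(n+1)` of the
quotient at `s = t + q` (continuity of `γ.ext`).  `le_lintegral_of_slope`: `u = φ ∘ γ.ext` is
`AbsolutelyContinuousOnInterval` on `[s,t]` (from the hypothesis `|φ y - φ x| ≤ C dist x y` along the
compact curve and `HasL2Speed`), so it is differentiable a.e. and
`AbsolutelyContinuousOnInterval.integral_deriv_eq_sub` holds; at a point of differentiability the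
right quotient gives `u' ≤ ℓ(γ r)·upperSpeed`, the left quotient gives `-u' ≤ ℓ(γ r)·upperSpeed`
(if `upperSpeed = ⊤` and `ℓ = 0` use that `upperSpeed < ⊤` a.e., e.g. by Lebesgue differentiation of
`a`, or first prove the statement for `ℓ + η`... simplest: `upperSpeed γ r ≤ a r` a.e.). -/

set_option autoImplicit false
set_option linter.unusedSectionVars false
set_option linter.unusedVariables false
open MeasureTheory Filter Set Metric
open scoped ENNReal NNReal Topology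
open Crest.GeometryTopology.SyntheticRicci

noncomputable section
namespace Crest.Agent.R242

variable {X : Type*} [MetricSpace X] [MeasurableSpace X] [BorelSpace X]

theorem a2a_comp (γ : UCurve X) (e : ℝ ≃ₜ ℝ) (t : ℝ) :
    upperSpeed γ (e t) = limsup (fun s : ℝ =>
      ENNReal.ofReal (dist (γ.ext (e s)) (γ.ext (e t)) / |e s - e t|)) (𝓝[≠] t) := by
  unfold upperSpeed
  rw [← e.map_punctured_nhds_eq, ← limsup_comp]
  rfl

theorem a2a_eq (γ : UCurve X) (t : ℝ) :
    upperSpeed γ t = ⨅ n : ℕ, ⨆ h ∈ ball (0 : ℝ) (1 / ((n : ℝ) + 1)) ∩ {0}ᶜ,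
      ENNReal.ofReal (dist (γ.ext (t + h)) (γ.ext t) / |h|) := by
  have h := a2a_comp γ (Homeomorph.addLeft t) 0
  simp only [Homeomorph.coe_addLeft, add_zero, add_sub_cancel_left] at h
  rw [h, (nhdsWithin_hasBasis Metric.nhds_basis_ball_inv_nat_succ _).limsup_eq_iInf_iSup]
  simp only [iInf_true]

theorem measurable_upperSpeed [SecondCountableTopology X] :
    Measurable fun p : UCurve X × ℝ => upperSpeed p.1 p.2 := by
  simp only [a2a_eq]
  refine Measurable.iInf fun n => LowerSemicontinuous.measurable ?_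
  refine lowerSemicontinuous_biSup fun h _ => Continuous.lowerSemicontinuous ?_
  refine ENNReal.continuous_ofReal.comp (Continuous.div_const (Continuous.dist ?_ continuous_ext) _)
  exact continuous_ext.comp (continuous_fst.prodMk (continuous_snd.add continuous_const))

theorem upperSpeed_geo {γ : UCurve X} (h : IsCSGeodesic γ) {t : ℝ} (ht : t ∈ Ioo (0 : ℝ) 1) :
    upperSpeed γ t = ENNReal.ofReal (len γ) := by
  unfold upperSpeed
  rw [← limsup_const (f := 𝓝[≠] t) (ENNReal.ofReal (len γ))]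
  refine limsup_congr ?_
  filter_upwards [mem_nhdsWithin_of_mem_nhds (Ioo_mem_nhds ht.1 ht.2), self_mem_nhdsWithin] with s hs hst
  have h0 : |s - t| ≠ 0 := abs_ne_zero.2 (sub_ne_zero.2 hst)
  rw [geo_dist h (Ioo_subset_Icc_self hs) (Ioo_subset_Icc_self ht), mul_div_cancel_left₀ _ h0]

theorem hasL2Speed_geo {γ : UCurve X} (h : IsCSGeodesic γ) : HasL2Speed γ := by
  refine ⟨fun _ => ENNReal.ofReal (len γ), measurable_const, ?_, fun s t hst => ?_⟩
  · rw [setLIntegral_const, Real.volume_Icc]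
    exact ENNReal.mul_lt_top (ENNReal.pow_lt_top ENNReal.ofReal_lt_top) ENNReal.ofReal_lt_top
  · rw [setLIntegral_const, Real.volume_Icc, edist_dist, h s t, ← len_eq, abs_sub_comm,
      abs_of_nonneg (sub_nonneg.2 hst), ENNReal.ofReal_mul (sub_nonneg.2 hst), mul_comm]

theorem upperSpeed_subc (γ : UCurve X) {a b t : ℝ} (ha : 0 ≤ a) (hab : a < b) (hb : b ≤ 1)
    (ht : t ∈ Ioo (0 : ℝ) 1) :
    upperSpeed (subc γ a b) t = ENNReal.ofReal (b - a) * upperSpeed γ (a + t * (b - a)) := by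
  have hc : 0 < b - a := sub_pos.2 hab
  have h := a2a_comp γ ((Homeomorph.mulRight₀ (b - a) hc.ne').trans (Homeomorph.addLeft a)) t
  simp only [Homeomorph.trans_apply, Homeomorph.coe_mulRight₀, Homeomorph.coe_addLeft] at h
  rw [h, ← ENNReal.limsup_const_mul_of_ne_top ENNReal.ofReal_ne_top]
  unfold upperSpeed
  refine limsup_congr ?_
  filter_upwards [mem_nhdsWithin_of_mem_nhds (Ioo_mem_nhds ht.1 ht.2), self_mem_nhdsWithin] with s hs hst
  have h0 : |s - t| ≠ 0 := abs_ne_zero.2 (sub_ne_zero.2 hst)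
  rw [subc_ext γ a b (Ioo_subset_Icc_self hs), subc_ext γ a b (Ioo_subset_Icc_self ht),
    ← ENNReal.ofReal_mul hc.le]
  congr 1
  have e : a + s * (b - a) - (a + t * (b - a)) = (s - t) * (b - a) := by ring
  rw [e, abs_mul, abs_of_pos hc]
  field_simp

theorem a2a_affine (a : ℝ) {c : ℝ} (hc : 0 < c) (s t : ℝ) (F : ℝ → ℝ≥0∞) (hF : Measurable F) :
    ∫⁻ r in Icc s t, ENNReal.ofReal c * F (a + r * c) = ∫⁻ r in Icc (a + s * c) (a + t * c), F r := by
  have hm : Measurable fun r : ℝ => a + r * c := by fun_prop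
  have h1 : Measure.map (fun r : ℝ => a + r * c) volume = ENNReal.ofReal c⁻¹ • volume := by
    have h2 : (fun r : ℝ => a + r * c) = (fun r => a + r) ∘ fun r => r * c := rfl
    rw [h2, ← Measure.map_map (by fun_prop) (by fun_prop), Real.map_volume_mul_right hc.ne',
      Measure.map_smul, map_add_left_eq_self, abs_of_pos (inv_pos.2 hc)]
  have h3 := setLIntegral_map (μ := volume) (s := Icc (a + s * c) (a + t * c)) measurableSet_Icc hF hm
  have h4 : (fun r : ℝ => a + r * c) ⁻¹' Icc (a + s * c) (a + t * c) = Icc s t := by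
    ext r
    simp only [mem_preimage, mem_Icc, add_le_add_iff_left, mul_le_mul_iff_left₀ hc]
  rw [h4, h1, Measure.restrict_smul, lintegral_smul_measure, smul_eq_mul] at h3
  rw [lintegral_const_mul' _ _ ENNReal.ofReal_ne_top, ← h3, ← mul_assoc, ← ENNReal.ofReal_mul hc.le,
    mul_inv_cancel₀ hc.ne', ENNReal.ofReal_one, one_mul]

theorem hasL2Speed_subc {γ : UCurve X} (h : HasL2Speed γ) {a b : ℝ} (ha : 0 ≤ a) (hab : a < b)
    (hb : b ≤ 1) : HasL2Speed (subc γ a b) := by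
  obtain ⟨A, hA, hA2, hAd⟩ := h
  have hc : 0 < b - a := sub_pos.2 hab
  have hm : Measurable fun r : ℝ => a + r * (b - a) := by fun_prop
  refine ⟨fun r => ENNReal.ofReal (b - a) * A (a + r * (b - a)), (hA.comp hm).const_mul _, ?_,
    fun s t hst => ?_⟩
  · have h1 := a2a_affine a hc 0 1 (fun r => A r ^ 2) (hA.pow_const 2)
    have h2 : ∀ r : ℝ, (ENNReal.ofReal (b - a) * A (a + r * (b - a))) ^ 2 =
        ENNReal.ofReal (b - a) * (ENNReal.ofReal (b - a) * A (a + r * (b - a)) ^ 2) := fun r => by ring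
    simp only [h2]
    rw [lintegral_const_mul' _ _ ENNReal.ofReal_ne_top, h1]
    refine ENNReal.mul_lt_top ENNReal.ofReal_lt_top (lt_of_le_of_lt ?_ hA2)
    exact lintegral_mono_set (Icc_subset_Icc (by linarith) (by linarith))
  · rw [a2a_affine a hc s t A hA]
    have hin : ∀ u : unitInterval, a + u * (b - a) ∈ Icc (0 : ℝ) 1 := fun u =>
      ⟨by nlinarith [u.2.1], by nlinarith [u.2.2]⟩
    have h1 := hAd ⟨_, hin s⟩ ⟨_, hin t⟩ (by simp only; nlinarith)
    rw [← ext_coe, ← ext_coe] at h1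
    exact h1

/-- Affine change of variables. -/
theorem lintegral_affine {a b : ℝ} (hab : a < b) (F : ℝ → ℝ≥0∞) (hF : Measurable F) :
    ∫⁻ t in Icc (0 : ℝ) 1, ENNReal.ofReal (b - a) * F (a + t * (b - a)) = ∫⁻ r in Icc a b, F r := by
  have h := a2a_affine a (sub_pos.2 hab) 0 1 F hF
  rwa [zero_mul, add_zero, one_mul, add_sub_cancel] at h

theorem a2b_prim {γ : UCurve X} (h : HasL2Speed γ) : ∃ g : ℝ → ℝ, IntervalIntegrable g volume 0 1 ∧
    ∀ x ∈ Icc (0 : ℝ) 1, ∀ y ∈ Icc (0 : ℝ) 1,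
      dist (γ.ext x) (γ.ext y) ≤ |(∫ v in (0 : ℝ)..x, g v) - ∫ v in (0 : ℝ)..y, g v| := by
  obtain ⟨a, ha, ha2, hd⟩ := h
  have hfin : ∫⁻ r in Icc (0 : ℝ) 1, a r ≠ ⊤ := by
    have h1 : ∫⁻ r in Icc (0 : ℝ) 1, a r ≤ ∫⁻ r in Icc (0 : ℝ) 1, (1 + a r ^ 2) := by
      refine lintegral_mono fun r => ?_
      rcases le_total (a r) 1 with h | h
      · exact h.trans le_self_add
      · calc a r = a r * 1 := (mul_one _).symm
          _ ≤ a r * a r := by gcongr
          _ = a r ^ 2 := (sq _).symm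
          _ ≤ _ := le_add_self
    refine ne_top_of_le_ne_top ?_ h1
    rw [lintegral_add_left measurable_const]
    exact ENNReal.add_ne_top.2 ⟨by simp, ha2.ne⟩
  have hint : IntervalIntegrable (fun r => (a r).toReal) volume 0 1 := by
    rw [intervalIntegrable_iff_integrableOn_Icc_of_le zero_le_one]
    exact integrable_toReal_of_lintegral_ne_top ha.aemeasurable hfin
  refine ⟨_, hint, ?_⟩
  have key : ∀ x ∈ Icc (0 : ℝ) 1, ∀ y ∈ Icc (0 : ℝ) 1, x ≤ y → dist (γ.ext x) (γ.ext y) ≤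
      |(∫ v in (0 : ℝ)..x, (a v).toReal) - ∫ v in (0 : ℝ)..y, (a v).toReal| := by
    intro x hx y hy hxy
    have hsub : Icc x y ⊆ Icc (0 : ℝ) 1 := Icc_subset_Icc hx.1 hy.2
    have hf' : ∫⁻ r in Icc x y, a r ≠ ⊤ := ne_top_of_le_ne_top hfin (lintegral_mono_set hsub)
    have i1 : IntervalIntegrable (fun r => (a r).toReal) volume 0 x :=
      hint.mono_set (by rw [uIcc_of_le hx.1, uIcc_of_le zero_le_one]; exact Icc_subset_Icc le_rfl hx.2)
    have i2 : IntervalIntegrable (fun r => (a r).toReal) volume 0 y :=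
      hint.mono_set (by rw [uIcc_of_le hy.1, uIcc_of_le zero_le_one]; exact Icc_subset_Icc le_rfl hy.2)
    rw [abs_sub_comm, intervalIntegral.integral_interval_sub_left i2 i1, intervalIntegral.integral_of_le hxy,
      ← integral_Icc_eq_integral_Ioc, integral_toReal ha.aemeasurable (ae_lt_top ha hf')]
    refine le_trans ?_ (le_abs_self _)
    have := hd ⟨x, hx⟩ ⟨y, hy⟩ hxy
    rw [← ext_coe, ← ext_coe] at this
    rw [dist_edist]
    exact ENNReal.toReal_mono hf' this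
  intro x hx y hy
  rcases le_total x y with hxy | hxy
  · exact key x hx y hy hxy
  · rw [dist_comm, abs_sub_comm]; exact key y hy x hx hxy

theorem a2b_fin {γ : UCurve X} {A : ℝ → ℝ} {r A' : ℝ} (hr : r ∈ Ioo (0 : ℝ) 1) (hA : HasDerivAt A A' r)
    (hd : ∀ x ∈ Icc (0 : ℝ) 1, ∀ y ∈ Icc (0 : ℝ) 1, dist (γ.ext x) (γ.ext y) ≤ |A x - A y|) :
    upperSpeed γ r ≠ ⊤ := by
  have h1 := (hasDerivAt_iff_tendsto_slope.1 hA).abs.eventually (gt_mem_nhds (lt_add_one |A'|))
  have h2 : ∀ᶠ s in 𝓝[≠] r, s ∈ Icc (0 : ℝ) 1 := mem_nhdsWithin_of_mem_nhds (Icc_mem_nhds hr.1 hr.2)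
  refine ne_top_of_le_ne_top (ENNReal.ofReal_ne_top (r := |A'| + 1)) (limsup_le_of_le (by isBoundedDefault) ?_)
  filter_upwards [h1, h2] with s h1 h2
  refine ENNReal.ofReal_le_ofReal (le_trans ?_ h1.le)
  rw [slope_def_field, abs_div]
  exact div_le_div_of_nonneg_right (hd s h2 r (Ioo_subset_Icc_self hr)) (abs_nonneg _)

theorem a2b_deriv {γ : UCurve X} {φ : X → ℝ} {L r u' : ℝ} (hL : 0 ≤ L) (hV : upperSpeed γ r ≠ ⊤)
    (hφ : ∀ y, φ y - φ (γ.ext r) ≤ dist (γ.ext r) y * (L + dist (γ.ext r) y / 2))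
    (hu : HasDerivAt (fun s => φ (γ.ext s)) u' r) : |u'| ≤ L * (upperSpeed γ r).toReal := by
  set v := (upperSpeed γ r).toReal with hv
  have hv0 : 0 ≤ v := ENNReal.toReal_nonneg
  have key : ∀ ε : ℝ, 0 < ε → |u'| ≤ (L + ε) * (v + ε) := by
    intro ε hε
    have h1 : ∀ᶠ s in 𝓝[≠] r, ENNReal.ofReal (dist (γ.ext s) (γ.ext r) / |s - r|) < ENNReal.ofReal (v + ε) := by
      refine eventually_lt_of_limsup_lt ?_
      show upperSpeed γ r < _
      rw [← ENNReal.ofReal_toReal hV]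
      exact (ENNReal.ofReal_lt_ofReal_iff (by linarith)).2 (by linarith)
    have h2 : ∀ᶠ s in 𝓝[≠] r, dist (γ.ext s) (γ.ext r) < ε :=
      mem_nhdsWithin_of_mem_nhds ((continuous_ext_right γ).continuousAt.eventually (ball_mem_nhds _ hε))
    have h3 : ∀ᶠ s in 𝓝[≠] r, φ (γ.ext s) - φ (γ.ext r) ≤ |s - r| * ((L + ε) * (v + ε)) := by
      filter_upwards [h1, h2, self_mem_nhdsWithin] with s h1 h2 h3
      have h4 : 0 < |s - r| := abs_pos.2 (sub_ne_zero.2 h3)
      have h5 := (ENNReal.ofReal_lt_ofReal_iff (by linarith)).1 h1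
      rw [div_lt_iff₀ h4] at h5
      refine (hφ _).trans ?_
      rw [dist_comm]
      have h6 : 0 ≤ dist (γ.ext s) (γ.ext r) := dist_nonneg
      calc _ ≤ (v + ε) * |s - r| * (L + ε) := mul_le_mul h5.le (by linarith) (by linarith) (by positivity)
        _ = _ := by ring
    have hs := hasDerivAt_iff_tendsto_slope.1 hu
    rw [abs_le]
    constructor
    · refine ge_of_tendsto (hs.mono_left (nhdsLT_le_nhdsNE r)) ?_
      filter_upwards [h3.filter_mono (nhdsLT_le_nhdsNE r), self_mem_nhdsWithin] with s h3 h4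
      have h5 : s - r < 0 := sub_neg.2 h4
      rw [slope_def_field, le_div_iff_of_neg h5]
      rw [abs_of_neg h5] at h3
      linarith
    · refine le_of_tendsto (hs.mono_left (nhdsGT_le_nhdsNE r)) ?_
      filter_upwards [h3.filter_mono (nhdsGT_le_nhdsNE r), self_mem_nhdsWithin] with s h3 h4
      have h5 : 0 < s - r := sub_pos.2 h4
      rw [slope_def_field, div_le_iff₀ h5]
      rw [abs_of_pos h5] at h3
      linarith
  have hc : Tendsto (fun ε : ℝ => (L + ε) * (v + ε)) (𝓝[>] 0) (𝓝 (L * v)) := by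
    have : Continuous fun ε : ℝ => (L + ε) * (v + ε) := by fun_prop
    simpa using (this.tendsto 0).mono_left nhdsWithin_le_nhds
  exact ge_of_tendsto hc (eventually_nhdsWithin_of_forall fun ε hε => key ε hε)

/-- One-sided slope bounds integrate along curves with square integrable speed. -/
theorem le_lintegral_of_slope {γ : UCurve X} (h : HasL2Speed γ) (φ ℓ : X → ℝ)
    (hℓ0 : ∀ x, 0 ≤ ℓ x) {C : ℝ} (hℓC : ∀ t, ℓ (γ.ext t) ≤ C)
    (hφ : ∀ x y, φ y - φ x ≤ dist x y * (ℓ x + dist x y / 2))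
    {s t : ℝ} (hs : 0 ≤ s) (hst : s ≤ t) (ht : t ≤ 1) :
    ENNReal.ofReal |φ (γ.ext t) - φ (γ.ext s)| ≤
      ∫⁻ r in Icc s t, ENNReal.ofReal (ℓ (γ.ext r)) * upperSpeed γ r := by
  obtain ⟨g, hg, hd⟩ := a2b_prim h
  set A : ℝ → ℝ := fun x => ∫ v in (0 : ℝ)..x, g v with hA
  have hsub : uIcc s t ⊆ uIcc (0 : ℝ) 1 := by
    rw [uIcc_of_le hst, uIcc_of_le zero_le_one]; exact Icc_subset_Icc hs ht
  have hAC : AbsolutelyContinuousOnInterval A s t :=
    (hg.absolutelyContinuousOnInterval_intervalIntegral (c := 0) left_mem_uIcc).mono hsub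
  obtain ⟨B, hB⟩ := hAC.exists_bound
  have hB0 : 0 ≤ B := (norm_nonneg _).trans (hB s left_mem_uIcc)
  have hC0 : 0 ≤ C := (hℓ0 _).trans (hℓC 0)
  have hI : ∀ x ∈ uIcc s t, x ∈ Icc (0 : ℝ) 1 := fun x hx => by
    have := hsub hx
    rwa [uIcc_of_le zero_le_one] at this
  have hone : ∀ x ∈ uIcc s t, ∀ y ∈ uIcc s t, φ (γ.ext y) - φ (γ.ext x) ≤ (C + B) * |A x - A y| := by
    intro x hx y hy
    have h1 := hd x (hI x hx) y (hI y hy)
    have h2 : |A x - A y| ≤ B + B := (abs_sub _ _).trans (add_le_add (hB x hx) (hB y hy))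
    have h3 := hℓC x
    have h4 := hℓ0 (γ.ext x)
    have h5 : 0 ≤ dist (γ.ext x) (γ.ext y) := dist_nonneg
    refine (hφ _ _).trans ?_
    rw [mul_comm (C + B)]
    exact mul_le_mul h1 (by linarith) (by linarith) (abs_nonneg _)
  have hu : AbsolutelyContinuousOnInterval (fun r => φ (γ.ext r)) s t := by
    have h1 := hAC.const_mul (C + B)
    rw [absolutelyContinuousOnInterval_iff] at h1 ⊢
    intro ε hε
    obtain ⟨δ, hδ, h2⟩ := h1 ε hε
    refine ⟨δ, hδ, fun E hE hl => lt_of_le_of_lt (Finset.sum_le_sum fun i hi => ?_) (h2 E hE hl)⟩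
    obtain ⟨hx, hy⟩ := hE.1 i hi
    rw [Real.dist_eq, Real.dist_eq, ← mul_sub, abs_mul, abs_of_nonneg (by positivity : 0 ≤ C + B), abs_le]
    have h3 := hone _ hx _ hy
    have h4 := hone _ hy _ hx
    rw [abs_sub_comm] at h4
    constructor <;> linarith
  rw [← hu.integral_deriv_eq_sub, intervalIntegral.integral_of_le hst, ← integral_Icc_eq_integral_Ioc,
    ← Real.norm_eq_abs, ofReal_norm]
  refine (enorm_integral_le_lintegral_enorm _).trans (lintegral_mono_ae ?_)
  rw [ae_restrict_iff' measurableSet_Icc]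
  have h0 : ∀ᵐ r : ℝ, r ≠ 0 := by simp [ae_iff]
  have h1 : ∀ᵐ r : ℝ, r ≠ 1 := by simp [ae_iff]
  filter_upwards [hu.ae_differentiableAt, hAC.ae_differentiableAt, h0, h1] with r d1 d2 h0 h1 hr
  have hr' : r ∈ uIcc s t := by rwa [uIcc_of_le hst]
  have hr1 : r ∈ Ioo (0 : ℝ) 1 := ⟨lt_of_le_of_ne (hI r hr').1 h0.symm, lt_of_le_of_ne (hI r hr').2 h1⟩
  have hV := a2b_fin hr1 (d2 hr').hasDerivAt hd
  have := a2b_deriv (hℓ0 (γ.ext r)) hV (hφ _) (d1 hr').hasDerivAt
  rw [← ofReal_norm, Real.norm_eq_abs]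
  refine (ENNReal.ofReal_le_ofReal this).trans_eq ?_
  rw [ENNReal.ofReal_mul (hℓ0 _), ENNReal.ofReal_toReal hV]

/-- `le_lintegral_of_slope` with `φ = dist · (γ s)`, `ℓ = 1`. -/
theorem edist_le_upperSpeed {γ : UCurve X} (h : HasL2Speed γ) {s t : ℝ} (hs : 0 ≤ s)
    (hst : s ≤ t) (ht : t ≤ 1) :
    ENNReal.ofReal (dist (γ.ext s) (γ.ext t)) ≤ ∫⁻ r in Icc s t, upperSpeed γ r := by
  have := le_lintegral_of_slope h (fun x => dist (γ.ext s) x) (fun _ => 1) (fun _ => zero_le_one) (C := 1)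
    (fun _ => le_rfl) (fun x y => by
      have h1 := dist_triangle (γ.ext s) x y
      have h2 : 0 ≤ dist x y := dist_nonneg
      nlinarith [mul_nonneg h2 h2]) hs hst ht
  simpa using this

end Crest.Agent.R242
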