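import Crest.Agent.R242.Defs

/-! Block A3: two lemmas on the real line.
`line_iInf`: first two functions, on every rational subinterval: approximate `E = {a₀ < a₁}` in the
finite measure `(a₀ + a₁) dt` by a finite union of cells of the partition of `[s,t]` into `n` equal
pieces (or: dyadic/uniform conditional expectations; or extend `u` to an absolutely continuous
function and use Lebesgue differentiation + FTC), use `a₀` on these cells and `a₁` on the others;
iterate to `min (a 0) … (a k)`, then `lintegral_iInf_ae` / dominated convergence.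
`line_chain`: cut `[0,1]` into `n` equal cells `I_i` with left ends `t_i`, `ω = max ∫_{I_i} a → 0`;
`|u| ≤ |u 0| + ∫ a` at rational points and a.e.; mean value theorem and uniform continuity of `φ'`
on a compact interval: `|φ(u t_{i+1}) - φ(u t_i)| ≤ (|φ'(u t)| + ε) ∫_{I_i} a` for a.e. `t ∈ I_i`. -/

set_option autoImplicit false
set_option linter.unusedSectionVars false
set_option linter.unusedVariables false
open MeasureTheory Filter Set Metric
open scoped ENNReal NNReal Topology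
open Crest.GeometryTopology.SyntheticRicci

noncomputable section
namespace Crest.Agent.R242

/-- `a` is an admissible upper bound for the increments of `u` between rational points -/
def A3aP (u : ℝ → ℝ) (a : ℝ → ℝ≥0∞) : Prop :=
  Measurable a ∧ ∫⁻ t in Icc (0 : ℝ) 1, a t ≠ ⊤ ∧ ∀ s t : ℚ, 0 ≤ s → s ≤ t → t ≤ 1 →
    ENNReal.ofReal |u t - u s| ≤ ∫⁻ r in Icc (s : ℝ) t, a r

theorem a3a_sub {s t : ℚ} (hs : 0 ≤ s) (ht : t ≤ 1) : Icc (s : ℝ) t ⊆ Icc (0 : ℝ) 1 :=
  Icc_subset_Icc (by exact_mod_cast hs) (by exact_mod_cast ht)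

theorem a3a_fin {a b c : ℝ → ℝ≥0∞} (ha : Measurable a) (h₁ : ∫⁻ t in Icc (0 : ℝ) 1, a t ≠ ⊤)
    (h₂ : ∫⁻ t in Icc (0 : ℝ) 1, b t ≠ ⊤) (h : ∀ x, c x ≤ a x + b x) :
    ∫⁻ t in Icc (0 : ℝ) 1, c t ≠ ⊤ := by
  refine ne_top_of_le_ne_top (ENNReal.add_ne_top.2 ⟨h₁, h₂⟩) ?_
  rw [← lintegral_add_left ha]
  exact lintegral_mono h

theorem a3a_lim {u : ℝ → ℝ} {f : ℕ → ℝ → ℝ≥0∞} {g b : ℝ → ℝ≥0∞} (hf : ∀ n, A3aP u (f n))
    (hb : ∫⁻ t in Icc (0 : ℝ) 1, b t ≠ ⊤) (hfb : ∀ n x, f n x ≤ b x)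
    (hl : ∀ x, Tendsto (fun n => f n x) atTop (𝓝 (g x))) : A3aP u g := by
  refine ⟨measurable_of_tendsto_metrizable (fun n => (hf n).1) (tendsto_pi_nhds.2 hl),
    ne_top_of_le_ne_top hb (lintegral_mono fun x => le_of_tendsto' (hl x) fun n => hfb n x),
    fun s t hs hst ht => ?_⟩
  refine ge_of_tendsto' (tendsto_lintegral_of_dominated_convergence
    (μ := volume.restrict (Icc (s : ℝ) t)) b (fun n => (hf n).1)
    (fun n => Eventually.of_forall (hfb n))
    (ne_top_of_le_ne_top hb (lintegral_mono_set (a3a_sub hs ht))) (Eventually.of_forall hl))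
    fun n => (hf n).2.2 s t hs hst ht

theorem a3a_glue {u : ℝ → ℝ} {a b c : ℝ → ℝ≥0∞} (ha : A3aP u a) (hb : A3aP u b) (q : ℚ)
    (h₁ : ∀ x : ℝ, x < q → c x = a x) (h₂ : ∀ x : ℝ, (q : ℝ) ≤ x → c x = b x)
    {s t : ℚ} (hs : 0 ≤ s) (hst : s ≤ t) (ht : t ≤ 1) :
    ENNReal.ofReal |u t - u s| ≤ ∫⁻ r in Icc (s : ℝ) t, c r := by
  have e₁ : ∀ s t : ℚ, t ≤ q → ∫⁻ r in Icc (s : ℝ) t, a r = ∫⁻ r in Ico (s : ℝ) t, c r := by
    intro s t htq
    rw [← restrict_Ico_eq_restrict_Icc]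
    refine setLIntegral_congr_fun measurableSet_Ico fun x hx => (h₁ x (hx.2.trans_le ?_)).symm
    exact_mod_cast htq
  have e₂ : ∀ s t : ℚ, q ≤ s → ∫⁻ r in Icc (s : ℝ) t, b r = ∫⁻ r in Icc (s : ℝ) t, c r := by
    intro s t hqs
    refine setLIntegral_congr_fun measurableSet_Icc fun x hx => (h₂ x (le_trans ?_ hx.1)).symm
    exact_mod_cast hqs
  rcases le_total t q with htq | hqt
  · refine (ha.2.2 s t hs hst ht).trans ?_
    rw [e₁ s t htq]
    exact lintegral_mono_set Ico_subset_Icc_self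
  rcases le_total q s with hqs | hsq
  · rw [← e₂ s t hqs]
    exact hb.2.2 s t hs hst ht
  have p₁ := ha.2.2 s q hs hsq (hqt.trans ht)
  have p₂ := hb.2.2 q t (hs.trans hsq) hqt ht
  rw [e₁ s q le_rfl] at p₁
  rw [e₂ q t le_rfl] at p₂
  rw [← Ico_union_Icc_eq_Icc (show (s : ℝ) ≤ q by exact_mod_cast hsq)
    (show (q : ℝ) ≤ t by exact_mod_cast hqt),
    lintegral_union measurableSet_Icc (disjoint_left.2 fun x hx hx' => hx.2.not_ge hx'.1)]
  refine le_trans ?_ (add_le_add p₁ p₂)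
  rw [← ENNReal.ofReal_add (abs_nonneg _) (abs_nonneg _)]
  refine ENNReal.ofReal_le_ofReal ?_
  have := abs_sub_le (u t) (u q) (u s)
  linarith

open Classical in
theorem a3a_piecewise (u : ℝ → ℝ) {E : Set ℝ} (hE : MeasurableSet E) :
    ∀ a b : ℝ → ℝ≥0∞, A3aP u a → A3aP u b → A3aP u fun x => if x ∈ E then a x else b x := by
  have hle : ∀ (E : Set ℝ) (a b : ℝ → ℝ≥0∞) (x : ℝ), (if x ∈ E then a x else b x) ≤ a x + b x := by
    intro E a b x
    split_ifs
    · exact le_self_add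
    · exact le_add_self
  have hE' : MeasurableSet[MeasurableSpace.generateFrom (⋃ q : ℚ, {Iio (q : ℝ)})] E := by
    rw [← Real.borel_eq_generateFrom_Iio_rat, ← BorelSpace.measurable_eq (α := ℝ)]
    exact hE
  clear hE
  induction E, hE' using MeasurableSpace.generateFrom_induction with
  | hC E hE _ =>
    obtain ⟨q, hq⟩ := mem_iUnion.1 hE
    obtain rfl : E = Iio (q : ℝ) := hq
    intro a b ha hb
    exact ⟨Measurable.ite measurableSet_Iio ha.1 hb.1, a3a_fin ha.1 ha.2.1 hb.2.1 (hle _ a b),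
      fun s t hs hst ht => a3a_glue ha hb q (fun x hx => if_pos hx) (fun x hx => if_neg hx.not_gt)
        hs hst ht⟩
  | empty =>
    intro a b _ hb
    simpa using hb
  | compl E _ ih =>
    intro a b ha hb
    simpa using ih b a hb ha
  | iUnion E _ ih =>
    intro a b ha hb
    have step : ∀ n : ℕ, A3aP u fun x => if ∃ i < n, x ∈ E i then a x else b x := by
      intro n
      induction n with
      | zero => simpa using hb
      | succ n ihn =>
        convert ih n a _ ha ihn using 2 with x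
        by_cases hx : x ∈ E n
        · rw [if_pos hx, if_pos ⟨n, n.lt_succ_self, hx⟩]
        · rw [if_neg hx]
          refine if_congr ⟨?_, fun ⟨i, hi, h⟩ => ⟨i, hi.trans n.lt_succ_self, h⟩⟩ rfl rfl
          rintro ⟨i, hi, h⟩
          rcases Nat.lt_succ_iff_lt_or_eq.1 hi with hi | rfl
          · exact ⟨i, hi, h⟩
          · exact absurd h hx
    refine a3a_lim (b := fun x => a x + b x) step (a3a_fin ha.1 ha.2.1 hb.2.1 fun x => le_rfl)
      (fun n x => by split_ifs; exacts [le_self_add, le_add_self]) fun x => ?_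
    by_cases hx : x ∈ ⋃ i, E i
    · rw [if_pos hx]
      obtain ⟨i, hi⟩ := mem_iUnion.1 hx
      refine tendsto_const_nhds.congr' ?_
      filter_upwards [eventually_gt_atTop i] with n hn
      rw [if_pos ⟨i, hn, hi⟩]
    · rw [if_neg hx]
      refine tendsto_const_nhds.congr fun n => ?_
      rw [if_neg fun ⟨i, _, hi⟩ => hx (mem_iUnion.2 ⟨i, hi⟩)]

theorem a3a_min {u : ℝ → ℝ} {a b : ℝ → ℝ≥0∞} (ha : A3aP u a) (hb : A3aP u b) :
    A3aP u fun x => min (a x) (b x) := by
  convert a3a_piecewise u (measurableSet_le ha.1 hb.1) a b ha hb using 2 with x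
  rw [min_def]
  congr 1

theorem line_iInf (u : ℝ → ℝ) (a : ℕ → ℝ → ℝ≥0∞) (ha : ∀ k, Measurable (a k))
    (hfin : ∀ k, ∫⁻ t in Icc (0 : ℝ) 1, a k t ≠ ⊤)
    (h : ∀ k, ∀ s t : ℚ, 0 ≤ s → s ≤ t → t ≤ 1 →
      ENNReal.ofReal |u t - u s| ≤ ∫⁻ r in Icc (s : ℝ) t, a k r) :
    ENNReal.ofReal |u 1 - u 0| ≤ ∫⁻ r in Icc (0 : ℝ) 1, ⨅ k, a k r := by
  have hP : ∀ k, A3aP u (a k) := fun k => ⟨ha k, hfin k, h k⟩
  obtain ⟨m, m0, ms⟩ : ∃ m : ℕ → ℝ → ℝ≥0∞, m 0 = a 0 ∧
      ∀ k, m (k + 1) = fun x => min (m k x) (a (k + 1) x) :=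
    ⟨fun k => Nat.rec (a 0) (fun k f x => min (f x) (a (k + 1) x)) k, rfl, fun _ => rfl⟩
  have hm : ∀ k, A3aP u (m k) := fun k => by
    induction k with
    | zero => rw [m0]; exact hP 0
    | succ k ih => rw [ms]; exact a3a_min ih (hP _)
  have anti : ∀ x, Antitone fun k => m k x := fun x =>
    antitone_nat_of_succ_le fun k => by rw [ms]; exact min_le_left _ _
  have e : ∀ x, ⨅ k, m k x = ⨅ k, a k x := fun x => by
    refine le_antisymm (iInf_mono fun k => ?_) (le_iInf fun k => ?_)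
    · cases k with
      | zero => rw [m0]
      | succ k => rw [ms]; exact min_le_right _ _
    · induction k with
      | zero => rw [m0]; exact iInf_le _ 0
      | succ k ih => rw [ms]; exact le_min ih (iInf_le _ (k + 1))
  have := (a3a_lim (g := fun x => ⨅ k, a k x) hm (hm 0).2.1 (fun n x => anti x (Nat.zero_le n))
    fun x => e x ▸ tendsto_atTop_iInf (anti x)).2.2 0 1 le_rfl zero_le_one le_rfl
  simpa using this

theorem a3b_split (g : ℝ → ℝ≥0∞) {x y z : ℝ} (h1 : x ≤ y) (h2 : y ≤ z) :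
    (∫⁻ t in Icc x y, g t) + ∫⁻ t in Icc y z, g t = ∫⁻ t in Icc x z, g t := by
  rw [← setLIntegral_congr (Ioc_ae_eq_Icc (a := y) (b := z)), ← Icc_union_Ioc_eq_Icc h1 h2,
    lintegral_union measurableSet_Ioc (Set.disjoint_left.2 fun t h h' => not_lt.2 h.2 h'.1)]

theorem a3b_cell {u : ℝ → ℝ} {a : ℝ → ℝ≥0∞} (ha : Measurable a) {φ φ' : ℝ → ℝ}
    (hφ : ∀ z, HasDerivAt φ (φ' z) z) {s s' ε δ : ℝ} (hε : 0 ≤ ε) (hδ0 : 0 ≤ δ)
    (hδ : ∀ z, |z - u s| ≤ δ → |φ' z - φ' (u s)| ≤ ε)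
    (hω : ∫⁻ r in Icc s s', a r ≤ ENNReal.ofReal δ)
    (h1 : ENNReal.ofReal |u s' - u s| ≤ ∫⁻ r in Icc s s', a r)
    (h2 : ∀ᵐ t ∂(volume.restrict (Icc s s')),
      ENNReal.ofReal |u t - u s| ≤ ∫⁻ r in Icc s t, a r) :
    ENNReal.ofReal |φ (u s') - φ (u s)| ≤
      ∫⁻ t in Icc s s', (ENNReal.ofReal |φ' (u t)| + ENNReal.ofReal (2 * ε)) * a t := by
  have k := (convex_closedBall (u s) δ).norm_image_sub_le_of_norm_hasDerivWithin_le
    (f := φ) (f' := φ') (C := |φ' (u s)| + ε) (fun z _ => (hφ z).hasDerivWithinAt)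
    (fun z hz => by
      have := abs_sub_abs_le_abs_sub (φ' z) (φ' (u s))
      have := hδ z hz
      rw [Real.norm_eq_abs]
      linarith) (mem_closedBall_self hδ0) (y := u s')
    ((ENNReal.ofReal_le_ofReal_iff hδ0).1 (h1.trans hω))
  refine (ENNReal.ofReal_le_ofReal k).trans ?_
  rw [ENNReal.ofReal_mul (by positivity)]
  refine (mul_le_mul_right h1 _).trans ?_
  rw [← lintegral_const_mul _ ha]
  refine lintegral_mono_ae ?_
  filter_upwards [h2, ae_restrict_mem measurableSet_Icc] with t ht ht'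
  have k2 := hδ _ ((ENNReal.ofReal_le_ofReal_iff hδ0).1
    ((ht.trans (lintegral_mono_set (Icc_subset_Icc_right ht'.2))).trans hω))
  have k3 := abs_sub_abs_le_abs_sub (φ' (u s)) (φ' (u t))
  rw [abs_sub_comm] at k3
  rw [← ENNReal.ofReal_add (abs_nonneg _) (by positivity)]
  exact mul_le_mul_left (ENNReal.ofReal_le_ofReal (by linarith)) _

theorem line_chain (u : ℝ → ℝ) (hu : Measurable u) (a : ℝ → ℝ≥0∞) (ha : Measurable a)
    (hfin : ∫⁻ t in Icc (0 : ℝ) 1, a t ≠ ⊤)
    (h₁ : ∀ s t : ℚ, 0 ≤ s → s ≤ t → t ≤ 1 →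
      ENNReal.ofReal |u t - u s| ≤ ∫⁻ r in Icc (s : ℝ) t, a r)
    (h₂ : ∀ s : ℚ, 0 ≤ s → s ≤ 1 → ∀ᵐ t ∂(volume.restrict (Icc (0 : ℝ) 1)), (s : ℝ) ≤ t →
      ENNReal.ofReal |u t - u s| ≤ ∫⁻ r in Icc (s : ℝ) t, a r)
    (φ φ' : ℝ → ℝ) (hφ : ∀ z, HasDerivAt φ (φ' z) z) (hc : Continuous φ') :
    ENNReal.ofReal |φ (u 1) - φ (u 0)| ≤
      ∫⁻ t in Icc (0 : ℝ) 1, ENNReal.ofReal |φ' (u t)| * a t := by
  refine ENNReal.le_of_forall_pos_le_add fun e he _ => ?_
  obtain ⟨A, hA⟩ : ∃ A : ℝ, A = (∫⁻ t in Icc (0 : ℝ) 1, a t).toReal := ⟨_, rfl⟩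
  have hA0 : 0 ≤ A := hA ▸ ENNReal.toReal_nonneg
  have hA' : ∫⁻ t in Icc (0 : ℝ) 1, a t = ENNReal.ofReal A := by rw [hA, ENNReal.ofReal_toReal hfin]
  obtain ⟨ε, hε⟩ : ∃ ε : ℝ, ε = e / (2 * (A + 1)) := ⟨_, rfl⟩
  have hε0 : 0 < ε := hε ▸ by positivity
  obtain ⟨δ, hδ0, hδ⟩ := Metric.mem_uniformity_dist.1
    ((isCompact_closedBall (u 0) A).uniformContinuousAt_of_continuousAt φ'
      (fun _ _ => hc.continuousAt) (Metric.dist_mem_uniformity hε0))
  obtain ⟨η, hη0, hη⟩ := exists_pos_setLIntegral_lt_of_measure_lt hfin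
    (ε := ENNReal.ofReal (δ / 2)) (by simpa using hδ0)
  obtain ⟨n, hn⟩ := ENNReal.exists_inv_nat_lt hη0.ne'
  have hn' : ((n + 1 : ℕ) : ℝ≥0∞)⁻¹ < η :=
    (ENNReal.inv_le_inv.2 (by exact_mod_cast n.le_succ)).trans_lt hn
  have hN : (0 : ℚ) < n + 1 := by positivity
  have key : ∀ k : ℕ, k ≤ n + 1 →
      ENNReal.ofReal |φ (u ((k : ℚ) / (n + 1) : ℚ)) - φ (u 0)| ≤
        ∫⁻ t in Icc (0 : ℝ) ((k : ℚ) / (n + 1) : ℚ),
          (ENNReal.ofReal |φ' (u t)| + ENNReal.ofReal (2 * ε)) * a t := by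
    intro k
    induction k with
    | zero => intro _; simp
    | succ k ih =>
      intro hk
      obtain ⟨s, hs⟩ : ∃ s : ℚ, s = (k : ℚ) / (n + 1) := ⟨_, rfl⟩
      obtain ⟨s', hs'⟩ : ∃ s' : ℚ, s' = ((k + 1 : ℕ) : ℚ) / (n + 1) := ⟨_, rfl⟩
      have s0 : 0 ≤ s := hs ▸ by positivity
      have s1 : s ≤ s' := by rw [hs, hs']; gcongr; exact k.le_succ
      have s2 : s' ≤ 1 := by rw [hs', div_le_one hN]; exact_mod_cast hk
      have r0 : (0 : ℝ) ≤ s := by exact_mod_cast s0
      have r1 : (s : ℝ) ≤ s' := by exact_mod_cast s1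
      have r2 : (s' : ℝ) ≤ 1 := by exact_mod_cast s2
      have hsub : Icc (s : ℝ) s' ⊆ Icc 0 1 := Icc_subset_Icc r0 r2
      have ih' := ih (k.le_succ.trans hk)
      rw [← hs] at ih'
      rw [← hs', ← a3b_split _ r0 r1]
      refine ((ENNReal.ofReal_le_ofReal (abs_sub_le _ (φ (u s)) _)).trans
        ENNReal.ofReal_add_le).trans ?_
      rw [add_comm]
      refine add_le_add ih' (a3b_cell ha hφ hε0.le (half_pos hδ0).le (fun z hz => ?_) ?_
        (h₁ s s' s0 s1 s2) ?_)
      · have hm : u s ∈ closedBall (u 0) A := by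
          have := (h₁ 0 s le_rfl s0 (s1.trans s2)).trans
            (lintegral_mono_set (Icc_subset_Icc (a₂ := 0) (by simp) (r1.trans r2)))
          rw [hA', ENNReal.ofReal_le_ofReal_iff hA0, Rat.cast_zero] at this
          exact this
        have := hδ (a := u s) (b := z) (by rw [Real.dist_eq, abs_sub_comm]; linarith) hm
        rw [abs_sub_comm]
        exact le_of_lt this
      · have := hη (Icc (s : ℝ) s') (by
          refine lt_of_le_of_lt ((Measure.restrict_le_self _).trans_eq ?_) hn'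
          rw [Real.volume_Icc, ← ENNReal.ofReal_natCast, ← ENNReal.ofReal_inv_of_pos (by positivity),
            hs, hs']
          congr 1
          push_cast
          field_simp
          ring)
        rw [Measure.restrict_restrict measurableSet_Icc, inter_eq_left.2 hsub] at this
        exact this.le
      · filter_upwards [ae_restrict_of_ae_restrict_of_subset hsub (h₂ s s0 (s1.trans s2)),
          ae_restrict_mem measurableSet_Icc] with t ht ht'
        exact ht ht'.1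
  have h := key (n + 1) le_rfl
  rw [show (((n + 1 : ℕ) : ℚ) / (n + 1) : ℚ) = 1 by push_cast; exact div_self hN.ne',
    Rat.cast_one] at h
  simp only [add_mul] at h
  rw [lintegral_add_right _ (ha.const_mul _), lintegral_const_mul _ ha, hA',
    ← ENNReal.ofReal_mul (by positivity)] at h
  refine h.trans (add_le_add_right ?_ _)
  rw [← ENNReal.ofReal_coe_nnreal]
  refine ENNReal.ofReal_le_ofReal ?_
  have : 2 * ε * (A + 1) = e := by rw [hε]; field_simp
  linarith

theorem a3c_slope {φ : ℝ → ℝ} {d r : ℝ} (hφ : HasDerivAt φ d 0) (h0 : φ 0 = 0) (hr : d < r) :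
    ∀ᶠ k in 𝓝[>] (0 : ℝ), φ k ≤ k * r := by
  have h1 := hφ.tendsto_slope_zero_right.eventually (gt_mem_nhds hr)
  filter_upwards [h1, self_mem_nhdsWithin] with k hk hk0
  have hk0' : (0 : ℝ) < k := hk0
  simp only [zero_add, h0, sub_zero, smul_eq_mul] at hk
  rw [inv_mul_lt_iff₀ hk0'] at hk
  exact hk.le

theorem a3c_core {G : ℝ → ℝ} {a b : ℝ} (hab : a ≤ b) (hG : ContinuousOn G (Icc a b))
    (h : ∀ s ∈ Ioo a b, ∀ η : ℝ, 0 < η → ∀ᶠ k in 𝓝[>] (0 : ℝ), G (s + k) - G s ≤ k * η) :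
    G b ≤ G a := by
  rcases hab.eq_or_lt with rfl | hlt
  · exact le_rfl
  have h1 : ∀ a' ∈ Ioo a b, G b ≤ G a' := by
    intro a' ha'
    have key := image_le_of_liminf_slope_right_le_deriv_boundary (f := G) (a := a') (b := b)
      (hG.mono (Icc_subset_Icc_left ha'.1.le)) (B := fun _ => G a') (B' := fun _ => 0) le_rfl
      continuousOn_const (fun x _ => (hasDerivAt_const x _).hasDerivWithinAt) ?_
    · exact key ⟨ha'.2.le, le_rfl⟩
    intro x hx r hr
    have h2 := h x ⟨ha'.1.trans_le hx.1, hx.2⟩ (r / 2) (by linarith)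
    have h3 : Tendsto (fun z : ℝ => z - x) (𝓝[>] x) (𝓝[>] 0) := by
      apply tendsto_nhdsWithin_iff.2
      refine ⟨?_, ?_⟩
      · have : Tendsto (fun z : ℝ => z - x) (𝓝 x) (𝓝 (x - x)) :=
          (continuous_id.sub continuous_const).tendsto x
        rw [sub_self] at this
        exact this.mono_left nhdsWithin_le_nhds
      · filter_upwards [self_mem_nhdsWithin] with z hz
        exact sub_pos.2 (show x < z from hz)
    apply Filter.Eventually.frequently
    filter_upwards [h3.eventually h2, self_mem_nhdsWithin] with z hz hz0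
    have hz1 : 0 < z - x := sub_pos.2 hz0
    rw [slope_def_field, div_lt_iff₀ hz1]
    rw [add_sub_cancel] at hz
    nlinarith
  have h4 : Tendsto G (𝓝[Ioo a b] a) (𝓝 (G a)) :=
    (hG a ⟨le_rfl, hab⟩).mono_left (nhdsWithin_mono _ Ioo_subset_Icc_self)
  have : (𝓝[Ioo a b] a).NeBot := left_nhdsWithin_Ioo_neBot hlt
  exact ge_of_tendsto h4 (eventually_nhdsWithin_of_forall h1)

theorem a3c_core_left {G : ℝ → ℝ} {a b : ℝ} (hab : a ≤ b) (hG : ContinuousOn G (Icc a b))
    (h : ∀ s ∈ Ioo a b, ∀ η : ℝ, 0 < η → ∀ᶠ k in 𝓝[>] (0 : ℝ), G s - G (s - k) ≤ k * η) :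
    G b ≤ G a := by
  have key := a3c_core (G := fun r => -G (-r)) (a := -b) (b := -a) (neg_le_neg hab) ?_ ?_
  · simpa using key
  · refine (hG.comp continuous_neg.continuousOn ?_).neg
    intro x hx
    exact ⟨by linarith [hx.2], by linarith [hx.1]⟩
  · intro s hs η hη
    filter_upwards [h (-s) ⟨by linarith [hs.2], by linarith [hs.1]⟩ η hη] with k hk
    have e : -(s + k) = -s - k := by ring
    rw [e]
    linarith

theorem a3c_ext {e : ℝ → ℝ} {a b : ℝ} (hab : a ≤ b) (he : ContinuousOn e (Icc a b)) :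
    ∃ E : ℝ → ℝ, Continuous E ∧ ∀ x ∈ Icc a b, E x = e x := by
  refine ⟨fun x => e (projIcc a b hab x), ?_, fun x hx => by
    simp only [projIcc_of_mem hab hx]⟩
  exact he.comp_continuous (continuous_subtype_val.comp continuous_projIcc)
    (fun x => (projIcc a b hab x).2)

/-- Left Dini derivative lemma: reverse time and use
`image_le_of_liminf_slope_right_le_deriv_boundary` for
`r ↦ -(exp (-c (b - r)) W (b - r) - ∫ x in a..(b - r), exp (-c x) e x)` (add `η r`). -/
theorem dini_left {W e : ℝ → ℝ} {a b c : ℝ} (hab : a ≤ b) (hW : ContinuousOn W (Icc a b))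
    (he : ContinuousOn e (Icc a b))
    (h : ∀ s ∈ Ioc a b, ∀ η : ℝ, 0 < η →
      ∀ᶠ k in 𝓝[>] (0 : ℝ), W s - W (s - k) ≤ k * (c * W s + e s + η)) :
    W b ≤ Real.exp (c * (b - a)) * W a + ∫ x in a..b, Real.exp (c * (b - x)) * e x := by
  obtain ⟨E, hE, hEe⟩ := a3c_ext hab he
  have hc : Continuous fun x => Real.exp (c * (b - x)) * E x := by fun_prop
  set F : ℝ → ℝ := fun u => ∫ x in a..u, Real.exp (c * (b - x)) * E x with hF
  have hFd : ∀ u, HasDerivAt F (Real.exp (c * (b - u)) * E u) u := fun u =>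
    (hc.integral_hasStrictDerivAt a u).hasDerivAt
  have hFc : Continuous F := continuous_iff_continuousAt.2 fun u => (hFd u).continuousAt
  have key := a3c_core_left (G := fun s => Real.exp (c * (b - s)) * W s - F s) hab
    ((ContinuousOn.mul (by fun_prop) hW).sub hFc.continuousOn) ?_
  · have e1 : F a = 0 := by simp [hF]
    have e2 : F b = ∫ x in a..b, Real.exp (c * (b - x)) * e x := by
      apply intervalIntegral.integral_congr
      intro x hx
      rw [uIcc_of_le hab] at hx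
      simp only [hEe x hx]
    simp only [e1, e2, sub_self, mul_zero, Real.exp_zero, one_mul, sub_zero] at key
    linarith
  intro s hs η hη
  set p := Real.exp (c * (b - s)) with hp
  have hp0 : 0 < p := Real.exp_pos _
  have hη' : 0 < η / 2 / p := by positivity
  set q := c * W s + e s + η / 2 / p with hq
  have hd1 : HasDerivAt (fun k : ℝ => Real.exp (c * (b - (s - k)))) (p * c) 0 := by
    have h1 : HasDerivAt (fun k : ℝ => c * (b - (s - k))) c 0 := by
      have := (((hasDerivAt_id (0 : ℝ)).const_sub s).const_sub b).const_mul c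
      simpa using this
    have := h1.exp
    simpa [hp] using this
  have hd2 : HasDerivAt (fun k : ℝ => W s - k * q) (-q) 0 := by
    have := ((hasDerivAt_id (0 : ℝ)).mul_const q).const_sub (W s)
    simpa using this
  have hd3 : HasDerivAt (fun k : ℝ => F (s - k)) (-(p * E s)) 0 := by
    have h1 : HasDerivAt (fun k : ℝ => s - k) (-1) 0 := by
      simpa using (hasDerivAt_id (0 : ℝ)).const_sub s
    have h2 : HasDerivAt F (p * E s) (s - 0) := by rw [sub_zero]; exact hFd s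
    have := h2.comp (0 : ℝ) h1
    simpa [Function.comp_def] using this
  have hd : HasDerivAt (fun k : ℝ => p * W s - F s -
      (Real.exp (c * (b - (s - k))) * (W s - k * q) - F (s - k))) (η / 2) 0 := by
    have := ((hd1.mul hd2).sub hd3).const_sub (p * W s - F s)
    refine HasDerivAt.congr_deriv this ?_
    simp only [sub_zero, zero_mul, ← hp]
    rw [hEe s ⟨hs.1.le, hs.2.le⟩, hq]
    field_simp
    ring
  have h5 := a3c_slope hd (by simp [hp]) (by linarith : η / 2 < η)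
  filter_upwards [h5, h s ⟨hs.1, hs.2.le⟩ _ hη'] with k hk1 hk2
  have h6 : Real.exp (c * (b - (s - k))) * (W s - k * q) ≤
      Real.exp (c * (b - (s - k))) * W (s - k) :=
    mul_le_mul_of_nonneg_left (by linarith) (Real.exp_pos _).le
  linarith

/-- Right Dini derivative lemma, hypothesis only in the open interval. -/
theorem dini_right {A e : ℝ → ℝ} {a b : ℝ} (hab : a ≤ b) (hA : ContinuousOn A (Icc a b))
    (he : ContinuousOn e (Icc a b))
    (h : ∀ s ∈ Ioo a b, ∀ η : ℝ, 0 < η →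
      ∀ᶠ k in 𝓝[>] (0 : ℝ), A (s + k) - A s ≤ k * (e s + η)) :
    A b - A a ≤ ∫ x in a..b, e x := by
  obtain ⟨E, hE, hEe⟩ := a3c_ext hab he
  set F : ℝ → ℝ := fun u => ∫ x in a..u, E x with hF
  have hFd : ∀ u, HasDerivAt F (E u) u := fun u => (hE.integral_hasStrictDerivAt a u).hasDerivAt
  have hFc : Continuous F := continuous_iff_continuousAt.2 fun u => (hFd u).continuousAt
  have key := a3c_core (G := fun s => A s - F s) hab (hA.sub hFc.continuousOn) ?_
  · have e1 : F a = 0 := by simp [hF]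
    have e2 : F b = ∫ x in a..b, e x := by
      apply intervalIntegral.integral_congr
      intro x hx
      rw [uIcc_of_le hab] at hx
      exact hEe x hx
    simp only [e1, e2, sub_zero] at key
    linarith
  intro s hs η hη
  have hd3 : HasDerivAt (fun k : ℝ => F (s + k)) (E s) 0 := by
    have h1 : HasDerivAt (fun k : ℝ => s + k) 1 0 := by
      simpa using (hasDerivAt_id (0 : ℝ)).const_add s
    have h2 : HasDerivAt F (E s) (s + 0) := by rw [add_zero]; exact hFd s
    have := h2.comp (0 : ℝ) h1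
    simpa [Function.comp_def] using this
  have hd : HasDerivAt (fun k : ℝ => k * (e s + η / 2) - (F (s + k) - F s)) (η / 2) 0 := by
    have := ((hasDerivAt_id (0 : ℝ)).mul_const (e s + η / 2)).sub (hd3.sub_const (F s))
    refine HasDerivAt.congr_deriv this ?_
    rw [hEe s ⟨hs.1.le, hs.2.le⟩]
    ring
  have h5 := a3c_slope hd (by simp) (by linarith : η / 2 < η)
  filter_upwards [h5, h s hs (η / 2) (by linarith)] with k hk1 hk2
  linarith

end Crest.Agent.R242
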