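import Crest.Agent.R242.Defs

/-! Block A4: cutoffs and measure-theoretic tools on a proper metric space.
`ae_eq_zero_of_open`: on a ball the finite measures `g⁺ m`, `g⁻ m` agree on the π-system of open
sets (`ext_of_generate_finite`), or outer regularity.  `ae_eq_zero_on_open`: for `U` open with
compact closure in `W`, `min 1 (n · infDist x Uᶜ) ↑ 1_U` (if `Uᶜ = ∅` take `1`).
`exists_lip_approx`: `Integrable.exists_hasCompactSupport_integral_sub_le`, then inf-convolution
`inf_y ψ y + k d(x,y)` times a cutoff (or regularity + `cut`-like functions of `infDist`).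
`measure_le_of_cont`: compact sets via `cut`-like functions `max 0 (1 - n infDist x K)`, inner
regularity of `μ`. -/

set_option autoImplicit false
set_option linter.unusedSectionVars false
set_option linter.unusedVariables false
open MeasureTheory Filter Set Metric
open scoped ENNReal NNReal Topology
open Crest.GeometryTopology.SyntheticRicci

noncomputable section
namespace Crest.Agent.R242

variable {X : Type*} [MetricSpace X] [MeasurableSpace X] [BorelSpace X] [ProperSpace X]
  {m : Measure X} [IsFiniteMeasureOnCompacts m] [m.IsOpenPosMeasure]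

theorem cut_nonneg (o : X) (r d : ℝ) (x : X) : 0 ≤ cut o r d x := le_max_left _ _

theorem cut_le_one (o : X) (r d : ℝ) (x : X) : cut o r d x ≤ 1 :=
  max_le zero_le_one (min_le_left _ _)

theorem cut_eq_one {o x : X} {r d : ℝ} (hd : 0 < d) (hx : dist x o ≤ r) : cut o r d x = 1 := by
  unfold cut
  rw [min_eq_left ((one_le_div hd).2 (by linarith)), max_eq_right zero_le_one]

theorem cut_eq_zero {o x : X} {r d : ℝ} (hd : 0 < d) (hx : r + d ≤ dist x o) : cut o r d x = 0 := by
  unfold cut
  exact max_eq_left ((min_le_right _ _).trans (div_nonpos_of_nonpos_of_nonneg (by linarith) hd.le))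

theorem cut_lip (o : X) (r : ℝ) {d : ℝ} (hd : 0 < d) :
    LipschitzWith (1 / d).toNNReal (cut o r d) := by
  have h : LipschitzWith (1 / d).toNNReal fun x : X => (r + d - dist x o) / d := by
    refine LipschitzWith.of_dist_le_mul fun x y => ?_
    rw [Real.coe_toNNReal _ (by positivity), Real.dist_eq, ← sub_div, abs_div, abs_of_pos hd,
      show r + d - dist x o - (r + d - dist y o) = dist y o - dist x o by ring, one_div,
      inv_mul_eq_div]
    gcongr
    rw [dist_comm x y]
    exact abs_dist_sub_le y x o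
  exact (h.const_min 1).const_max 0

theorem cut_tsupport (o : X) (r : ℝ) {d : ℝ} (hd : 0 < d) :
    tsupport (cut o r d) ⊆ closedBall o (r + d) := by
  refine closure_minimal (fun x hx => ?_) isClosed_closedBall
  by_contra hc
  exact hx (cut_eq_zero hd (not_le.1 hc).le)

theorem cut_compact (o : X) (r : ℝ) {d : ℝ} (hd : 0 < d) : HasCompactSupport (cut o r d) := by
  exact (isCompact_closedBall o (r + d)).of_isClosed_subset (isClosed_tsupport _)
    (cut_tsupport o r hd)

theorem cut_bddLip (o : X) (r : ℝ) {d : ℝ} (hd : 0 < d) : BddLip (cut o r d) := by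
  exact ⟨⟨1, fun x => by rw [abs_of_nonneg (cut_nonneg o r d x)]; exact cut_le_one o r d x⟩,
    _, cut_lip o r hd⟩

theorem BddLip.mul {f g : X → ℝ} (hf : BddLip f) (hg : BddLip g) : BddLip fun x => f x * g x := by
  obtain ⟨⟨A, hA⟩, L, hL⟩ := hf
  obtain ⟨⟨B, hB⟩, M, hM⟩ := hg
  refine ⟨⟨A * B, fun x => ?_⟩, (|A| * M + |B| * L).toNNReal,
    LipschitzWith.of_dist_le_mul fun x y => ?_⟩
  · rw [abs_mul]
    exact mul_le_mul (hA x) (hB x) (abs_nonneg _) ((abs_nonneg _).trans (hA x))
  · have h1 := hL.dist_le_mul x y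
    have h2 := hM.dist_le_mul x y
    rw [Real.dist_eq] at h1 h2 ⊢
    rw [Real.coe_toNNReal _ (by positivity),
      show f x * g x - f y * g y = f x * (g x - g y) + g y * (f x - f y) by ring]
    refine (abs_add_le _ _).trans ?_
    rw [abs_mul, abs_mul, add_mul, mul_assoc, mul_assoc]
    exact add_le_add (mul_le_mul ((hA x).trans (le_abs_self A)) h2 (abs_nonneg _) (abs_nonneg _))
      (mul_le_mul ((hB y).trans (le_abs_self B)) h1 (abs_nonneg _) (abs_nonneg _))
theorem a4a_exp {B s t : ℝ} (hs : s ≤ B) (ht : t ≤ B) :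
    |Real.exp s - Real.exp t| ≤ Real.exp B * |s - t| := by
  wlog h : t ≤ s generalizing s t
  · rw [abs_sub_comm, abs_sub_comm s t]
    exact this ht hs (not_le.1 h).le
  rw [abs_of_nonneg (sub_nonneg.2 (Real.exp_le_exp.2 h)), abs_of_nonneg (sub_nonneg.2 h)]
  have h1 := Real.add_one_le_exp (t - s)
  have h2 : Real.exp t = Real.exp s * Real.exp (t - s) := by
    rw [← Real.exp_add]; congr 1; ring
  have h3 := Real.exp_pos s
  have h4 : Real.exp s ≤ Real.exp B := Real.exp_le_exp.2 hs
  calc Real.exp s - Real.exp t ≤ Real.exp s * (s - t) := by rw [h2]; nlinarith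
    _ ≤ _ := mul_le_mul_of_nonneg_right h4 (sub_nonneg.2 h)


theorem BddLip.exp {f : X → ℝ} (hf : BddLip f) : BddLip fun x => Real.exp (f x) := by
  obtain ⟨⟨A, hA⟩, L, hL⟩ := hf
  have hA' : ∀ x, f x ≤ A := fun x => (le_abs_self _).trans (hA x)
  refine ⟨⟨Real.exp A, fun x => ?_⟩, (Real.exp A * L).toNNReal,
    LipschitzWith.of_dist_le_mul fun x y => ?_⟩
  · rw [abs_of_pos (Real.exp_pos _)]
    exact Real.exp_le_exp.2 (hA' x)
  · have h1 := hL.dist_le_mul x y
    rw [Real.dist_eq] at h1 ⊢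
    rw [Real.coe_toNNReal _ (by positivity), mul_assoc]
    exact (a4a_exp (hA' x) (hA' y)).trans (mul_le_mul_of_nonneg_left h1 (Real.exp_pos _).le)

theorem BddLip.neg {f : X → ℝ} (hf : BddLip f) : BddLip fun x => -f x := by
  obtain ⟨⟨A, hA⟩, L, hL⟩ := hf
  exact ⟨⟨A, fun x => by rw [abs_neg]; exact hA x⟩, L, hL.neg⟩

theorem a4b_ae {p : X → Prop} (h : ∀ (o : X) (R : ℝ), ∀ᵐ x ∂(m.restrict (ball o R)), p x) :
    ∀ᵐ x ∂m, p x := by
  rcases isEmpty_or_nonempty X with hX | ⟨⟨o⟩⟩
  · exact Eventually.of_forall fun x => isEmptyElim x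
  · rw [← m.restrict_univ, ← iUnion_ball_nat o]
    exact (ae_restrict_iUnion_iff _ _).2 fun n => h o n

theorem a4b_intOn {g : X → ℝ} (hg : ∀ (o : X) (R : ℝ), IntegrableOn g (ball o R) m)
    {K : Set X} (hK : Bornology.IsBounded K) : IntegrableOn g K m := by
  rcases K.eq_empty_or_nonempty with rfl | ⟨o, -⟩
  · exact integrableOn_empty
  · obtain ⟨R, hR⟩ := hK.subset_ball o
    exact (hg o R).mono_set hR

theorem a4b_compact {g : X → ℝ} (hg : ∀ (o : X) (R : ℝ), IntegrableOn g (ball o R) m)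
    {W : Set X} (hW : IsOpen W)
    (h : ∀ (v : X → ℝ) (L : ℝ≥0), LipschitzWith L v → HasCompactSupport v → tsupport v ⊆ W →
      ∫ x, g x * v x ∂m = 0) {K : Set X} (hK : IsCompact K) (hKW : K ⊆ W) :
    ∫ x in K, g x ∂m = 0 := by
  obtain ⟨δ, hδ, hδW⟩ := hK.exists_cthickening_subset_open hW hKW
  have hC : IsCompact (cthickening δ K) := hK.cthickening
  set ds : ℕ → ℝ := fun n => δ / ((n : ℝ) + 1) with hds
  have hpos : ∀ n, 0 < ds n := fun n => by positivity
  have hle : ∀ n, ds n ≤ δ := fun n => div_le_self hδ.le (by linarith [n.cast_nonneg (α := ℝ)])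
  have hlim : Tendsto ds atTop (𝓝 0) := by
    have := tendsto_one_div_add_atTop_nhds_zero_nat (𝕜 := ℝ) |>.const_mul δ
    simpa [hds, div_eq_mul_inv] using this
  set v : ℕ → X → ℝ := fun n x => (thickenedIndicator (hpos n) K x : ℝ) with hv
  have hvlip : ∀ n, LipschitzWith (ds n).toNNReal⁻¹ (v n) := fun n =>
    LipschitzWith.of_dist_le_mul fun x y => by
      simpa [hv, NNReal.dist_eq, Real.dist_eq] using
        (lipschitzWith_thickenedIndicator (hpos n) K).dist_le_mul x y
  have hzero : ∀ n x, x ∉ cthickening δ K → v n x = 0 := fun n x hx => by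
    have : x ∉ thickening (ds n) K := fun h' =>
      hx (thickening_subset_cthickening _ _ (thickening_mono (hle n) K h'))
    simp only [hv, thickenedIndicator_zero (hpos n) K this, NNReal.coe_zero]
  have hts : ∀ n, tsupport (v n) ⊆ cthickening δ K := fun n =>
    closure_minimal (fun x hx => by_contra fun h' => hx (hzero n x h')) isClosed_cthickening
  have h0 : ∀ n, ∫ x, g x * v n x ∂m = 0 := fun n =>
    h _ _ (hvlip n) (hC.of_isClosed_subset (isClosed_tsupport _) (hts n)) ((hts n).trans hδW)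
  have hgC : IntegrableOn g (cthickening δ K) m := a4b_intOn hg hC.isBounded
  have h1 : ∀ n, ∫ x in cthickening δ K, g x * v n x ∂m = 0 := fun n => by
    rw [setIntegral_eq_integral_of_forall_compl_eq_zero fun x hx => by simp [hzero n x hx]]
    exact h0 n
  have ht : Tendsto (fun n => ∫ x in cthickening δ K, g x * v n x ∂m) atTop
      (𝓝 (∫ x in cthickening δ K, K.indicator g x ∂m)) := by
    refine tendsto_integral_of_dominated_convergence (fun x => ‖g x‖)
      (fun n => hgC.aestronglyMeasurable.mul (hvlip n).continuous.aestronglyMeasurable) hgC.norm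
      (fun n => Eventually.of_forall fun x => ?_) (Eventually.of_forall fun x => ?_)
    · rw [norm_mul]
      refine mul_le_of_le_one_right (norm_nonneg _) ?_
      simp only [hv, Real.norm_eq_abs, NNReal.abs_eq]
      exact_mod_cast thickenedIndicator_le_one (hpos n) K x
    · have T := tendsto_pi_nhds.1 (thickenedIndicator_tendsto_indicator_closure hpos hlim K) x
      rw [hK.isClosed.closure_eq] at T
      have T2 := (NNReal.tendsto_coe.2 T).const_mul (g x)
      by_cases hx : x ∈ K
      · simpa [hx, hv] using T2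
      · simpa [hx, hv] using T2
  simp only [h1, tendsto_const_nhds_iff] at ht
  rw [setIntegral_indicator hK.measurableSet,
    inter_eq_right.2 (self_subset_cthickening K)] at ht
  exact ht.symm

theorem ae_eq_zero_of_open {g : X → ℝ} (hg : ∀ (o : X) (R : ℝ), IntegrableOn g (ball o R) m)
    (h : ∀ U : Set X, IsOpen U → Bornology.IsBounded U → ∫ x in U, g x ∂m = 0) : g =ᵐ[m] 0 := by
  refine a4b_ae fun o R => ?_
  refine ae_eq_zero_of_forall_setIntegral_isClosed_eq_zero (μ := m.restrict (ball o R))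
    (hg o R) fun s hs => ?_
  have h1 := integral_add_compl (μ := m.restrict (ball o R)) hs.measurableSet (hg o R)
  rw [h _ isOpen_ball isBounded_ball, Measure.restrict_restrict hs.measurableSet.compl,
    h _ (hs.isOpen_compl.inter isOpen_ball) (isBounded_ball.subset inter_subset_right),
    add_zero] at h1
  exact h1

theorem ae_eq_zero_on_open {g : X → ℝ} (hg : ∀ (o : X) (R : ℝ), IntegrableOn g (ball o R) m)
    {W : Set X} (hW : IsOpen W)
    (h : ∀ (v : X → ℝ) (L : ℝ≥0), LipschitzWith L v → HasCompactSupport v → tsupport v ⊆ W →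
      ∫ x, g x * v x ∂m = 0) : ∀ᵐ x ∂m, x ∈ W → g x = 0 := by
  obtain ⟨F, hFc, hFW, hFU, -⟩ := hW.exists_iUnion_isClosed
  refine a4b_ae fun o R => ?_
  have key : ∀ n, ∀ᵐ x ∂m, x ∈ F n ∩ closedBall o R → g x = 0 := fun n => by
    have hK : IsCompact (F n ∩ closedBall o R) := (isCompact_closedBall o R).inter_left (hFc n)
    rw [← ae_restrict_iff' hK.measurableSet]
    refine ae_eq_zero_of_forall_setIntegral_isClosed_eq_zero
      (μ := m.restrict (F n ∩ closedBall o R)) (a4b_intOn hg hK.isBounded) fun s hs => ?_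
    rw [Measure.restrict_restrict hs.measurableSet]
    exact a4b_compact hg hW h (hK.inter_left hs) fun x hx => hFW n hx.2.1
  rw [ae_restrict_iff' measurableSet_ball]
  filter_upwards [ae_all_iff.2 key] with x hx hxb hxW
  rw [← hFU] at hxW
  obtain ⟨n, hn⟩ := mem_iUnion.1 hxW
  exact hx n ⟨hn, ball_subset_closedBall hxb⟩

theorem ae_le_of_setIntegral {f g : X → ℝ} (hf : ∀ (o : X) (R : ℝ), IntegrableOn f (ball o R) m)
    (hg : ∀ (o : X) (R : ℝ), IntegrableOn g (ball o R) m)
    (h : ∀ A : Set X, MeasurableSet A → Bornology.IsBounded A →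
      ∫ x in A, f x ∂m ≤ ∫ x in A, g x ∂m) : f ≤ᵐ[m] g := by
  refine a4b_ae fun o R => ?_
  refine ae_le_of_forall_setIntegral_le (μ := m.restrict (ball o R)) (hf o R) (hg o R)
    fun s hs _ => ?_
  rw [Measure.restrict_restrict hs]
  exact h _ (hs.inter measurableSet_ball) (isBounded_ball.subset inter_subset_right)

theorem a4c_unif {φ : X → ℝ} (hc : Continuous φ) (hK : HasCompactSupport φ) {η : ℝ} (hη : 0 < η) :
    ∃ (u : X → ℝ) (L : ℝ≥0), LipschitzWith L u ∧ ∀ x, φ x - η ≤ u x ∧ u x ≤ φ x := by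
  obtain ⟨B, hB⟩ := hc.bounded_above_of_compact_support hK
  have hu := hK.uniformContinuous_of_continuous hc
  obtain ⟨δ, hδ, hδη⟩ := Metric.uniformContinuous_iff.1 hu η hη
  set k : ℝ := 2 * |B| / δ with hk
  have hk0 : 0 ≤ k := by positivity
  have hB' : ∀ x, |φ x| ≤ |B| := fun x => (hB x).trans (le_abs_self B)
  have hlow : ∀ x y, φ x - η ≤ φ y + k * dist x y := fun x y => by
    by_cases hxy : dist x y < δ
    · have h1 := hδη hxy
      rw [Real.dist_eq] at h1
      have h2 := (abs_lt.1 h1).2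
      have h3 : 0 ≤ k * dist x y := by positivity
      linarith
    · have h1 : k * δ ≤ k * dist x y := mul_le_mul_of_nonneg_left (not_lt.1 hxy) hk0
      have h2 : k * δ = 2 * |B| := by rw [hk]; field_simp
      have h3 := (abs_le.1 (hB' x)).2
      have h4 := (abs_le.1 (hB' y)).1
      linarith
  have hbdd : ∀ x, BddBelow (range fun y => φ y + k * dist x y) := fun x =>
    ⟨φ x - η, by rintro _ ⟨y, rfl⟩; exact hlow x y⟩
  refine ⟨fun x => ⨅ y, (φ y + k * dist x y), k.toNNReal,
    LipschitzWith.of_le_add_mul _ fun x z => ?_, fun x => ⟨?_, ?_⟩⟩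
  · have : Nonempty X := ⟨x⟩
    rw [Real.coe_toNNReal _ hk0, ← sub_le_iff_le_add]
    refine le_ciInf fun y => ?_
    have h1 := ciInf_le (hbdd x) y
    have h2 : k * dist x y ≤ k * (dist x z + dist z y) :=
      mul_le_mul_of_nonneg_left (dist_triangle x z y) hk0
    linarith
  · have : Nonempty X := ⟨x⟩
    exact le_ciInf fun y => hlow x y
  · simpa using ciInf_le (hbdd x) x

theorem a4c_supp {φ : X → ℝ} (hc : Continuous φ) (hK : HasCompactSupport φ) {η : ℝ} (hη : 0 < η) :
    ∃ (ψ : X → ℝ) (L : ℝ≥0), LipschitzWith L ψ ∧ (∀ x, x ∉ tsupport φ → ψ x = 0) ∧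
      ∀ x, |φ x - ψ x| ≤ 2 * η := by
  obtain ⟨u, L, hu, hφu⟩ := a4c_unif hc hK hη
  have h1 : LipschitzWith L fun x => u x - η :=
    LipschitzWith.of_dist_le_mul fun x y => by simpa using hu.dist_le_mul x y
  have h2 : LipschitzWith L fun x => u x + η :=
    LipschitzWith.of_dist_le_mul fun x y => by simpa using hu.dist_le_mul x y
  refine ⟨fun x => max (u x - η) (min (u x + η) 0), _, h1.max (h2.min_const 0), fun x hx => ?_,
    fun x => ?_⟩
  · have h0 : φ x = 0 := image_eq_zero_of_notMem_tsupport hx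
    obtain ⟨a, b⟩ := hφu x
    rw [h0] at a b
    show max (u x - η) (min (u x + η) 0) = 0
    rw [min_eq_right (by linarith), max_eq_right (by linarith)]
  · obtain ⟨a, b⟩ := hφu x
    have c1 : u x - η ≤ max (u x - η) (min (u x + η) 0) := le_max_left _ _
    have c2 : max (u x - η) (min (u x + η) 0) ≤ u x + η :=
      max_le (by linarith) (min_le_left _ _)
    exact abs_le.2 ⟨by linarith, by linarith⟩

theorem exists_lip_approx {g : X → ℝ} (hg : Integrable g m) {ε : ℝ} (hε : 0 < ε) :
    ∃ (ψ : X → ℝ) (L : ℝ≥0), LipschitzWith L ψ ∧ HasCompactSupport ψ ∧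
      ∫ x, |g x - ψ x| ∂m ≤ ε := by
  obtain ⟨φ, hK, hφ, hc, hint⟩ := hg.exists_hasCompactSupport_integral_sub_le (half_pos hε)
  set M : ℝ := m.real (tsupport φ) with hM
  have hM0 : 0 ≤ M := measureReal_nonneg
  have hη : 0 < ε / (4 * (M + 1)) := by positivity
  obtain ⟨ψ, L, hψ, h0, hd⟩ := a4c_supp hc hK hη
  have hψK : HasCompactSupport ψ := HasCompactSupport.intro hK h0
  have hψi : Integrable ψ m := hψ.continuous.integrable_of_hasCompactSupport hψK
  refine ⟨ψ, L, hψ, hψK, ?_⟩
  have hfin : m (tsupport φ) < ⊤ := hK.isCompact.measure_lt_top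
  have e1 : ∫ x, |φ x - ψ x| ∂m ≤ 2 * (ε / (4 * (M + 1))) * M := by
    rw [← setIntegral_eq_integral_of_forall_compl_eq_zero (s := tsupport φ) fun x hx => by
      rw [h0 x hx, image_eq_zero_of_notMem_tsupport hx, sub_zero, abs_zero]]
    have := norm_setIntegral_le_of_norm_le_const (f := fun x => |φ x - ψ x|) hfin
      (C := 2 * (ε / (4 * (M + 1)))) fun x _ => by simpa using hd x
    exact (le_abs_self _).trans this
  have e2 : 2 * (ε / (4 * (M + 1))) * M ≤ ε / 2 := by
    rw [show 2 * (ε / (4 * (M + 1))) * M = ε / 2 * (M / (M + 1)) by field_simp; ring]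
    exact mul_le_of_le_one_right (half_pos hε).le ((div_le_one (by positivity)).2 (by linarith))
  have e3 : ∫ x, |g x - ψ x| ∂m ≤ ∫ x, (|g x - φ x| + |φ x - ψ x|) ∂m :=
    integral_mono (hg.sub hψi).abs ((hg.sub hint).abs.add (hint.sub hψi).abs) fun x =>
      abs_sub_le _ _ _
  have e4 : ∫ x, (|g x - φ x| + |φ x - ψ x|) ∂m = ∫ x, |g x - φ x| ∂m + ∫ x, |φ x - ψ x| ∂m :=
    integral_add (hg.sub hint).abs (hint.sub hψi).abs
  simp only [Real.norm_eq_abs] at hφ
  linarith

theorem a4c_compact_le {μ ν : Measure X} [IsFiniteMeasure μ] [IsFiniteMeasureOnCompacts ν]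
    (h : ∀ ψ : X → ℝ, Continuous ψ → HasCompactSupport ψ → (∀ x, 0 ≤ ψ x) →
      ∫ x, ψ x ∂μ ≤ ∫ x, ψ x ∂ν) {K : Set X} (hK : IsCompact K) : μ K ≤ ν K := by
  refine ENNReal.le_of_forall_pos_le_add fun ε hε hν => ?_
  have hνK : ν K ≠ ⊤ := hν.ne
  have hμK : μ K ≠ ⊤ := hK.measure_lt_top.ne
  obtain ⟨V, pV1, pV2, pV3⟩ : ∃ V ⊇ K, IsOpen V ∧ ν V ≤ ν K + ε :=
    exists_isOpen_le_add K ν (ne_of_gt (ENNReal.coe_lt_coe.mpr hε))
  suffices μ.real K ≤ ν.real K + ε by
    rwa [← ENNReal.toReal_le_toReal, ENNReal.toReal_add, ENNReal.coe_toReal]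
    all_goals finiteness
  have VltTop : ν V < ⊤ := pV3.trans_lt <| by finiteness
  obtain ⟨f, pf1, hf2, pf2, pf3⟩ := exists_continuousMap_one_of_isCompact_subset_isOpen hK pV2 pV1
  have hfc : HasCompactSupport f := hasCompactSupport_def.mpr hf2
  have hfV (x : X) : f x ≤ V.indicator 1 x := by
    by_cases hx : x ∈ tsupport f
    · simp [(pf2 hx), (pf3 x).2]
    · simp [image_eq_zero_of_notMem_tsupport hx, Set.indicator_nonneg]
  have hfK (x : X) : K.indicator 1 x ≤ f x := by
    by_cases hx : x ∈ K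
    · simp [hx, pf1 hx]
    · simp [hx, (pf3 x).1]
  calc
    μ.real K = ∫ x, K.indicator 1 x ∂μ := integral_indicator_one hK.measurableSet |>.symm
    _ ≤ ∫ x, f x ∂μ := by
      refine integral_mono ?_ (f.continuous.integrable_of_hasCompactSupport hfc) hfK
      exact (continuousOn_const.integrableOn_compact hK).integrable_indicator hK.measurableSet
    _ ≤ ∫ x, f x ∂ν := h f f.continuous hfc fun x => (pf3 x).1
    _ ≤ ∫ x, V.indicator 1 x ∂ν := by
      refine integral_mono (f.continuous.integrable_of_hasCompactSupport hfc) ?_ hfV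
      exact IntegrableOn.integrable_indicator (integrableOn_const VltTop.ne) pV2.measurableSet
    _ ≤ (ν K).toReal + ↑ε := by
      rwa [integral_indicator_one pV2.measurableSet, measureReal_def,
        ← ENNReal.coe_toReal, ← ENNReal.toReal_add, ENNReal.toReal_le_toReal]
      all_goals finiteness

theorem measure_le_of_cont {μ ν : Measure X} [IsFiniteMeasure μ] [IsFiniteMeasureOnCompacts ν]
    (h : ∀ ψ : X → ℝ, Continuous ψ → HasCompactSupport ψ → (∀ x, 0 ≤ ψ x) →
      ∫ x, ψ x ∂μ ≤ ∫ x, ψ x ∂ν) : μ ≤ ν := by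
  refine Measure.le_iff.2 fun s hs => ?_
  rw [hs.measure_eq_iSup_isCompact_of_ne_top (measure_ne_top μ s)]
  exact iSup_le fun K => iSup_le fun hKs => iSup_le fun hK =>
    (a4c_compact_le h hK).trans (measure_mono hKs)

/-- Balls of a fixed radius centred in a compact set have measure bounded below. -/
theorem exists_ball_lower {K : Set X} (hK : IsCompact K) {c : ℝ} (hc : 0 < c) :
    ∃ η : ℝ, 0 < η ∧ ∀ x ∈ K, ENNReal.ofReal η ≤ m (ball x c) := by
  refine hK.induction_on (p := fun K => ∃ η : ℝ, 0 < η ∧ ∀ x ∈ K, ENNReal.ofReal η ≤ m (ball x c))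
    ⟨1, one_pos, fun x hx => hx.elim⟩ ?_ ?_ ?_
  · rintro s t hst ⟨η, hη, h⟩
    exact ⟨η, hη, fun x hx => h x (hst hx)⟩
  · rintro s t ⟨η, hη, h⟩ ⟨η', hη', h'⟩
    refine ⟨min η η', lt_min hη hη', fun x hx => ?_⟩
    rcases hx with hx | hx
    · exact (ENNReal.ofReal_le_ofReal (min_le_left _ _)).trans (h x hx)
    · exact (ENNReal.ofReal_le_ofReal (min_le_right _ _)).trans (h' x hx)
  · intro x _
    obtain ⟨η, -, h1, h2⟩ := ENNReal.lt_iff_exists_real_btwn.1
      (measure_ball_pos m x (half_pos hc))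
    refine ⟨ball x (c / 2), mem_nhdsWithin_of_mem_nhds (ball_mem_nhds x (half_pos hc)), η,
      ENNReal.ofReal_pos.1 h1, fun y hy => h2.le.trans (measure_mono fun z hz => ?_)⟩
    rw [mem_ball] at hy hz ⊢
    linarith [dist_triangle_right z y x]

end Crest.Agent.R242
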