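import Crest.Agent.R242.Defs

/-! Block A5: elementary `L²` toolkit in terms of `nsq`.
`tendsto_bdd_mul_L1`: `|∫ h_i g_i - ∫ h g| ≤ M ∫|g_i - g| + |∫ (h_i - h) g|`; split
`g = g·1_{1/n ≤ |g| ≤ n} + small in L¹`, the first piece is in `L²`.
`DerL2.mul`: `(a' b' - a b)/k = a' q^b + q^a b` with `a' = a (s+k)`; `‖(a' - a) b'‖² = ∫ (a'-a)² b'²`,
and `(a' - a)² ≤ 2M|a' - a|`: use `tendsto_bdd_mul_L1` for `|a' - a|` against `b'²`.
`DerL2.comp`: `(φ(u + k q) - φ u)/k - φ'(u) u' = [(φ(u+kq) - φ(u+ku'))/k] + [(φ(u+ku') - φ u)/k - φ'(u)u']`,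
first `≤ L|q - u'|`, second `→ 0` pointwise, dominated by `2L|u'|`. -/

set_option autoImplicit false
set_option linter.unusedSectionVars false
set_option linter.unusedVariables false
open MeasureTheory Filter Set Metric
open scoped ENNReal NNReal Topology
open Crest.GeometryTopology.SyntheticRicci

noncomputable section
namespace Crest.Agent.R242

variable {X : Type*} [MetricSpace X] [MeasurableSpace X] {μ : Measure X}

theorem nsq_nonneg (f : X → ℝ) : 0 ≤ nsq μ f := integral_nonneg fun _ => sq_nonneg _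

theorem nsq_congr {f g : X → ℝ} (h : f =ᵐ[μ] g) : nsq μ f = nsq μ g := by
  exact integral_congr_ae (h.mono fun x hx => by simp only [hx])

theorem a5a_inner (u v : Lp ℝ 2 μ) : inner ℝ u v = ∫ x, u x * v x ∂μ := by
  rw [L2.inner_def]
  exact integral_congr_ae (Eventually.of_forall fun x => by simp [mul_comm])

theorem a5a_nsq_coe (u : Lp ℝ 2 μ) : nsq μ u = ‖u‖ ^ 2 := by
  rw [← real_inner_self_eq_norm_sq, a5a_inner]
  simp only [nsq, sq]

theorem nsq_eq_norm {f : X → ℝ} (hf : MemLp f 2 μ) : nsq μ f = ‖hf.toLp f‖ ^ 2 := by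
  rw [← a5a_nsq_coe]
  exact nsq_congr hf.coeFn_toLp.symm

theorem nsq_coe (u : Lp ℝ 2 μ) : nsq μ u = ‖u‖ ^ 2 := by
  exact a5a_nsq_coe u

theorem inner_coe (u v : Lp ℝ 2 μ) : inner ℝ u v = ∫ x, u x * v x ∂μ := by
  exact a5a_inner u v

theorem abs_integral_mul_le {f g : X → ℝ} (hf : MemLp f 2 μ) (hg : MemLp g 2 μ) :
    |∫ x, f x * g x ∂μ| ≤ Real.sqrt (nsq μ f) * Real.sqrt (nsq μ g) := by
  rw [nsq_eq_norm hf, nsq_eq_norm hg, Real.sqrt_sq (norm_nonneg _), Real.sqrt_sq (norm_nonneg _)]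
  refine le_trans (le_of_eq ?_) (abs_real_inner_le_norm (hf.toLp f) (hg.toLp g))
  rw [inner_coe]
  congr 1
  refine integral_congr_ae ?_
  filter_upwards [hf.coeFn_toLp, hg.coeFn_toLp] with x h1 h2
  rw [h1, h2]

theorem sqrt_nsq_add_le {f g : X → ℝ} (hf : MemLp f 2 μ) (hg : MemLp g 2 μ) :
    Real.sqrt (nsq μ fun x => f x + g x) ≤ Real.sqrt (nsq μ f) + Real.sqrt (nsq μ g) := by
  have h : nsq μ (fun x => f x + g x) = ‖hf.toLp f + hg.toLp g‖ ^ 2 := nsq_eq_norm (hf.add hg)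
  rw [h, nsq_eq_norm hf, nsq_eq_norm hg, Real.sqrt_sq (norm_nonneg _), Real.sqrt_sq (norm_nonneg _),
    Real.sqrt_sq (norm_nonneg _)]
  exact norm_add_le _ _

theorem nsq_mono {f g : X → ℝ} (hg : MemLp g 2 μ) (h : ∀ᵐ x ∂μ, |f x| ≤ |g x|) :
    nsq μ f ≤ nsq μ g := by
  refine integral_mono_of_nonneg (Eventually.of_forall fun x => sq_nonneg _) hg.integrable_sq ?_
  filter_upwards [h] with x hx
  exact sq_le_sq.2 hx

theorem a5a_sqrt {ι : Type*} {l : Filter ι} {A : ι → ℝ} (h : Tendsto A l (𝓝 0)) :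
    Tendsto (fun i => Real.sqrt (A i)) l (𝓝 0) := by
  simpa using h.sqrt

theorem tendsto_integral_mul {ι : Type*} {l : Filter ι} {a b : ι → X → ℝ} {a₀ b₀ : X → ℝ}
    (ha : ∀ᶠ i in l, MemLp (a i) 2 μ) (hb : ∀ᶠ i in l, MemLp (b i) 2 μ) (ha₀ : MemLp a₀ 2 μ)
    (hb₀ : MemLp b₀ 2 μ) (hA : Tendsto (fun i => nsq μ fun x => a i x - a₀ x) l (𝓝 0))
    (hB : Tendsto (fun i => nsq μ fun x => b i x - b₀ x) l (𝓝 0)) :
    Tendsto (fun i => ∫ x, a i x * b i x ∂μ) l (𝓝 (∫ x, a₀ x * b₀ x ∂μ)) := by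
  rw [tendsto_iff_norm_sub_tendsto_zero]
  have hA' := a5a_sqrt hA
  have hB' := a5a_sqrt hB
  have h := ((hA'.mul hB').add (hA'.mul_const (Real.sqrt (nsq μ b₀)))).add
    (hB'.const_mul (Real.sqrt (nsq μ a₀)))
  simp only [mul_zero, zero_mul, add_zero] at h
  refine squeeze_zero' (Eventually.of_forall fun _ => norm_nonneg _) ?_ h
  filter_upwards [ha, hb] with i h1 h2
  have m1 : MemLp (fun x => a i x - a₀ x) 2 μ := h1.sub ha₀
  have m2 : MemLp (fun x => b i x - b₀ x) 2 μ := h2.sub hb₀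
  have i1 : Integrable (fun x => (a i x - a₀ x) * (b i x - b₀ x)) μ := m1.integrable_mul m2
  have i2 : Integrable (fun x => (a i x - a₀ x) * b₀ x) μ := m1.integrable_mul hb₀
  have i3 : Integrable (fun x => a₀ x * (b i x - b₀ x)) μ := ha₀.integrable_mul m2
  have i4 : Integrable (fun x => a i x * b i x) μ := h1.integrable_mul h2
  have i5 : Integrable (fun x => a₀ x * b₀ x) μ := ha₀.integrable_mul hb₀
  have i6 : Integrable (fun x => (a i x - a₀ x) * (b i x - b₀ x) + (a i x - a₀ x) * b₀ x) μ := i1.add i2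
  have e : ∫ x, a i x * b i x ∂μ - ∫ x, a₀ x * b₀ x ∂μ = ∫ x, (a i x - a₀ x) * (b i x - b₀ x) ∂μ +
      ∫ x, (a i x - a₀ x) * b₀ x ∂μ + ∫ x, a₀ x * (b i x - b₀ x) ∂μ := by
    rw [← integral_sub i4 i5, ← integral_add i1 i2, ← integral_add i6 i3]
    exact integral_congr_ae (Eventually.of_forall fun x => by ring)
  rw [e, Real.norm_eq_abs]
  exact (abs_add_three _ _ _).trans (add_le_add (add_le_add (abs_integral_mul_le m1 m2)
    (abs_integral_mul_le m1 hb₀)) (abs_integral_mul_le ha₀ m2))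

theorem a5a_bdd {a g : X → ℝ} {M : ℝ} (ha : AEStronglyMeasurable a μ) (hM : ∀ᵐ x ∂μ, |a x| ≤ M)
    (hg : Integrable g μ) : Integrable (fun x => a x * g x) μ ∧ |∫ x, a x * g x ∂μ| ≤ M * ∫ x, |g x| ∂μ := by
  refine ⟨hg.bdd_mul ha hM, ?_⟩
  rw [← integral_const_mul, ← Real.norm_eq_abs]
  refine norm_integral_le_of_norm_le (hg.abs.const_mul M) ?_
  filter_upwards [hM] with x hx
  rw [Real.norm_eq_abs, abs_mul]
  exact mul_le_mul_of_nonneg_right hx (abs_nonneg _)

/-- an integrable function is `L¹`-close to a function in `L¹ ∩ L²` -/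
theorem a5a_trunc {g : X → ℝ} (hg : Integrable g μ) {ε : ℝ} (hε : 0 < ε) :
    ∃ T : X → ℝ, MemLp T 2 μ ∧ Integrable T μ ∧ ∫ x, |g x - T x| ∂μ < ε := by
  let T : ℕ → X → ℝ := fun n x => max (-(n : ℝ)) (min n (g x))
  have hm : ∀ n, AEStronglyMeasurable (T n) μ := fun n =>
    (continuous_const.max (continuous_const.min continuous_id)).comp_aestronglyMeasurable hg.1
  have h1 : ∀ n x, |T n x| ≤ |g x| ∧ |T n x| ≤ n ∧ |g x - T n x| ≤ |g x| := fun n x => by
    have hn : (0 : ℝ) ≤ n := Nat.cast_nonneg n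
    simp only [T, max_def, min_def, abs_le]
    split_ifs <;> cases abs_cases (g x) <;> refine ⟨⟨?_, ?_⟩, ⟨?_, ?_⟩, ?_, ?_⟩ <;> linarith
  have h2 : Tendsto (fun n => ∫ x, |g x - T n x| ∂μ) atTop (𝓝 (∫ _x, (0 : ℝ) ∂μ)) := by
    refine tendsto_integral_of_dominated_convergence (fun x => |g x|)
      (fun n => (continuous_abs.comp_aestronglyMeasurable (hg.1.sub (hm n)))) hg.abs
      (fun n => Eventually.of_forall fun x => by rw [Real.norm_eq_abs, abs_abs]; exact (h1 n x).2.2)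
      (Eventually.of_forall fun x => tendsto_const_nhds.congr' ?_)
    obtain ⟨N, hN⟩ := exists_nat_ge |g x|
    filter_upwards [eventually_ge_atTop N] with n hn
    have h3 : |g x| ≤ n := hN.trans (Nat.cast_le.2 hn)
    simp only [T]
    rw [min_eq_right (abs_le.1 h3).2, max_eq_right (abs_le.1 h3).1, sub_self, abs_zero]
  rw [integral_zero] at h2
  obtain ⟨n, hn⟩ := (h2.eventually (gt_mem_nhds hε)).exists
  refine ⟨T n, (memLp_two_iff_integrable_sq (hm n)).2 ?_, hg.mono (hm n) (Eventually.of_forall fun x => (h1 n x).1),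
    hn⟩
  refine (hg.abs.const_mul n).mono' ((hm n).pow 2) (Eventually.of_forall fun x => ?_)
  rw [Real.norm_eq_abs, abs_pow, sq]
  exact mul_le_mul (h1 n x).2.1 (h1 n x).1 (abs_nonneg _) (Nat.cast_nonneg n)

theorem tendsto_bdd_mul_L1 {ι : Type*} {l : Filter ι} {h g : ι → X → ℝ} {h₀ g₀ : X → ℝ} {M : ℝ}
    (hh : ∀ᶠ i in l, MemLp (h i) 2 μ ∧ ∀ᵐ x ∂μ, |h i x| ≤ M) (hh₀ : MemLp h₀ 2 μ)
    (hM : ∀ᵐ x ∂μ, |h₀ x| ≤ M) (hg : ∀ᶠ i in l, Integrable (g i) μ) (hg₀ : Integrable g₀ μ)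
    (hH : Tendsto (fun i => nsq μ fun x => h i x - h₀ x) l (𝓝 0))
    (hG : Tendsto (fun i => ∫ x, |g i x - g₀ x| ∂μ) l (𝓝 0)) :
    Tendsto (fun i => ∫ x, h i x * g i x ∂μ) l (𝓝 (∫ x, h₀ x * g₀ x ∂μ)) := by
  rw [Metric.tendsto_nhds]
  intro ε hε
  have hK : 0 < 2 * |M| + 1 := by positivity
  obtain ⟨T, hT2, hT1, hT⟩ := a5a_trunc hg₀ (ε := ε / 2 / (2 * |M| + 1)) (by positivity)
  have hB := (hG.const_mul M).add ((a5a_sqrt hH).mul_const (Real.sqrt (nsq μ T)))
  simp only [mul_zero, zero_mul, add_zero] at hB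
  filter_upwards [hh, hg, hB.eventually (gt_mem_nhds (half_pos hε))] with i h1 h2 h3
  have m1 : MemLp (fun x => h i x - h₀ x) 2 μ := h1.1.sub hh₀
  have b1 : ∀ᵐ x ∂μ, |h i x - h₀ x| ≤ 2 * |M| + 1 := by
    filter_upwards [h1.2, hM] with x x1 x2
    have := abs_sub (h i x) (h₀ x)
    linarith [le_abs_self M]
  obtain ⟨i1, e1⟩ := a5a_bdd (g := fun x => g i x - g₀ x) h1.1.1 h1.2 (h2.sub hg₀)
  obtain ⟨i2, e2⟩ := a5a_bdd (g := fun x => g₀ x - T x) m1.1 b1 (hg₀.sub hT1)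
  have i3 : Integrable (fun x => (h i x - h₀ x) * T x) μ := m1.integrable_mul hT2
  have e3 := abs_integral_mul_le m1 hT2
  have i4 := (a5a_bdd h1.1.1 h1.2 h2).1
  have i5 := (a5a_bdd hh₀.1 hM hg₀).1
  have i6 : Integrable (fun x => h i x * (g i x - g₀ x) + (h i x - h₀ x) * (g₀ x - T x)) μ := i1.add i2
  have e : ∫ x, h i x * g i x ∂μ - ∫ x, h₀ x * g₀ x ∂μ = ∫ x, h i x * (g i x - g₀ x) ∂μ +
      ∫ x, (h i x - h₀ x) * (g₀ x - T x) ∂μ + ∫ x, (h i x - h₀ x) * T x ∂μ := by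
    rw [← integral_sub i4 i5, ← integral_add i1 i2, ← integral_add i6 i3]
    exact integral_congr_ae (Eventually.of_forall fun x => by ring)
  rw [Real.dist_eq, e]
  rw [lt_div_iff₀ hK] at hT
  have := abs_add_three (∫ x, h i x * (g i x - g₀ x) ∂μ) (∫ x, (h i x - h₀ x) * (g₀ x - T x) ∂μ)
    (∫ x, (h i x - h₀ x) * T x ∂μ)
  linarith

theorem a5b_const_mul (c : ℝ) (f : X → ℝ) : nsq μ (fun x => c * f x) = c ^ 2 * nsq μ f := by
  unfold nsq
  rw [← integral_const_mul]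
  simp only [mul_pow]

theorem a5b_le {f g : X → ℝ} {c : ℝ} (hg : MemLp g 2 μ) (hf : AEStronglyMeasurable f μ)
    (h : ∀ᵐ x ∂μ, |f x| ≤ c * |g x|) : MemLp f 2 μ ∧ nsq μ f ≤ c ^ 2 * nsq μ g := by
  refine ⟨hg.of_le_mul hf h, ?_⟩
  rw [← a5b_const_mul]
  refine nsq_mono (hg.const_mul c) ?_
  filter_upwards [h] with x hx
  rw [abs_mul]
  exact hx.trans (mul_le_mul_of_nonneg_right (le_abs_self c) (abs_nonneg _))

theorem a5b_small {ι : Type*} {l : Filter ι} {f g : ι → X → ℝ} {c : ℝ}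
    (h : ∀ᶠ i in l, nsq μ (f i) ≤ c * nsq μ (g i)) (hg : Tendsto (fun i => nsq μ (g i)) l (𝓝 0)) :
    Tendsto (fun i => nsq μ (f i)) l (𝓝 0) :=
  squeeze_zero' (Eventually.of_forall fun _ => nsq_nonneg _) h (by simpa using hg.const_mul c)

theorem a5b_add_le {f g : X → ℝ} (hf : MemLp f 2 μ) (hg : MemLp g 2 μ) :
    nsq μ (fun x => f x + g x) ≤ 2 * nsq μ f + 2 * nsq μ g := by
  have h := sqrt_nsq_add_le hf hg
  have h1 := Real.sq_sqrt (nsq_nonneg (μ := μ) fun x => f x + g x)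
  have h2 := Real.sq_sqrt (nsq_nonneg (μ := μ) f)
  have h3 := Real.sq_sqrt (nsq_nonneg (μ := μ) g)
  have h4 := pow_le_pow_left₀ (Real.sqrt_nonneg _) h 2
  nlinarith [sq_nonneg (Real.sqrt (nsq μ f) - Real.sqrt (nsq μ g))]

theorem a5b_add {ι : Type*} {l : Filter ι} {f g : ι → X → ℝ} (hf : ∀ᶠ i in l, MemLp (f i) 2 μ)
    (hg : ∀ᶠ i in l, MemLp (g i) 2 μ) (hF : Tendsto (fun i => nsq μ (f i)) l (𝓝 0))
    (hG : Tendsto (fun i => nsq μ (g i)) l (𝓝 0)) :
    Tendsto (fun i => nsq μ fun x => f i x + g i x) l (𝓝 0) := by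
  refine squeeze_zero' (Eventually.of_forall fun _ => nsq_nonneg _) ?_
    (by simpa using (hF.const_mul 2).add (hG.const_mul 2))
  filter_upwards [hf, hg] with i h1 h2
  exact a5b_add_le h1 h2

theorem a5b_quot {u : ℝ → X → ℝ} (hu : ∀ r, MemLp (u r) 2 μ) (s k : ℝ) :
    MemLp (fun x => (u (s + k) x - u s x) / k) 2 μ := by
  simp only [div_eq_mul_inv]
  exact ((hu _).sub (hu _)).mul_const _

theorem a5b_ne {l : Filter ℝ} (hl : l ≤ 𝓝[≠] 0) : ∀ᶠ k in l, k ≠ 0 := hl self_mem_nhdsWithin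

theorem DerL2.tendsto {u : ℝ → X → ℝ} {u' : X → ℝ} {s : ℝ} {l : Filter ℝ} (hl : l ≤ 𝓝[≠] 0)
    (hu : ∀ r, MemLp (u r) 2 μ) (hu' : MemLp u' 2 μ) (h : DerL2 μ u u' s l) :
    Tendsto (fun k => nsq μ fun x => u (s + k) x - u s x) l (𝓝 0) := by
  have h0 : Tendsto (fun k : ℝ => k) l (𝓝 0) := hl.trans nhdsWithin_le_nhds
  refine squeeze_zero' (Eventually.of_forall fun _ => nsq_nonneg _) ?_
    (by simpa using (h0.pow 2).mul ((Tendsto.const_mul 2 h).add_const (2 * nsq μ u')))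
  filter_upwards [a5b_ne hl] with k hk
  have e : (fun x => u (s + k) x - u s x) =
      fun x => k * (((u (s + k) x - u s x) / k - u' x) + u' x) := by
    funext x
    field_simp
    ring
  rw [e, a5b_const_mul]
  exact mul_le_mul_of_nonneg_left (a5b_add_le ((a5b_quot hu s k).sub hu') hu') (sq_nonneg k)

/-- Product rule under the integral. -/
theorem DerL2.integral_mul {a b : ℝ → X → ℝ} {a' b' : X → ℝ} {s : ℝ} {l : Filter ℝ}
    (hl : l ≤ 𝓝[≠] 0) (ha : ∀ r, MemLp (a r) 2 μ) (hb : ∀ r, MemLp (b r) 2 μ)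
    (ha' : MemLp a' 2 μ) (hb' : MemLp b' 2 μ) (hA : DerL2 μ a a' s l) (hB : DerL2 μ b b' s l) :
    Tendsto (fun k => (∫ x, a (s + k) x * b (s + k) x ∂μ - ∫ x, a s x * b s x ∂μ) / k) l
      (𝓝 (∫ x, a' x * b s x ∂μ + ∫ x, a s x * b' x ∂μ)) := by
  have h1 := tendsto_integral_mul (Eventually.of_forall fun k => a5b_quot ha s k)
    (Eventually.of_forall fun k => hb (s + k)) ha' (hb s) hA (hB.tendsto hl hb hb')
  have h2 := tendsto_integral_mul (a := fun _ => a s) (Eventually.of_forall fun _ => ha s)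
    (Eventually.of_forall fun k => a5b_quot hb s k) (ha s) hb' (by simpa [nsq] using tendsto_const_nhds) hB
  refine (h1.add h2).congr' ?_
  filter_upwards [a5b_ne hl] with k hk
  have i1 : Integrable (fun x => (a (s + k) x - a s x) / k * b (s + k) x) μ :=
    (a5b_quot ha s k).integrable_mul (hb _)
  have i2 : Integrable (fun x => a s x * ((b (s + k) x - b s x) / k)) μ :=
    (ha s).integrable_mul (a5b_quot hb s k)
  have i3 : Integrable (fun x => a (s + k) x * b (s + k) x) μ := (ha _).integrable_mul (hb _)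
  have i4 : Integrable (fun x => a s x * b s x) μ := (ha _).integrable_mul (hb _)
  rw [← integral_add i1 i2, ← integral_sub i3 i4, ← integral_div]
  refine integral_congr_ae (Eventually.of_forall fun x => ?_)
  field_simp
  ring

theorem DerL2.hasDerivAt_integral_mul {a b : ℝ → X → ℝ} {a' b' : X → ℝ} {s : ℝ}
    (ha : ∀ r, MemLp (a r) 2 μ) (hb : ∀ r, MemLp (b r) 2 μ)
    (ha' : MemLp a' 2 μ) (hb' : MemLp b' 2 μ) (hA : DerL2 μ a a' s (𝓝[≠] 0))
    (hB : DerL2 μ b b' s (𝓝[≠] 0)) :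
    HasDerivAt (fun r => ∫ x, a r x * b r x ∂μ)
      (∫ x, a' x * b s x ∂μ + ∫ x, a s x * b' x ∂μ) s := by
  rw [hasDerivAt_iff_tendsto_slope_zero]
  refine (DerL2.integral_mul le_rfl ha hb ha' hb' hA hB).congr fun k => ?_
  rw [smul_eq_mul, div_eq_inv_mul]

theorem DerL2.const (f : X → ℝ) (s : ℝ) (l : Filter ℝ) :
    DerL2 μ (fun _ => f) (fun _ => 0) s l := by
  simpa [DerL2, nsq] using tendsto_const_nhds

/-- Time reversal. -/
theorem DerL2.rev {u : ℝ → X → ℝ} {u' : X → ℝ} {s t : ℝ} (h : DerL2 μ u u' (t - s) (𝓝[≠] 0)) :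
    DerL2 μ (fun r => u (t - r)) (fun x => -u' x) s (𝓝[≠] 0) := by
  have hn : Tendsto (fun k : ℝ => -k) (𝓝[≠] 0) (𝓝[≠] 0) := by
    refine tendsto_nhdsWithin_iff.2 ⟨?_, ?_⟩
    · have : Tendsto (fun k : ℝ => -k) (𝓝 0) (𝓝 0) := by
        simpa using (continuous_neg (G := ℝ)).tendsto 0
      exact this.mono_left nhdsWithin_le_nhds
    · filter_upwards [self_mem_nhdsWithin] with k hk
      exact neg_ne_zero.2 hk
  refine (Tendsto.comp h hn).congr fun k => ?_
  simp only [Function.comp, nsq]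
  refine integral_congr_ae (Eventually.of_forall fun x => ?_)
  simp only
  rw [show t - s + -k = t - (s + k) by ring, div_neg]
  ring

theorem DerL2.mul {a b : ℝ → X → ℝ} {a' b' : X → ℝ} {s M : ℝ} {l : Filter ℝ}
    (hl : l ≤ 𝓝[≠] 0) (ha : ∀ r, MemLp (a r) 2 μ) (hb : ∀ r, MemLp (b r) 2 μ)
    (ha' : MemLp a' 2 μ) (hb' : MemLp b' 2 μ)
    (haM : ∀ᶠ k in l, ∀ᵐ x ∂μ, |a (s + k) x| ≤ M) (haM₀ : ∀ᵐ x ∂μ, |a s x| ≤ M)
    (hbM₀ : ∀ᵐ x ∂μ, |b s x| ≤ M) (hA : DerL2 μ a a' s l) (hB : DerL2 μ b b' s l) :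
    DerL2 μ (fun r x => a r x * b r x) (fun x => a' x * b s x + a s x * b' x) s l := by
  have hea := fun k => (a5b_quot ha s k).sub ha'
  have heb := fun k => (a5b_quot hb s k).sub hb'
  have hd : ∀ k, MemLp (fun x => a (s + k) x - a s x) 2 μ := fun k => (ha _).sub (ha _)
  have hdM : ∀ᶠ k in l, ∀ᵐ x ∂μ, |a (s + k) x - a s x| ≤ 2 * M := by
    filter_upwards [haM] with k hk
    filter_upwards [hk, haM₀] with x h1 h2
    exact (abs_sub _ _).trans (by linarith)
  have t1 : ∀ᶠ k in l, MemLp (fun x => a (s + k) x * ((b (s + k) x - b s x) / k - b' x)) 2 μ ∧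
      nsq μ (fun x => a (s + k) x * ((b (s + k) x - b s x) / k - b' x)) ≤
        M ^ 2 * nsq μ fun x => (b (s + k) x - b s x) / k - b' x := by
    filter_upwards [haM] with k hk
    refine a5b_le (heb k) ((ha _).1.mul (heb k).1) ?_
    filter_upwards [hk] with x hx
    rw [abs_mul]
    exact mul_le_mul_of_nonneg_right hx (abs_nonneg _)
  have t2 : ∀ k, MemLp (fun x => ((a (s + k) x - a s x) / k - a' x) * b s x) 2 μ ∧
      nsq μ (fun x => ((a (s + k) x - a s x) / k - a' x) * b s x) ≤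
        M ^ 2 * nsq μ fun x => (a (s + k) x - a s x) / k - a' x := by
    intro k
    refine a5b_le (hea k) ((hea k).1.mul (hb _).1) ?_
    filter_upwards [hbM₀] with x hx
    rw [abs_mul, mul_comm]
    exact mul_le_mul_of_nonneg_right hx (abs_nonneg _)
  have t3 : ∀ᶠ k in l, MemLp (fun x => (a (s + k) x - a s x) * b' x) 2 μ := by
    filter_upwards [hdM] with k hk
    refine (a5b_le (c := 2 * M) hb' ((hd k).1.mul hb'.1) ?_).1
    filter_upwards [hk] with x hx
    rw [Pi.mul_apply, abs_mul]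
    exact mul_le_mul_of_nonneg_right hx (abs_nonneg _)
  have t4 : ∀ᶠ k in l, MemLp (fun x => (a (s + k) x - a s x) ^ 2) 2 μ ∧
      nsq μ (fun x => (a (s + k) x - a s x) ^ 2) ≤
        (2 * M) ^ 2 * nsq μ fun x => a (s + k) x - a s x := by
    filter_upwards [hdM] with k hk
    refine a5b_le (hd k) ((hd k).1.pow 2) ?_
    filter_upwards [hk] with x hx
    rw [sq, abs_mul]
    exact mul_le_mul_of_nonneg_right hx (abs_nonneg _)
  have t5 : Tendsto (fun k => nsq μ fun x => (a (s + k) x - a s x) * b' x) l (𝓝 0) := by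
    have := tendsto_bdd_mul_L1 (μ := μ) (l := l) (h := fun k x => (a (s + k) x - a s x) ^ 2)
      (g := fun _ x => b' x ^ 2) (h₀ := fun _ => 0) (g₀ := fun x => b' x ^ 2) (M := (2 * M) ^ 2)
      ?_ MemLp.zero' (Eventually.of_forall fun _ => by simpa using sq_nonneg (2 * M))
      (Eventually.of_forall fun _ => hb'.integrable_sq) hb'.integrable_sq ?_
      (by simpa using tendsto_const_nhds)
    · simpa only [nsq, mul_pow, zero_mul, integral_zero] using this
    · filter_upwards [t4, hdM] with k h1 h2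
      refine ⟨h1.1, ?_⟩
      filter_upwards [h2] with x hx
      rw [abs_pow]
      exact pow_le_pow_left₀ (abs_nonneg _) hx 2
    · simp only [sub_zero]
      exact a5b_small (t4.mono fun _ h => h.2) (hA.tendsto hl ha ha')
  have u1 := a5b_small (t1.mono fun _ h => h.2) hB
  have u2 := a5b_small (Eventually.of_forall fun k => (t2 k).2) hA
  have u3 := a5b_add (t1.mono fun _ h => h.1) (Eventually.of_forall fun k => (t2 k).1) u1 u2
  have u4 := a5b_add (t1.mono fun k h => h.1.add (t2 k).1) t3 u3 t5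
  refine u4.congr' ?_
  filter_upwards [a5b_ne hl] with k hk
  congr 1
  funext x
  simp only [Pi.add_apply]
  field_simp
  ring

theorem DerL2.comp {u : ℝ → X → ℝ} {u' : X → ℝ} {s L : ℝ} {l : Filter ℝ} [l.IsCountablyGenerated]
    (hl : l ≤ 𝓝[≠] 0) (hu : ∀ r, MemLp (u r) 2 μ) (hu' : MemLp u' 2 μ) (φ φ' : ℝ → ℝ)
    (hφ : ∀ z, HasDerivAt φ (φ' z) z) (hc : Continuous φ') (hL : ∀ z, |φ' z| ≤ L)
    (h : DerL2 μ u u' s l) :
    DerL2 μ (fun r x => φ (u r x)) (fun x => φ' (u s x) * u' x) s l := by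
  have hφc : Continuous φ := continuous_iff_continuousAt.2 fun z => (hφ z).continuousAt
  have hLip : ∀ a b, |φ a - φ b| ≤ L * |a - b| := fun a b =>
    Convex.norm_image_sub_le_of_norm_hasDerivWithin_le (s := univ) (f := φ) (f' := φ')
      (fun z _ => (hφ z).hasDerivWithinAt) (fun z _ => hL z) convex_univ (mem_univ b) (mem_univ a)
  have he := fun k => (a5b_quot hu s k).sub hu'
  have m0 : ∀ r, AEStronglyMeasurable (fun x => φ (u r x)) μ := fun r =>
    hφc.comp_aestronglyMeasurable (hu r).1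
  have m1 : ∀ k : ℝ, AEStronglyMeasurable (fun x => φ (u s x + k * u' x)) μ := fun k =>
    hφc.comp_aestronglyMeasurable ((hu s).1.add (hu'.1.const_mul k))
  have m2 : ∀ k : ℝ, AEStronglyMeasurable
      (fun x => (φ (u s x + k * u' x) - φ (u s x)) / k - φ' (u s x) * u' x) μ := fun k => by
    simp only [div_eq_mul_inv]
    exact (((m1 k).sub (m0 s)).mul_const _).sub ((hc.comp_aestronglyMeasurable (hu s).1).mul hu'.1)
  have t1 : ∀ᶠ k in l, MemLp (fun x => (φ (u (s + k) x) - φ (u s x + k * u' x)) / k) 2 μ ∧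
      nsq μ (fun x => (φ (u (s + k) x) - φ (u s x + k * u' x)) / k) ≤
        L ^ 2 * nsq μ fun x => (u (s + k) x - u s x) / k - u' x := by
    filter_upwards [a5b_ne hl] with k hk
    refine a5b_le (he k) ?_ (Eventually.of_forall fun x => ?_)
    · simp only [div_eq_mul_inv]
      exact ((m0 _).sub (m1 k)).mul_const _
    · have e : (u (s + k) x - u s x) / k - u' x = (u (s + k) x - (u s x + k * u' x)) / k := by
        field_simp
        ring
      rw [e, abs_div, abs_div, ← mul_div_assoc]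
      exact div_le_div_of_nonneg_right (hLip _ _) (abs_nonneg _)
  have t2 : ∀ᶠ k in l, ∀ x, |(φ (u s x + k * u' x) - φ (u s x)) / k - φ' (u s x) * u' x| ≤
      2 * L * |u' x| := by
    filter_upwards [a5b_ne hl] with k hk x
    have e1 : |(φ (u s x + k * u' x) - φ (u s x)) / k| ≤ L * |u' x| := by
      rw [abs_div, div_le_iff₀ (abs_pos.2 hk)]
      refine (hLip _ _).trans (le_of_eq ?_)
      rw [add_sub_cancel_left, abs_mul]
      ring
    have e2 : |φ' (u s x) * u' x| ≤ L * |u' x| := by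
      rw [abs_mul]
      exact mul_le_mul_of_nonneg_right (hL _) (abs_nonneg _)
    exact (abs_sub _ _).trans (by linarith)
  have t3 : Tendsto (fun k => nsq μ
      fun x => (φ (u s x + k * u' x) - φ (u s x)) / k - φ' (u s x) * u' x) l (𝓝 0) := by
    have := tendsto_integral_filter_of_dominated_convergence (μ := μ) (l := l)
      (F := fun k x => ((φ (u s x + k * u' x) - φ (u s x)) / k - φ' (u s x) * u' x) ^ 2)
      (f := fun _ => (0 : ℝ)) (fun x => (2 * L) ^ 2 * u' x ^ 2)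
      (Eventually.of_forall fun k => (m2 k).pow 2) ?_ (hu'.integrable_sq.const_mul _) ?_
    · simpa only [nsq, integral_zero] using this
    · filter_upwards [t2] with k hk
      refine Eventually.of_forall fun x => ?_
      rw [Real.norm_eq_abs, abs_pow, ← sq_abs (u' x), ← mul_pow]
      exact pow_le_pow_left₀ (abs_nonneg _) (hk x) 2
    · refine Eventually.of_forall fun x => ?_
      have d1 : HasDerivAt (fun k : ℝ => u s x + k * u' x) (u' x) 0 := by
        simpa using ((hasDerivAt_id (0 : ℝ)).mul_const (u' x)).const_add (u s x)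
      have d2 : HasDerivAt (fun k : ℝ => φ (u s x + k * u' x)) (φ' (u s x) * u' x) 0 := by
        have := (hφ (u s x + 0 * u' x)).comp (0 : ℝ) d1
        simpa [Function.comp_def] using this
      have d3 := (hasDerivAt_iff_tendsto_slope_zero.1 d2).mono_left hl
      have d4 := (d3.sub_const (φ' (u s x) * u' x)).pow 2
      simpa [div_eq_inv_mul] using d4
  have t4 : ∀ᶠ k in l,
      MemLp (fun x => (φ (u s x + k * u' x) - φ (u s x)) / k - φ' (u s x) * u' x) 2 μ := by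
    filter_upwards [t2] with k hk
    exact (a5b_le hu' (m2 k) (Eventually.of_forall hk)).1
  have u1 := a5b_add (t1.mono fun _ h => h.1) t4 (a5b_small (t1.mono fun _ h => h.2) h) t3
  refine u1.congr fun k => ?_
  congr 1
  funext x
  ring

end Crest.Agent.R242
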