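import Crest.Agent.R242.A2
import Crest.Agent.R242.A4
import Crest.Agent.R242.A5

/-! Block A6: operations on test plans and integration along plans.
`Plan.cmpr`, `Plan.tracks` unpack the definitions (real times; `ext` clamps).
`Cmpr.cont`: approximate `g·1_{closedBall}` in `L¹(m)` by `exists_lip_approx`; for continuous bounded
`ψ`, dominated convergence.  `Plan.lintegral_ne_top`: Tonelli, Cauchy-Schwarz
(`ENNReal.lintegral_mul_le_Lp_mul_Lq`), compression on the ball of radius `R+1`. -/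

set_option autoImplicit false
set_option linter.unusedSectionVars false
set_option linter.unusedVariables false
open MeasureTheory Filter Set Metric
open scoped ENNReal NNReal Topology
open Crest.GeometryTopology.SyntheticRicci

noncomputable section
namespace Crest.Agent.R242

variable {X : Type*} [MetricSpace X] [MeasurableSpace X] [BorelSpace X] [ProperSpace X]
  {m : Measure X} [IsFiniteMeasureOnCompacts m] [m.IsOpenPosMeasure]

theorem Plan.prob {P : Measure (UCurve X)} (h : Plan m P) : IsProbabilityMeasure P := h.1.1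

theorem a6a_smul_mono {Y : Type*} [MeasurableSpace Y] {μ ν : Measure Y} {c d : ℝ≥0∞} (h : μ ≤ ν)
    (hcd : c ≤ d) : c • μ ≤ d • ν := by
  refine Measure.le_iff'.2 fun s => ?_
  simp only [Measure.smul_apply, smul_eq_mul]
  exact mul_le_mul' hcd (Measure.le_iff'.1 h s)

theorem Plan.cmpr {P : Measure (UCurve X)} (h : Plan m P) : ∃ C : ℝ, 0 < C ∧ Cmpr m P C := by
  obtain ⟨C, hC⟩ := h.1.2.1
  refine ⟨C + 1, by positivity, fun t ht => ?_⟩
  have := hC ⟨t, ht⟩
  rw [timeMarginal_eq] at this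
  refine this.trans (a6a_smul_mono le_rfl ?_)
  rw [← ENNReal.ofReal_coe_nnreal]
  exact ENNReal.ofReal_le_ofReal (by linarith)

theorem Plan.tracks {P : Measure (UCurve X)} (h : Plan m P) :
    ∃ (o : X) (R : ℝ), 0 ≤ R ∧ Tracks P o R := by
  obtain ⟨o, R, hR⟩ := h.2
  refine ⟨o, max R 0, le_max_right _ _, hR.mono fun γ hγ t => ?_⟩
  exact closedBall_subset_closedBall (le_max_left _ _) (hγ _)

theorem a6a_cmpr {P : Measure (UCurve X)} {C : ℝ} (hC : Cmpr m P C) :
    ∃ C : ℝ≥0, ∀ t : unitInterval, timeMarginal P t ≤ (C : ℝ≥0∞) • m :=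
  ⟨C.toNNReal, fun t => by rw [timeMarginal_eq]; exact hC t t.2⟩

theorem a6a_of_le {P Q : Measure (UCurve X)} (h : Plan m P) [IsProbabilityMeasure Q] {c : ℝ≥0∞}
    (hc : c ≠ ⊤) (hQ : Q ≤ c • P) : Plan m Q := by
  have hac : Q ≪ P := Measure.absolutelyContinuous_of_le_smul hQ
  obtain ⟨C, hC0, hC⟩ := h.cmpr
  obtain ⟨o, R, hR⟩ := h.2
  refine ⟨⟨inferInstance, a6a_cmpr (C := c.toReal * C) fun t ht => ?_, hac.ae_le h.1.2.2.1, ?_⟩,
    o, R, hac.ae_le hR⟩
  · refine (Measure.map_mono hQ (measurable_ext_at t)).trans ?_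
    rw [Measure.map_smul, ENNReal.ofReal_mul ENNReal.toReal_nonneg, ENNReal.ofReal_toReal hc,
      mul_smul]
    exact a6a_smul_mono (hC t ht) le_rfl
  · refine (lintegral_mono' hQ le_rfl).trans_lt ?_
    rw [lintegral_smul_measure]
    exact ENNReal.mul_lt_top hc.lt_top h.1.2.2.2

theorem Plan.cond {P : Measure (UCurve X)} (h : Plan m P) {A : Set (UCurve X)}
    (hA : MeasurableSet A) (h0 : P A ≠ 0) : Plan m (ProbabilityTheory.cond P A) := by
  have := h.prob
  have := ProbabilityTheory.cond_isProbabilityMeasure (μ := P) h0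
  exact a6a_of_le h (ENNReal.inv_ne_top.2 h0) (a6a_smul_mono Measure.restrict_le_self le_rfl)

/-- a measurable form of `HasL2Speed` -/
def a6a_G (γ : UCurve X) : Prop :=
  (∫⁻ t in Icc (0 : ℝ) 1, upperSpeed γ t ^ 2) < ⊤ ∧ ∀ s t : ℚ, 0 ≤ (s : ℝ) → (s : ℝ) ≤ t →
    (t : ℝ) ≤ 1 → ENNReal.ofReal (dist (γ.ext s) (γ.ext t)) ≤ ∫⁻ r in Icc (s : ℝ) t, upperSpeed γ r

theorem a6a_speed (γ : UCurve X) : Measurable (upperSpeed γ) :=
  Measurable.of_uncurry_left (f := fun (γ : UCurve X) t => upperSpeed γ t) measurable_upperSpeed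

theorem a6a_energy :
    Measurable fun γ : UCurve X => ∫⁻ t in Icc (0 : ℝ) 1, upperSpeed γ t ^ 2 :=
  (measurable_upperSpeed.pow_const 2).lintegral_prod_right'

theorem a6a_G_meas : MeasurableSet {γ : UCurve X | a6a_G γ} := by
  simp only [a6a_G, ofPred_and, ofPred_forall]
  refine (measurableSet_lt a6a_energy measurable_const).inter ?_
  refine MeasurableSet.iInter fun s => MeasurableSet.iInter fun t => MeasurableSet.iInter fun _ =>
    MeasurableSet.iInter fun _ => MeasurableSet.iInter fun _ => measurableSet_le ?_ ?_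
  · exact ((continuous_ext_at _).dist (continuous_ext_at _)).measurable.ennreal_ofReal
  · exact measurable_upperSpeed.lintegral_prod_right'

theorem a6a_G_speed {γ : UCurve X} (h : a6a_G γ) : HasL2Speed γ := by
  refine ⟨upperSpeed γ, a6a_speed γ, h.1, fun s t hst => ?_⟩
  rcases hst.eq_or_lt with he | hlt
  · rw [Subtype.ext he, edist_self]; exact zero_le
  obtain ⟨u, -, hu, hu'⟩ := Real.exists_seq_rat_strictAnti_tendsto (s : ℝ)
  obtain ⟨v, -, hv, hv'⟩ := Real.exists_seq_rat_strictMono_tendsto (t : ℝ)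
  have hc := continuous_ext_right γ
  have h1 : Tendsto (fun n => ENNReal.ofReal (dist (γ.ext (u n)) (γ.ext (v n)))) atTop
      (𝓝 (ENNReal.ofReal (dist (γ.ext s) (γ.ext t)))) :=
    ENNReal.tendsto_ofReal (((hc.tendsto _).comp hu').dist ((hc.tendsto _).comp hv'))
  rw [edist_dist, ← ext_coe, ← ext_coe]
  refine le_of_tendsto h1 ?_
  filter_upwards [hu'.eventually_lt hv' hlt] with n hn
  exact (h.2 (u n) (v n) (s.2.1.trans (hu n).le) hn.le ((hv n).le.trans t.2.2)).trans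
    (lintegral_mono_set (Icc_subset_Icc (hu n).le (hv n).le))

theorem a6a_energy_subc (γ : UCurve X) {a b : ℝ} (ha : 0 ≤ a) (hab : a < b) (hb : b ≤ 1) :
    ∫⁻ t in Icc (0 : ℝ) 1, upperSpeed (subc γ a b) t ^ 2 ≤
      ∫⁻ t in Icc (0 : ℝ) 1, upperSpeed γ t ^ 2 := by
  have hm : Measurable fun t => upperSpeed γ t ^ 2 :=
    (a6a_speed γ).pow_const 2
  refine le_trans ?_ (lintegral_mono_set (Icc_subset_Icc ha hb))
  rw [← lintegral_affine hab _ hm, ← setLIntegral_congr Ioo_ae_eq_Icc,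
    ← setLIntegral_congr Ioo_ae_eq_Icc]
  refine setLIntegral_mono' measurableSet_Ioo fun t ht => ?_
  rw [upperSpeed_subc γ ha hab hb ht, mul_pow]
  refine mul_le_mul_left ?_ _
  rw [sq]
  exact mul_le_of_le_one_left' (ENNReal.ofReal_le_one.2 (by linarith))

theorem Plan.map_subc {P : Measure (UCurve X)} (h : Plan m P) {a b : ℝ} (ha : 0 ≤ a)
    (hab : a < b) (hb : b ≤ 1) : Plan m (P.map fun γ => subc γ a b) := by
  have := h.prob
  have hm := measurable_subc (X := X) a b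
  obtain ⟨C, -, hC⟩ := h.cmpr
  obtain ⟨o, R, -, hR⟩ := h.tracks
  refine ⟨⟨Measure.isProbabilityMeasure_map hm.aemeasurable, a6a_cmpr (C := C) fun t ht => ?_, ?_, ?_⟩,
    o, R, ?_⟩
  · have ht' : a + t * (b - a) ∈ Icc (0 : ℝ) 1 := by
      constructor <;> nlinarith [ht.1, ht.2]
    refine le_trans (le_of_eq ?_) (hC _ ht')
    rw [marg, marg, Measure.map_map (measurable_ext_at t) hm]
    congr 1
    exact funext fun γ => subc_ext γ a b ht
  · refine Eventually.mono ((ae_map_iff hm.aemeasurable a6a_G_meas).2 ?_) fun γ => a6a_G_speed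
    filter_upwards [h.1.2.2.1, ae_lt_top a6a_energy h.1.2.2.2.ne] with γ h1 h2
    exact ⟨(a6a_energy_subc γ ha hab hb).trans_lt h2, fun s t hs hst ht =>
      edist_le_upperSpeed (hasL2Speed_subc h1 ha hab hb) hs hst ht⟩
  · rw [lintegral_map a6a_energy hm]
    exact (lintegral_mono fun γ => a6a_energy_subc γ ha hab hb).trans_lt h.1.2.2.2
  · refine (ae_map_iff hm.aemeasurable ?_).2 (hR.mono fun γ hγ t => hγ _)
    simp only [ofPred_forall, ← ext_coe]
    exact (isClosed_iInter fun t : unitInterval =>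
      isClosed_closedBall.preimage (continuous_ext_at (X := X) t)).measurableSet

theorem plan_of_geo {P : Measure (UCurve X)} [IsProbabilityMeasure P] {C : ℝ} (hC : Cmpr m P C)
    {o : X} {R : ℝ}
    (hg : ∀ᵐ γ ∂P, IsCSGeodesic γ ∧ γ.ext 0 ∈ closedBall o R ∧ γ.ext 1 ∈ closedBall o R) :
    Plan m P ∧ Tracks P o (3 * R) := by
  have hT : Tracks P o (3 * R) := hg.mono fun γ hγ t => geo_mem_ball hγ.1 hγ.2.1 hγ.2.2 t
  refine ⟨⟨⟨inferInstance, a6a_cmpr hC, hg.mono fun γ hγ => hasL2Speed_geo hγ.1, ?_⟩, o, 3 * R,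
    hT.mono fun γ hγ t => ext_coe γ t ▸ hγ t⟩, hT⟩
  refine (lintegral_mono_ae (g := fun _ => ENNReal.ofReal (2 * R) ^ 2)
    (hg.mono fun γ hγ => ?_)).trans_lt ?_
  · rw [← setLIntegral_congr Ioo_ae_eq_Icc,
      setLIntegral_congr_fun measurableSet_Ioo (g := fun _ => ENNReal.ofReal (len γ) ^ 2)
        fun t ht => by simp only [upperSpeed_geo hγ.1 ht]]
    have h1 : len γ ≤ 2 * R := by
      have := dist_triangle_right (γ.ext 0) (γ.ext 1) o
      have h0 := mem_closedBall.1 hγ.2.1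
      have h1 := mem_closedBall.1 hγ.2.2
      unfold len
      linarith
    simp only [lintegral_const, MeasurableSet.univ, Measure.restrict_apply, univ_inter,
      Real.volume_Ioo, sub_zero, ENNReal.ofReal_one, mul_one]
    exact pow_le_pow_left' (ENNReal.ofReal_le_ofReal h1) 2
  · rw [lintegral_const, measure_univ, mul_one]
    exact ENNReal.pow_lt_top ENNReal.ofReal_lt_top

theorem Cmpr.ae {P : Measure (UCurve X)} {C : ℝ} (h : Cmpr m P C) {p : X → Prop}
    (hp : ∀ᵐ x ∂m, p x) {t : ℝ} (ht : t ∈ Icc (0 : ℝ) 1) : ∀ᵐ γ ∂P, p (γ.ext t) := by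
  exact ae_of_ae_map (measurable_ext_at t).aemeasurable
    ((Measure.absolutelyContinuous_of_le_smul (h t ht)).ae_le hp)

theorem Cmpr.ae_ae {P : Measure (UCurve X)} [IsProbabilityMeasure P] {C : ℝ} (h : Cmpr m P C)
    {p : X → Prop} (hp : ∀ᵐ x ∂m, p x) :
    ∀ᵐ γ ∂P, ∀ᵐ t ∂(volume.restrict (Icc (0 : ℝ) 1)), p (γ.ext t) := by
  obtain ⟨N, hN, hNm, hN0⟩ := exists_measurable_superset_of_null (ae_iff.1 hp)
  have h1 : ∀ᵐ x ∂m, x ∉ N := measure_eq_zero_iff_ae_notMem.1 hN0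
  have h2 : ∀ᵐ γ ∂P, ∀ᵐ t ∂(volume.restrict (Icc (0 : ℝ) 1)), γ.ext t ∉ N := by
    refine (Measure.ae_ae_comm (p := fun (γ : UCurve X) t => γ.ext t ∉ N)
      (measurable_ext hNm.compl)).2 ?_
    filter_upwards [ae_restrict_mem measurableSet_Icc] with t ht
    exact h.ae h1 ht
  exact h2.mono fun γ hγ => hγ.mono fun t ht => by_contra fun hc => ht (hN hc)

theorem a6b_le {P : Measure (UCurve X)} {C : ℝ} (h : Cmpr m P C) {o : X} {R : ℝ}
    (hT : Tracks P o R) {t : ℝ} (ht : t ∈ Icc (0 : ℝ) 1) :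
    marg P t ≤ ENNReal.ofReal C • m.restrict (closedBall o R) := by
  have h1 : ∀ᵐ x ∂marg P t, x ∈ closedBall o R :=
    (ae_map_iff (measurable_ext_at t).aemeasurable measurableSet_closedBall).2 (hT.mono fun γ hγ => hγ t)
  rw [← Measure.restrict_eq_self_of_ae_mem h1, ← Measure.restrict_smul]
  exact Measure.restrict_mono subset_rfl (h t ht)

theorem Cmpr.integrable {P : Measure (UCurve X)} {C : ℝ} (h : Cmpr m P C) {o : X} {R : ℝ}
    (hT : Tracks P o R) {g : X → ℝ} (hg : IntegrableOn g (closedBall o R) m) {t : ℝ}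
    (ht : t ∈ Icc (0 : ℝ) 1) : Integrable (fun γ : UCurve X => g (γ.ext t)) P := by
  exact ((hg.integrable.smul_measure ENNReal.ofReal_ne_top).mono_measure (a6b_le h hT ht)).comp_measurable
    (measurable_ext_at t)

theorem Cmpr.integral_abs_le {P : Measure (UCurve X)} {C : ℝ} (hC : 0 ≤ C) (h : Cmpr m P C)
    {o : X} {R : ℝ} (hT : Tracks P o R) {g : X → ℝ} (hg : IntegrableOn g (closedBall o R) m)
    {t : ℝ} (ht : t ∈ Icc (0 : ℝ) 1) :
    ∫ γ, |g (γ.ext t)| ∂P ≤ C * ∫ x in closedBall o R, |g x| ∂m := by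
  have h1 := hg.integrable.abs.smul_measure (ENNReal.ofReal_ne_top (r := C))
  have h2 := integral_mono_measure (a6b_le h hT ht) (.of_forall fun x => abs_nonneg (g x)) h1
  rwa [marg, integral_map (measurable_ext_at t).aemeasurable
    (h1.mono_measure (a6b_le h hT ht)).aestronglyMeasurable, integral_smul_measure,
    ENNReal.toReal_ofReal hC] at h2

theorem Cmpr.integral_marg {P : Measure (UCurve X)} {C : ℝ} (h : Cmpr m P C) {g : X → ℝ}
    (hg : AEStronglyMeasurable g m) {t : ℝ} (ht : t ∈ Icc (0 : ℝ) 1) :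
    ∫ x, g x ∂(marg P t) = ∫ γ, g (γ.ext t) ∂P := by
  exact integral_map (measurable_ext_at t).aemeasurable
    (hg.mono_ac (Measure.absolutelyContinuous_of_le_smul (h t ht)))

/-- Weak continuity of the marginals against integrable functions. -/
theorem Cmpr.cont {P : Measure (UCurve X)} [IsProbabilityMeasure P] {C : ℝ} (h : Cmpr m P C)
    {o : X} {R : ℝ} (hT : Tracks P o R) {g : X → ℝ} (hg : IntegrableOn g (closedBall o R) m) :
    ContinuousOn (fun t => ∫ γ, g (γ.ext t) ∂P) (Icc (0 : ℝ) 1) := by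
  have h' : Cmpr m P (max C 0 + 1) := fun t ht => (h t ht).trans
    (Measure.le_iff'.2 fun s => mul_le_mul_left
      (ENNReal.ofReal_le_ofReal ((le_max_left _ _).trans (le_add_of_nonneg_right zero_le_one))) _)
  have hC : 0 < max C 0 + 1 := by positivity
  have : IsFiniteMeasure (m.restrict (closedBall o R)) :=
    isFiniteMeasure_restrict.2 (isCompact_closedBall o R).measure_lt_top.ne
  refine continuousOn_of_uniform_approx_of_continuousOn fun u hu => ?_
  obtain ⟨ε, hε, hu⟩ := Metric.mem_uniformity_dist.1 hu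
  obtain ⟨ψ, h1, h2⟩ := hg.integrable.exists_boundedContinuous_integral_sub_le
    (div_pos (half_pos hε) hC)
  refine ⟨fun t => ∫ γ, ψ (γ.ext t) ∂P, Continuous.continuousOn ?_, fun t ht => hu ?_⟩
  · exact continuous_of_dominated (bound := fun _ => ‖ψ‖)
      (fun t => (ψ.continuous.comp (continuous_ext_at t)).aestronglyMeasurable)
      (fun t => .of_forall fun γ => ψ.norm_coe_le_norm _) (integrable_const _)
      (.of_forall fun γ => ψ.continuous.comp (continuous_ext_right γ))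
  · rw [Real.dist_eq, ← integral_sub (h.integrable hT hg ht) (h.integrable hT h2 ht)]
    refine (abs_integral_le_integral_abs.trans ((h'.integral_abs_le hC.le hT (g := fun x => g x - ψ x)
      (hg.integrable.sub h2) ht).trans ((le_div_iff₀' hC).1 h1))).trans_lt (half_lt_self hε)

theorem a6c_le {P : Measure (UCurve X)} (h : Plan m P) :
    ∃ (o : X) (R : ℝ) (K : ℝ≥0∞), K ≠ ⊤ ∧ Tracks P o R ∧ ∀ D : X → ℝ,
      AEStronglyMeasurable D (m.restrict (ball o (R + 1))) →
      ∫⁻ γ, (∫⁻ t in Icc (0 : ℝ) 1, ENNReal.ofReal (D (γ.ext t)) * upperSpeed γ t) ∂P ≤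
        K * eLpNorm D 2 (m.restrict (ball o (R + 1))) := by
  obtain ⟨C, -, hC⟩ := h.cmpr
  obtain ⟨o, R, -, hT⟩ := h.tracks
  have := h.prob
  have hE := h.1.2.2.2
  set E := ∫⁻ γ, (∫⁻ t in Icc (0 : ℝ) 1, upperSpeed γ t ^ 2) ∂P with hEdef
  refine ⟨o, R, ENNReal.ofReal C ^ (1 / 2 : ℝ) * E ^ (1 / 2 : ℝ),
    ENNReal.mul_ne_top (ENNReal.rpow_ne_top_of_nonneg (by norm_num) ENNReal.ofReal_ne_top)
      (ENNReal.rpow_ne_top_of_nonneg (by norm_num) hE.ne), hT, fun D hD => ?_⟩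
  set B := ball o (R + 1) with hB
  have hBm : MeasurableSet B := measurableSet_ball
  set g : X → ℝ≥0∞ := B.indicator fun x => ‖hD.mk D x‖ₑ with hg
  have hgm : Measurable g := hD.stronglyMeasurable_mk.measurable.enorm.indicator hBm
  have hae : ∀ᵐ x ∂m, x ∈ B → D x = hD.mk D x := (ae_restrict_iff' hBm).1 hD.ae_eq_mk
  set lam : Measure ℝ := volume.restrict (Icc (0 : ℝ) 1) with hlam
  have hf : Measurable fun p : UCurve X × ℝ => g (p.1.ext p.2) := hgm.comp measurable_ext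
  have hv : Measurable fun p : UCurve X × ℝ => upperSpeed p.1 p.2 := measurable_upperSpeed
  have h1 : ∫⁻ γ, (∫⁻ t, ENNReal.ofReal (D (γ.ext t)) * upperSpeed γ t ∂lam) ∂P ≤
      ∫⁻ γ, (∫⁻ t, g (γ.ext t) * upperSpeed γ t ∂lam) ∂P := by
    refine lintegral_mono_ae ?_
    filter_upwards [hC.ae_ae hae, hT] with γ h1 h2
    refine lintegral_mono_ae ?_
    filter_upwards [h1] with t ht
    have hm : γ.ext t ∈ B := closedBall_subset_ball (by linarith) (h2 t)
    refine mul_le_mul_left ?_ _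
    rw [hg, indicator_of_mem hm, ← ht hm]
    exact Real.ofReal_le_enorm _
  have h2 : ∫⁻ γ, (∫⁻ t, g (γ.ext t) * upperSpeed γ t ∂lam) ∂P =
      ∫⁻ p : UCurve X × ℝ, g (p.1.ext p.2) * upperSpeed p.1 p.2 ∂(P.prod lam) :=
    (lintegral_prod _ (hf.mul hv).aemeasurable).symm
  have h3 := ENNReal.lintegral_mul_le_Lp_mul_Lq (P.prod lam) Real.HolderConjugate.two_two
    hf.aemeasurable hv.aemeasurable
  have h4 : ∫⁻ p : UCurve X × ℝ, upperSpeed p.1 p.2 ^ (2 : ℝ) ∂(P.prod lam) = E := by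
    rw [lintegral_prod _ (hv.pow_const _).aemeasurable, hEdef]
    simp only [ENNReal.rpow_two]
  have h5 : ∫⁻ p : UCurve X × ℝ, g (p.1.ext p.2) ^ (2 : ℝ) ∂(P.prod lam) ≤
      ENNReal.ofReal C * ∫⁻ x in B, ‖D x‖ₑ ^ (2 : ℝ) ∂m := by
    rw [lintegral_prod_symm _ (hf.pow_const _).aemeasurable]
    have e : ∫⁻ x, g x ^ (2 : ℝ) ∂m = ∫⁻ x in B, ‖D x‖ₑ ^ (2 : ℝ) ∂m := by
      rw [← lintegral_indicator hBm]
      refine lintegral_congr_ae ?_
      filter_upwards [hae] with x hx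
      by_cases hm : x ∈ B
      · rw [hg, indicator_of_mem hm, indicator_of_mem hm, hx hm]
      · rw [hg, indicator_of_notMem hm, indicator_of_notMem hm]
        exact ENNReal.zero_rpow_of_pos (by norm_num)
    calc ∫⁻ t, ∫⁻ γ, g (γ.ext t) ^ (2 : ℝ) ∂P ∂lam
        ≤ ∫⁻ _t, ENNReal.ofReal C * ∫⁻ x, g x ^ (2 : ℝ) ∂m ∂lam := by
          refine lintegral_mono_ae ?_
          filter_upwards [ae_restrict_mem measurableSet_Icc] with t ht
          rw [← lintegral_map (hgm.pow_const _) (measurable_ext_at t), ← smul_eq_mul,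
            ← lintegral_smul_measure]
          exact lintegral_mono' (hC t ht) le_rfl
      _ = _ := by rw [lintegral_const, e, hlam]; simp
  rw [eLpNorm_eq_lintegral_rpow_enorm_toReal (by norm_num) (by norm_num)]
  refine h1.trans (h2.le.trans (h3.trans ?_))
  rw [h4, mul_right_comm, ENNReal.toReal_ofNat, 
    ← ENNReal.mul_rpow_of_nonneg (ENNReal.ofReal C) _ (by norm_num : (0 : ℝ) ≤ 1 / 2)]
  exact mul_le_mul_left (ENNReal.rpow_le_rpow h5 (by norm_num : (0 : ℝ) ≤ 1 / 2)) _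

theorem Plan.lintegral_ne_top {P : Measure (UCurve X)} (h : Plan m P) {D : X → ℝ}
    (hD : IsL2OnBalls m D) :
    ∫⁻ γ, (∫⁻ t in Icc (0 : ℝ) 1, ENNReal.ofReal (D (γ.ext t)) * upperSpeed γ t) ∂P ≠ ⊤ := by
  obtain ⟨o, R, K, hK, -, hle⟩ := a6c_le h
  exact ne_top_of_le_ne_top (ENNReal.mul_ne_top hK (hD o (R + 1)).2.ne) (hle D (hD o (R + 1)).1)

/-- Quantitative form, used for limits of gradients. -/
theorem Plan.lintegral_le {P : Measure (UCurve X)} (h : Plan m P) :
    ∃ (o : X) (R : ℝ) (K : ℝ≥0∞), K ≠ ⊤ ∧ Tracks P o R ∧ ∀ D : X → ℝ,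
      AEStronglyMeasurable D (m.restrict (ball o (R + 1))) →
      ∫⁻ γ, (∫⁻ t in Icc (0 : ℝ) 1, ENNReal.ofReal (D (γ.ext t)) * upperSpeed γ t) ∂P ≤
        K * eLpNorm D 2 (m.restrict (ball o (R + 1))) :=
  a6c_le h

end Crest.Agent.R242
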