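import Crest.Agent.R242.A6

/-! Block B1: representatives and the pathwise form of the weak upper gradient inequality.
`wug_congr`: `Cmpr.ae` at times `0`, `1` and `Cmpr.ae_ae`.  `Dw_congr`: the predicates
`IsMinWUGLoc m f` and `IsMinWUGLoc m g` are equal (`funext`, `propext`), then `unfold minWeakGrad`.
`wug_path`: for `a = b` trivial; for `a < b` and measurable `A` with `P A ≠ 0` apply the definition to
`(cond P A).map (subc · a b)` (`Plan.cond`, `Plan.map_subc`, `upperSpeed_subc`, `lintegral_affine`),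
then `ae_le_of_forall_setLIntegral_le_of_sigmaFinite`.  `wug_path_ae`: measurability in `(γ, t)` of
both sides and `Measure.ae_ae_comm`-type swap. -/

set_option autoImplicit false
set_option linter.unusedSectionVars false
set_option linter.unusedVariables false
open MeasureTheory Filter Set Metric
open scoped ENNReal NNReal Topology
open Crest.GeometryTopology.SyntheticRicci

noncomputable section
namespace Crest.Agent.R242

variable {X : Type*} [MetricSpace X] [MeasurableSpace X] [BorelSpace X] [ProperSpace X]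
  {m : Measure X} [IsFiniteMeasureOnCompacts m] [m.IsOpenPosMeasure]

theorem IsL2OnBalls.aesm {f : X → ℝ} (h : IsL2OnBalls m f) : AEStronglyMeasurable f m := by
  rcases isEmpty_or_nonempty X with hX | ⟨⟨o⟩⟩
  · rw [Measure.eq_zero_of_isEmpty m]
    exact aestronglyMeasurable_zero_measure f
  · rw [← Measure.restrict_univ (μ := m), ← Metric.iUnion_ball_nat o,
      aestronglyMeasurable_iUnion_iff]
    exact fun n => (h o n).1

theorem IsL2OnBalls.congr {f g : X → ℝ} (h : IsL2OnBalls m f) (hfg : f =ᵐ[m] g) :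
    IsL2OnBalls m g := by
  exact fun o R => (h o R).ae_eq (ae_restrict_of_ae hfg)

theorem l2b_of_memLp {f : X → ℝ} (h : MemLp f 2 m) : IsL2OnBalls m f := by
  exact fun o R => h.restrict _

theorem b1a_fin_ball (o : X) (R : ℝ) : IsFiniteMeasure (m.restrict (ball o R)) :=
  ⟨by rw [Measure.restrict_apply_univ]; exact measure_ball_lt_top⟩

theorem l2b_of_bdd {f : X → ℝ} (hf : AEStronglyMeasurable f m)
    (h : ∀ (o : X) (R : ℝ), ∃ M : ℝ, ∀ᵐ x ∂m, x ∈ ball o R → |f x| ≤ M) : IsL2OnBalls m f := by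
  intro o R
  obtain ⟨M, hM⟩ := h o R
  have := b1a_fin_ball (m := m) o R
  refine MemLp.of_bound hf.restrict M ?_
  rw [ae_restrict_iff' measurableSet_ball]
  exact hM

theorem l2b_of_continuous {f : X → ℝ} (hf : Continuous f) : IsL2OnBalls m f := by
  refine l2b_of_bdd hf.aestronglyMeasurable fun o R => ?_
  obtain ⟨M, hM⟩ := (isCompact_closedBall o R).exists_bound_of_continuousOn hf.continuousOn
  exact ⟨M, Eventually.of_forall fun x hx => hM x (ball_subset_closedBall hx)⟩

theorem IsL2OnBalls.integrableOn {f : X → ℝ} (h : IsL2OnBalls m f) (o : X) (R : ℝ) :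
    IntegrableOn f (closedBall o R) m := by
  have := b1a_fin_ball (m := m) o (R + 1)
  have h1 : IntegrableOn f (ball o (R + 1)) m := (h o (R + 1)).integrable (by norm_num)
  exact h1.mono_set (closedBall_subset_ball (lt_add_one R))

theorem IsL2OnBalls.integrableOn_mul {f g : X → ℝ} (hf : IsL2OnBalls m f) (hg : IsL2OnBalls m g)
    (o : X) (R : ℝ) : IntegrableOn (fun x => f x * g x) (closedBall o R) m := by
  have h1 : IntegrableOn (fun x => f x * g x) (ball o (R + 1)) m :=
    (hf o (R + 1)).integrable_mul (hg o (R + 1))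
  exact h1.mono_set (closedBall_subset_ball (lt_add_one R))

theorem b1b_core {f f' D D' : X → ℝ} (h : IsWUGLoc m f D) (hf : f =ᵐ[m] f')
    (hD' : IsL2OnBalls m D') (hD : D ≤ᵐ[m] D') : IsWUGLoc m f' D' := by
  refine ⟨hD', ?_, fun P hP hT => ?_⟩
  · filter_upwards [h.2.1, hD] with x h1 h2 using h1.trans h2
  have hPl : Plan m P := ⟨hP, hT⟩
  haveI := hPl.prob
  obtain ⟨C, -, hC⟩ := hPl.cmpr
  have h0 := hC.ae (p := fun x => f x = f' x) hf (t := 0) ⟨le_rfl, zero_le_one⟩
  have h1 := hC.ae (p := fun x => f x = f' x) hf (t := 1) ⟨zero_le_one, le_rfl⟩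
  have h2 := hC.ae_ae (p := fun x => D x ≤ D' x) hD
  calc (∫⁻ γ, ENNReal.ofReal |f' (γ.toMap 1) - f' (γ.toMap 0)| ∂P)
      = ∫⁻ γ, ENNReal.ofReal |f (γ.toMap 1) - f (γ.toMap 0)| ∂P := by
        refine lintegral_congr_ae ?_
        filter_upwards [h0, h1] with γ e0 e1
        rw [ext_zero] at e0
        rw [ext_one] at e1
        rw [e0, e1]
    _ ≤ _ := h.2.2 P hP hT
    _ ≤ _ := by
        refine lintegral_mono_ae ?_
        filter_upwards [h2] with γ e
        refine lintegral_mono_ae ?_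
        filter_upwards [e] with t et
        exact mul_le_mul_left (ENNReal.ofReal_le_ofReal et) _

theorem wug_congr {f f' D D' : X → ℝ} (h : IsWUGLoc m f D) (hf : f =ᵐ[m] f') (hD : D =ᵐ[m] D') :
    IsWUGLoc m f' D' := by
  exact b1b_core h hf (IsL2OnBalls.congr h.1 hD) hD.le

theorem wug_mono {f D D' : X → ℝ} (h : IsWUGLoc m f D) (hD' : IsL2OnBalls m D')
    (hD : D ≤ᵐ[m] D') : IsWUGLoc m f D' := by
  exact b1b_core h (ae_eq_refl _) hD' hD

theorem b1b_min {f g : X → ℝ} (h : f =ᵐ[m] g) : IsMinWUGLoc m f = IsMinWUGLoc m g := by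
  have key : ∀ {f g : X → ℝ}, f =ᵐ[m] g → ∀ D, IsMinWUGLoc m f D → IsMinWUGLoc m g D :=
    fun {f g} h D hD => ⟨wug_congr hD.1 h (ae_eq_refl _),
      fun D' hD' => hD.2 D' (wug_congr hD' h.symm (ae_eq_refl _))⟩
  funext D
  exact propext ⟨key h D, key h.symm D⟩

theorem Dw_congr {f g : X → ℝ} (h : f =ᵐ[m] g) : Dw m f = Dw m g := by
  have e := b1b_min h
  have key : ∀ p q : (X → ℝ) → Prop, p = q →
      (open Classical in if h : ∃ D, p D then Classical.choose h else (0 : X → ℝ)) =
        (open Classical in if h : ∃ D, q D then Classical.choose h else (0 : X → ℝ)) := by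
    rintro p q rfl
    rfl
  exact key _ _ e

theorem SL.congr {f g : X → ℝ} (hf : SL m f) (h : f =ᵐ[m] g) : SL m g := by
  refine ⟨IsL2OnBalls.congr hf.1 h, ?_⟩
  rw [← b1b_min h]
  exact hf.2

theorem SW.congr {f g : X → ℝ} (hf : SW m f) (h : f =ᵐ[m] g) : SW m g := by
  refine ⟨(memLp_congr_ae h).1 hf.1, SL.congr hf.2.1 h, ?_⟩
  have e : minWeakGrad m f = minWeakGrad m g := Dw_congr h
  rw [← e]
  exact hf.2.2

theorem gam_congr {f f' g g' : X → ℝ} (hf : f =ᵐ[m] f') (hg : g =ᵐ[m] g') :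
    Gam m f g = Gam m f' g' := by
  have e1 : minWeakGrad m (fun y => f y + g y) = minWeakGrad m (fun y => f' y + g' y) :=
    Dw_congr (hf.add hg)
  have e2 : minWeakGrad m (fun y => f y - g y) = minWeakGrad m (fun y => f' y - g' y) :=
    Dw_congr (hf.sub hg)
  funext x
  simp only [gradPairing]
  rw [e1, e2]

theorem wug_path {f D : X → ℝ} (hf : Measurable f) (hD : Measurable D) (h : IsWUGLoc m f D)
    {P : Measure (UCurve X)} (hP : Plan m P) {a b : ℝ} (ha : 0 ≤ a) (hab : a ≤ b) (hb : b ≤ 1) :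
    ∀ᵐ γ ∂P, ENNReal.ofReal |f (γ.ext b) - f (γ.ext a)| ≤
      ∫⁻ t in Icc a b, ENNReal.ofReal (D (γ.ext t)) * upperSpeed γ t := by
  rcases hab.eq_or_lt with rfl | hab
  · exact Eventually.of_forall fun γ => by simp
  have := hP.prob
  have hm : Measurable fun p : UCurve X × ℝ => ENNReal.ofReal (D (p.1.ext p.2)) * upperSpeed p.1 p.2 :=
    (hD.comp measurable_ext).ennreal_ofReal.mul measurable_upperSpeed
  have hl : ∀ s t : ℝ, Measurable fun γ : UCurve X => ENNReal.ofReal |f (γ.ext t) - f (γ.ext s)| :=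
    fun s t => ((hf.comp (measurable_ext_at t)).sub (hf.comp (measurable_ext_at s))).abs.ennreal_ofReal
  refine ae_le_of_forall_setLIntegral_le_of_sigmaFinite (hl a b) fun A hA _ => ?_
  by_cases h0 : P A = 0
  · rw [Measure.restrict_eq_zero.2 h0, lintegral_zero_measure, lintegral_zero_measure]
  obtain ⟨h1, h2⟩ := (hP.cond hA h0).map_subc ha hab hb
  have h3 := h.2.2 _ h1 h2
  simp only [← ext_zero, ← ext_one] at h3
  rw [lintegral_map (hl 0 1) (measurable_subc a b),
    lintegral_map hm.lintegral_prod_right' (measurable_subc a b), ProbabilityTheory.cond,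
    lintegral_smul_measure, lintegral_smul_measure, smul_eq_mul, smul_eq_mul,
    ENNReal.mul_le_mul_iff_right (ENNReal.inv_ne_zero.2 (measure_ne_top P A)) (ENNReal.inv_ne_top.2 h0)] at h3
  convert h3 using 3 with γ γ
  · rw [subc_ext γ a b (left_mem_Icc.2 zero_le_one), subc_ext γ a b (right_mem_Icc.2 zero_le_one),
      zero_mul, add_zero, one_mul, add_sub_cancel]
  · rw [← lintegral_affine hab (fun t => ENNReal.ofReal (D (γ.ext t)) * upperSpeed γ t)
      (hm.comp measurable_prodMk_left), ← setLIntegral_congr Ioo_ae_eq_Icc,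
      ← setLIntegral_congr (Ioo_ae_eq_Icc (a := (0 : ℝ)) (b := 1))]
    refine setLIntegral_congr_fun measurableSet_Ioo fun t ht => ?_
    dsimp only
    rw [upperSpeed_subc γ ha hab hb ht, subc_ext γ a b (Ioo_subset_Icc_self ht), mul_left_comm]

theorem b1d_measurable {D : X → ℝ} (hD : Measurable D) (a : ℝ) :
    Measurable fun p : UCurve X × ℝ =>
      ∫⁻ t in Icc a p.2, ENNReal.ofReal (D (p.1.ext t)) * upperSpeed p.1 t := by
  have hF : Measurable fun q : UCurve X × ℝ =>
      ENNReal.ofReal (D (q.1.ext q.2)) * upperSpeed q.1 q.2 :=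
    (hD.comp measurable_ext).ennreal_ofReal.mul measurable_upperSpeed
  have hS : MeasurableSet {q : (UCurve X × ℝ) × ℝ | a ≤ q.2 ∧ q.2 ≤ q.1.2} :=
    (measurableSet_le measurable_const measurable_snd).inter
      (measurableSet_le measurable_snd measurable_fst.snd)
  have hG := ((hF.comp (measurable_fst.fst.prodMk measurable_snd)).indicator hS).lintegral_prod_right'
    (ν := (volume : Measure ℝ))
  convert hG using 2 with p
  rw [← lintegral_indicator measurableSet_Icc]
  rfl

theorem wug_path_ae {f D : X → ℝ} (hf : Measurable f) (hD : Measurable D) (h : IsWUGLoc m f D)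
    {P : Measure (UCurve X)} (hP : Plan m P) {a : ℝ} (ha : 0 ≤ a) (ha1 : a ≤ 1) :
    ∀ᵐ γ ∂P, ∀ᵐ b ∂(volume.restrict (Icc (0 : ℝ) 1)), a ≤ b →
      ENNReal.ofReal |f (γ.ext b) - f (γ.ext a)| ≤
        ∫⁻ t in Icc a b, ENNReal.ofReal (D (γ.ext t)) * upperSpeed γ t := by
  have := hP.prob
  have hL : Measurable fun p : UCurve X × ℝ => ENNReal.ofReal |f (p.1.ext p.2) - f (p.1.ext a)| :=
    (((hf.comp measurable_ext).sub
      (hf.comp ((measurable_ext_at a).comp measurable_fst))).abs).ennreal_ofReal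
  have hS : MeasurableSet {p : UCurve X × ℝ | a ≤ p.2 →
      ENNReal.ofReal |f (p.1.ext p.2) - f (p.1.ext a)| ≤
        ∫⁻ t in Icc a p.2, ENNReal.ofReal (D (p.1.ext t)) * upperSpeed p.1 t} :=
    (measurableSet_le measurable_const measurable_snd).imp
      (measurableSet_le hL (b1d_measurable hD a))
  refine (Measure.ae_ae_comm (p := fun (γ : UCurve X) (b : ℝ) => a ≤ b →
      ENNReal.ofReal |f (γ.ext b) - f (γ.ext a)| ≤
        ∫⁻ t in Icc a b, ENNReal.ofReal (D (γ.ext t)) * upperSpeed γ t) hS).2 ?_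
  filter_upwards [ae_restrict_mem measurableSet_Icc] with b hb
  by_cases hab : a ≤ b
  · filter_upwards [wug_path hf hD h hP ha hab hb.2] with γ hγ _ using hγ
  · exact Eventually.of_forall fun γ h' => absurd h' hab

theorem wug_of_path {f D : X → ℝ} (hD : IsL2OnBalls m D) (hD0 : ∀ᵐ x ∂m, 0 ≤ D x)
    (h : ∀ P : Measure (UCurve X), Plan m P → ∀ᵐ γ ∂P,
      ENNReal.ofReal |f (γ.ext 1) - f (γ.ext 0)| ≤
        ∫⁻ t in Icc (0 : ℝ) 1, ENNReal.ofReal (D (γ.ext t)) * upperSpeed γ t) :
    IsWUGLoc m f D := by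
  refine ⟨hD, hD0, fun P hP hT => lintegral_mono_ae ?_⟩
  filter_upwards [h P ⟨hP, hT⟩] with γ e
  rwa [ext_zero, ext_one] at e

end Crest.Agent.R242
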