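import Crest.Agent.R242.B1
import Crest.Agent.R242.A3

/-! Block B2: lattice property, closure, existence of the minimal weak upper gradient.
`wug_iInf`: measurable representatives, `wug_path` at all rational times, `line_iInf`
(`⨅ k, ofReal (D k) * sp = ofReal (⨅ k, D k) * sp` where `sp < ⊤`).
`wug_limit`: both sides converge (`Cmpr.integral_abs_le`-type bound for the left side,
`Plan.lintegral_le` for `|D n - D|`).
`exists_min`: `θ > 0` with `∫⁻ θ < ⊤` (`exists_pos_lintegral_lt_of_sigmaFinite`); minimise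
`I D = ∫ θ · D/(1+D)` (or `arctan D`) over weak upper gradients; for a minimising sequence `D k` take
`D* = ⨅ k, D k` (`wug_iInf`); for any other `D'`, `min D* D'` is a weak upper gradient with
`I ≥ I D*`, hence `min D* D' = D*` a.e. -/

set_option autoImplicit false
set_option linter.unusedSectionVars false
set_option linter.unusedVariables false
open MeasureTheory Filter Set Metric
open scoped ENNReal NNReal Topology
open Crest.GeometryTopology.SyntheticRicci

noncomputable section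
namespace Crest.Agent.R242

variable {X : Type*} [MetricSpace X] [MeasurableSpace X] [BorelSpace X] [ProperSpace X]
  {m : Measure X} [IsFiniteMeasureOnCompacts m] [m.IsOpenPosMeasure]

theorem b2a_fin {P : Measure (UCurve X)} {F : UCurve X × ℝ → ℝ≥0∞} (hF : Measurable F)
    (h : ∫⁻ γ, (∫⁻ t in Icc (0 : ℝ) 1, F (γ, t)) ∂P ≠ ⊤) :
    ∀ᵐ γ ∂P, ∫⁻ t in Icc (0 : ℝ) 1, F (γ, t) < ⊤ :=
  ae_lt_top hF.lintegral_prod_right' h

theorem b2a_core {f : X → ℝ} (hf : Measurable f) {D : ℕ → X → ℝ} (hD : ∀ k, Measurable (D k))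
    (h0 : ∀ k x, 0 ≤ D k x) (h : ∀ k, IsWUGLoc m f (D k)) :
    IsWUGLoc m f fun x => ⨅ k, D k x := by
  have hG0 : ∀ x, 0 ≤ ⨅ k, D k x := fun x => le_ciInf fun k => h0 k x
  refine wug_of_path (fun o R => ((h 0).1 o R).of_le (Measurable.iInf hD).aestronglyMeasurable
    (Eventually.of_forall fun x => ?_)) (Eventually.of_forall hG0) fun P hP => ?_
  · rw [Real.norm_of_nonneg (hG0 x), Real.norm_of_nonneg (h0 0 x)]
    exact ciInf_le ⟨0, by rintro _ ⟨k, rfl⟩; exact h0 k x⟩ 0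
  have hm : ∀ k, Measurable fun p : UCurve X × ℝ =>
      ENNReal.ofReal (D k (p.1.ext p.2)) * upperSpeed p.1 p.2 := fun k =>
    ((hD k).comp measurable_ext).ennreal_ofReal.mul measurable_upperSpeed
  have h1 : ∀ᵐ γ ∂P, ∀ k, ∀ s t : ℚ, 0 ≤ s → s ≤ t → t ≤ 1 →
      ENNReal.ofReal |f (γ.ext t) - f (γ.ext s)| ≤
        ∫⁻ r in Icc (s : ℝ) t, ENNReal.ofReal (D k (γ.ext r)) * upperSpeed γ r := by
    simp only [ae_all_iff]
    exact fun k s t hs hst ht => wug_path hf (hD k) (h k) hP (by exact_mod_cast hs)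
      (by exact_mod_cast hst) (by exact_mod_cast ht)
  have h2 := ae_all_iff.2 fun k => b2a_fin (hm k) (hP.lintegral_ne_top (h k).1)
  have h3 := b2a_fin (measurable_upperSpeed.pow_const 2) hP.1.2.2.2.ne
  filter_upwards [h1, h2, h3] with γ a1 a2 a3
  refine (line_iInf (fun t => f (γ.ext t)) _ (fun k => (hm k).comp measurable_prodMk_left)
    (fun k => (a2 k).ne) a1).trans (lintegral_mono_ae ?_)
  filter_upwards [ae_lt_top ((measurable_upperSpeed.pow_const 2).comp measurable_prodMk_left) a3.ne]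
    with t ht
  have ht' : upperSpeed γ t ≠ ⊤ := fun e => by simp [e] at ht
  rw [ENNReal.ofReal_iInf, ENNReal.iInf_mul fun e => absurd e ht']
  exact le_rfl

theorem wug_iInf {f : X → ℝ} (hf : AEStronglyMeasurable f m) {D : ℕ → X → ℝ}
    (h : ∀ k, IsWUGLoc m f (D k)) : IsWUGLoc m f fun x => ⨅ k, D k x := by
  have hm := fun k => IsL2OnBalls.aesm (h k).1
  have e : ∀ k, D k =ᵐ[m] fun x => max ((hm k).mk _ x) 0 := fun k => by
    filter_upwards [(hm k).ae_eq_mk, (h k).2.1] with x h1 h2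
    rw [← h1, max_eq_left h2]
  refine wug_congr (b2a_core hf.stronglyMeasurable_mk.measurable
    (fun k => (hm k).stronglyMeasurable_mk.measurable.max measurable_const)
    (fun k x => le_max_right _ _) fun k => wug_congr (h k) hf.ae_eq_mk (e k)) hf.ae_eq_mk.symm ?_
  filter_upwards [ae_all_iff.2 e] with x hx
  exact iInf_congr fun k => (hx k).symm

theorem wug_min {f D₁ D₂ : X → ℝ} (hf : AEStronglyMeasurable f m) (h₁ : IsWUGLoc m f D₁)
    (h₂ : IsWUGLoc m f D₂) : IsWUGLoc m f fun x => min (D₁ x) (D₂ x) := by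
  have h := wug_iInf hf (D := fun k => if k = 0 then D₁ else D₂) fun k => by
    split_ifs
    exacts [h₁, h₂]
  convert h using 2 with x
  have hl : ∀ k : ℕ, min (D₁ x) (D₂ x) ≤ (if k = 0 then D₁ else D₂) x := fun k => by
    split_ifs
    exacts [min_le_left _ _, min_le_right _ _]
  have hb : BddBelow (range fun k : ℕ => (if k = 0 then D₁ else D₂) x) :=
    ⟨_, by rintro _ ⟨k, rfl⟩; exact hl k⟩
  exact le_antisymm (le_ciInf hl) (le_min (ciInf_le hb 0) (ciInf_le hb 1))

theorem b2b_nonneg {D : X → ℝ} {G : ℕ → X → ℝ} (hD : IsL2OnBalls m D)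
    (hG : ∀ n, IsL2OnBalls m (G n)) (h0 : ∀ n, ∀ᵐ x ∂m, 0 ≤ G n x)
    (hGD : ∀ (o : X) (R : ℝ),
      Tendsto (fun n => ∫ x in ball o R, (G n x - D x) ^ 2 ∂m) atTop (𝓝 0)) :
    ∀ᵐ x ∂m, 0 ≤ D x := by
  rcases isEmpty_or_nonempty X with hX | ⟨⟨o⟩⟩
  · exact Eventually.of_forall fun x => isEmptyElim x
  have key : ∀ R : ℝ, ∀ᵐ x ∂(m.restrict (ball o R)), 0 ≤ D x := by
    intro R
    have hmin : MemLp (fun x => min (D x) 0) 2 (m.restrict (ball o R)) := by
      refine (hD o R).of_le ((hD o R).1.inf aestronglyMeasurable_const) ?_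
      refine Eventually.of_forall fun x => ?_
      rw [Real.norm_eq_abs, Real.norm_eq_abs]
      rcases le_total (D x) 0 with h | h
      · rw [min_eq_left h]
      · rw [min_eq_right h, abs_zero]; exact abs_nonneg _
    have hint : Integrable (fun x => min (D x) 0 ^ 2) (m.restrict (ball o R)) :=
      hmin.integrable_sq
    have hle : ∀ n, ∫ x in ball o R, min (D x) 0 ^ 2 ∂m ≤
        ∫ x in ball o R, (G n x - D x) ^ 2 ∂m := by
      intro n
      refine integral_mono_ae hint ((hG n o R).sub (hD o R)).integrable_sq ?_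
      filter_upwards [ae_restrict_of_ae (h0 n)] with x hx
      rcases le_total (D x) 0 with h | h
      · rw [min_eq_left h]; nlinarith
      · rw [min_eq_right h]; nlinarith [sq_nonneg (G n x - D x)]
    have h1 : ∫ x in ball o R, min (D x) 0 ^ 2 ∂m ≤ 0 := ge_of_tendsto' (hGD o R) hle
    have h2 : ∫ x in ball o R, min (D x) 0 ^ 2 ∂m = 0 :=
      le_antisymm h1 (integral_nonneg fun x => sq_nonneg _)
    have h3 := (integral_eq_zero_iff_of_nonneg (fun x => sq_nonneg _) hint).1 h2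
    filter_upwards [h3] with x hx
    have h4 : min (D x) 0 = 0 := pow_eq_zero_iff (two_ne_zero) |>.1 hx
    exact min_eq_right_iff.1 h4
  have h5 := (ae_restrict_iUnion_iff (μ := m) (fun n : ℕ => ball o (n : ℝ))
    (fun x => 0 ≤ D x)).2 fun n => key n
  rwa [iUnion_ball_nat, Measure.restrict_univ] at h5

theorem b2b_end {P : Measure (UCurve X)} {C : ℝ} (hC : 0 ≤ C) (h : Cmpr m P C) {o : X} {R : ℝ}
    (hT : Tracks P o R) {g : X → ℝ} (hg : IsL2OnBalls m g) {t : ℝ} (ht : t ∈ Icc (0 : ℝ) 1) :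
    AEMeasurable (fun γ : UCurve X => ENNReal.ofReal |g (γ.ext t)|) P ∧
      ∫⁻ γ, ENNReal.ofReal |g (γ.ext t)| ∂P ≤
        ENNReal.ofReal (C * ∫ x in ball o (R + 1), |g x| ∂m) := by
  have h1 := Cmpr.integrable h hT (IsL2OnBalls.integrableOn hg o R) ht
  refine ⟨h1.abs.aemeasurable.ennreal_ofReal, ?_⟩
  rw [← ofReal_integral_eq_lintegral_ofReal h1.abs (Eventually.of_forall fun _ => abs_nonneg _)]
  refine ENNReal.ofReal_le_ofReal
    ((Cmpr.integral_abs_le hC h hT (IsL2OnBalls.integrableOn hg o R) ht).trans ?_)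
  refine mul_le_mul_of_nonneg_left ?_ hC
  refine setIntegral_mono_set
    (((IsL2OnBalls.integrableOn hg o (R + 1)).mono_set ball_subset_closedBall).abs)
    (Eventually.of_forall fun _ => abs_nonneg _) ?_
  exact (closedBall_subset_ball (by linarith)).eventuallyLE

theorem b2b_split {P : Measure (UCurve X)} [IsProbabilityMeasure P] {C : ℝ} (h : Cmpr m P C)
    {G D E : X → ℝ} (hE : Measurable E) (hGE : ∀ᵐ x ∂m, G x - D x = E x) :
    ∫⁻ γ, (∫⁻ t in Icc (0 : ℝ) 1, ENNReal.ofReal (G (γ.ext t)) * upperSpeed γ t) ∂P ≤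
      ∫⁻ γ, (∫⁻ t in Icc (0 : ℝ) 1, ENNReal.ofReal (D (γ.ext t)) * upperSpeed γ t) ∂P +
        ∫⁻ γ, (∫⁻ t in Icc (0 : ℝ) 1, ENNReal.ofReal (E (γ.ext t)) * upperSpeed γ t) ∂P := by
  have hm : Measurable fun p : UCurve X × ℝ =>
      ENNReal.ofReal (E (p.1.ext p.2)) * upperSpeed p.1 p.2 :=
    (hE.comp measurable_ext).ennreal_ofReal.mul measurable_upperSpeed
  rw [← lintegral_add_right _ (hm.lintegral_prod_right' (ν := volume.restrict (Icc (0 : ℝ) 1)))]
  refine lintegral_mono_ae ?_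
  filter_upwards [Cmpr.ae_ae h hGE] with γ hγ
  have hm' : Measurable fun t : ℝ => ENNReal.ofReal (E (γ.ext t)) * upperSpeed γ t :=
    hm.comp measurable_prodMk_left
  rw [← lintegral_add_right _ hm']
  refine lintegral_mono_ae ?_
  filter_upwards [hγ] with t ht
  rw [← add_mul]
  refine mul_le_mul_left ?_ _
  have e : G (γ.ext t) = D (γ.ext t) + E (γ.ext t) := by linarith
  rw [e]
  exact ENNReal.ofReal_add_le

theorem b2b_norm {μ : Measure X} {g : X → ℝ} (hg : MemLp g 2 μ) :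
    eLpNorm g 2 μ = ENNReal.ofReal (Real.sqrt (∫ x, g x ^ 2 ∂μ)) := by
  rw [hg.eLpNorm_eq_integral_rpow_norm two_ne_zero ENNReal.ofNat_ne_top, Real.sqrt_eq_rpow]
  simp only [ENNReal.toReal_ofNat, Real.rpow_ofNat, Real.norm_eq_abs, sq_abs, one_div]

theorem wug_limit {f D : X → ℝ} {F G : ℕ → X → ℝ} (hf : IsL2OnBalls m f) (hD : IsL2OnBalls m D)
    (hF : ∀ n, IsL2OnBalls m (F n)) (h : ∀ n, IsWUGLoc m (F n) (G n))
    (hFf : ∀ (o : X) (R : ℝ),
      Tendsto (fun n => ∫ x in ball o R, |F n x - f x| ∂m) atTop (𝓝 0))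
    (hGD : ∀ (o : X) (R : ℝ),
      Tendsto (fun n => ∫ x in ball o R, (G n x - D x) ^ 2 ∂m) atTop (𝓝 0)) :
    IsWUGLoc m f D := by
  refine ⟨hD, b2b_nonneg hD (fun n => (h n).1) (fun n => (h n).2.1) hGD, fun P hP hB => ?_⟩
  have hPl : Plan m P := ⟨hP, hB⟩
  have := hPl.prob
  obtain ⟨C, hC, hCm⟩ := hPl.cmpr
  obtain ⟨o, R, K, hK, hT, hle⟩ := hPl.lintegral_le
  set S := ∫⁻ γ, (∫⁻ t in Icc (0 : ℝ) 1, ENNReal.ofReal (D (γ.ext t)) * upperSpeed γ t) ∂P with hS
  set a : ℕ → ℝ≥0∞ := fun n =>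
    ENNReal.ofReal (C * ∫ x in ball o (R + 1), |F n x - f x| ∂m) with ha
  set b : ℕ → ℝ≥0∞ := fun n =>
    K * ENNReal.ofReal (Real.sqrt (∫ x in ball o (R + 1), (G n x - D x) ^ 2 ∂m)) with hb
  have hat : Tendsto a atTop (𝓝 0) := by
    have := ENNReal.tendsto_ofReal ((hFf o (R + 1)).const_mul C)
    simpa using this
  have hbt : Tendsto b atTop (𝓝 0) := by
    have h1 := ENNReal.tendsto_ofReal ((hGD o (R + 1)).sqrt)
    have := ENNReal.Tendsto.const_mul (a := K) h1 (Or.inr hK)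
    simpa using this
  have hlim : Tendsto (fun n => S + b n + a n + a n) atTop (𝓝 S) := by
    have := ((tendsto_const_nhds (x := S).add hbt).add hat).add hat
    simpa using this
  refine ge_of_tendsto' hlim fun n => ?_
  have hg : IsL2OnBalls m fun x => F n x - f x := fun o R => (hF n o R).sub (hf o R)
  have hd : IsL2OnBalls m fun x => G n x - D x := fun o R => ((h n).1 o R).sub (hD o R)
  obtain ⟨m1, e1⟩ := b2b_end hC.le hCm hT hg (t := 1) ⟨zero_le_one, le_rfl⟩
  obtain ⟨m0, e0⟩ := b2b_end hC.le hCm hT hg (t := 0) ⟨le_rfl, zero_le_one⟩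
  have hae := IsL2OnBalls.aesm hd
  have hE := hae.ae_eq_mk
  have hEm := hae.stronglyMeasurable_mk
  have h2 := b2b_split hCm hEm.measurable hE
  have h3 := hle _ (hEm.aestronglyMeasurable (μ := m.restrict (ball o (R + 1))))
  rw [← eLpNorm_congr_ae (ae_restrict_of_ae hE), b2b_norm (hd o (R + 1))] at h3
  have h4 := (h n).2.2 P hP hB
  calc ∫⁻ γ, ENNReal.ofReal |f (γ.toMap 1) - f (γ.toMap 0)| ∂P
      ≤ ∫⁻ γ, (ENNReal.ofReal |F n (γ.toMap 1) - F n (γ.toMap 0)| +
          ENNReal.ofReal |F n (γ.ext 1) - f (γ.ext 1)| +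
          ENNReal.ofReal |F n (γ.ext 0) - f (γ.ext 0)|) ∂P := by
        refine lintegral_mono fun γ => ?_
        rw [ext_one, ext_zero, ← ENNReal.ofReal_add (abs_nonneg _) (abs_nonneg _),
          ← ENNReal.ofReal_add (by positivity) (abs_nonneg _)]
        refine ENNReal.ofReal_le_ofReal ?_
        have i1 := le_abs_self (F n (γ.toMap 1) - F n (γ.toMap 0))
        have i2 := neg_abs_le (F n (γ.toMap 1) - F n (γ.toMap 0))
        have i3 := le_abs_self (F n (γ.toMap 1) - f (γ.toMap 1))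
        have i4 := neg_abs_le (F n (γ.toMap 1) - f (γ.toMap 1))
        have i5 := le_abs_self (F n (γ.toMap 0) - f (γ.toMap 0))
        have i6 := neg_abs_le (F n (γ.toMap 0) - f (γ.toMap 0))
        rw [abs_le]
        constructor <;> linarith
    _ = ∫⁻ γ, ENNReal.ofReal |F n (γ.toMap 1) - F n (γ.toMap 0)| ∂P +
          ∫⁻ γ, ENNReal.ofReal |F n (γ.ext 1) - f (γ.ext 1)| ∂P +
          ∫⁻ γ, ENNReal.ofReal |F n (γ.ext 0) - f (γ.ext 0)| ∂P := by
        rw [lintegral_add_right' _ m0, lintegral_add_right' _ m1]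
    _ ≤ S + b n + a n + a n :=
        add_le_add (add_le_add (h4.trans (h2.trans (add_le_add le_rfl h3))) e1) e0

theorem exists_min {f D : X → ℝ} (hf : AEStronglyMeasurable f m) (h : IsWUGLoc m f D) :
    ∃ D', IsMinWUGLoc m f D' := by
  have hae : ae m.toFinite = ae m := ae_toFinite
  have hint : ∀ {G}, IsWUGLoc m f G → Integrable (fun x => Real.arctan (G x)) m.toFinite :=
    fun hG => Integrable.of_bound (Real.continuous_arctan.comp_aestronglyMeasurable
      ((IsL2OnBalls.aesm hG.1).mono_ac (toFinite_absolutelyContinuous m))) (Real.pi / 2)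
      (Eventually.of_forall fun x => abs_le.2
        ⟨(Real.neg_pi_div_two_lt_arctan _).le, (Real.arctan_lt_pi_div_two _).le⟩)
  set S := (fun G : X → ℝ => ∫ x, Real.arctan (G x) ∂m.toFinite) '' {G | IsWUGLoc m f G}
  have hb : BddBelow S := ⟨0, by
    rintro _ ⟨G, hG, rfl⟩
    refine integral_nonneg_of_ae ?_
    rw [hae]
    exact hG.2.1.mono fun x hx => Real.arctan_nonneg.2 hx⟩
  obtain ⟨u, -, hu, hS⟩ := exists_seq_tendsto_sInf (S := S) ⟨_, D, h, rfl⟩ hb
  choose G hG hGu using hS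
  have h1 := wug_iInf hf hG
  have h2 : ∫ x, Real.arctan (⨅ k, G k x) ∂m.toFinite ≤ sInf S := by
    refine ge_of_tendsto' hu fun k => (integral_mono_ae (hint h1) (hint (hG k)) ?_).trans_eq (hGu k)
    rw [hae]
    filter_upwards [ae_all_iff.2 fun k => (hG k).2.1] with x hx
    exact Real.arctan_strictMono.monotone (ciInf_le ⟨0, forall_mem_range.2 hx⟩ k)
  refine ⟨_, h1, fun D' hD' => ?_⟩
  have h3 := wug_min hf h1 hD'
  have h4 : (fun x => Real.arctan (min (⨅ k, G k x) (D' x))) ≤ᵐ[m.toFinite]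
      fun x => Real.arctan (⨅ k, G k x) :=
    Eventually.of_forall fun x => Real.arctan_strictMono.monotone (min_le_left _ _)
  have h5 := (integral_eq_iff_of_ae_le (hint h3) (hint h1) h4).1
    ((integral_mono_ae (hint h3) (hint h1) h4).antisymm (h2.trans (csInf_le hb ⟨_, h3, rfl⟩)))
  rw [hae] at h5
  exact h5.mono fun x hx => min_eq_left_iff.1 (Real.arctan_injective hx)

theorem SL.isMin {f : X → ℝ} (h : SL m f) : IsMinWUGLoc m f (Dw m f) := by
  rw [Dw, minWeakGrad, dif_pos h.2]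
  exact Classical.choose_spec h.2

theorem SL.wug {f : X → ℝ} (h : SL m f) : IsWUGLoc m f (Dw m f) := (SL.isMin h).1

theorem SL.Dw_le {f D : X → ℝ} (h : SL m f) (hD : IsWUGLoc m f D) : Dw m f ≤ᵐ[m] D :=
  (SL.isMin h).2 D hD

theorem sl_of_wug {f D : X → ℝ} (hf : IsL2OnBalls m f) (h : IsWUGLoc m f D) :
    SL m f ∧ Dw m f ≤ᵐ[m] D :=
  have h1 : SL m f := ⟨hf, exists_min (IsL2OnBalls.aesm hf) h⟩
  ⟨h1, SL.Dw_le h1 h⟩

/-- True for every `f` (junk value `0`). -/
theorem Dw_nonneg (f : X → ℝ) : ∀ᵐ x ∂m, 0 ≤ Dw m f x := by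
  rw [Dw, minWeakGrad]
  split_ifs with h
  · exact (Classical.choose_spec h).1.2.1
  · exact Eventually.of_forall fun _ => le_rfl

/-- True for every `f` (junk value `0`). -/
theorem Dw_l2b (f : X → ℝ) : IsL2OnBalls m (Dw m f) := by
  rw [Dw, minWeakGrad]
  split_ifs with h
  · exact (Classical.choose_spec h).1.1
  · exact fun _ _ => MemLp.zero

theorem Dw_aesm (f : X → ℝ) : AEStronglyMeasurable (Dw m f) m := IsL2OnBalls.aesm (Dw_l2b f)

theorem gam_aesm (f g : X → ℝ) : AEStronglyMeasurable (Gam m f g) m := by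
  exact (((Dw_aesm _).pow 2).sub ((Dw_aesm _).pow 2)).mul_const _

theorem gam_integrableOn (f g : X → ℝ) (o : X) (R : ℝ) :
    IntegrableOn (Gam m f g) (closedBall o R) m := by
  have h := fun u : X → ℝ => IsL2OnBalls.integrableOn_mul (Dw_l2b (m := m) u) (Dw_l2b u) o R
  simp only [← sq] at h
  exact ((h _).sub (h _)).div_const 4

end Crest.Agent.R242
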