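import Crest.Agent.R242.B2

/-! Block B3: elementary calculus of minimal weak upper gradients (directly from the
definition) and Lipschitz functions (`le_lintegral_of_slope`, `wug_of_path`). -/

set_option autoImplicit false
set_option linter.unusedSectionVars false
set_option linter.unusedVariables false
open MeasureTheory Filter Set Metric
open scoped ENNReal NNReal Topology
open Crest.GeometryTopology.SyntheticRicci

noncomputable section
namespace Crest.Agent.R242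

variable {X : Type*} [MetricSpace X] [MeasurableSpace X] [BorelSpace X] [ProperSpace X]
  {m : Measure X} [IsFiniteMeasureOnCompacts m] [m.IsOpenPosMeasure]

theorem b3a_add {f g D E : X → ℝ} (hf : Measurable f) (hg : Measurable g) (hD : Measurable D)
    (hE : Measurable E) (h₁ : IsWUGLoc m f D) (h₂ : IsWUGLoc m g E) :
    IsWUGLoc m (fun x => f x + g x) fun x => D x + E x := by
  refine wug_of_path (fun o R => (h₁.1 o R).add (h₂.1 o R)) ?_ fun P hP => ?_
  · filter_upwards [h₁.2.1, h₂.2.1] with x a b using add_nonneg a b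
  have := hP.prob
  obtain ⟨C, -, hC⟩ := hP.cmpr
  filter_upwards [wug_path hf hD h₁ hP le_rfl zero_le_one le_rfl,
    wug_path hg hE h₂ hP le_rfl zero_le_one le_rfl, hC.ae_ae h₁.2.1, hC.ae_ae h₂.2.1]
    with γ a1 a2 a3 a4
  have hm : Measurable fun t : ℝ => ENNReal.ofReal (D (γ.ext t)) * upperSpeed γ t :=
    (hD.comp (continuous_ext_right γ).measurable).ennreal_ofReal.mul (a6a_speed γ)
  calc ENNReal.ofReal |f (γ.ext 1) + g (γ.ext 1) - (f (γ.ext 0) + g (γ.ext 0))|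
      ≤ ENNReal.ofReal |f (γ.ext 1) - f (γ.ext 0)| + ENNReal.ofReal |g (γ.ext 1) - g (γ.ext 0)| := by
        rw [← ENNReal.ofReal_add (abs_nonneg _) (abs_nonneg _)]
        refine ENNReal.ofReal_le_ofReal ?_
        rw [add_sub_add_comm]
        exact abs_add_le _ _
    _ ≤ _ := add_le_add a1 a2
    _ = _ := by
        rw [← lintegral_add_left hm]
        refine lintegral_congr_ae ?_
        filter_upwards [a3, a4] with t b1 b2
        rw [ENNReal.ofReal_add b1 b2, add_mul]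

theorem wug_add {f g D E : X → ℝ} (hf : AEStronglyMeasurable f m) (hg : AEStronglyMeasurable g m)
    (h₁ : IsWUGLoc m f D) (h₂ : IsWUGLoc m g E) :
    IsWUGLoc m (fun x => f x + g x) fun x => D x + E x := by
  have hD := IsL2OnBalls.aesm h₁.1
  have hE := IsL2OnBalls.aesm h₂.1
  exact wug_congr (b3a_add hf.stronglyMeasurable_mk.measurable hg.stronglyMeasurable_mk.measurable
    hD.stronglyMeasurable_mk.measurable hE.stronglyMeasurable_mk.measurable
    (wug_congr h₁ hf.ae_eq_mk hD.ae_eq_mk) (wug_congr h₂ hg.ae_eq_mk hE.ae_eq_mk))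
    (hf.ae_eq_mk.add hg.ae_eq_mk).symm (hD.ae_eq_mk.add hE.ae_eq_mk).symm

theorem wug_lip_comp {f D : X → ℝ} {φ : ℝ → ℝ} {L : ℝ≥0} (hφ : LipschitzWith L φ)
    (h : IsWUGLoc m f D) : IsWUGLoc m (fun x => φ (f x)) fun x => L * D x := by
  refine ⟨fun o R => (h.1 o R).const_mul _, ?_, fun P hP hT => ?_⟩
  · filter_upwards [h.2.1] with x a using mul_nonneg L.2 a
  calc (∫⁻ γ, ENNReal.ofReal |φ (f (γ.toMap 1)) - φ (f (γ.toMap 0))| ∂P)
      ≤ ∫⁻ γ, (L : ℝ≥0∞) * ENNReal.ofReal |f (γ.toMap 1) - f (γ.toMap 0)| ∂P := by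
        refine lintegral_mono fun γ => ?_
        rw [← ENNReal.ofReal_coe_nnreal, ← ENNReal.ofReal_mul L.coe_nonneg]
        exact ENNReal.ofReal_le_ofReal (hφ.dist_le_mul _ _)
    _ = (L : ℝ≥0∞) * ∫⁻ γ, ENNReal.ofReal |f (γ.toMap 1) - f (γ.toMap 0)| ∂P :=
        lintegral_const_mul' _ _ ENNReal.coe_ne_top
    _ ≤ (L : ℝ≥0∞) * _ := mul_le_mul_right (h.2.2 P hP hT) _
    _ = _ := by
        rw [← lintegral_const_mul' _ _ ENNReal.coe_ne_top]
        refine lintegral_congr fun γ => ?_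
        rw [← lintegral_const_mul' _ _ ENNReal.coe_ne_top]
        refine lintegral_congr fun t => ?_
        dsimp only
        rw [ENNReal.ofReal_mul L.coe_nonneg, ENNReal.ofReal_coe_nnreal, mul_assoc]

theorem wug_of_slope {φ ℓ : X → ℝ} (hℓ : Measurable ℓ) (hℓ0 : ∀ x, 0 ≤ ℓ x)
    (hℓb : ∀ (o : X) (R : ℝ), ∃ C : ℝ, ∀ x ∈ closedBall o R, ℓ x ≤ C)
    (hφ : ∀ x y, φ y - φ x ≤ dist x y * (ℓ x + dist x y / 2)) : IsWUGLoc m φ ℓ := by
  refine wug_of_path (l2b_of_bdd hℓ.aestronglyMeasurable fun o R => ?_)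
    (Eventually.of_forall hℓ0) fun P hP => ?_
  · obtain ⟨C, hC⟩ := hℓb o R
    refine ⟨C, Eventually.of_forall fun x hx => ?_⟩
    rw [abs_of_nonneg (hℓ0 x)]
    exact hC x (ball_subset_closedBall hx)
  obtain ⟨o, R, -, hT⟩ := hP.tracks
  obtain ⟨C, hC⟩ := hℓb o R
  filter_upwards [hT, hP.1.2.2.1] with γ a1 a2
  exact le_lintegral_of_slope a2 φ ℓ hℓ0 (fun t => hC _ (a1 t)) hφ le_rfl zero_le_one le_rfl

theorem sl_of_lip {f : X → ℝ} {L : ℝ≥0} (hf : LipschitzWith L f) :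
    SL m f ∧ ∀ᵐ x ∂m, Dw m f x ≤ L := by
  refine sl_of_wug (D := fun _ => (L : ℝ)) (l2b_of_continuous hf.continuous)
    (wug_of_slope measurable_const (fun _ => L.2) (fun _ _ => ⟨L, fun _ _ => le_rfl⟩) fun x y => ?_)
  have h1 := hf.dist_le_mul y x
  rw [Real.dist_eq, dist_comm y x] at h1
  have h2 := le_abs_self (f y - f x)
  have h3 : 0 ≤ dist x y * (dist x y / 2) := by positivity
  nlinarith

theorem sl_const (c : ℝ) : SL m (fun _ => c) ∧ ∀ᵐ x ∂m, Dw m (fun _ => c) x = 0 := by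
  obtain ⟨h1, h2⟩ := sl_of_lip (m := m) (LipschitzWith.const (α := X) c)
  refine ⟨h1, ?_⟩
  filter_upwards [h2, Dw_nonneg (m := m) fun _ => c] with x a1 a2
  exact le_antisymm (by simpa using a1) a2

theorem SL.add {f g : X → ℝ} (hf : SL m f) (hg : SL m g) :
    SL m (fun x => f x + g x) ∧ ∀ᵐ x ∂m, Dw m (fun x => f x + g x) x ≤ Dw m f x + Dw m g x := by
  exact sl_of_wug (fun o R => (hf.1 o R).add (hg.1 o R))
    (wug_add (IsL2OnBalls.aesm hf.1) (IsL2OnBalls.aesm hg.1) hf.wug hg.wug)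

theorem SL.lip_comp {f : X → ℝ} (hf : SL m f) {φ : ℝ → ℝ} {L : ℝ≥0} (hφ : LipschitzWith L φ) :
    SL m (fun x => φ (f x)) ∧ ∀ᵐ x ∂m, Dw m (fun x => φ (f x)) x ≤ L * Dw m f x := by
  refine sl_of_wug (fun o R => ?_) (wug_lip_comp hφ hf.wug)
  have h1 : LipschitzWith L fun t => φ t - φ 0 := by simpa using hφ.sub (LipschitzWith.const (φ 0))
  have h2 := (h1.comp_memLp (sub_self _) (hf.1 o R)).add
    (l2b_of_continuous (m := m) (continuous_const (y := φ 0)) o R)
  convert h2 using 1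
  funext x
  simp

theorem b3b_lip (c d : ℝ) : LipschitzWith ‖c‖₊ fun t : ℝ => c * t + d :=
  LipschitzWith.of_dist_le_mul fun x y => by
    rw [dist_add_right, Real.dist_eq, Real.dist_eq, ← mul_sub, abs_mul]
    rfl

theorem SL.affine {f : X → ℝ} (hf : SL m f) (c d : ℝ) :
    SL m (fun x => c * f x + d) ∧ ∀ᵐ x ∂m, Dw m (fun x => c * f x + d) x = |c| * Dw m f x := by
  obtain ⟨h1, h2⟩ := hf.lip_comp (b3b_lip c d)
  refine ⟨h1, ?_⟩
  rcases eq_or_ne c 0 with rfl | hc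
  · simpa using (sl_const (m := m) d).2
  obtain ⟨-, h3⟩ := h1.lip_comp (b3b_lip c⁻¹ (-(c⁻¹ * d)))
  have e : (fun x => c⁻¹ * (c * f x + d) + -(c⁻¹ * d)) = f := by
    funext x
    field_simp
    ring
  rw [e] at h3
  filter_upwards [h2, h3] with x a1 a2
  refine le_antisymm a1 ?_
  have a3 := mul_le_mul_of_nonneg_left a2 (abs_nonneg c)
  rwa [← mul_assoc, coe_nnnorm, Real.norm_eq_abs, ← abs_mul, mul_inv_cancel₀ hc, abs_one,
    one_mul] at a3

theorem SL.const_mul {f : X → ℝ} (hf : SL m f) (c : ℝ) :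
    SL m (fun x => c * f x) ∧ ∀ᵐ x ∂m, Dw m (fun x => c * f x) x = |c| * Dw m f x := by
  simpa only [add_zero] using hf.affine c 0

theorem SL.sub {f g : X → ℝ} (hf : SL m f) (hg : SL m g) :
    SL m (fun x => f x - g x) ∧ ∀ᵐ x ∂m, Dw m (fun x => f x - g x) x ≤ Dw m f x + Dw m g x := by
  obtain ⟨h1, h2⟩ := hg.const_mul (-1)
  obtain ⟨h3, h4⟩ := hf.add h1
  have e : (fun x => f x + -1 * g x) = fun x => f x - g x := by
    funext x
    ring
  rw [e] at h3 h4
  refine ⟨h3, ?_⟩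
  filter_upwards [h2, h4] with x a1 a2
  rwa [a1, abs_neg, abs_one, one_mul] at a2

theorem SL.abs_Dw_sub {f g : X → ℝ} (hf : SL m f) (hg : SL m g) :
    ∀ᵐ x ∂m, |Dw m f x - Dw m g x| ≤ Dw m (fun x => f x - g x) x := by
  have h1 := ((hf.sub hg).1.add hg).2
  have h2 := (hf.sub (hf.sub hg).1).2
  simp only [sub_add_cancel] at h1
  simp only [sub_sub_cancel] at h2
  filter_upwards [h1, h2] with x a1 a2
  exact abs_le.2 ⟨by linarith [show Dw m g x ≤ _ from a2], by linarith [show Dw m f x ≤ _ from a1]⟩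

theorem SL.gam_self {f : X → ℝ} (hf : SL m f) : ∀ᵐ x ∂m, Gam m f f x = Dw m f x ^ 2 := by
  filter_upwards [(hf.const_mul 2).2, (sl_const (m := m) 0).2] with x a1 a2
  simp only [two_mul] at a1
  simp only [Gam, gradPairing, sub_self]
  rw [show minWeakGrad m (fun y => f y + f y) x = _ from a1, show minWeakGrad m (fun _ => 0) x = _ from a2,
    abs_two]
  ring

theorem SL.gam_comm {f g : X → ℝ} (hf : SL m f) (hg : SL m g) : Gam m f g =ᵐ[m] Gam m g f := by
  filter_upwards [((hf.sub hg).1.const_mul (-1)).2] with x a1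
  simp only [neg_mul, one_mul, neg_sub, abs_neg, abs_one] at a1
  simp only [Gam, gradPairing, add_comm (g _)]
  rw [show minWeakGrad m (fun y => g y - f y) x = _ from a1]

theorem LipAE.sl {u : X → ℝ} {b : ℝ} (hb : 0 ≤ b) (h : LipAE m u b) :
    SL m u ∧ ∀ᵐ x ∂m, Dw m u x ≤ b := by
  obtain ⟨v, hv, e⟩ := h
  obtain ⟨h1, h2⟩ := sl_of_lip (m := m) hv
  refine ⟨h1.congr e.symm, ?_⟩
  rwa [Real.coe_toNNReal b hb, ← Dw_congr e] at h2

theorem BddLip.sl {f : X → ℝ} (h : BddLip f) : SL m f ∧ BG m f := by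
  obtain ⟨⟨B, hB⟩, L, hL⟩ := h
  obtain ⟨h1, h2⟩ := sl_of_lip (m := m) hL
  exact ⟨h1, ⟨B, Eventually.of_forall hB⟩, L, h2⟩

end Crest.Agent.R242
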