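import Crest.Agent.R242.B3

/-! Block B4: chain rule and locality.
`wug_chain`: measurable representatives, `wug_path` (rational times), `wug_path_ae`, `line_chain`
with `u = f ∘ γ.ext`, `a t = ofReal (D (γ t)) · upperSpeed γ t` (finite a.e. by `Plan.lintegral_ne_top`).
`SL.Dw_eq_zero`: `φ_n z = z - arctan (n z)/n` has `0 ≤ φ_n' < 1`, `φ_n' 0 = 0`, `|φ_n z - z| ≤ 2/n`; so
`indicator {f ≠ 0} (Dw f)` is a weak upper gradient of each `φ_n ∘ f` (`wug_mono`), use `wug_limit`. -/

set_option autoImplicit false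
set_option linter.unusedSectionVars false
set_option linter.unusedVariables false
open MeasureTheory Filter Set Metric
open scoped ENNReal NNReal Topology
open Crest.GeometryTopology.SyntheticRicci

noncomputable section
namespace Crest.Agent.R242

variable {X : Type*} [MetricSpace X] [MeasurableSpace X] [BorelSpace X] [ProperSpace X]
  {m : Measure X} [IsFiniteMeasureOnCompacts m] [m.IsOpenPosMeasure]

theorem b4a_meas {f D : X → ℝ} (hf : Measurable f) (hD : Measurable D) (h : IsWUGLoc m f D)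
    (φ φ' : ℝ → ℝ) (hφ : ∀ z, HasDerivAt φ (φ' z) z) (hc : Continuous φ')
    (hL : IsL2OnBalls m fun x => |φ' (f x)| * D x) :
    IsWUGLoc m (fun x => φ (f x)) fun x => |φ' (f x)| * D x := by
  refine wug_of_path hL ?_ fun P hP => ?_
  · filter_upwards [h.2.1] with x hx using mul_nonneg (abs_nonneg _) hx
  have hm : Measurable fun p : UCurve X × ℝ =>
      ENNReal.ofReal (D (p.1.ext p.2)) * upperSpeed p.1 p.2 :=
    (hD.comp measurable_ext).ennreal_ofReal.mul measurable_upperSpeed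
  have h1 : ∀ᵐ γ ∂P, ∀ s t : ℚ, 0 ≤ s → s ≤ t → t ≤ 1 →
      ENNReal.ofReal |f (γ.ext t) - f (γ.ext s)| ≤
        ∫⁻ r in Icc (s : ℝ) t, ENNReal.ofReal (D (γ.ext r)) * upperSpeed γ r := by
    refine ae_all_iff.2 fun s => ae_all_iff.2 fun t => ?_
    by_cases hst : 0 ≤ s ∧ s ≤ t ∧ t ≤ 1
    · filter_upwards [wug_path hf hD h hP (a := s) (b := t) (by exact_mod_cast hst.1)
        (by exact_mod_cast hst.2.1) (by exact_mod_cast hst.2.2)] with γ hγ _ _ _ using hγ
    · exact Eventually.of_forall fun γ a b c => absurd ⟨a, b, c⟩ hst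
  have h2 : ∀ᵐ γ ∂P, ∀ s : ℚ, 0 ≤ s → s ≤ 1 →
      ∀ᵐ t ∂(volume.restrict (Icc (0 : ℝ) 1)), (s : ℝ) ≤ t →
        ENNReal.ofReal |f (γ.ext t) - f (γ.ext s)| ≤
          ∫⁻ r in Icc (s : ℝ) t, ENNReal.ofReal (D (γ.ext r)) * upperSpeed γ r := by
    refine ae_all_iff.2 fun s => ?_
    by_cases hs : 0 ≤ s ∧ s ≤ 1
    · filter_upwards [wug_path_ae hf hD h hP (a := s) (by exact_mod_cast hs.1)
        (by exact_mod_cast hs.2)] with γ hγ _ _ using hγ
    · exact Eventually.of_forall fun γ a b => absurd ⟨a, b⟩ hs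
  have h3 : ∀ᵐ γ ∂P,
      ∫⁻ t in Icc (0 : ℝ) 1, ENNReal.ofReal (D (γ.ext t)) * upperSpeed γ t < ⊤ :=
    ae_lt_top hm.lintegral_prod_right' (hP.lintegral_ne_top h.1)
  filter_upwards [h1, h2, h3] with γ g1 g2 g3
  have hu : Measurable fun t => f (γ.ext t) := hf.comp (continuous_ext_right γ).measurable
  have ha : Measurable fun t => ENNReal.ofReal (D (γ.ext t)) * upperSpeed γ t :=
    hm.comp measurable_prodMk_left
  refine (line_chain (fun t => f (γ.ext t)) hu _ ha g3.ne g1 g2 φ φ' hφ hc).trans (le_of_eq ?_)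
  refine lintegral_congr fun t => ?_
  rw [ENNReal.ofReal_mul (abs_nonneg _), mul_assoc]

theorem wug_chain {f D : X → ℝ} (hf : AEStronglyMeasurable f m) (h : IsWUGLoc m f D)
    (φ φ' : ℝ → ℝ) (hφ : ∀ z, HasDerivAt φ (φ' z) z) (hc : Continuous φ')
    (hL : IsL2OnBalls m fun x => |φ' (f x)| * D x) :
    IsWUGLoc m (fun x => φ (f x)) fun x => |φ' (f x)| * D x := by
  have hD : AEStronglyMeasurable D m := IsL2OnBalls.aesm h.1
  have e1 : (fun x => φ (hf.mk f x)) =ᵐ[m] fun x => φ (f x) := by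
    filter_upwards [hf.ae_eq_mk] with x hx
    rw [hx]
  have e2 : (fun x => |φ' (hf.mk f x)| * hD.mk D x) =ᵐ[m] fun x => |φ' (f x)| * D x := by
    filter_upwards [hf.ae_eq_mk, hD.ae_eq_mk] with x hx hy
    rw [hx, hy]
  exact wug_congr (b4a_meas hf.stronglyMeasurable_mk.measurable
    hD.stronglyMeasurable_mk.measurable (wug_congr h hf.ae_eq_mk hD.ae_eq_mk) φ φ' hφ hc
    (IsL2OnBalls.congr hL e2.symm)) e1 e2

theorem SL.chain_le {f : X → ℝ} (hf : SL m f) (φ φ' : ℝ → ℝ) (hφ : ∀ z, HasDerivAt φ (φ' z) z)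
    (hc : Continuous φ') {L : ℝ} (hL : ∀ z, |φ' z| ≤ L) :
    SL m (fun x => φ (f x)) ∧ ∀ᵐ x ∂m, Dw m (fun x => φ (f x)) x ≤ |φ' (f x)| * Dw m f x := by
  have hL0 : 0 ≤ L := (abs_nonneg _).trans (hL 0)
  have hlip : LipschitzWith L.toNNReal φ := by
    refine lipschitzWith_of_nnnorm_deriv_le (fun z => (hφ z).differentiableAt) fun z => ?_
    rw [(hφ z).deriv, ← NNReal.coe_le_coe, coe_nnnorm, Real.coe_toNNReal _ hL0, Real.norm_eq_abs]
    exact hL z
  have h1 := (hf.lip_comp hlip).1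
  have hfm : AEStronglyMeasurable f m := IsL2OnBalls.aesm hf.1
  refine ⟨h1, h1.Dw_le (wug_chain hfm hf.wug φ φ' hφ hc fun o R => ?_)⟩
  refine ((Dw_l2b (m := m) f o R).const_mul L).mono' ?_ ?_
  · exact ((continuous_abs.comp hc).comp_aestronglyMeasurable hfm.restrict).mul
      (Dw_aesm f).restrict
  · filter_upwards [ae_restrict_of_ae (Dw_nonneg (m := m) f)] with x hx
    rw [Real.norm_eq_abs, abs_mul, abs_abs, abs_of_nonneg hx]
    exact mul_le_mul_of_nonneg_right (hL _) hx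

theorem b4b_hasDeriv (c : ℝ) (hc : 0 < c) (z : ℝ) :
    HasDerivAt (fun z : ℝ => z - Real.arctan (c * z) / c) (1 - 1 / (1 + (c * z) ^ 2)) z := by
  have h1 : HasDerivAt (fun z : ℝ => c * z) c z := by simpa using (hasDerivAt_id z).const_mul c
  have h2 := ((Real.hasDerivAt_arctan (c * z)).comp z h1).div_const c
  have h3 := (hasDerivAt_id z).sub h2
  have e : 1 / (1 + (c * z) ^ 2) * c / c = 1 / (1 + (c * z) ^ 2) := mul_div_cancel_right₀ _ hc.ne'
  rw [e] at h3
  exact h3

theorem b4b_abs_le (c z : ℝ) : |1 - 1 / (1 + (c * z) ^ 2)| ≤ 1 := by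
  have h0 : 0 < 1 + (c * z) ^ 2 := by positivity
  have h1 : 0 ≤ 1 / (1 + (c * z) ^ 2) := by positivity
  have h2 : 1 / (1 + (c * z) ^ 2) ≤ 1 := by
    rw [div_le_one h0]; nlinarith [sq_nonneg (c * z)]
  rw [abs_le]; constructor <;> linarith

theorem SL.Dw_eq_zero {f : X → ℝ} (hf : SL m f) : ∀ᵐ x ∂m, f x = 0 → Dw m f x = 0 := by
  classical
  set χ : ℝ → ℝ := fun t => if t = 0 then 0 else 1 with hχ
  have hχm : Measurable χ := Measurable.ite (measurableSet_singleton 0) measurable_const measurable_const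
  have hfa : AEStronglyMeasurable f m := IsL2OnBalls.aesm hf.1
  set D₀ : X → ℝ := fun x => χ (f x) * Dw m f x with hD₀
  have hD₀a : AEStronglyMeasurable D₀ m :=
    (hχm.comp_aemeasurable hfa.aemeasurable).aestronglyMeasurable.mul (Dw_aesm f)
  have hD₀l : IsL2OnBalls m D₀ := by
    intro o R
    refine (Dw_l2b f o R).of_le hD₀a.restrict (Eventually.of_forall fun x => ?_)
    simp only [hD₀, hχ]
    split_ifs <;> simp
  set F : ℕ → X → ℝ := fun n x => f x - Real.arctan (((n : ℝ) + 1) * f x) / ((n : ℝ) + 1) with hF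
  have hn : ∀ n : ℕ, (0 : ℝ) < (n : ℝ) + 1 := fun n => by positivity
  have hch : ∀ n : ℕ, SL m (F n) ∧ ∀ᵐ x ∂m, Dw m (F n) x ≤
      |1 - 1 / (1 + (((n : ℝ) + 1) * f x) ^ 2)| * Dw m f x := fun n =>
    SL.chain_le hf (fun z => z - Real.arctan (((n : ℝ) + 1) * z) / ((n : ℝ) + 1))
      (fun z => 1 - 1 / (1 + (((n : ℝ) + 1) * z) ^ 2)) (b4b_hasDeriv _ (hn n))
      (continuous_const.sub (continuous_const.div (by fun_prop) fun z => by positivity))
      (b4b_abs_le _)
  have hw : ∀ n : ℕ, IsWUGLoc m (F n) D₀ := by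
    intro n
    refine wug_mono (SL.wug (hch n).1) hD₀l ?_
    filter_upwards [(hch n).2, Dw_nonneg (m := m) f] with x h1 h2
    refine h1.trans (mul_le_mul_of_nonneg_right ?_ h2)
    simp only [hχ]
    split_ifs with h
    · simp [h]
    · exact b4b_abs_le _ _
  have hlim : IsWUGLoc m f D₀ := by
    refine wug_limit (F := F) (G := fun _ => D₀) hf.1 hD₀l (fun n => (hch n).1.1) hw
      (fun o R => ?_) (fun o R => by simp)
    have hfin : m (ball o R) < ⊤ :=
      (measure_mono ball_subset_closedBall).trans_lt (isCompact_closedBall o R).measure_lt_top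
    have hb : ∀ n : ℕ, ∫ x in ball o R, |F n x - f x| ∂m ≤
        (Real.pi / 2 * m.real (ball o R)) * (1 / ((n : ℝ) + 1)) := by
      intro n
      have h1 : ∀ x ∈ ball o R, ‖|F n x - f x|‖ ≤ Real.pi / 2 * (1 / ((n : ℝ) + 1)) := by
        intro x _
        have e : F n x - f x = -(Real.arctan (((n : ℝ) + 1) * f x) / ((n : ℝ) + 1)) := by
          simp only [hF]; ring
        rw [Real.norm_eq_abs, abs_abs, e, abs_neg, abs_div, abs_of_pos (hn n), mul_one_div]
        refine div_le_div_of_nonneg_right (abs_le.2 ⟨?_, ?_⟩) (hn n).le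
        · exact (Real.neg_pi_div_two_lt_arctan _).le
        · exact (Real.arctan_lt_pi_div_two _).le
      have h2 := norm_setIntegral_le_of_norm_le_const hfin h1
      refine (le_abs_self _).trans ((Real.norm_eq_abs _).symm.le.trans (h2.trans (le_of_eq ?_)))
      ring
    have h0 : Tendsto (fun n : ℕ => (Real.pi / 2 * m.real (ball o R)) * (1 / ((n : ℝ) + 1))) atTop
        (𝓝 0) := by
      simpa using tendsto_one_div_add_atTop_nhds_zero_nat.const_mul (Real.pi / 2 * m.real (ball o R))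
    exact squeeze_zero (fun n => integral_nonneg fun x => abs_nonneg _) hb h0
  filter_upwards [SL.Dw_le hf hlim, Dw_nonneg (m := m) f] with x h1 h2 hx
  have : D₀ x = 0 := by simp [hD₀, hχ, hx]
  exact le_antisymm (h1.trans this.le) h2

theorem SL.Dw_local {f g : X → ℝ} (hf : SL m f) (hg : SL m g) :
    ∀ᵐ x ∂m, f x = g x → Dw m f x = Dw m g x := by
  filter_upwards [SL.Dw_eq_zero (SL.sub hf hg).1, SL.abs_Dw_sub hf hg] with x h1 h2 hx
  rw [h1 (sub_eq_zero.2 hx)] at h2
  exact sub_eq_zero.1 (abs_nonpos_iff.1 h2)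

theorem SL.inf {f g : X → ℝ} (hf : SL m f) (hg : SL m g) :
    SL m (fun x => min (f x) (g x)) ∧
      ∀ᵐ x ∂m, Dw m (fun x => min (f x) (g x)) x ≤ max (Dw m f x) (Dw m g x) := by
  have h1 : SL m fun x => min (f x - g x) 0 + g x :=
    (SL.add (SL.lip_comp (SL.sub hf hg).1 (LipschitzWith.id.min_const (0 : ℝ))).1 hg).1
  have e : (fun x => min (f x - g x) 0 + g x) = fun x => min (f x) (g x) := by
    funext x
    rcases le_total (f x) (g x) with h | h
    · rw [min_eq_left (sub_nonpos.2 h), min_eq_left h]; ring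
    · rw [min_eq_right (sub_nonneg.2 h), min_eq_right h]; ring
  rw [e] at h1
  refine ⟨h1, ?_⟩
  filter_upwards [SL.Dw_local h1 hf, SL.Dw_local h1 hg] with x h2 h3
  rcases le_total (f x) (g x) with h | h
  · rw [h2 (min_eq_left h)]; exact le_max_left _ _
  · rw [h3 (min_eq_right h)]; exact le_max_right _ _

theorem SL.sup {f g : X → ℝ} (hf : SL m f) (hg : SL m g) :
    SL m (fun x => max (f x) (g x)) ∧
      ∀ᵐ x ∂m, Dw m (fun x => max (f x) (g x)) x ≤ max (Dw m f x) (Dw m g x) := by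
  have h1 : SL m fun x => max (f x - g x) 0 + g x :=
    (SL.add (SL.lip_comp (SL.sub hf hg).1 (LipschitzWith.id.max_const (0 : ℝ))).1 hg).1
  have e : (fun x => max (f x - g x) 0 + g x) = fun x => max (f x) (g x) := by
    funext x
    rcases le_total (f x) (g x) with h | h
    · rw [max_eq_right (sub_nonpos.2 h), max_eq_right h]; ring
    · rw [max_eq_left (sub_nonneg.2 h), max_eq_left h]; ring
  rw [e] at h1
  refine ⟨h1, ?_⟩
  filter_upwards [SL.Dw_local h1 hf, SL.Dw_local h1 hg] with x h2 h3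
  rcases le_total (f x) (g x) with h | h
  · rw [h3 (max_eq_right h)]; exact le_max_right _ _
  · rw [h2 (max_eq_left h)]; exact le_max_left _ _

/-- A `C¹` function on a compact interval extends to a `C¹` function on the line with bounded
derivative (continue affinely outside). -/
theorem exists_C1_ext {a b : ℝ} (hab : a ≤ b) (φ φ' : ℝ → ℝ)
    (hφ : ∀ z ∈ Icc a b, HasDerivAt φ (φ' z) z) (hc : ContinuousOn φ' (Icc a b)) :
    ∃ (ψ ψ' : ℝ → ℝ) (L : ℝ), (∀ z, HasDerivAt ψ (ψ' z) z) ∧ Continuous ψ' ∧ (∀ z, |ψ' z| ≤ L) ∧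
      ∀ z ∈ Icc a b, ψ z = φ z ∧ ψ' z = φ' z := by
  have hmem : ∀ z : ℝ, max a (min b z) ∈ Icc a b := fun z =>
    ⟨le_max_left _ _, max_le hab (min_le_left _ _)⟩
  have hcl : ∀ z ∈ Icc a b, max a (min b z) = z := fun z hz => by
    rw [min_eq_right hz.2, max_eq_right hz.1]
  have hcont : Continuous fun z : ℝ => φ' (max a (min b z)) :=
    hc.comp_continuous (by fun_prop) hmem
  obtain ⟨L, hL⟩ := isCompact_Icc.exists_bound_of_continuousOn hc
  refine ⟨fun z => φ a + ∫ t in a..z, φ' (max a (min b t)), fun z => φ' (max a (min b z)), L,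
    fun z => ?_, hcont, fun z => hL _ (hmem z), fun z hz => ⟨?_, by simp only [hcl z hz]⟩⟩
  · exact ((hcont.integral_hasStrictDerivAt a z).hasDerivAt).const_add _
  · have hsub : uIcc a z ⊆ Icc a b := by
      rw [uIcc_of_le hz.1]; exact Icc_subset_Icc le_rfl hz.2
    have := intervalIntegral.integral_eq_sub_of_hasDerivAt (f := φ)
      (f' := fun t => φ' (max a (min b t))) (a := a) (b := z)
      (fun t ht => by simpa only [hcl t (hsub ht)] using hφ t (hsub ht))
      (hcont.intervalIntegrable a z)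
    simp only [this]
    ring

end Crest.Agent.R242
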