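import Crest.Agent.R242.B3

/-! Block B5: the quadratic criterion for weak upper gradients and Young's form of the
inequality along geodesic plans.
`wug_of_young`: measurable representatives.  Apply the hypothesis to `(cond P A).map (subc · a b)` with
`l (b - a)` in place of `l` and `A` intersected with the sets where `u(γ b) - u(γ a)` has a sign: for
a.e. `γ`, all rational `a < b`, `l > 0`:
`|u(γ b) - u(γ a)| ≤ ∫_a^b (l/2) G(γ r)² + sp²/(2l)`; then `line_iInf` over an enumeration of the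
positive rationals `l`, and `⨅ l, ((l/2) g² + s²/(2l)) = g s`.
`geo_young`: `wug_path`, `upperSpeed_geo`, `D·len ≤ (l/2) D² + len²/(2l)`, Fubini. -/

set_option autoImplicit false
set_option linter.unusedSectionVars false
set_option linter.unusedVariables false
open MeasureTheory Filter Set Metric
open scoped ENNReal NNReal Topology
open Crest.GeometryTopology.SyntheticRicci

noncomputable section
namespace Crest.Agent.R242

variable {X : Type*} [MetricSpace X] [MeasurableSpace X] [BorelSpace X] [ProperSpace X]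
  {m : Measure X} [IsFiniteMeasureOnCompacts m] [m.IsOpenPosMeasure]

/-- Young's integrand -/
def b5aY (G : X → ℝ) (l : ℝ) (γ : UCurve X) (r : ℝ) : ℝ≥0∞ :=
  ENNReal.ofReal (l / 2) * ENNReal.ofReal (G (γ.ext r)) ^ 2 +
    ENNReal.ofReal (1 / (2 * l)) * upperSpeed γ r ^ 2

theorem b5a_mg {G : X → ℝ} (hG : Measurable G) :
    Measurable fun p : UCurve X × ℝ => ENNReal.ofReal (G (p.1.ext p.2)) ^ 2 :=
  ((hG.comp measurable_ext).ennreal_ofReal).pow_const 2

theorem b5a_ms : Measurable fun p : UCurve X × ℝ => upperSpeed p.1 p.2 ^ 2 :=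
  measurable_upperSpeed.pow_const 2

theorem b5a_mY {G : X → ℝ} (hG : Measurable G) (l : ℝ) :
    Measurable fun p : UCurve X × ℝ => b5aY G l p.1 p.2 :=
  ((b5a_mg hG).const_mul _).add (b5a_ms.const_mul _)

theorem b5a_mY' {G : X → ℝ} (hG : Measurable G) (l : ℝ) (γ : UCurve X) : Measurable (b5aY G l γ) :=
  Measurable.of_uncurry_left (f := b5aY G l) (b5a_mY hG l)

theorem b5a_ms' (γ : UCurve X) : Measurable fun r : ℝ => upperSpeed γ r ^ 2 :=
  Measurable.of_uncurry_left (f := fun (γ : UCurve X) (r : ℝ) => upperSpeed γ r ^ 2) b5a_ms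

theorem b5a_mI {G : X → ℝ} (hG : Measurable G) (l : ℝ) :
    Measurable fun γ : UCurve X => ∫⁻ r in Icc (0 : ℝ) 1, b5aY G l γ r :=
  (b5a_mY hG l).lintegral_prod_right' (ν := volume.restrict (Icc (0 : ℝ) 1))

theorem b5a_mJ : Measurable fun γ : UCurve X => ∫⁻ r in Icc (0 : ℝ) 1, upperSpeed γ r ^ 2 :=
  b5a_ms.lintegral_prod_right' (ν := volume.restrict (Icc (0 : ℝ) 1))

theorem b5a_split {G : X → ℝ} (hG : Measurable G) (l : ℝ) (Q : Measure (UCurve X)) :
    ∫⁻ γ, (∫⁻ r in Icc (0 : ℝ) 1, b5aY G l γ r) ∂Q =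
      ENNReal.ofReal (l / 2) * ∫⁻ γ, (∫⁻ r in Icc (0 : ℝ) 1, ENNReal.ofReal (G (γ.ext r)) ^ 2) ∂Q +
        ENNReal.ofReal (1 / (2 * l)) * ∫⁻ γ, (∫⁻ r in Icc (0 : ℝ) 1, upperSpeed γ r ^ 2) ∂Q := by
  rw [← lintegral_const_mul' _ _ ENNReal.ofReal_ne_top, ← lintegral_const_mul' _ _ ENNReal.ofReal_ne_top,
    ← lintegral_add_left (((b5a_mg hG).lintegral_prod_right'
      (ν := volume.restrict (Icc (0 : ℝ) 1))).const_mul _)]
  refine lintegral_congr fun γ => ?_
  rw [← lintegral_const_mul' _ _ ENNReal.ofReal_ne_top, ← lintegral_const_mul' _ _ ENNReal.ofReal_ne_top]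
  exact lintegral_add_left (((b5a_mg hG).comp measurable_prodMk_left).const_mul _) _

theorem b5a_E {G : X → ℝ} (hG : Measurable G) (hG0 : ∀ x, 0 ≤ G x) {Q : Measure (UCurve X)}
    [IsProbabilityMeasure Q] {l z : ℝ} (hl : 0 < l)
    (h : z ≤ l / 2 * (∫ r in (0 : ℝ)..1, ∫ γ, G (γ.ext r) ^ 2 ∂Q) +
      1 / (2 * l) * (∫⁻ γ, (∫⁻ t in Icc (0 : ℝ) 1, upperSpeed γ t ^ 2) ∂Q).toReal) :
    ENNReal.ofReal z ≤ ∫⁻ γ, (∫⁻ r in Icc (0 : ℝ) 1, b5aY G l γ r) ∂Q := by
  rw [b5a_split hG]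
  refine (ENNReal.ofReal_le_ofReal h).trans (ENNReal.ofReal_add_le.trans ?_)
  rw [ENNReal.ofReal_mul (by positivity), ENNReal.ofReal_mul (by positivity)]
  refine add_le_add (mul_le_mul_right ?_ _) (mul_le_mul_right ENNReal.ofReal_toReal_le _)
  rw [lintegral_lintegral_swap (b5a_mg hG).aemeasurable,
    intervalIntegral.integral_of_le zero_le_one, ← integral_Icc_eq_integral_Ioc]
  refine (Real.ofReal_le_enorm _).trans ((enorm_integral_le_lintegral_enorm _).trans ?_)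
  refine lintegral_mono fun r => (enorm_integral_le_lintegral_enorm _).trans (lintegral_mono fun γ => ?_)
  rw [Real.enorm_eq_ofReal (sq_nonneg _), ENNReal.ofReal_pow (hG0 _)]

theorem b5a_subc {G : X → ℝ} (hG : Measurable G) {l a b : ℝ} (hl : 0 < l) (ha : 0 ≤ a) (hab : a < b)
    (hb : b ≤ 1) (γ : UCurve X) :
    ∫⁻ r in Icc (0 : ℝ) 1, b5aY G (l * (b - a)) (subc γ a b) r = ∫⁻ r in Icc a b, b5aY G l γ r := by
  have hc : 0 < b - a := sub_pos.2 hab
  rw [← lintegral_affine hab _ (b5a_mY' hG l γ),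
    ← setLIntegral_congr Ioo_ae_eq_Icc, ← setLIntegral_congr Ioo_ae_eq_Icc]
  refine setLIntegral_congr_fun measurableSet_Ioo fun t ht => ?_
  simp only [b5aY]
  rw [subc_ext γ a b (Ioo_subset_Icc_self ht), upperSpeed_subc γ ha hab hb ht, mul_add, mul_pow,
    ← mul_assoc (ENNReal.ofReal _), ← mul_assoc (ENNReal.ofReal (b - a)),
    ← mul_assoc (ENNReal.ofReal (b - a)), ← ENNReal.ofReal_pow hc.le,
    ← ENNReal.ofReal_mul (by positivity), ← ENNReal.ofReal_mul hc.le, ← ENNReal.ofReal_mul hc.le]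
  congr 3
  · ring
  · field_simp

theorem b5a_ae {α : Type*} [MeasurableSpace α] {P : Measure α} [IsFiniteMeasure P] {w : α → ℝ}
    (hw : Measurable w) (hi : Integrable w P) {Φ : α → ℝ≥0∞}
    (h : ∀ A, MeasurableSet A → ENNReal.ofReal (∫ γ in A, w γ ∂P) ≤ ∫⁻ γ in A, Φ γ ∂P) :
    ∀ᵐ γ ∂P, ENNReal.ofReal (w γ) ≤ Φ γ := by
  have hT : MeasurableSet {γ | 0 ≤ w γ} := measurableSet_le measurable_const hw
  have h1 : (fun γ => ENNReal.ofReal (w γ)) ≤ᵐ[P.restrict {γ | 0 ≤ w γ}] Φ := by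
    refine ae_le_of_forall_setLIntegral_le_of_sigmaFinite hw.ennreal_ofReal fun s hs _ => ?_
    rw [Measure.restrict_restrict hs, ← ofReal_integral_eq_lintegral_ofReal hi.integrableOn]
    · exact h _ (hs.inter hT)
    · filter_upwards [ae_restrict_mem (hs.inter hT)] with γ hγ using hγ.2
  filter_upwards [(ae_restrict_iff' hT).1 h1] with γ hγ
  rcases le_total 0 (w γ) with h0 | h0
  · exact hγ h0
  · rw [ENNReal.ofReal_of_nonpos h0]
    exact zero_le

theorem b5a_inf {l : ℕ → {q : ℚ // 0 < q}} (hl : Function.Surjective l) {g : ℝ} (hg : 0 ≤ g) {s : ℝ≥0∞}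
    (hs : s ≠ ⊤) :
    ⨅ k, (ENNReal.ofReal (((l k).1 : ℝ) / 2) * ENNReal.ofReal g ^ 2 +
      ENNReal.ofReal (1 / (2 * ((l k).1 : ℝ))) * s ^ 2) ≤ ENNReal.ofReal g * s := by
  obtain ⟨σ, hσ, rfl⟩ : ∃ σ : ℝ, 0 ≤ σ ∧ s = ENNReal.ofReal σ :=
    ⟨s.toReal, ENNReal.toReal_nonneg, (ENNReal.ofReal_toReal hs).symm⟩
  refine ENNReal.le_of_forall_pos_le_add fun ε hε _ => ?_
  have hε' : (0 : ℝ) < ε := hε
  have hδ : 0 < (ε : ℝ) / (g + σ + 1) := by positivity
  obtain ⟨p, hp1, hp2⟩ := exists_rat_btwn (lt_add_of_pos_right σ hδ)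
  obtain ⟨q, hq1, hq2⟩ := exists_rat_btwn (lt_add_of_pos_right g hδ)
  have hp : (0 : ℝ) < p := hσ.trans_lt hp1
  have hq : (0 : ℝ) < q := hg.trans_lt hq1
  obtain ⟨k, hk⟩ := hl ⟨p / q, div_pos (by exact_mod_cast hp) (by exact_mod_cast hq)⟩
  refine (iInf_le _ k).trans ?_
  have e : ((l k).1 : ℝ) = p / q := by rw [hk]; push_cast; rfl
  rw [e, ← ENNReal.ofReal_pow hg, ← ENNReal.ofReal_pow hσ, ← ENNReal.ofReal_mul (by positivity),
    ← ENNReal.ofReal_mul (by positivity), ← ENNReal.ofReal_add (by positivity) (by positivity),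
    ← ENNReal.ofReal_mul hg, ← ENNReal.ofReal_coe_nnreal,
    ← ENNReal.ofReal_add (by positivity) hε'.le]
  refine ENNReal.ofReal_le_ofReal ?_
  have h1 : (p : ℝ) / q / 2 * g ^ 2 ≤ p * g / 2 := by
    rw [show (p : ℝ) / q / 2 * g ^ 2 = p * g / 2 * (g / q) by field_simp]
    exact mul_le_of_le_one_right (by positivity) ((div_le_one hq).2 hq1.le)
  have h2 : 1 / (2 * ((p : ℝ) / q)) * σ ^ 2 ≤ q * σ / 2 := by
    rw [show 1 / (2 * ((p : ℝ) / q)) * σ ^ 2 = q * σ / 2 * (σ / p) by field_simp]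
    exact mul_le_of_le_one_right (by positivity) ((div_le_one hp).2 hp1.le)
  have h3 := mul_le_mul_of_nonneg_right hp2.le hg
  have h4 := mul_le_mul_of_nonneg_right hq2.le hσ
  have h5 : (ε : ℝ) / (g + σ + 1) * (g + σ + 1) = ε := by field_simp
  nlinarith

theorem b5a_fin {G : X → ℝ} (hG : Measurable G) (hG0 : ∀ x, 0 ≤ G x) (hG2 : IsL2OnBalls m G)
    {P : Measure (UCurve X)} (hP : Plan m P) (l : ℝ) :
    ∫⁻ γ, (∫⁻ r in Icc (0 : ℝ) 1, b5aY G l γ r) ∂P ≠ ⊤ := by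
  have := hP.prob
  obtain ⟨C, -, hC⟩ := hP.cmpr
  obtain ⟨o, R, -, hT⟩ := hP.tracks
  rw [b5a_split hG]
  refine ENNReal.add_ne_top.2 ⟨ENNReal.mul_ne_top ENNReal.ofReal_ne_top ?_,
    ENNReal.mul_ne_top ENNReal.ofReal_ne_top hP.1.2.2.2.ne⟩
  have h1 : ∫⁻ x in closedBall o R, ENNReal.ofReal (G x) ^ 2 ∂m ≠ ⊤ := by
    have h2 := (IsL2OnBalls.integrableOn_mul hG2 hG2 o R).2
    refine ne_of_lt (lt_of_le_of_lt (le_of_eq (lintegral_congr fun x => ?_)) h2)
    rw [Real.enorm_eq_ofReal (mul_self_nonneg _), ENNReal.ofReal_mul (hG0 x), sq]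
  rw [lintegral_lintegral_swap (b5a_mg hG).aemeasurable]
  refine ne_top_of_le_ne_top (b := ∫⁻ _ in Icc (0 : ℝ) 1,
    ENNReal.ofReal C * ∫⁻ x in closedBall o R, ENNReal.ofReal (G x) ^ 2 ∂m) ?_ ?_
  · rw [setLIntegral_const, Real.volume_Icc]
    exact ENNReal.mul_ne_top (ENNReal.mul_ne_top ENNReal.ofReal_ne_top h1) ENNReal.ofReal_ne_top
  · refine lintegral_mono_ae ?_
    filter_upwards [ae_restrict_mem measurableSet_Icc] with t ht
    rw [← lintegral_map (hG.ennreal_ofReal.pow_const 2) (measurable_ext_at t), ← smul_eq_mul,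
      ← lintegral_smul_measure]
    exact lintegral_mono' (a6b_le hC hT ht) le_rfl

theorem b5a_path {u G : X → ℝ} (hu : Measurable u) (hu2 : IsL2OnBalls m u) (hG : Measurable G)
    (h : ∀ P : Measure (UCurve X), Plan m P → ∀ l : ℝ, 0 < l →
      ENNReal.ofReal |∫ γ, u (γ.ext 1) ∂P - ∫ γ, u (γ.ext 0) ∂P| ≤
        ∫⁻ γ, (∫⁻ r in Icc (0 : ℝ) 1, b5aY G l γ r) ∂P)
    {P : Measure (UCurve X)} (hP : Plan m P) {l a b : ℝ} (hl : 0 < l) (ha : 0 ≤ a) (hab : a < b)
    (hb : b ≤ 1) :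
    ∀ᵐ γ ∂P, ENNReal.ofReal |u (γ.ext b) - u (γ.ext a)| ≤ ∫⁻ r in Icc a b, b5aY G l γ r := by
  have := hP.prob
  obtain ⟨C, -, hC⟩ := hP.cmpr
  obtain ⟨o, R, -, hT⟩ := hP.tracks
  have hm : ∀ t : ℝ, Measurable fun γ : UCurve X => u (γ.ext t) := fun t =>
    hu.comp (measurable_ext_at t)
  have hia := hC.integrable hT (IsL2OnBalls.integrableOn hu2 o R) (t := a) ⟨ha, hab.le.trans hb⟩
  have hib := hC.integrable hT (IsL2OnBalls.integrableOn hu2 o R) (t := b) ⟨ha.trans hab.le, hb⟩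
  have key : ∀ A, MeasurableSet A →
      ENNReal.ofReal |∫ γ in A, (u (γ.ext b) - u (γ.ext a)) ∂P| ≤
        ∫⁻ γ in A, (∫⁻ r in Icc a b, b5aY G l γ r) ∂P := by
    intro A hA
    by_cases h0 : P A = 0
    · rw [setIntegral_measure_zero _ h0]
      simp
    have h1 := h _ ((hP.cond hA h0).map_subc ha hab hb) (l * (b - a)) (mul_pos hl (sub_pos.2 hab))
    rw [integral_map (measurable_subc a b).aemeasurable (hm 1).aestronglyMeasurable,
      integral_map (measurable_subc a b).aemeasurable (hm 0).aestronglyMeasurable,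
      lintegral_map (b5a_mI hG _) (measurable_subc a b)] at h1
    simp only [b5a_subc hG hl ha hab hb, subc_ext _ a b (left_mem_Icc.2 zero_le_one),
      subc_ext _ a b (right_mem_Icc.2 zero_le_one), zero_mul, add_zero, one_mul, add_sub_cancel] at h1
    rw [ProbabilityTheory.cond, integral_smul_measure, integral_smul_measure, lintegral_smul_measure,
      ← smul_sub, ← integral_sub hib.integrableOn hia.integrableOn, smul_eq_mul, smul_eq_mul, abs_mul,
      abs_of_nonneg ENNReal.toReal_nonneg, ENNReal.ofReal_mul ENNReal.toReal_nonneg,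
      ENNReal.ofReal_toReal (ENNReal.inv_ne_top.2 h0)] at h1
    exact (ENNReal.mul_le_mul_iff_right (ENNReal.inv_ne_zero.2 (measure_ne_top _ _))
      (ENNReal.inv_ne_top.2 h0)).1 h1
  have k1 := b5a_ae (w := fun γ : UCurve X => u (γ.ext b) - u (γ.ext a)) ((hm b).sub (hm a))
    (hib.sub hia) fun A hA =>
    (ENNReal.ofReal_le_ofReal (le_abs_self _)).trans (key A hA)
  have k2 := b5a_ae (w := fun γ : UCurve X => -(u (γ.ext b) - u (γ.ext a))) ((hm b).sub (hm a)).neg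
    (hib.sub hia).neg fun A hA => by
    refine (ENNReal.ofReal_le_ofReal ?_).trans (key A hA)
    rw [integral_neg]
    exact neg_le_abs _
  filter_upwards [k1, k2] with γ g1 g2
  rcases abs_choice (u (γ.ext b) - u (γ.ext a)) with e | e
  · rw [e]; exact g1
  · rw [e]; exact g2

theorem b5a_main {u G : X → ℝ} (hu : Measurable u) (hu2 : IsL2OnBalls m u) (hG : Measurable G)
    (hG0 : ∀ x, 0 ≤ G x) (hG2 : IsL2OnBalls m G)
    (h : ∀ P : Measure (UCurve X), Plan m P → ∀ l : ℝ, 0 < l →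
      ENNReal.ofReal |∫ γ, u (γ.ext 1) ∂P - ∫ γ, u (γ.ext 0) ∂P| ≤
        ∫⁻ γ, (∫⁻ r in Icc (0 : ℝ) 1, b5aY G l γ r) ∂P) : IsWUGLoc m u G := by
  refine wug_of_path hG2 (Eventually.of_forall hG0) fun P hP => ?_
  obtain ⟨l, hl⟩ := exists_surjective_nat {q : ℚ // 0 < q}
  have hl0 : ∀ k, (0 : ℝ) < (l k).1 := fun k => by exact_mod_cast (l k).2
  have h1 : ∀ᵐ γ ∂P, ∀ k : ℕ, ∀ s t : ℚ, 0 ≤ s → s ≤ t → t ≤ 1 →
      ENNReal.ofReal |u (γ.ext t) - u (γ.ext s)| ≤ ∫⁻ r in Icc (s : ℝ) t, b5aY G (l k).1 γ r := by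
    refine ae_all_iff.2 fun k => ae_all_iff.2 fun s => ae_all_iff.2 fun t => ?_
    by_cases hc : 0 ≤ s ∧ s < t ∧ t ≤ 1
    · filter_upwards [b5a_path hu hu2 hG h hP (hl0 k) (a := s) (b := t) (by exact_mod_cast hc.1)
        (by exact_mod_cast hc.2.1) (by exact_mod_cast hc.2.2)] with γ hγ _ _ _ using hγ
    · refine Eventually.of_forall fun γ h1 h2 h3 => ?_
      obtain rfl : s = t := le_antisymm h2 (not_lt.1 fun h4 => hc ⟨h1, h4, h3⟩)
      simp
  have h2 : ∀ᵐ γ ∂P, ∀ k : ℕ, ∫⁻ r in Icc (0 : ℝ) 1, b5aY G (l k).1 γ r < ⊤ :=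
    ae_all_iff.2 fun k => ae_lt_top (b5a_mI hG _) (b5a_fin hG hG0 hG2 hP _)
  have h3 : ∀ᵐ γ ∂P, ∫⁻ r in Icc (0 : ℝ) 1, upperSpeed γ r ^ 2 < ⊤ :=
    ae_lt_top b5a_mJ hP.1.2.2.2.ne
  filter_upwards [h1, h2, h3] with γ g1 g2 g3
  refine (line_iInf (fun t => u (γ.ext t)) (fun k => b5aY G (l k).1 γ)
    (fun k => b5a_mY' hG _ γ) (fun k => (g2 k).ne) g1).trans
    (lintegral_mono_ae ?_)
  filter_upwards [ae_lt_top (b5a_ms' γ) g3.ne] with t ht
  refine b5a_inf hl (hG0 _) fun h0 => ?_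
  simp [h0] at ht

theorem wug_of_young {u G : X → ℝ} (hu : IsL2OnBalls m u) (hG : IsL2OnBalls m G)
    (hG0 : ∀ᵐ x ∂m, 0 ≤ G x)
    (h : ∀ P : Measure (UCurve X), Plan m P → ∀ l : ℝ, 0 < l →
      |∫ γ, u (γ.ext 1) ∂P - ∫ γ, u (γ.ext 0) ∂P| ≤
        l / 2 * (∫ r in (0 : ℝ)..1, ∫ γ, G (γ.ext r) ^ 2 ∂P) +
          1 / (2 * l) * (∫⁻ γ, (∫⁻ t in Icc (0 : ℝ) 1, upperSpeed γ t ^ 2) ∂P).toReal) :
    IsWUGLoc m u G := by
  have hu1 := IsL2OnBalls.aesm hu
  have hG1 := IsL2OnBalls.aesm hG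
  have eu : u =ᵐ[m] hu1.mk u := hu1.ae_eq_mk
  have eG : G =ᵐ[m] fun x => max (hG1.mk G x) 0 := by
    filter_upwards [hG1.ae_eq_mk, hG0] with x h1 h2
    rw [← h1, max_eq_left h2]
  have hGm : Measurable fun x => max (hG1.mk G x) 0 :=
    hG1.stronglyMeasurable_mk.measurable.max measurable_const
  refine wug_congr (b5a_main hu1.stronglyMeasurable_mk.measurable (IsL2OnBalls.congr hu eu) hGm
    (fun x => le_max_right _ _) (IsL2OnBalls.congr hG eG) fun P hP l hl => ?_) eu.symm eG.symm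
  have := hP.prob
  obtain ⟨C, -, hC⟩ := hP.cmpr
  refine b5a_E hGm (fun x => le_max_right _ _) hl ?_
  have h1 := h P hP l hl
  rw [integral_congr_ae (hC.ae eu (right_mem_Icc.2 zero_le_one)),
    integral_congr_ae (hC.ae eu (left_mem_Icc.2 zero_le_one))] at h1
  refine h1.trans_eq ?_
  congr 2
  refine intervalIntegral.integral_congr fun r hr => integral_congr_ae ?_
  rw [uIcc_of_le zero_le_one] at hr
  filter_upwards [hC.ae eG hr] with γ hγ
  rw [hγ]

theorem geo_young {f : X → ℝ} (hf : SL m f) {P : Measure (UCurve X)} [IsProbabilityMeasure P]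
    {C : ℝ} (hC : Cmpr m P C) {o : X} {R : ℝ}
    (hg : ∀ᵐ γ ∂P, IsCSGeodesic γ ∧ γ.ext 0 ∈ closedBall o R ∧ γ.ext 1 ∈ closedBall o R)
    {a b l : ℝ} (ha : 0 ≤ a) (hab : a ≤ b) (hb : b ≤ 1) (hl : 0 < l) :
    |∫ γ, f (γ.ext b) ∂P - ∫ γ, f (γ.ext a) ∂P| ≤
      l / 2 * (∫ r in a..b, ∫ γ, Gam m f f (γ.ext r) ∂P) +
        (b - a) / (2 * l) * ∫ γ, len γ ^ 2 ∂P := by
  obtain ⟨hP, hT⟩ := plan_of_geo hC hg
  have hf' := IsL2OnBalls.aesm hf.1
  have hD' := Dw_aesm (m := m) f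
  have hfm : Measurable (hf'.mk f) := hf'.stronglyMeasurable_mk.measurable
  have hDm : Measurable (hD'.mk _) := hD'.stronglyMeasurable_mk.measurable
  have hG : ∀ᵐ x ∂m, Gam m f f x = hD'.mk _ x ^ 2 := by
    filter_upwards [SL.gam_self hf, hD'.ae_eq_mk] with x h1 h2
    rw [h1, h2]
  have hw := wug_path hfm hDm (wug_congr (SL.wug hf) hf'.ae_eq_mk hD'.ae_eq_mk) hP ha hab hb
  generalize hD'.mk _ = D at hDm hG hw
  have hsub : Icc a b ⊆ Icc 0 1 := Icc_subset_Icc ha hb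
  have ma : a ∈ Icc (0 : ℝ) 1 := ⟨ha, hab.trans hb⟩
  have mb : b ∈ Icc (0 : ℝ) 1 := ⟨ha.trans hab, hb⟩
  have hfi := IsL2OnBalls.integrableOn hf.1 o (3 * R)
  have hGi := gam_integrableOn (m := m) f f o (3 * R)
  have hli : Integrable (fun γ : UCurve X => len γ ^ 2) P := by
    refine Integrable.of_bound (measurable_len.pow_const 2).aestronglyMeasurable ((R + R) ^ 2) ?_
    filter_upwards [hg] with γ h
    rw [Real.norm_of_nonneg (sq_nonneg _)]
    exact pow_le_pow_left₀ dist_nonneg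
      ((dist_triangle_right _ _ o).trans (add_le_add h.2.1 h.2.2)) 2
  have hci : IntervalIntegrable (fun r => ∫ γ, Gam m f f (γ.ext r) ∂P) volume a b :=
    ((hC.cont hT hGi).mono hsub).intervalIntegrable_of_Icc hab
  have hnn : ∀ t ∈ Icc (0 : ℝ) 1, 0 ≤ ∫ γ, Gam m f f (γ.ext t) ∂P := fun t ht =>
    integral_nonneg_of_ae ((hC.ae hG ht).mono fun γ h => (sq_nonneg _).trans_eq h.symm)
  have hL : 0 ≤ ∫ γ, len γ ^ 2 ∂P := integral_nonneg fun _ => sq_nonneg _
  have hi : IntervalIntegrable (fun r => l / 2 * ∫ γ, Gam m f f (γ.ext r) ∂P +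
      1 / (2 * l) * ∫ γ, len γ ^ 2 ∂P) volume a b := (hci.const_mul _).add intervalIntegrable_const
  have hn : ∀ t ∈ Icc a b, 0 ≤ l / 2 * ∫ γ, Gam m f f (γ.ext t) ∂P +
      1 / (2 * l) * ∫ γ, len γ ^ 2 ∂P := fun t ht => by
    have := hnn t (hsub ht)
    positivity
  have e : l / 2 * (∫ r in a..b, ∫ γ, Gam m f f (γ.ext r) ∂P) +
      (b - a) / (2 * l) * ∫ γ, len γ ^ 2 ∂P = ∫ r in Icc a b, (l / 2 * ∫ γ, Gam m f f (γ.ext r) ∂P +
        1 / (2 * l) * ∫ γ, len γ ^ 2 ∂P) := by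
    rw [integral_Icc_eq_integral_Ioc, ← intervalIntegral.integral_of_le hab,
      intervalIntegral.integral_add (hci.const_mul _) intervalIntegrable_const,
      intervalIntegral.integral_const_mul, intervalIntegral.integral_const, smul_eq_mul]
    ring
  have hn' : 0 ≤ᵐ[volume.restrict (Icc a b)] fun r => l / 2 * ∫ γ, Gam m f f (γ.ext r) ∂P +
      1 / (2 * l) * ∫ γ, len γ ^ 2 ∂P := (ae_restrict_mem measurableSet_Icc).mono hn
  rw [e, ← ENNReal.ofReal_le_ofReal_iff (integral_nonneg_of_ae hn'),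
    ofReal_integral_eq_lintegral_ofReal
      ((intervalIntegrable_iff_integrableOn_Icc_of_le hab).1 hi) hn',
    ← integral_sub (hC.integrable hT hfi mb) (hC.integrable hT hfi ma), ← Real.enorm_eq_ofReal_abs]
  refine (enorm_integral_le_lintegral_enorm _).trans ?_
  calc ∫⁻ γ, ‖f (γ.ext b) - f (γ.ext a)‖ₑ ∂P
      ≤ ∫⁻ γ, (∫⁻ t in Icc a b,
          ENNReal.ofReal (l / 2 * D (γ.ext t) ^ 2 + 1 / (2 * l) * len γ ^ 2)) ∂P := by
        refine lintegral_mono_ae ?_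
        filter_upwards [hw, hg, hC.ae hf'.ae_eq_mk ma, hC.ae hf'.ae_eq_mk mb] with γ h1 h2 h3 h4
        rw [Real.enorm_eq_ofReal_abs, h3, h4]
        refine h1.trans ?_
        rw [← setLIntegral_congr Ioo_ae_eq_Icc, ← setLIntegral_congr Ioo_ae_eq_Icc]
        refine setLIntegral_mono' measurableSet_Ioo fun t ht => ?_
        rw [upperSpeed_geo h2.1 ⟨ha.trans_lt ht.1, ht.2.trans_le hb⟩, mul_comm,
          ← ENNReal.ofReal_mul (p := len γ) dist_nonneg]
        refine ENNReal.ofReal_le_ofReal ?_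
        have : l / 2 * D (γ.ext t) ^ 2 + 1 / (2 * l) * len γ ^ 2 - len γ * D (γ.ext t) =
            (l * D (γ.ext t) - len γ) ^ 2 / (2 * l) := by
          field_simp
          ring
        exact sub_nonneg.1 (this ▸ by positivity)
    _ = ∫⁻ t in Icc a b, ∫⁻ γ,
          ENNReal.ofReal (l / 2 * D (γ.ext t) ^ 2 + 1 / (2 * l) * len γ ^ 2) ∂P := by
        refine lintegral_lintegral_swap (Measurable.aemeasurable ?_)
        exact ((((hDm.comp measurable_ext).pow_const 2).const_mul _).add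
          (((measurable_len.comp measurable_fst).pow_const 2).const_mul _)).ennreal_ofReal
    _ = _ := by
        refine setLIntegral_congr_fun measurableSet_Icc fun t ht => ?_
        have i1 := hC.integrable hT hGi (hsub ht)
        rw [← integral_const_mul, ← integral_const_mul, ← integral_add (i1.const_mul _) (hli.const_mul _),
          ofReal_integral_eq_lintegral_ofReal
            (f := fun γ => l / 2 * Gam m f f (γ.ext t) + 1 / (2 * l) * len γ ^ 2)
            ((i1.const_mul _).add (hli.const_mul _))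
            ((hC.ae hG (hsub ht)).mono fun γ h => by
              simp only [Pi.zero_apply, h]
              positivity)]
        refine lintegral_congr_ae ((hC.ae hG (hsub ht)).mono fun γ h => ?_)
        simp only [h]

/-- Squared displacement along a test plan (`edist_le_upperSpeed`, Cauchy-Schwarz in time). -/
theorem Plan.sq_dist_le {P : Measure (UCurve X)} (hP : Plan m P) {a b : ℝ} (ha : 0 ≤ a)
    (hab : a ≤ b) (hb : b ≤ 1) :
    ∫⁻ γ, edist (γ.ext a) (γ.ext b) ^ 2 ∂P ≤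
      ENNReal.ofReal (b - a) * ∫⁻ γ, (∫⁻ t in Icc a b, upperSpeed γ t ^ 2) ∂P := by
  rw [← lintegral_const_mul' _ _ ENNReal.ofReal_ne_top]
  refine lintegral_mono_ae ?_
  filter_upwards [hP.1.2.2.1] with γ h
  have hm : Measurable fun t => upperSpeed γ t :=
    measurable_upperSpeed.comp (f := fun t : ℝ => (γ, t)) measurable_prodMk_left
  have h1 := ENNReal.lintegral_mul_le_Lp_mul_Lq (volume.restrict (Icc a b))
    Real.HolderConjugate.two_two (f := fun _ => 1) aemeasurable_const hm.aemeasurable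
  simp only [Pi.mul_apply, one_mul, one_pow, setLIntegral_one, Real.volume_Icc,
    ENNReal.rpow_two] at h1
  rw [← ENNReal.mul_rpow_of_nonneg _ _ (by norm_num)] at h1
  have h2 := pow_le_pow_left' ((edist_le_upperSpeed h ha hab hb).trans h1) 2
  rwa [← edist_dist, ← ENNReal.rpow_two (_ ^ _), ← ENNReal.rpow_mul,
    show (1 / 2 * 2 : ℝ) = 1 by norm_num, ENNReal.rpow_one] at h2

end Crest.Agent.R242
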