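import Crest.Agent.R242.B4

/-! Block C1: the pointwise parallelogram identity.
`Par f g = D(f+g)² + D(f-g)² - 2Df² - 2Dg²` is integrable on balls; by `ae_eq_zero_of_open` it suffices
to show `∫_U Par f g = 0` for bounded open `U`.  Let `ψ = min 1 (infDist · Uᶜ)` (`ψ = 1` if `Uᶜ = ∅`),
`s_n z = infDist z ((2/n)ℤ)` (`1`-Lipschitz, values in `[0,1/n]`, equal to `±z + c` on each
`[k/n,(k+1)/n]`), `f_n = min (s_n ∘ f) ψ`, `g_n = min (s_n ∘ g) ψ`.  These are in `W^{1,2}` (bounded,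
zero off `U`, gradient `≤ max (Df) 1` and `0` off `U` by locality), so `∫ Par f_n g_n = 0` by
`IsInfHilbertian`.  On `{ψ ≥ 1/n} ∩ {f ∈ I_k} ∩ {g ∈ I_j}`: `f_n = εf + c`, `g_n = ε'g + c'`, so
`Par f_n g_n = Par f g` there (`SL.Dw_local`, `SL.affine`); off `U` it is `0`; on `U ∩ {ψ < 1/n}` it is
dominated by `C (Df² + Dg² + 1)`.  Dominated convergence. -/

set_option autoImplicit false
set_option linter.unusedSectionVars false
set_option linter.unusedVariables false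
open MeasureTheory Filter Set Metric
open scoped ENNReal NNReal Topology
open Crest.GeometryTopology.SyntheticRicci

noncomputable section
namespace Crest.Agent.R242

variable {X : Type*} [MetricSpace X] [MeasurableSpace X] [BorelSpace X] [ProperSpace X]
  {m : Measure X} [IsFiniteMeasureOnCompacts m] [m.IsOpenPosMeasure]

/-- the defect in the parallelogram identity -/
def c1Par (m : Measure X) (f g : X → ℝ) (x : X) : ℝ :=
  Dw m (fun y => f y + g y) x ^ 2 + Dw m (fun y => f y - g y) x ^ 2 -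
    2 * Dw m f x ^ 2 - 2 * Dw m g x ^ 2

theorem c1_saw {δ : ℚ} (hδ : 0 < δ) : ∃ s : ℝ → ℝ, LipschitzWith 1 s ∧ ∀ z, 0 ≤ s z ∧ s z ≤ δ ∧
    ∃ c : ℚ, s z = z + c ∨ s z = -z + c := by
  have hd : (0 : ℝ) < δ := by exact_mod_cast hδ
  have e : ∀ (z : ℝ) (k : ℤ), |z - δ * k| = δ * |z / δ - k| := fun z k => by
    rw [← abs_of_pos hd, ← abs_mul, abs_of_pos hd]
    congr 1
    field_simp
  refine ⟨fun z => |z - δ * round (z / δ)|, LipschitzWith.of_le_add fun z w => ?_, fun z =>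
    ⟨abs_nonneg _, ?_, ?_⟩⟩
  · have h₁ : |z - δ * round (z / δ)| ≤ |z - δ * round (w / δ)| := by
      rw [e, e]
      exact mul_le_mul_of_nonneg_left (round_le _ _) hd.le
    have h₂ := abs_sub_le z w (δ * round (w / δ))
    rw [Real.dist_eq]
    linarith
  · simp only [e]
    have := abs_sub_round (z / δ)
    nlinarith
  · rcases abs_choice (z - δ * round (z / δ)) with h | h
    · exact ⟨-(δ * round (z / δ)), Or.inl (h.trans (by push_cast; ring))⟩
    · exact ⟨δ * round (z / δ), Or.inr (h.trans (by push_cast; ring))⟩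

theorem c1_psi {U : Set X} (hU : IsOpen U) : ∃ ψ : X → ℝ, LipschitzWith 1 ψ ∧ (∀ x ∈ U, 0 < ψ x) ∧
    ∀ x ∉ U, ψ x = 0 := by
  rcases Uᶜ.eq_empty_or_nonempty with h | h
  · refine ⟨fun _ => 1, (LipschitzWith.const 1).weaken zero_le_one, fun _ _ => one_pos, fun x hx => ?_⟩
    exact absurd (show x ∈ Uᶜ from hx) (by rw [h]; exact notMem_empty x)
  · exact ⟨fun x => infDist x Uᶜ, lipschitz_infDist_pt _, fun x hx =>
      (hU.isClosed_compl.notMem_iff_infDist_pos h).1 fun h' => h' hx,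
      fun x hx => infDist_zero_of_mem hx⟩

theorem c1_loc {u v : X → ℝ} (hu : SL m u) (hv : SL m v) :
    ∀ᵐ x ∂m, (∃ c : ℚ, u x = v x + c ∨ u x = -v x + c) → Dw m u x = Dw m v x := by
  have key : ∀ ε : ℝ, |ε| = 1 → ∀ᵐ x ∂m, ∀ c : ℚ, u x = ε * v x + c → Dw m u x = Dw m v x := by
    intro ε hε
    refine ae_all_iff.2 fun c => ?_
    obtain ⟨h₁, h₂⟩ := SL.affine hv ε c
    filter_upwards [SL.Dw_local hu h₁, h₂] with x p₁ p₂ hx
    rw [p₁ hx, p₂, hε, one_mul]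
  filter_upwards [key 1 abs_one, key (-1) (by simp)] with x p₁ p₂
  rintro ⟨c, h | h⟩
  · exact p₁ c (by rw [h]; ring)
  · exact p₂ c (by rw [h]; ring)

theorem c1_par_loc {f g f' g' : X → ℝ} (hf : SL m f) (hg : SL m g) (hf' : SL m f') (hg' : SL m g') :
    ∀ᵐ x ∂m, (∃ c : ℚ, f' x = f x + c ∨ f' x = -f x + c) → (∃ c : ℚ, g' x = g x + c ∨ g' x = -g x + c) →
      c1Par m f' g' x = c1Par m f g x := by
  filter_upwards [c1_loc hf' hf, c1_loc hg' hg, c1_loc (SL.add hf' hg').1 (SL.add hf hg).1,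
    c1_loc (SL.add hf' hg').1 (SL.sub hf hg).1, c1_loc (SL.sub hf' hg').1 (SL.add hf hg).1,
    c1_loc (SL.sub hf' hg').1 (SL.sub hf hg).1] with x p₁ p₂ p₃ p₄ p₅ p₆ h₁ h₂
  unfold c1Par
  rw [p₁ h₁, p₂ h₂]
  obtain ⟨c, h₁ | h₁⟩ := h₁ <;> obtain ⟨d, h₂ | h₂⟩ := h₂
  · rw [p₃ ⟨c + d, Or.inl (by rw [h₁, h₂]; push_cast; ring)⟩,
      p₆ ⟨c - d, Or.inl (by rw [h₁, h₂]; push_cast; ring)⟩]
  · rw [p₄ ⟨c + d, Or.inl (by rw [h₁, h₂]; push_cast; ring)⟩,
      p₅ ⟨c - d, Or.inl (by rw [h₁, h₂]; push_cast; ring)⟩]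
    ring
  · rw [p₄ ⟨c + d, Or.inr (by rw [h₁, h₂]; push_cast; ring)⟩,
      p₅ ⟨c - d, Or.inr (by rw [h₁, h₂]; push_cast; ring)⟩]
    ring
  · rw [p₃ ⟨c + d, Or.inr (by rw [h₁, h₂]; push_cast; ring)⟩,
      p₆ ⟨c - d, Or.inr (by rw [h₁, h₂]; push_cast; ring)⟩]

theorem c1_memLp {h : X → ℝ} (hh : IsL2OnBalls m h) {o : X} {R : ℝ}
    (h0 : ∀ᵐ x ∂m, x ∉ ball o R → h x = 0) : MemLp h 2 m := by
  refine ((memLp_indicator_iff_restrict measurableSet_ball).2 (hh o R)).ae_eq ?_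
  filter_upwards [h0] with x hx
  by_cases h' : x ∈ ball o R
  · exact indicator_of_mem h' _
  · rw [indicator_of_notMem h', hx h']

theorem c1_sw {u : X → ℝ} (hu : SL m u) {o : X} {R : ℝ} (h0 : ∀ x ∉ ball o R, u x = 0) : SW m u := by
  refine ⟨c1_memLp hu.1 (Eventually.of_forall h0), hu, c1_memLp (Dw_l2b u) (o := o) (R := R) ?_⟩
  filter_upwards [SL.Dw_eq_zero hu] with x hx h
  exact hx (h0 x h)

theorem c1_int (hI : IsInfHilbertian m) {f g : X → ℝ} (hf : SW m f) (hg : SW m g)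
    (h₁ : SW m fun y => f y + g y) (h₂ : SW m fun y => f y - g y) : ∫ x, c1Par m f g x ∂m = 0 := by
  have e : ∀ {u : X → ℝ}, SW m u → ∫⁻ x, ENNReal.ofReal (minWeakGrad m u x ^ 2) ∂m =
      ENNReal.ofReal (∫ x, Dw m u x ^ 2 ∂m) := fun hu =>
    (ofReal_integral_eq_lintegral_ofReal hu.2.2.integrable_sq
      (Eventually.of_forall fun x => sq_nonneg _)).symm
  have n : ∀ u : X → ℝ, 0 ≤ ∫ x, Dw m u x ^ 2 ∂m := fun u => integral_nonneg fun x => sq_nonneg _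
  have h := hI f g hf hg
  rw [e hf, e hg, e h₁, e h₂, ← ENNReal.ofReal_add (n _) (n _), ← ENNReal.ofReal_ofNat 2,
    ← ENNReal.ofReal_mul (by norm_num), ← ENNReal.ofReal_mul (by norm_num),
    ← ENNReal.ofReal_add (mul_nonneg (by norm_num) (n _)) (mul_nonneg (by norm_num) (n _)),
    ENNReal.ofReal_eq_ofReal_iff (add_nonneg (n _) (n _))
      (add_nonneg (mul_nonneg (by norm_num) (n _)) (mul_nonneg (by norm_num) (n _)))] at h
  have i₁ := h₁.2.2.integrable_sq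
  have i₂ := h₂.2.2.integrable_sq
  have i₃ := hf.2.2.integrable_sq.const_mul 2
  have i₄ := hg.2.2.integrable_sq.const_mul 2
  have i₅ : Integrable (fun x => Dw m (fun y => f y + g y) x ^ 2 + Dw m (fun y => f y - g y) x ^ 2) m :=
    i₁.add i₂
  have i₆ : Integrable (fun x => Dw m (fun y => f y + g y) x ^ 2 + Dw m (fun y => f y - g y) x ^ 2 -
      2 * Dw m f x ^ 2) m := i₅.sub i₃
  unfold c1Par
  rw [integral_sub i₆ i₄, integral_sub i₅ i₃, integral_add i₁ i₂, integral_const_mul, integral_const_mul]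
  linarith

theorem c1_intOn (f g : X → ℝ) (o : X) (R : ℝ) : IntegrableOn (c1Par m f g) (ball o R) m := by
  have h : ∀ u : X → ℝ, Integrable (fun x => Dw m u x ^ 2) (m.restrict (ball o R)) := fun u =>
    (Dw_l2b u o R).integrable_sq
  exact (((h _).add (h _)).sub ((h f).const_mul 2)).sub ((h g).const_mul 2)

theorem c1_trunc {f ψ : X → ℝ} (hf : SL m f) (hψ : LipschitzWith 1 ψ) {s : ℝ → ℝ}
    (hs : LipschitzWith 1 s) : SL m (fun x => min (s (f x)) (ψ x)) ∧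
      ∀ᵐ x ∂m, Dw m (fun x => min (s (f x)) (ψ x)) x ≤ Dw m f x + 1 := by
  obtain ⟨a₁, a₂⟩ := SL.lip_comp hf hs
  obtain ⟨b₁, b₂⟩ := sl_of_lip (m := m) hψ
  obtain ⟨c₁, c₂⟩ := SL.inf a₁ b₁
  refine ⟨c₁, ?_⟩
  filter_upwards [a₂, b₂, c₂, Dw_nonneg (m := m) f] with x p₁ p₂ p₃ p₄
  simp only [NNReal.coe_one, one_mul] at p₁ p₂
  exact p₃.trans (max_le (by linarith) (by linarith))

theorem c1_bound {f g a b : X → ℝ} (hf : SL m f) (hg : SL m g) (ha : ∀ᵐ x ∂m, Dw m f x ≤ a x)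
    (hb : ∀ᵐ x ∂m, Dw m g x ≤ b x) : ∀ᵐ x ∂m, ‖c1Par m f g x‖ ≤ 6 * a x ^ 2 + 6 * b x ^ 2 := by
  filter_upwards [ha, hb, (SL.add hf hg).2, (SL.sub hf hg).2, Dw_nonneg (m := m) f, Dw_nonneg (m := m) g,
    Dw_nonneg (m := m) fun y => f y + g y, Dw_nonneg (m := m) fun y => f y - g y]
    with x p₁ p₂ p₃ p₄ q₁ q₂ q₃ q₄
  have r₁ := pow_le_pow_left₀ q₁ p₁ 2
  have r₂ := pow_le_pow_left₀ q₂ p₂ 2
  have r₃ := pow_le_pow_left₀ q₃ p₃ 2
  have r₄ := pow_le_pow_left₀ q₄ p₄ 2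
  rw [Real.norm_eq_abs, abs_le]
  unfold c1Par
  constructor <;> nlinarith [sq_nonneg (Dw m f x - Dw m g x), sq_nonneg (Dw m f x), sq_nonneg (Dw m g x),
    sq_nonneg (Dw m (fun y => f y + g y) x), sq_nonneg (Dw m (fun y => f y - g y) x)]

theorem c1_open (hI : IsInfHilbertian m) {f g : X → ℝ} (hf : SL m f) (hg : SL m g) {U : Set X}
    (hU : IsOpen U) (hb : Bornology.IsBounded U) : ∫ x in U, c1Par m f g x ∂m = 0 := by
  rcases U.eq_empty_or_nonempty with rfl | ⟨o, -⟩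
  · simp
  obtain ⟨R, hR⟩ := hb.subset_ball o
  obtain ⟨ψ, hψ, ψ₁, ψ₀⟩ := c1_psi hU
  choose s hs hs' using fun n : ℕ => c1_saw (δ := 1 / (n + 1)) (by positivity)
  obtain ⟨F, hF⟩ : ∃ F : ℕ → X → ℝ, F = fun n x => min (s n (f x)) (ψ x) := ⟨_, rfl⟩
  obtain ⟨G, hG⟩ : ∃ G : ℕ → X → ℝ, G = fun n x => min (s n (g x)) (ψ x) := ⟨_, rfl⟩
  have sF : ∀ n, SL m (F n) ∧ ∀ᵐ x ∂m, Dw m (F n) x ≤ Dw m f x + 1 := fun n => by
    rw [hF]
    exact c1_trunc hf hψ (hs n)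
  have sG : ∀ n, SL m (G n) ∧ ∀ᵐ x ∂m, Dw m (G n) x ≤ Dw m g x + 1 := fun n => by
    rw [hG]
    exact c1_trunc hg hψ (hs n)
  have F0 : ∀ n, ∀ x ∉ U, F n x = 0 := fun n x hx => by
    simp only [hF, ψ₀ x hx]
    exact min_eq_right (hs' n _).1
  have G0 : ∀ n, ∀ x ∉ U, G n x = 0 := fun n x hx => by
    simp only [hG, ψ₀ x hx]
    exact min_eq_right (hs' n _).1
  have z : ∀ n, ∫ x in U, c1Par m (F n) (G n) x ∂m = 0 := fun n => by
    have a₁ := (SL.add (sF n).1 (sG n).1).1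
    have a₂ := (SL.sub (sF n).1 (sG n).1).1
    have b₁ : ∀ x ∉ U, F n x + G n x = 0 := fun x hx => by rw [F0 n x hx, G0 n x hx, add_zero]
    have b₂ : ∀ x ∉ U, F n x - G n x = 0 := fun x hx => by rw [F0 n x hx, G0 n x hx, sub_zero]
    rw [setIntegral_eq_integral_of_ae_compl_eq_zero]
    · exact c1_int hI (c1_sw (sF n).1 fun x hx => F0 n x fun h => hx (hR h))
        (c1_sw (sG n).1 fun x hx => G0 n x fun h => hx (hR h))
        (c1_sw a₁ fun x hx => b₁ x fun h => hx (hR h)) (c1_sw a₂ fun x hx => b₂ x fun h => hx (hR h))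
    · filter_upwards [SL.Dw_eq_zero (sF n).1, SL.Dw_eq_zero (sG n).1, SL.Dw_eq_zero a₁,
        SL.Dw_eq_zero a₂] with x p₁ p₂ p₃ p₄ hx
      unfold c1Par
      rw [p₁ (F0 n x hx), p₂ (G0 n x hx), p₃ (b₁ x hx), p₄ (b₂ x hx)]
      norm_num
  have one : MemLp (fun _ : X => (1 : ℝ)) 2 (m.restrict (ball o R)) :=
    l2b_of_continuous continuous_const o R
  have ib : IntegrableOn (fun x => 6 * (Dw m f x + 1) ^ 2 + 6 * (Dw m g x + 1) ^ 2) (ball o R) m :=
    (((Dw_l2b f o R).add one).integrable_sq.const_mul 6).add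
      (((Dw_l2b g o R).add one).integrable_sq.const_mul 6)
  have lim := tendsto_integral_of_dominated_convergence (μ := m.restrict U)
    (F := fun n => c1Par m (F n) (G n)) (f := c1Par m f g) _
    (fun n => ((c1_intOn _ _ o R).mono_set hR).aestronglyMeasurable) (ib.mono_set hR)
    (fun n => ae_restrict_of_ae (c1_bound (sF n).1 (sG n).1 (sF n).2 (sG n).2)) ?_
  · simp only [z] at lim
    exact tendsto_nhds_unique lim tendsto_const_nhds
  refine (ae_restrict_iff' hU.measurableSet).2 ?_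
  filter_upwards [ae_all_iff.2 fun n => c1_par_loc hf hg (sF n).1 (sG n).1] with x hx hxU
  refine tendsto_const_nhds.congr' ?_
  filter_upwards [tendsto_one_div_add_atTop_nhds_zero_nat.eventually (gt_mem_nhds (ψ₁ x hxU))] with n hn
  have le : ∀ z, s n z ≤ ψ x := fun z => by
    have := (hs' n z).2.1
    push_cast at this
    linarith
  refine (hx n ?_ ?_).symm
  · simp only [hF, min_eq_left (le _)]
    exact (hs' n _).2.2
  · simp only [hG, min_eq_left (le _)]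
    exact (hs' n _).2.2

theorem parallelogram (hI : IsInfHilbertian m) {f g : X → ℝ} (hf : SL m f) (hg : SL m g) :
    ∀ᵐ x ∂m, Dw m (fun y => f y + g y) x ^ 2 + Dw m (fun y => f y - g y) x ^ 2 =
      2 * Dw m f x ^ 2 + 2 * Dw m g x ^ 2 := by
  filter_upwards [ae_eq_zero_of_open (c1_intOn f g) fun U hU hb => c1_open hI hf hg hU hb] with x hx
  simp only [c1Par, Pi.zero_apply] at hx
  linarith

end Crest.Agent.R242
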