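import Crest.Agent.R242.C1

/-! Block C2: `Γ` is bilinear almost everywhere, local, and obeys the chain rule.
`gam_add_left`: Jordan-von Neumann algebra from `parallelogram` (apply it to the pairs
`(f + k/2... )`: with `q = Dw²`, `q(f+g+k) + q(f-g+k)`, … as in Mathlib's
`InnerProductSpace.OfNorm.add_left`).  `gam_const_mul_left`: integers and rationals from additivity,
reals from `abs_gam_le` and `SL.const_mul` (countably many rationals simultaneously, `ae_all_iff`).
`abs_gam_le`: `4Γ = q(f+g) - q(f-g) = 2q(f+g) - 2q f - 2q g ≤ 4 Df Dg` by `SL.add`; same for `-g`.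
`gam_local`: `Γ(f - f', g) ≤ D(f-f') Dg = 0` on `{f = f'}`.
`gam_chain`: for every rational `c`, `|Γ(φ∘f - c f, g)| ≤ |φ'(f) - c| Df Dg` (`SL.chain_le`). -/

set_option autoImplicit false
set_option linter.unusedSectionVars false
set_option linter.unusedVariables false
open MeasureTheory Filter Set Metric
open scoped ENNReal NNReal Topology
open Crest.GeometryTopology.SyntheticRicci

noncomputable section
namespace Crest.Agent.R242

variable {X : Type*} [MetricSpace X] [MeasurableSpace X] [BorelSpace X] [ProperSpace X]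
  {m : Measure X} [IsFiniteMeasureOnCompacts m] [m.IsOpenPosMeasure]

variable (hI : IsInfHilbertian m)
include hI

theorem abs_gam_le {f g : X → ℝ} (hf : SL m f) (hg : SL m g) :
    ∀ᵐ x ∂m, |Gam m f g x| ≤ Dw m f x * Dw m g x := by
  filter_upwards [parallelogram hI hf hg, (hf.add hg).2, (hf.sub hg).2,
    Dw_nonneg (m := m) (fun y => f y + g y), Dw_nonneg (m := m) (fun y => f y - g y)]
    with x h1 h2 h3 h4 h5
  have e : Gam m f g x =
      (Dw m (fun y => f y + g y) x ^ 2 - Dw m (fun y => f y - g y) x ^ 2) / 4 := rfl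
  have h6 := pow_le_pow_left₀ h4 h2 2
  have h7 := pow_le_pow_left₀ h5 h3 2
  rw [e, abs_le]
  constructor <;> nlinarith

omit hI in
theorem c2a_neg {f g : X → ℝ} (hf : SL m f) (h : ∀ y, g y = -f y) :
    ∀ᵐ x ∂m, Dw m g x = Dw m f x := by
  have e : g = fun y => (-1 : ℝ) * f y := by funext y; rw [h y]; ring
  filter_upwards [(hf.const_mul (-1)).2] with x hx
  rw [e, hx]; simp

theorem gam_add_left {f g k : X → ℝ} (hf : SL m f) (hg : SL m g) (hk : SL m k) :
    ∀ᵐ x ∂m, Gam m (fun y => f y + g y) k x = Gam m f k x + Gam m g k x := by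
  have e2 : (fun y => g y + k y + f y) = fun y => f y + g y + k y := by funext y; ring
  have e1 : (fun y => f y + k y + g y) = fun y => f y + g y + k y := by funext y; ring
  have e3 : (fun y => f y - k y + g y) = fun y => f y + g y - k y := by funext y; ring
  have e4 : (fun y => g y - k y + f y) = fun y => f y + g y - k y := by funext y; ring
  have p1 := parallelogram hI (hf.add hk).1 hg
  have p2 := parallelogram hI (hg.add hk).1 hf
  have p3 := parallelogram hI (hf.sub hk).1 hg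
  have p4 := parallelogram hI (hg.sub hk).1 hf
  simp only [e1, e2, e3, e4] at p1 p2 p3 p4
  have n1 := c2a_neg (m := m) ((hf.add hk).1.sub hg).1 (g := fun y => g y - k y - f y)
    (fun y => by ring)
  have n2 := c2a_neg (m := m) ((hg.add hk).1.sub hf).1 (g := fun y => f y - k y - g y)
    (fun y => by ring)
  filter_upwards [p1, p2, p3, p4, n1, n2] with x h1 h2 h3 h4 h5 h6
  show (Dw m (fun y => f y + g y + k y) x ^ 2 - Dw m (fun y => f y + g y - k y) x ^ 2) / 4 =
    (Dw m (fun y => f y + k y) x ^ 2 - Dw m (fun y => f y - k y) x ^ 2) / 4 +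
      (Dw m (fun y => g y + k y) x ^ 2 - Dw m (fun y => g y - k y) x ^ 2) / 4
  rw [h5] at h4
  rw [h6] at h3
  linarith

theorem c2a_split {f k : X → ℝ} (hf : SL m f) (hk : SL m k) (a b : ℝ) :
    ∀ᵐ x ∂m, Gam m (fun y => (a + b) * f y) k x =
      Gam m (fun y => a * f y) k x + Gam m (fun y => b * f y) k x := by
  have e : (fun y => (a + b) * f y) = fun y => a * f y + b * f y := by funext y; ring
  rw [e]
  exact gam_add_left hI (hf.const_mul a).1 (hf.const_mul b).1 hk

theorem c2a_abs {f k : X → ℝ} (hf : SL m f) (hk : SL m k) (a : ℝ) :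
    ∀ᵐ x ∂m, |Gam m (fun y => a * f y) k x| ≤ |a| * (Dw m f x * Dw m k x) := by
  filter_upwards [abs_gam_le hI (hf.const_mul a).1 hk, (hf.const_mul a).2] with x h1 h2
  rw [h2, mul_assoc] at h1
  exact h1

theorem c2a_int {f k : X → ℝ} (hf : SL m f) (hk : SL m k) (z : ℤ) :
    ∀ᵐ x ∂m, Gam m (fun y => (z : ℝ) * f y) k x = z * Gam m f k x := by
  have e1 : (fun y => (1 : ℝ) * f y) = f := by funext y; ring
  induction z using Int.induction_on with
  | zero =>
    filter_upwards [c2a_abs hI hf hk 0] with x hx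
    simp only [abs_zero, zero_mul, abs_nonpos_iff] at hx
    simpa using hx
  | succ n ih =>
    filter_upwards [ih, c2a_split hI hf hk (((n : ℤ) : ℝ)) 1] with x h1 h2
    rw [e1, h1] at h2
    push_cast at h2 ⊢
    rw [h2]; ring
  | pred n ih =>
    filter_upwards [ih, c2a_split hI hf hk (((-(n : ℤ) - 1 : ℤ) : ℝ)) 1] with x h1 h2
    have e : ((-(n : ℤ) - 1 : ℤ) : ℝ) + 1 = ((-(n : ℤ) : ℤ) : ℝ) := by push_cast; ring
    rw [e1, e, h1] at h2
    have e' : ((-(n : ℤ) - 1 : ℤ) : ℝ) = ((-(n : ℤ) : ℤ) : ℝ) - 1 := by push_cast; ring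
    rw [show ((-(n : ℤ) - 1 : ℤ) : ℝ) * Gam m f k x =
      ((-(n : ℤ) : ℤ) : ℝ) * Gam m f k x - Gam m f k x by rw [e']; ring]
    linarith

theorem c2a_rat {f k : X → ℝ} (hf : SL m f) (hk : SL m k) (r : ℚ) :
    ∀ᵐ x ∂m, Gam m (fun y => (r : ℝ) * f y) k x = r * Gam m f k x := by
  have hd : ((r.den : ℤ) : ℝ) ≠ 0 := by exact_mod_cast r.den_nz
  have hr : ((r.den : ℤ) : ℝ) * (r : ℝ) = (r.num : ℝ) := by
    have := Rat.den_mul_eq_num r
    exact_mod_cast this
  have e : (fun y => ((r.den : ℤ) : ℝ) * ((r : ℝ) * f y)) = fun y => (r.num : ℝ) * f y := by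
    funext y; rw [← mul_assoc, hr]
  have h1 := c2a_int hI (hf.const_mul (r : ℝ)).1 hk (r.den : ℤ)
  rw [e] at h1
  filter_upwards [h1, c2a_int hI hf hk r.num] with x h2 h3
  apply mul_left_cancel₀ hd
  rw [← h2, h3, ← mul_assoc, hr]

theorem gam_const_mul_left {f k : X → ℝ} (hf : SL m f) (hk : SL m k) (c : ℝ) :
    ∀ᵐ x ∂m, Gam m (fun y => c * f y) k x = c * Gam m f k x := by
  have h : ∀ᵐ x ∂m, ∀ r : ℚ, |Gam m (fun y => c * f y) k x - c * Gam m f k x| ≤
      |c - r| * (Dw m f x * Dw m k x + |Gam m f k x|) := by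
    rw [ae_all_iff]
    intro r
    filter_upwards [c2a_rat hI hf hk r, c2a_split hI hf hk (r : ℝ) (c - r),
      c2a_abs hI hf hk (c - r)] with x h1 h2 h3
    rw [show (r : ℝ) + (c - r) = c by ring, h1] at h2
    rw [h2, show (r : ℝ) * Gam m f k x + Gam m (fun y => (c - r) * f y) k x - c * Gam m f k x =
      Gam m (fun y => (c - r) * f y) k x - (c - r) * Gam m f k x by ring, mul_add]
    refine (abs_sub _ _).trans (add_le_add h3 ?_)
    rw [abs_mul]
  filter_upwards [h] with x hx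
  set A := Dw m f x * Dw m k x + |Gam m f k x| with hA
  have h0 : |Gam m (fun y => c * f y) k x - c * Gam m f k x| ≤ 0 := by
    refine le_of_forall_pos_le_add fun ε hε => ?_
    have hp : 0 < |A| + 1 := by positivity
    obtain ⟨r, hr⟩ := exists_rat_near c (div_pos hε hp)
    have h1 : |c - r| * A ≤ |c - r| * (|A| + 1) :=
      mul_le_mul_of_nonneg_left (by linarith [le_abs_self A]) (abs_nonneg _)
    have h2 : |c - r| * (|A| + 1) ≤ ε := by
      rw [lt_div_iff₀ hp] at hr
      exact hr.le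
    linarith [hx r]
  exact sub_eq_zero.1 (abs_nonpos_iff.1 h0)

theorem gam_sub_left {f g k : X → ℝ} (hf : SL m f) (hg : SL m g) (hk : SL m k) :
    ∀ᵐ x ∂m, Gam m (fun y => f y - g y) k x = Gam m f k x - Gam m g k x := by
  have e : (fun y => f y - g y) = fun y => f y + (-1) * g y := by funext y; ring
  rw [e]
  filter_upwards [gam_add_left hI hf (SL.const_mul hg (-1)).1 hk, gam_const_mul_left hI hg hk (-1)]
    with x h1 h2
  rw [h1, h2]; ring

theorem gam_add_right {f g k : X → ℝ} (hf : SL m f) (hg : SL m g) (hk : SL m k) :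
    ∀ᵐ x ∂m, Gam m k (fun y => f y + g y) x = Gam m k f x + Gam m k g x := by
  filter_upwards [gam_add_left hI hf hg hk, SL.gam_comm hk (SL.add hf hg).1, SL.gam_comm hk hf,
    SL.gam_comm hk hg] with x h1 h2 h3 h4
  rw [h2, h1, h3, h4]

theorem gam_const_mul_right {f k : X → ℝ} (hf : SL m f) (hk : SL m k) (c : ℝ) :
    ∀ᵐ x ∂m, Gam m k (fun y => c * f y) x = c * Gam m k f x := by
  filter_upwards [gam_const_mul_left hI hf hk c, SL.gam_comm hk (SL.const_mul hf c).1,
    SL.gam_comm hk hf] with x h1 h2 h3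
  rw [h2, h1, h3]

theorem gam_sub_right {f g k : X → ℝ} (hf : SL m f) (hg : SL m g) (hk : SL m k) :
    ∀ᵐ x ∂m, Gam m k (fun y => f y - g y) x = Gam m k f x - Gam m k g x := by
  filter_upwards [gam_sub_left hI hf hg hk, SL.gam_comm hk (SL.sub hf hg).1, SL.gam_comm hk hf,
    SL.gam_comm hk hg] with x h1 h2 h3 h4
  rw [h2, h1, h3, h4]

theorem gam_const_left {k : X → ℝ} (hk : SL m k) (c : ℝ) :
    ∀ᵐ x ∂m, Gam m (fun _ => c) k x = 0 := by
  filter_upwards [abs_gam_le hI (sl_const (m := m) c).1 hk, (sl_const (m := m) c).2] with x h1 h2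
  rw [h2, zero_mul] at h1
  exact abs_nonpos_iff.1 h1

theorem gam_local {f f' g g' : X → ℝ} (hf : SL m f) (hf' : SL m f') (hg : SL m g) (hg' : SL m g') :
    ∀ᵐ x ∂m, f x = f' x → g x = g' x → Gam m f g x = Gam m f' g' x := by
  filter_upwards [SL.Dw_local (SL.add hf hg).1 (SL.add hf' hg').1,
    SL.Dw_local (SL.sub hf hg).1 (SL.sub hf' hg').1] with x h1 h2 e1 e2
  have a1 := h1 (by simp only [e1, e2])
  have a2 := h2 (by simp only [e1, e2])
  unfold Gam gradPairing
  unfold Dw at a1 a2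
  rw [a1, a2]

theorem gam_chain {f g : X → ℝ} (hf : SL m f) (hg : SL m g) (φ φ' : ℝ → ℝ)
    (hφ : ∀ z, HasDerivAt φ (φ' z) z) (hc : Continuous φ') {L : ℝ} (hL : ∀ z, |φ' z| ≤ L) :
    ∀ᵐ x ∂m, Gam m (fun y => φ (f y)) g x = φ' (f x) * Gam m f g x := by
  have hφf := (SL.chain_le hf φ φ' hφ hc hL).1
  have key : ∀ c : ℚ, ∀ᵐ x ∂m, |Gam m (fun y => φ (f y)) g x - (c : ℝ) * Gam m f g x| ≤
      |φ' (f x) - (c : ℝ)| * (Dw m f x * Dw m g x) := by
    intro c
    have h1 := SL.chain_le hf (fun z => φ z - (c : ℝ) * z) (fun z => φ' z - (c : ℝ))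
      (fun z => ((hφ z).sub ((hasDerivAt_id z).const_mul (c : ℝ))).congr_deriv (by rw [mul_one]))
      (hc.sub continuous_const) (L := L + |(c : ℝ)|)
      (fun z => (abs_sub _ _).trans (add_le_add_left (hL z) _))
    filter_upwards [h1.2, abs_gam_le hI h1.1 hg, gam_sub_left hI hφf (SL.const_mul hf c).1 hg,
      gam_const_mul_left hI hf hg c, Dw_nonneg (m := m) g] with x a1 a2 a3 a4 a5
    rw [a3, a4] at a2
    refine a2.trans ?_
    rw [← mul_assoc]
    exact mul_le_mul_of_nonneg_right a1 a5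
  filter_upwards [ae_all_iff.2 key] with x hx
  have hall : ∀ c : ℝ, |Gam m (fun y => φ (f y)) g x - c * Gam m f g x| ≤
      |φ' (f x) - c| * (Dw m f x * Dw m g x) := fun c =>
    Rat.denseRange_cast.induction_on c (isClosed_le (by fun_prop) (by fun_prop)) hx
  have := hall (φ' (f x))
  rw [sub_self, abs_zero, zero_mul] at this
  exact sub_eq_zero.1 (abs_nonpos_iff.1 this)

/-- Chain rule for a function with values in a compact interval (`exists_C1_ext`). -/
theorem gam_chain_Icc {f g : X → ℝ} (hf : SL m f) (hg : SL m g) {a b : ℝ}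
    (hab : ∀ᵐ x ∂m, f x ∈ Icc a b) (φ φ' : ℝ → ℝ)
    (hφ : ∀ z ∈ Icc a b, HasDerivAt φ (φ' z) z) (hc : ContinuousOn φ' (Icc a b)) :
    SL m (fun y => φ (f y)) ∧ (∀ᵐ x ∂m, Gam m (fun y => φ (f y)) g x = φ' (f x) * Gam m f g x) ∧
      ∀ᵐ x ∂m, Dw m (fun y => φ (f y)) x = |φ' (f x)| * Dw m f x := by
  by_cases hle : a ≤ b
  swap
  · have hF : ∀ᵐ x ∂m, False := hab.mono fun x hx => hle (hx.1.trans hx.2)
    exact ⟨SL.congr hf (hF.mono fun _ h => h.elim), hF.mono fun _ h => h.elim,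
      hF.mono fun _ h => h.elim⟩
  obtain ⟨ψ, ψ', L, hψ, hψc, hψL, he⟩ := exists_C1_ext hle φ φ' hφ hc
  have hE : (fun y => ψ (f y)) =ᵐ[m] fun y => φ (f y) := hab.mono fun x hx => (he _ hx).1
  have hS := (SL.chain_le hf ψ ψ' hψ hψc hψL).1
  refine ⟨SL.congr hS hE, ?_, ?_⟩
  · rw [← gam_congr hE (Filter.EventuallyEq.refl _ g)]
    filter_upwards [gam_chain hI hf hg ψ ψ' hψ hψc hψL, hab] with x h1 hx
    rw [h1, (he _ hx).2]
  · rw [← Dw_congr hE]
    filter_upwards [gam_chain hI hf hS ψ ψ' hψ hψc hψL, gam_chain hI hf hf ψ ψ' hψ hψc hψL,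
      SL.gam_comm hf hS, SL.gam_self hS, SL.gam_self hf, Dw_nonneg (m := m) f,
      Dw_nonneg (m := m) fun y => ψ (f y), hab] with x h1 h2 h3 h4 h5 h6 h7 hx
    rw [← (he _ hx).2]
    have h8 : Dw m (fun y => ψ (f y)) x ^ 2 = (|ψ' (f x)| * Dw m f x) ^ 2 := by
      rw [← h4, h1, h3, h2, h5, mul_pow, sq_abs]; ring
    exact (pow_left_inj₀ h7 (mul_nonneg (abs_nonneg _) h6) two_ne_zero).1 h8

end Crest.Agent.R242
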