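import Crest.Agent.R242.C2

/-! Block C3: Leibniz rules and the space `W^{1,2}`.
`gam_mul_bdd`: `fg = ((f+g)² - (f-g)²)/4` and `gam_chain_Icc`.  `gam_mul_bg`: truncate
`g_n = max (-n) (min g n)`; `D(h g_n)² = Γ(hg_n, hg_n) ≤ (|h| Dg + |g| Dh)²`; `wug_mono`, `wug_limit`
with the fixed gradient `|h| Dg + |g| Dh`; the formula by `gam_local` on `{|g| ≤ n}`. -/

set_option autoImplicit false
set_option linter.unusedSectionVars false
set_option linter.unusedVariables false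
open MeasureTheory Filter Set Metric
open scoped ENNReal NNReal Topology
open Crest.GeometryTopology.SyntheticRicci

noncomputable section
namespace Crest.Agent.R242

variable {X : Type*} [MetricSpace X] [MeasurableSpace X] [BorelSpace X] [ProperSpace X]
  {m : Measure X} [IsFiniteMeasureOnCompacts m] [m.IsOpenPosMeasure]

theorem SW.sl {f : X → ℝ} (h : SW m f) : SL m f := h.2.1

theorem SW.memLp {f : X → ℝ} (h : SW m f) : MemLp f 2 m := h.1

theorem SW.memLp_Dw {f : X → ℝ} (h : SW m f) : MemLp (Dw m f) 2 m := h.2.2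

theorem sw_of_le {f D : X → ℝ} (hf : MemLp f 2 m) (hs : SL m f) (hD : MemLp D 2 m)
    (h : Dw m f ≤ᵐ[m] D) : SW m f := by
  refine ⟨hf, hs, hD.mono' (Dw_aesm f) ?_⟩
  filter_upwards [h, Dw_nonneg (m := m) f] with x h1 h2
  rwa [Real.norm_eq_abs, abs_of_nonneg h2]

theorem sw_zero : SW m fun _ => 0 := by
  refine sw_of_le (D := fun _ => 0) MemLp.zero' (sl_const 0).1 MemLp.zero' ?_
  filter_upwards [(sl_const (m := m) 0).2] with x hx using hx.le

theorem SW.add {f g : X → ℝ} (hf : SW m f) (hg : SW m g) : SW m fun x => f x + g x := by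
  exact sw_of_le (hf.memLp.add hg.memLp) (hf.sl.add hg.sl).1 (hf.memLp_Dw.add hg.memLp_Dw)
    (hf.sl.add hg.sl).2

theorem SW.sub {f g : X → ℝ} (hf : SW m f) (hg : SW m g) : SW m fun x => f x - g x := by
  exact sw_of_le (hf.memLp.sub hg.memLp) (hf.sl.sub hg.sl).1 (hf.memLp_Dw.add hg.memLp_Dw)
    (hf.sl.sub hg.sl).2

theorem SW.const_mul {f : X → ℝ} (hf : SW m f) (c : ℝ) : SW m fun x => c * f x := by
  refine sw_of_le (hf.memLp.const_mul c) (hf.sl.const_mul c).1 (hf.memLp_Dw.const_mul |c|) ?_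
  filter_upwards [(hf.sl.const_mul c).2] with x hx using hx.le

theorem SW.lip_comp {f : X → ℝ} (hf : SW m f) {φ : ℝ → ℝ} {L : ℝ≥0} (hφ : LipschitzWith L φ)
    (h0 : φ 0 = 0) : SW m fun x => φ (f x) := by
  exact sw_of_le (hφ.comp_memLp h0 hf.memLp) (hf.sl.lip_comp hφ).1 (hf.memLp_Dw.const_mul L)
    (hf.sl.lip_comp hφ).2

theorem c3a_memLp_of_ball {f : X → ℝ} (hf : IsL2OnBalls m f) {o : X} {R : ℝ}
    (h : ∀ᵐ x ∂m, x ∉ closedBall o R → f x = 0) : MemLp f 2 m := by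
  refine ((memLp_indicator_iff_restrict measurableSet_ball).2 (hf o (R + 1))).ae_eq ?_
  filter_upwards [h] with x hx
  by_cases h1 : x ∈ ball o (R + 1)
  · exact indicator_of_mem h1 f
  · rw [indicator_of_notMem h1, hx fun h2 => h1 (closedBall_subset_ball (lt_add_one R) h2)]

/-- A locally Sobolev function vanishing off a ball is Sobolev (locality). -/
theorem SL.sw_of_ball {f : X → ℝ} (hf : SL m f) {o : X} {R : ℝ}
    (h : ∀ᵐ x ∂m, x ∉ closedBall o R → f x = 0) : SW m f := by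
  refine ⟨c3a_memLp_of_ball hf.1 h, hf, c3a_memLp_of_ball (Dw_l2b f) (o := o) (R := R) ?_⟩
  filter_upwards [h, hf.Dw_eq_zero] with x h1 h2 h3 using h2 (h1 h3)

theorem sw_of_lip {f : X → ℝ} {L : ℝ≥0} (hf : LipschitzWith L f) (hc : HasCompactSupport f) :
    SW m f := by
  rcases isEmpty_or_nonempty X with hX | ⟨⟨o⟩⟩
  · exact sw_zero.congr (Eventually.of_forall fun x => hX.elim x)
  · obtain ⟨R, hR⟩ := hc.isBounded.subset_closedBall o
    exact (sl_of_lip hf).1.sw_of_ball (o := o) (R := R) (Eventually.of_forall fun x hx =>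
      image_eq_zero_of_notMem_tsupport fun h => hx (hR h))

theorem c3b_mul {μ : Measure X} {h g : X → ℝ} (hg : MemLp g 2 μ) (hh : AEStronglyMeasurable h μ)
    {M : ℝ} (hM : ∀ᵐ x ∂μ, |h x| ≤ M) : MemLp (fun x => h x * g x) 2 μ :=
  hg.of_le_mul (c := M) (hh.mul hg.1) (hM.mono fun x hx => by
    rw [norm_mul]
    exact mul_le_mul_of_nonneg_right hx (norm_nonneg _))

theorem c3b_abs_mul {μ : Measure X} {h g : X → ℝ} (hg : MemLp g 2 μ) (hh : AEStronglyMeasurable h μ)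
    {M : ℝ} (hM : ∀ᵐ x ∂μ, |h x| ≤ M) : MemLp (fun x => |h x| * g x) 2 μ :=
  c3b_mul (h := fun x => |h x|) hg hh.norm (hM.mono fun x hx => by rwa [abs_abs])

theorem c3b_mul_Dw {μ : Measure X} (hμ : μ ≪ m) {h g : X → ℝ} (hg : MemLp g 2 μ) {L : ℝ}
    (hL : ∀ᵐ x ∂m, Dw m h x ≤ L) : MemLp (fun x => |g x| * Dw m h x) 2 μ := by
  have := c3b_mul (h := Dw m h) (M := L) hg.abs ((Dw_aesm h).mono_ac hμ) (hμ.ae_le (by
    filter_upwards [hL, Dw_nonneg (m := m) h] with x h1 h2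
    rwa [abs_of_nonneg h2]))
  simpa only [mul_comm, Pi.abs_apply] using this

theorem c3b_lip (n : ℝ) : LipschitzWith 1 fun z : ℝ => max (-n) (min z n) :=
  (LipschitzWith.id.min_const n).const_max (-n)

theorem c3b_abs_le (n z : ℝ) (hn : 0 ≤ n) : |max (-n) (min z n)| ≤ n ∧ |max (-n) (min z n)| ≤ |z| ∧
    |max (-n) (min z n) - z| ≤ |z| ∧ (|z| ≤ n → max (-n) (min z n) = z) := by
  simp only [abs_le, max_def, min_def]
  rcases abs_cases z with h | h <;> split_ifs <;>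
    refine ⟨⟨?_, ?_⟩, ⟨?_, ?_⟩, ⟨?_, ?_⟩, fun h => ?_⟩ <;> linarith

variable (hI : IsInfHilbertian m)
include hI

theorem gam_mul_bdd {f g k : X → ℝ} (hf : SL m f) (hg : SL m g) (hk : SL m k) (hfb : EB m f)
    (hgb : EB m g) :
    SL m (fun x => f x * g x) ∧
      ∀ᵐ x ∂m, Gam m (fun y => f y * g y) k x = f x * Gam m g k x + g x * Gam m f k x := by
  obtain ⟨M, hM⟩ := hfb
  obtain ⟨N, hN⟩ := hgb
  have key : ∀ u : X → ℝ, SL m u → (∀ᵐ x ∂m, |u x| ≤ M + N) → SL m (fun y => u y ^ 2 / 4) ∧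
      ∀ᵐ x ∂m, Gam m (fun y => u y ^ 2 / 4) k x = u x / 2 * Gam m u k x := fun u hu hb => by
    have := gam_chain_Icc hI hu hk (a := -(M + N)) (b := M + N) (hb.mono fun x hx => abs_le.1 hx)
      (fun z => z ^ 2 / 4) (fun z => z / 2)
      (fun z _ => ((hasDerivAt_pow 2 z).div_const 4).congr_deriv (by push_cast; ring)) (by fun_prop)
    exact ⟨this.1, this.2.1⟩
  obtain ⟨a1, a2⟩ := key _ (SL.add hf hg).1 (by
    filter_upwards [hM, hN] with x h1 h2 using (abs_add_le _ _).trans (add_le_add h1 h2))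
  obtain ⟨b1, b2⟩ := key _ (SL.sub hf hg).1 (by
    filter_upwards [hM, hN] with x h1 h2 using (abs_sub _ _).trans (add_le_add h1 h2))
  have e : (fun y => f y * g y) = fun y => (f y + g y) ^ 2 / 4 - (f y - g y) ^ 2 / 4 :=
    funext fun y => by ring
  rw [e]
  refine ⟨(SL.sub a1 b1).1, ?_⟩
  filter_upwards [gam_sub_left hI a1 b1 hk, a2, b2, gam_add_left hI hf hg hk,
    gam_sub_left hI hf hg hk] with x h1 h2 h3 h4 h5
  rw [h1, h2, h3, h4, h5]
  ring

theorem c3b_bdd {f g : X → ℝ} (hf : SL m f) (hg : SL m g) (hfb : EB m f) (hgb : EB m g) :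
    ∀ᵐ x ∂m, Dw m (fun y => f y * g y) x ≤ |f x| * Dw m g x + |g x| * Dw m f x := by
  have hp := (gam_mul_bdd hI hf hg hf hfb hgb).1
  filter_upwards [(gam_mul_bdd hI hf hg hp hfb hgb).2, SL.gam_self hp, abs_gam_le hI hf hp,
    abs_gam_le hI hg hp, Dw_nonneg (m := m) f, Dw_nonneg (m := m) g] with x h1 h2 h3 h4 h5 h6
  rw [h2] at h1
  by_contra h
  have a0 : 0 ≤ |f x| * Dw m g x + |g x| * Dw m f x := by positivity
  have a1 := (le_abs_self _).trans ((abs_mul _ _).trans_le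
    (mul_le_mul_of_nonneg_left h4 (abs_nonneg (f x))))
  have a2 := (le_abs_self _).trans ((abs_mul _ _).trans_le
    (mul_le_mul_of_nonneg_left h3 (abs_nonneg (g x))))
  nlinarith [not_le.1 h]

theorem gam_mul_bg {h g k : X → ℝ} (hh : SL m h) (hb : BG m h) (hg : SL m g) (hk : SL m k) :
    SL m (fun x => h x * g x) ∧
      (∀ᵐ x ∂m, Gam m (fun y => h y * g y) k x = h x * Gam m g k x + g x * Gam m h k x) ∧
      ∀ᵐ x ∂m, Dw m (fun y => h y * g y) x ≤ |h x| * Dw m g x + |g x| * Dw m h x := by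
  obtain ⟨⟨M, hM⟩, L, hL⟩ := hb
  have hha := IsL2OnBalls.aesm hh.1
  have hn : ∀ (n : ℕ) (z : ℝ), _ := fun n z => c3b_abs_le n z (Nat.cast_nonneg n)
  have s1 : ∀ n : ℕ, _ := fun n => SL.lip_comp hg (c3b_lip n)
  have e1 : ∀ n : ℕ, EB m fun x => max (-(n : ℝ)) (min (g x) n) := fun n =>
    ⟨n, Eventually.of_forall fun x => (hn n _).1⟩
  have s2 : ∀ n : ℕ, _ := fun n => gam_mul_bdd hI hh (s1 n).1 hk ⟨M, hM⟩ (e1 n)
  have hD : IsL2OnBalls m fun x => |h x| * Dw m g x + |g x| * Dw m h x := fun o R =>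
    (c3b_abs_mul (Dw_l2b g o R) hha.restrict (ae_restrict_of_ae hM)).add
      (c3b_mul_Dw Measure.absolutelyContinuous_restrict (hg.1 o R) hL)
  have hp : IsL2OnBalls m fun x => h x * g x := fun o R =>
    c3b_mul (hg.1 o R) hha.restrict (ae_restrict_of_ae hM)
  have hw : IsWUGLoc m (fun x => h x * g x) fun x => |h x| * Dw m g x + |g x| * Dw m h x := by
    refine wug_limit hp hD (fun n => (s2 n).1.1) (fun n => wug_mono (SL.wug (s2 n).1) hD ?_)
      (fun o R => ?_) fun o R => by simp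
    · filter_upwards [c3b_bdd hI hh (s1 n).1 ⟨M, hM⟩ (e1 n), (s1 n).2, Dw_nonneg (m := m) h]
        with x h1 h2 h3
      rw [NNReal.coe_one, one_mul] at h2
      exact h1.trans (add_le_add (mul_le_mul_of_nonneg_left h2 (abs_nonneg _))
        (mul_le_mul_of_nonneg_right (hn n _).2.1 h3))
    · have hi : Integrable (fun x => |h x * g x|) (m.restrict (ball o R)) :=
        ((IsL2OnBalls.integrableOn hp o R).mono_set ball_subset_closedBall).abs
      have := tendsto_integral_of_dominated_convergence (μ := m.restrict (ball o R))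
        (F := fun (n : ℕ) x => |h x * max (-(n : ℝ)) (min (g x) n) - h x * g x|) (f := fun _ => 0) _
        (fun n => (((s2 n).1.1 o R).1.sub (hp o R).1).norm) hi
        (fun n => Eventually.of_forall fun x => by
          rw [Real.norm_eq_abs, abs_abs, ← mul_sub, abs_mul, abs_mul]
          exact mul_le_mul_of_nonneg_left (hn n _).2.2.1 (abs_nonneg _))
        (Eventually.of_forall fun x => tendsto_const_nhds.congr' (by
          filter_upwards [tendsto_natCast_atTop_atTop.eventually_ge_atTop |g x|] with n h1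
          rw [(hn n _).2.2.2 h1, sub_self, abs_zero]))
      simpa using this
  obtain ⟨a1, a2⟩ := sl_of_wug hp hw
  refine ⟨a1, ?_, a2⟩
  filter_upwards [ae_all_iff.2 fun n => (s2 n).2,
    ae_all_iff.2 fun n => gam_local hI a1 (s2 n).1 hk hk,
    ae_all_iff.2 fun n => gam_local hI (s1 n).1 hg hk hk] with x h1 h2 h3
  obtain ⟨n, h4⟩ := exists_nat_ge |g x|
  have h5 := (hn n _).2.2.2 h4
  rw [h2 n (by rw [h5]) rfl, h1 n, h3 n h5 rfl, h5]

theorem SW.mul_bg {h g : X → ℝ} (hh : SL m h) (hb : BG m h) (hg : SW m g) :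
    SW m fun x => h x * g x := by
  obtain ⟨a1, -, a2⟩ := gam_mul_bg hI hh hb hg.sl hh
  obtain ⟨⟨M, hM⟩, L, hL⟩ := hb
  have hha := IsL2OnBalls.aesm hh.1
  exact sw_of_le (c3b_mul hg.memLp hha hM) a1 ((c3b_abs_mul hg.memLp_Dw hha hM).add
    (c3b_mul_Dw Measure.AbsolutelyContinuous.rfl hg.memLp hL)) a2

theorem SW.mul_bdd {f g : X → ℝ} (hf : SW m f) (hg : SW m g) (hfb : EB m f) (hgb : EB m g) :
    SW m fun x => f x * g x := by
  have a1 := (gam_mul_bdd hI hf.sl hg.sl hf.sl hfb hgb).1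
  have a2 := c3b_bdd hI hf.sl hg.sl hfb hgb
  obtain ⟨M, hM⟩ := hfb
  obtain ⟨N, hN⟩ := hgb
  exact sw_of_le (c3b_mul hg.memLp hf.memLp.1 hM) a1 ((c3b_abs_mul hg.memLp_Dw hf.memLp.1 hM).add
    (c3b_abs_mul hf.memLp_Dw hg.memLp.1 hN)) a2

theorem BG.mul {f g : X → ℝ} (hf : SL m f) (hg : SL m g) (hfb : BG m f) (hgb : BG m g) :
    BG m fun x => f x * g x := by
  have a2 := c3b_bdd hI hf hg hfb.1 hgb.1
  obtain ⟨⟨M, hM⟩, L, hL⟩ := hfb
  obtain ⟨⟨N, hN⟩, K, hK⟩ := hgb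
  refine ⟨⟨M * N, ?_⟩, M * K + N * L, ?_⟩
  · filter_upwards [hM, hN] with x h1 h2
    rw [abs_mul]
    exact mul_le_mul h1 h2 (abs_nonneg _) ((abs_nonneg _).trans h1)
  · filter_upwards [a2, hM, hN, hL, hK, Dw_nonneg (m := m) f, Dw_nonneg (m := m) g]
      with x h0 h1 h2 h3 h4 h5 h6
    exact h0.trans (add_le_add (mul_le_mul h1 h4 h6 ((abs_nonneg _).trans h1))
      (mul_le_mul h2 h3 h5 ((abs_nonneg _).trans h2)))

theorem SW.integrable_gam {f g : X → ℝ} (hf : SW m f) (hg : SW m g) :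
    Integrable (Gam m f g) m := by
  refine (hf.memLp_Dw.integrable_mul hg.memLp_Dw).mono' (gam_aesm f g) ?_
  filter_upwards [abs_gam_le hI hf.sl hg.sl] with x hx using hx

theorem SW.memLp_gam {f g : X → ℝ} (hf : SL m f) {L : ℝ} (hL : ∀ᵐ x ∂m, Dw m f x ≤ L)
    (hg : SW m g) : MemLp (Gam m f g) 2 m := by
  refine (hg.memLp_Dw.const_mul L).mono' (gam_aesm f g) ?_
  filter_upwards [abs_gam_le hI hf hg.sl, hL, Dw_nonneg (m := m) g] with x h1 h2 h3
  exact h1.trans (mul_le_mul_of_nonneg_right h2 h3)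

end Crest.Agent.R242
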