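import Crest.Agent.R242.C3
import Crest.Agent.R242.A5

/-! Block C4: comparable measures, the energy seminorm, approximation and closedness.
`sw_closed`: `|D(u n) - D(u k)| ≤ D(u n - u k)` ⇒ `D(u n)` Cauchy in `L²`, limit `G`; `wug_limit` ⇒ `G` is
a weak upper gradient of `f`.  For fixed `k` the same applied to `u n - u k → f - u k` bounds
`en (f - u k)`.  `exists_trunc`: `T_n z = max (-n) (min z n)`; `D(f - T_n f) ≤ Df·1_{|f| > n}` by
locality; dominated convergence.  `exists_cutoff_approx`: multiply by `cut o n 1`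
(`gam_mul_bg`: `D((1-χ) g) ≤ (1-χ) Dg + |g| 1_{dist > n}`). -/

set_option autoImplicit false
set_option linter.unusedSectionVars false
set_option linter.unusedVariables false
open MeasureTheory Filter Set Metric
open scoped ENNReal NNReal Topology
open Crest.GeometryTopology.SyntheticRicci

noncomputable section
namespace Crest.Agent.R242

variable {X : Type*} [MetricSpace X] [MeasurableSpace X] [BorelSpace X] [ProperSpace X]
  {m : Measure X} [IsFiniteMeasureOnCompacts m] [m.IsOpenPosMeasure] {μ : Measure X} [DS m μ]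

theorem DS.ac₁ (m μ : Measure X) [DS m μ] : μ ≪ m := by
  obtain ⟨C, h1, -⟩ := DS.cmp (m := m) (μ := μ)
  exact Measure.absolutelyContinuous_of_le_smul h1

theorem DS.ac₂ (m μ : Measure X) [DS m μ] : m ≪ μ := by
  obtain ⟨C, -, h2⟩ := DS.cmp (m := m) (μ := μ)
  exact Measure.absolutelyContinuous_of_le_smul h2

theorem DS.ae_eq (m μ : Measure X) [DS m μ] : ae μ = ae m := by
  exact le_antisymm (DS.ac₁ m μ).ae_le (DS.ac₂ m μ).ae_le

theorem DS.memLp_iff (m μ : Measure X) [DS m μ] {f : X → ℝ} {p : ℝ≥0∞} :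
    MemLp f p μ ↔ MemLp f p m := by
  obtain ⟨C, h1, h2⟩ := DS.cmp (m := m) (μ := μ)
  exact ⟨fun h => h.of_measure_le_smul ENNReal.coe_ne_top h2,
    fun h => h.of_measure_le_smul ENNReal.coe_ne_top h1⟩

theorem DS.integrable_iff (m μ : Measure X) [DS m μ] {f : X → ℝ} :
    Integrable f μ ↔ Integrable f m := by
  obtain ⟨C, h1, h2⟩ := DS.cmp (m := m) (μ := μ)
  exact ⟨fun h => h.of_measure_le_smul ENNReal.coe_ne_top h2,
    fun h => h.of_measure_le_smul ENNReal.coe_ne_top h1⟩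

theorem DS.integrableOn_iff (m μ : Measure X) [DS m μ] {f : X → ℝ} {s : Set X} :
    IntegrableOn f s μ ↔ IntegrableOn f s m := by
  obtain ⟨C, h1, h2⟩ := DS.cmp (m := m) (μ := μ)
  have h3 := Measure.restrict_mono (subset_refl s) h1
  have h4 := Measure.restrict_mono (subset_refl s) h2
  rw [Measure.restrict_smul] at h3 h4
  exact ⟨fun h => Integrable.of_measure_le_smul ENNReal.coe_ne_top h4 h,
    fun h => Integrable.of_measure_le_smul ENNReal.coe_ne_top h3 h⟩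

theorem DS.finComp (m μ : Measure X) [IsFiniteMeasureOnCompacts m] [DS m μ] :
    IsFiniteMeasureOnCompacts μ := by
  obtain ⟨C, h1, -⟩ := DS.cmp (m := m) (μ := μ)
  refine ⟨fun K hK => (Measure.le_iff'.1 h1 K).trans_lt ?_⟩
  rw [Measure.smul_apply, smul_eq_mul]
  exact ENNReal.mul_lt_top ENNReal.coe_lt_top hK.measure_lt_top

theorem DS.openPos (m μ : Measure X) [m.IsOpenPosMeasure] [DS m μ] : μ.IsOpenPosMeasure := by
  exact (DS.ac₂ m μ).isOpenPosMeasure

theorem DS.self (m μ : Measure X) [DS m μ] : DS m m :=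
  ⟨DS.hilb μ, 1, by simp, by simp⟩

/-- Integrals of nonnegative functions are comparable. -/
theorem DS.exists_cmp (m μ : Measure X) [DS m μ] : ∃ C : ℝ, 0 < C ∧ ∀ f : X → ℝ,
    (∀ᵐ x ∂m, 0 ≤ f x) → Integrable f m →
      ∫ x, f x ∂μ ≤ C * ∫ x, f x ∂m ∧ ∫ x, f x ∂m ≤ C * ∫ x, f x ∂μ := by
  obtain ⟨C, h1, h2⟩ := DS.cmp (m := m) (μ := μ)
  have key : ∀ (ν ν' : Measure X) (f : X → ℝ), ν ≤ (C : ℝ≥0∞) • ν' → (∀ᵐ x ∂ν', 0 ≤ f x) →
      Integrable f ν' → ∫ x, f x ∂ν ≤ (C + 1 : ℝ) * ∫ x, f x ∂ν' := by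
    intro ν ν' f h h0 hi
    have h3 : ∫ x, f x ∂ν ≤ ∫ x, f x ∂((C : ℝ≥0∞) • ν') :=
      integral_mono_measure h (Measure.smul_absolutelyContinuous.ae_le h0)
        (hi.smul_measure ENNReal.coe_ne_top)
    rw [integral_smul_measure, ENNReal.coe_toReal, smul_eq_mul] at h3
    have h4 : 0 ≤ ∫ x, f x ∂ν' := integral_nonneg_of_ae h0
    linarith
  refine ⟨C + 1, by positivity, fun f h0 hi => ⟨key μ m f h1 h0 hi, key m μ f h2 ?_ ?_⟩⟩
  · exact (DS.ac₁ m μ).ae_le h0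
  · exact (DS.integrable_iff m μ).2 hi

theorem en_eq {f : X → ℝ} (hf : SL m f) : en m μ f = nsq μ (Dw m f) := by
  exact integral_congr_ae ((DS.ac₁ m μ).ae_le (SL.gam_self hf))

theorem en_nonneg {f : X → ℝ} (hf : SL m f) : 0 ≤ en m μ f := by
  rw [en_eq hf]
  exact nsq_nonneg _

theorem en_congr {f g : X → ℝ} (h : f =ᵐ[m] g) : en m μ f = en m μ g := by
  unfold en
  rw [gam_congr h h]

theorem abs_integral_gam_le {f g : X → ℝ} (hf : SW m f) (hg : SW m g) :
    ∫ x, |Gam m f g x| ∂μ ≤ Real.sqrt (en m μ f) * Real.sqrt (en m μ g) := by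
  have h1 := (DS.memLp_iff m μ).2 (SW.memLp_Dw hf)
  have h2 := (DS.memLp_iff m μ).2 (SW.memLp_Dw hg)
  rw [en_eq (SW.sl hf), en_eq (SW.sl hg)]
  refine le_trans ?_ ((le_abs_self _).trans (abs_integral_mul_le h1 h2))
  exact integral_mono_of_nonneg (Eventually.of_forall fun _ => abs_nonneg _) (h1.integrable_mul h2)
    ((DS.ac₁ m μ).ae_le (abs_gam_le (DS.hilb μ) (SW.sl hf) (SW.sl hg)))

theorem sqrt_en_add_le {f g : X → ℝ} (hf : SW m f) (hg : SW m g) :
    Real.sqrt (en m μ fun x => f x + g x) ≤ Real.sqrt (en m μ f) + Real.sqrt (en m μ g) := by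
  have h1 := (DS.memLp_iff m μ).2 (SW.memLp_Dw hf)
  have h2 := (DS.memLp_iff m μ).2 (SW.memLp_Dw hg)
  obtain ⟨h3, h4⟩ := SL.add (SW.sl hf) (SW.sl hg)
  rw [en_eq (SW.sl hf), en_eq (SW.sl hg), en_eq h3]
  refine le_trans (Real.sqrt_le_sqrt (nsq_mono (h1.add h2) ?_)) (sqrt_nsq_add_le h1 h2)
  refine (DS.ac₁ m μ).ae_le ?_
  filter_upwards [h4, Dw_nonneg (m := m) fun x => f x + g x] with x hx h0
  show |_| ≤ |_|
  rw [abs_of_nonneg h0]
  exact hx.trans (le_abs_self _)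

/-- `Γ` is continuous from `W × W` to `L¹`. -/
theorem tendsto_gam_L1 {ι : Type*} {l : Filter ι} {f g : ι → X → ℝ} {f₀ g₀ : X → ℝ}
    (hf : ∀ᶠ i in l, SW m (f i)) (hg : ∀ᶠ i in l, SW m (g i)) (hf₀ : SW m f₀) (hg₀ : SW m g₀)
    (hF : Tendsto (fun i => en m μ fun x => f i x - f₀ x) l (𝓝 0))
    (hG : Tendsto (fun i => en m μ fun x => g i x - g₀ x) l (𝓝 0)) :
    Tendsto (fun i => ∫ x, |Gam m (f i) (g i) x - Gam m f₀ g₀ x| ∂μ) l (𝓝 0) := by
  have hI : IsInfHilbertian m := DS.hilb μ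
  have hA := a5a_sqrt hF
  have hB := a5a_sqrt hG
  have hT := ((hA.mul hB).add (hA.mul_const (Real.sqrt (en m μ g₀)))).add
    (hB.const_mul (Real.sqrt (en m μ f₀)))
  simp only [mul_zero, zero_mul, add_zero] at hT
  refine squeeze_zero' (Eventually.of_forall fun _ => integral_nonneg fun _ => abs_nonneg _) ?_ hT
  filter_upwards [hf, hg] with i hfi hgi
  have hu := SW.sub hfi hf₀
  have hv := SW.sub hgi hg₀
  have i1 := ((DS.integrable_iff m μ).2 (SW.integrable_gam hI hu hv)).abs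
  have i2 := ((DS.integrable_iff m μ).2 (SW.integrable_gam hI hu hg₀)).abs
  have i3 := ((DS.integrable_iff m μ).2 (SW.integrable_gam hI hf₀ hv)).abs
  refine le_trans ?_ (add_le_add (add_le_add (abs_integral_gam_le hu hv)
    (abs_integral_gam_le hu hg₀)) (abs_integral_gam_le hf₀ hv))
  rw [← integral_add i1 i2]
  refine le_trans ?_ (integral_add (i1.add i2) i3).le
  refine integral_mono_of_nonneg (Eventually.of_forall fun _ => abs_nonneg _) ((i1.add i2).add i3)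
    ((DS.ac₁ m μ).ae_le ?_)
  filter_upwards [gam_sub_right hI (SW.sl hgi) (SW.sl hg₀) (SW.sl hu),
    gam_sub_left hI (SW.sl hfi) (SW.sl hf₀) (SW.sl hgi),
    gam_sub_right hI (SW.sl hgi) (SW.sl hg₀) (SW.sl hf₀)] with x e1 e2 e3
  simp only [Pi.add_apply]
  refine le_trans (le_of_eq ?_) (abs_add_three _ _ _)
  congr 1
  rw [e1, e2, e3]
  ring

theorem c4b_nsq_m {h : ℕ → X → ℝ} (hh : ∀ n, MemLp (h n) 2 m)
    (hc : Tendsto (fun n => nsq μ (h n)) atTop (𝓝 0)) :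
    Tendsto (fun n => nsq m (h n)) atTop (𝓝 0) := by
  obtain ⟨C, -, hC⟩ := DS.exists_cmp m μ
  have h1 := hc.const_mul C
  rw [mul_zero] at h1
  refine squeeze_zero (fun n => nsq_nonneg _) (fun n => ?_) h1
  exact (hC (fun x => h n x ^ 2) (Eventually.of_forall fun x => sq_nonneg _)
    (hh n).integrable_sq).2

theorem c4b_ball_sq {h : ℕ → X → ℝ} (hh : ∀ n, MemLp (h n) 2 m)
    (hc : Tendsto (fun n => nsq m (h n)) atTop (𝓝 0)) (o : X) (R : ℝ) :
    Tendsto (fun n => ∫ x in ball o R, h n x ^ 2 ∂m) atTop (𝓝 0) := by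
  refine squeeze_zero (fun n => integral_nonneg fun x => sq_nonneg _) (fun n => ?_) hc
  exact setIntegral_le_integral (hh n).integrable_sq (Eventually.of_forall fun x => sq_nonneg _)

theorem c4b_ball_abs {h : ℕ → X → ℝ} (hh : ∀ n, MemLp (h n) 2 m)
    (hc : Tendsto (fun n => nsq m (h n)) atTop (𝓝 0)) (o : X) (R : ℝ) :
    Tendsto (fun n => ∫ x in ball o R, |h n x| ∂m) atTop (𝓝 0) := by
  have := b1a_fin_ball (m := m) o R
  have h1 := a5a_sqrt (c4b_ball_sq hh hc o R)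
  have h2 := h1.mul_const (Real.sqrt (nsq (m.restrict (ball o R)) fun _ => (1 : ℝ)))
  rw [zero_mul] at h2
  refine squeeze_zero (fun n => integral_nonneg fun x => abs_nonneg _) (fun n => ?_) h2
  have h3 := abs_integral_mul_le (μ := m.restrict (ball o R)) (f := fun x => |h n x|)
    (g := fun _ => (1 : ℝ)) ((hh n).restrict (ball o R)).abs (memLp_const 1)
  simp only [mul_one] at h3
  refine (le_abs_self _).trans (h3.trans (le_of_eq ?_))
  simp only [nsq, sq_abs]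

theorem c4b_core {u : ℕ → X → ℝ} {f : X → ℝ} (hu : ∀ n, SW m (u n)) (hf : MemLp f 2 m)
    (hc : Tendsto (fun n => nsq μ fun x => u n x - f x) atTop (𝓝 0))
    (hC : ∀ ε : ℝ, 0 < ε → ∃ N, ∀ n, N ≤ n → ∀ k, N ≤ k → (en m μ fun x => u n x - u k x) ≤ ε) :
    SW m f ∧ ∀ ε : ℝ, (∀ᶠ n in atTop, en m μ (u n) ≤ ε) → en m μ f ≤ ε := by
  have ha : ∀ n, MemLp (Dw m (u n)) 2 μ := fun n => (DS.memLp_iff m μ).2 (hu n).memLp_Dw
  set A : ℕ → Lp ℝ 2 μ := fun n => (ha n).toLp _ with hA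
  have hAa : ∀ n, (A n : X → ℝ) =ᵐ[μ] Dw m (u n) := fun n => MemLp.coeFn_toLp _
  have hCau : CauchySeq A := by
    refine Metric.cauchySeq_iff.2 fun ε hε => ?_
    obtain ⟨N, hN⟩ := hC (ε ^ 2 / 2) (by positivity)
    refine ⟨N, fun n hn k hk => ?_⟩
    have h1 : ‖A n - A k‖ ^ 2 ≤ ε ^ 2 / 2 := by
      rw [← nsq_coe]
      refine le_trans ?_ (hN n hn k hk)
      rw [en_eq ((hu n).sub (hu k)).sl]
      refine nsq_mono ((DS.memLp_iff m μ).2 ((hu n).sub (hu k)).memLp_Dw) ?_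
      have h2 := (hu n).sl.abs_Dw_sub (hu k).sl
      rw [← DS.ae_eq m μ] at h2
      filter_upwards [h2, hAa n, hAa k, Lp.coeFn_sub (A n) (A k)] with x h2 h3 h4 h5
      rw [h5, Pi.sub_apply, h3, h4]
      exact h2.trans (le_abs_self _)
    rw [dist_eq_norm]
    nlinarith [norm_nonneg (A n - A k)]
  obtain ⟨G, hG⟩ := cauchySeq_tendsto_of_complete hCau
  have hGm : MemLp G 2 m := (DS.memLp_iff m μ).1 (Lp.memLp G)
  have hGn : Tendsto (fun n => nsq μ fun x => Dw m (u n) x - G x) atTop (𝓝 0) := by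
    have h1 : Tendsto (fun n => ‖A n - G‖ ^ 2) atTop (𝓝 0) := by
      have := (tendsto_iff_norm_sub_tendsto_zero.1 hG).pow 2
      simpa using this
    refine h1.congr fun n => ?_
    rw [← nsq_coe]
    refine nsq_congr ?_
    filter_upwards [hAa n, Lp.coeFn_sub (A n) G] with x h3 h5
    rw [h5, Pi.sub_apply, h3]
  have hw : IsWUGLoc m f G := by
    refine wug_limit (F := u) (G := fun n => Dw m (u n)) (l2b_of_memLp hf) (l2b_of_memLp hGm)
      (fun n => l2b_of_memLp (hu n).memLp) (fun n => (hu n).sl.wug) (fun o R => ?_) (fun o R => ?_)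
    · have hh : ∀ n, MemLp (fun x => u n x - f x) 2 m := fun n => (hu n).memLp.sub hf
      exact c4b_ball_abs hh (c4b_nsq_m hh hc) o R
    · have hh : ∀ n, MemLp (fun x => Dw m (u n) x - G x) 2 m := fun n => (hu n).memLp_Dw.sub hGm
      exact c4b_ball_sq hh (c4b_nsq_m hh hGn) o R
  obtain ⟨hs, hle⟩ := sl_of_wug (l2b_of_memLp hf) hw
  refine ⟨sw_of_le hf hs hGm hle, fun ε hε => ?_⟩
  have h1 : en m μ f ≤ ‖G‖ ^ 2 := by
    rw [en_eq hs, ← nsq_coe]
    refine nsq_mono (Lp.memLp G) ?_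
    have h0 := Dw_nonneg (m := m) f
    have hle' : ∀ᵐ x ∂m, Dw m f x ≤ G x := hle
    rw [← DS.ae_eq m μ] at h0 hle'
    filter_upwards [h0, hle'] with x h0 h1
    rw [abs_of_nonneg h0]
    exact h1.trans (le_abs_self _)
  refine h1.trans (le_of_tendsto (hG.norm.pow 2) ?_)
  filter_upwards [hε] with n hn
  rw [← nsq_coe, nsq_congr (hAa n), ← en_eq (hu n).sl]
  exact hn

theorem sw_closed {u : ℕ → X → ℝ} {f : X → ℝ} (hu : ∀ n, SW m (u n)) (hf : MemLp f 2 m)
    (hc : Tendsto (fun n => nsq μ fun x => u n x - f x) atTop (𝓝 0))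
    (hC : ∀ ε : ℝ, 0 < ε → ∃ N, ∀ n, N ≤ n → ∀ k, N ≤ k → (en m μ fun x => u n x - u k x) ≤ ε) :
    SW m f ∧ Tendsto (fun n => en m μ fun x => u n x - f x) atTop (𝓝 0) := by
  have hsw := (c4b_core hu hf hc hC).1
  refine ⟨hsw, Metric.tendsto_atTop.2 fun ε hε => ?_⟩
  obtain ⟨N, hN⟩ := hC (ε / 2) (by positivity)
  refine ⟨N, fun k hk => ?_⟩
  have key := (c4b_core (μ := μ) (u := fun n x => u k x - u n x) (f := fun x => u k x - f x)
    (fun n => (hu k).sub (hu n)) ((hu k).memLp.sub hf) ?_ ?_).2 (ε / 2) ?_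
  · rw [Real.dist_eq, sub_zero, abs_of_nonneg (en_nonneg ((hu k).sub hsw).sl)]
    linarith
  · refine hc.congr fun n => ?_
    simp only [nsq]
    congr 1
    funext x
    ring
  · intro δ hδ
    obtain ⟨M, hM⟩ := hC δ hδ
    refine ⟨M, fun n hn j hj => ?_⟩
    have : (fun x => (u k x - u n x) - (u k x - u j x)) = fun x => u j x - u n x := by
      funext x; ring
    rw [this]
    exact hM j hj n hn
  · filter_upwards [eventually_ge_atTop N] with n hn
    exact hN k hk n hn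

theorem c4b_dct {h : ℕ → X → ℝ} {B : X → ℝ} (hh : ∀ n, AEStronglyMeasurable (h n) m)
    (hB : MemLp B 2 m) (hle : ∀ n, ∀ᵐ x ∂m, |h n x| ≤ B x)
    (h0 : ∀ᵐ x ∂m, ∀ᶠ n in atTop, h n x = 0) :
    Tendsto (fun n => nsq μ (h n)) atTop (𝓝 0) := by
  have hB' : MemLp B 2 μ := (DS.memLp_iff m μ).2 hB
  have := tendsto_integral_of_dominated_convergence (μ := μ) (F := fun n x => h n x ^ 2)
    (f := fun _ => (0 : ℝ)) (fun x => B x ^ 2)
    (fun n => ((hh n).mono_ac (DS.ac₁ m μ)).pow 2) hB'.integrable_sq (fun n => ?_) ?_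
  · simpa [nsq] using this
  · have := hle n
    rw [← DS.ae_eq m μ] at this
    filter_upwards [this] with x hx
    rw [Real.norm_eq_abs, abs_of_nonneg (sq_nonneg _), ← sq_abs]
    exact pow_le_pow_left₀ (abs_nonneg _) hx 2
  · rw [← DS.ae_eq m μ] at h0
    filter_upwards [h0] with x hx
    refine tendsto_const_nhds.congr' ?_
    filter_upwards [hx] with n hn
    simp [hn]

theorem c4b_en_dct {h : ℕ → X → ℝ} {B : X → ℝ} (hh : ∀ n, SL m (h n))
    (hB : MemLp B 2 m) (hle : ∀ n, ∀ᵐ x ∂m, Dw m (h n) x ≤ B x)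
    (h0 : ∀ x, ∀ᶠ n in atTop, h n x = 0) :
    Tendsto (fun n => en m μ (h n)) atTop (𝓝 0) := by
  have := c4b_dct (μ := μ) (h := fun n => Dw m (h n)) (fun n => Dw_aesm _) hB (fun n => ?_) ?_
  · exact this.congr fun n => (en_eq (hh n)).symm
  · filter_upwards [hle n, Dw_nonneg (m := m) (h n)] with x h1 h2
    rwa [abs_of_nonneg h2]
  · filter_upwards [ae_all_iff.2 fun n => (hh n).Dw_eq_zero] with x hx
    filter_upwards [h0 x] with n hn
    exact hx n hn

theorem exists_trunc {f : X → ℝ} (hf : SW m f) :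
    (∀ n : ℕ, SW m fun x => max (-(n : ℝ)) (min (f x) n)) ∧
      Tendsto (fun n : ℕ => nsq μ fun x => max (-(n : ℝ)) (min (f x) n) - f x) atTop (𝓝 0) ∧
      Tendsto (fun n : ℕ => en m μ fun x => max (-(n : ℝ)) (min (f x) n) - f x) atTop (𝓝 0) := by
  have h1 : ∀ n : ℕ, SW m fun x => max (-(n : ℝ)) (min (f x) n) := fun n =>
    hf.lip_comp (c3b_lip (n : ℝ)) (by simp)
  have h0 : ∀ x, ∀ᶠ n : ℕ in atTop, max (-(n : ℝ)) (min (f x) n) - f x = 0 := fun x => by
    filter_upwards [tendsto_natCast_atTop_atTop (R := ℝ).eventually_ge_atTop |f x|] with n hn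
    rw [(c3b_abs_le (n : ℝ) (f x) (Nat.cast_nonneg n)).2.2.2 hn, sub_self]
  refine ⟨h1, ?_, ?_⟩
  · exact c4b_dct (m := m) (fun n => ((h1 n).sub hf).memLp.1) hf.memLp.abs
      (fun n => Eventually.of_forall fun x => (c3b_abs_le (n : ℝ) (f x) (Nat.cast_nonneg n)).2.2.1)
      (Eventually.of_forall h0)
  · refine c4b_en_dct (B := fun x => Dw m f x + Dw m f x) (fun n => ((h1 n).sub hf).sl)
      (hf.memLp_Dw.add hf.memLp_Dw) (fun n => ?_) h0
    filter_upwards [((h1 n).sl.sub hf.sl).2, (hf.sl.lip_comp (c3b_lip (n : ℝ))).2] with x h2 h3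
    simp only [NNReal.coe_one, one_mul] at h3
    linarith

theorem exists_cutoff_approx {f : X → ℝ} (hf : SW m f) (o : X) :
    (∀ n : ℕ, SW m fun x => cut o n 1 x * f x) ∧
      Tendsto (fun n : ℕ => nsq μ fun x => cut o n 1 x * f x - f x) atTop (𝓝 0) ∧
      Tendsto (fun n : ℕ => en m μ fun x => cut o n 1 x * f x - f x) atTop (𝓝 0) := by
  have hI : IsInfHilbertian m := DS.hilb μ
  have hcut : ∀ n : ℕ, SL m (cut o n 1) ∧ BG m (cut o n 1) := fun n =>
    (cut_bddLip o (n : ℝ) one_pos).sl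
  have h1 : ∀ n : ℕ, SW m fun x => cut o n 1 x * f x := fun n =>
    SW.mul_bg hI (hcut n).1 (hcut n).2 hf
  have h0 : ∀ x, ∀ᶠ n : ℕ in atTop, cut o n 1 x * f x - f x = 0 := fun x => by
    filter_upwards [tendsto_natCast_atTop_atTop (R := ℝ).eventually_ge_atTop (dist x o)] with n hn
    rw [cut_eq_one one_pos hn, one_mul, sub_self]
  refine ⟨h1, ?_, ?_⟩
  · refine c4b_dct (m := m) (fun n => ((h1 n).sub hf).memLp.1) hf.memLp.abs
      (fun n => Eventually.of_forall fun x => ?_) (Eventually.of_forall h0)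
    have h2 := cut_nonneg o (n : ℝ) 1 x
    have h3 := cut_le_one o (n : ℝ) 1 x
    rw [show cut o n 1 x * f x - f x = (cut o n 1 x - 1) * f x by ring, abs_mul]
    have h4 : |cut o (n : ℝ) 1 x - 1| ≤ 1 := abs_le.2 ⟨by linarith, by linarith⟩
    exact mul_le_of_le_one_left (abs_nonneg _) h4
  · refine c4b_en_dct (B := fun x => Dw m f x + |f x| + Dw m f x) (fun n => ((h1 n).sub hf).sl)
      ((hf.memLp_Dw.add hf.memLp.abs).add hf.memLp_Dw) (fun n => ?_) h0
    filter_upwards [((h1 n).sl.sub hf.sl).2, (gam_mul_bg hI (hcut n).1 (hcut n).2 hf.sl hf.sl).2.2,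
      (sl_of_lip (m := m) (cut_lip o (n : ℝ) one_pos)).2, Dw_nonneg (m := m) f] with x h2 h3 h4 h5
    have h6 : |cut o (n : ℝ) 1 x| ≤ 1 := by
      rw [abs_of_nonneg (cut_nonneg o (n : ℝ) 1 x)]
      exact cut_le_one o (n : ℝ) 1 x
    have h7 : Dw m (cut o n 1) x ≤ 1 := by simpa using h4
    have h8 := mul_le_of_le_one_left h5 h6
    have h9 := mul_le_of_le_one_right (abs_nonneg (f x)) h7
    linarith

theorem c4c_ae (m μ : Measure X) [DS m μ] {p : X → Prop} (h : ∀ᵐ x ∂m, p x) : ∀ᵐ x ∂μ, p x :=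
  (DS.ac₁ m μ).ae_le h

theorem c4c_Dw (μ : Measure X) [DS m μ] {f : X → ℝ} (hf : SW m f) : MemLp (Dw m f) 2 μ :=
  (DS.memLp_iff m μ).2 hf.memLp_Dw

theorem c4c_aesm (μ : Measure X) [DS m μ] {f : X → ℝ} (hf : AEStronglyMeasurable f m) :
    AEStronglyMeasurable f μ := hf.mono_ac (DS.ac₁ m μ)

/-- An a.e. bound on the gradient passes to energy limits. -/
theorem Dw_le_of_tendsto {ι : Type*} {l : Filter ι} [l.NeBot] {u : ι → X → ℝ} {f : X → ℝ} {B : ℝ}
    (hu : ∀ᶠ i in l, SW m (u i) ∧ ∀ᵐ x ∂m, Dw m (u i) x ≤ B) (hf : SW m f)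
    (h : Tendsto (fun i => en m μ fun x => u i x - f x) l (𝓝 0)) : ∀ᵐ x ∂m, Dw m f x ≤ B := by
  set w : X → ℝ := fun x => max (Dw m f x - B) 0 with hw
  have hwm : AEStronglyMeasurable w μ :=
    c4c_aesm μ (((Dw_aesm f).sub aestronglyMeasurable_const).sup aestronglyMeasurable_const)
  have h1 : ∀ᶠ i in l, MemLp w 2 μ ∧ nsq μ w ≤ en m μ fun x => u i x - f x := by
    filter_upwards [hu] with i hi
    have hs := hi.1.sub hf
    have := a5b_le (c := 1) (c4c_Dw μ hs) hwm (c4c_ae m μ ?_)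
    · rw [en_eq hs.sl]
      simpa using this
    filter_upwards [hi.2, SL.abs_Dw_sub hi.1.sl hf.sl, Dw_nonneg (m := m) fun x => u i x - f x]
      with x h2 h3 h4
    rw [one_mul, abs_of_nonneg h4, abs_of_nonneg (le_max_right _ _)]
    have := neg_le_of_abs_le h3
    exact max_le (by linarith) h4
  have h2 : nsq μ w ≤ 0 := ge_of_tendsto h (h1.mono fun i hi => hi.2)
  have h3 : MemLp w 2 μ := h1.exists.choose_spec.1
  have h4 : (fun x => w x ^ 2) =ᵐ[μ] 0 :=
    (integral_eq_zero_iff_of_nonneg (fun x => sq_nonneg (w x)) h3.integrable_sq).1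
      (le_antisymm h2 (nsq_nonneg w))
  filter_upwards [(DS.ac₂ m μ).ae_le h4] with x hx
  have h5 : w x = 0 := pow_eq_zero_iff two_ne_zero |>.1 hx
  have h6 : Dw m f x - B ≤ w x := le_max_left _ _
  linarith

theorem c4c_div {a b : X → ℝ} (ha : SW m a) (hb : SW m b) (k : ℝ) :
    SW m fun x => (a x - b x) / k := by
  have := (ha.sub hb).const_mul k⁻¹
  simpa only [div_eq_inv_mul] using this

theorem c4c_id (hI : IsInfHilbertian m) {A G g' : X → ℝ} (hA : SW m A) (hG : SW m G)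
    (hg' : SW m g') (k : ℝ) :
    ∀ᵐ x ∂m, (Gam m A A x - Gam m G G x) / k - 2 * Gam m g' G x =
      (Gam m (fun y => (A y - G y) / k - g' y) A x + Gam m (fun y => (A y - G y) / k - g' y) G x) +
        Gam m g' (fun y => A y - G y) x := by
  have hq := c4c_div hA hG k
  have e : (fun y => (A y - G y) / k) = fun y => k⁻¹ * (A y - G y) := by
    funext y; rw [div_eq_inv_mul]
  have h1 := gam_const_mul_left hI (hA.sub hG).sl hA.sl k⁻¹
  have h2 := gam_const_mul_left hI (hA.sub hG).sl hG.sl k⁻¹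
  rw [← e] at h1 h2
  filter_upwards [h1, h2, gam_sub_left hI hq.sl hg'.sl hA.sl, gam_sub_left hI hq.sl hg'.sl hG.sl,
    gam_sub_left hI hA.sl hG.sl hA.sl, gam_sub_left hI hA.sl hG.sl hG.sl,
    gam_sub_right hI hA.sl hG.sl hg'.sl, SL.gam_comm hA.sl hG.sl] with x a1 a2 a3 a4 a5 a6 a7 a8
  rw [a3, a4, a1, a2, a5, a6, a7, a8, div_eq_inv_mul]
  ring

theorem c4c_gam_le (μ : Measure X) [DS m μ] {r A : X → ℝ} {L : ℝ} (hr : SW m r) (hA : SW m A)
    (hL : ∀ᵐ x ∂m, Dw m A x ≤ L) :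
    MemLp (Gam m r A) 2 μ ∧ nsq μ (Gam m r A) ≤ L ^ 2 * en m μ r := by
  rw [en_eq hr.sl]
  refine a5b_le (c4c_Dw μ hr) (c4c_aesm μ (gam_aesm r A)) (c4c_ae m μ ?_)
  filter_upwards [abs_gam_le (DS.hilb μ) hr.sl hA.sl, hL, Dw_nonneg (m := m) r] with x h1 h2 h3
  rw [abs_of_nonneg h3, mul_comm]
  exact h1.trans (mul_le_mul_of_nonneg_left h2 h3)

/-- `Γ(g_s, g_s)` is `L²`-differentiable when `g_s` is energy-differentiable with bounded gradients:
`(Γ(g', g') - Γ(g, g))/k = Γ(q, g' + g)`. -/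
theorem DerW.gam {g : ℝ → X → ℝ} {g' : X → ℝ} {s L : ℝ} {l : Filter ℝ} (hl : l ≤ 𝓝[≠] 0)
    (hg : ∀ᶠ k in l, SW m (g (s + k)) ∧ ∀ᵐ x ∂m, Dw m (g (s + k)) x ≤ L) (hs : SW m (g s))
    (hsL : ∀ᵐ x ∂m, Dw m (g s) x ≤ L) (hg' : SW m g') (h : DerW m μ g g' s l) :
    DerL2 μ (fun r => Gam m (g r) (g r)) (fun x => 2 * Gam m g' (g s) x) s l := by
  have hI : IsInfHilbertian m := DS.hilb μ
  have h0 : Tendsto (fun k : ℝ => k) l (𝓝 0) := hl.trans nhdsWithin_le_nhds
  set r : ℝ → X → ℝ := fun k y => (g (s + k) y - g s y) / k - g' y with hr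
  have hR : Tendsto (fun k => en m μ (r k)) l (𝓝 0) := h
  have hrS : ∀ᶠ k in l, SW m (r k) := hg.mono fun k hk => (c4c_div hk.1 hs k).sub hg'
  have hL2 : Tendsto (fun k => L ^ 2 * en m μ (r k)) l (𝓝 0) := by simpa using hR.const_mul (L ^ 2)
  have b1 : ∀ᶠ k in l, MemLp (Gam m (r k) (g (s + k))) 2 μ ∧
      nsq μ (Gam m (r k) (g (s + k))) ≤ L ^ 2 * en m μ (r k) := by
    filter_upwards [hg, hrS] with k hk hk'
    exact c4c_gam_le μ hk' hk.1 hk.2
  have b2 : ∀ᶠ k in l, MemLp (Gam m (r k) (g s)) 2 μ ∧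
      nsq μ (Gam m (r k) (g s)) ≤ L ^ 2 * en m μ (r k) := by
    filter_upwards [hrS] with k hk'
    exact c4c_gam_le μ hk' hs hsL
  have t1 := squeeze_zero' (Eventually.of_forall fun _ => nsq_nonneg _) (b1.mono fun k hk => hk.2) hL2
  have t2 := squeeze_zero' (Eventually.of_forall fun _ => nsq_nonneg _) (b2.mono fun k hk => hk.2) hL2
  set d : ℝ → X → ℝ := fun k => Dw m fun y => g (s + k) y - g s y with hd
  have hdS : ∀ᶠ k in l, MemLp (d k) 2 μ ∧ ∀ᵐ x ∂μ, |d k x| ≤ 2 * L := by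
    filter_upwards [hg] with k hk
    refine ⟨c4c_Dw μ (hk.1.sub hs), c4c_ae m μ ?_⟩
    filter_upwards [(SL.sub hk.1.sl hs.sl).2, hk.2, hsL,
      Dw_nonneg (m := m) fun y => g (s + k) y - g s y] with x a1 a2 a3 a4
    rw [abs_of_nonneg a4]
    linarith
  have hd0 : Tendsto (fun k => nsq μ (d k)) l (𝓝 0) := by
    refine squeeze_zero' (Eventually.of_forall fun _ => nsq_nonneg _) ?_
      (by simpa using (h0.pow 2).mul ((Tendsto.const_mul 2 hR).add_const (2 * nsq μ (Dw m g'))))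
    filter_upwards [a5b_ne hl, hrS, hdS] with k hk hk' hk''
    have e : (fun y => g (s + k) y - g s y) = fun y => k * (r k y + g' y) := by
      funext y
      simp only [hr]
      field_simp
      ring
    have hsum := (c4c_Dw μ hk').add (c4c_Dw μ hg')
    have h1 := (a5b_le (c := |k|) hsum hk''.1.1 (c4c_ae m μ ?_)).2
    · rw [sq_abs] at h1
      refine h1.trans (mul_le_mul_of_nonneg_left ?_ (sq_nonneg k))
      rw [en_eq hk'.sl]
      exact a5b_add_le (c4c_Dw μ hk') (c4c_Dw μ hg')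
    simp only [hd]
    rw [e]
    filter_upwards [(SL.const_mul (hk'.add hg').sl k).2, (SL.add hk'.sl hg'.sl).2,
      Dw_nonneg (m := m) fun y => r k y + g' y] with x a1 a2 a3
    rw [a1, abs_mul, abs_abs, abs_of_nonneg a3]
    exact mul_le_mul_of_nonneg_left (a2.trans (le_abs_self _)) (abs_nonneg k)
  have hi : Integrable (fun x => Dw m g' x ^ 2) μ := (c4c_Dw μ hg').integrable_sq
  have hM0 : ∀ᵐ x ∂μ, |(fun _ : X => (0 : ℝ)) x| ≤ 2 * L := by
    refine c4c_ae m μ ?_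
    filter_upwards [hsL, Dw_nonneg (m := m) (g s)] with x a1 a2
    rw [abs_zero]
    linarith
  have t4 := tendsto_bdd_mul_L1 (h := d) (g := fun _ x => Dw m g' x ^ 2) (h₀ := fun _ => 0)
    (M := 2 * L) hdS (MemLp.zero' ) hM0 (Eventually.of_forall fun _ => hi) hi
    (by simpa using hd0) (by simpa using tendsto_const_nhds)
  have b3 : ∀ᶠ k in l, MemLp (Gam m g' fun y => g (s + k) y - g s y) 2 μ ∧
      nsq μ (Gam m g' fun y => g (s + k) y - g s y) ≤ 2 * L * ∫ x, d k x * Dw m g' x ^ 2 ∂μ := by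
    filter_upwards [hg, hdS] with k hk hk'
    have hb : ∀ᵐ x ∂m, d k x ≤ 2 * L := by
      filter_upwards [(DS.ac₂ m μ).ae_le hk'.2] with x hx
      exact (le_abs_self _).trans hx
    have hm := (c4c_gam_le μ hg' (hk.1.sub hs) hb).1
    refine ⟨hm, ?_⟩
    rw [← integral_const_mul]
    refine integral_mono_ae hm.integrable_sq
      ((a5a_bdd hk'.1.1 hk'.2 hi).1.const_mul _) (c4c_ae m μ ?_)
    filter_upwards [abs_gam_le hI hg'.sl (hk.1.sub hs).sl, hb, Dw_nonneg (m := m) g',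
      Dw_nonneg (m := m) fun y => g (s + k) y - g s y] with x a1 a2 a3 a4
    have a5 := pow_le_pow_left₀ (abs_nonneg _) a1 2
    rw [sq_abs] at a5
    have a6 : 0 ≤ d k x * Dw m g' x ^ 2 := mul_nonneg a4 (sq_nonneg _)
    have a7 := mul_le_mul_of_nonneg_right a2 a6
    refine a5.trans (le_trans (le_of_eq ?_) a7)
    simp only [hd]
    ring
  have t3 := squeeze_zero' (Eventually.of_forall fun _ => nsq_nonneg _) (b3.mono fun k hk => hk.2)
    (by simpa using t4.const_mul (2 * L))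
  have t5 := a5b_add (f := fun k x => Gam m (r k) (g (s + k)) x + Gam m (r k) (g s) x)
    (g := fun k => Gam m g' fun y => g (s + k) y - g s y)
    ((b1.and b2).mono fun k hk => hk.1.1.add hk.2.1) (b3.mono fun k hk => hk.1)
    (a5b_add (b1.mono fun k hk => hk.1) (b2.mono fun k hk => hk.1) t1 t2) t3
  refine t5.congr' ?_
  filter_upwards [hg] with k hk
  exact (nsq_congr (c4c_ae m μ (c4c_id hI hk.1 hs hg' k))).symm

theorem DerW.rev {u : ℝ → X → ℝ} {u' : X → ℝ} {s t : ℝ}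
    (hu : ∀ᶠ k in 𝓝 (0 : ℝ), SW m (u (t - s + k))) (hu' : SW m u')
    (h : DerW m μ u u' (t - s) (𝓝[≠] 0)) :
    DerW m μ (fun r => u (t - r)) (fun x => -u' x) s (𝓝[≠] 0) := by
  have hn : Tendsto (fun k : ℝ => -k) (𝓝[≠] 0) (𝓝[≠] 0) := by
    refine tendsto_nhdsWithin_iff.2 ⟨?_, ?_⟩
    · have : Tendsto (fun k : ℝ => -k) (𝓝 0) (𝓝 0) := by
        simpa using (continuous_neg (G := ℝ)).tendsto 0
      exact this.mono_left nhdsWithin_le_nhds
    · filter_upwards [self_mem_nhdsWithin] with k hk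
      exact neg_ne_zero.2 hk
  have h0 : SW m (u (t - s)) := by simpa using hu.self_of_nhds
  refine (Tendsto.comp h hn).congr' ?_
  filter_upwards [hn.eventually (hu.filter_mono nhdsWithin_le_nhds)] with k hk
  simp only [Function.comp]
  have hS := (c4c_div hk h0 (-k)).sub hu'
  have e : (fun x => (u (t - (s + k)) x - u (t - s) x) / k - -u' x) =
      fun x => -1 * ((u (t - s + -k) x - u (t - s) x) / -k - u' x) := by
    funext x
    rw [show t - s + -k = t - (s + k) by ring, div_neg]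
    ring
  rw [e, en_eq hS.sl, en_eq (hS.const_mul (-1)).sl]
  refine nsq_congr (c4c_ae m μ ?_)
  filter_upwards [(SL.const_mul hS.sl (-1)).2] with x hx
  rw [hx]
  simp

end Crest.Agent.R242
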