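import Crest.Agent.R242.Defs

/-! Block D1: elementary algebra of a closed form, and the resolvent.
Recipe for `exists_resolvent`: for `l > 0` and `f`, minimise `J v = E v v + l‖v‖² - 2⟪f,v⟫` over `dom`
(bounded below by `-‖f‖²/l`; parallelogram identity ⇒ a minimising sequence is Cauchy for
`E + l‖·‖²`; `closed` gives the limit `u ∈ dom`, and `J u = inf`; first variation gives
`E u v + l⟪u,v⟫ = ⟪f,v⟫`).  Uniqueness (`gen_unique_res`) gives linearity, testing with `v = u` gives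
`l‖u‖ ≤ ‖f‖`; `LinearMap.mkContinuous`; for `l ≤ 0` put `0`. -/

set_option autoImplicit false
set_option linter.unusedSectionVars false
set_option linter.unusedVariables false
open MeasureTheory Filter Set Metric
open scoped ENNReal NNReal Topology
open Crest.GeometryTopology.SyntheticRicci

noncomputable section
namespace Crest.Agent.R242

variable {H : Type*} [NormedAddCommGroup H] [InnerProductSpace ℝ H] [CompleteSpace H]
  {Φ : ClosedForm H}

theorem ClosedForm.add_right (Φ : ClosedForm H) {u v z : H} (hu : u ∈ Φ.dom) (hv : v ∈ Φ.dom)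
    (hz : z ∈ Φ.dom) : Φ.E z (u + v) = Φ.E z u + Φ.E z v := by
  rw [Φ.symm z (u + v) hz (Φ.dom.add_mem hu hv), Φ.add_left u v z hu hv hz, Φ.symm u z hu hz,
    Φ.symm v z hv hz]

theorem ClosedForm.smul_right (Φ : ClosedForm H) (c : ℝ) {u z : H} (hu : u ∈ Φ.dom)
    (hz : z ∈ Φ.dom) : Φ.E z (c • u) = c * Φ.E z u := by
  rw [Φ.symm z (c • u) hz (Φ.dom.smul_mem c hu), Φ.smul_left c u z hu hz, Φ.symm u z hu hz]

theorem ClosedForm.sub_left (Φ : ClosedForm H) {u v z : H} (hu : u ∈ Φ.dom) (hv : v ∈ Φ.dom)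
    (hz : z ∈ Φ.dom) : Φ.E (u - v) z = Φ.E u z - Φ.E v z := by
  have h : u - v = u + (-1 : ℝ) • v := by rw [neg_one_smul, sub_eq_add_neg]
  rw [h, Φ.add_left u _ z hu (Φ.dom.smul_mem _ hv) hz, Φ.smul_left _ v z hv hz]
  ring

theorem ClosedForm.sub_right (Φ : ClosedForm H) {u v z : H} (hu : u ∈ Φ.dom) (hv : v ∈ Φ.dom)
    (hz : z ∈ Φ.dom) : Φ.E z (u - v) = Φ.E z u - Φ.E z v := by
  rw [Φ.symm z (u - v) hz (Φ.dom.sub_mem hu hv), Φ.sub_left hu hv hz, Φ.symm u z hu hz,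
    Φ.symm v z hv hz]

/-- Cauchy-Schwarz (discriminant). -/
theorem ClosedForm.abs_le (Φ : ClosedForm H) {u v : H} (hu : u ∈ Φ.dom) (hv : v ∈ Φ.dom) :
    |Φ.E u v| ≤ Real.sqrt (Φ.E u u) * Real.sqrt (Φ.E v v) := by
  have key : ∀ t : ℝ, 0 ≤ Φ.E v v * (t * t) + 2 * Φ.E u v * t + Φ.E u u := by
    intro t
    have htv : t • v ∈ Φ.dom := Φ.dom.smul_mem t hv
    have hs : u + t • v ∈ Φ.dom := Φ.dom.add_mem hu htv
    have h0 := Φ.nonneg _ hs
    rw [Φ.add_left u (t • v) _ hu htv hs, Φ.add_right hu htv hu, Φ.add_right hu htv htv,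
      Φ.smul_right t hv hu, Φ.smul_left t v u hv hu, Φ.smul_left t v (t • v) hv htv,
      Φ.smul_right t hv hv, Φ.symm v u hv hu] at h0
    nlinarith [h0]
  have hd := discrim_le_zero key
  rw [discrim] at hd
  rw [← Real.sqrt_mul (Φ.nonneg u hu)]
  apply Real.abs_le_sqrt
  nlinarith [hd]

/-- Triangle inequality for the energy seminorm. -/
theorem ClosedForm.sqrt_add_le (Φ : ClosedForm H) {u v : H} (hu : u ∈ Φ.dom) (hv : v ∈ Φ.dom) :
    Real.sqrt (Φ.E (u + v) (u + v)) ≤ Real.sqrt (Φ.E u u) + Real.sqrt (Φ.E v v) := by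
  have hs : u + v ∈ Φ.dom := Φ.dom.add_mem hu hv
  have h1 := Φ.abs_le hu hv
  have h2 := Real.sq_sqrt (Φ.nonneg u hu)
  have h3 := Real.sq_sqrt (Φ.nonneg v hv)
  have h4 := le_abs_self (Φ.E u v)
  rw [Real.sqrt_le_iff]
  refine ⟨by positivity, ?_⟩
  rw [Φ.add_left u v _ hu hv hs, Φ.add_right hu hv hu, Φ.add_right hu hv hv, Φ.symm v u hv hu]
  nlinarith

theorem ClosedForm.IsGen.add {u a v b : H} (h₁ : Φ.IsGen u a) (h₂ : Φ.IsGen v b) :
    Φ.IsGen (u + v) (a + b) := by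
  refine ⟨Φ.dom.add_mem h₁.1 h₂.1, fun z hz => ?_⟩
  rw [Φ.add_left u v z h₁.1 h₂.1 hz, h₁.2 z hz, h₂.2 z hz, inner_add_left]
  ring

theorem ClosedForm.IsGen.smul {u a : H} (c : ℝ) (h : Φ.IsGen u a) : Φ.IsGen (c • u) (c • a) := by
  refine ⟨Φ.dom.smul_mem c h.1, fun z hz => ?_⟩
  rw [Φ.smul_left c u z h.1 hz, h.2 z hz, real_inner_smul_left]
  ring

theorem ClosedForm.IsGen.sub {u a v b : H} (h₁ : Φ.IsGen u a) (h₂ : Φ.IsGen v b) :
    Φ.IsGen (u - v) (a - b) := by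
  refine ⟨Φ.dom.sub_mem h₁.1 h₂.1, fun z hz => ?_⟩
  rw [Φ.sub_left h₁.1 h₂.1 hz, h₁.2 z hz, h₂.2 z hz, inner_sub_left]
  ring

/-- The generator is single valued (density of the domain). -/
theorem ClosedForm.IsGen.unique {u a b : H} (h₁ : Φ.IsGen u a) (h₂ : Φ.IsGen u b) : a = b := by
  have hz : ∀ z ∈ (Φ.dom : Set H), inner ℝ (a - b) z = 0 := by
    intro z hz
    have e1 := h₁.2 z hz
    have e2 := h₂.2 z hz
    rw [inner_sub_left]
    linarith
  have hc : IsClosed {z : H | inner ℝ (a - b) z = 0} :=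
    isClosed_eq (by fun_prop) continuous_const
  have hall : inner ℝ (a - b) (a - b) = 0 :=
    closure_minimal hz hc (Φ.dense (a - b))
  exact sub_eq_zero.mp (inner_self_eq_zero.mp hall)

/-- The generator is symmetric. -/
theorem ClosedForm.IsGen.inner_comm {u a v b : H} (h₁ : Φ.IsGen u a) (h₂ : Φ.IsGen v b) :
    inner ℝ a v = inner ℝ u b := by
  have e1 := h₁.2 v h₂.1
  have e2 := h₂.2 u h₁.1
  have e3 := Φ.symm u v h₁.1 h₂.1
  rw [real_inner_comm b u]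
  linarith

/-- Uniqueness for `l u - A u = f`. -/
theorem ClosedForm.gen_unique_res {l : ℝ} (hl : 0 < l) {u v f : H} (hu : Φ.IsGen u (l • u - f))
    (hv : Φ.IsGen v (l • v - f)) : u = v := by
  have h := hu.sub hv
  have e : l • u - f - (l • v - f) = l • (u - v) := by rw [smul_sub]; abel
  rw [e] at h
  have e1 := h.2 _ h.1
  have e2 := Φ.nonneg _ h.1
  rw [real_inner_smul_left, real_inner_self_eq_norm_sq] at e1
  have e3 : ‖u - v‖ ^ 2 ≤ 0 := by
    by_contra hc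
    have := mul_pos hl (not_le.mp hc)
    linarith
  have e4 : ‖u - v‖ = 0 := pow_eq_zero_iff (two_ne_zero) |>.mp (le_antisymm e3 (by positivity))
  exact sub_eq_zero.mp (norm_eq_zero.mp e4)

theorem d1b_exp (Φ : ClosedForm H) (l t : ℝ) (f : H) {u w : H} (hu : u ∈ Φ.dom) (hw : w ∈ Φ.dom) :
    Φ.E (u + t • w) (u + t • w) + l * ‖u + t • w‖ ^ 2 - 2 * inner ℝ f (u + t • w) =
      (Φ.E u u + l * ‖u‖ ^ 2 - 2 * inner ℝ f u) +
        2 * t * (Φ.E u w + l * inner ℝ u w - inner ℝ f w) + t ^ 2 * (Φ.E w w + l * ‖w‖ ^ 2) := by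
  have htw : t • w ∈ Φ.dom := Φ.dom.smul_mem t hw
  rw [Φ.add_left _ _ _ hu htw (Φ.dom.add_mem hu htw), Φ.add_right hu htw hu, Φ.add_right hu htw htw,
    Φ.smul_right t hw hu, Φ.smul_left t w u hw hu, Φ.smul_left t w _ hw htw, Φ.smul_right t hw hw,
    Φ.symm w u hw hu, norm_add_sq_real, inner_add_right, inner_smul_right, inner_smul_right, norm_smul,
    mul_pow, Real.norm_eq_abs, sq_abs]
  ring

theorem d1b_exists (Φ : ClosedForm H) {l : ℝ} (hl : 0 < l) (f : H) : ∃ x, Φ.IsGen x (l • x - f) := by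
  set J : H → ℝ := fun v => Φ.E v v + l * ‖v‖ ^ 2 - 2 * inner ℝ f v with hJ
  have hbd : BddBelow (J '' (Φ.dom : Set H)) := by
    refine ⟨-(‖f‖ ^ 2 / l), ?_⟩
    rintro _ ⟨v, hv, rfl⟩
    have h1 := Φ.nonneg v hv
    have h2 := real_inner_le_norm f v
    have h3 : 2 * (‖f‖ * ‖v‖) ≤ l * ‖v‖ ^ 2 + ‖f‖ ^ 2 / l := by
      rw [← sub_nonneg]
      have : l * ‖v‖ ^ 2 + ‖f‖ ^ 2 / l - 2 * (‖f‖ * ‖v‖) = (l * ‖v‖ - ‖f‖) ^ 2 / l := by
        field_simp
        ring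
      rw [this]
      positivity
    simp only [hJ]
    linarith
  set m := sInf (J '' (Φ.dom : Set H)) with hm
  have hlow : ∀ v ∈ Φ.dom, m ≤ J v := fun v hv => csInf_le hbd ⟨v, hv, rfl⟩
  have hex : ∀ n : ℕ, ∃ v ∈ Φ.dom, J v < m + 1 / ((n : ℝ) + 1) := fun n => by
    obtain ⟨_, ⟨v, hv, rfl⟩, h⟩ := exists_lt_of_csInf_lt (s := J '' (Φ.dom : Set H))
      ⟨_, 0, Φ.dom.zero_mem, rfl⟩ (lt_add_of_pos_right m (Nat.one_div_pos_of_nat (n := n)))
    exact ⟨v, hv, h⟩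
  choose u hu hlt using hex
  have hQ : ∀ n k : ℕ, Φ.E (u n - u k) (u n - u k) + l * ‖u n - u k‖ ^ 2 ≤
      2 * (1 / ((n : ℝ) + 1) + 1 / ((k : ℝ) + 1)) := fun n k => by
    have hmid : (1 / 2 : ℝ) • (u n + u k) ∈ Φ.dom := Φ.dom.smul_mem _ (Φ.dom.add_mem (hu n) (hu k))
    have hw : u n - u k ∈ Φ.dom := Φ.dom.sub_mem (hu n) (hu k)
    have e1 := d1b_exp Φ l (1 / 2) f hmid hw
    have e2 := d1b_exp Φ l (-(1 / 2)) f hmid hw
    have q1 : (1 / 2 : ℝ) • (u n + u k) + (1 / 2 : ℝ) • (u n - u k) = u n := by module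
    have q2 : (1 / 2 : ℝ) • (u n + u k) + (-(1 / 2) : ℝ) • (u n - u k) = u k := by module
    rw [q1] at e1
    rw [q2] at e2
    have h0 := hlow _ hmid
    have h1 := hlt n
    have h2 := hlt k
    simp only [hJ] at h0 h1 h2
    linarith
  have hsmall : ∀ ε : ℝ, 0 < ε → ∃ N : ℕ, ∀ n, N ≤ n → ∀ k, N ≤ k →
      Φ.E (u n - u k) (u n - u k) + l * ‖u n - u k‖ ^ 2 ≤ ε := fun ε hε => by
    obtain ⟨N, hN⟩ := exists_nat_one_div_lt (show 0 < ε / 4 by positivity)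
    refine ⟨N, fun n hn k hk => (hQ n k).trans ?_⟩
    have h1 : 1 / ((n : ℝ) + 1) ≤ 1 / ((N : ℝ) + 1) := Nat.one_div_le_one_div hn
    have h2 : 1 / ((k : ℝ) + 1) ≤ 1 / ((N : ℝ) + 1) := Nat.one_div_le_one_div hk
    linarith
  have hc : CauchySeq u := by
    refine Metric.cauchySeq_iff.2 fun ε hε => ?_
    obtain ⟨N, hN⟩ := hsmall (l * (ε / 2) ^ 2) (by positivity)
    refine ⟨N, fun n hn k hk => ?_⟩
    have h1 := hN n hn k hk
    have h2 := Φ.nonneg _ (Φ.dom.sub_mem (hu n) (hu k))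
    have h3 : ‖u n - u k‖ ^ 2 ≤ (ε / 2) ^ 2 := le_of_mul_le_mul_left (by linarith) hl
    have h4 := abs_le_of_sq_le_sq' h3 (by positivity)
    rw [dist_eq_norm]
    linarith [h4.2]
  obtain ⟨x, hx⟩ := cauchySeq_tendsto_of_complete hc
  obtain ⟨hxd, hE⟩ := Φ.closed u x hu hx fun ε hε => by
    obtain ⟨N, hN⟩ := hsmall ε hε
    refine ⟨N, fun n hn k hk => le_trans ?_ (hN n hn k hk)⟩
    have : 0 ≤ l * ‖u n - u k‖ ^ 2 := by positivity
    linarith
  refine ⟨x, hxd, fun w hw => ?_⟩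
  have t1 : Tendsto (fun n => Φ.E (u n) w) atTop (𝓝 (Φ.E x w)) := by
    rw [tendsto_iff_norm_sub_tendsto_zero]
    have h0 : Tendsto (fun n => Real.sqrt (Φ.E (u n - x) (u n - x)) * Real.sqrt (Φ.E w w)) atTop (𝓝 0) := by
      simpa using hE.sqrt.mul_const (Real.sqrt (Φ.E w w))
    refine squeeze_zero (fun n => norm_nonneg _) (fun n => ?_) h0
    rw [← Φ.sub_left (hu n) hxd hw]
    exact Φ.abs_le (Φ.dom.sub_mem (hu n) hxd) hw
  have t2 : Tendsto (fun n => inner ℝ (u n) w) atTop (𝓝 (inner ℝ x w)) := hx.inner tendsto_const_nhds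
  have key : ∀ t : ℝ, 0 ≤ (Φ.E w w + l * ‖w‖ ^ 2) * (t * t) +
      2 * (Φ.E x w + l * inner ℝ x w - inner ℝ f w) * t + 0 := fun t => by
    have t3 : Tendsto (fun n : ℕ => (Φ.E w w + l * ‖w‖ ^ 2) * (t * t) +
        2 * (Φ.E (u n) w + l * inner ℝ (u n) w - inner ℝ f w) * t + 1 / ((n : ℝ) + 1)) atTop
        (𝓝 ((Φ.E w w + l * ‖w‖ ^ 2) * (t * t) + 2 * (Φ.E x w + l * inner ℝ x w - inner ℝ f w) * t + 0)) :=
      (tendsto_const_nhds.add ((((t1.add (t2.const_mul l)).sub_const _).const_mul 2).mul_const t)).add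
        tendsto_one_div_add_atTop_nhds_zero_nat
    refine ge_of_tendsto' t3 fun n => ?_
    have e1 := d1b_exp Φ l t f (hu n) hw
    have h0 := hlow _ (Φ.dom.add_mem (hu n) (Φ.dom.smul_mem t hw))
    have h1 := hlt n
    simp only [hJ] at h0 h1
    linarith
  have hd := discrim_le_zero key
  rw [discrim, mul_zero, sub_zero] at hd
  have h0 := pow_eq_zero_iff (two_ne_zero) |>.1 (le_antisymm hd (sq_nonneg _))
  rw [inner_sub_left, real_inner_smul_left]
  linarith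

theorem exists_resolvent (Φ : ClosedForm H) : Nonempty (Resolvent Φ) := by
  classical
  have hR : ∀ l : ℝ, 0 < l → ∃ R : H →L[ℝ] H, ∀ f, Φ.IsGen (R f) (l • R f - f) := fun l hl => by
    choose r hr using d1b_exists Φ hl
    have hadd : ∀ f g, r (f + g) = r f + r g := fun f g => by
      refine ClosedForm.gen_unique_res hl (hr (f + g)) ?_
      have := (hr f).add (hr g)
      rwa [show l • r f - f + (l • r g - g) = l • (r f + r g) - (f + g) by module] at this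
    have hsm : ∀ (c : ℝ) f, r (c • f) = c • r f := fun c f => by
      refine ClosedForm.gen_unique_res hl (hr (c • f)) ?_
      have := (hr f).smul c
      rwa [show c • (l • r f - f) = l • (c • r f) - c • f by module] at this
    refine ⟨LinearMap.mkContinuous ⟨⟨r, hadd⟩, hsm⟩ l⁻¹ fun f => ?_, hr⟩
    show ‖r f‖ ≤ l⁻¹ * ‖f‖
    have h1 := (hr f).2 (r f) (hr f).1
    have h2 := Φ.nonneg _ (hr f).1
    rw [inner_sub_left, real_inner_smul_left, real_inner_self_eq_norm_sq] at h1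
    have h3 := real_inner_le_norm f (r f)
    rw [le_inv_mul_iff₀ hl]
    rcases (norm_nonneg (r f)).eq_or_lt with h | h
    · rw [← h, mul_zero]
      exact norm_nonneg _
    · refine le_of_mul_le_mul_right ?_ h
      nlinarith
  choose R hR using hR
  refine ⟨⟨fun l => if h : 0 < l then R l h else 0, fun l f hl => ?_⟩⟩
  simp only [dif_pos hl]
  exact hR l hl f

end Crest.Agent.R242
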