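import Crest.Agent.R242.D1

/-! Block D2: properties of the resolvent.  Write `x_l = l • res l x`.
`res_tendsto`: for `u ∈ dom`, `l‖x_l - u‖² ≤ E u u` (test with `x_l - u`), then density and
`‖x_l‖ ≤ ‖x‖`.  `mem_dom_of_dual`: `E x_l x_l = l⟪x - x_l, x_l⟫ ≤ e_l := l⟪x - x_l, x⟫ = -⟪A x_l, x⟫ ≤
b √(E x_l x_l)`, so `E x_l x_l ≤ b²` and `e_l ≤ b²`; `J_l v = E v v + l‖v - x‖²` has minimum `e_l` at
`x_l` and `J_l v = e_l + E (v - x_l) (v - x_l) + l‖v - x_l‖²`; for `l ≤ l'` this gives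
`E (x_l' - x_l) (x_l' - x_l) ≤ e_l' - e_l`; `e` is monotone bounded ⇒ Cauchy ⇒ `closed`.
`res_tendsto_E` is the same computation (`closed` gives the convergence), `lsc` follows from
`mem_dom_of_dual` and Cauchy-Schwarz. -/

set_option autoImplicit false
set_option linter.unusedSectionVars false
set_option linter.unusedVariables false
open MeasureTheory Filter Set Metric
open scoped ENNReal NNReal Topology
open Crest.GeometryTopology.SyntheticRicci

noncomputable section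
namespace Crest.Agent.R242

variable {H : Type*} [NormedAddCommGroup H] [InnerProductSpace ℝ H] [CompleteSpace H]
  {Φ : ClosedForm H}

variable (R : Resolvent Φ)

theorem Resolvent.mem {l : ℝ} (hl : 0 < l) (f : H) : R.res l f ∈ Φ.dom := (R.res_gen l f hl).1

theorem Resolvent.d2a_key {l : ℝ} (hl : 0 < l) (f : H) {v : H} (hv : v ∈ Φ.dom) :
    Φ.E (R.res l f) v = inner ℝ f v - l * inner ℝ (R.res l f) v := by
  rw [(R.res_gen l f hl).2 v hv, inner_sub_left, real_inner_smul_left]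
  ring

theorem Resolvent.norm_le {l : ℝ} (hl : 0 < l) (f : H) : ‖l • R.res l f‖ ≤ ‖f‖ := by
  have h := R.d2a_key hl f (R.mem hl f)
  have h0 := Φ.nonneg _ (R.mem hl f)
  have h1 := real_inner_le_norm f (R.res l f)
  rw [real_inner_self_eq_norm_sq] at h
  rw [norm_smul, Real.norm_of_nonneg hl.le]
  rcases (norm_nonneg (R.res l f)).eq_or_lt with h2 | h2
  · rw [← h2, mul_zero]
    exact norm_nonneg _
  · exact le_of_mul_le_mul_right (by nlinarith) h2

theorem Resolvent.symm {l : ℝ} (hl : 0 < l) (f g : H) :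
    inner ℝ (R.res l f) g = inner ℝ f (R.res l g) := by
  have h1 := R.d2a_key hl f (R.mem hl g)
  have h2 := R.d2a_key hl g (R.mem hl f)
  rw [Φ.symm _ _ (R.mem hl g) (R.mem hl f), real_inner_comm (R.res l f) (R.res l g),
    real_inner_comm (R.res l f) g] at h2
  linarith

theorem Resolvent.eq_of_gen {l : ℝ} (hl : 0 < l) {u a : H} (h : Φ.IsGen u a) :
    R.res l (l • u - a) = u := by
  refine ClosedForm.gen_unique_res hl (R.res_gen l _ hl) ?_
  rwa [sub_sub_cancel]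

/-- Resolvent identity. -/
theorem Resolvent.res_sub {l k : ℝ} (hl : 0 < l) (hk : 0 < k) (f : H) :
    R.res l f - R.res k f = (k - l) • R.res l (R.res k f) := by
  have h := R.eq_of_gen hl (R.res_gen k f hk)
  rw [show l • R.res k f - (k • R.res k f - f) = f - (k - l) • R.res k f by module, map_sub,
    map_smul] at h
  rw [sub_eq_iff_eq_add, ← sub_eq_iff_eq_add', h]

theorem Resolvent.comm {l k : ℝ} (hl : 0 < l) (hk : 0 < k) (f : H) :
    R.res l (R.res k f) = R.res k (R.res l f) := by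
  by_cases h : k = l
  · rw [h]
  · refine smul_right_injective H (sub_ne_zero.2 h) ?_
    beta_reduce
    rw [← R.res_sub hl hk, ← neg_sub l k, neg_smul, ← R.res_sub hk hl, neg_sub]

theorem Resolvent.E_le {l : ℝ} (hl : 0 < l) (f : H) :
    Φ.E (R.res l f) (R.res l f) ≤ ‖f‖ ^ 2 / (4 * l) := by
  have h := R.d2a_key hl f (R.mem hl f)
  have h1 := real_inner_le_norm f (R.res l f)
  rw [real_inner_self_eq_norm_sq] at h
  rw [le_div_iff₀ (by positivity), h]
  nlinarith [sq_nonneg (‖f‖ - 2 * l * ‖R.res l f‖), mul_le_mul_of_nonneg_left h1 hl.le]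

theorem Resolvent.d2a_dom {l : ℝ} (hl : 0 < l) {u : H} (hu : u ∈ Φ.dom) :
    l * ‖l • R.res l u - u‖ ^ 2 ≤ Φ.E u u := by
  have hy := R.mem hl u
  have hx := Φ.dom.smul_mem l hy
  have hv := Φ.dom.sub_mem hx hu
  have h1 := (R.res_gen l u hl).2 _ hv
  have h2 := Φ.smul_left l _ _ hy hv
  have h3 := Φ.sub_left hx hu hv
  have h4 := Φ.sub_right hx hu hx
  have h5 := Φ.sub_left hx hu hu
  have h6 := Φ.symm _ _ hv hu
  have h7 := Φ.nonneg _ hv
  have h8 := Φ.nonneg _ hx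
  have h9 := Φ.nonneg _ hu
  rw [h1, real_inner_self_eq_norm_sq] at h2
  linarith

theorem Resolvent.res_tendsto (f : H) : Tendsto (fun l : ℝ => l • R.res l f) atTop (𝓝 f) := by
  rw [Metric.tendsto_nhds]
  intro ε hε
  obtain ⟨u, hu, hfu⟩ := Metric.mem_closure_iff.1 (Φ.dense f) (ε / 3) (by linarith)
  filter_upwards [eventually_gt_atTop (0 : ℝ), eventually_gt_atTop (Φ.E u u / (ε / 3) ^ 2)]
    with l hl hl'
  have h1 := R.d2a_dom hl hu
  have h2 := R.norm_le hl (f - u)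
  rw [div_lt_iff₀ (by positivity)] at hl'
  have h3 : ‖l • R.res l u - u‖ < ε / 3 :=
    lt_of_pow_lt_pow_left₀ 2 (by linarith) (lt_of_mul_lt_mul_left (h1.trans_lt hl') hl.le)
  rw [dist_eq_norm] at hfu ⊢
  have e : l • R.res l f - f = l • R.res l (f - u) + (l • R.res l u - u) - (f - u) := by
    rw [map_sub]
    module
  rw [e]
  linarith [norm_sub_le (l • R.res l (f - u) + (l • R.res l u - u)) (f - u),
    norm_add_le (l • R.res l (f - u)) (l • R.res l u - u)]

/-- `e_l = l ⟪x - x_l, x⟫` -/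
def Resolvent.d2bE (x : H) (l : ℝ) : ℝ := l * inner ℝ (x - l • R.res l x) x

theorem Resolvent.d2b_gen {l : ℝ} (hl : 0 < l) (x : H) :
    Φ.IsGen (l • R.res l x) (l • (l • R.res l x - x)) := (R.res_gen l x hl).smul l

theorem Resolvent.d2b_E {l : ℝ} (hl : 0 < l) (x : H) {v : H} (hv : v ∈ Φ.dom) :
    Φ.E (l • R.res l x) v = l * inner ℝ (x - l • R.res l x) v := by
  rw [(R.d2b_gen hl x).2 v hv, real_inner_smul_left, inner_sub_left, inner_sub_left]
  ring

theorem Resolvent.d2b_EE {l k : ℝ} (hl : 0 < l) (hk : 0 < k) (x : H) :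
    Φ.E (l • R.res l x) (k • R.res k x) =
      R.d2bE x l - l * inner ℝ (x - l • R.res l x) (x - k • R.res k x) := by
  rw [R.d2b_E hl x (R.d2b_gen hk x).1, Resolvent.d2bE, inner_sub_right]
  ring

theorem Resolvent.d2b_diff {l k : ℝ} (hl : 0 < l) (hlk : l ≤ k) (x : H) :
    Φ.E (k • R.res k x - l • R.res l x) (k • R.res k x - l • R.res l x) ≤
      R.d2bE x k - R.d2bE x l := by
  have hk : 0 < k := hl.trans_le hlk
  have h1 := (R.d2b_gen hl x).1
  have h2 := (R.d2b_gen hk x).1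
  rw [Φ.sub_left h2 h1 (Φ.dom.sub_mem h2 h1), Φ.sub_right h2 h1 h2, Φ.sub_right h2 h1 h1,
    Φ.symm _ _ h2 h1, R.d2b_EE hl hk, R.d2b_EE hk hk, R.d2b_EE hl hl]
  generalize x - l • R.res l x = a
  generalize x - k • R.res k x = b
  have h3 : 0 ≤ inner ℝ (b - a) (b - a) := real_inner_self_nonneg
  have h4 : 0 ≤ inner ℝ b b := real_inner_self_nonneg
  rw [inner_sub_left, inner_sub_right, inner_sub_right, real_inner_comm a b] at h3
  nlinarith [mul_nonneg hl.le h3, mul_nonneg (sub_nonneg.2 hlk) h4]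

theorem Resolvent.d2b_mono {l k : ℝ} (hl : 0 < l) (hlk : l ≤ k) (x : H) :
    R.d2bE x l ≤ R.d2bE x k := by
  have hk : 0 < k := hl.trans_le hlk
  have h := Φ.nonneg _ (Φ.dom.sub_mem (R.d2b_gen hk x).1 (R.d2b_gen hl x).1)
  linarith [R.d2b_diff hl hlk x]

theorem Resolvent.d2b_sub {l : ℝ} (hl : 0 < l) {x : H} (hx : x ∈ Φ.dom) :
    Φ.E (l • R.res l x - x) (l • R.res l x - x) ≤ Φ.E x x - R.d2bE x l := by
  have h1 := (R.d2b_gen hl x).1
  rw [Φ.sub_left h1 hx (Φ.dom.sub_mem h1 hx), Φ.sub_right h1 hx h1, Φ.sub_right h1 hx hx,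
    Φ.symm _ _ hx h1, R.d2b_EE hl hl, R.d2b_E hl x hx]
  have h4 : 0 ≤ inner ℝ (x - l • R.res l x) (x - l • R.res l x) := real_inner_self_nonneg
  have h5 := mul_nonneg hl.le h4
  unfold Resolvent.d2bE
  linarith

theorem Resolvent.d2b_core {x : H} {B : ℝ} (hB : ∀ l, 0 < l → R.d2bE x l ≤ B) :
    x ∈ Φ.dom ∧ Φ.E x x ≤ B ∧
      Tendsto (fun l : ℝ => Φ.E (l • R.res l x - x) (l • R.res l x - x)) atTop (𝓝 0) := by
  have hpos : ∀ n : ℕ, (0 : ℝ) < (n : ℝ) + 1 := fun n => by positivity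
  set e : ℕ → ℝ := fun n => R.d2bE x ((n : ℝ) + 1) with he
  set u : ℕ → H := fun n => ((n : ℝ) + 1) • R.res ((n : ℝ) + 1) x with hu
  have hle : ∀ {n k : ℕ}, n ≤ k → (n : ℝ) + 1 ≤ (k : ℝ) + 1 := fun h => by
    have := (Nat.cast_le (α := ℝ)).2 h
    linarith
  have hmono : Monotone e := fun n k h => R.d2b_mono (hpos n) (hle h) x
  have hbdd : BddAbove (range e) := ⟨B, by rintro _ ⟨n, rfl⟩; exact hB _ (hpos n)⟩
  have hlim := tendsto_atTop_ciSup hmono hbdd
  have hud : ∀ n, u n ∈ Φ.dom := fun n => (R.d2b_gen (hpos n) x).1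
  have hux : Tendsto u atTop (𝓝 x) :=
    (R.res_tendsto x).comp (tendsto_atTop_add_const_right _ 1 tendsto_natCast_atTop_atTop)
  obtain ⟨hx, hE⟩ := Φ.closed u x hud hux fun ε hε => by
    obtain ⟨N, hN⟩ := eventually_atTop.1 (hlim.eventually (lt_mem_nhds (sub_lt_self _ hε)))
    refine ⟨N, fun n hn k hk => ?_⟩
    have key : ∀ n k, N ≤ n → n ≤ k → Φ.E (u k - u n) (u k - u n) ≤ ε := fun n k hn hnk => by
      have h1 := R.d2b_diff (hpos n) (hle hnk) x
      have h2 := hN n hn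
      have h3 : e k ≤ ⨆ i, e i := le_ciSup hbdd k
      simp only [he] at h2 h3
      simp only [hu]
      linarith
    rcases le_total n k with h | h
    · have hd := Φ.dom.sub_mem (hud k) (hud n)
      have : u n - u k = (-1 : ℝ) • (u k - u n) := by simp
      rw [this, Φ.smul_left _ _ _ hd (Φ.dom.smul_mem _ hd), Φ.smul_right _ hd hd]
      linarith [key n k hn h]
    · exact key k n hk h
  -- `e n → E x x`
  have he' : Tendsto e atTop (𝓝 (Φ.E x x)) := by
    have h1 : Tendsto (fun n => Real.sqrt (Φ.E (u n - x) (u n - x)) * Real.sqrt (Φ.E x x)) atTop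
        (𝓝 0) := by
      simpa using hE.sqrt.mul_const (Real.sqrt (Φ.E x x))
    have h2 : Tendsto (fun n => e n - Φ.E x x) atTop (𝓝 0) := by
      refine squeeze_zero_norm (fun n => ?_) h1
      have h3 : e n - Φ.E x x = Φ.E (u n - x) x := by
        rw [Φ.sub_left (hud n) hx hx]
        simp only [he, hu]
        rw [R.d2b_E (hpos n) x hx, Resolvent.d2bE]
      rw [h3, Real.norm_eq_abs]
      exact Φ.abs_le (Φ.dom.sub_mem (hud n) hx) hx
    simpa using h2.add_const (Φ.E x x)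
  refine ⟨hx, le_of_tendsto' he' fun n => hB _ (hpos n), ?_⟩
  rw [tendsto_order]
  constructor
  · intro a ha
    filter_upwards [eventually_gt_atTop (0 : ℝ)] with l hl
    exact ha.trans_le (Φ.nonneg _ (Φ.dom.sub_mem (R.d2b_gen hl x).1 hx))
  · intro a ha
    obtain ⟨N, hN⟩ := (he'.eventually (lt_mem_nhds (sub_lt_self _ ha))).exists
    filter_upwards [eventually_ge_atTop ((N : ℝ) + 1)] with l hl
    have h1 := R.d2b_mono (hpos N) hl x
    have h2 := R.d2b_sub ((hpos N).trans_le hl) hx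
    simp only [he] at hN
    linarith

include R in
/-- Dual characterisation of the domain. -/
theorem Resolvent.mem_dom_of_dual {x : H} {b : ℝ} (hb : 0 ≤ b)
    (h : ∀ u a, Φ.IsGen u a → |inner ℝ x a| ≤ b * Real.sqrt (Φ.E u u)) :
    x ∈ Φ.dom ∧ Φ.E x x ≤ b ^ 2 := by
  have hB : ∀ l, 0 < l → R.d2bE x l ≤ b ^ 2 := fun l hl => by
    have h1 := h _ _ (R.d2b_gen hl x)
    have h2 : inner ℝ x (l • (l • R.res l x - x)) = -R.d2bE x l := by
      rw [Resolvent.d2bE, real_inner_comm, real_inner_smul_left, inner_sub_left, inner_sub_left]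
      ring
    have h3 := R.d2b_EE hl hl x
    have h4 : 0 ≤ inner ℝ (x - l • R.res l x) (x - l • R.res l x) := real_inner_self_nonneg
    have h5 := mul_nonneg hl.le h4
    have h6 := Φ.nonneg _ (R.d2b_gen hl x).1
    rw [h2, abs_neg] at h1
    have h7 := Real.sq_sqrt h6
    have h8 := Real.sqrt_nonneg (Φ.E (l • R.res l x) (l • R.res l x))
    have h9 := le_abs_self (R.d2bE x l)
    set s := Real.sqrt (Φ.E (l • R.res l x) (l • R.res l x))
    have h10 : s ≤ b := by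
      by_contra hc
      push Not at hc
      nlinarith
    nlinarith [mul_le_mul_of_nonneg_left h10 hb]
  exact ⟨(R.d2b_core hB).1, (R.d2b_core hB).2.1⟩

theorem Resolvent.res_tendsto_E {u : H} (hu : u ∈ Φ.dom) :
    Tendsto (fun l : ℝ => Φ.E (l • R.res l u - u) (l • R.res l u - u)) atTop (𝓝 0) := by
  refine (R.d2b_core (B := Φ.E u u) fun l hl => ?_).2.2
  have h1 := R.d2b_sub hl hu
  have h2 := Φ.nonneg _ (Φ.dom.sub_mem (R.d2b_gen hl u).1 hu)
  linarith

include R in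
/-- Lower semicontinuity of the energy. -/
theorem Resolvent.lsc {ι : Type*} {l : Filter ι} [l.NeBot] {u : ι → H} {x : H} {b : ℝ}
    (hu : ∀ᶠ i in l, u i ∈ Φ.dom ∧ Φ.E (u i) (u i) ≤ b) (hx : Tendsto u l (𝓝 x)) :
    x ∈ Φ.dom ∧ Φ.E x x ≤ b := by
  obtain ⟨i, hi⟩ := hu.exists
  have hb : 0 ≤ b := (Φ.nonneg _ hi.1).trans hi.2
  have h := R.mem_dom_of_dual (x := x) (Real.sqrt_nonneg b) fun v a hv => by
    have h1 : Tendsto (fun i => |inner ℝ (u i) a|) l (𝓝 |inner ℝ x a|) :=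
      (hx.inner tendsto_const_nhds).abs
    refine le_of_tendsto h1 ?_
    filter_upwards [hu] with i hi
    have h2 := hv.2 _ hi.1
    have h3 := Φ.abs_le hv.1 hi.1
    rw [h2, abs_neg, real_inner_comm] at h3
    refine h3.trans ?_
    rw [mul_comm]
    exact mul_le_mul_of_nonneg_right (Real.sqrt_le_sqrt hi.2) (Real.sqrt_nonneg _)
  rwa [Real.sq_sqrt hb] at h

/-- Ouhabaz' criterion.  With `u = l • res l f`, `v = u - P u`:
`E v v + E (P u) v + l‖v‖² + l⟪P u - f, v⟫ = 0` and all four terms are `≥ 0`. -/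
theorem Resolvent.mem_of_proj {C : Set H} (P : H → H) (hP : ∀ u, P u ∈ C)
    (hproj : ∀ u, ∀ c ∈ C, inner ℝ (u - P u) (c - P u) ≤ 0)
    (hdom : ∀ u, u ∈ Φ.dom → P u ∈ Φ.dom ∧ 0 ≤ Φ.E (P u) (u - P u))
    {l : ℝ} (hl : 0 < l) {f : H} (hf : f ∈ C) : l • R.res l f ∈ C := by
  have hy := R.mem hl f
  have hu := Φ.dom.smul_mem l hy
  obtain ⟨hp, h0⟩ := hdom _ hu
  have hv := Φ.dom.sub_mem hu hp
  have h1 := (R.res_gen l f hl).2 _ hv
  have h2 := Φ.smul_left l _ _ hy hv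
  have h3 := Φ.sub_left hu hp hv
  have h4 := Φ.nonneg _ hv
  have h5 := hproj (l • R.res l f) f hf
  rw [h1] at h2
  generalize l • R.res l f = u at *
  have h6 : inner ℝ (u - f) (u - P u) = ‖u - P u‖ ^ 2 - inner ℝ (u - P u) (f - P u) := by
    rw [← real_inner_self_eq_norm_sq, ← inner_sub_right, real_inner_comm, sub_sub_sub_cancel_right]
  have h7 : ‖u - P u‖ ^ 2 ≤ 0 := by
    refine le_of_mul_le_mul_left ?_ hl
    nlinarith [mul_nonneg hl.le (neg_nonneg.2 h5)]
  have h8 : u - P u = 0 := norm_eq_zero.1 (pow_eq_zero_iff two_ne_zero |>.1 (h7.antisymm (sq_nonneg _)))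
  rw [sub_eq_zero.1 h8]
  exact hP u

end Crest.Agent.R242
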