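import Crest.Agent.R242.D2

/-! Block D3: Yosida approximation.  `A n = (n+1) • ((n+1) • res (n+1) - 1)` (bounded,
symmetric), `yos n t = exp (t • A n)` in the Banach algebra `H →L[ℝ] H`.
`yos n t f = ∑ k, e^{-Nt} (Nt)^k / k! • (N • res N)^k f` (`N = n+1`), a countable convex combination:
this gives `yos_norm` and `yos_invariant` (partial sums renormalised, or Hahn-Banach separation
`geometric_hahn_banach_point_closed`).  `yos_diff`: all operators commute; differentiate
`s ↦ yos n (t - s) (yos k s u)`. -/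

set_option autoImplicit false
set_option linter.unusedSectionVars false
set_option linter.unusedVariables false
open MeasureTheory Filter Set Metric
open scoped ENNReal NNReal Topology
open Crest.GeometryTopology.SyntheticRicci

noncomputable section
namespace Crest.Agent.R242

variable {H : Type*} [NormedAddCommGroup H] [InnerProductSpace ℝ H] [CompleteSpace H]
  {Φ : ClosedForm H}

variable (R : Resolvent Φ)

/-- Yosida approximation of the generator. -/
def Resolvent.yA (n : ℕ) : H →L[ℝ] H :=
  ((n : ℝ) + 1) • (((n : ℝ) + 1) • R.res ((n : ℝ) + 1) - 1)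

/-- The approximating uniformly continuous semigroup. -/
def Resolvent.yos (n : ℕ) (t : ℝ) : H →L[ℝ] H := NormedSpace.exp (t • R.yA n)

theorem Resolvent.yos_zero (n : ℕ) (f : H) : R.yos n 0 f = f := by
  rw [Resolvent.yos, zero_smul, NormedSpace.exp_zero, one_apply_eq_self]

theorem Resolvent.yos_add (n : ℕ) (s t : ℝ) (f : H) :
    R.yos n (s + t) f = R.yos n s (R.yos n t f) := by
  have h := NormedSpace.expSeries_radius_eq_top ℝ (H →L[ℝ] H)
  rw [Resolvent.yos, add_smul, NormedSpace.exp_add_of_commute_of_mem_ball (𝕂 := ℝ)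
    (((Commute.refl _).smul_left s).smul_right t) (h.symm ▸ edist_lt_top _ _)
    (h.symm ▸ edist_lt_top _ _)]
  rfl

theorem Resolvent.yos_deriv (n : ℕ) (t : ℝ) (f : H) :
    HasDerivAt (fun s => R.yos n s f) (R.yos n t (R.yA n f)) t := by
  simpa [Resolvent.yos] using
    (hasDerivAt_exp_smul_const (𝕂 := ℝ) (R.yA n) t).clm_apply (hasDerivAt_const t f)

theorem Resolvent.yos_symm (n : ℕ) (t : ℝ) (f g : H) :
    inner ℝ (R.yos n t f) g = inner ℝ f (R.yos n t g) := by
  have h1 : IsSelfAdjoint (t • R.yA n) := by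
    refine ContinuousLinearMap.isSelfAdjoint_iff_isSymmetric.2 fun u v => ?_
    simp only [Resolvent.yA, ContinuousLinearMap.coe_coe, smul_apply,
      sub_apply, one_apply_eq_self, real_inner_smul_left,
      real_inner_smul_right, inner_sub_left, inner_sub_right,
      R.symm (Nat.cast_add_one_pos n)]
  exact ContinuousLinearMap.isSelfAdjoint_iff_isSymmetric.1 h1.exp f g

theorem d3a_comm {l : ℝ} (hl : 0 < l) (n : ℕ) : Commute (R.res l) (R.yA n) :=
  ((Commute.smul_right (ContinuousLinearMap.ext (R.comm hl (Nat.cast_add_one_pos n))) _).sub_right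
    (Commute.one_right _)).smul_right _

theorem Resolvent.yos_res (n : ℕ) (t : ℝ) {l : ℝ} (hl : 0 < l) (f : H) :
    R.yos n t (R.res l f) = R.res l (R.yos n t f) := by
  exact (DFunLike.congr_fun ((d3a_comm R hl n).smul_right t).exp_right.eq f).symm

/-- `exp (c • (S - 1)) f` is a countable convex combination of the `S ^ k f`. -/
theorem d3b_hasSum (S : H →L[ℝ] H) (c : ℝ) (f : H) :
    HasSum (fun k : ℕ => (Real.exp (-c) * (c ^ k / (k.factorial : ℝ))) • (S ^ k) f)
      (NormedSpace.exp (c • (S - 1)) f) := by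
  let _ : NormedAlgebra ℚ (H →L[ℝ] H) := NormedAlgebra.restrictScalars ℚ ℝ _
  have e1 : c • (S - 1) = algebraMap ℝ (H →L[ℝ] H) (-c) + c • S := by
    rw [Algebra.algebraMap_eq_smul_one, smul_sub, neg_smul]; abel
  have e2 : NormedSpace.exp (c • (S - 1)) = Real.exp (-c) • NormedSpace.exp (c • S) := by
    rw [e1, NormedSpace.exp_add_of_commute (Algebra.commutes _ _), ← NormedSpace.algebraMap_exp_comm,
      ← Real.exp_eq_exp_ℝ, ← Algebra.smul_def]
  have h1 := ((NormedSpace.exp_series_hasSum_exp' (𝕂 := ℝ) (c • S)).const_smul (Real.exp (-c))).mapL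
    (ContinuousLinearMap.apply ℝ H f)
  rw [e2]
  rw [ContinuousLinearMap.apply_apply] at h1
  convert h1 using 2 with k
  simp only [ContinuousLinearMap.apply_apply, smul_pow, ContinuousLinearMap.smul_apply, smul_smul]
  congr 1
  ring

theorem Resolvent.yos_invariant {C : Set H} (hC : IsClosed C) (hc : Convex ℝ C)
    (h : ∀ (l : ℝ) (f : H), 0 < l → f ∈ C → l • R.res l f ∈ C) (n : ℕ) {t : ℝ} (ht : 0 ≤ t)
    {f : H} (hf : f ∈ C) : R.yos n t f ∈ C := by
  by_contra hx
  obtain ⟨φ, u, h1, h2⟩ := geometric_hahn_banach_point_closed hc hC hx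
  have hN : (0 : ℝ) < (n : ℝ) + 1 := by positivity
  set S : H →L[ℝ] H := ((n : ℝ) + 1) • R.res ((n : ℝ) + 1) with hS
  have hk : ∀ k : ℕ, (S ^ k) f ∈ C := by
    intro k
    induction k with
    | zero => simpa using hf
    | succ k ih =>
      rw [pow_succ', ContinuousLinearMap.mul_apply]
      exact h _ _ hN ih
  set c : ℝ := t * ((n : ℝ) + 1) with hc'
  have hc0 : 0 ≤ c := by positivity
  have e : R.yos n t = NormedSpace.exp (c • (S - 1)) := by
    rw [Resolvent.yos, Resolvent.yA, smul_smul]
  have s1 := (d3b_hasSum S c f).mapL φ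
  have s2 : HasSum (fun k : ℕ => Real.exp (-c) * (c ^ k / (k.factorial : ℝ)) * u) u := by
    have := ((NormedSpace.expSeries_div_hasSum_exp c).mul_left (Real.exp (-c))).mul_right u
    rwa [← Real.exp_eq_exp_ℝ, ← Real.exp_add, neg_add_cancel, Real.exp_zero, one_mul] at this
  have := hasSum_le (fun k => ?_) s2 s1
  · rw [← e] at this
    linarith
  · rw [map_smul, smul_eq_mul]
    exact mul_le_mul_of_nonneg_left (h2 _ (hk k)).le (by positivity)

/-- Apply `yos_invariant` to the closed ball of radius `‖f‖`. -/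
theorem Resolvent.yos_norm (n : ℕ) {t : ℝ} (ht : 0 ≤ t) (f : H) : ‖R.yos n t f‖ ≤ ‖f‖ := by
  have := R.yos_invariant (C := closedBall 0 ‖f‖) isClosed_closedBall (convex_closedBall _ _)
    (fun l g hl hg => by
      rw [mem_closedBall_zero_iff] at hg ⊢
      exact (R.norm_le hl g).trans hg) n ht (f := f) (by simp)
  simpa using this

theorem Resolvent.yos_diff (n k : ℕ) {t : ℝ} (ht : 0 ≤ t) (u : H) :
    ‖R.yos n t u - R.yos k t u‖ ≤ t * ‖R.yA n u - R.yA k u‖ := by
  have h0 : Commute (R.yA n) (R.yA k) :=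
    (((d3a_comm R (Nat.cast_add_one_pos n) k).smul_left _).sub_left (Commute.one_left _)).smul_left _
  have hc : ∀ s v, R.yA n (R.yos k s v) = R.yos k s (R.yA n v) := fun s v =>
    DFunLike.congr_fun (h0.smul_right s).exp_right.eq v
  have hd : ∀ s, HasDerivAt (fun s => R.yos n (t - s) (R.yos k s u))
      (R.yos n (t - s) (R.yos k s (R.yA k u - R.yA n u))) s := fun s => by
    have h1 := ((hasDerivAt_exp_smul_const (𝕂 := ℝ) (R.yA n) (t - s)).scomp s
      ((hasDerivAt_id' s).const_sub t)).clm_apply (R.yos_deriv k s u)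
    refine h1.congr_deriv ?_
    rw [map_sub, map_sub, ← hc]
    simp only [Resolvent.yos, Function.comp_apply, neg_smul, one_smul,
      neg_apply, mul_apply_eq_comp]
    abel
  have h2 := norm_image_sub_le_of_norm_deriv_le_segment' (fun s _ => (hd s).hasDerivWithinAt)
    (fun s hs => (R.yos_norm n (sub_nonneg.2 hs.2.le) _).trans (R.yos_norm k hs.1 _)) t
    (right_mem_Icc.2 ht)
  simp only [sub_self, sub_zero, R.yos_zero] at h2
  rwa [norm_sub_rev, norm_sub_rev (R.yA n u), mul_comm]

/-- `yA n u = N • res N a` when `a` is the generator of `u`. -/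
theorem Resolvent.yA_tendsto {u a : H} (h : Φ.IsGen u a) :
    Tendsto (fun n => R.yA n u) atTop (𝓝 a) := by
  refine ((R.res_tendsto a).comp
    (tendsto_atTop_add_const_right _ 1 tendsto_natCast_atTop_atTop)).congr fun n => ?_
  have h1 := R.eq_of_gen (Nat.cast_add_one_pos n) h
  rw [map_sub, map_smul, sub_eq_iff_eq_add, ← sub_eq_iff_eq_add'] at h1
  simp only [Resolvent.yA, Function.comp_apply, smul_apply,
    sub_apply, one_apply_eq_self, h1]

end Crest.Agent.R242
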