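import Crest.Agent.R242.D3

/-! Block D4: the limit semigroup.  The set of `u` having a generator is dense
(`res_tendsto`); by `yos_diff`, `yA_tendsto`, `yos_norm` the sequence `yos n t f` is Cauchy,
uniformly for `t ∈ [0,T]`.  Define `T t f` as the limit for `t ≥ 0` (`continuousLinearMapOfTendsto` or
`LinearMap.mkContinuous`), `T t = 1` for `t < 0`.  The integral identity passes to the limit from
`yos n t u - u = ∫ s in 0..t, yos n s (yA n u)`. -/

set_option autoImplicit false
set_option linter.unusedSectionVars false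
set_option linter.unusedVariables false
open MeasureTheory Filter Set Metric
open scoped ENNReal NNReal Topology
open Crest.GeometryTopology.SyntheticRicci

noncomputable section
namespace Crest.Agent.R242

variable {H : Type*} [NormedAddCommGroup H] [InnerProductSpace ℝ H] [CompleteSpace H]
  {Φ : ClosedForm H}

/-- The strong limit of the Yosida semigroups. -/
structure PreSG (R : Resolvent Φ) where
  T : ℝ → H →L[ℝ] H
  lim : ∀ (t : ℝ) (f : H), 0 ≤ t → Tendsto (fun n => R.yos n t f) atTop (𝓝 (T t f))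
  cont : ∀ f, ContinuousOn (fun t => T t f) (Ici 0)
  integral : ∀ (u a : H) (t : ℝ), Φ.IsGen u a → 0 ≤ t → T t u - u = ∫ s in (0 : ℝ)..t, T s a

theorem d4a_unif (R : Resolvent Φ) (f : H) {T : ℝ} (hT : 0 ≤ T) :
    UniformCauchySeqOn (fun n t => R.yos n t f) atTop (Icc 0 T) := by
  refine Metric.uniformCauchySeqOn_iff.2 fun ε hε => ?_
  obtain ⟨l, h1, hl⟩ := (((tendsto_iff_norm_sub_tendsto_zero.1 (R.res_tendsto f)).eventually
    (eventually_lt_nhds (show 0 < ε / 3 by positivity))).and (eventually_gt_atTop 0)).exists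
  obtain ⟨N, hN⟩ := Metric.cauchySeq_iff.1 (R.yA_tendsto ((R.res_gen l f hl).smul l)).cauchySeq
    (ε / 3 / (T + 1)) (by positivity)
  refine ⟨N, fun m hm n hn t ht => ?_⟩
  set u := l • R.res l f
  have h2 := hN m hm n hn
  rw [dist_eq_norm, lt_div_iff₀ (by positivity)] at h2
  have h3 := R.yos_diff m n ht.1 u
  have h4 := R.yos_norm m ht.1 (u - f)
  have h5 := R.yos_norm n ht.1 (u - f)
  have e : R.yos m t f - R.yos n t f =
      R.yos m t u - R.yos n t u - R.yos m t (u - f) + R.yos n t (u - f) := by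
    simp only [map_sub]
    abel
  rw [dist_eq_norm, e]
  have h6 := norm_add_le (R.yos m t u - R.yos n t u - R.yos m t (u - f)) (R.yos n t (u - f))
  have h7 := norm_sub_le (R.yos m t u - R.yos n t u) (R.yos m t (u - f))
  nlinarith [ht.2, norm_nonneg (R.yA m u - R.yA n u)]

theorem exists_preSG (R : Resolvent Φ) : Nonempty (PreSG R) := by
  have hex : ∀ t : ℝ, ∃ T : H →L[ℝ] H, 0 ≤ t → ∀ f, Tendsto (fun n => R.yos n t f) atTop (𝓝 (T f)) := by
    intro t
    by_cases ht : 0 ≤ t
    · choose g hg using fun f => cauchySeq_tendsto_of_complete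
        ((d4a_unif R f ht).cauchySeq (x := t) ⟨ht, le_rfl⟩)
      exact ⟨continuousLinearMapOfTendsto (fun n => R.yos n t) (f := g) (tendsto_pi_nhds.2 hg),
        fun _ => hg⟩
    · exact ⟨1, fun h => absurd h ht⟩
  choose T hT using hex
  have hc : ∀ n f, Continuous fun s => R.yos n s f := fun n f =>
    continuous_iff_continuousAt.2 fun s => (R.yos_deriv n s f).continuousAt
  refine ⟨⟨T, fun t f ht => hT t ht f, fun f x hx => ?_, fun u a t h ht => ?_⟩⟩
  · have hx' : (0 : ℝ) ≤ x := hx
    have h1 := (d4a_unif R f (T := x + 1) (by linarith)).tendstoUniformlyOn_of_tendsto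
      (f := fun t => T t f) fun t ht => hT t ht.1 f
    have h2 := h1.continuousOn (Frequently.of_forall fun n => (hc n f).continuousOn)
    exact (h2 x ⟨hx, by linarith⟩).mono_of_mem_nhdsWithin
      (mem_nhdsWithin.2 ⟨Iio (x + 1), isOpen_Iio, by simp, fun y hy => ⟨hy.2, hy.1.le⟩⟩)
  · have ha := R.yA_tendsto h
    refine tendsto_nhds_unique ((hT t ht u).sub_const u) ?_
    have e : ∀ n, R.yos n t u - u = ∫ s in (0 : ℝ)..t, R.yos n s (R.yA n u) := fun n => by
      rw [intervalIntegral.integral_eq_sub_of_hasDerivAt (fun s _ => R.yos_deriv n s u)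
        ((hc n _).intervalIntegrable _ _), R.yos_zero]
    simp only [e]
    have hs : ∀ s ∈ uIoc 0 t, 0 ≤ s := fun s hs => by
      rw [uIoc_of_le ht] at hs
      exact hs.1.le
    refine intervalIntegral.tendsto_integral_filter_of_dominated_convergence (fun _ => ‖a‖ + 1)
      (Eventually.of_forall fun n => (hc n _).aestronglyMeasurable) ?_ intervalIntegrable_const
      (Eventually.of_forall fun s h1 => ?_)
    · filter_upwards [ha.norm.eventually (eventually_le_nhds (lt_add_one ‖a‖))] with n hn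
      exact Eventually.of_forall fun s h1 => (R.yos_norm n (hs s h1) _).trans hn
    · have h2 : Tendsto (fun n => R.yos n s (R.yA n u - a)) atTop (𝓝 0) :=
        squeeze_zero_norm (fun n => R.yos_norm n (hs s h1) _) (tendsto_iff_norm_sub_tendsto_zero.1 ha)
      simpa using (hT s (hs s h1) a).add h2

variable {R : Resolvent Φ} (S : PreSG R)

theorem PreSG.zero (f : H) : S.T 0 f = f := by
  have h := S.lim 0 f le_rfl
  simp only [Resolvent.yos_zero] at h
  exact tendsto_nhds_unique h tendsto_const_nhds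

theorem PreSG.add {s t : ℝ} (hs : 0 ≤ s) (ht : 0 ≤ t) (f : H) :
    S.T (s + t) f = S.T s (S.T t f) := by
  have h1 : Tendsto (fun n => R.yos n s (R.yos n t f - S.T t f)) atTop (𝓝 0) :=
    squeeze_zero_norm (fun n => R.yos_norm n hs _)
      (tendsto_iff_norm_sub_tendsto_zero.1 (S.lim t f ht))
  have h2 := h1.add (S.lim s (S.T t f) hs)
  simp only [map_sub, sub_add_cancel, zero_add, ← Resolvent.yos_add] at h2
  exact tendsto_nhds_unique (S.lim (s + t) f (add_nonneg hs ht)) h2

theorem PreSG.symm {t : ℝ} (ht : 0 ≤ t) (f g : H) :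
    inner ℝ (S.T t f) g = inner ℝ f (S.T t g) := by
  have h1 := (S.lim t f ht).inner (𝕜 := ℝ) (tendsto_const_nhds (x := g))
  simp only [Resolvent.yos_symm] at h1
  exact tendsto_nhds_unique h1 ((tendsto_const_nhds (x := f)).inner (𝕜 := ℝ) (S.lim t g ht))

theorem PreSG.norm_le {t : ℝ} (ht : 0 ≤ t) (f : H) : ‖S.T t f‖ ≤ ‖f‖ :=
  le_of_tendsto' (S.lim t f ht).norm fun n => R.yos_norm n ht f

theorem PreSG.res_comm {t l : ℝ} (ht : 0 ≤ t) (hl : 0 < l) (f : H) :
    S.T t (R.res l f) = R.res l (S.T t f) := by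
  have h1 := S.lim t (R.res l f) ht
  simp only [R.yos_res _ t hl] at h1
  exact tendsto_nhds_unique h1 (((R.res l).continuous.tendsto _).comp (S.lim t f ht))

/-- `u = res 1 (u - a)`, so `T t u = res 1 (T t u - T t a)`. -/
theorem PreSG.gen {u a : H} (h : Φ.IsGen u a) {t : ℝ} (ht : 0 ≤ t) :
    Φ.IsGen (S.T t u) (S.T t a) := by
  have h1 := R.res_gen 1 (S.T t ((1 : ℝ) • u - a)) one_pos
  rw [← S.res_comm ht one_pos, R.eq_of_gen one_pos h] at h1
  simpa using h1

theorem PreSG.deriv {u a : H} (h : Φ.IsGen u a) {t : ℝ} (ht : 0 < t) :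
    HasDerivAt (fun s => S.T s u) (S.T t a) t := by
  have hc := S.cont a
  have h1 : HasDerivAt (fun s => ∫ r in (0 : ℝ)..s, S.T r a) (S.T t a) t :=
    intervalIntegral.integral_hasDerivAt_right
      ((hc.mono (by rw [uIcc_of_le ht.le]; exact Icc_subset_Ici_self)).intervalIntegrable)
      ((hc.mono Ioi_subset_Ici_self).stronglyMeasurableAtFilter isOpen_Ioi t ht)
      (hc.continuousAt (Ici_mem_nhds ht))
  refine (h1.add_const u).congr_of_eventuallyEq ?_
  filter_upwards [Ici_mem_nhds ht] with s hs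
  rw [← S.integral u a s h hs, sub_add_cancel]

theorem PreSG.invariant {C : Set H} (hC : IsClosed C) (hc : Convex ℝ C)
    (h : ∀ (l : ℝ) (f : H), 0 < l → f ∈ C → l • R.res l f ∈ C) {t : ℝ} (ht : 0 ≤ t)
    {f : H} (hf : f ∈ C) : S.T t f ∈ C :=
  hC.mem_of_tendsto (S.lim t f ht) (Eventually.of_forall fun n => R.yos_invariant hC hc h n ht hf)

end Crest.Agent.R242
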