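import Crest.Agent.R242.D4

/-! Block D5: smoothing, Laplace transform, assembly of `SG`.
`smooth`: `y t = ‖T t u‖²` has `y' = -2 e`, `e t = E (T t u) (T t u) = -⟪a, T (2t) u⟫` has
`e' = -2‖T t a‖²`, and `‖T t a‖` is nonincreasing; so `2t·e t ≤ ‖u‖²` and
`t‖T t a‖² ≤ ∫_{t/2}^t 2‖T s a‖² ≤ e (t/2) ≤ ‖u‖²/t`.
`exists_lap`: `u k = N • res N f → f` with generators `a k`; `T t (a k)` is Cauchy uniformly on
`[t₀,∞)` by `smooth`; the limit is the generator of `T t f` (`T t (u k) = res 1 (T t (u k) - T t (a k))`)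
and the derivative (`hasDerivAt_of_tendstoUniformlyOn` or the integral identity).
`laplace`: `t ↦ -e^{-lt}⟪T t (res l f), g⟫` has derivative `e^{-lt}⟪T t f, g⟫` and tends to `0`. -/

set_option autoImplicit false
set_option linter.unusedSectionVars false
set_option linter.unusedVariables false
open MeasureTheory Filter Set Metric
open scoped ENNReal NNReal Topology
open Crest.GeometryTopology.SyntheticRicci

noncomputable section
namespace Crest.Agent.R242

variable {H : Type*} [NormedAddCommGroup H] [InnerProductSpace ℝ H] [CompleteSpace H]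
  {Φ : ClosedForm H}

variable {R : Resolvent Φ} (S : PreSG R)

theorem PreSG.smooth {u a : H} (h : Φ.IsGen u a) {t : ℝ} (ht : 0 < t) :
    t * ‖S.T t a‖ ≤ ‖u‖ := by
  have e : ∀ s, 0 ≤ s → ∀ x, inner ℝ a (S.T (2 * s) x) = inner ℝ (S.T s a) (S.T s x) :=
    fun s hs x => by rw [two_mul, S.add hs hs, S.symm hs]
  have hc : ContinuousOn (fun s => S.T s u) (Icc 0 t) := (S.cont u).mono Icc_subset_Ici_self
  have hc2 : ContinuousOn (fun s => S.T (2 * s) u) (Icc 0 t) :=
    (S.cont u).comp (by fun_prop) fun s hs => mul_nonneg zero_le_two hs.1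
  have key : AntitoneOn (fun s => inner ℝ (S.T s u) (S.T s u) - 2 * s * inner ℝ a (S.T (2 * s) u) +
      2 * s ^ 2 * ‖S.T t a‖ ^ 2) (Icc 0 t) := by
    refine antitoneOn_of_hasDerivWithinAt_nonpos (convex_Icc 0 t)
      (f' := fun s => 4 * s * (‖S.T t a‖ ^ 2 - ‖S.T s a‖ ^ 2))
      (((hc.inner hc).sub ((by fun_prop : ContinuousOn (fun s : ℝ => 2 * s) _).mul
        (continuousOn_const.inner hc2))).add (by fun_prop)) (fun s hs => ?_) fun s hs => ?_
    · rw [interior_Icc] at hs
      have d1 := S.deriv h hs.1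
      have d2 := (S.deriv h (mul_pos two_pos hs.1)).scomp s ((hasDerivAt_id' s).const_mul 2)
      refine ((((d1.inner ℝ d1).fun_sub (((hasDerivAt_id' s).const_mul 2).fun_mul
        ((hasDerivAt_const s a).inner ℝ d2))).fun_add (((hasDerivAt_pow 2 s).const_mul 2).mul_const
          (‖S.T t a‖ ^ 2))).congr_deriv ?_).hasDerivWithinAt
      simp only [Function.comp, real_inner_smul_right, e s hs.1.le, inner_zero_left,
        real_inner_self_eq_norm_sq, real_inner_comm (S.T s a) (S.T s u)]
      push_cast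
      ring
    · rw [interior_Icc] at hs
      have := S.norm_le (sub_pos.2 hs.2).le (S.T s a)
      rw [← S.add (sub_pos.2 hs.2).le hs.1.le, sub_add_cancel] at this
      exact mul_nonpos_of_nonneg_of_nonpos (by linarith [hs.1])
        (sub_nonpos.2 (pow_le_pow_left₀ (norm_nonneg _) this 2))
  have h1 := key (left_mem_Icc.2 ht.le) (right_mem_Icc.2 ht.le) ht.le
  have h2 := Φ.nonneg _ (S.gen h ht.le).1
  rw [(S.gen h ht.le).2 _ (S.gen h ht.le).1] at h2
  simp only [e t ht.le, S.zero, real_inner_self_eq_norm_sq] at h1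
  refine le_of_sq_le_sq ?_ (norm_nonneg _)
  nlinarith [mul_nonneg ht.le h2, sq_nonneg ‖S.T t u‖, sq_nonneg (t * ‖S.T t a‖)]

theorem PreSG.exists_lap (f : H) {t : ℝ} (ht : 0 < t) :
    ∃ b, Φ.IsGen (S.T t f) b ∧ HasDerivAt (fun s => S.T s f) b t := by
  classical
  set u : ℕ → H := fun k => ((k : ℝ) + 1) • R.res ((k : ℝ) + 1) f with hu
  set a : ℕ → H := fun k => ((k : ℝ) + 1) • (((k : ℝ) + 1) • R.res ((k : ℝ) + 1) f - f) with ha
  have hgen : ∀ k, Φ.IsGen (u k) (a k) := fun k =>
    (R.res_gen ((k : ℝ) + 1) f (by positivity)).smul ((k : ℝ) + 1)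
  have hlim : Tendsto u atTop (𝓝 f) :=
    (R.res_tendsto f).comp (tendsto_atTop_add_const_right _ 1 tendsto_natCast_atTop_atTop)
  have ht2 : 0 < t / 2 := by positivity
  have hUC : UniformCauchySeqOn (fun k s => S.T s (a k)) atTop (Ioi (t / 2)) := by
    rw [Metric.uniformCauchySeqOn_iff]
    intro ε hε
    obtain ⟨N, hN⟩ := Metric.cauchySeq_iff.1 hlim.cauchySeq (ε * (t / 2)) (by positivity)
    refine ⟨N, fun m hm n hn s hs => ?_⟩
    have hs' : t / 2 < s := hs
    have hs0 : 0 < s := ht2.trans hs'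
    have h1 := S.smooth ((hgen m).sub (hgen n)) hs0
    have h2 := hN m hm n hn
    rw [dist_eq_norm] at h2 ⊢
    rw [map_sub] at h1
    have h3 : s * ‖S.T s (a m) - S.T s (a n)‖ < s * ε := by
      have : ε * (t / 2) ≤ s * ε := by nlinarith
      linarith
    exact lt_of_mul_lt_mul_left h3 hs0.le
  have hex : ∀ s, s ∈ Ioi (t / 2) → ∃ b, Tendsto (fun k => S.T s (a k)) atTop (𝓝 b) :=
    fun s hs => cauchySeq_tendsto_of_complete (hUC.cauchySeq hs)
  choose! g hg using hex
  have hU : TendstoUniformlyOn (fun k s => S.T s (a k)) g atTop (Ioi (t / 2)) :=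
    hUC.tendstoUniformlyOn_of_tendsto hg
  have htmem : t ∈ Ioi (t / 2) := by
    show t / 2 < t
    linarith
  refine ⟨g t, ?_, ?_⟩
  · have h1 : ∀ k, R.res 1 (S.T t (u k) - S.T t (a k)) = S.T t (u k) := fun k => by
      have := R.eq_of_gen one_pos (S.gen (hgen k) ht.le)
      rwa [one_smul] at this
    have h2 : Tendsto (fun k => S.T t (u k)) atTop (𝓝 (S.T t f)) :=
      ((S.T t).continuous.tendsto f).comp hlim
    have h3 : Tendsto (fun k => R.res 1 (S.T t (u k) - S.T t (a k))) atTop
        (𝓝 (R.res 1 (S.T t f - g t))) :=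
      ((R.res 1).continuous.tendsto _).comp (h2.sub (hg t htmem))
    have h4 : R.res 1 (S.T t f - g t) = S.T t f :=
      tendsto_nhds_unique h3 (by simpa only [h1] using h2)
    have h5 := R.res_gen 1 (S.T t f - g t) one_pos
    rw [h4, one_smul, sub_sub_cancel] at h5
    exact h5
  · refine hasDerivAt_of_tendstoUniformlyOn (f := fun k s => S.T s (u k)) isOpen_Ioi hU
      (Eventually.of_forall fun k s hs => S.deriv (hgen k) (ht2.trans hs)) (fun s _ => ?_) htmem
    exact ((S.T s).continuous.tendsto f).comp hlim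

theorem PreSG.laplace {l : ℝ} (hl : 0 < l) (f g : H) :
    inner ℝ (R.res l f) g = ∫ t in Ioi (0 : ℝ), Real.exp (-l * t) * inner ℝ (S.T t f) g := by
  have hb : ∀ (x : H) (t : ℝ), 0 ≤ t →
      ‖Real.exp (-l * t) * inner ℝ (S.T t x) g‖ ≤ Real.exp (-l * t) * (‖x‖ * ‖g‖) := fun x t ht => by
    rw [norm_mul, Real.norm_of_nonneg (Real.exp_pos _).le]
    exact mul_le_mul_of_nonneg_left ((norm_inner_le_norm _ _).trans
      (mul_le_mul_of_nonneg_right (S.norm_le ht x) (norm_nonneg g))) (Real.exp_pos _).le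
  have hc : ∀ x : H, ContinuousOn (fun t => Real.exp (-l * t) * inner ℝ (S.T t x) g) (Ici 0) :=
    fun x => (by fun_prop : ContinuousOn (fun t : ℝ => Real.exp (-l * t)) _).mul
      ((S.cont x).inner continuousOn_const)
  refine Eq.trans ?_ (integral_Ioi_of_hasDerivAt_of_tendsto (m := 0)
    (f := fun t => -(Real.exp (-l * t) * inner ℝ (S.T t (R.res l f)) g)) ((hc _).neg 0 self_mem_Ici)
    (fun t ht => ?_) ?_ ?_).symm
  · simp [S.zero]
  · refine ((((hasDerivAt_id' t).const_mul (-l)).exp.fun_mul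
      ((S.deriv (R.res_gen l f hl) ht).inner ℝ (hasDerivAt_const t g))).fun_neg).congr_deriv ?_
    simp only [map_sub, map_smul, inner_sub_left, real_inner_smul_left, inner_zero_right]
    ring
  · exact Integrable.mono' ((exp_neg_integrableOn_Ioi 0 hl).mul_const (‖f‖ * ‖g‖))
      (((hc f).mono Ioi_subset_Ici_self).aestronglyMeasurable measurableSet_Ioi)
      ((ae_restrict_mem measurableSet_Ioi).mono fun t ht => hb f t (le_of_lt ht))
  · refine squeeze_zero_norm' ((eventually_ge_atTop 0).mono fun t ht =>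
      (norm_neg _).trans_le (hb _ t ht)) ?_
    simpa using (Real.tendsto_exp_atBot.comp
      (tendsto_id.const_mul_atTop_of_neg (neg_lt_zero.2 hl))).mul_const (‖R.res l f‖ * ‖g‖)

theorem exists_sg (Φ : ClosedForm H) : Nonempty (SG Φ) := by
  classical
  obtain ⟨R⟩ := exists_resolvent Φ
  obtain ⟨S⟩ := exists_preSG R
  refine ⟨{ R with
    heat := S.T
    lap := fun t f => if ht : 0 < t then Classical.choose (S.exists_lap f ht) else 0
    heat_zero := S.zero
    heat_add := fun s t f hs ht => S.add hs ht f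
    heat_symm := fun t f g ht => S.symm ht f g
    heat_norm := fun t f ht => S.norm_le ht f
    heat_cont := S.cont
    heat_gen := fun t f ht => ?_
    heat_deriv := fun t f ht => ?_
    laplace := fun l f g hl => S.laplace hl f g
    invariant := fun C hC hc h t f ht hf => S.invariant hC hc h ht hf }⟩
  · simp only [dif_pos ht]; exact (Classical.choose_spec (S.exists_lap f ht)).1
  · simp only [dif_pos ht]; exact (Classical.choose_spec (S.exists_lap f ht)).2

/-- The heat semigroup of a closed form (a fixed choice). -/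
def ClosedForm.sg (Φ : ClosedForm H) : SG Φ := Classical.choice (exists_sg Φ)

end Crest.Agent.R242
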