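import Crest.Agent.R242.D2

/-! Block D6: consequences of the fields of `SG` (do not use D3-D5).
`lap_add`: differentiate `r ↦ heat s (heat r f) = heat (s + r) f` (uniqueness of derivatives).
`lap_of_gen`: `⟪heat t u, g⟫ = ⟪u, heat t g⟫` has derivative `⟪u, lap t g⟫ = -E (heat t g) u = ⟪a, heat t g⟫`.
`gen_heat` at `t = 0` is trivial.  `E_heat_anti`: with `v = heat t f`, `b = lap t f`,
`s ↦ E (heat s v) (heat s v) = -⟪heat s b, heat s v⟫` has derivative `-2‖heat s b‖²`.
`E_heat_le`: `E(heat t u)² = E(heat 2t u, u)² ≤ E(heat 2t u) E(u) ≤ E(heat t u) E(u)`.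
`E_heat_le_norm`: `‖f‖² ≥ ∫_{t₀}^t 2 E(heat s f) ≥ 2(t - t₀) E(heat t f)`.
`E_cont`: at `t > 0`, `E (h s - h t) = -⟪lap s - lap t, h s - h t⟫`; at `t = 0`,
`E(h t u - u) ≤ 2E u - 2E(h (t/2) u)` and `lsc`.  `res_heat`: uniqueness `gen_unique_res`. -/

set_option autoImplicit false
set_option linter.unusedSectionVars false
set_option linter.unusedVariables false
open MeasureTheory Filter Set Metric
open scoped ENNReal NNReal Topology
open Crest.GeometryTopology.SyntheticRicci

noncomputable section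
namespace Crest.Agent.R242

variable {H : Type*} [NormedAddCommGroup H] [InnerProductSpace ℝ H] [CompleteSpace H]
  {Φ : ClosedForm H}

variable (S : SG Φ)

theorem SG.heat_mem {t : ℝ} (ht : 0 < t) (f : H) : S.heat t f ∈ Φ.dom := (S.heat_gen t f ht).1

theorem SG.lap_add {t s : ℝ} (ht : 0 < t) (hs : 0 ≤ s) (f : H) :
    S.lap (t + s) f = S.heat s (S.lap t f) := by
  have h1 : HasDerivAt (fun r => S.heat (r + s) f) (S.lap (t + s) f) t :=
    (S.heat_deriv (t + s) f (by linarith)).comp_add_const t s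
  have h2 : HasDerivAt (fun r => S.heat s (S.heat r f)) (S.heat s (S.lap t f)) t :=
    (S.heat s).hasFDerivAt.comp_hasDerivAt t (S.heat_deriv t f ht)
  refine h1.unique (h2.congr_of_eventuallyEq ?_)
  filter_upwards [Ici_mem_nhds ht] with r hr
  rw [add_comm, S.heat_add s r f hs hr]

theorem SG.lap_mem {t : ℝ} (ht : 0 < t) (f : H) : S.lap t f ∈ Φ.dom := by
  rw [← add_halves t, S.lap_add (half_pos ht) (half_pos ht).le]
  exact S.heat_mem (half_pos ht) _

theorem SG.lap_cont (f : H) : ContinuousOn (fun t => S.lap t f) (Ioi 0) := by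
  intro t ht
  have h2 : 0 < t / 2 := half_pos ht
  have h1 : ContinuousAt (fun r => S.heat r (S.lap (t / 2) f)) (t - t / 2) :=
    (S.heat_cont _).continuousAt (Ici_mem_nhds (by linarith))
  have h3 : ContinuousAt (fun r => S.heat (r - t / 2) (S.lap (t / 2) f)) t :=
    ContinuousAt.comp (f := fun r => r - t / 2) h1 (by fun_prop)
  refine (h3.congr ?_).continuousWithinAt
  filter_upwards [Ici_mem_nhds (half_lt_self ht)] with r hr
  rw [← S.lap_add h2 (sub_nonneg.2 hr), add_sub_cancel]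

theorem SG.lap_of_gen {u a : H} (h : Φ.IsGen u a) {t : ℝ} (ht : 0 < t) :
    S.lap t u = S.heat t a := by
  refine ext_inner_right ℝ fun g => ?_
  have h1 : HasDerivAt (fun r => inner ℝ (S.heat r u) g) (inner ℝ (S.lap t u) g) t := by
    simpa using (S.heat_deriv t u ht).inner ℝ (hasDerivAt_const t g)
  have h2 : HasDerivAt (fun r => inner ℝ u (S.heat r g)) (inner ℝ u (S.lap t g)) t := by
    simpa using (hasDerivAt_const t u).inner ℝ (S.heat_deriv t g ht)
  rw [S.heat_symm t a g ht.le, h.inner_comm (S.heat_gen t g ht)]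
  refine h1.unique (h2.congr_of_eventuallyEq ?_)
  filter_upwards [Ici_mem_nhds ht] with r hr
  exact S.heat_symm r u g hr

theorem SG.gen_heat {u a : H} (h : Φ.IsGen u a) {t : ℝ} (ht : 0 ≤ t) :
    Φ.IsGen (S.heat t u) (S.heat t a) := by
  rcases ht.eq_or_lt with rfl | ht
  · rwa [S.heat_zero, S.heat_zero]
  · rw [← S.lap_of_gen h ht]
    exact S.heat_gen t u ht

theorem SG.heat_mem' {u : H} (hu : u ∈ Φ.dom) {t : ℝ} (ht : 0 ≤ t) : S.heat t u ∈ Φ.dom := by
  rcases ht.eq_or_lt with rfl | ht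
  · rwa [S.heat_zero]
  · exact S.heat_mem ht u

theorem SG.d6b_E_form (f : H) {t s : ℝ} (ht : 0 < t) (hs : 0 ≤ s) :
    Φ.E (S.heat (t + s) f) (S.heat (t + s) f) =
      -inner ℝ (S.heat s (S.lap t f)) (S.heat s (S.heat t f)) := by
  have hts : 0 < t + s := by linarith
  rw [(S.heat_gen (t + s) f hts).2 _ (S.heat_mem hts f), S.lap_add ht hs, add_comm t s,
    S.heat_add s t f hs ht.le]

theorem SG.d6b_E_shift {u : H} (hu : u ∈ Φ.dom) {a b : ℝ} (ha : 0 < a) (hb : 0 ≤ b) :
    Φ.E (S.heat a u) (S.heat b u) = Φ.E (S.heat (a + b) u) u := by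
  have hab : 0 < a + b := by linarith
  rw [(S.heat_gen a u ha).2 _ (S.heat_mem' hu hb), (S.heat_gen (a + b) u hab).2 _ hu,
    S.lap_add ha hb, S.heat_symm b _ _ hb]

theorem SG.E_heat_anti (f : H) {t s : ℝ} (ht : 0 < t) (hs : 0 ≤ s) :
    Φ.E (S.heat (t + s) f) (S.heat (t + s) f) ≤ Φ.E (S.heat t f) (S.heat t f) := by
  set v := S.heat t f with hv
  set b := S.lap t f with hb
  have hgen : Φ.IsGen v b := S.heat_gen t f ht
  let φ : ℝ → ℝ := fun r => -inner ℝ (S.heat r b) (S.heat r v)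
  have hder : ∀ r, 0 < r → HasDerivAt φ (-(2 * ‖S.heat r b‖ ^ 2)) r := by
    intro r hr
    have h1 := (S.heat_deriv r b hr).inner ℝ (S.heat_deriv r v hr)
    have h2 : S.lap r v = S.heat r b := S.lap_of_gen hgen hr
    have h3 : inner ℝ (S.lap r b) (S.heat r v) = inner ℝ (S.heat r b) (S.lap r v) :=
      (S.heat_gen r b hr).inner_comm (S.heat_gen r v hr)
    rw [h3, h2, real_inner_self_eq_norm_sq] at h1
    exact h1.neg.congr_deriv (by ring)
  have hanti : AntitoneOn φ (Ici 0) := by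
    apply antitoneOn_of_deriv_nonpos (convex_Ici 0)
    · exact ((S.heat_cont b).inner (𝕜 := ℝ) (S.heat_cont v)).neg
    · intro r hr
      rw [interior_Ici] at hr
      exact (hder r hr).differentiableAt.differentiableWithinAt
    · intro r hr
      rw [interior_Ici] at hr
      rw [(hder r hr).deriv]
      have := sq_nonneg ‖S.heat r b‖
      linarith
  have h := hanti (mem_Ici.2 le_rfl) (mem_Ici.2 hs) hs
  have e1 := S.d6b_E_form f ht hs
  have e2 := S.d6b_E_form f ht (le_refl 0)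
  rw [add_zero] at e2
  rw [e1, e2]
  exact h

theorem SG.E_heat_le {u : H} (hu : u ∈ Φ.dom) {t : ℝ} (ht : 0 ≤ t) :
    Φ.E (S.heat t u) (S.heat t u) ≤ Φ.E u u := by
  rcases ht.eq_or_lt with rfl | ht
  · rw [S.heat_zero]
  have h1 := S.d6b_E_shift hu ht ht.le
  have h2 := Φ.abs_le (S.heat_mem (add_pos ht ht) u) hu
  have h3 := Real.sqrt_le_sqrt (S.E_heat_anti u ht ht.le)
  have hA := Φ.nonneg _ (S.heat_mem ht u)
  have hB := Φ.nonneg _ hu
  set A := Φ.E (S.heat t u) (S.heat t u)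
  set B := Φ.E u u
  have h4 : A ≤ Real.sqrt A * Real.sqrt B := by
    calc A = _ := h1
      _ ≤ _ := le_abs_self _
      _ ≤ _ := h2
      _ ≤ _ := mul_le_mul_of_nonneg_right h3 (Real.sqrt_nonneg _)
  have h5 := Real.sq_sqrt hA
  have h6 := Real.sq_sqrt hB
  nlinarith [sq_nonneg (Real.sqrt A - Real.sqrt B)]

theorem SG.E_heat_le_norm (f : H) {t : ℝ} (ht : 0 < t) :
    Φ.E (S.heat t f) (S.heat t f) ≤ ‖f‖ ^ 2 / (2 * t) := by
  set A := Φ.E (S.heat t f) (S.heat t f) with hA
  let G : ℝ → ℝ := fun r => inner ℝ (S.heat r f) (S.heat r f) + 2 * r * A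
  have hder : ∀ r, 0 < r →
      HasDerivAt G (-(2 * Φ.E (S.heat r f) (S.heat r f)) + 2 * A) r := by
    intro r hr
    have h1 := (S.heat_deriv r f hr).inner ℝ (S.heat_deriv r f hr)
    have h2 := (S.heat_gen r f hr).2 _ (S.heat_mem hr f)
    have h3 : HasDerivAt (fun r : ℝ => 2 * r * A) (2 * 1 * A) r :=
      ((hasDerivAt_id r).const_mul 2).mul_const A
    refine (h1.add h3).congr_deriv ?_
    rw [h2, real_inner_comm (S.lap r f) (S.heat r f)]
    ring
  have hanti : AntitoneOn G (Icc 0 t) := by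
    apply antitoneOn_of_deriv_nonpos (convex_Icc 0 t)
    · refine (((S.heat_cont f).inner (𝕜 := ℝ) (S.heat_cont f)).mono Icc_subset_Ici_self).add ?_
      fun_prop
    · intro r hr
      rw [interior_Icc] at hr
      exact (hder r hr.1).differentiableAt.differentiableWithinAt
    · intro r hr
      rw [interior_Icc] at hr
      rw [(hder r hr.1).deriv]
      have h := S.E_heat_anti f hr.1 (sub_nonneg.2 hr.2.le)
      rw [add_sub_cancel] at h
      linarith
  have h := hanti (left_mem_Icc.2 ht.le) (right_mem_Icc.2 ht.le) ht.le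
  simp only [G, S.heat_zero, real_inner_self_eq_norm_sq] at h
  rw [le_div_iff₀ (by linarith)]
  nlinarith [sq_nonneg ‖S.heat t f‖]

theorem SG.E_cont_pos (f : H) {t : ℝ} (ht : 0 < t) :
    Tendsto (fun s => Φ.E (S.heat s f - S.heat t f) (S.heat s f - S.heat t f)) (𝓝 t) (𝓝 0) := by
  have h1 : ContinuousAt (fun s => S.lap s f) t := (S.lap_cont f).continuousAt (Ioi_mem_nhds ht)
  have h2 : ContinuousAt (fun s => S.heat s f) t := (S.heat_deriv t f ht).continuousAt
  have h3 : Tendsto (fun s => -inner ℝ (S.lap s f - S.lap t f) (S.heat s f - S.heat t f)) (𝓝 t)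
      (𝓝 (-inner ℝ (S.lap t f - S.lap t f) (S.heat t f - S.heat t f))) :=
    ((h1.tendsto.sub tendsto_const_nhds).inner (h2.tendsto.sub tendsto_const_nhds)).neg
  rw [sub_self, inner_zero_left, neg_zero] at h3
  refine h3.congr' ?_
  filter_upwards [Ioi_mem_nhds ht] with s hs
  have hg := (S.heat_gen s f hs).sub (S.heat_gen t f ht)
  exact (hg.2 _ hg.1).symm

theorem SG.E_cont {u : H} (hu : u ∈ Φ.dom) {t : ℝ} (ht : 0 ≤ t) :
    Tendsto (fun s => Φ.E (S.heat s u - S.heat t u) (S.heat s u - S.heat t u)) (𝓝[Ici 0] t)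
      (𝓝 0) := by
  rcases ht.eq_or_lt with rfl | ht
  swap
  · exact (S.E_cont_pos u ht).mono_left nhdsWithin_le_nhds
  simp only [S.heat_zero]
  have hhalf : Tendsto (fun s : ℝ => s / 2) (𝓝[Ici 0] 0) (𝓝[Ici 0] 0) := by
    apply tendsto_nhdsWithin_of_tendsto_nhds_of_eventually_within
    · have : Tendsto (fun s : ℝ => s / 2) (𝓝 0) (𝓝 (0 / 2)) := tendsto_id.div_const 2
      rw [zero_div] at this
      exact this.mono_left nhdsWithin_le_nhds
    · filter_upwards [self_mem_nhdsWithin] with s hs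
      exact mem_Ici.2 (div_nonneg (mem_Ici.1 hs) zero_le_two)
  have hlim : Tendsto (fun s : ℝ => S.heat (s / 2) u) (𝓝[Ici 0] 0) (𝓝 u) := by
    have h := (S.heat_cont u 0 (mem_Ici.2 le_rfl)).tendsto
    rw [S.heat_zero] at h
    exact h.comp hhalf
  have hbound : ∀ s : ℝ, 0 ≤ s → Φ.E (S.heat s u - u) (S.heat s u - u) ≤
      2 * Φ.E u u - 2 * Φ.E (S.heat (s / 2) u) (S.heat (s / 2) u) := by
    intro s hs
    have hm := S.heat_mem' hu hs
    have hsub := Φ.dom.sub_mem hm hu
    have e : Φ.E (S.heat (s / 2) u) (S.heat (s / 2) u) = Φ.E (S.heat s u) u := by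
      rcases hs.eq_or_lt with rfl | hs
      · simp only [zero_div, S.heat_zero]
      · rw [S.d6b_E_shift hu (half_pos hs) (half_pos hs).le, add_halves]
    rw [Φ.sub_left hm hu hsub, Φ.sub_right hm hu hm, Φ.sub_right hm hu hu, Φ.symm u _ hu hm, e]
    have := S.E_heat_le hu hs
    linarith
  rw [Metric.tendsto_nhds]
  intro ε hε
  have hev : ∀ᶠ s in 𝓝[Ici (0 : ℝ)] 0,
      Φ.E u u - ε / 2 < Φ.E (S.heat (s / 2) u) (S.heat (s / 2) u) := by
    by_contra hc
    rw [Filter.not_eventually, Filter.frequently_iff_neBot] at hc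
    have h := S.toResolvent.lsc (l := 𝓝[Ici (0 : ℝ)] 0 ⊓ 𝓟 {s | ¬ Φ.E u u - ε / 2 <
        Φ.E (S.heat (s / 2) u) (S.heat (s / 2) u)}) (u := fun s : ℝ => S.heat (s / 2) u) (x := u)
      (b := Φ.E u u - ε / 2) ?_ (hlim.mono_left inf_le_left)
    · linarith [h.2]
    · filter_upwards [mem_inf_of_left self_mem_nhdsWithin, mem_inf_of_right (mem_principal_self _)]
        with s hs hs'
      exact ⟨S.heat_mem' hu (div_nonneg (mem_Ici.1 hs) zero_le_two), not_lt.1 hs'⟩
  filter_upwards [hev, self_mem_nhdsWithin] with s hs hs0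
  have h0 := Φ.nonneg _ (Φ.dom.sub_mem (S.heat_mem' hu hs0) hu)
  rw [Real.dist_eq, sub_zero, abs_of_nonneg h0]
  linarith [hbound s hs0]

theorem SG.res_heat {l t : ℝ} (hl : 0 < l) (ht : 0 ≤ t) (f : H) :
    S.heat t (S.res l f) = S.res l (S.heat t f) := by
  have h := S.gen_heat (S.res_gen l f hl) ht
  rw [map_sub, map_smul] at h
  exact ClosedForm.gen_unique_res hl h (S.res_gen l _ hl)

end Crest.Agent.R242
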