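import Crest.Agent.R242.D6

/-! Block D7: difference quotients.  If `IsGen u a` then
`heat t u - u = ∫ r in 0..t, heat r a` (FTC for a function continuous on `[0,t]`, differentiable
inside with continuous derivative), so `(heat t u - u)/t → a`.  If moreover `a ∈ dom`, put
`q = (heat t u - u)/t - a = avg_r (heat r a - a)`; for `IsGen v b`,
`|⟪q, b⟫| = |avg_r E (heat r a - a) v| ≤ sup_r √E(heat r a - a) · √E v`, so `mem_dom_of_dual` and
`E_cont` give `E q q → 0`.  Two-sided version at `t > 0`: the same with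
`heat (t+h) f - heat t f = ∫ r in t..t+h, lap r f`, `lap r f = heat (r - t/2) (lap (t/2) f)`. -/

set_option autoImplicit false
set_option linter.unusedSectionVars false
set_option linter.unusedVariables false
open MeasureTheory Filter Set Metric
open scoped ENNReal NNReal Topology
open Crest.GeometryTopology.SyntheticRicci

noncomputable section
namespace Crest.Agent.R242

variable {H : Type*} [NormedAddCommGroup H] [InnerProductSpace ℝ H] [CompleteSpace H]
  {Φ : ClosedForm H}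

variable (S : SG Φ)

theorem d7_mvt {w w' : ℝ → H} {α β : ℝ} (hab : α < β) (hc : ContinuousOn w (Icc α β))
    (hd : ∀ r ∈ Ioo α β, HasDerivAt w (w' r) r) (c g : H) :
    ∃ r ∈ Ioo α β, inner ℝ ((β - α)⁻¹ • (w β - w α) - c) g = inner ℝ (w' r - c) g := by
  obtain ⟨r, hr, e⟩ := exists_hasDerivAt_eq_slope (fun r => inner ℝ (w r) g)
    (fun r => inner ℝ (w' r) g) hab (hc.inner (𝕜 := ℝ) continuousOn_const) fun r hr => by
      simpa using (hd r hr).inner ℝ (hasDerivAt_const r g)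
  refine ⟨r, hr, ?_⟩
  rw [inner_sub_left, inner_sub_left, e, real_inner_smul_left, inner_sub_left, div_eq_inv_mul]

theorem d7_norm {w w' : ℝ → H} {α β ε : ℝ} (hab : α < β) (hc : ContinuousOn w (Icc α β))
    (hd : ∀ r ∈ Ioo α β, HasDerivAt w (w' r) r) {c : H} (hε : 0 ≤ ε)
    (h : ∀ r ∈ Ioo α β, ‖w' r - c‖ ≤ ε) : ‖(β - α)⁻¹ • (w β - w α) - c‖ ≤ ε := by
  obtain ⟨r, hr, e⟩ := d7_mvt hab hc hd c ((β - α)⁻¹ • (w β - w α) - c)
  rw [real_inner_self_eq_norm_sq] at e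
  have h1 := real_inner_le_norm (w' r - c) ((β - α)⁻¹ • (w β - w α) - c)
  have h2 := h r hr
  have h3 := norm_nonneg ((β - α)⁻¹ • (w β - w α) - c)
  by_contra h4
  nlinarith [not_le.1 h4, mul_le_mul_of_nonneg_right h2 h3]

include S in
theorem d7_E {w w' : ℝ → H} {α β ε : ℝ} (hab : α < β) (hc : ContinuousOn w (Icc α β))
    (hd : ∀ r ∈ Ioo α β, HasDerivAt w (w' r) r) {c : H} (hε : 0 ≤ ε)
    (h : ∀ r ∈ Ioo α β, w' r - c ∈ Φ.dom ∧ Φ.E (w' r - c) (w' r - c) ≤ ε) :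
    ‖Φ.E ((β - α)⁻¹ • (w β - w α) - c) ((β - α)⁻¹ • (w β - w α) - c)‖ ≤ ε := by
  have h1 := S.toResolvent.mem_dom_of_dual (x := (β - α)⁻¹ • (w β - w α) - c) (Real.sqrt_nonneg ε)
    fun v b hv => by
      obtain ⟨r, hr, e⟩ := d7_mvt hab hc hd c b
      obtain ⟨h1, h2⟩ := h r hr
      have h3 := Φ.abs_le hv.1 h1
      rw [hv.2 _ h1, abs_neg, real_inner_comm, mul_comm] at h3
      rw [e]
      exact h3.trans (mul_le_mul_of_nonneg_right (Real.sqrt_le_sqrt h2) (Real.sqrt_nonneg _))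
  rw [Real.norm_of_nonneg (Φ.nonneg _ h1.1)]
  simpa [Real.sq_sqrt hε] using h1.2

theorem d7_near {P : ℝ → Prop} (h : ∀ᶠ r in 𝓝[Ici 0] (0 : ℝ), P r) :
    ∀ᶠ t in 𝓝[>] (0 : ℝ), 0 < t ∧ ∀ r ∈ Ioo (0 : ℝ) t, P r := by
  obtain ⟨δ, hδ, h⟩ := (mem_nhdsGE_iff_exists_Ico_subset).1 h
  filter_upwards [Ioo_mem_nhdsGT (show (0 : ℝ) < δ from hδ)] with t ht
  exact ⟨ht.1, fun r hr => h ⟨hr.1.le, hr.2.trans ht.2⟩⟩

theorem SG.deriv_zero {u a : H} (h : Φ.IsGen u a) :
    Tendsto (fun t : ℝ => t⁻¹ • (S.heat t u - u)) (𝓝[>] 0) (𝓝 a) := by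
  have h0 : Tendsto (fun r => S.heat r a) (𝓝[Ici 0] 0) (𝓝 a) := by
    simpa only [ContinuousWithinAt, S.heat_zero] using S.heat_cont a 0 self_mem_Ici
  refine Metric.nhds_basis_closedBall.tendsto_right_iff.2 fun ε hε => ?_
  filter_upwards [d7_near (h0.eventually (Metric.closedBall_mem_nhds a hε))] with t ⟨ht, h1⟩
  have := d7_norm (w := fun r => S.heat r u) (w' := fun r => S.heat r a) (c := a) ht
    ((S.heat_cont u).mono Icc_subset_Ici_self)
    (fun r hr => S.lap_of_gen h hr.1 ▸ S.heat_deriv r u hr.1) hε.le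
    fun r hr => by simpa [dist_eq_norm] using h1 r hr
  simpa [dist_eq_norm, S.heat_zero] using this

theorem SG.deriv_zero_E {u a : H} (h : Φ.IsGen u a) (ha : a ∈ Φ.dom) :
    Tendsto (fun t : ℝ => Φ.E (t⁻¹ • (S.heat t u - u) - a) (t⁻¹ • (S.heat t u - u) - a)) (𝓝[>] 0)
      (𝓝 0) := by
  have h0 := S.E_cont ha le_rfl
  rw [S.heat_zero] at h0
  refine Metric.nhds_basis_closedBall.tendsto_right_iff.2 fun ε hε => ?_
  filter_upwards [d7_near (h0.eventually (eventually_le_nhds hε))] with t ⟨ht, h1⟩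
  have := d7_E S (w := fun r => S.heat r u) (w' := fun r => S.heat r a) (c := a) ht
    ((S.heat_cont u).mono Icc_subset_Ici_self)
    (fun r hr => S.lap_of_gen h hr.1 ▸ S.heat_deriv r u hr.1) hε.le
    fun r hr => ⟨Φ.dom.sub_mem (S.heat_mem hr.1 a) ha, h1 r hr⟩
  simpa only [mem_closedBall_zero_iff, S.heat_zero, sub_zero] using this

theorem SG.deriv_E (f : H) {t : ℝ} (ht : 0 < t) :
    Tendsto (fun h : ℝ => Φ.E (h⁻¹ • (S.heat (t + h) f - S.heat t f) - S.lap t f)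
      (h⁻¹ • (S.heat (t + h) f - S.heat t f) - S.lap t f)) (𝓝[≠] 0) (𝓝 0) := by
  have h2 := half_pos ht
  have e : ∀ r, t / 2 ≤ r → S.lap r f = S.heat (r - t / 2) (S.lap (t / 2) f) := fun r hr => by
    rw [← S.lap_add h2 (sub_nonneg.2 hr), add_sub_cancel]
  have h0 : Tendsto (fun r => Φ.E (S.lap r f - S.lap t f) (S.lap r f - S.lap t f)) (𝓝 t) (𝓝 0) := by
    have h1 : Tendsto (fun r : ℝ => r - t / 2) (𝓝 t) (𝓝 (t - t / 2)) :=
      tendsto_id.sub_const _
    refine ((S.E_cont_pos (S.lap (t / 2) f) (show 0 < t - t / 2 by linarith)).comp h1).congr' ?_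
    filter_upwards [Ici_mem_nhds (half_lt_self ht)] with r hr
    rw [e r hr, e t (half_le_self ht.le)]
    rfl
  refine Metric.nhds_basis_closedBall.tendsto_right_iff.2 fun ε hε => ?_
  obtain ⟨δ, hδ, h1⟩ := Metric.eventually_nhds_iff.1
    ((h0.eventually (eventually_le_nhds hε)).and (Ioi_mem_nhds ht))
  have key : ∀ α β, α < β → t - δ < α → β < t + δ →
      ‖Φ.E ((β - α)⁻¹ • (S.heat β f - S.heat α f) - S.lap t f)
        ((β - α)⁻¹ • (S.heat β f - S.heat α f) - S.lap t f)‖ ≤ ε := fun α β hab ha hb => by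
    have h3 : ∀ r ∈ Icc α β, dist r t < δ := fun r hr => by
      rw [Real.dist_eq, abs_lt]
      constructor <;> linarith [hr.1, hr.2]
    exact d7_E S (w := fun r => S.heat r f) (w' := fun r => S.lap r f) hab
      ((S.heat_cont f).mono fun r hr => le_of_lt (h1 (h3 r hr)).2)
      (fun r hr => S.heat_deriv r f (h1 (h3 r (Ioo_subset_Icc_self hr))).2) hε.le
      fun r hr => ⟨Φ.dom.sub_mem (S.lap_mem (h1 (h3 r (Ioo_subset_Icc_self hr))).2 f)
        (S.lap_mem ht f), (h1 (h3 r (Ioo_subset_Icc_self hr))).1⟩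
  filter_upwards [self_mem_nhdsWithin, mem_nhdsWithin_of_mem_nhds
    (Ioo_mem_nhds (neg_lt_zero.2 hδ) hδ)] with h hh hh'
  rw [mem_closedBall_zero_iff]
  rcases lt_or_gt_of_ne (show h ≠ 0 from hh) with h3 | h3
  · have := key (t + h) t (by linarith) (by linarith [hh'.1]) (by linarith)
    rwa [show t - (t + h) = -h by ring, inv_neg, neg_smul, ← smul_neg, neg_sub] at this
  · have := key t (t + h) (by linarith) (by linarith) (by linarith [hh'.2])
    rwa [add_sub_cancel_left] at this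

/-- Bounded energy along the flow forces membership (`lsc` along `𝓝[>] 0`). -/
theorem SG.mem_dom_of_heat {x : H} {b : ℝ}
    (h : ∀ t : ℝ, 0 < t → Φ.E (S.heat t x) (S.heat t x) ≤ b) : x ∈ Φ.dom ∧ Φ.E x x ≤ b := by
  have h0 : Tendsto (fun r => S.heat r x) (𝓝[Ici 0] 0) (𝓝 x) := by
    simpa only [ContinuousWithinAt, S.heat_zero] using S.heat_cont x 0 self_mem_Ici
  refine S.toResolvent.lsc (l := 𝓝[>] (0 : ℝ)) (u := fun r => S.heat r x) ?_
    (h0.mono_left (nhdsWithin_mono _ Ioi_subset_Ici_self))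
  filter_upwards [self_mem_nhdsWithin] with t ht
  exact ⟨S.heat_mem ht x, h t ht⟩

end Crest.Agent.R242
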