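import Crest.Prelude.Def_SyntheticRicci

/-!
# Row 242 (S0375): definitions.  FROZEN (ask helper29 before changing anything).
Blueprint of the whole proof: `Crest/Agent/R242/Blueprint.lean`.
-/

set_option autoImplicit false
open MeasureTheory Filter Set Metric
open scoped ENNReal NNReal Topology
open Crest.GeometryTopology.SyntheticRicci

noncomputable section
namespace Crest.Agent.R242

section Curves
variable {X : Type*} [MetricSpace X]

theorem continuous_ext_right (γ : UCurve X) : Continuous γ.ext :=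
  γ.toMap.continuous.comp continuous_projIcc

/-- The piece of `γ` between the times `a` and `b`, reparametrised affinely on `[0,1]`. -/
def subc (γ : UCurve X) (a b : ℝ) : UCurve X :=
  ⟨⟨fun t => γ.ext (a + (t : ℝ) * (b - a)), (continuous_ext_right γ).comp (by fun_prop)⟩⟩

/-- Distance between the endpoints. -/
def len (γ : UCurve X) : ℝ := dist (γ.ext 0) (γ.ext 1)

/-- Bounded Lipschitz functions. -/
def BddLip (V : X → ℝ) : Prop := (∃ B : ℝ, ∀ x, |V x| ≤ B) ∧ ∃ L : ℝ≥0, LipschitzWith L V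

/-- Lipschitz cutoff: `1` on `closedBall o r`, `0` off `ball o (r + d)`, `1/d`-Lipschitz. -/
def cut (o : X) (r d : ℝ) (x : X) : ℝ := max 0 (min 1 ((r + d - dist x o) / d))

/-- `φ` is the `c`-transform of `ψ` over `B` at every point and conversely (`c = d²/2`). -/
def IsPot (B : Set X) (φ ψ : X → ℝ) : Prop :=
  (∀ x, IsLeast ((fun y => dist x y ^ 2 / 2 - ψ y) '' B) (φ x)) ∧
  (∀ y, IsLeast ((fun x => dist x y ^ 2 / 2 - φ x) '' B) (ψ y))

end Curves

section Calc
variable {X : Type*} [MetricSpace X] [MeasurableSpace X]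

/-- Minimal weak upper gradient. -/
abbrev Dw (m : Measure X) (f : X → ℝ) : X → ℝ := minWeakGrad m f
/-- Carré du champ. -/
abbrev Gam (m : Measure X) (f g : X → ℝ) : X → ℝ := gradPairing m f g
/-- Local Sobolev class. -/
abbrev SL (m : Measure X) (f : X → ℝ) : Prop := IsSobolevLoc m f
/-- `W^{1,2}`. -/
abbrev SW (m : Measure X) (f : X → ℝ) : Prop := IsSobolev m f

/-- Law of `γ t`, real time. -/
def marg (P : Measure (UCurve X)) (t : ℝ) : Measure X := P.map fun γ => γ.ext t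

/-- Test plan with bounded tracks. -/
def Plan (m : Measure X) (P : Measure (UCurve X)) : Prop := IsTestPlan2 m P ∧ HasBoundedTracks P

/-- Compression constant. -/
def Cmpr (m : Measure X) (P : Measure (UCurve X)) (C : ℝ) : Prop :=
  ∀ t ∈ Icc (0 : ℝ) 1, marg P t ≤ ENNReal.ofReal C • m

/-- Almost every curve stays in the closed ball. -/
def Tracks (P : Measure (UCurve X)) (o : X) (R : ℝ) : Prop :=
  ∀ᵐ γ ∂P, ∀ t : ℝ, γ.ext t ∈ closedBall o R

/-- Squared `L²` norm. -/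
def nsq (μ : Measure X) (f : X → ℝ) : ℝ := ∫ x, f x ^ 2 ∂μ

/-- Energy with respect to `μ` (gradient with respect to `m`). -/
def en (m μ : Measure X) (f : X → ℝ) : ℝ := ∫ x, Gam m f f x ∂μ

/-- Essentially bounded. -/
def EB (m : Measure X) (f : X → ℝ) : Prop := ∃ M : ℝ, ∀ᵐ x ∂m, |f x| ≤ M

/-- Essentially bounded with essentially bounded gradient. -/
def BG (m : Measure X) (f : X → ℝ) : Prop := EB m f ∧ ∃ L : ℝ, ∀ᵐ x ∂m, Dw m f x ≤ L

/-- `a` is the Laplacian of `u` for the form `∫ Γ dμ` on `L²(μ)`; for `μ = m` this is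
`IsWeakLaplacian m u a` (by `Iff.rfl`). -/
def IsLap (m μ : Measure X) (u a : X → ℝ) : Prop :=
  SW m u ∧ MemLp a 2 m ∧
    ∀ v : X → ℝ, SW m v → ∫ x, Gam m u v x ∂μ = -∫ x, a x * v x ∂μ

/-- Test function (almost-everywhere version) with Laplacian `a`. -/
def Tst (m : Measure X) (g a : X → ℝ) : Prop := IsLap m m g a ∧ SW m a ∧ BG m g

/-- `u` has a `b`-Lipschitz representative. -/
def LipAE (m : Measure X) (u : X → ℝ) (b : ℝ) : Prop :=
  ∃ v : X → ℝ, LipschitzWith b.toNNReal v ∧ u =ᵐ[m] v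

/-- Standing assumption for the Dirichlet form `∫ Γ dμ` on `L²(μ)`. -/
class DS (m μ : Measure X) : Prop where
  hilb : IsInfHilbertian m
  cmp : ∃ C : ℝ≥0, μ ≤ (C : ℝ≥0∞) • m ∧ m ≤ (C : ℝ≥0∞) • μ

/-- `L²(μ)`-derivative at `s` along the filter `l` of increments. -/
def DerL2 (μ : Measure X) (u : ℝ → X → ℝ) (u' : X → ℝ) (s : ℝ) (l : Filter ℝ) : Prop :=
  Tendsto (fun h => nsq μ fun x => (u (s + h) x - u s x) / h - u' x) l (𝓝 0)

/-- Energy derivative at `s` along the filter `l` of increments. -/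
def DerW (m μ : Measure X) (u : ℝ → X → ℝ) (u' : X → ℝ) (s : ℝ) (l : Filter ℝ) : Prop :=
  Tendsto (fun h => en m μ fun x => (u (s + h) x - u s x) / h - u' x) l (𝓝 0)

/-- Measure with real density. -/
def wd (m : Measure X) (ρ : X → ℝ) : Measure X := m.withDensity fun x => ENNReal.ofReal (ρ x)

/-- The weighted measure `e^{-V} m`. -/
def wm (m : Measure X) (V : X → ℝ) : Measure X := wd m fun x => Real.exp (-V x)

/-- Real density of the absolutely continuous part. -/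
def dens (m μ : Measure X) (x : X) : ℝ := (μ.rnDeriv m x).toReal

/-- Boltzmann entropy (meaningful when the integrand is integrable). -/
def Ent (m μ : Measure X) : ℝ := ∫ x, dens m μ x * Real.log (dens m μ x) ∂m

/-- Optimal quadratic cost. -/
def wcost (μ ν : Measure X) : ℝ≥0∞ :=
  ⨅ (q : Measure (X × X)) (_ : IsCouplingOf q μ ν), quadCost q

/-- Squared Wasserstein distance. -/
def W2 (μ ν : Measure X) : ℝ := (wcost μ ν).toReal

/-- Probability measure concentrated on a closed ball. -/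
def PB (o : X) (R : ℝ) (μ : Measure X) : Prop :=
  IsProbabilityMeasure μ ∧ μ (closedBall o R)ᶜ = 0

/-- Probability measure concentrated on a closed ball, with density at most `M`. -/
def BM (m : Measure X) (M : ℝ) (o : X) (R : ℝ) (μ : Measure X) : Prop :=
  PB o R μ ∧ μ ≤ ENNReal.ofReal M • m

/-- Optimal geodesic plan between measures on a closed ball. -/
structure OptGeo (o : X) (R : ℝ) (μ₀ μ₁ : Measure X) (P : Measure (UCurve X)) : Prop where
  prob : IsProbabilityMeasure P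
  geo : ∀ᵐ γ ∂P, IsCSGeodesic γ ∧ γ.ext 0 ∈ closedBall o R ∧ γ.ext 1 ∈ closedBall o R
  m0 : marg P 0 = μ₀
  m1 : marg P 1 = μ₁
  cost : ∫ γ, len γ ^ 2 ∂P ≤ W2 μ₀ μ₁

/-- Good plan: optimal, bounded compression, entropy convex. -/
structure Good (m : Measure X) (κ C : ℝ) (o : X) (R : ℝ) (μ₀ μ₁ : Measure X)
    (P : Measure (UCurve X)) : Prop extends OptGeo o R μ₀ μ₁ P where
  cmpr : Cmpr m P C
  ent : ∀ t ∈ Icc (0 : ℝ) 1, Ent m (marg P t) ≤
    (1 - t) * Ent m μ₀ + t * Ent m μ₁ + κ / 2 * (t * (1 - t)) * W2 μ₀ μ₁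

/-- The compression factor of good plans. -/
def gfac (κ R : ℝ) : ℝ := Real.exp (κ * (2 * R + 1) ^ 2 / 6 + 2 * (2 * R + 1))

/-- Existence of good plans (Rajala). -/
def HasGood (m : Measure X) (κ : ℝ) : Prop :=
  ∀ (o : X) (R M : ℝ) (μ₀ μ₁ : Measure X), 0 ≤ R → 0 < M → BM m M o R μ₀ → BM m M o R μ₁ →
    ∃ P, Good m κ (M * gfac κ R) o R μ₀ μ₁ P

/-- The midpoint entropy inequality, the only consequence of `CD` used besides doubling. -/
def MidCD (m : Measure X) (κ : ℝ) : Prop :=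
  ∀ (o : X) (R M : ℝ) (μ₀ μ₁ : Measure X), 0 ≤ R → 0 < M → BM m M o R μ₀ → BM m M o R μ₁ →
    ∃ P, OptGeo o R μ₀ μ₁ P ∧ marg P (1 / 2) ≪ m ∧
      Integrable (fun x => dens m (marg P (1 / 2)) x * Real.log (dens m (marg P (1 / 2)) x)) m ∧
      Ent m (marg P (1 / 2)) ≤ (Ent m μ₀ + Ent m μ₁) / 2 + κ * W2 μ₀ μ₁ / 8

/-- Exponential volume growth. -/
def ExpGrowth (m : Measure X) : Prop :=
  ∀ o : X, ∃ C : ℝ, ∀ R : ℝ, 0 ≤ R → m (closedBall o R) ≤ ENNReal.ofReal (Real.exp (C * (R + 1)))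

/-- Sobolev-to-Lipschitz property. -/
def SobLip (m : Measure X) : Prop :=
  ∀ (u : X → ℝ) (b : ℝ), 0 ≤ b → SL m u → (∀ᵐ x ∂m, Dw m u x ≤ b) → LipAE m u b

/-- Dual form of the Lipschitz property. -/
def DualLip (m : Measure X) (u : X → ℝ) (b : ℝ) : Prop :=
  ∀ (x y : X) (r M : ℝ) (μ₀ μ₁ : Measure X), 0 < r → BM m M x r μ₀ → BM m M y r μ₁ →
    |∫ z, u z ∂μ₀ - ∫ z, u z ∂μ₁| ≤ b * (dist x y + 2 * r)

/-- Negative part of the curvature bound. -/
def kap (K : ℝ) : ℝ := max (-K) 0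

end Calc

section Abstract
variable {H : Type*} [NormedAddCommGroup H] [InnerProductSpace ℝ H]

/-- A densely defined closed nonnegative symmetric bilinear form on a real Hilbert space. -/
structure ClosedForm (H : Type*) [NormedAddCommGroup H] [InnerProductSpace ℝ H] where
  dom : Submodule ℝ H
  E : H → H → ℝ
  add_left : ∀ u v z, u ∈ dom → v ∈ dom → z ∈ dom → E (u + v) z = E u z + E v z
  smul_left : ∀ (c : ℝ) u z, u ∈ dom → z ∈ dom → E (c • u) z = c * E u z
  symm : ∀ u v, u ∈ dom → v ∈ dom → E u v = E v u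
  nonneg : ∀ u, u ∈ dom → 0 ≤ E u u
  dense : Dense (dom : Set H)
  closed : ∀ (u : ℕ → H) (x : H), (∀ n, u n ∈ dom) → Tendsto u atTop (𝓝 x) →
    (∀ ε : ℝ, 0 < ε → ∃ N, ∀ n, N ≤ n → ∀ k, N ≤ k → E (u n - u k) (u n - u k) ≤ ε) →
    x ∈ dom ∧ Tendsto (fun n => E (u n - x) (u n - x)) atTop (𝓝 0)

/-- `a` is the (non-positive) generator applied to `u`. -/
def ClosedForm.IsGen (Φ : ClosedForm H) (u a : H) : Prop :=
  u ∈ Φ.dom ∧ ∀ v, v ∈ Φ.dom → Φ.E u v = -inner ℝ a v

/-- The resolvent family of a closed form. -/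
structure Resolvent (Φ : ClosedForm H) where
  res : ℝ → H →L[ℝ] H
  res_gen : ∀ (l : ℝ) (f : H), 0 < l → Φ.IsGen (res l f) (l • res l f - f)

/-- The heat semigroup of a closed form. -/
structure SG (Φ : ClosedForm H) extends Resolvent Φ where
  heat : ℝ → H →L[ℝ] H
  lap : ℝ → H → H
  heat_zero : ∀ f, heat 0 f = f
  heat_add : ∀ (s t : ℝ) (f : H), 0 ≤ s → 0 ≤ t → heat (s + t) f = heat s (heat t f)
  heat_symm : ∀ (t : ℝ) (f g : H), 0 ≤ t → inner ℝ (heat t f) g = inner ℝ f (heat t g)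
  heat_norm : ∀ (t : ℝ) (f : H), 0 ≤ t → ‖heat t f‖ ≤ ‖f‖
  heat_cont : ∀ f, ContinuousOn (fun t => heat t f) (Ici 0)
  heat_gen : ∀ (t : ℝ) (f : H), 0 < t → Φ.IsGen (heat t f) (lap t f)
  heat_deriv : ∀ (t : ℝ) (f : H), 0 < t → HasDerivAt (fun s => heat s f) (lap t f) t
  laplace : ∀ (l : ℝ) (f g : H), 0 < l →
    inner ℝ (res l f) g = ∫ t in Ioi (0 : ℝ), Real.exp (-l * t) * inner ℝ (heat t f) g
  invariant : ∀ C : Set H, IsClosed C → Convex ℝ C →
    (∀ (l : ℝ) (f : H), 0 < l → f ∈ C → l • res l f ∈ C) →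
    ∀ (t : ℝ) (f : H), 0 ≤ t → f ∈ C → heat t f ∈ C

end Abstract

end Crest.Agent.R242
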