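import Crest.Agent.R242.C4
import Crest.Agent.R242.D5
import Crest.Agent.R242.D7

/-! Block E1: the Dirichlet form `∫ Γ dμ` on `L²(μ)`, its heat flow, Laplacian of the flow and
resolvent, as functions.  Transfer everything from `D2`, `D6`, `D7` and the fields of `SG` with
`MemLp.coeFn_toLp`, `Lp.toLp_coeFn`, `nsq_coe`, `inner_coe`, `gam_congr`, `DS.ae_eq`, `DS.memLp_iff`.
`dform_dense`: the orthogonal complement of the domain is trivial (`ae_eq_zero_on_open` for `μ` with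
`W = univ`, `sw_of_lip`; `Submodule.topologicalClosure_eq_top_iff`).  `dform_closed`: `sw_closed`. -/

set_option autoImplicit false
set_option linter.unusedSectionVars false
set_option linter.unusedVariables false
open MeasureTheory Filter Set Metric
open scoped ENNReal NNReal Topology
open Crest.GeometryTopology.SyntheticRicci

noncomputable section
namespace Crest.Agent.R242

variable {X : Type*} [MetricSpace X] [MeasurableSpace X] [BorelSpace X] [ProperSpace X]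
  {m : Measure X} [IsFiniteMeasureOnCompacts m] [m.IsOpenPosMeasure] {μ : Measure X} [DS m μ]

theorem e1a_ae (m μ : Measure X) [DS m μ] {p : X → Prop} (h : ∀ᵐ x ∂μ, p x) : ∀ᵐ x ∂m, p x :=
  DS.ae_eq m μ ▸ h

theorem e1a_add (m : Measure X) {μ : Measure X} [DS m μ] (u v : Lp ℝ 2 μ) :
    (fun x => u x + v x) =ᵐ[m] (u + v : Lp ℝ 2 μ) :=
  e1a_ae m μ (Lp.coeFn_add u v).symm

theorem e1a_sub (m : Measure X) {μ : Measure X} [DS m μ] (u v : Lp ℝ 2 μ) :
    (fun x => u x - v x) =ᵐ[m] (u - v : Lp ℝ 2 μ) :=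
  e1a_ae m μ (Lp.coeFn_sub u v).symm

theorem e1a_smul (m : Measure X) {μ : Measure X} [DS m μ] (c : ℝ) (u : Lp ℝ 2 μ) :
    (fun x => c * u x) =ᵐ[m] (c • u : Lp ℝ 2 μ) :=
  e1a_ae m μ (Lp.coeFn_smul c u).symm

/-- The domain of the form. -/
def ddom (m μ : Measure X) [IsFiniteMeasureOnCompacts m] [m.IsOpenPosMeasure] [DS m μ] :
    Submodule ℝ (Lp ℝ 2 μ) where
  carrier := {u | SW m u}
  add_mem' := by
    intro u v hu hv
    exact (SW.add hu hv).congr (e1a_add m u v)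
  zero_mem' := by
    exact (sw_zero (m := m)).congr (e1a_ae m μ (Lp.coeFn_zero ℝ 2 μ).symm)
  smul_mem' := by
    intro c u hu
    exact (SW.const_mul hu c).congr (e1a_smul m c u)

theorem dform_add_left (u v z : Lp ℝ 2 μ) (hu : SW m u) (hv : SW m v) (hz : SW m z) :
    ∫ x, Gam m (u + v : Lp ℝ 2 μ) z x ∂μ = ∫ x, Gam m u z x ∂μ + ∫ x, Gam m v z x ∂μ := by
  have hI : IsInfHilbertian m := DS.hilb μ
  rw [← gam_congr (e1a_add m u v) (EventuallyEq.refl _ (z : X → ℝ)),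
    ← integral_add ((DS.integrable_iff m μ).2 (SW.integrable_gam hI hu hz))
      ((DS.integrable_iff m μ).2 (SW.integrable_gam hI hv hz))]
  exact integral_congr_ae (c4c_ae m μ (gam_add_left hI hu.sl hv.sl hz.sl))

theorem dform_smul_left (c : ℝ) (u z : Lp ℝ 2 μ) (hu : SW m u) (hz : SW m z) :
    ∫ x, Gam m (c • u : Lp ℝ 2 μ) z x ∂μ = c * ∫ x, Gam m u z x ∂μ := by
  have hI : IsInfHilbertian m := DS.hilb μ
  rw [← gam_congr (e1a_smul m c u) (EventuallyEq.refl _ (z : X → ℝ)), ← integral_const_mul]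
  exact integral_congr_ae (c4c_ae m μ (gam_const_mul_left hI hu.sl hz.sl c))

theorem dform_symm (u v : Lp ℝ 2 μ) (hu : SW m u) (hv : SW m v) :
    ∫ x, Gam m u v x ∂μ = ∫ x, Gam m v u x ∂μ := by
  exact integral_congr_ae (c4c_ae m μ (SL.gam_comm hu.sl hv.sl))

theorem dform_dense : Dense (ddom m μ : Set (Lp ℝ 2 μ)) := by
  have := DS.finComp m μ
  have := DS.openPos m μ
  rw [Submodule.dense_iff_topologicalClosure_eq_top, Submodule.topologicalClosure_eq_top_iff,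
    Submodule.eq_bot_iff]
  intro g hg
  have h0 : ∀ᵐ x ∂μ, x ∈ (univ : Set X) → g x = 0 := by
    refine ae_eq_zero_on_open (m := μ) (fun o R => ?_) isOpen_univ fun v L hv hc _ => ?_
    · exact (IsL2OnBalls.integrableOn (l2b_of_memLp (Lp.memLp g)) o R).mono_set
        ball_subset_closedBall
    · have hs : SW m v := sw_of_lip hv hc
      have hvμ : MemLp v 2 μ := (DS.memLp_iff m μ).2 hs.memLp
      have hmem : hvμ.toLp v ∈ ddom m μ := hs.congr (e1a_ae m μ hvμ.coeFn_toLp.symm)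
      have h1 := (Submodule.mem_orthogonal' _ _).1 hg _ hmem
      rw [inner_coe] at h1
      rw [← h1]
      refine integral_congr_ae ?_
      filter_upwards [hvμ.coeFn_toLp] with x hx
      rw [hx]
  refine Lp.ext ?_
  filter_upwards [h0, Lp.coeFn_zero ℝ 2 μ] with x hx hz
  rw [hx trivial, hz]
  rfl

theorem dform_closed (u : ℕ → Lp ℝ 2 μ) (x : Lp ℝ 2 μ) (hu : ∀ n, SW m (u n))
    (hx : Tendsto u atTop (𝓝 x))
    (hc : ∀ ε : ℝ, 0 < ε → ∃ N, ∀ n, N ≤ n → ∀ k, N ≤ k →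
      en m μ (u n - u k : Lp ℝ 2 μ) ≤ ε) :
    SW m x ∧ Tendsto (fun n => en m μ (u n - x : Lp ℝ 2 μ)) atTop (𝓝 0) := by
  have h1 : Tendsto (fun n => nsq μ fun y => u n y - x y) atTop (𝓝 0) := by
    have h2 : Tendsto (fun n => ‖u n - x‖ ^ 2) atTop (𝓝 0) := by
      simpa using (tendsto_iff_norm_sub_tendsto_zero.1 hx).pow 2
    refine h2.congr fun n => ?_
    rw [← nsq_coe]
    exact nsq_congr (Lp.coeFn_sub (u n) x)
  obtain ⟨h3, h4⟩ := sw_closed (μ := μ) hu ((DS.memLp_iff m μ).1 (Lp.memLp x)) h1 fun ε hε => by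
    obtain ⟨N, hN⟩ := hc ε hε
    exact ⟨N, fun n hn k hk => (en_congr (e1a_sub m (u n) (u k))).le.trans (hN n hn k hk)⟩
  exact ⟨h3, h4.congr fun n => en_congr (e1a_sub m (u n) x)⟩

/-- The Dirichlet form. -/
def dform (m μ : Measure X) [IsFiniteMeasureOnCompacts m] [m.IsOpenPosMeasure] [DS m μ] :
    ClosedForm (Lp ℝ 2 μ) where
  dom := ddom m μ
  E := fun u v => ∫ x, Gam m u v x ∂μ
  add_left := dform_add_left
  smul_left := dform_smul_left
  symm := dform_symm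
  nonneg := fun _ hu => en_nonneg (SW.sl hu)
  dense := dform_dense
  closed := dform_closed

open Classical in
/-- The heat flow. -/
def heat (m μ : Measure X) [IsFiniteMeasureOnCompacts m] [m.IsOpenPosMeasure] [DS m μ] (t : ℝ)
    (f : X → ℝ) : X → ℝ :=
  if h : MemLp f 2 μ then ((dform m μ).sg.heat t (h.toLp f) : Lp ℝ 2 μ) else 0

open Classical in
/-- The Laplacian of the heat flow at a positive time. -/
def lap (m μ : Measure X) [IsFiniteMeasureOnCompacts m] [m.IsOpenPosMeasure] [DS m μ] (t : ℝ)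
    (f : X → ℝ) : X → ℝ :=
  if h : MemLp f 2 μ then ((dform m μ).sg.lap t (h.toLp f) : Lp ℝ 2 μ) else 0

open Classical in
/-- The resolvent. -/
def res (m μ : Measure X) [IsFiniteMeasureOnCompacts m] [m.IsOpenPosMeasure] [DS m μ] (l : ℝ)
    (f : X → ℝ) : X → ℝ :=
  if h : MemLp f 2 μ then ((dform m μ).sg.res l (h.toLp f) : Lp ℝ 2 μ) else 0

/-- The gradient estimate, in dual form. -/
def GE (m μ : Measure X) [IsFiniteMeasureOnCompacts m] [m.IsOpenPosMeasure] [DS m μ] (κ : ℝ) :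
    Prop :=
  ∀ (f h : X → ℝ) (M t : ℝ), SW m f → MemLp h 2 m → (∀ᵐ x ∂m, 0 ≤ h x ∧ h x ≤ M) → 0 < t →
    ∫ x, h x * Gam m (heat m μ t f) (heat m μ t f) x ∂μ ≤
      Real.exp (2 * κ * t) * ∫ x, heat m μ t h x * Gam m f f x ∂μ

/-- The weak Bochner inequality with variable lower bound `k`. -/
def WB (m μ : Measure X) (k : X → ℝ) : Prop :=
  ∀ (g a h c : X → ℝ) (M : ℝ), IsLap m μ g a → SW m a → BG m g → IsLap m μ h c →
    (∀ᵐ x ∂m, 0 ≤ h x ∧ h x ≤ M) →
    ∫ x, k x * h x * Gam m g g x ∂μ ≤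
      1 / 2 * ∫ x, c x * Gam m g g x ∂μ - ∫ x, h x * Gam m g a x ∂μ

theorem e1b_ae {f g : X → ℝ} (h : f =ᵐ[μ] g) : f =ᵐ[m] g := (DS.ac₂ m μ).ae_eq h

theorem e1b_coe {u a : Lp ℝ 2 μ} : IsLap m μ u a ↔ (dform m μ).IsGen u a := by
  constructor
  · rintro ⟨h1, -, h3⟩
    refine ⟨h1, fun v hv => ?_⟩
    rw [inner_coe]
    exact h3 v hv
  · rintro ⟨h1, h3⟩
    refine ⟨h1, (DS.memLp_iff m μ).1 (Lp.memLp a), fun v hv => ?_⟩
    have hv2 : MemLp v 2 μ := (DS.memLp_iff m μ).2 hv.memLp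
    have he : (hv2.toLp v : X → ℝ) =ᵐ[m] v := e1b_ae hv2.coeFn_toLp
    have h := h3 (hv2.toLp v) (hv.congr he.symm)
    rw [inner_coe] at h
    rw [← gam_congr (EventuallyEq.refl _ _) he]
    refine h.trans (congrArg _ (integral_congr_ae ?_))
    filter_upwards [hv2.coeFn_toLp] with x hx
    rw [hx]

theorem e1b_congr {u u' a a' : X → ℝ} (hu : u =ᵐ[μ] u') (ha : a =ᵐ[μ] a') (h : IsLap m μ u a) :
    IsLap m μ u' a' := by
  refine ⟨h.1.congr (e1b_ae hu), h.2.1.ae_eq (e1b_ae ha), fun v hv => ?_⟩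
  rw [← gam_congr (e1b_ae hu) (EventuallyEq.refl _ v), h.2.2 v hv]
  refine congrArg _ (integral_congr_ae ?_)
  filter_upwards [ha] with x hx
  rw [hx]

theorem isLap_iff_gen {u a : X → ℝ} (hu : MemLp u 2 μ) (ha : MemLp a 2 μ) :
    IsLap m μ u a ↔ (dform m μ).IsGen (hu.toLp u) (ha.toLp a) := by
  rw [← e1b_coe]
  exact ⟨e1b_congr hu.coeFn_toLp.symm ha.coeFn_toLp.symm, e1b_congr hu.coeFn_toLp ha.coeFn_toLp⟩

theorem isLap_coe {u a : Lp ℝ 2 μ} : IsLap m μ u a ↔ (dform m μ).IsGen u a := by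
  exact e1b_coe

theorem heat_eq {f : X → ℝ} (h : MemLp f 2 μ) (t : ℝ) :
    heat m μ t f = ((dform m μ).sg.heat t (h.toLp f) : Lp ℝ 2 μ) := dif_pos h

theorem lap_eq {f : X → ℝ} (h : MemLp f 2 μ) (t : ℝ) :
    lap m μ t f = ((dform m μ).sg.lap t (h.toLp f) : Lp ℝ 2 μ) := dif_pos h

theorem res_eq {f : X → ℝ} (h : MemLp f 2 μ) (l : ℝ) :
    res m μ l f = ((dform m μ).sg.res l (h.toLp f) : Lp ℝ 2 μ) := dif_pos h

open Classical in
theorem e1b_memLp (T : Lp ℝ 2 μ → Lp ℝ 2 μ) (f : X → ℝ) :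
    MemLp (if h : MemLp f 2 μ then (T (h.toLp f) : X → ℝ) else 0) 2 m := by
  split_ifs
  · exact (DS.memLp_iff m μ).1 (Lp.memLp _)
  · exact MemLp.zero

open Classical in
theorem e1b_meas (T : Lp ℝ 2 μ → Lp ℝ 2 μ) (f : X → ℝ) :
    Measurable (if h : MemLp f 2 μ then (T (h.toLp f) : X → ℝ) else 0) := by
  split_ifs
  · exact (Lp.stronglyMeasurable _).measurable
  · exact measurable_zero

open Classical in
theorem e1b_eq (T : Lp ℝ 2 μ → Lp ℝ 2 μ) {f g : X → ℝ} (h : f =ᵐ[μ] g) :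
    (if h : MemLp f 2 μ then (T (h.toLp f) : X → ℝ) else 0) =
      if h : MemLp g 2 μ then (T (h.toLp g) : X → ℝ) else 0 := by
  by_cases hf : MemLp f 2 μ
  · rw [dif_pos hf, dif_pos (hf.ae_eq h), MemLp.toLp_congr hf (hf.ae_eq h) h]
  · rw [dif_neg hf, dif_neg fun hg => hf (hg.ae_eq h.symm)]

theorem heat_memLp (t : ℝ) (f : X → ℝ) : MemLp (heat m μ t f) 2 m := by
  exact e1b_memLp ((dform m μ).sg.heat t) f

theorem lap_memLp (t : ℝ) (f : X → ℝ) : MemLp (lap m μ t f) 2 m := by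
  exact e1b_memLp ((dform m μ).sg.lap t) f

theorem res_memLp (l : ℝ) (f : X → ℝ) : MemLp (res m μ l f) 2 m := by
  exact e1b_memLp ((dform m μ).sg.res l) f

theorem heat_meas (t : ℝ) (f : X → ℝ) : Measurable (heat m μ t f) := by
  exact e1b_meas ((dform m μ).sg.heat t) f

theorem lap_meas (t : ℝ) (f : X → ℝ) : Measurable (lap m μ t f) := by
  exact e1b_meas ((dform m μ).sg.lap t) f

theorem res_meas (l : ℝ) (f : X → ℝ) : Measurable (res m μ l f) := by
  exact e1b_meas ((dform m μ).sg.res l) f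

theorem heat_congr {f g : X → ℝ} (h : f =ᵐ[m] g) (t : ℝ) : heat m μ t f = heat m μ t g := by
  exact e1b_eq ((dform m μ).sg.heat t) ((DS.ac₁ m μ).ae_eq h)

theorem lap_congr {f g : X → ℝ} (h : f =ᵐ[m] g) (t : ℝ) : lap m μ t f = lap m μ t g := by
  exact e1b_eq ((dform m μ).sg.lap t) ((DS.ac₁ m μ).ae_eq h)

theorem res_congr {f g : X → ℝ} (h : f =ᵐ[m] g) (l : ℝ) : res m μ l f = res m μ l g := by
  exact e1b_eq ((dform m μ).sg.res l) ((DS.ac₁ m μ).ae_eq h)

end Crest.Agent.R242
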