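import Crest.Agent.R242.E1

/-! Block E2: the heat flow as a flow of functions (transfer from `SG`, `D6`, `D7`). -/

set_option autoImplicit false
set_option linter.unusedSectionVars false
set_option linter.unusedVariables false
open MeasureTheory Filter Set Metric
open scoped ENNReal NNReal Topology
open Crest.GeometryTopology.SyntheticRicci

noncomputable section
namespace Crest.Agent.R242

variable {X : Type*} [MetricSpace X] [MeasurableSpace X] [BorelSpace X] [ProperSpace X]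
  {m : Measure X} [IsFiniteMeasureOnCompacts m] [m.IsOpenPosMeasure] {μ : Measure X} [DS m μ]

theorem heat_add_fun {f g : X → ℝ} (hf : MemLp f 2 m) (hg : MemLp g 2 m) (t : ℝ) :
    heat m μ t (fun x => f x + g x) =ᵐ[m] fun x => heat m μ t f x + heat m μ t g x := by
  have h1 := (DS.memLp_iff m μ).2 hf
  have h2 := (DS.memLp_iff m μ).2 hg
  have h3 : MemLp (fun x => f x + g x) 2 μ := h1.add h2
  have e : h3.toLp _ = h1.toLp f + h2.toLp g := MemLp.toLp_add h1 h2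
  rw [heat_eq h3, heat_eq h1, heat_eq h2, e, map_add, ← DS.ae_eq m μ]
  exact Lp.coeFn_add _ _

theorem heat_sub_fun {f g : X → ℝ} (hf : MemLp f 2 m) (hg : MemLp g 2 m) (t : ℝ) :
    heat m μ t (fun x => f x - g x) =ᵐ[m] fun x => heat m μ t f x - heat m μ t g x := by
  have h1 := (DS.memLp_iff m μ).2 hf
  have h2 := (DS.memLp_iff m μ).2 hg
  have h3 : MemLp (fun x => f x - g x) 2 μ := h1.sub h2
  have e : h3.toLp _ = h1.toLp f - h2.toLp g := MemLp.toLp_sub h1 h2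
  rw [heat_eq h3, heat_eq h1, heat_eq h2, e, map_sub, ← DS.ae_eq m μ]
  exact Lp.coeFn_sub _ _

theorem heat_const_mul {f : X → ℝ} (hf : MemLp f 2 m) (c t : ℝ) :
    heat m μ t (fun x => c * f x) =ᵐ[m] fun x => c * heat m μ t f x := by
  have h1 := (DS.memLp_iff m μ).2 hf
  have h3 : MemLp (fun x => c * f x) 2 μ := h1.const_mul c
  have e : h3.toLp _ = c • h1.toLp f := MemLp.toLp_const_smul c h1
  rw [heat_eq h3, heat_eq h1, e, map_smul, ← DS.ae_eq m μ]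
  exact Lp.coeFn_smul _ _

theorem heat_zero {f : X → ℝ} (hf : MemLp f 2 m) : heat m μ 0 f =ᵐ[m] f := by
  have h1 := (DS.memLp_iff m μ).2 hf
  rw [heat_eq h1, (dform m μ).sg.heat_zero, ← DS.ae_eq m μ]
  exact h1.coeFn_toLp

theorem heat_heat {f : X → ℝ} (hf : MemLp f 2 m) {s t : ℝ} (hs : 0 ≤ s) (ht : 0 ≤ t) :
    heat m μ (s + t) f = heat m μ s (heat m μ t f) := by
  have h1 := (DS.memLp_iff m μ).2 hf
  rw [heat_eq h1, heat_eq h1, heat_eq (Lp.memLp _), Lp.toLp_coeFn,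
    (dform m μ).sg.heat_add s t _ hs ht]

theorem heat_symm {f g : X → ℝ} (hf : MemLp f 2 m) (hg : MemLp g 2 m) {t : ℝ} (ht : 0 ≤ t) :
    ∫ x, heat m μ t f x * g x ∂μ = ∫ x, f x * heat m μ t g x ∂μ := by
  have h1 := (DS.memLp_iff m μ).2 hf
  have h2 := (DS.memLp_iff m μ).2 hg
  have h := (dform m μ).sg.heat_symm t (h1.toLp f) (h2.toLp g) ht
  rw [inner_coe, inner_coe] at h
  rw [heat_eq h1, heat_eq h2]
  refine (integral_congr_ae ?_).trans (h.trans (integral_congr_ae ?_))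
  · filter_upwards [h2.coeFn_toLp] with x hx
    rw [hx]
  · filter_upwards [h1.coeFn_toLp] with x hx
    rw [hx]

theorem nsq_heat_le {f : X → ℝ} (hf : MemLp f 2 m) {t : ℝ} (ht : 0 ≤ t) :
    nsq μ (heat m μ t f) ≤ nsq μ f := by
  have h1 := (DS.memLp_iff m μ).2 hf
  rw [heat_eq h1, nsq_coe, nsq_eq_norm h1]
  exact pow_le_pow_left₀ (norm_nonneg _) ((dform m μ).sg.heat_norm t _ ht) 2

theorem heat_cont {f : X → ℝ} (hf : MemLp f 2 m) {t : ℝ} (ht : 0 ≤ t) :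
    Tendsto (fun s => nsq μ fun x => heat m μ s f x - heat m μ t f x) (𝓝[Ici 0] t) (𝓝 0) := by
  have h := (DS.memLp_iff m μ).2 hf
  have h1 := ((dform m μ).sg.heat_cont (h.toLp f) t ht).tendsto
  have h2 := (tendsto_iff_norm_sub_tendsto_zero.1 h1).pow 2
  rw [zero_pow two_ne_zero] at h2
  refine h2.congr fun s => ?_
  rw [heat_eq h, heat_eq h, ← nsq_coe]
  exact nsq_congr (Lp.coeFn_sub _ _)

theorem heat_tendsto_zero {f : X → ℝ} (hf : MemLp f 2 m) :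
    Tendsto (fun s => nsq μ fun x => heat m μ s f x - f x) (𝓝[>] 0) (𝓝 0) := by
  refine ((heat_cont (μ := μ) hf le_rfl).mono_left
    (nhdsWithin_mono _ Ioi_subset_Ici_self)).congr fun s => nsq_congr ?_
  rw [DS.ae_eq m μ]
  filter_upwards [heat_zero (μ := μ) hf] with x hx
  rw [hx]

theorem isLap_heat {f : X → ℝ} (hf : MemLp f 2 m) {t : ℝ} (ht : 0 < t) :
    IsLap m μ (heat m μ t f) (lap m μ t f) := by
  have h := (DS.memLp_iff m μ).2 hf
  rw [heat_eq h, lap_eq h]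
  exact isLap_coe.2 ((dform m μ).sg.heat_gen t _ ht)

theorem heat_sw {f : X → ℝ} (hf : MemLp f 2 m) {t : ℝ} (ht : 0 < t) : SW m (heat m μ t f) :=
  (isLap_heat hf ht).1

theorem lap_sw {f : X → ℝ} (hf : MemLp f 2 m) {t : ℝ} (ht : 0 < t) : SW m (lap m μ t f) := by
  rw [lap_eq ((DS.memLp_iff m μ).2 hf)]
  exact (dform m μ).sg.lap_mem ht _

theorem e2b_heat_coe (t : ℝ) (u : Lp ℝ 2 μ) :
    heat m μ t u = ((dform m μ).sg.heat t u : Lp ℝ 2 μ) := by
  rw [heat_eq (Lp.memLp u), Lp.toLp_coeFn]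

theorem lap_add {f : X → ℝ} (hf : MemLp f 2 m) {t s : ℝ} (ht : 0 < t) (hs : 0 ≤ s) :
    lap m μ (t + s) f = heat m μ s (lap m μ t f) := by
  have h := (DS.memLp_iff m μ).2 hf
  rw [lap_eq h, lap_eq h, e2b_heat_coe, (dform m μ).sg.lap_add ht hs]

theorem lap_cont {f : X → ℝ} (hf : MemLp f 2 m) {t : ℝ} (ht : 0 < t) :
    Tendsto (fun s => nsq μ fun x => lap m μ s f x - lap m μ t f x) (𝓝 t) (𝓝 0) := by
  have h := (DS.memLp_iff m μ).2 hf
  have h1 := ((dform m μ).sg.lap_cont (h.toLp f)).continuousAt (Ioi_mem_nhds ht)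
  have h2 := (tendsto_iff_norm_sub_tendsto_zero.1 h1).pow 2
  rw [zero_pow two_ne_zero] at h2
  refine h2.congr fun s => ?_
  rw [lap_eq h, lap_eq h, ← nsq_coe]
  exact nsq_congr (Lp.coeFn_sub _ _)

theorem IsLap.lap_eq {u a : X → ℝ} (h : IsLap m μ u a) {t : ℝ} (ht : 0 < t) :
    lap m μ t u = heat m μ t a := by
  have hu := (DS.memLp_iff m μ).2 h.1.memLp
  have ha := (DS.memLp_iff m μ).2 h.2.1
  rw [R242.lap_eq hu, heat_eq ha, (dform m μ).sg.lap_of_gen ((isLap_iff_gen hu ha).1 h) ht]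

theorem IsLap.heat {u a : X → ℝ} (h : IsLap m μ u a) {t : ℝ} (ht : 0 ≤ t) :
    IsLap m μ (heat m μ t u) (heat m μ t a) := by
  have hu := (DS.memLp_iff m μ).2 h.1.memLp
  have ha := (DS.memLp_iff m μ).2 h.2.1
  rw [heat_eq hu, heat_eq ha]
  exact isLap_coe.2 ((dform m μ).sg.gen_heat ((isLap_iff_gen hu ha).1 h) ht)

theorem SW.heat {u : X → ℝ} (hu : SW m u) {t : ℝ} (ht : 0 ≤ t) : SW m (heat m μ t u) := by
  have h := (DS.memLp_iff m μ).2 hu.memLp
  rw [heat_eq h]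
  exact (dform m μ).sg.heat_mem' (u := h.toLp u)
    (hu.congr ((DS.ac₂ m μ).ae_le h.coeFn_toLp.symm)) ht

theorem e2c_ae (m : Measure X) [DS m μ] {f g : X → ℝ} (h : f =ᵐ[μ] g) : f =ᵐ[m] g :=
  (DS.ac₂ m μ).ae_le h

theorem e2c_sub (A B : Lp ℝ 2 μ) {b : X → ℝ} (hb : B =ᵐ[μ] b) :
    (fun x => A x - b x) =ᵐ[μ] (A - B : Lp ℝ 2 μ) := by
  filter_upwards [Lp.coeFn_sub A B, hb] with x h1 h2
  rw [h1, Pi.sub_apply, h2]

theorem e2c_quot (A B C : Lp ℝ 2 μ) {c : X → ℝ} (hc : C =ᵐ[μ] c) (h : ℝ) :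
    (fun x => (A x - B x) / h - c x) =ᵐ[μ] (h⁻¹ • (A - B) - C : Lp ℝ 2 μ) := by
  filter_upwards [Lp.coeFn_sub (h⁻¹ • (A - B)) C, Lp.coeFn_smul h⁻¹ (A - B), Lp.coeFn_sub A B, hc]
    with x h1 h2 h3 h4
  rw [h1, Pi.sub_apply, h2, Pi.smul_apply, h3, Pi.sub_apply, h4, smul_eq_mul, div_eq_inv_mul]

theorem e2c_nsq {l : Filter ℝ} {F : ℝ → Lp ℝ 2 μ} {C : Lp ℝ 2 μ} {G : ℝ → X → ℝ}
    (h : Tendsto F l (𝓝 C)) (hG : ∀ k, G k =ᵐ[μ] (F k - C : Lp ℝ 2 μ)) :
    Tendsto (fun k => nsq μ (G k)) l (𝓝 0) := by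
  have h1 := (tendsto_iff_norm_sub_tendsto_zero.1 h).pow 2
  rw [zero_pow two_ne_zero] at h1
  exact h1.congr fun k => by rw [nsq_congr (hG k), nsq_coe]

theorem e2c_en {A : Lp ℝ 2 μ} {a : X → ℝ} (h : a =ᵐ[μ] A) : (dform m μ).E A A = en m μ a :=
  (en_congr (e2c_ae m h)).symm

theorem e2c_dom {u : X → ℝ} (hu : SW m u) (h : MemLp u 2 μ) : h.toLp u ∈ (dform m μ).dom :=
  hu.congr (e2c_ae m h.coeFn_toLp.symm)

theorem heat_derL2 {f : X → ℝ} (hf : MemLp f 2 m) {t : ℝ} (ht : 0 < t) :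
    DerL2 μ (fun s => heat m μ s f) (lap m μ t f) t (𝓝[≠] 0) := by
  have hf' : MemLp f 2 μ := (DS.memLp_iff m μ).2 hf
  refine e2c_nsq (hasDerivAt_iff_tendsto_slope_zero.1
    ((dform m μ).sg.heat_deriv t (hf'.toLp f) ht)) fun k => ?_
  simp only [heat_eq hf', lap_eq hf']
  exact e2c_quot _ _ _ EventuallyEq.rfl k

theorem heat_derW {f : X → ℝ} (hf : MemLp f 2 m) {t : ℝ} (ht : 0 < t) :
    DerW m μ (fun s => heat m μ s f) (lap m μ t f) t (𝓝[≠] 0) := by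
  have hf' : MemLp f 2 μ := (DS.memLp_iff m μ).2 hf
  refine ((dform m μ).sg.deriv_E (hf'.toLp f) ht).congr fun k => e2c_en ?_
  simp only [heat_eq hf', lap_eq hf']
  exact e2c_quot _ _ _ EventuallyEq.rfl k

theorem IsLap.derL2_zero {u a : X → ℝ} (h : IsLap m μ u a) :
    DerL2 μ (fun s => R242.heat m μ s u) a 0 (𝓝[>] 0) := by
  have hu : MemLp u 2 μ := (DS.memLp_iff m μ).2 h.1.memLp
  have ha' : MemLp a 2 μ := (DS.memLp_iff m μ).2 h.2.1
  refine e2c_nsq ((dform m μ).sg.deriv_zero ((isLap_iff_gen hu ha').1 h)) fun k => ?_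
  simp only [heat_eq hu, zero_add, (dform m μ).sg.heat_zero]
  exact e2c_quot _ _ _ ha'.coeFn_toLp k

theorem IsLap.derW_zero {u a : X → ℝ} (h : IsLap m μ u a) (ha : SW m a) :
    DerW m μ (fun s => R242.heat m μ s u) a 0 (𝓝[>] 0) := by
  have hu : MemLp u 2 μ := (DS.memLp_iff m μ).2 h.1.memLp
  have ha' : MemLp a 2 μ := (DS.memLp_iff m μ).2 h.2.1
  refine ((dform m μ).sg.deriv_zero_E ((isLap_iff_gen hu ha').1 h) (e2c_dom ha ha')).congr
    fun k => e2c_en ?_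
  simp only [heat_eq hu, zero_add, (dform m μ).sg.heat_zero]
  exact e2c_quot _ _ _ ha'.coeFn_toLp k

theorem en_heat_le {u : X → ℝ} (hu : SW m u) {t : ℝ} (ht : 0 ≤ t) :
    en m μ (heat m μ t u) ≤ en m μ u := by
  have hu' : MemLp u 2 μ := (DS.memLp_iff m μ).2 hu.memLp
  rw [heat_eq hu', ← e2c_en hu'.coeFn_toLp.symm]
  exact (dform m μ).sg.E_heat_le (e2c_dom hu hu') ht

theorem en_heat_le_nsq {f : X → ℝ} (hf : MemLp f 2 m) {t : ℝ} (ht : 0 < t) :
    en m μ (heat m μ t f) ≤ nsq μ f / (2 * t) := by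
  have hf' : MemLp f 2 μ := (DS.memLp_iff m μ).2 hf
  rw [heat_eq hf', nsq_eq_norm hf']
  exact (dform m μ).sg.E_heat_le_norm _ ht

theorem en_heat_cont_pos {f : X → ℝ} (hf : MemLp f 2 m) {t : ℝ} (ht : 0 < t) :
    Tendsto (fun s => en m μ fun x => heat m μ s f x - heat m μ t f x) (𝓝 t) (𝓝 0) := by
  have hf' : MemLp f 2 μ := (DS.memLp_iff m μ).2 hf
  refine ((dform m μ).sg.E_cont_pos (hf'.toLp f) ht).congr fun k => e2c_en ?_
  simp only [heat_eq hf']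
  exact e2c_sub _ _ EventuallyEq.rfl

theorem en_heat_cont {u : X → ℝ} (hu : SW m u) {t : ℝ} (ht : 0 ≤ t) :
    Tendsto (fun s => en m μ fun x => heat m μ s u x - heat m μ t u x) (𝓝[Ici 0] t) (𝓝 0) := by
  have hu' : MemLp u 2 μ := (DS.memLp_iff m μ).2 hu.memLp
  refine ((dform m μ).sg.E_cont (e2c_dom hu hu') ht).congr fun k => e2c_en ?_
  simp only [heat_eq hu']
  exact e2c_sub _ _ EventuallyEq.rfl

theorem en_heat_tendsto_zero {u : X → ℝ} (hu : SW m u) :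
    Tendsto (fun s => en m μ fun x => heat m μ s u x - u x) (𝓝[>] 0) (𝓝 0) := by
  have hu' : MemLp u 2 μ := (DS.memLp_iff m μ).2 hu.memLp
  refine (((dform m μ).sg.E_cont (e2c_dom hu hu') le_rfl).mono_left
    (nhdsWithin_mono _ Ioi_subset_Ici_self)).congr fun k => e2c_en ?_
  simp only [heat_eq hu', (dform m μ).sg.heat_zero]
  exact e2c_sub _ _ hu'.coeFn_toLp

theorem sw_of_heat_en {f : X → ℝ} (hf : MemLp f 2 m) {b : ℝ}
    (h : ∀ t : ℝ, 0 < t → en m μ (heat m μ t f) ≤ b) : SW m f ∧ en m μ f ≤ b := by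
  have hf' : MemLp f 2 μ := (DS.memLp_iff m μ).2 hf
  obtain ⟨h1, h2⟩ := (dform m μ).sg.mem_dom_of_heat (x := hf'.toLp f) (b := b) fun t ht => by
    have := h t ht
    rwa [heat_eq hf'] at this
  exact ⟨SW.congr h1 (e2c_ae m hf'.coeFn_toLp), (e2c_en hf'.coeFn_toLp.symm).symm.trans_le h2⟩

theorem e2d_set {ι : Type*} {l : Filter ι} {g : ι → X → ℝ} {g₀ : X → ℝ} (A : Set X)
    (hg : ∀ᶠ i in l, Integrable (g i) μ) (hg₀ : Integrable g₀ μ)
    (h : Tendsto (fun i => ∫ x, |g i x - g₀ x| ∂μ) l (𝓝 0)) :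
    Tendsto (fun i => ∫ x in A, g i x ∂μ) l (𝓝 (∫ x in A, g₀ x ∂μ)) := by
  rw [tendsto_iff_norm_sub_tendsto_zero]
  refine squeeze_zero' (Eventually.of_forall fun _ => norm_nonneg _) ?_ h
  filter_upwards [hg] with i hi
  rw [← integral_sub hi.integrableOn hg₀.integrableOn]
  refine (norm_integral_le_integral_norm _).trans ?_
  exact setIntegral_le_integral (hi.sub hg₀).abs (Eventually.of_forall fun _ => abs_nonneg _)

/-- `t ↦ ∫_A Γ(P_t f)` is continuous for positive times (`tendsto_gam_L1`). -/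
theorem setIntegral_gam_heat_cont {f : X → ℝ} (hf : MemLp f 2 m) (A : Set X) :
    ContinuousOn (fun t => ∫ x in A, Gam m (heat m μ t f) (heat m μ t f) x ∂μ) (Ioi 0) := by
  intro t ht
  have h1 : ∀ᶠ s in 𝓝[Ioi 0] t, SW m (heat m μ s f) := by
    filter_upwards [self_mem_nhdsWithin] with s hs using heat_sw hf hs
  have h2 := (en_heat_cont_pos (μ := μ) hf ht).mono_left (nhdsWithin_le_nhds (s := Ioi 0))
  refine e2d_set A ?_ ((DS.integrable_iff m μ).2 (SW.integrable_gam (DS.hilb μ) (heat_sw hf ht) (heat_sw hf ht)))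
    (tendsto_gam_L1 h1 h1 (heat_sw hf ht) (heat_sw hf ht) h2 h2)
  filter_upwards [h1] with s hs using (DS.integrable_iff m μ).2 (SW.integrable_gam (DS.hilb μ) hs hs)

theorem setIntegral_sq_heat_cont {f : X → ℝ} (hf : MemLp f 2 m) (A : Set X) :
    ContinuousOn (fun t => ∫ x in A, heat m μ t f x ^ 2 ∂μ) (Ici 0) := by
  intro t ht
  have h0 : ∀ s, MemLp (heat m μ s f) 2 μ := fun s => (DS.memLp_iff m μ).2 (heat_memLp s f)
  have h1 : Tendsto (fun s => nsq (μ.restrict A) fun x => heat m μ s f x - heat m μ t f x) (𝓝[Ici 0] t) (𝓝 0) :=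
    squeeze_zero (fun _ => nsq_nonneg _) (fun s => setIntegral_le_integral ((h0 s).sub (h0 t)).integrable_sq
      (Eventually.of_forall fun _ => sq_nonneg _)) (heat_cont hf ht)
  have h2 := Eventually.of_forall (f := 𝓝[Ici 0] t) fun s => (h0 s).restrict A
  simp only [sq]
  exact tendsto_integral_mul h2 h2 ((h0 t).restrict A) ((h0 t).restrict A) h1 h1

/-- `s ↦ P_s (u s)` is differentiable in `L²`:
`P_{s+k} u_{s+k} - P_s u_s = P_{s+k}(u_{s+k} - u_s) + (P_{s+k} - P_s) u_s`. -/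
theorem DerL2.heat_comp {u : ℝ → X → ℝ} {u' a : X → ℝ} {s : ℝ} (hs : 0 < s)
    (hu : ∀ r, MemLp (u r) 2 m) (hu' : MemLp u' 2 m) (h : DerL2 μ u u' s (𝓝[≠] 0))
    (ha : IsLap m μ (u s) a) :
    DerL2 μ (fun r => heat m μ r (u r)) (heat m μ s fun x => u' x + a x) s (𝓝[≠] 0) := by
  have M : ∀ {f : X → ℝ}, MemLp f 2 m → MemLp f 2 μ := fun hf => (DS.memLp_iff m μ).2 hf
  have hq : ∀ k : ℝ, MemLp (fun x => (u (s + k) x - u s x) / k) 2 m := a5b_quot hu s
  have hk : Tendsto (fun k : ℝ => s + k) (𝓝[≠] 0) (𝓝 s) := by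
    have : Continuous fun k : ℝ => s + k := by fun_prop
    simpa using (this.tendsto 0).mono_left (nhdsWithin_le_nhds (s := {0}ᶜ))
  have hpos : ∀ᶠ k in 𝓝[≠] (0 : ℝ), 0 ≤ s + k := hk.eventually (Ici_mem_nhds hs)
  have h1 : Tendsto (fun k => nsq μ (heat m μ (s + k) fun x => (u (s + k) x - u s x) / k - u' x))
      (𝓝[≠] 0) (𝓝 0) := by
    refine squeeze_zero' (Eventually.of_forall fun _ => nsq_nonneg _) ?_ h
    filter_upwards [hpos] with k hk using nsq_heat_le ((hq k).sub hu') hk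
  have h2 : Tendsto (fun k => nsq μ fun x => heat m μ (s + k) u' x - heat m μ s u' x) (𝓝[≠] 0) (𝓝 0) :=
    (heat_cont hu' hs.le).comp (tendsto_nhdsWithin_iff.2 ⟨hk, hpos⟩)
  have h3 := heat_derL2 (μ := μ) (hu s) hs
  rw [ha.lap_eq hs] at h3
  have m1 : ∀ k, MemLp (heat m μ (s + k) fun x => (u (s + k) x - u s x) / k - u' x) 2 μ :=
    fun k => M (heat_memLp _ _)
  have m2 : ∀ k, MemLp (fun x => heat m μ (s + k) u' x - heat m μ s u' x) 2 μ :=
    fun k => M ((heat_memLp _ _).sub (heat_memLp _ _))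
  have m3 : ∀ k, MemLp (fun x => (heat m μ (s + k) (u s) x - heat m μ s (u s) x) / k - heat m μ s a x) 2 μ :=
    fun k => M ((a5b_quot (fun r => heat_memLp r (u s)) s k).sub (heat_memLp _ _))
  refine (a5b_add (Eventually.of_forall fun k => (m1 k).add (m2 k)) (Eventually.of_forall m3)
    (a5b_add (Eventually.of_forall m1) (Eventually.of_forall m2) h1 h2) h3).congr fun k => nsq_congr ?_
  have e : (fun x => (u (s + k) x - u s x) / k) = fun x => k⁻¹ * (u (s + k) x - u s x) :=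
    funext fun x => div_eq_inv_mul _ _
  have e1 := heat_sub_fun (μ := μ) (hq k) hu' (s + k)
  have e2 := heat_const_mul (μ := μ) ((hu (s + k)).sub (hu s)) k⁻¹ (s + k)
  have e3 := heat_sub_fun (μ := μ) (hu (s + k)) (hu s) (s + k)
  have e4 := heat_add_fun (μ := μ) hu' ha.2.1 s
  rw [e] at e1
  rw [EventuallyEq, DS.ae_eq m μ]
  filter_upwards [e1, e2, e3, e4] with x h1 h2 h3 h4
  simp only [Pi.add_apply, Pi.sub_apply] at h2 ⊢
  rw [h1, h2, h4]
  erw [h3]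
  ring

end Crest.Agent.R242
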