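import Crest.Agent.R242.E2

/-! Block E3: resolvent and Markov property.
`res_le`, `heat_le`: `Resolvent.mem_of_proj` and `SG.invariant` for `C = {u | u ≤ M a.e.}` (closed:
`Lp` convergence gives an a.e. convergent subsequence, or `isClosed_le`-type lemmas for `Lp`), with
`P u = min u M`; `Γ(min u M, u - min u M) = 0` a.e. by locality (`SL.Dw_local` with a constant on
`{u ≥ M}`, `SL.Dw_eq_zero` on `{u ≤ M}`, `abs_gam_le`).  `heat_integrable`: for measurable `A` of finite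
measure, `∫_A P|f| = ∫ |f| P 1_A ≤ ∫ |f|`; let `A ↑` (balls), monotone convergence. -/

set_option autoImplicit false
set_option linter.unusedSectionVars false
set_option linter.unusedVariables false
open MeasureTheory Filter Set Metric
open scoped ENNReal NNReal Topology
open Crest.GeometryTopology.SyntheticRicci

noncomputable section
namespace Crest.Agent.R242

variable {X : Type*} [MetricSpace X] [MeasurableSpace X] [BorelSpace X] [ProperSpace X]
  {m : Measure X} [IsFiniteMeasureOnCompacts m] [m.IsOpenPosMeasure] {μ : Measure X} [DS m μ]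

theorem e3a_ae {f g : X → ℝ} (h : f =ᵐ[μ] g) : f =ᵐ[m] g := by
  unfold EventuallyEq at h ⊢
  rwa [← DS.ae_eq m μ]

theorem e3a_coe (l : ℝ) (U : Lp ℝ 2 μ) {f : X → ℝ} (hf : MemLp f 2 μ) :
    (l • U - hf.toLp f : Lp ℝ 2 μ) =ᵐ[μ] fun x => l * U x - f x := by
  filter_upwards [Lp.coeFn_sub (l • U) (hf.toLp f), Lp.coeFn_smul l U, hf.coeFn_toLp] with x h1 h2 h3
  rw [h1, Pi.sub_apply, h2, h3, Pi.smul_apply, smul_eq_mul]

theorem res_isLap {f : X → ℝ} (hf : MemLp f 2 m) {l : ℝ} (hl : 0 < l) :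
    IsLap m μ (res m μ l f) fun x => l * res m μ l f x - f x := by
  have h := (DS.memLp_iff m μ).2 hf
  obtain ⟨h1, h2, h3⟩ := isLap_coe.2 ((dform m μ).sg.res_gen l (h.toLp f) hl)
  rw [res_eq h]
  refine ⟨h1, h2.ae_eq (e3a_ae (e3a_coe l _ h)), fun v hv => (h3 v hv).trans ?_⟩
  congr 1
  exact integral_congr_ae ((e3a_coe l _ h).mul .rfl)

theorem IsLap.res_eq {u a : X → ℝ} (h : IsLap m μ u a) {l : ℝ} (hl : 0 < l) :
    res m μ l (fun x => l * u x - a x) =ᵐ[m] u := by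
  have hu := (DS.memLp_iff m μ).2 h.1.memLp
  have ha := (DS.memLp_iff m μ).2 h.2.1
  have h1 : MemLp (fun x => l * u x - a x) 2 μ := (hu.const_mul l).sub ha
  have h2 : h1.toLp _ = l • hu.toLp u - ha.toLp a := by
    refine Lp.ext ?_
    filter_upwards [h1.coeFn_toLp, e3a_coe l (hu.toLp u) ha, hu.coeFn_toLp] with x h3 h4 h5
    rw [h3, h4, h5]
  rw [R242.res_eq h1, h2, (dform m μ).sg.toResolvent.eq_of_gen hl ((isLap_iff_gen hu ha).1 h)]
  exact e3a_ae hu.coeFn_toLp

theorem res_sub_fun {f g : X → ℝ} (hf : MemLp f 2 m) (hg : MemLp g 2 m) (l : ℝ) :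
    res m μ l (fun x => f x - g x) =ᵐ[m] fun x => res m μ l f x - res m μ l g x := by
  have h1 := (DS.memLp_iff m μ).2 hf
  have h2 := (DS.memLp_iff m μ).2 hg
  rw [res_eq (f := fun x => f x - g x) (h1.sub h2), res_eq h1, res_eq h2]
  erw [MemLp.toLp_sub h1 h2, map_sub]
  exact e3a_ae (Lp.coeFn_sub _ _)

theorem en_res_le {f : X → ℝ} (hf : MemLp f 2 m) {l : ℝ} (hl : 0 < l) :
    en m μ (res m μ l f) ≤ nsq μ f / (4 * l) := by
  have h := (DS.memLp_iff m μ).2 hf
  rw [res_eq h, nsq_eq_norm h]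
  exact (dform m μ).sg.toResolvent.E_le hl _

theorem res_tendsto {f : X → ℝ} (hf : MemLp f 2 m) :
    Tendsto (fun l : ℝ => nsq μ fun x => l * res m μ l f x - f x) atTop (𝓝 0) := by
  have h := (DS.memLp_iff m μ).2 hf
  have h1 := (tendsto_iff_norm_sub_tendsto_zero.1 ((dform m μ).sg.toResolvent.res_tendsto (h.toLp f))).pow 2
  rw [zero_pow two_ne_zero] at h1
  refine h1.congr fun l => ?_
  rw [res_eq h, ← nsq_coe, nsq_congr (e3a_coe l _ h)]

theorem en_res_tendsto {u : X → ℝ} (hu : SW m u) :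
    Tendsto (fun l : ℝ => en m μ fun x => l * res m μ l u x - u x) atTop (𝓝 0) := by
  have h := (DS.memLp_iff m μ).2 hu.memLp
  refine ((dform m μ).sg.toResolvent.res_tendsto_E (u := h.toLp u)
    (hu.congr (e3a_ae h.coeFn_toLp).symm)).congr fun l => ?_
  rw [res_eq h, ← en_congr (e3a_ae (e3a_coe l _ h))]
  rfl

theorem res_laplace {f g : X → ℝ} (hf : MemLp f 2 m) (hg : MemLp g 2 m) {l : ℝ} (hl : 0 < l) :
    ∫ x, res m μ l f x * g x ∂μ =
      ∫ t in Ioi (0 : ℝ), Real.exp (-l * t) * ∫ x, heat m μ t f x * g x ∂μ := by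
  have h1 := (DS.memLp_iff m μ).2 hf
  have h2 := (DS.memLp_iff m μ).2 hg
  have h3 : ∀ U : Lp ℝ 2 μ, ∫ x, U x * g x ∂μ = inner ℝ U (h2.toLp g) := fun U => by
    rw [inner_coe]
    exact integral_congr_ae (h2.coeFn_toLp.mono fun x hx => by simp only [hx])
  simp only [res_eq h1, heat_eq h1, h3]
  exact (dform m μ).sg.laplace l _ _ hl

theorem heat_res {f : X → ℝ} (hf : MemLp f 2 m) {l t : ℝ} (hl : 0 < l) (ht : 0 ≤ t) :
    heat m μ t (res m μ l f) = res m μ l (heat m μ t f) := by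
  have h := (DS.memLp_iff m μ).2 hf
  rw [res_eq h, heat_eq h, heat_eq (Lp.memLp _), res_eq (Lp.memLp _), Lp.toLp_coeFn, Lp.toLp_coeFn,
    (dform m μ).sg.res_heat hl ht]

theorem e3b_lip (M : ℝ) : LipschitzWith 1 fun t : ℝ => min t M := LipschitzWith.id.min_const M

theorem e3b_res {M : ℝ} (hM : 0 ≤ M) {l : ℝ} (hl : 0 < l) {f : Lp ℝ 2 μ} (hf : ∀ᵐ x ∂μ, f x ≤ M) :
    ∀ᵐ x ∂μ, (l • (dform m μ).sg.res l f : Lp ℝ 2 μ) x ≤ M := by
  have h0 : min (0 : ℝ) M = 0 := min_eq_left hM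
  have hP := fun u : Lp ℝ 2 μ => (e3b_lip M).coeFn_compLp h0 u
  refine (dform m μ).sg.toResolvent.mem_of_proj (C := {u : Lp ℝ 2 μ | ∀ᵐ x ∂μ, u x ≤ M})
    ((e3b_lip M).compLp h0) (fun u => ?_) (fun u c hc => ?_) (fun u hu => ?_) hl hf
  · filter_upwards [hP u] with x hx
    rw [hx]
    exact min_le_right _ _
  · rw [inner_coe]
    refine integral_nonpos_of_ae ?_
    filter_upwards [hP u, hc, Lp.coeFn_sub u ((e3b_lip M).compLp h0 u),
      Lp.coeFn_sub c ((e3b_lip M).compLp h0 u)] with x h1 h2 h3 h4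
    rw [h3, h4, Pi.sub_apply, Pi.sub_apply, h1, Function.comp_apply, Pi.zero_apply]
    rcases le_total (u x) M with h | h
    · rw [min_eq_left h, sub_self, zero_mul]
    · rw [min_eq_right h]
      exact mul_nonpos_of_nonneg_of_nonpos (sub_nonneg.2 h) (sub_nonpos.2 h2)
  · have hu' : SW m u := hu
    have h1 : SW m fun x => min (u x) M := hu'.lip_comp (e3b_lip M) h0
    have h2 := hu'.sub h1
    have e1 : (fun x => min (u x) M) =ᵐ[m] (e3b_lip M).compLp h0 u := by
      rw [← DS.ae_eq m μ]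
      exact (hP u).symm
    have e2 : (fun x => u x - min (u x) M) =ᵐ[m] (u - (e3b_lip M).compLp h0 u : Lp ℝ 2 μ) := by
      rw [← DS.ae_eq m μ]
      filter_upwards [hP u, Lp.coeFn_sub u ((e3b_lip M).compLp h0 u)] with x a1 a2
      rw [a2, Pi.sub_apply, a1, Function.comp_apply]
    refine ⟨h1.congr e1, ?_⟩
    change 0 ≤ ∫ x, Gam m _ _ x ∂μ
    rw [← gam_congr e1 e2]
    refine integral_nonneg_of_ae ?_
    rw [DS.ae_eq m μ]
    filter_upwards [abs_gam_le (DS.hilb μ) h1.sl h2.sl, h2.sl.Dw_eq_zero,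
      h1.sl.Dw_local (sl_const M).1, (sl_const (m := m) M).2] with x a1 a2 a3 a4
    rcases le_total (u x) M with h | h
    · rw [a2 (by rw [min_eq_left h, sub_self]), mul_zero] at a1
      exact (abs_nonpos_iff.1 a1).ge
    · rw [a3 (min_eq_right h), a4, zero_mul] at a1
      exact (abs_nonpos_iff.1 a1).ge

theorem e3b_heat {M : ℝ} (hM : 0 ≤ M) {t : ℝ} (ht : 0 ≤ t) {f : Lp ℝ 2 μ} (hf : ∀ᵐ x ∂μ, f x ≤ M) :
    ∀ᵐ x ∂μ, (dform m μ).sg.heat t f x ≤ M := by
  have h0 : min (0 : ℝ) M = 0 := min_eq_left hM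
  refine (dform m μ).sg.invariant {u : Lp ℝ 2 μ | ∀ᵐ x ∂μ, u x ≤ M} ?_ (fun u hu v hv a b ha hb hab => ?_)
    (fun l f hl hf => e3b_res hM hl hf) t f ht hf
  · convert isClosed_eq ((e3b_lip M).continuous_compLp (μ := μ) (p := 2) h0) continuous_id using 1
    ext u
    simp only [mem_ofPred_eq, id, Lp.ext_iff]
    constructor <;> intro h <;> filter_upwards [h, (e3b_lip M).coeFn_compLp h0 u] with x a1 a2
    · rw [a2]
      exact min_eq_left a1
    · rw [← a1, a2]
      exact min_le_right _ _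
  · filter_upwards [hu, hv, Lp.coeFn_add (a • u) (b • v), Lp.coeFn_smul a u, Lp.coeFn_smul b v]
      with x a1 a2 a3 a4 a5
    rw [a3, Pi.add_apply, a4, a5, Pi.smul_apply, Pi.smul_apply, smul_eq_mul, smul_eq_mul]
    calc a * u x + b * v x ≤ a * M + b * M := by gcongr
      _ = M := by rw [← add_mul, hab, one_mul]

theorem res_le {f : X → ℝ} (hf : MemLp f 2 m) {M l : ℝ} (hM : 0 ≤ M) (hl : 0 < l)
    (h : ∀ᵐ x ∂m, f x ≤ M) : ∀ᵐ x ∂m, l * res m μ l f x ≤ M := by
  have hf' := (DS.memLp_iff m μ).2 hf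
  rw [← DS.ae_eq m μ] at h ⊢
  rw [res_eq hf']
  have h1 := e3b_res (m := m) hM hl (f := hf'.toLp f) (by
    filter_upwards [h, hf'.coeFn_toLp] with x a1 a2
    rwa [a2])
  filter_upwards [h1, Lp.coeFn_smul l ((dform m μ).sg.res l (hf'.toLp f))] with x a1 a2
  rwa [a2] at a1

theorem abs_res_le {f : X → ℝ} (hf : MemLp f 2 m) {M l : ℝ} (hM : 0 ≤ M) (hl : 0 < l)
    (h : ∀ᵐ x ∂m, |f x| ≤ M) : ∀ᵐ x ∂m, |l * res m μ l f x| ≤ M := by
  have h1 := res_le (μ := μ) hf hM hl (h.mono fun x hx => (abs_le.1 hx).2)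
  have h2 := res_le (μ := μ) (hf.const_mul (-1)) hM hl
    (h.mono fun x hx => by linarith [(abs_le.1 hx).1])
  have hf' := (DS.memLp_iff m μ).2 hf
  have h3 : res m μ l (fun x => -1 * f x) =ᵐ[m] fun x => -1 * res m μ l f x := by
    rw [res_eq hf', res_eq (hf'.const_mul (-1)), ← DS.ae_eq m μ,
      show (hf'.const_mul (-1)).toLp _ = (-1 : ℝ) • hf'.toLp f from
        MemLp.toLp_const_smul (-1 : ℝ) hf', map_smul]
    exact Lp.coeFn_smul _ _
  filter_upwards [h1, h2, h3] with x a1 a2 a3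
  rw [a3] at a2
  exact abs_le.2 ⟨by linarith, a1⟩

theorem heat_le {f : X → ℝ} (hf : MemLp f 2 m) {M t : ℝ} (hM : 0 ≤ M) (ht : 0 ≤ t)
    (h : ∀ᵐ x ∂m, f x ≤ M) : ∀ᵐ x ∂m, heat m μ t f x ≤ M := by
  have hf' := (DS.memLp_iff m μ).2 hf
  rw [← DS.ae_eq m μ] at h ⊢
  rw [heat_eq hf']
  refine e3b_heat hM ht ?_
  filter_upwards [h, hf'.coeFn_toLp] with x a1 a2
  rwa [a2]

theorem heat_nonneg {f : X → ℝ} (hf : MemLp f 2 m) {t : ℝ} (ht : 0 ≤ t)
    (h : ∀ᵐ x ∂m, 0 ≤ f x) : ∀ᵐ x ∂m, 0 ≤ heat m μ t f x := by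
  filter_upwards [heat_le (μ := μ) (hf.const_mul (-1)) le_rfl ht (h.mono fun x hx => by linarith),
    heat_const_mul (μ := μ) hf (-1) t] with x a1 a2
  linarith

theorem heat_mem_Icc {f : X → ℝ} (hf : MemLp f 2 m) {M t : ℝ} (hM : 0 ≤ M) (ht : 0 ≤ t)
    (h : ∀ᵐ x ∂m, 0 ≤ f x ∧ f x ≤ M) : ∀ᵐ x ∂m, 0 ≤ heat m μ t f x ∧ heat m μ t f x ≤ M := by
  exact (heat_nonneg hf ht (h.mono fun x hx => hx.1)).and (heat_le hf hM ht (h.mono fun x hx => hx.2))

theorem abs_heat_le {f : X → ℝ} (hf : MemLp f 2 m) {M t : ℝ} (hM : 0 ≤ M) (ht : 0 ≤ t)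
    (h : ∀ᵐ x ∂m, |f x| ≤ M) : ∀ᵐ x ∂m, |heat m μ t f x| ≤ M := by
  filter_upwards [heat_le (μ := μ) (hf.const_mul (-1)) hM ht
    (h.mono fun x hx => by linarith [(abs_le.1 hx).1]), heat_const_mul (μ := μ) hf (-1) t,
    heat_le (μ := μ) hf hM ht (h.mono fun x hx => (abs_le.1 hx).2)] with x a1 a2 a3
  exact abs_le.2 ⟨by linarith, a3⟩

theorem heat_mono {f g : X → ℝ} (hf : MemLp f 2 m) (hg : MemLp g 2 m) {t : ℝ} (ht : 0 ≤ t)
    (h : f ≤ᵐ[m] g) : heat m μ t f ≤ᵐ[m] heat m μ t g := by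
  filter_upwards [heat_nonneg (μ := μ) (f := fun x => g x - f x) (hg.sub hf) ht
    (h.mono fun x hx => sub_nonneg.2 hx), heat_sub_fun (μ := μ) hg hf t] with x a1 a2
  linarith

theorem e3c_cover (ν : Measure X) : AECover ν atTop (compactCovering X) :=
  ⟨Eventually.of_forall fun x => by
    obtain ⟨n, hn⟩ := exists_mem_compactCovering x
    exact (eventually_ge_atTop n).mono fun k hk => compactCovering_subset X hk hn,
   fun n => (isCompact_compactCovering X n).measurableSet⟩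

theorem e3c_bound {f : X → ℝ} (hf : MemLp f 2 m) (hi : Integrable f m) {t : ℝ} (ht : 0 ≤ t)
    {K : Set X} (hK : IsCompact K) :
    ∫ x in K, ‖heat m μ t f x‖ ∂μ ≤ ∫ x, |f x| ∂μ := by
  classical
  set u := heat m μ t f with hu
  have hum : Measurable u := heat_meas t f
  let s : X → ℝ := K.indicator fun x => if 0 ≤ u x then 1 else -1
  have hsm : Measurable s :=
    (Measurable.ite (measurableSet_le measurable_const hum) measurable_const
      measurable_const).indicator hK.measurableSet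
  have hs1 : ∀ x, |s x| ≤ 1 := fun x => by
    by_cases hx : x ∈ K
    · simp only [s, indicator_of_mem hx]
      split_ifs <;> simp
    · simp [s, indicator_of_notMem hx]
  have hs2 : MemLp s 2 m := by
    refine (memLp_indicator_const 2 hK.measurableSet (1 : ℝ) (Or.inr hK.measure_lt_top.ne)).of_le
      hsm.aestronglyMeasurable (Eventually.of_forall fun x => ?_)
    by_cases hx : x ∈ K
    · simpa [indicator_of_mem hx] using hs1 x
    · simp [s, indicator_of_notMem hx]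
  have e : ∫ x in K, ‖u x‖ ∂μ = ∫ x, u x * s x ∂μ := by
    rw [← integral_indicator hK.measurableSet]
    refine integral_congr_ae (Eventually.of_forall fun x => ?_)
    by_cases hx : x ∈ K
    · simp only [s, indicator_of_mem hx, Real.norm_eq_abs]
      split_ifs with h
      · rw [abs_of_nonneg h, mul_one]
      · rw [abs_of_neg (not_le.1 h)]; ring
    · simp [s, indicator_of_notMem hx]
  rw [e, hu, heat_symm hf hs2 ht]
  have hb := abs_heat_le (μ := μ) hs2 zero_le_one ht (Eventually.of_forall hs1)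
  rw [← DS.ae_eq m μ] at hb
  refine (le_abs_self _).trans ((abs_integral_le_integral_abs).trans
    (integral_mono_of_nonneg (Eventually.of_forall fun x => abs_nonneg _)
      ((DS.integrable_iff m μ).2 hi).abs ?_))
  filter_upwards [hb] with x hx
  rw [abs_mul]
  exact mul_le_of_le_one_right (abs_nonneg _) hx

theorem heat_integrable {f : X → ℝ} (hf : MemLp f 2 m) (hi : Integrable f m) {t : ℝ}
    (ht : 0 ≤ t) :
    Integrable (heat m μ t f) m ∧ ∫ x, |heat m μ t f x| ∂μ ≤ ∫ x, |f x| ∂μ := by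
  have hb := fun n => e3c_bound (μ := μ) hf hi ht (isCompact_compactCovering X n)
  have h1 : Integrable (heat m μ t f) μ := by
    refine (e3c_cover μ).integrable_of_integral_norm_bounded _ (fun n => ?_)
      (Eventually.of_forall hb)
    haveI : IsFiniteMeasure (m.restrict (compactCovering X n)) :=
      isFiniteMeasure_restrict.2 (isCompact_compactCovering X n).measure_lt_top.ne
    exact (DS.integrableOn_iff m μ).2
      (((heat_memLp (μ := μ) t f).restrict _).integrable one_le_two)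
  exact ⟨(DS.integrable_iff m μ).1 h1,
    le_of_tendsto' ((e3c_cover μ).integral_tendsto_of_countably_generated h1.norm) hb⟩

theorem e3c_trunc {g : X → ℝ} (hg : Integrable g m) (hg0 : ∀ᵐ x ∂m, 0 ≤ g x) (n : ℕ) :
    MemLp (fun x => min (g x) n) 2 m ∧ Integrable (fun x => min (g x) n) m := by
  have hm : AEStronglyMeasurable (fun x => min (g x) (n : ℝ)) m :=
    (hg.aemeasurable.min aemeasurable_const).aestronglyMeasurable
  have hn : (0 : ℝ) ≤ n := n.cast_nonneg
  refine ⟨(memLp_two_iff_integrable_sq hm).2 ((hg.const_mul n).mono' (hm.pow 2) ?_),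
    hg.mono' hm ?_⟩
  · filter_upwards [hg0] with x hx
    have h0 : 0 ≤ min (g x) (n : ℝ) := le_min hx hn
    rw [Real.norm_of_nonneg (sq_nonneg _), sq]
    exact mul_le_mul (min_le_right _ _) (min_le_left _ _) h0 hn
  · filter_upwards [hg0] with x hx
    rw [Real.norm_of_nonneg (le_min hx hn)]
    exact min_le_left _ _

/-- The flow of a nonnegative integrable function, in dual form: `S = ⨆ n, P_t (min g n)`
(`min g n ∈ L²` since its square is `≤ n g`); monotone convergence on both sides. -/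
theorem exists_heat_L1 {g : X → ℝ} (hg : Integrable g m) (hg0 : ∀ᵐ x ∂m, 0 ≤ g x) {t : ℝ}
    (ht : 0 ≤ t) : ∃ S : X → ℝ, Measurable S ∧ (∀ x, 0 ≤ S x) ∧ Integrable S m ∧
      ∀ (h : X → ℝ) (M : ℝ), MemLp h 2 m → (∀ᵐ x ∂m, 0 ≤ h x ∧ h x ≤ M) →
        ∫ x, h x * S x ∂μ = ∫ x, heat m μ t h x * g x ∂μ := by
  have hae := DS.ae_eq m μ
  set G : ℕ → X → ℝ := fun n x => min (g x) n with hG
  have hG2 : ∀ n, MemLp (G n) 2 m := fun n => (e3c_trunc hg hg0 n).1
  have hG1 : ∀ n, Integrable (G n) m := fun n => (e3c_trunc hg hg0 n).2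
  have hG0 : ∀ n, ∀ᵐ x ∂m, 0 ≤ G n x := fun n => hg0.mono fun x hx => le_min hx n.cast_nonneg
  set U : ℕ → X → ℝ := fun n => heat m μ t (G n) with hU
  have hU0 : ∀ᵐ x ∂μ, ∀ n, 0 ≤ U n x := by
    rw [hae, ae_all_iff]
    exact fun n => heat_nonneg (hG2 n) ht (hG0 n)
  have hUm : ∀ᵐ x ∂μ, ∀ n, U n x ≤ U (n + 1) x := by
    rw [hae, ae_all_iff]
    exact fun n => heat_mono (hG2 n) (hG2 (n + 1)) ht (Eventually.of_forall fun x =>
      min_le_min_left _ (by push_cast; linarith))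
  have hUmeas : ∀ n, Measurable fun x => ENNReal.ofReal (U n x) := fun n =>
    (heat_meas t (G n)).ennreal_ofReal
  have hSm : Measurable fun x => ⨆ n, ENNReal.ofReal (U n x) := Measurable.iSup hUmeas
  have hgμ : Integrable g μ := (DS.integrable_iff m μ).2 hg
  have hfin : ∫⁻ x, ⨆ n, ENNReal.ofReal (U n x) ∂μ ≠ ⊤ := by
    rw [lintegral_iSup_ae hUmeas fun n => hUm.mono fun x hx => ENNReal.ofReal_le_ofReal (hx n)]
    refine ne_top_of_le_ne_top (ENNReal.ofReal_ne_top (r := ∫ x, |g x| ∂μ)) (iSup_le fun n => ?_)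
    obtain ⟨h1, h2⟩ := heat_integrable (μ := μ) (hG2 n) (hG1 n) ht
    have h3 : Integrable (U n) μ := (DS.integrable_iff m μ).2 h1
    rw [← ofReal_integral_eq_lintegral_ofReal h3 (hU0.mono fun x hx => hx n)]
    refine ENNReal.ofReal_le_ofReal ((integral_mono h3 h3.abs fun x => le_abs_self _).trans
      (h2.trans (integral_mono_ae ((DS.integrable_iff m μ).2 (hG1 n)).abs hgμ.abs ?_)))
    rw [Filter.EventuallyLE, hae]
    filter_upwards [hG0 n, hg0] with x h0 hx
    rw [abs_of_nonneg h0, abs_of_nonneg hx]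
    exact min_le_left _ _
  have hS1 : Integrable (fun x => (⨆ n, ENNReal.ofReal (U n x)).toReal) μ :=
    integrable_toReal_of_lintegral_ne_top hSm.aemeasurable hfin
  have hlim : ∀ᵐ x ∂μ, (∀ n, U n x ≤ (⨆ n, ENNReal.ofReal (U n x)).toReal) ∧
      Tendsto (fun n => U n x) atTop (𝓝 (⨆ n, ENNReal.ofReal (U n x)).toReal) := by
    filter_upwards [hU0, hUm, ae_lt_top hSm hfin] with x h0 h1 h2
    refine ⟨fun n => ?_, ?_⟩
    · rw [← ENNReal.ofReal_le_iff_le_toReal h2.ne]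
      exact le_iSup (fun n => ENNReal.ofReal (U n x)) n
    · have h3 := (ENNReal.tendsto_toReal h2.ne).comp (tendsto_atTop_iSup
        (monotone_nat_of_le_succ fun n => ENNReal.ofReal_le_ofReal (h1 n)))
      exact h3.congr fun n => ENNReal.toReal_ofReal (h0 n)
  refine ⟨fun x => (⨆ n, ENNReal.ofReal (U n x)).toReal, hSm.ennreal_toReal,
    fun x => ENNReal.toReal_nonneg, (DS.integrable_iff m μ).1 hS1, fun h M hh hM => ?_⟩
  have hM' : ∀ᵐ x ∂m, |h x| ≤ |M| := hM.mono fun x hx => by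
    rw [abs_of_nonneg hx.1]; exact hx.2.trans (le_abs_self M)
  have hP := abs_heat_le (μ := μ) hh (abs_nonneg M) ht hM'
  rw [← hae] at hM' hP
  have hhm : AEStronglyMeasurable h μ := ((DS.memLp_iff m μ).2 hh).1
  have l1 : Tendsto (fun n => ∫ x, h x * U n x ∂μ) atTop
      (𝓝 (∫ x, h x * (⨆ n, ENNReal.ofReal (U n x)).toReal ∂μ)) := by
    refine tendsto_integral_of_dominated_convergence _
      (fun n => hhm.mul (heat_meas t (G n)).aestronglyMeasurable) (hS1.const_mul |M|)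
      (fun n => ?_) (hlim.mono fun x hx => hx.2.const_mul _)
    filter_upwards [hM', hU0, hlim] with x h1 h2 h3
    rw [Real.norm_eq_abs, abs_mul, abs_of_nonneg (h2 n)]
    exact mul_le_mul h1 (h3.1 n) (h2 n) (abs_nonneg _)
  have l2 : Tendsto (fun n => ∫ x, heat m μ t h x * G n x ∂μ) atTop
      (𝓝 (∫ x, heat m μ t h x * g x ∂μ)) := by
    refine tendsto_integral_of_dominated_convergence _
      (fun n => (heat_meas t h).aestronglyMeasurable.mul ((DS.memLp_iff m μ).2 (hG2 n)).1)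
      (hgμ.const_mul |M|) (fun n => ?_) (Eventually.of_forall fun x => Tendsto.const_mul _ ?_)
    · have h0 := hG0 n
      rw [← hae] at h0
      filter_upwards [hP, h0] with x h1 h2
      rw [Real.norm_eq_abs, abs_mul, abs_of_nonneg h2]
      exact mul_le_mul h1 (min_le_left _ _) h2 (abs_nonneg _)
    · refine tendsto_const_nhds.congr' ?_
      filter_upwards [tendsto_natCast_atTop_atTop.eventually_ge_atTop (g x)] with n hn
      exact (min_eq_left hn).symm
  exact tendsto_nhds_unique l1 (l2.congr fun n => heat_symm hh (hG2 n) ht)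

end Crest.Agent.R242
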