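import Crest.Agent.R242.E1

/-! Block E4: calculus of the weak Laplacian.
`IsLap.eq_on_open`: `ae_eq_zero_on_open` (for `μ`, `DS.finComp`, `DS.openPos`) with `g = a - b`:
`∫ (a-b) v dμ = -∫ Γ(u - u', v) dμ = 0` because `D(u-u') = 0` on `W` and `Dv = 0` on `{v = 0}`.
`IsLap.mul`: `Γ(uv,w) = uΓ(v,w) + vΓ(u,w)`, `uΓ(v,w) = Γ(v, uw) - wΓ(v,u)`, `uw ∈ W` (`SW.mul_bg`).
`IsLap.chain`: `φ'(u)Γ(u,w) = Γ(u, φ'(u) w) - w φ''(u) Γ(u,u)`.
`IsLap.integral_mul`: truncate `b` (`exists_trunc`), `h b_n ∈ W` (`SW.mul_bdd`, `gam_mul_bdd`).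
`IsLap.mul_cut`: `Γ(wζ, v) = ζΓ(w,v) + wΓ(ζ,v)`, `ζΓ(w,v) = Γ(w, ζv) - vΓ(w,ζ)`; where `w = 0` also
`Dw = 0`. -/

set_option autoImplicit false
set_option linter.unusedSectionVars false
set_option linter.unusedVariables false
open MeasureTheory Filter Set Metric
open scoped ENNReal NNReal Topology
open Crest.GeometryTopology.SyntheticRicci

noncomputable section
namespace Crest.Agent.R242

variable {X : Type*} [MetricSpace X] [MeasurableSpace X] [BorelSpace X] [ProperSpace X]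
  {m : Measure X} [IsFiniteMeasureOnCompacts m] [m.IsOpenPosMeasure] {μ : Measure X} [DS m μ]

theorem IsLap.sw {u a : X → ℝ} (h : IsLap m μ u a) : SW m u := h.1

theorem IsLap.memLp {u a : X → ℝ} (h : IsLap m μ u a) : MemLp a 2 m := h.2.1

theorem IsLap.congr {u a v b : X → ℝ} (h : IsLap m μ u a) (hu : u =ᵐ[m] v) (ha : a =ᵐ[m] b) :
    IsLap m μ v b := by
  refine ⟨h.sw.congr hu, h.memLp.ae_eq ha, fun w hw => ?_⟩
  rw [← gam_congr hu (EventuallyEq.refl _ w), h.2.2 w hw]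
  congr 1
  exact integral_congr_ae (c4c_ae m μ (ha.mono fun x hx => by simp only [hx]))

theorem e4a_int (μ : Measure X) [DS m μ] {f g : X → ℝ} (hf : MemLp f 2 m) (hg : SW m g) :
    Integrable (fun x => f x * g x) μ :=
  (DS.integrable_iff m μ).2 (hf.integrable_mul hg.memLp)

theorem e4a_gam (μ : Measure X) [DS m μ] {f g : X → ℝ} (hf : SW m f) (hg : SW m g) :
    Integrable (Gam m f g) μ :=
  (DS.integrable_iff m μ).2 (SW.integrable_gam (DS.hilb μ) hf hg)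

theorem IsLap.add {u a v b : X → ℝ} (h₁ : IsLap m μ u a) (h₂ : IsLap m μ v b) :
    IsLap m μ (fun x => u x + v x) fun x => a x + b x := by
  refine ⟨h₁.sw.add h₂.sw, h₁.memLp.add h₂.memLp, fun w hw => ?_⟩
  rw [integral_congr_ae (c4c_ae m μ (gam_add_left (DS.hilb μ) h₁.sw.sl h₂.sw.sl hw.sl)),
    integral_add (e4a_gam μ h₁.sw hw) (e4a_gam μ h₂.sw hw), h₁.2.2 w hw, h₂.2.2 w hw, ← neg_add,
    ← integral_add (e4a_int μ h₁.memLp hw) (e4a_int μ h₂.memLp hw)]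
  simp only [add_mul]

theorem IsLap.sub {u a v b : X → ℝ} (h₁ : IsLap m μ u a) (h₂ : IsLap m μ v b) :
    IsLap m μ (fun x => u x - v x) fun x => a x - b x := by
  refine ⟨h₁.sw.sub h₂.sw, h₁.memLp.sub h₂.memLp, fun w hw => ?_⟩
  rw [integral_congr_ae (c4c_ae m μ (gam_sub_left (DS.hilb μ) h₁.sw.sl h₂.sw.sl hw.sl)),
    integral_sub (e4a_gam μ h₁.sw hw) (e4a_gam μ h₂.sw hw), h₁.2.2 w hw, h₂.2.2 w hw, ← neg_sub',
    ← integral_sub (e4a_int μ h₁.memLp hw) (e4a_int μ h₂.memLp hw)]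
  simp only [sub_mul]

theorem IsLap.const_mul {u a : X → ℝ} (h : IsLap m μ u a) (c : ℝ) :
    IsLap m μ (fun x => c * u x) fun x => c * a x := by
  refine ⟨h.sw.const_mul c, h.memLp.const_mul c, fun w hw => ?_⟩
  rw [integral_congr_ae (c4c_ae m μ (gam_const_mul_left (DS.hilb μ) h.sw.sl hw.sl c)),
    integral_const_mul, h.2.2 w hw, mul_neg, ← integral_const_mul]
  simp only [mul_assoc]

theorem IsLap.eq_on_open {u a v b : X → ℝ} (h₁ : IsLap m μ u a) (h₂ : IsLap m μ v b) {W : Set X}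
    (hW : IsOpen W) (h : ∀ᵐ x ∂m, x ∈ W → u x = v x) : ∀ᵐ x ∂m, x ∈ W → a x = b x := by
  have _ := DS.finComp m μ
  have _ := DS.openPos m μ
  have h₃ := h₁.sub h₂
  have h₄ := ae_eq_zero_on_open (m := μ) (g := fun x => a x - b x)
    (fun o R => (IsL2OnBalls.integrableOn (l2b_of_memLp ((DS.memLp_iff m μ).2 h₃.memLp)) o R).mono_set
      ball_subset_closedBall) hW fun w L hw hc hs => by
      have hw' : SW m w := sw_of_lip hw hc
      rw [← neg_eq_zero, ← h₃.2.2 w hw']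
      refine integral_eq_zero_of_ae (c4c_ae m μ ?_)
      filter_upwards [h, abs_gam_le (DS.hilb μ) h₃.sw.sl hw'.sl, h₃.sw.sl.Dw_eq_zero,
        hw'.sl.Dw_eq_zero] with x h1 h2 h3 h4
      refine abs_nonpos_iff.1 (h2.trans_eq ?_)
      by_cases hx : x ∈ W
      · rw [h3 (sub_eq_zero.2 (h1 hx)), zero_mul]
      · rw [h4 (image_eq_zero_of_notMem_tsupport fun h5 => hx (hs h5)), mul_zero]
  rw [DS.ae_eq m μ] at h₄
  exact h₄.mono fun x hx hW => sub_eq_zero.1 (hx hW)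

theorem IsLap.unique {u a b : X → ℝ} (h₁ : IsLap m μ u a) (h₂ : IsLap m μ u b) : a =ᵐ[m] b := by
  exact (h₁.eq_on_open h₂ isOpen_univ (Eventually.of_forall fun _ _ => rfl)).mono
    fun x hx => hx (mem_univ x)

theorem e4b_int (μ : Measure X) [DS m μ] {f g : X → ℝ} (hf : MemLp f 2 m) (hg : MemLp g 2 m) :
    Integrable (fun x => f x * g x) μ :=
  (DS.integrable_iff m μ).2 (hf.integrable_mul hg)

theorem e4b_key {g a h : X → ℝ} (hg : IsLap m μ g a) (hh : SL m h) (hb : BG m h) :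
    MemLp (fun x => h x * a x + Gam m h g x) 2 m ∧ ∀ w, SW m w →
      Integrable (fun x => h x * Gam m g w x) μ ∧
        ∫ x, h x * Gam m g w x ∂μ = -∫ x, (h x * a x + Gam m h g x) * w x ∂μ := by
  have hI : IsInfHilbertian m := DS.hilb μ
  obtain ⟨⟨M, hM⟩, L, hL⟩ := id hb
  have m1 : MemLp (fun x => h x * a x) 2 m := c3b_mul hg.2.1 (IsL2OnBalls.aesm hh.1) hM
  have m2 : MemLp (Gam m h g) 2 m := SW.memLp_gam hI hh hL hg.1
  refine ⟨m1.add m2, fun w hw => ?_⟩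
  have i1 : Integrable (fun x => h x * Gam m g w x) μ :=
    (DS.integrable_iff m μ).2 ((SW.integrable_gam hI hg.1 hw).bdd_mul (IsL2OnBalls.aesm hh.1) hM)
  refine ⟨i1, ?_⟩
  have hhw := SW.mul_bg hI hh hb hw
  have e0 := hg.2.2 _ hhw
  have e1 : ∫ x, Gam m g (fun y => h y * w y) x ∂μ =
      ∫ x, (h x * Gam m g w x + Gam m h g x * w x) ∂μ := by
    refine integral_congr_ae (c4c_ae m μ ?_)
    filter_upwards [hg.1.sl.gam_comm hhw.sl, (gam_mul_bg hI hh hb hw.sl hg.1.sl).2.1,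
      hw.sl.gam_comm hg.1.sl] with x h1 h2 h3
    rw [h1, h2, h3]; ring
  have e2 : ∫ x, (h x * a x + Gam m h g x) * w x ∂μ =
      ∫ x, (h x * a x * w x + Gam m h g x * w x) ∂μ := by simp only [add_mul]
  have e3 : ∫ x, a x * (h x * w x) ∂μ = ∫ x, h x * a x * w x ∂μ := by
    congr 1; funext x; ring
  rw [e1, integral_add i1 (e4b_int μ m2 hw.memLp), e3] at e0
  rw [e2, integral_add (e4b_int μ m1 hw.memLp) (e4b_int μ m2 hw.memLp)]
  linarith

theorem IsLap.mul {u a v b : X → ℝ} (h₁ : IsLap m μ u a) (h₂ : IsLap m μ v b) (hu : BG m u)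
    (hv : BG m v) :
    IsLap m μ (fun x => u x * v x) fun x => u x * b x + v x * a x + 2 * Gam m u v x := by
  have hI : IsInfHilbertian m := DS.hilb μ
  obtain ⟨m1, k1⟩ := e4b_key h₂ h₁.1.sl hu
  obtain ⟨m2, k2⟩ := e4b_key h₁ h₂.1.sl hv
  have hc := h₂.1.sl.gam_comm h₁.1.sl
  have he : (fun x => u x * b x + v x * a x + 2 * Gam m u v x) =ᵐ[m] fun x =>
      (u x * b x + Gam m u v x) + (v x * a x + Gam m v u x) := by
    filter_upwards [hc] with x hx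
    rw [hx]; ring
  refine ⟨SW.mul_bg hI h₁.1.sl hu h₂.1, (m1.add m2).ae_eq he.symm, fun w hw => ?_⟩
  have e1 : ∫ x, Gam m (fun x => u x * v x) w x ∂μ =
      ∫ x, (u x * Gam m v w x + v x * Gam m u w x) ∂μ :=
    integral_congr_ae (c4c_ae m μ (gam_mul_bg hI h₁.1.sl hu h₂.1.sl hw.sl).2.1)
  have e2 : ∫ x, (u x * b x + v x * a x + 2 * Gam m u v x) * w x ∂μ =
      ∫ x, ((u x * b x + Gam m u v x) * w x + (v x * a x + Gam m v u x) * w x) ∂μ := by
    refine integral_congr_ae (c4c_ae m μ ?_)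
    filter_upwards [he] with x hx
    rw [hx]; ring
  rw [e1, e2, integral_add (k1 w hw).1 (k2 w hw).1, (k1 w hw).2, (k2 w hw).2,
    integral_add (e4b_int μ m1 hw.memLp) (e4b_int μ m2 hw.memLp)]
  ring

theorem IsLap.chain {u a : X → ℝ} (h : IsLap m μ u a) (hu : BG m u) {p q : ℝ}
    (hpq : ∀ᵐ x ∂m, u x ∈ Icc p q) (h0 : (0 : ℝ) ∈ Icc p q) (φ φ' φ'' : ℝ → ℝ) (hφ0 : φ 0 = 0)
    (hφ : ∀ z ∈ Icc p q, HasDerivAt φ (φ' z) z) (hφ' : ∀ z ∈ Icc p q, HasDerivAt φ' (φ'' z) z)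
    (hc : ContinuousOn φ'' (Icc p q)) :
    IsLap m μ (fun x => φ (u x)) fun x => φ' (u x) * a x + φ'' (u x) * Gam m u u x := by
  have hI : IsInfHilbertian m := DS.hilb μ
  have hs := h.1.sl
  have hc' : ContinuousOn φ' (Icc p q) := fun z hz => (hφ' z hz).continuousAt.continuousWithinAt
  obtain ⟨M₁, hM₁⟩ := isCompact_Icc.exists_bound_of_continuousOn hc'
  obtain ⟨M₂, hM₂⟩ := isCompact_Icc.exists_bound_of_continuousOn hc
  obtain ⟨L, hL⟩ := hu.2
  obtain ⟨s1, g1, d1⟩ := gam_chain_Icc hI hs hs hpq φ' φ'' hφ' hc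
  obtain ⟨s0, -, d0⟩ := gam_chain_Icc hI hs hs hpq φ φ' hφ hc'
  have b1 : ∀ᵐ x ∂m, |φ' (u x)| ≤ M₁ := hpq.mono fun x hx => hM₁ _ hx
  have hb : BG m fun y => φ' (u y) := by
    refine ⟨⟨M₁, b1⟩, M₂ * L, ?_⟩
    filter_upwards [d1, hL, hpq, Dw_nonneg (m := m) u] with x h1 h2 h3 h4
    rw [h1]
    exact mul_le_mul (hM₂ _ h3) h2 h4 ((norm_nonneg _).trans (hM₂ _ h3))
  obtain ⟨m1, k1⟩ := e4b_key h s1 hb
  have he : (fun x => φ' (u x) * a x + Gam m (fun y => φ' (u y)) u x) =ᵐ[m]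
      fun x => φ' (u x) * a x + φ'' (u x) * Gam m u u x := by
    filter_upwards [g1] with x hx
    rw [hx]
  have m0 : MemLp (fun x => φ (u x)) 2 m := by
    refine (h.1.memLp.norm.const_mul M₁).mono' (IsL2OnBalls.aesm s0.1) ?_
    filter_upwards [hpq] with x hx
    have := (convex_Icc p q).norm_image_sub_le_of_norm_hasDerivWithin_le
      (fun z hz => (hφ z hz).hasDerivWithinAt) hM₁ h0 hx
    simpa [hφ0] using this
  refine ⟨sw_of_le m0 s0 (c3b_abs_mul h.1.memLp_Dw (IsL2OnBalls.aesm s1.1) b1) (d0.mono fun x hx => hx.le),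
    m1.ae_eq he, fun w hw => ?_⟩
  have e1 : ∫ x, Gam m (fun x => φ (u x)) w x ∂μ = ∫ x, φ' (u x) * Gam m u w x ∂μ :=
    integral_congr_ae (c4c_ae m μ (gam_chain_Icc hI hs hw.sl hpq φ φ' hφ hc').2.1)
  rw [e1, (k1 w hw).2]
  congr 1
  refine integral_congr_ae (c4c_ae m μ ?_)
  filter_upwards [he] with x hx
  rw [hx]

theorem e4c_memLp {g a h : X → ℝ} (hg : IsLap m μ g a) {L : ℝ}
    (hL : ∀ᵐ x ∂m, Dw m g x ≤ L) (hh : SW m h) (hhb : EB m h) :
    MemLp (Gam m h g) 2 μ ∧ MemLp (fun x => h x * a x) 2 μ := by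
  obtain ⟨M, hM⟩ := hhb
  exact ⟨(c4c_gam_le μ hh hg.sw hL).1, (DS.memLp_iff m μ).2 (c3b_mul hg.memLp hh.memLp.1 hM)⟩

theorem e4c_bdd {g a h b : X → ℝ} (hg : IsLap m μ g a) {L : ℝ}
    (hL : ∀ᵐ x ∂m, Dw m g x ≤ L) (hh : SW m h) (hhb : EB m h) (hb : SW m b) (hbb : EB m b) :
    ∫ x, h x * Gam m b g x ∂μ = -∫ x, b x * (Gam m h g x + h x * a x) ∂μ := by
  have hI : IsInfHilbertian m := DS.hilb μ
  obtain ⟨m1, m2⟩ := e4c_memLp hg hL hh hhb
  have mb := (DS.memLp_iff m μ).2 hb.memLp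
  have mh := (DS.memLp_iff m μ).2 hh.memLp
  have i1 : Integrable (fun x => h x * Gam m b g x) μ :=
    mh.integrable_mul (c4c_gam_le μ hb hg.sw hL).1
  have i2 : Integrable (fun x => b x * Gam m h g x) μ := mb.integrable_mul m1
  have i3 : Integrable (fun x => b x * (h x * a x)) μ := mb.integrable_mul m2
  have hp := hh.mul_bdd hI hb hhb hbb
  have e1 := hg.2.2 _ hp
  have e2 : ∫ x, Gam m g (fun y => h y * b y) x ∂μ =
      ∫ x, (h x * Gam m b g x + b x * Gam m h g x) ∂μ := by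
    refine integral_congr_ae (c4c_ae m μ ?_)
    filter_upwards [SL.gam_comm hg.sw.sl hp.sl, (gam_mul_bdd hI hh.sl hb.sl hg.sw.sl hhb hbb).2]
      with x h1 h2
    rw [h1, h2]
  have e3 : ∫ x, a x * (h x * b x) ∂μ = ∫ x, b x * (h x * a x) ∂μ :=
    integral_congr_ae (Eventually.of_forall fun x => by ring)
  simp only [mul_add]
  rw [integral_add i2 i3]
  rw [e2, integral_add i1 i2, e3] at e1
  linarith

theorem IsLap.integral_mul {g a h b : X → ℝ} (hg : IsLap m μ g a) {L : ℝ}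
    (hL : ∀ᵐ x ∂m, Dw m g x ≤ L) (hh : SW m h) (hhb : EB m h) (hb : SW m b) :
    ∫ x, h x * Gam m g b x ∂μ = -∫ x, b x * (Gam m h g x + h x * a x) ∂μ := by
  have hI : IsInfHilbertian m := DS.hilb μ
  obtain ⟨m1, m2⟩ := e4c_memLp hg hL hh hhb
  have mF : MemLp (fun x => Gam m h g x + h x * a x) 2 μ := m1.add m2
  have mh := (DS.memLp_iff m μ).2 hh.memLp
  obtain ⟨t1, t2, t3⟩ := exists_trunc (μ := μ) hb
  have e0 : ∫ x, h x * Gam m g b x ∂μ = ∫ x, h x * Gam m b g x ∂μ := by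
    refine integral_congr_ae (c4c_ae m μ ?_)
    filter_upwards [SL.gam_comm hg.sw.sl hb.sl] with x h1
    rw [h1]
  have l1 := tendsto_integral_mul (l := atTop) (a := fun _ : ℕ => h)
    (b := fun n : ℕ => Gam m (fun x => max (-(n : ℝ)) (min (b x) n)) g)
    (Eventually.of_forall fun _ => mh) (Eventually.of_forall fun n => (c4c_gam_le μ (t1 n) hg.sw hL).1)
    mh (c4c_gam_le μ hb hg.sw hL).1 (by simp [nsq]) (by
      have h1 := t3.const_mul (L ^ 2)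
      rw [mul_zero] at h1
      refine squeeze_zero (fun n => nsq_nonneg _) (fun n => ?_) h1
      refine le_trans (le_of_eq (nsq_congr (c4c_ae m μ ?_))) (c4c_gam_le μ ((t1 n).sub hb) hg.sw hL).2
      filter_upwards [gam_sub_left hI (t1 n).sl hb.sl hg.sw.sl] with x hx using hx.symm)
  have l2 := tendsto_integral_mul (l := atTop)
    (a := fun (n : ℕ) x => max (-(n : ℝ)) (min (b x) n))
    (b := fun (_ : ℕ) x => Gam m h g x + h x * a x)
    (Eventually.of_forall fun n => (DS.memLp_iff m μ).2 (t1 n).memLp)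
    (Eventually.of_forall fun _ => mF) ((DS.memLp_iff m μ).2 hb.memLp) mF t2 (by simp [nsq])
  rw [e0]
  refine tendsto_nhds_unique l1 (l2.neg.congr fun n => ?_)
  exact (e4c_bdd hg hL hh hhb (t1 n)
    ⟨n, Eventually.of_forall fun x => (c3b_abs_le n (b x) n.cast_nonneg).1⟩).symm

theorem IsLap.mul_cut {w c ζ : X → ℝ} (h : IsLap m μ w c) (hζ : SL m ζ) (hζb : BG m ζ)
    (h0 : ∀ᵐ x ∂m, w x = 0 ∨ Dw m ζ x = 0) :
    IsLap m μ (fun x => ζ x * w x) fun x => ζ x * c x := by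
  have hI : IsInfHilbertian m := DS.hilb μ
  obtain ⟨M, hM⟩ := hζb.1
  refine ⟨SW.mul_bg hI hζ hζb h.sw, c3b_mul h.memLp (IsL2OnBalls.aesm hζ.1) hM, fun v hv => ?_⟩
  have hv' := SW.mul_bg hI hζ hζb hv
  have e : ∀ x, ζ x * c x * v x = c x * (ζ x * v x) := fun x => by ring
  simp only [e]
  rw [← h.2.2 _ hv']
  refine integral_congr_ae (c4c_ae m μ ?_)
  filter_upwards [h0, (gam_mul_bg hI hζ hζb h.sw.sl hv.sl).2.1,
    (gam_mul_bg hI hζ hζb hv.sl h.sw.sl).2.1, h.sw.sl.gam_comm hv'.sl, h.sw.sl.gam_comm hv.sl,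
    abs_gam_le hI hζ hv.sl, abs_gam_le hI hζ h.sw.sl, h.sw.sl.Dw_eq_zero] with x h1 h2 h3 h4 h5 h6 h7 h8
  rw [h2, h4, h3, h5]
  rcases h1 with h1 | h1
  · rw [h8 h1, mul_zero, abs_nonpos_iff] at h7
    rw [h1, h7, zero_mul, mul_zero]
  · rw [h1, zero_mul, abs_nonpos_iff] at h6 h7
    rw [h6, h7, mul_zero, mul_zero]

end Crest.Agent.R242
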