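import Crest.Agent.R242.E3
import Crest.Agent.R242.E4

/-! Block E5: Davies-Gaffney estimates.  `u_s = heat m μ s g`.
`dg_deriv`: for a bounded Lipschitz `ψ` and `ω = exp (2ψ)`:
`∫ ω u Δu = -∫ Γ(u, ωu) = -∫ ωΓ(u,u) - 2∫ ω u Γ(ψ,u)`, and `|Γ(ψ,u)| ≤ Dψ Du`; then
`4|u| Dψ Du ≤ 2θ Du² + (2/θ) u² Dψ²`.
`dg_lin`: `y s = ∫ ω u_s²` is continuous on `[0,∞)`, differentiable on `(0,∞)`
(`DerL2.hasDerivAt_integral_mul` with `a r = ω u_r`), `y' ≤ -z + 4a² y` (`θ = 1/2`),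
`z s = ∫ ω Γ(u_s)`; so `exp(-4a²s) y` is antitone and `∫_{s₀}^s z ≤ exp(4a²s) y 0`.
`dg_tail*`: `D = min (max (dist x o - r) 0) (R - r)`.
`dg_quad`: `ω_s = exp (-D²/(2(τ' - s)))`, `θ = 1`: `y s = ∫ ω_s u_s²` has `y' ≤ 0` on `(0,τ)`
(the weight is differentiable in `s` uniformly in `x` since `D` is bounded and `s ≤ τ < τ'`;
`D(D²) ≤ 2|D|`). -/

set_option autoImplicit false
set_option linter.unusedSectionVars false
set_option linter.unusedVariables false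
open MeasureTheory Filter Set Metric
open scoped ENNReal NNReal Topology
open Crest.GeometryTopology.SyntheticRicci

noncomputable section
namespace Crest.Agent.R242

variable {X : Type*} [MetricSpace X] [MeasurableSpace X] [BorelSpace X] [ProperSpace X]
  {m : Measure X} [IsFiniteMeasureOnCompacts m] [m.IsOpenPosMeasure] {μ : Measure X} [DS m μ]

theorem e5a_pt {θ u D E G : ℝ} (hθ : 0 < θ) (h : |G| ≤ D * E) :
    -4 * (u * G) ≤ 2 * θ * E ^ 2 + 2 / θ * (u ^ 2 * D ^ 2) := by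
  have h1 : -(u * G) ≤ |u| * (D * E) :=
    (neg_le_abs _).trans ((abs_mul u G).trans_le (mul_le_mul_of_nonneg_left h (abs_nonneg u)))
  have h2 : 2 * θ * E ^ 2 + 2 / θ * (u ^ 2 * D ^ 2) - 4 * (|u| * (D * E)) = 2 / θ * (θ * E - |u| * D) ^ 2 := by
    rw [← sq_abs u]; field_simp; ring
  have h3 : 0 ≤ 2 / θ * (θ * E - |u| * D) ^ 2 := by positivity
  linarith

theorem e5a_bl {ψ : X → ℝ} (hψ : BddLip ψ) (c : ℝ) : BddLip fun x => Real.exp (c * ψ x) :=
  (BddLip.mul (f := fun _ => c) ⟨⟨|c|, fun _ => le_rfl⟩, 0, LipschitzWith.const c⟩ hψ).exp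

theorem e5a_int {ω F : X → ℝ} (hω : BddLip ω) (hF : Integrable F μ) : Integrable (fun x => ω x * F x) μ := by
  obtain ⟨⟨B, hB⟩, L, hL⟩ := hω
  exact hF.bdd_mul hL.continuous.aestronglyMeasurable (Eventually.of_forall hB)

theorem dg_deriv {u a ψ : X → ℝ} (h : IsLap m μ u a) (hψ : BddLip ψ) {θ : ℝ} (hθ : 0 < θ) :
    2 * ∫ x, Real.exp (2 * ψ x) * u x * a x ∂μ ≤
      -(2 - 2 * θ) * (∫ x, Real.exp (2 * ψ x) * Gam m u u x ∂μ) +
        2 / θ * ∫ x, Real.exp (2 * ψ x) * u x ^ 2 * Dw m ψ x ^ 2 ∂μ := by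
  have hI := DS.hilb (m := m) (μ := μ)
  have hu := h.sw
  have hω := e5a_bl hψ 2
  obtain ⟨s1, s2⟩ := hω.sl (m := m)
  obtain ⟨s3, -, L, hL⟩ := hψ.sl (m := m)
  have hv := SW.mul_bg hI s1 s2 hu
  have e1 := h.2.2 _ hv
  obtain ⟨B, hB⟩ := hψ.1
  have c1 := (gam_chain_Icc hI s3 hu.sl (a := -B) (b := B) (Eventually.of_forall fun x => abs_le.1 (hB x))
    (fun z => Real.exp (2 * z)) (fun z => Real.exp (2 * z) * 2)
    (fun z _ => by simpa using ((hasDerivAt_id z).const_mul 2).exp) (by fun_prop)).2.1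
  have i1 : Integrable (fun x => Real.exp (2 * ψ x) * Gam m u u x) μ :=
    e5a_int hω ((DS.integrable_iff m μ).2 (SW.integrable_gam hI hu hu))
  have i2 : Integrable (fun x => Real.exp (2 * ψ x) * u x ^ 2 * Dw m ψ x ^ 2) μ := by
    refine (e5a_int hω ((DS.memLp_iff m μ).2 hu.memLp).integrable_sq).mul_bdd (c := L ^ 2)
      (((Dw_aesm ψ).mono_ac (DS.ac₁ m μ)).pow 2) ?_
    rw [DS.ae_eq m μ]
    filter_upwards [hL, Dw_nonneg (m := m) ψ] with x h1 h2
    rw [Real.norm_of_nonneg (sq_nonneg _)]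
    exact pow_le_pow_left₀ h2 h1 2
  have e2 : 2 * ∫ x, Real.exp (2 * ψ x) * u x * a x ∂μ =
      ∫ x, -2 * Gam m u (fun y => Real.exp (2 * ψ y) * u y) x ∂μ := by
    rw [integral_const_mul, e1]
    simp only [mul_comm (a _)]
    ring
  rw [e2, ← integral_const_mul, ← integral_const_mul, ← integral_add (i1.const_mul _) (i2.const_mul _)]
  refine integral_mono_ae (((DS.integrable_iff m μ).2 (SW.integrable_gam hI hu hv)).const_mul _)
    ((i1.const_mul _).add (i2.const_mul _)) ?_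
  rw [EventuallyLE, DS.ae_eq m μ]
  filter_upwards [hu.sl.gam_comm hv.sl, (gam_mul_bg hI s1 s2 hu.sl hu.sl).2.1, c1, abs_gam_le hI s3 hu.sl,
    hu.sl.gam_self] with x h1 h2 h3 h4 h5
  rw [h1, h2, h3, h5]
  nlinarith [mul_le_mul_of_nonneg_left (e5a_pt (u := u x) hθ h4) (Real.exp_pos (2 * ψ x)).le]

theorem e5b_anti {f : ℝ → ℝ} {a b : ℝ} (hab : a ≤ b) (hc : ContinuousOn f (Icc a b))
    (hd : ∀ t ∈ Ioo a b, ∃ f', HasDerivAt f f' t ∧ f' ≤ 0) : f b ≤ f a := by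
  refine antitoneOn_of_deriv_nonpos (convex_Icc a b) hc (fun t ht => ?_) (fun t ht => ?_)
    (left_mem_Icc.2 hab) (right_mem_Icc.2 hab) hab
  · obtain ⟨f', h, -⟩ := hd t (by simpa using ht)
    exact h.differentiableAt.differentiableWithinAt
  · obtain ⟨f', h, h'⟩ := hd t (by simpa using ht)
    rwa [h.deriv]

theorem e5b_mul {w f : X → ℝ} {M : ℝ} (hw : AEStronglyMeasurable w μ) (hM : ∀ x, |w x| ≤ M)
    (hf : MemLp f 2 μ) :
    MemLp (fun x => w x * f x) 2 μ ∧ nsq μ (fun x => w x * f x) ≤ M ^ 2 * nsq μ f :=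
  a5b_le hf (hw.mul hf.1) (Eventually.of_forall fun x => by
    rw [abs_mul]
    exact mul_le_mul_of_nonneg_right (hM x) (abs_nonneg _))

theorem e5b_cont {w g : X → ℝ} {M : ℝ} (hw : AEStronglyMeasurable w μ) (hM : ∀ x, |w x| ≤ M)
    (hg : MemLp g 2 m) : ContinuousOn (fun s => ∫ x, w x * heat m μ s g x ^ 2 ∂μ) (Ici 0) := by
  intro t ht
  have hu : ∀ s, MemLp (heat m μ s g) 2 μ := fun s => (DS.memLp_iff m μ).2 (heat_memLp s g)
  have h := tendsto_integral_mul (l := 𝓝[Ici 0] t) (a := fun s x => w x * heat m μ s g x)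
    (b := fun s => heat m μ s g) (Eventually.of_forall fun s => (e5b_mul hw hM (hu s)).1)
    (Eventually.of_forall hu) (e5b_mul hw hM (hu t)).1 (hu t)
    (a5b_small (c := M ^ 2) (Eventually.of_forall fun s => by
      simpa only [Pi.sub_def, mul_sub] using (e5b_mul hw hM ((hu s).sub (hu t))).2) (heat_cont hg ht))
    (heat_cont hg ht)
  simpa only [ContinuousWithinAt, sq, mul_assoc] using h

theorem e5b_der {w g : X → ℝ} {M : ℝ} (hw : AEStronglyMeasurable w μ) (hM : ∀ x, |w x| ≤ M)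
    (hg : MemLp g 2 m) {t : ℝ} (ht : 0 < t) :
    HasDerivAt (fun s => ∫ x, w x * heat m μ s g x ^ 2 ∂μ)
      (2 * ∫ x, w x * heat m μ t g x * lap m μ t g x ∂μ) t := by
  have hu : ∀ s, MemLp (heat m μ s g) 2 μ := fun s => (DS.memLp_iff m μ).2 (heat_memLp s g)
  have hl : MemLp (lap m μ t g) 2 μ := (DS.memLp_iff m μ).2 (lap_memLp t g)
  have hD : DerL2 μ (fun s x => w x * heat m μ s g x) (fun x => w x * lap m μ t g x) t (𝓝[≠] 0) :=
    a5b_small (c := M ^ 2) (Eventually.of_forall fun k => by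
      simpa only [Pi.sub_def, mul_sub, ← mul_div_assoc] using
        (e5b_mul hw hM ((a5b_quot hu t k).sub hl)).2) (heat_derL2 hg ht)
  have h := DerL2.hasDerivAt_integral_mul (fun s => (e5b_mul hw hM (hu s)).1) hu
    (e5b_mul hw hM hl).1 hl hD (heat_derL2 hg ht)
  convert h using 1
  · simp only [sq, mul_assoc]
  · simp only [two_mul, mul_right_comm _ (lap m μ t g _)]

theorem e5b_contz {w g : X → ℝ} {M : ℝ} (hw : AEStronglyMeasurable w μ) (hM : ∀ x, |w x| ≤ M)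
    (hg : MemLp g 2 m) :
    ContinuousOn (fun s => ∫ x, w x * Gam m (heat m μ s g) (heat m μ s g) x ∂μ) (Ioi 0) := by
  intro t ht
  refine ContinuousAt.continuousWithinAt ?_
  have hs : ∀ᶠ s in 𝓝 t, SW m (heat m μ s g) :=
    (Ioi_mem_nhds ht : Ioi (0 : ℝ) ∈ 𝓝 t) |> fun h => mem_of_superset h fun s hs => heat_sw hg hs
  have ht' : SW m (heat m μ t g) := heat_sw hg ht
  have h := tendsto_gam_L1 (μ := μ) hs hs ht' ht' (en_heat_cont_pos hg ht) (en_heat_cont_pos hg ht)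
  have hi : ∀ {u : X → ℝ}, SW m u → Integrable (Gam m u u) μ := fun hu =>
    (DS.integrable_iff m μ).2 (SW.integrable_gam (DS.hilb μ) hu hu)
  have hM' : ∀ᵐ x ∂μ, |w x| ≤ M := Eventually.of_forall hM
  refine tendsto_iff_norm_sub_tendsto_zero.2 (squeeze_zero' (Eventually.of_forall fun _ =>
    norm_nonneg _) ?_ (by simpa using h.const_mul M))
  filter_upwards [hs] with s hs
  rw [← integral_sub (a5a_bdd hw hM' (hi hs)).1 (a5a_bdd hw hM' (hi ht')).1]
  simpa only [Pi.sub_def, mul_sub, Real.norm_eq_abs] using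
    (a5a_bdd hw hM' ((hi hs).sub (hi ht'))).2

theorem e5b_w {D : X → ℝ} (hD : BddLip D) (a : ℝ) (μ : Measure X) :
    BddLip (fun x => a * D x) ∧ ∃ M, AEStronglyMeasurable (fun x => Real.exp (2 * a * D x)) μ ∧
      ∀ x, |Real.exp (2 * a * D x)| ≤ M := by
  have h : ∀ c : ℝ, BddLip fun x => c * D x := fun c =>
    BddLip.mul ⟨⟨|c|, fun _ => le_rfl⟩, 0, LipschitzWith.const c⟩ hD
  obtain ⟨⟨M, hM⟩, L, hL⟩ := (h (2 * a)).exp
  exact ⟨h a, M, hL.continuous.aestronglyMeasurable, hM⟩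

theorem e5b_key {D g : X → ℝ} (hD : BddLip D) (hD1 : LipschitzWith 1 D) (hg : MemLp g 2 m) (a : ℝ)
    {t : ℝ} (ht : 0 < t) : ∃ y', HasDerivAt
      (fun s => ∫ x, Real.exp (2 * a * D x) * heat m μ s g x ^ 2 ∂μ) y' t ∧
      y' ≤ -(∫ x, Real.exp (2 * a * D x) * Gam m (heat m μ t g) (heat m μ t g) x ∂μ) +
        4 * a ^ 2 * ∫ x, Real.exp (2 * a * D x) * heat m μ t g x ^ 2 ∂μ := by
  obtain ⟨hψ, M, hw, hM⟩ := e5b_w hD a μ
  refine ⟨_, e5b_der hw hM hg ht, ?_⟩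
  have h := dg_deriv (isLap_heat (μ := μ) hg ht) hψ (θ := 1 / 2) (by norm_num)
  simp only [← mul_assoc] at h
  have hu : MemLp (heat m μ t g) 2 μ := (DS.memLp_iff m μ).2 (heat_memLp t g)
  have h2 : ∫ x, Real.exp (2 * a * D x) * heat m μ t g x ^ 2 * Dw m (fun x => a * D x) x ^ 2 ∂μ ≤
      a ^ 2 * ∫ x, Real.exp (2 * a * D x) * heat m μ t g x ^ 2 ∂μ := by
    rw [← integral_const_mul]
    refine integral_mono_of_nonneg (Eventually.of_forall fun x => by positivity)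
      ((a5a_bdd hw (Eventually.of_forall hM) hu.integrable_sq).1.const_mul _) (c4c_ae m μ ?_)
    obtain ⟨h3, h4⟩ := sl_of_lip (m := m) hD1
    filter_upwards [h4, (h3.const_mul a).2, Dw_nonneg (m := m) D] with x h4 h5 h6
    rw [h5, mul_comm (a ^ 2), mul_pow, sq_abs]
    refine mul_le_mul_of_nonneg_left (mul_le_of_le_one_right (sq_nonneg _) ?_) (by positivity)
    exact pow_le_one₀ h6 (by simpa using h4)
  norm_num at h
  linarith

theorem e5b_z {D g : X → ℝ} (hg : MemLp g 2 m) (a : ℝ) {t : ℝ} (ht : 0 < t) :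
    0 ≤ ∫ x, Real.exp (2 * a * D x) * Gam m (heat m μ t g) (heat m μ t g) x ∂μ := by
  refine integral_nonneg_of_ae (c4c_ae m μ ?_)
  filter_upwards [(heat_sw (μ := μ) hg ht).sl.gam_self] with x hx
  rw [hx]
  positivity

theorem dg_lin {D g : X → ℝ} (hD : BddLip D) (hD1 : LipschitzWith 1 D) (hg : MemLp g 2 m) (a : ℝ)
    {s : ℝ} (hs : 0 ≤ s) :
    ∫ x, Real.exp (2 * a * D x) * heat m μ s g x ^ 2 ∂μ ≤
      Real.exp (4 * a ^ 2 * s) * ∫ x, Real.exp (2 * a * D x) * g x ^ 2 ∂μ := by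
  obtain ⟨-, M, hw, hM⟩ := e5b_w hD a μ
  have h0 : ∫ x, Real.exp (2 * a * D x) * heat m μ 0 g x ^ 2 ∂μ =
      ∫ x, Real.exp (2 * a * D x) * g x ^ 2 ∂μ :=
    integral_congr_ae (c4c_ae m μ ((heat_zero (μ := μ) hg).mono fun x hx => by simp only [hx]))
  have he : ∀ t, HasDerivAt (fun t => Real.exp (-(4 * a ^ 2) * t))
      (Real.exp (-(4 * a ^ 2) * t) * -(4 * a ^ 2)) t := fun t => by
    simpa using ((hasDerivAt_id t).const_mul (-(4 * a ^ 2))).exp
  have h := e5b_anti (f := fun t => Real.exp (-(4 * a ^ 2) * t) *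
      ∫ x, Real.exp (2 * a * D x) * heat m μ t g x ^ 2 ∂μ) hs
    (ContinuousOn.mul (by fun_prop) ((e5b_cont hw hM hg).mono Icc_subset_Ici_self)) fun t ht => by
      obtain ⟨y', h1, h2⟩ := e5b_key (μ := μ) hD hD1 hg a ht.1
      refine ⟨_, (he t).mul h1, ?_⟩
      have h3 := e5b_z (μ := μ) (D := D) hg a ht.1
      have h4 := Real.exp_pos (-(4 * a ^ 2) * t)
      nlinarith
  simp only [mul_zero, Real.exp_zero, one_mul, h0, neg_mul, Real.exp_neg] at h
  rwa [inv_mul_le_iff₀ (Real.exp_pos _)] at h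

theorem dg_lin_grad {D g : X → ℝ} (hD : BddLip D) (hD1 : LipschitzWith 1 D) (hg : MemLp g 2 m)
    (a : ℝ) {s₀ s : ℝ} (hs₀ : 0 < s₀) (hs : s₀ ≤ s) :
    ∫ t in s₀..s, ∫ x, Real.exp (2 * a * D x) * Gam m (heat m μ t g) (heat m μ t g) x ∂μ ≤
      Real.exp (4 * a ^ 2 * s) * ∫ x, Real.exp (2 * a * D x) * g x ^ 2 ∂μ := by
  obtain ⟨-, M, hw, hM⟩ := e5b_w hD a μ
  have hz := e5b_contz hw hM hg
  obtain ⟨y₀, hy₀⟩ : ∃ y₀, y₀ = ∫ x, Real.exp (2 * a * D x) * g x ^ 2 ∂μ := ⟨_, rfl⟩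
  have key : ∀ t ∈ Icc s₀ s, ∃ f', HasDerivAt (fun r =>
      (∫ t in s₀..r, ∫ x, Real.exp (2 * a * D x) * Gam m (heat m μ t g) (heat m μ t g) x ∂μ) +
      ((∫ x, Real.exp (2 * a * D x) * heat m μ r g x ^ 2 ∂μ) - Real.exp (4 * a ^ 2 * r) * y₀)) f' t ∧
      f' ≤ 0 := fun t ht => by
    have ht0 : 0 < t := hs₀.trans_le ht.1
    obtain ⟨y', h1, h2⟩ := e5b_key (μ := μ) hD hD1 hg a ht0
    have h3 := intervalIntegral.integral_hasDerivAt_right
      ((hz.mono fun r hr => (lt_min hs₀ ht0).trans_le hr.1).intervalIntegrable (μ := volume))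
      (hz.stronglyMeasurableAtFilter isOpen_Ioi t ht0) (hz.continuousAt (Ioi_mem_nhds ht0))
    have h4 : HasDerivAt (fun r => Real.exp (4 * a ^ 2 * r) * y₀)
        (Real.exp (4 * a ^ 2 * t) * (4 * a ^ 2) * y₀) t := by
      simpa using ((hasDerivAt_id t).const_mul (4 * a ^ 2)).exp.mul_const y₀
    refine ⟨_, h3.add (h1.sub h4), ?_⟩
    have h5 := mul_le_mul_of_nonneg_left (dg_lin (μ := μ) hD hD1 hg a ht0.le)
      (by positivity : 0 ≤ 4 * a ^ 2)
    rw [← hy₀] at h5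
    linarith
  have h := e5b_anti hs (fun t ht => (key t ht).elim fun _ h =>
    h.1.continuousAt.continuousWithinAt) fun t ht => key t (Ioo_subset_Icc_self ht)
  have h1 := dg_lin (μ := μ) hD hD1 hg a hs₀.le
  have h2 : 0 ≤ ∫ x, Real.exp (2 * a * D x) * heat m μ s g x ^ 2 ∂μ :=
    integral_nonneg fun x => by positivity
  rw [← hy₀] at h1 ⊢
  simp only [intervalIntegral.integral_same] at h
  linarith

theorem e5a_D (o : X) {r R : ℝ} (hr : r ≤ R) : BddLip (fun x => min (max (dist x o) r) R) ∧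
    LipschitzWith 1 fun x => min (max (dist x o) r) R := by
  have h := ((LipschitzWith.dist_left o).max_const r).min_const R
  refine ⟨⟨⟨|r| + |R|, fun x => abs_le.2 ⟨?_, ?_⟩⟩, 1, h⟩, h⟩
  · have := le_min (le_max_right (dist x o) r) hr
    linarith [neg_abs_le r, abs_nonneg R]
  · have := min_le_right (max (dist x o) r) R
    linarith [le_abs_self R, abs_nonneg r]

theorem e5a_rhs {g : X → ℝ} {o : X} {r R : ℝ} (h0 : ∀ᵐ x ∂m, x ∉ closedBall o r → g x = 0) (hr : r ≤ R)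
    (c : ℝ) : ∫ x, Real.exp (c * min (max (dist x o) r) R) * g x ^ 2 ∂μ = Real.exp (c * r) * nsq μ g := by
  rw [nsq, ← integral_const_mul]
  refine integral_congr_ae ?_
  rw [EventuallyEq, DS.ae_eq m μ]
  filter_upwards [h0] with x hx
  by_cases h : x ∈ closedBall o r
  · rw [max_eq_right (mem_closedBall.1 h), min_eq_left hr]
  · simp [hx h]

theorem e5a_lhs {F : X → ℝ} (hF : Integrable F μ) (h0 : ∀ᵐ x ∂μ, 0 ≤ F x) (o : X) {r R : ℝ} (hr : r ≤ R)
    (c : ℝ) : ∫ x in (ball o R)ᶜ, F x ∂μ ≤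
      Real.exp (-(c * R)) * ∫ x, Real.exp (c * min (max (dist x o) r) R) * F x ∂μ := by
  rw [Real.exp_neg, le_inv_mul_iff₀ (Real.exp_pos _), ← integral_const_mul]
  refine le_trans (le_of_eq ?_) (setIntegral_le_integral (s := (ball o R)ᶜ)
    (e5a_int (e5a_bl (e5a_D o hr).1 c) hF) ?_)
  · refine setIntegral_congr_fun measurableSet_ball.compl fun x hx => ?_
    have : R ≤ dist x o := not_lt.1 fun h => hx (mem_ball.2 h)
    rw [min_eq_right (this.trans (le_max_left _ _))]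
  · filter_upwards [h0] with x hx using mul_nonneg (Real.exp_pos _).le hx

theorem e5a_exp (a s r R N : ℝ) : Real.exp (-(2 * a * R)) * (Real.exp (4 * a ^ 2 * s) * (Real.exp (2 * a * r) * N)) =
    Real.exp (4 * a ^ 2 * s - 2 * a * (R - r)) * N := by
  rw [← mul_assoc, ← mul_assoc, ← Real.exp_add, ← Real.exp_add]
  congr 2
  ring

theorem dg_tail {g : X → ℝ} (hg : MemLp g 2 m) {o : X} {r R a s : ℝ}
    (h0 : ∀ᵐ x ∂m, x ∉ closedBall o r → g x = 0) (hr : r ≤ R) (ha : 0 ≤ a) (hs : 0 ≤ s) :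
    ∫ x in (ball o R)ᶜ, heat m μ s g x ^ 2 ∂μ ≤
      Real.exp (4 * a ^ 2 * s - 2 * a * (R - r)) * nsq μ g := by
  obtain ⟨h1, h2⟩ := e5a_D o hr
  have h3 := dg_lin (μ := μ) h1 h2 hg a hs
  rw [e5a_rhs h0 hr] at h3
  rw [← e5a_exp]
  exact (e5a_lhs ((DS.memLp_iff m μ).2 (heat_memLp s g)).integrable_sq
    (Eventually.of_forall fun x => sq_nonneg _) o hr (2 * a)).trans
    (mul_le_mul_of_nonneg_left h3 (Real.exp_pos _).le)

theorem e5a_cont {ω g : X → ℝ} (hω : BddLip ω) (hg : MemLp g 2 m) :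
    ContinuousOn (fun t => ∫ x, ω x * Gam m (heat m μ t g) (heat m μ t g) x ∂μ) (Ioi 0) := by
  have hI := DS.hilb (m := m) (μ := μ)
  refine fun t (ht : 0 < t) => ContinuousAt.continuousWithinAt ?_
  have hs : ∀ᶠ s in 𝓝 t, SW m (heat m μ s g) := (lt_mem_nhds ht).mono fun s hs => heat_sw hg hs
  have h1 := tendsto_gam_L1 (μ := μ) hs hs (heat_sw hg ht) (heat_sw hg ht) (en_heat_cont_pos hg ht)
    (en_heat_cont_pos hg ht)
  obtain ⟨B, hB⟩ := hω.1
  have h2 := h1.const_mul B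
  rw [mul_zero] at h2
  refine tendsto_iff_norm_sub_tendsto_zero.2 (squeeze_zero' (Eventually.of_forall fun _ => norm_nonneg _) ?_ h2)
  filter_upwards [hs] with s hs
  have i1 := (DS.integrable_iff m μ).2 (SW.integrable_gam hI hs hs)
  have i2 := (DS.integrable_iff m μ).2 (SW.integrable_gam hI (heat_sw (μ := μ) hg ht) (heat_sw (μ := μ) hg ht))
  rw [← integral_sub (e5a_int hω i1) (e5a_int hω i2), ← integral_const_mul]
  refine norm_integral_le_of_norm_le ((i1.sub i2).abs.const_mul B) (Eventually.of_forall fun x => ?_)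
  rw [← mul_sub, Real.norm_eq_abs, abs_mul]
  exact mul_le_mul_of_nonneg_right (hB x) (abs_nonneg _)

theorem dg_tail_grad {g : X → ℝ} (hg : MemLp g 2 m) {o : X} {r R a s₀ s : ℝ}
    (h0 : ∀ᵐ x ∂m, x ∉ closedBall o r → g x = 0) (hr : r ≤ R) (ha : 0 ≤ a) (hs₀ : 0 < s₀)
    (hs : s₀ ≤ s) :
    ∫ t in s₀..s, ∫ x in (ball o R)ᶜ, Gam m (heat m μ t g) (heat m μ t g) x ∂μ ≤
      Real.exp (4 * a ^ 2 * s - 2 * a * (R - r)) * nsq μ g := by
  have hI := DS.hilb (m := m) (μ := μ)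
  obtain ⟨h1, h2⟩ := e5a_D o hr
  have h3 := dg_lin_grad (μ := μ) h1 h2 hg a hs₀ hs
  rw [e5a_rhs h0 hr] at h3
  rw [← e5a_exp]
  refine le_trans ?_ (mul_le_mul_of_nonneg_left h3 (Real.exp_pos _).le)
  have hsub : uIcc s₀ s ⊆ Ioi 0 := by
    rw [uIcc_of_le hs]; exact fun t ht => hs₀.trans_le ht.1
  rw [← intervalIntegral.integral_const_mul]
  refine intervalIntegral.integral_mono_on hs
    ((setIntegral_gam_heat_cont hg _).mono hsub).intervalIntegrable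
    (((e5a_cont (e5a_bl h1 (2 * a)) hg).mono hsub).intervalIntegrable.const_mul _) fun t ht => ?_
  have h4 := heat_sw (μ := μ) hg (hs₀.trans_le ht.1)
  refine e5a_lhs ((DS.integrable_iff m μ).2 (SW.integrable_gam hI h4 h4)) ?_ o hr (2 * a)
  rw [DS.ae_eq m μ]
  filter_upwards [h4.sl.gam_self] with x hx
  rw [hx]
  exact sq_nonneg _

theorem e5c_mul {w f : X → ℝ} {M : ℝ} (hw : Continuous w) (hM : ∀ x, |w x| ≤ M)
    (hf : MemLp f 2 μ) :
    MemLp (fun x => w x * f x) 2 μ ∧ nsq μ (fun x => w x * f x) ≤ M ^ 2 * nsq μ f :=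
  a5b_le hf (hw.aestronglyMeasurable.mul hf.1) (ae_of_all _ fun x => by
    rw [abs_mul]
    exact mul_le_mul_of_nonneg_right (hM x) (abs_nonneg _))

theorem e5c_one {c z : ℝ} (hc : 0 ≤ c) (hz : 0 ≤ z) : |Real.exp (-c * z)| ≤ 1 := by
  rw [abs_of_pos (Real.exp_pos _), Real.exp_le_one_iff]
  nlinarith [mul_nonneg hc hz]

theorem e5c_exp {z Z c₀ c₁ : ℝ} (k h : ℝ) (hz : 0 ≤ z) (hZ : z ≤ Z) (h0 : 0 ≤ c₀)
    (hδ : |c₁ - c₀| * Z ≤ 1) :
    |(Real.exp (-c₁ * z) - Real.exp (-c₀ * z)) / h - -(k * z) * Real.exp (-c₀ * z)| ≤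
      Z ^ 2 * (|c₁ - c₀| * |(c₁ - c₀) / h|) + Z * |(c₁ - c₀) / h - k| := by
  obtain ⟨δ, rfl⟩ : ∃ δ, c₁ = c₀ + δ := ⟨c₁ - c₀, by ring⟩
  rw [add_sub_cancel_left] at hδ ⊢
  have h1 : |-δ * z| ≤ |δ| * Z := by
    rw [abs_mul, abs_neg, abs_of_nonneg hz]
    exact mul_le_mul_of_nonneg_left hZ (abs_nonneg _)
  have h2 := Real.abs_exp_sub_one_sub_id_le (h1.trans hδ)
  have h3 : (-δ * z) ^ 2 ≤ (|δ| * Z) ^ 2 := by
    rw [← sq_abs]
    exact pow_le_pow_left₀ (abs_nonneg _) h1 2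
  have h4 : (Real.exp (-(c₀ + δ) * z) - Real.exp (-c₀ * z)) / h - -(k * z) * Real.exp (-c₀ * z) =
      Real.exp (-c₀ * z) * ((Real.exp (-δ * z) - 1 - -δ * z) / h - z * (δ / h - k)) := by
    rw [show -(c₀ + δ) * z = -c₀ * z + -δ * z by ring, Real.exp_add]
    ring
  rw [h4, abs_mul]
  refine (mul_le_of_le_one_left (abs_nonneg _) (e5c_one h0 hz)).trans ((abs_sub _ _).trans
    (add_le_add ?_ ?_))
  · rw [abs_div, abs_div]
    exact (div_le_div_of_nonneg_right (h2.trans h3) (abs_nonneg _)).trans_eq (by ring)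
  · rw [abs_mul, abs_of_nonneg hz]
    exact mul_le_mul_of_nonneg_right hZ (abs_nonneg _)

theorem e5c_add {ι : Type*} {l : Filter ι} {f g k : ι → X → ℝ} (hf : ∀ᶠ i in l, MemLp (f i) 2 μ)
    (hg : ∀ᶠ i in l, MemLp (g i) 2 μ) (hk : ∀ᶠ i in l, MemLp (k i) 2 μ)
    (hF : Tendsto (fun i => nsq μ (f i)) l (𝓝 0)) (hG : Tendsto (fun i => nsq μ (g i)) l (𝓝 0))
    (hK : Tendsto (fun i => nsq μ (k i)) l (𝓝 0)) :
    Tendsto (fun i => nsq μ fun x => f i x + g i x + k i x) l (𝓝 0) :=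
  a5b_add (f := fun i x => f i x + g i x) ((hf.and hg).mono fun _ h => h.1.add h.2) hk
    (a5b_add hf hg hF hG) hK

theorem e5c_der {z g : X → ℝ} {Z : ℝ} (hz : Continuous z) (hZ : ∀ x, 0 ≤ z x ∧ z x ≤ Z)
    (hg : MemLp g 2 m) {c : ℝ → ℝ} {k s : ℝ} (hc : HasDerivAt c k s) (h0 : 0 ≤ c s) (hs : 0 < s) :
    DerL2 μ (fun r x => Real.exp (-c r * z x) * heat m μ r g x)
      (fun x => -(k * z x) * Real.exp (-c s * z x) * heat m μ s g x +
        Real.exp (-c s * z x) * lap m μ s g x) s (𝓝[≠] 0) := by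
  have hu : ∀ r, MemLp (heat m μ r g) 2 μ := fun r => (DS.memLp_iff m μ).2 (heat_memLp r g)
  have ha : MemLp (lap m μ s g) 2 μ := (DS.memLp_iff m μ).2 (lap_memLp s g)
  have hd := heat_derL2 (μ := μ) hg hs
  have t1 : Tendsto (fun h => (c (s + h) - c s) / h) (𝓝[≠] 0) (𝓝 k) :=
    (hasDerivAt_iff_tendsto_slope_zero.1 hc).congr fun h => by rw [smul_eq_mul, div_eq_inv_mul]
  have t0 : Tendsto (fun h => s + h) (𝓝[≠] (0 : ℝ)) (𝓝 s) := by
    simpa using (tendsto_nhdsWithin_of_tendsto_nhds (s := {0}ᶜ) (tendsto_id (x := 𝓝 (0 : ℝ)))).const_add s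
  have t2 : Tendsto (fun h => |c (s + h) - c s|) (𝓝[≠] 0) (𝓝 0) := by
    simpa using ((hc.continuousAt.tendsto.comp t0).sub_const (c s)).abs
  have t3 : Tendsto (fun h => (Z ^ 2 * (|c (s + h) - c s| * |(c (s + h) - c s) / h|) +
      Z * |(c (s + h) - c s) / h - k|) ^ 2 * nsq μ g) (𝓝[≠] 0) (𝓝 0) := by
    simpa using ((((t2.mul t1.abs).const_mul (Z ^ 2)).add
      ((t1.sub_const k).abs.const_mul Z)).pow 2).mul_const (nsq μ g)
  have e1 : ∀ᶠ h in 𝓝[≠] (0 : ℝ), |c (s + h) - c s| * Z ≤ 1 :=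
    (t2.mul_const Z).eventually (eventually_le_nhds (by simp))
  have e2 : ∀ᶠ h in 𝓝[≠] (0 : ℝ), 0 ≤ s + h := t0.eventually (eventually_ge_nhds hs)
  have b1 := fun h : ℝ => e5c_mul (μ := μ) (w := fun x => Real.exp (-c s * z x)) (by fun_prop)
    (fun x => e5c_one h0 (hZ x).1) ((a5b_quot hu s h).sub ha)
  have b2 := fun (h : ℝ) (hh : |c (s + h) - c s| * Z ≤ 1) => e5c_mul (μ := μ)
    (w := fun x => (Real.exp (-c (s + h) * z x) - Real.exp (-c s * z x)) / h -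
      -(k * z x) * Real.exp (-c s * z x)) (by fun_prop)
    (fun x => e5c_exp k h (hZ x).1 (hZ x).2 h0 hh) (hu (s + h))
  have b3 := fun h : ℝ => e5c_mul (μ := μ) (w := fun x => -(k * z x) * Real.exp (-c s * z x))
    (M := |k| * Z) (by fun_prop) (fun x => by
      rw [abs_mul, abs_neg, abs_mul, abs_of_nonneg (hZ x).1]
      exact (mul_le_of_le_one_right (mul_nonneg (abs_nonneg _) (hZ x).1) (e5c_one h0 (hZ x).1)).trans
        (mul_le_mul_of_nonneg_left (hZ x).2 (abs_nonneg _))) ((hu (s + h)).sub (hu s))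
  have T1 := a5b_small (Eventually.of_forall fun h => (b1 h).2) hd
  have T2 := squeeze_zero' (Eventually.of_forall fun _ => nsq_nonneg _)
    ((e1.and e2).mono fun h hh => (b2 h hh.1).2.trans
      (mul_le_mul_of_nonneg_left (nsq_heat_le hg hh.2) (sq_nonneg _))) t3
  have T0 := DerL2.tendsto (u := fun r => heat m μ r g) le_rfl hu ha hd
  have T3 := a5b_small (g := fun h x => heat m μ (s + h) g x - heat m μ s g x)
    (Eventually.of_forall fun h => (b3 h).2) T0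
  have T := e5c_add (Eventually.of_forall fun h => (b1 h).1) (e1.mono fun h hh => (b2 h hh).1)
    (Eventually.of_forall fun h => (b3 h).1) T1 T2 T3
  refine T.congr fun h => congrArg (nsq μ) (funext fun x => ?_)
  simp only [Pi.sub_apply]
  ring

theorem e5c_cont {z g : X → ℝ} {Z : ℝ} (hz : Continuous z) (hZ : ∀ x, 0 ≤ z x ∧ z x ≤ Z)
    (hg : MemLp g 2 m) {c : ℝ → ℝ} {τ : ℝ} (hc : ContinuousOn c (Icc 0 τ))
    (h0 : ∀ s ∈ Icc 0 τ, 0 ≤ c s) :
    ContinuousOn (fun r => ∫ x, Real.exp (-c r * z x) * heat m μ r g x * heat m μ r g x ∂μ)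
      (Icc 0 τ) := by
  intro s hs
  have hu : ∀ r, MemLp (heat m μ r g) 2 μ := fun r => (DS.memLp_iff m μ).2 (heat_memLp r g)
  have hB := (heat_cont (μ := μ) hg hs.1).mono_left 
    (nhdsWithin_mono s (Icc_subset_Ici_self : Icc 0 τ ⊆ Ici 0))
  have a1 := fun r (hr : r ∈ Icc 0 τ) => (e5c_mul (μ := μ) (w := fun x => Real.exp (-c r * z x))
    (by fun_prop) (fun x => e5c_one (h0 r hr) (hZ x).1) (hu r)).1
  have b1 := fun r : ℝ => e5c_mul (μ := μ) (w := fun x => Real.exp (-c s * z x)) (by fun_prop)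
    (fun x => e5c_one (h0 s hs) (hZ x).1) ((hu r).sub (hu s))
  have b2 := fun r (hr : r ∈ Icc 0 τ) => e5c_mul (μ := μ)
    (w := fun x => Real.exp (-c r * z x) - Real.exp (-c s * z x)) (M := |c r - c s| * Z)
    (by fun_prop) (fun x => by
      refine (a4a_exp (B := 0) (by nlinarith [mul_nonneg (h0 r hr) (hZ x).1])
        (by nlinarith [mul_nonneg (h0 s hs) (hZ x).1])).trans ?_
      rw [Real.exp_zero, one_mul, ← sub_mul, abs_mul, abs_of_nonneg (hZ x).1, neg_sub_neg,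
        abs_sub_comm]
      exact mul_le_mul_of_nonneg_left (hZ x).2 (abs_nonneg _)) (hu r)
  have t3 : Tendsto (fun r => (|c r - c s| * Z) ^ 2 * nsq μ g) (𝓝[Icc 0 τ] s) (𝓝 0) := by
    simpa using ((((hc s hs).tendsto.sub_const (c s)).abs.mul_const Z).pow 2).mul_const (nsq μ g)
  have e : ∀ᶠ r in 𝓝[Icc 0 τ] s, r ∈ Icc 0 τ := self_mem_nhdsWithin
  have T1 := a5b_small (Eventually.of_forall fun r => (b1 r).2) hB
  have T2 := squeeze_zero' (Eventually.of_forall fun _ => nsq_nonneg _)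
    (e.mono fun r hr => (b2 r hr).2.trans
      (mul_le_mul_of_nonneg_left (nsq_heat_le hg hr.1) (sq_nonneg _))) t3
  have T := a5b_add (Eventually.of_forall fun r => (b1 r).1) (e.mono fun r hr => (b2 r hr).1) T1 T2
  refine tendsto_integral_mul (e.mono a1) (Eventually.of_forall hu) (a1 s hs) (hu s)
    (T.congr fun r => congrArg (nsq μ) (funext fun x => ?_)) hB
  simp only [Pi.sub_apply]
  ring

theorem e5c_le {D u a : X → ℝ} (hD : BddLip D) (hD1 : LipschitzWith 1 D) (h : IsLap m μ u a)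
    {c : ℝ} (hc : 0 ≤ c) :
    ∫ x, Real.exp (-c * D x ^ 2) * u x * a x ∂μ ≤
      ∫ x, c ^ 2 * D x ^ 2 * Real.exp (-c * D x ^ 2) * u x * u x ∂μ := by
  obtain ⟨B, hB⟩ := hD.1
  have hψ : BddLip fun x => -c / 2 * (D x * D x) :=
    BddLip.mul ⟨⟨_, fun _ => le_rfl⟩, 0, LipschitzWith.const _⟩ (hD.mul hD)
  have h1 := dg_deriv h hψ one_pos
  obtain ⟨hs, h2⟩ := sl_of_lip (m := m) hD1
  obtain ⟨-, -, h3⟩ := gam_chain_Icc (DS.hilb μ) hs hs (a := -B) (b := B)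
    (ae_of_all _ fun x => abs_le.1 (hB x)) (fun z => -c / 2 * (z * z)) (fun z => -c * z)
    (fun z _ => (((hasDerivAt_id z).mul (hasDerivAt_id z)).const_mul (-c / 2)).congr_deriv
      (by simp only [id]; ring)) (by fun_prop)
  have hu := (DS.memLp_iff m μ).2 h.sw.memLp
  have hc' := hD1.continuous
  have h4 := (e5c_mul (μ := μ) (w := fun x => c ^ 2 * D x ^ 2 * Real.exp (-c * D x ^ 2))
    (M := c ^ 2 * B ^ 2) (by fun_prop) (fun x => by
      rw [abs_mul, abs_of_nonneg (by positivity)]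
      refine (mul_le_of_le_one_right (by positivity) (e5c_one hc (sq_nonneg _))).trans ?_
      exact mul_le_mul_of_nonneg_left (sq_le_sq' (abs_le.1 (hB x)).1 (abs_le.1 (hB x)).2)
        (sq_nonneg _)) hu).1.integrable_mul hu
  have e : ∀ x, 2 * (-c / 2 * (D x * D x)) = -c * D x ^ 2 := fun x => by ring
  simp only [e] at h1
  have h5 : ∫ x, Real.exp (-c * D x ^ 2) * u x ^ 2 * Dw m (fun x => -c / 2 * (D x * D x)) x ^ 2 ∂μ ≤
      ∫ x, c ^ 2 * D x ^ 2 * Real.exp (-c * D x ^ 2) * u x * u x ∂μ := by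
    refine integral_mono_of_nonneg (ae_of_all _ fun x => by positivity) h4 ((DS.ac₁ m μ).ae_le ?_)
    filter_upwards [h2, h3, Dw_nonneg (m := m) D] with x e2 e3 e4
    have e5 : (|-c * D x| * Dw m D x) ^ 2 ≤ c ^ 2 * D x ^ 2 := by
      rw [mul_pow, sq_abs]
      refine (mul_le_of_le_one_right (sq_nonneg _) (pow_le_one₀ e4 e2)).trans_eq (by ring)
    rw [e3]
    exact (mul_le_mul_of_nonneg_left e5 (by positivity)).trans_eq (by ring)
  linarith

theorem dg_quad {D g : X → ℝ} (hD : BddLip D) (hD1 : LipschitzWith 1 D) (hg : MemLp g 2 m)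
    {τ τ' : ℝ} (hτ : 0 ≤ τ) (hτ' : τ < τ') {B : Set X} (hB : MeasurableSet B)
    (h0 : ∀ x ∈ B, D x = 0) :
    ∫ x in B, heat m μ τ g x ^ 2 ∂μ ≤ ∫ x, Real.exp (-D x ^ 2 / (2 * τ')) * g x ^ 2 ∂μ := by
  obtain ⟨M, hM⟩ := hD.1
  have hc' := hD1.continuous
  have hZ : ∀ x, 0 ≤ D x ^ 2 ∧ D x ^ 2 ≤ M ^ 2 := fun x =>
    ⟨sq_nonneg _, sq_le_sq' (abs_le.1 (hM x)).1 (abs_le.1 (hM x)).2⟩
  have hu : ∀ r, MemLp (heat m μ r g) 2 μ := fun r => (DS.memLp_iff m μ).2 (heat_memLp r g)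
  obtain ⟨c, hc⟩ : ∃ c : ℝ → ℝ, c = fun r => (2 * (τ' - r))⁻¹ := ⟨_, rfl⟩
  have hc0 : ∀ s, s ≤ τ → 0 ≤ c s := fun s hs => by
    rw [hc]
    exact inv_nonneg.2 (by linarith)
  have hcd : ∀ s, s ≤ τ → HasDerivAt c (2 * c s ^ 2) s := fun s hs => by
    have h1 : 2 * (τ' - s) ≠ 0 := ne_of_gt (by linarith)
    rw [hc]
    refine ((((hasDerivAt_id s).const_sub τ').const_mul 2).fun_inv h1).congr_deriv ?_
    simp only [id, inv_pow]
    ring
  have hw : ∀ r, MemLp (fun x => Real.exp (-c r * D x ^ 2) * heat m μ r g x) 2 μ := fun r =>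
    (e5c_mul (w := fun x => Real.exp (-c r * D x ^ 2)) (M := Real.exp (|c r| * M ^ 2))
      (by fun_prop) (fun x => by
        rw [abs_of_pos (Real.exp_pos _), Real.exp_le_exp]
        exact mul_le_mul (neg_le_abs _) (hZ x).2 (hZ x).1 (abs_nonneg _)) (hu r)).1
  have hder : ∀ s ∈ Ioo 0 τ, ∃ y', y' ≤ 0 ∧ HasDerivAt
      (fun r => ∫ x, Real.exp (-c r * D x ^ 2) * heat m μ r g x * heat m μ r g x ∂μ) y' s := by
    intro s hs
    have ha : MemLp (lap m μ s g) 2 μ := (DS.memLp_iff m μ).2 (lap_memLp s g)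
    have h1 := (e5c_mul (μ := μ) (w := fun x => c s ^ 2 * D x ^ 2 * Real.exp (-c s * D x ^ 2))
      (M := c s ^ 2 * M ^ 2) (by fun_prop) (fun x => by
        rw [abs_mul, abs_of_nonneg (by positivity)]
        exact (mul_le_of_le_one_right (by positivity) (e5c_one (hc0 s hs.2.le) (hZ x).1)).trans
          (mul_le_mul_of_nonneg_left (hZ x).2 (sq_nonneg _))) (hu s)).1
    have h2 := (e5c_mul (μ := μ) (w := fun x => Real.exp (-c s * D x ^ 2)) (by fun_prop)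
      (fun x => e5c_one (hc0 s hs.2.le) (hZ x).1) ha).1
    have h3 : MemLp (fun x => -(2 * c s ^ 2 * D x ^ 2) * Real.exp (-c s * D x ^ 2) * heat m μ s g x +
        Real.exp (-c s * D x ^ 2) * lap m μ s g x) 2 μ := by
      refine ((h1.const_mul (-2)).add h2).ae_eq (ae_of_all _ fun x => ?_)
      simp only [Pi.add_apply]
      ring
    refine ⟨_, ?_, DerL2.hasDerivAt_integral_mul hw hu h3 ha
      (e5c_der (by fun_prop) hZ hg (hcd s hs.2.le) (hc0 s hs.2.le) hs.1) (heat_derL2 hg hs.1)⟩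
    have h4 := e5c_le hD hD1 (isLap_heat (μ := μ) hg hs.1) (hc0 s hs.2.le)
    have h5 := integral_add ((h1.integrable_mul (hu s)).const_mul (-2)) ((hw s).integrable_mul ha)
    rw [integral_const_mul] at h5
    simp only [Pi.mul_apply] at h5
    have h6 : ∫ x, (-(2 * c s ^ 2 * D x ^ 2) * Real.exp (-c s * D x ^ 2) * heat m μ s g x +
        Real.exp (-c s * D x ^ 2) * lap m μ s g x) * heat m μ s g x ∂μ = _ :=
      (integral_congr_ae (ae_of_all _ fun x => by ring)).trans h5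
    rw [h6]
    linarith
  have hanti := antitoneOn_of_deriv_nonpos (convex_Icc 0 τ)
    (e5c_cont (μ := μ) (by fun_prop) hZ hg (fun s hs => (hcd s hs.2).continuousAt.continuousWithinAt)
      fun s hs => hc0 s hs.2)
    (fun s hs => (hder s (by simpa using hs)).choose_spec.2.differentiableAt.differentiableWithinAt)
    (fun s hs => by
      obtain ⟨y', h1, h2⟩ := hder s (by simpa using hs)
      rwa [h2.deriv])
  refine le_trans ?_ ((hanti ⟨le_rfl, hτ⟩ ⟨hτ, le_rfl⟩ hτ).trans_eq (integral_congr_ae ?_))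
  · refine le_trans (le_of_eq (setIntegral_congr_fun hB fun x hx => ?_))
      (setIntegral_le_integral ((hw τ).integrable_mul (hu τ)) (ae_of_all _ fun x => ?_))
    · simp [h0 x hx, sq]
    · simp only [Pi.zero_apply, mul_assoc]
      exact mul_nonneg (Real.exp_pos _).le (mul_self_nonneg _)
  · filter_upwards [(DS.ac₁ m μ).ae_le (heat_zero (μ := μ) hg)] with x hx
    rw [hx, hc, mul_assoc, ← sq]
    congr 2
    ring

end Crest.Agent.R242
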