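import Crest.Agent.R242.E5

/-! Block E6: the mass of the heat flow stays near the initial support.
With `d = (r₂ - r₁)/2`, `χ = cut x (r₁ + d) d` (`1` on `closedBall x (r₁+d)`, `0` off `ball x r₂`):
`∫ χ P_s ρ - ∫ χ P_{s₀} ρ = ∫_{s₀}^s ∫ χ lap = -∫_{s₀}^s ∫ Γ(P_t ρ, χ)` (FTC; `heat_derL2`, `lap_cont`),
`|Γ(u, χ)| ≤ Du/d` on `A = closedBall x r₂ \ ball x (r₁+d)` and `0` elsewhere (locality),
`∫_A Du ≤ (β/2) μ(A) + (1/(2β)) ∫_A Γ(u,u)` for the optimal `β` (or Cauchy-Schwarz twice),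
`dg_tail_grad`; let `s₀ → 0` (`heat_tendsto_zero`).  The second statement follows from the first and
`heat_integrable`. -/

set_option autoImplicit false
set_option linter.unusedSectionVars false
set_option linter.unusedVariables false
open MeasureTheory Filter Set Metric
open scoped ENNReal NNReal Topology
open Crest.GeometryTopology.SyntheticRicci

noncomputable section
namespace Crest.Agent.R242

variable {X : Type*} [MetricSpace X] [MeasurableSpace X] [BorelSpace X] [ProperSpace X]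
  {m : Measure X} [IsFiniteMeasureOnCompacts m] [m.IsOpenPosMeasure] {μ : Measure X} [DS m μ]

theorem e6_opt {Δ p q : ℝ} (hp : 0 ≤ p) (hq : 0 ≤ q)
    (h : ∀ β : ℝ, 0 < β → Δ ≤ β / 2 * p ^ 2 + 1 / (2 * β) * q ^ 2) : Δ ≤ p * q := by
  have hc : Tendsto (fun ε : ℝ => (p + ε) * (q + ε)) (𝓝[>] 0) (𝓝 ((p + 0) * (q + 0))) :=
    (Continuous.tendsto (by fun_prop) 0).mono_left nhdsWithin_le_nhds
  rw [add_zero, add_zero] at hc
  refine ge_of_tendsto hc ?_
  filter_upwards [self_mem_nhdsWithin] with ε hε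
  have hε : 0 < ε := hε
  have h1 : 0 < p + ε := by linarith
  have h2 : 0 < q + ε := by linarith
  calc Δ ≤ (q + ε) / (p + ε) / 2 * p ^ 2 + 1 / (2 * ((q + ε) / (p + ε))) * q ^ 2 := h _ (by positivity)
    _ ≤ (q + ε) / (p + ε) / 2 * (p + ε) ^ 2 + 1 / (2 * ((q + ε) / (p + ε))) * (q + ε) ^ 2 := by
        gcongr <;> linarith
    _ = _ := by field_simp; ring

theorem e6_gam {u : X → ℝ} (hu : SW m u) (x : X) (R : ℝ) {d β : ℝ} (hd : 0 < d) (hβ : 0 < β) :
    ∫ y, Gam m u (cut x R d) y ∂μ ≤ 1 / d * (β / 2 * μ.real (closedBall x (R + d)) +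
      1 / (2 * β) * ∫ y in (ball x R)ᶜ, Gam m u u y ∂μ) := by
  have := DS.finComp m μ
  have hI : IsInfHilbertian m := DS.hilb μ
  have hχ : SW m (cut x R d) := sw_of_lip (cut_lip x R hd) (cut_compact x R hd)
  have i1 : Integrable ((closedBall x (R + d)).indicator fun _ => (1 : ℝ)) μ :=
    (integrable_indicator_iff measurableSet_closedBall).2
      (integrableOn_const (isCompact_closedBall _ _).measure_lt_top.ne)
  have i2 : Integrable ((ball x R)ᶜ.indicator (Gam m u u)) μ :=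
    ((DS.integrable_iff m μ).2 (SW.integrable_gam hI hu hu)).indicator measurableSet_ball.compl
  have e1 : μ.real (closedBall x (R + d)) =
      ∫ y, (closedBall x (R + d)).indicator (fun _ => (1 : ℝ)) y ∂μ := by
    rw [integral_indicator measurableSet_closedBall, setIntegral_const, smul_eq_mul, mul_one]
  rw [e1, ← integral_indicator measurableSet_ball.compl, ← integral_const_mul, ← integral_const_mul,
    ← integral_add (i1.const_mul _) (i2.const_mul _), ← integral_const_mul]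
  refine integral_mono_ae ((DS.integrable_iff m μ).2 (SW.integrable_gam hI hu hχ))
    (((i1.const_mul _).add (i2.const_mul _)).const_mul _) (c4c_ae m μ ?_)
  filter_upwards [abs_gam_le hI hu.sl hχ.sl, (sl_of_lip (m := m) (cut_lip x R hd)).2,
    hχ.sl.Dw_local (sl_const (m := m) 1).1, (sl_const (m := m) 1).2, hχ.sl.Dw_eq_zero, hu.sl.gam_self,
    Dw_nonneg (m := m) u] with y h1 h2 h3 h4 h5 h6 h7
  have n1 : 0 ≤ (closedBall x (R + d)).indicator (fun _ => (1 : ℝ)) y :=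
    indicator_nonneg (fun _ _ => zero_le_one) y
  have n2 : 0 ≤ (ball x R)ᶜ.indicator (Gam m u u) y := by
    by_cases hy : y ∈ (ball x R)ᶜ
    · rw [indicator_of_mem hy, h6]; positivity
    · rw [indicator_of_notMem hy]
  refine (le_abs_self _).trans (h1.trans ?_)
  by_cases hy : y ∈ ball x R
  · rw [h3 (cut_eq_one hd (mem_ball.1 hy).le), h4, mul_zero]; positivity
  by_cases hy' : y ∈ closedBall x (R + d)
  swap
  · rw [h5 (cut_eq_zero hd (not_le.1 (mt mem_closedBall.2 hy')).le), mul_zero]; positivity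
  rw [indicator_of_mem hy', indicator_of_mem (mem_compl hy), h6]
  rw [Real.coe_toNNReal _ (by positivity)] at h2
  refine (mul_le_mul_of_nonneg_left h2 h7).trans ?_
  rw [mul_comm]
  refine mul_le_mul_of_nonneg_left ?_ (by positivity)
  have e : β / 2 * 1 + 1 / (2 * β) * Dw m u y ^ 2 - Dw m u y = (β - Dw m u y) ^ 2 / (2 * β) := by
    field_simp; ring
  have : 0 ≤ (β - Dw m u y) ^ 2 / (2 * β) := by positivity
  linarith

theorem e6_step {ρ : X → ℝ} (hρ : MemLp ρ 2 m) {x : X} {r d a s₀ s : ℝ}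
    (hs : ∀ᵐ y ∂m, y ∉ closedBall x r → ρ y = 0) (hd : 0 < d) (ha : 0 ≤ a) (h0 : 0 < s₀) (h1 : s₀ ≤ s) :
    ∫ y, heat m μ s₀ ρ y * cut x (r + d) d y ∂μ - ∫ y, heat m μ s ρ y * cut x (r + d) d y ∂μ ≤
      1 / d * (Real.sqrt (s * μ.real (closedBall x (r + d + d))) *
        (Real.exp (2 * a ^ 2 * s - a * d) * Real.sqrt (nsq μ ρ))) := by
  have hχ : SW m (cut x (r + d) d) := sw_of_lip (cut_lip x _ hd) (cut_compact x _ hd)
  have hV : 0 ≤ μ.real (closedBall x (r + d + d)) := measureReal_nonneg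
  have hder : ∀ t, 0 < t → HasDerivAt (fun t => -∫ y, heat m μ t ρ y * cut x (r + d) d y ∂μ)
      (∫ y, Gam m (heat m μ t ρ) (cut x (r + d) d) y ∂μ) t := fun t ht => by
    have h := (DerL2.hasDerivAt_integral_mul (μ := μ) (a := fun t => heat m μ t ρ)
      (b := fun _ => cut x (r + d) d) (fun t => (DS.memLp_iff m μ).2 (heat_memLp t ρ))
      (fun _ => (DS.memLp_iff m μ).2 hχ.memLp) ((DS.memLp_iff m μ).2 (lap_memLp t ρ)) MemLp.zero'
      (heat_derL2 hρ ht) (DerL2.const _ t _)).fun_neg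
    rw [(isLap_heat hρ ht).2.2 _ hχ]
    simpa using h
  have hz := (setIntegral_gam_heat_cont (μ := μ) hρ (ball x (r + d))ᶜ).mono
    (show Icc s₀ s ⊆ Ioi 0 from fun t ht => h0.trans_le ht.1)
  have hT := dg_tail_grad (μ := μ) (R := r + d) hρ hs (by linarith) ha h0 h1
  rw [← div_le_iff₀' (by positivity : 0 < 1 / d)]
  refine e6_opt (Real.sqrt_nonneg _) (by positivity) fun β hβ => ?_
  rw [div_le_iff₀' (by positivity : 0 < 1 / d)]
  have key := intervalIntegral.sub_le_integral_of_hasDeriv_right_of_le h1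
    (fun t ht => (hder t (h0.trans_le ht.1)).continuousAt.continuousWithinAt)
    (fun t ht => (hder t (h0.trans ht.1)).hasDerivWithinAt)
    (φ := fun t => 1 / d * (β / 2 * μ.real (closedBall x (r + d + d)) +
      1 / (2 * β) * ∫ y in (ball x (r + d))ᶜ, Gam m (heat m μ t ρ) (heat m μ t ρ) y ∂μ))
    ((continuousOn_const.mul (continuousOn_const.add (continuousOn_const.mul hz))).integrableOn_Icc)
    (fun t ht => e6_gam (heat_sw hρ (h0.trans ht.1)) x (r + d) hd hβ)
  rw [intervalIntegral.integral_const_mul, intervalIntegral.integral_add intervalIntegrable_const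
    ((hz.intervalIntegrable_of_Icc h1).const_mul _), intervalIntegral.integral_const,
    intervalIntegral.integral_const_mul, smul_eq_mul] at key
  refine le_trans (le_of_eq (by ring)) (key.trans (mul_le_mul_of_nonneg_left ?_ (by positivity)))
  rw [Real.sq_sqrt (mul_nonneg (by linarith) hV), mul_pow, Real.sq_sqrt (nsq_nonneg _),
    ← Real.exp_nat_mul]
  refine add_le_add ?_ (mul_le_mul_of_nonneg_left (hT.trans_eq ?_) (by positivity))
  · have : 0 ≤ s₀ * (β / 2 * μ.real (closedBall x (r + d + d))) := by positivity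
    linarith
  · congr 2
    push_cast
    ring

theorem mass_tail {ρ : X → ℝ} (hρ : MemLp ρ 2 m) (hi : Integrable ρ m) (h0 : ∀ᵐ y ∂m, 0 ≤ ρ y)
    {x : X} {r₁ r₂ a s : ℝ} (hs : ∀ᵐ y ∂m, y ∉ closedBall x r₁ → ρ y = 0) (hr : r₁ < r₂)
    (ha : 0 ≤ a) (hs0 : 0 ≤ s) :
    ∫ y, ρ y ∂μ - 2 / (r₂ - r₁) * Real.sqrt (s * μ.real (closedBall x r₂)) *
        Real.exp (2 * a ^ 2 * s - a * ((r₂ - r₁) / 2)) * Real.sqrt (nsq μ ρ) ≤
      ∫ y in ball x r₂, heat m μ s ρ y ∂μ := by
  obtain ⟨d, hd, rfl⟩ : ∃ d, 0 < d ∧ r₂ = r₁ + d + d := ⟨(r₂ - r₁) / 2, by linarith, by ring⟩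
  have hχ : SW m (cut x (r₁ + d) d) := sw_of_lip (cut_lip x _ hd) (cut_compact x _ hd)
  have hχ2 := (DS.memLp_iff m μ).2 hχ.memLp
  have hP := fun t => (DS.memLp_iff m μ).2 (heat_memLp (μ := μ) t ρ)
  have e0 : ∫ y, ρ y * cut x (r₁ + d) d y ∂μ = ∫ y, ρ y ∂μ := by
    refine integral_congr_ae (c4c_ae m μ ?_)
    filter_upwards [hs] with y hy
    by_cases h : y ∈ closedBall x r₁
    · rw [cut_eq_one hd (by linarith [mem_closedBall.1 h]), mul_one]
    · rw [hy h, zero_mul]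
  have e1 : 2 / (r₁ + d + d - r₁) * Real.sqrt (s * μ.real (closedBall x (r₁ + d + d))) *
      Real.exp (2 * a ^ 2 * s - a * ((r₁ + d + d - r₁) / 2)) * Real.sqrt (nsq μ ρ) =
      1 / d * (Real.sqrt (s * μ.real (closedBall x (r₁ + d + d))) *
        (Real.exp (2 * a ^ 2 * s - a * d) * Real.sqrt (nsq μ ρ))) := by
    rw [show r₁ + d + d - r₁ = 2 * d by ring, mul_div_cancel_left₀ _ two_ne_zero]
    field_simp
  have k1 : ∫ y, ρ y ∂μ - ∫ y, heat m μ s ρ y * cut x (r₁ + d) d y ∂μ ≤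
      1 / d * (Real.sqrt (s * μ.real (closedBall x (r₁ + d + d))) *
        (Real.exp (2 * a ^ 2 * s - a * d) * Real.sqrt (nsq μ ρ))) := by
    rw [← e0]
    rcases hs0.eq_or_lt with rfl | hpos
    · rw [integral_congr_ae (f := fun y => heat m μ 0 ρ y * cut x (r₁ + d) d y)
        (g := fun y => ρ y * cut x (r₁ + d) d y) (c4c_ae m μ ?_), sub_self]
      · positivity
      · filter_upwards [heat_zero (μ := μ) hρ] with y hy
        rw [hy]
    · have hl := tendsto_integral_mul (μ := μ) (l := 𝓝[>] (0 : ℝ)) (a := fun t => heat m μ t ρ)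
        (b := fun _ => cut x (r₁ + d) d) (Eventually.of_forall hP) (Eventually.of_forall fun _ => hχ2)
        ((DS.memLp_iff m μ).2 hρ) hχ2 (heat_tendsto_zero hρ) (by simp [nsq])
      refine le_of_tendsto (hl.sub_const _) ?_
      filter_upwards [Ioc_mem_nhdsGT hpos] with t ht
      exact e6_step hρ hs hd ha ht.1 ht.2
  have k2 : ∫ y, heat m μ s ρ y * cut x (r₁ + d) d y ∂μ ≤ ∫ y in ball x (r₁ + d + d), heat m μ s ρ y ∂μ := by
    rw [← integral_indicator measurableSet_ball]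
    refine integral_mono_ae ((hP s).integrable_mul hχ2)
      (((DS.integrable_iff m μ).2 (heat_integrable hρ hi hs0).1).indicator measurableSet_ball)
      (c4c_ae m μ ?_)
    filter_upwards [heat_nonneg (μ := μ) hρ hs0 h0] with y hy
    by_cases h : y ∈ ball x (r₁ + d + d)
    · rw [indicator_of_mem h]
      exact mul_le_of_le_one_right hy (cut_le_one _ _ _ _)
    · rw [indicator_of_notMem h, cut_eq_zero hd (not_lt.1 (mt mem_ball.2 h)), mul_zero]
  rw [e1]
  linarith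

theorem mass_tail_compl {ρ : X → ℝ} (hρ : MemLp ρ 2 m) (hi : Integrable ρ m)
    (h0 : ∀ᵐ y ∂m, 0 ≤ ρ y) {x : X} {r₁ r₂ a s : ℝ}
    (hs : ∀ᵐ y ∂m, y ∉ closedBall x r₁ → ρ y = 0) (hr : r₁ < r₂) (ha : 0 ≤ a) (hs0 : 0 ≤ s) :
    ∫ y in (ball x r₂)ᶜ, heat m μ s ρ y ∂μ ≤
      2 / (r₂ - r₁) * Real.sqrt (s * μ.real (closedBall x r₂)) *
        Real.exp (2 * a ^ 2 * s - a * ((r₂ - r₁) / 2)) * Real.sqrt (nsq μ ρ) := by
  have h1 := mass_tail (μ := μ) hρ hi h0 hs hr ha hs0
  obtain ⟨h2, h3⟩ := heat_integrable (μ := μ) hρ hi hs0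
  have h4 := integral_add_compl (measurableSet_ball (x := x) (ε := r₂)) ((DS.integrable_iff m μ).2 h2)
  have h5 : ∫ y, |ρ y| ∂μ = ∫ y, ρ y ∂μ :=
    integral_congr_ae (c4c_ae m μ (h0.mono fun y hy => abs_of_nonneg hy))
  have h6 : ∫ y, |heat m μ s ρ y| ∂μ = ∫ y, heat m μ s ρ y ∂μ :=
    integral_congr_ae (c4c_ae m μ ((heat_nonneg hρ hs0 h0).mono fun y hy => abs_of_nonneg hy))
  linarith

end Crest.Agent.R242
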