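import Crest.Agent.R242.Defs

/-! Block F1: lower bounds for the distortion coefficient at time `1/2`.
With `a = θ √(|K|/(N-1))`: `σ = 1/(2 cos(a/2)) ≥ 1/2` (or `⊤`) for `K > 0`, `1/2` for `K = 0` or `θ = 0`,
`1/(2 cosh(a/2))` for `K < 0`; `Real.cosh_le_exp_half_sq`, `cosh x ≤ exp |x|`. -/

set_option autoImplicit false
set_option linter.unusedSectionVars false
set_option linter.unusedVariables false
open MeasureTheory Filter Set Metric
open scoped ENNReal NNReal Topology
open Crest.GeometryTopology.SyntheticRicci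

noncomputable section
namespace Crest.Agent.R242



theorem kap_nonneg (K : ℝ) : 0 ≤ kap K := le_max_right _ _

theorem f1_sigma (K : ℝ) {M θ : ℝ} (hM : 0 < M) (hθ : 0 ≤ θ) :
    ENNReal.ofReal (1 / 2 / Real.cosh (θ * Real.sqrt (kap K / M) / 2)) ≤ distortSigma K M (1 / 2) θ := by
  have h0 : 1 / 2 / Real.cosh (θ * Real.sqrt (kap K / M) / 2) ≤ 1 / 2 :=
    div_le_self (by norm_num) (Real.one_le_cosh _)
  rw [distortSigma, if_neg (by norm_num), if_neg (by norm_num)]
  split_ifs with h1 h2 h3 h4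
  · exact ENNReal.ofReal_le_ofReal h0
  · refine ENNReal.ofReal_le_ofReal (h0.trans ?_)
    have hθ' : 0 < θ := hθ.lt_of_ne' h1
    have ha : 0 < θ * Real.sqrt (K / M) := by positivity
    have hπ : θ * Real.sqrt (K / M) < Real.pi := by
      refine lt_of_pow_lt_pow_left₀ 2 Real.pi_pos.le ?_
      rw [mul_pow, Real.sq_sqrt (by positivity), ← mul_div_assoc, div_lt_iff₀ hM]
      linarith
    rw [mul_assoc]
    generalize θ * Real.sqrt (K / M) = a at ha hπ
    rw [le_div_iff₀ (Real.sin_pos_of_pos_of_lt_pi ha hπ)]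
    have e := Real.sin_two_mul (1 / 2 * a)
    rw [show 2 * (1 / 2 * a) = a by ring] at e
    have := Real.sin_pos_of_pos_of_lt_pi (x := 1 / 2 * a) (by positivity) (by linarith)
    nlinarith [Real.cos_le_one (1 / 2 * a)]
  · exact le_top
  · exact ENNReal.ofReal_le_ofReal h0
  · have hK : 0 < -K := neg_pos.2 ((not_lt.1 h2).lt_of_ne h4)
    have hθ' : 0 < θ := hθ.lt_of_ne' h1
    have ha : 0 < θ * Real.sqrt (-K / M) := by positivity
    rw [kap, max_eq_left hK.le, mul_assoc]
    generalize θ * Real.sqrt (-K / M) = a at ha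
    have e := Real.sinh_two_mul (1 / 2 * a)
    rw [show 2 * (1 / 2 * a) = a by ring] at e
    have h5 : 0 < Real.sinh (1 / 2 * a) := Real.sinh_pos_iff.2 (by positivity)
    have h6 := Real.cosh_pos (1 / 2 * a)
    rw [e, show a / 2 = 1 / 2 * a by ring]
    refine ENNReal.ofReal_le_ofReal (le_of_eq ?_)
    field_simp

theorem f1_tau (K : ℝ) {N θ c : ℝ} (hN : 1 < N) (hθ : 0 ≤ θ)
    (hc : Real.cosh (θ * Real.sqrt (kap K / (N - 1)) / 2) ≤ Real.exp c) :
    ENNReal.ofReal (1 / 2 * Real.exp (-(c * ((N - 1) / N)))) ≤ distortTau K N (1 / 2) θ := by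
  have hM : 0 < N - 1 := by linarith
  have hN0 : 0 < N := by linarith
  have h1 : ENNReal.ofReal (1 / 2 * Real.exp (-c)) ≤ distortSigma K (N - 1) (1 / 2) θ := by
    refine le_trans (ENNReal.ofReal_le_ofReal ?_) (f1_sigma K hM hθ)
    rw [Real.exp_neg, ← div_eq_mul_inv]
    exact div_le_div_of_nonneg_left (by norm_num) (Real.cosh_pos _) hc
  refine le_trans (le_of_eq ?_) (mul_le_mul_right (ENNReal.rpow_le_rpow h1 (by positivity)) _)
  rw [ENNReal.ofReal_rpow_of_pos (by norm_num), ENNReal.ofReal_rpow_of_pos (by positivity),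
    ← ENNReal.ofReal_mul (by positivity), Real.mul_rpow (by norm_num) (by positivity), ← mul_assoc,
    ← Real.rpow_add (by norm_num), ← Real.exp_mul, show 1 / N + (N - 1) / N = 1 by field_simp; ring,
    Real.rpow_one, neg_mul]

theorem tau_half_ge_sq (K : ℝ) {N θ : ℝ} (hN : 1 < N) (hθ : 0 ≤ θ) :
    ENNReal.ofReal (1 / 2 * Real.exp (-(kap K * θ ^ 2 / (8 * N)))) ≤ distortTau K N (1 / 2) θ := by
  have hM : 0 < N - 1 := by linarith
  have hN0 : 0 < N := by linarith
  have h := f1_tau K hN hθ (Real.cosh_le_exp_half_sq _)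
  rw [div_pow, mul_pow, Real.sq_sqrt (div_nonneg (kap_nonneg K) hM.le)] at h
  convert h using 5
  field_simp
  ring

theorem tau_half_ge_lin (K : ℝ) {N θ : ℝ} (hN : 1 < N) (hθ : 0 ≤ θ) :
    ENNReal.ofReal (1 / 2 * Real.exp (-(θ * Real.sqrt (kap K / (N - 1)) / 2))) ≤
      distortTau K N (1 / 2) θ := by
  have hN0 : 0 < N := by linarith
  have ha : 0 ≤ θ * Real.sqrt (kap K / (N - 1)) / 2 := by positivity
  refine le_trans (ENNReal.ofReal_le_ofReal ?_)
    (f1_tau K (c := θ * Real.sqrt (kap K / (N - 1)) / 2) hN hθ ?_)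
  · gcongr
    exact mul_le_of_le_one_right ha (div_le_one_of_le₀ (by linarith) hN0.le)
  · rw [Real.cosh_eq]
    have := Real.exp_le_exp.2 (neg_le_self ha)
    linarith

end Crest.Agent.R242
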