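import Crest.Agent.R242.F1
import Crest.Agent.R242.A1

/-! Block F2: doubling, properness and exponential growth (no `ProperSpace` assumed here).
`cd_doubling`: `μ₀ = cond m (ball x (2r))`, `μ₁ = cond m (ball x (r/3))`, `N' = N`, `t = 1/2`; drop the second
term; `ρ₀ = 1/m(ball x 2r)` `μ₀`-a.e., lengths are `≤ 3r`, so the left side is
`≥ ½ exp(-3r c₀/2) m(ball x 2r)^{1/N}` (`tau_half_ge_lin`, `c₀ = √(κ/(N-1))`); the midpoint law lives on
`B = closedBall x (3r/2)` (`d(γ_½, x) ≤ len/2 + r/3`), so its density vanishes a.e. off `B` and Hölder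
gives `renyiPower ≤ m(B)^{1/N}`.
`proper_of_doubling`: iterate to compare `m(ball x ε)` with `m(ball x (2R+2)) ≥ m(ball o 1)` uniformly
for `x ∈ closedBall o R`; an `ε`-separated subset of `closedBall o R` has boundedly many points;
totally bounded + complete.  `expGrowth_of_doubling`: iterate `k ≤ C(R+1)` times, the radii form a
geometric series. -/

set_option autoImplicit false
set_option linter.unusedSectionVars false
set_option linter.unusedVariables false
open MeasureTheory Filter Set Metric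
open scoped ENNReal NNReal Topology
open Crest.GeometryTopology.SyntheticRicci

noncomputable section
namespace Crest.Agent.R242

variable {X : Type*} [MetricSpace X] [CompleteSpace X] [TopologicalSpace.SeparableSpace X]
  [MeasurableSpace X] [BorelSpace X] {m : Measure X} [m.IsOpenPosMeasure]

theorem f2a_loc (hfin : IsFiniteOnBalls m) : IsLocallyFiniteMeasure m :=
  ⟨fun x => ⟨ball x 1, ball_mem_nhds x one_pos, hfin x 1⟩⟩

theorem sigmaFinite_of_fin (hfin : IsFiniteOnBalls m) : SigmaFinite m := by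
  have := f2a_loc hfin
  have : SecondCountableTopology X := UniformSpace.secondCountable_of_separable X
  infer_instance

theorem finComp_of_fin (hfin : IsFiniteOnBalls m) : IsFiniteMeasureOnCompacts m := by
  have := f2a_loc hfin
  infer_instance

theorem f2a_cond (hfin : IsFiniteOnBalls m) (x : X) {r : ℝ} (hr : 0 < r) :
    IsProbabilityMeasure (ProbabilityTheory.cond m (ball x r)) ∧
      HasFiniteSecondMoment (ProbabilityTheory.cond m (ball x r)) ∧
      ProbabilityTheory.cond m (ball x r) ≪ m ∧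
      (∀ᵐ y ∂(ProbabilityTheory.cond m (ball x r)), y ∈ ball x r) ∧
      ∀ᵐ y ∂(ProbabilityTheory.cond m (ball x r)),
        (ProbabilityTheory.cond m (ball x r)).rnDeriv m y = (m (ball x r))⁻¹ := by
  have := sigmaFinite_of_fin hfin
  have h0 : m (ball x r) ≠ 0 := (measure_ball_pos m x hr).ne'
  have hp := ProbabilityTheory.cond_isProbabilityMeasure_of_finite h0 (hfin x r).ne
  have hmem : ∀ᵐ y ∂(ProbabilityTheory.cond m (ball x r)), y ∈ ball x r :=
    ProbabilityTheory.ae_cond_mem measurableSet_ball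
  refine ⟨hp, ⟨x, ?_⟩, ProbabilityTheory.cond_absolutelyContinuous, hmem, ?_⟩
  · refine lt_of_le_of_lt (lintegral_mono_ae (g := fun _ => ENNReal.ofReal r ^ 2) ?_) ?_
    · filter_upwards [hmem] with y hy
      rw [edist_dist]
      gcongr
      exact (mem_ball.1 hy).le
    · rw [lintegral_const, measure_univ, mul_one]
      exact ENNReal.pow_lt_top ENNReal.ofReal_lt_top
  · have h1 := Measure.rnDeriv_smul_left_of_ne_top' (m.restrict (ball x r)) m
      (ENNReal.inv_ne_top.2 h0)
    have h2 := Measure.rnDeriv_restrict_self m (s := ball x r) measurableSet_ball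
    filter_upwards [hmem, ProbabilityTheory.cond_absolutelyContinuous.ae_le h1,
      ProbabilityTheory.cond_absolutelyContinuous.ae_le h2] with y hy e1 e2
    rw [ProbabilityTheory.cond, e1, Pi.smul_apply, e2, indicator_of_mem hy, Pi.one_apply,
      smul_eq_mul, mul_one]

theorem f2a_renyi {ν : Measure X} [IsProbabilityMeasure ν] {B : Set X} (hB : MeasurableSet B)
    (h : ν Bᶜ = 0) {N : ℝ} (hN : 1 < N) : renyiPower m ν N ≤ m B ^ (1 / N) := by
  have hq : 0 < 1 / N := by positivity
  have hp : 0 < 1 - 1 / N := by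
    rw [sub_pos, div_lt_one (by linarith)]
    exact hN
  have hρ := Measure.measurable_rnDeriv ν m
  have h0 : ν.rnDeriv m =ᵐ[m.restrict Bᶜ] 0 :=
    (lintegral_eq_zero_iff hρ).1 (le_antisymm ((Measure.setLIntegral_rnDeriv_le _).trans h.le) bot_le)
  have h1 : ∫⁻ y in Bᶜ, ν.rnDeriv m y ^ (1 - 1 / N) ∂m = 0 := by
    refine (lintegral_congr_ae ?_).trans lintegral_zero
    filter_upwards [h0] with y hy
    rw [hy, Pi.zero_apply, ENNReal.zero_rpow_of_pos hp]
  have h2 := ENNReal.lintegral_mul_norm_pow_le (μ := m.restrict B) (g := fun _ => 1)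
    hρ.aemeasurable aemeasurable_const hp.le hq.le (sub_add_cancel _ _)
  simp only [ENNReal.one_rpow, mul_one, lintegral_const, Measure.restrict_apply_univ, one_mul] at h2
  rw [renyiPower, ← lintegral_add_compl _ hB, h1, add_zero]
  refine h2.trans (mul_le_of_le_one_left' (ENNReal.rpow_le_one ?_ hp.le))
  exact (Measure.setLIntegral_rnDeriv_le _).trans prob_le_one

theorem cd_doubling (hfin : IsFiniteOnBalls m) {K N : ℝ} (hN : 1 < N) (hCD : IsCD m K N) (x : X)
    {r : ℝ} (hr : 0 < r) :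
    m (ball x (2 * r)) ≤
      ENNReal.ofReal ((2 : ℝ) ^ N * Real.exp (N * (3 / 2 * Real.sqrt (kap K / (N - 1))) * r)) *
        m (closedBall x (3 / 2 * r)) := by
  have := sigmaFinite_of_fin hfin
  have : SecondCountableTopology X := UniformSpace.secondCountable_of_separable X
  obtain ⟨p0, s0, a0, m0, d0⟩ := f2a_cond hfin x (r := 2 * r) (by positivity)
  obtain ⟨p1, s1, a1, m1, -⟩ := f2a_cond hfin x (r := r / 3) (by positivity)
  obtain ⟨P, hP, hgeo, ⟨⟨e0, e1⟩, -⟩, hin⟩ := hCD _ _ p0 p1 s0 s1 a0 a1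
  have hm : ∀ t : unitInterval, Measurable fun γ : UCurve X => γ.toMap t := fun t => by
    simpa only [ext_coe] using measurable_ext_at (X := X) t
  rw [endpointLaw, Measure.map_map measurable_fst ((hm 0).prodMk (hm 1))] at e0
  rw [endpointLaw, Measure.map_map measurable_snd ((hm 0).prodMk (hm 1))] at e1
  have m0' := ae_of_ae_map (hm 0).aemeasurable (e0.symm ▸ m0 :
    ∀ᵐ y ∂(P.map fun γ => γ.toMap 0), y ∈ ball x (2 * r))
  have m1' := ae_of_ae_map (hm 1).aemeasurable (e1.symm ▸ m1 :
    ∀ᵐ y ∂(P.map fun γ => γ.toMap 1), y ∈ ball x (r / 3))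
  have d0' := ae_of_ae_map (hm 0).aemeasurable (e0.symm ▸ d0 :
    ∀ᵐ y ∂(P.map fun γ => γ.toMap 0),
      (ProbabilityTheory.cond m (ball x (2 * r))).rnDeriv m y = (m (ball x (2 * r)))⁻¹)
  set c₀ := Real.sqrt (kap K / (N - 1)) with hc₀
  have hc₀0 : 0 ≤ c₀ := Real.sqrt_nonneg _
  set t : unitInterval := ⟨1 / 2, by norm_num, by norm_num⟩ with ht
  have hN0 : 0 < N := by linarith
  have hlow : ENNReal.ofReal (1 / 2 * Real.exp (-(3 / 2 * c₀ * r))) * m (ball x (2 * r)) ^ (1 / N) ≤
      renyiPower m (timeMarginal P t) N := by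
    refine le_trans ?_ (hin N le_rfl t)
    rw [← mul_one (_ * _), ← measure_univ (μ := P), ← lintegral_const]
    refine lintegral_mono_ae ?_
    filter_upwards [m0', m1', d0'] with γ h0 h1 h2
    refine le_trans ?_ le_self_add
    have e : 1 - (t : ℝ) = 1 / 2 := by rw [ht]; norm_num
    rw [e, h2, ENNReal.inv_rpow, ← ENNReal.rpow_neg, neg_div, neg_neg]
    refine mul_le_mul_left (le_trans (ENNReal.ofReal_le_ofReal ?_)
      (tau_half_ge_lin K hN dist_nonneg)) _
    have hd : dist (γ.toMap 0) (γ.toMap 1) ≤ 3 * r := by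
      have := dist_triangle_right (γ.toMap 0) (γ.toMap 1) x
      rw [mem_ball] at h0 h1
      linarith
    have := mul_le_mul_of_nonneg_right hd hc₀0
    gcongr
    linarith
  have : IsProbabilityMeasure (timeMarginal P t) :=
    Measure.isProbabilityMeasure_map (hm t).aemeasurable
  have hB : timeMarginal P t (closedBall x (3 / 2 * r))ᶜ = 0 := by
    rw [timeMarginal, Measure.map_apply (hm t) isClosed_closedBall.measurableSet.compl]
    refine measure_mono_null ?_ (ae_iff.1 (hgeo.and (m0'.and m1')))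
    intro γ hγ ⟨hg, h0, h1⟩
    refine hγ ?_
    have h2 := hg t 1
    have e : |(t : ℝ) - ((1 : unitInterval) : ℝ)| = 1 / 2 := by
      rw [ht, Icc.coe_one]; norm_num [abs_of_nonpos]
    rw [e] at h2
    have h3 := dist_triangle_right (γ.toMap 0) (γ.toMap 1) x
    have h4 := dist_triangle (γ.toMap t) (γ.toMap 1) x
    rw [mem_ball] at h0 h1
    rw [mem_closedBall]
    linarith
  have hup := hlow.trans (f2a_renyi isClosed_closedBall.measurableSet hB hN)
  have hpow := ENNReal.rpow_le_rpow hup hN0.le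
  rw [ENNReal.mul_rpow_of_nonneg _ _ hN0.le, ← ENNReal.rpow_mul, ← ENNReal.rpow_mul,
    one_div_mul_cancel hN0.ne', ENNReal.rpow_one, ENNReal.rpow_one,
    ENNReal.ofReal_rpow_of_pos (by positivity)] at hpow
  refine le_trans (le_of_eq ?_) (mul_le_mul_right hpow _)
  rw [← mul_assoc, ← ENNReal.ofReal_mul (by positivity), mul_assoc N, mul_comm N, Real.exp_mul,
    ← Real.mul_rpow (by positivity) (by positivity), ← Real.mul_rpow (by positivity) (by positivity)]
  have e : 2 * Real.exp (3 / 2 * c₀ * r) * (1 / 2 * Real.exp (-(3 / 2 * c₀ * r))) = 1 := by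
    rw [Real.exp_neg]
    field_simp
  rw [e, Real.one_rpow, ENNReal.ofReal_one, one_mul]

/-- Doubling with exponential constant. -/
def Dbl (m : Measure X) : Prop :=
  ∃ A c : ℝ, 1 ≤ A ∧ 0 ≤ c ∧ ∀ (x : X) (r : ℝ), 0 < r →
    m (ball x r) ≤ ENNReal.ofReal (A * Real.exp (c * r)) * m (ball x (4 / 5 * r))

theorem dbl_of_cd (hfin : IsFiniteOnBalls m) {K N : ℝ} (hN : 1 < N) (hCD : IsCD m K N) :
    Dbl m := by
  have hc : 0 ≤ Real.sqrt (kap K / (N - 1)) := Real.sqrt_nonneg _
  have hN0 : 0 < N := by linarith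
  refine ⟨2 ^ N, N * (3 / 2 * Real.sqrt (kap K / (N - 1))) / 2,
    Real.one_le_rpow one_le_two hN0.le, by positivity, fun x r hr => ?_⟩
  have h := cd_doubling hfin hN hCD x (half_pos hr)
  rw [mul_div_cancel₀ r two_ne_zero] at h
  rw [div_mul_eq_mul_div, mul_div_assoc]
  exact h.trans (mul_le_mul_right (measure_mono (closedBall_subset_ball (by linarith))) _)

theorem f2b_lower (h : Dbl m) (o : X) (R : ℝ) {ε : ℝ} (hε : 0 < ε) :
    ∃ δ : ℝ≥0∞, δ ≠ 0 ∧ ∀ x ∈ closedBall o R, δ ≤ m (ball x ε) := by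
  obtain ⟨A, c, hA, hc, h⟩ := h
  have hS : 0 < |R| + 1 := by positivity
  set D := ENNReal.ofReal (A * Real.exp (c * (|R| + 1))) with hD
  have key : ∀ (x : X) (k : ℕ), m (ball x (|R| + 1)) ≤ D ^ k * m (ball x ((4 / 5) ^ k * (|R| + 1))) := by
    intro x k
    induction k with
    | zero => simp
    | succ k ih =>
      refine ih.trans ?_
      rw [pow_succ, mul_assoc, pow_succ', mul_assoc (4 / 5 : ℝ)]
      refine mul_le_mul_right ((h x _ (by positivity)).trans (mul_le_mul_left ?_ _)) _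
      refine ENNReal.ofReal_le_ofReal ?_
      have : (4 / 5 : ℝ) ^ k * (|R| + 1) ≤ |R| + 1 :=
        mul_le_of_le_one_left hS.le (pow_le_one₀ (by norm_num) (by norm_num))
      gcongr
  obtain ⟨k, hk⟩ := exists_pow_lt_of_lt_one (div_pos hε hS) (show (4 / 5 : ℝ) < 1 by norm_num)
  have hT : D ^ k ≠ ⊤ := ENNReal.pow_ne_top ENNReal.ofReal_ne_top
  refine ⟨m (ball o 1) / D ^ k, ENNReal.div_ne_zero.2 ⟨(measure_ball_pos m o one_pos).ne', hT⟩,
    fun x hx => ENNReal.div_le_of_le_mul' ?_⟩
  refine (measure_mono (ball_subset_ball' ?_)).trans ((key x k).trans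
    (mul_le_mul_right (measure_mono (ball_subset_ball ((lt_div_iff₀ hS).1 hk).le)) _))
  linarith [mem_closedBall'.1 hx, le_abs_self R]

theorem proper_of_dbl (hfin : IsFiniteOnBalls m) (h : Dbl m) : ProperSpace X := by
  refine ⟨fun o R => TotallyBounded.isCompact_of_isClosed (Metric.totallyBounded_iff.2 fun ε hε => ?_)
    isClosed_closedBall⟩
  by_contra hn
  obtain ⟨δ, hδ, hb⟩ := f2b_lower h o R (half_pos hε)
  have : Std.Symm fun x y : X => ε ≤ dist x y := ⟨fun x y h => by rwa [dist_comm]⟩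
  obtain ⟨u, hu, hp⟩ := exists_seq_of_forall_finset_exists' (· ∈ closedBall o R)
    (fun x y => ε ≤ dist x y) fun s _ => by
      by_contra h'
      refine hn ⟨s, s.finite_toSet, fun y hy => ?_⟩
      by_contra h2
      refine h' ⟨y, hy, fun x hx => not_lt.1 fun h3 => h2 ?_⟩
      exact mem_biUnion hx (mem_ball'.2 h3)
  have h1 : ∑' n, m (ball (u n) (ε / 2)) ≤ m (ball o (R + ε)) := by
    rw [← measure_iUnion (fun i j hij => ball_disjoint_ball (by rw [add_halves]; exact hp hij))
      fun _ => measurableSet_ball]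
    refine measure_mono (iUnion_subset fun n => ball_subset_ball' ?_)
    linarith [mem_closedBall.1 (hu n)]
  refine (h1.trans_lt (hfin o _)).not_ge ?_
  rw [← ENNReal.tsum_const_eq_top_of_ne_zero (α := ℕ) hδ]
  exact ENNReal.tsum_le_tsum fun n => hb _ (hu n)

theorem expGrowth_of_dbl (hfin : IsFiniteOnBalls m) (h : Dbl m) : ExpGrowth m := by
  obtain ⟨A, c, hA, hc, h⟩ := h
  intro o
  obtain ⟨M, hM, hM1⟩ : ∃ M : ℝ, 0 ≤ M ∧ m (ball o 1) = ENNReal.ofReal M :=
    ⟨_, ENNReal.toReal_nonneg, (ENNReal.ofReal_toReal (hfin o 1).ne).symm⟩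
  obtain ⟨D, hD⟩ : ∃ D : ℝ, D = 5 * (A + c) + M := ⟨_, rfl⟩
  have D0 : 0 ≤ D := by linarith
  have h1 : ∀ r : ℝ, 0 < r → r ≤ 1 → m (ball o r) ≤ ENNReal.ofReal (Real.exp (D * (r + 1))) := fun r r0 r1 => by
    refine (measure_mono (ball_subset_ball r1)).trans (hM1.le.trans (ENNReal.ofReal_le_ofReal ?_))
    have := Real.add_one_le_exp (D * (r + 1))
    nlinarith [mul_pos r0 r0, mul_nonneg D0 r0.le]
  have H : ∀ (n : ℕ) (r : ℝ), 0 < r → r ≤ (5 / 4) ^ n →
      m (ball o r) ≤ ENNReal.ofReal (Real.exp (D * (r + 1))) := fun n => by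
    induction n with
    | zero => exact fun r r0 r1 => h1 r r0 (by simpa using r1)
    | succ n ih =>
      intro r r0 r1
      rcases le_total r 1 with r2 | r2
      · exact h1 r r0 r2
      refine (h o r r0).trans ((mul_le_mul_right (ih _ (by linarith) (by rw [pow_succ] at r1; linarith)) _).trans ?_)
      rw [← ENNReal.ofReal_mul (by positivity)]
      refine ENNReal.ofReal_le_ofReal ?_
      have e : A ≤ Real.exp A := by linarith [Real.add_one_le_exp A]
      refine (mul_le_mul_of_nonneg_right (mul_le_mul_of_nonneg_right e (Real.exp_pos _).le) (Real.exp_pos _).le).trans ?_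
      rw [← Real.exp_add, ← Real.exp_add]
      refine Real.exp_le_exp.2 ?_
      have e1 : D * r = 5 * (A * r) + 5 * (c * r) + M * r := by rw [hD]; ring
      nlinarith [mul_nonneg hM r0.le, mul_le_mul_of_nonneg_left r2 (show 0 ≤ A by linarith)]
  refine ⟨2 * D, fun R hR => ?_⟩
  obtain ⟨n, hn⟩ := pow_unbounded_of_one_lt (R + 1) (show (1 : ℝ) < 5 / 4 by norm_num)
  refine (measure_mono (closedBall_subset_ball (lt_add_one R))).trans ((H n _ (by linarith) hn.le).trans
    (ENNReal.ofReal_le_ofReal (Real.exp_le_exp.2 ?_)))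
  nlinarith [mul_nonneg D0 hR]

end Crest.Agent.R242
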