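import Crest.Agent.R242.G0

/-! Block G1: elementary facts on the transport cost and on optimal geodesic plans. -/

set_option autoImplicit false
set_option linter.unusedSectionVars false
set_option linter.unusedVariables false
open MeasureTheory Filter Set Metric
open scoped ENNReal NNReal Topology
open Crest.GeometryTopology.SyntheticRicci

noncomputable section
namespace Crest.Agent.R242

variable {X : Type*} [MetricSpace X] [MeasurableSpace X] [BorelSpace X] [ProperSpace X]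

theorem wcost_le {μ ν : Measure X} {q : Measure (X × X)} (h : IsCouplingOf q μ ν) :
    wcost μ ν ≤ quadCost q := by
  exact iInf₂_le q h

theorem wcost_ne_top {o : X} {R : ℝ} {μ ν : Measure X} (hμ : PB o R μ) (hν : PB o R ν) :
    wcost μ ν ≠ ⊤ := by
  have := hμ.1
  have := hν.1
  refine ne_top_of_le_ne_top ?_ (wcost_le (q := μ.prod ν) ⟨by simp, by simp⟩)
  have h1 : ∀ᵐ p ∂μ.prod ν, p.1 ∈ closedBall o R := Measure.quasiMeasurePreserving_fst.ae hμ.2
  have h2 : ∀ᵐ p ∂μ.prod ν, p.2 ∈ closedBall o R := Measure.quasiMeasurePreserving_snd.ae hν.2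
  have h3 : quadCost (μ.prod ν) ≤ ∫⁻ _, ENNReal.ofReal (R + R) ^ 2 ∂μ.prod ν := by
    refine lintegral_mono_ae ?_
    filter_upwards [h1, h2] with p a1 a2
    rw [edist_dist]
    gcongr
    exact (dist_triangle_right _ _ o).trans (add_le_add a1 a2)
  refine ne_top_of_le_ne_top ?_ h3
  simp

theorem W2_nonneg (μ ν : Measure X) : 0 ≤ W2 μ ν := ENNReal.toReal_nonneg

theorem g1a_cost : Measurable fun p : X × X => edist p.1 p.2 ^ 2 := measurable_edist.pow_const 2

theorem g1a_symm (μ ν : Measure X) : wcost μ ν ≤ wcost ν μ := by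
  refine le_iInf₂ fun q hq => (wcost_le (q := q.map Prod.swap) ⟨?_, ?_⟩).trans_eq ?_
  · rw [Measure.map_map measurable_fst measurable_swap]
    exact hq.2
  · rw [Measure.map_map measurable_snd measurable_swap]
    exact hq.1
  · unfold quadCost
    rw [lintegral_map g1a_cost measurable_swap]
    simp only [Prod.fst_swap, Prod.snd_swap, edist_comm]

theorem W2_symm (μ ν : Measure X) : W2 μ ν = W2 ν μ := by
  unfold W2
  rw [le_antisymm (g1a_symm μ ν) (g1a_symm ν μ)]

theorem W2_le_of_coupling {μ ν : Measure X} {q : Measure (X × X)} (h : IsCouplingOf q μ ν) {c : ℝ}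
    (hc : 0 ≤ c) (hq : quadCost q ≤ ENNReal.ofReal c) : W2 μ ν ≤ c := by
  exact ENNReal.toReal_le_of_le_ofReal hc ((wcost_le h).trans hq)

theorem W2_le_plan {P : Measure (UCurve X)} [IsProbabilityMeasure P] {o : X} {R a b : ℝ}
    (h : ∀ᵐ γ ∂P, γ.ext a ∈ closedBall o R ∧ γ.ext b ∈ closedBall o R) :
    W2 (marg P a) (marg P b) ≤ ∫ γ, dist (γ.ext a) (γ.ext b) ^ 2 ∂P := by
  have ha := measurable_ext_at (X := X) a
  have hb := measurable_ext_at (X := X) b
  have hq : IsCouplingOf (P.map fun γ => (γ.ext a, γ.ext b)) (marg P a) (marg P b) := by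
    constructor
    · rw [Measure.map_map measurable_fst (ha.prodMk hb)]
      rfl
    · rw [Measure.map_map measurable_snd (ha.prodMk hb)]
      rfl
  refine W2_le_of_coupling hq (integral_nonneg fun _ => sq_nonneg _) (le_of_eq ?_)
  have hi : Integrable (fun γ : UCurve X => dist (γ.ext a) (γ.ext b) ^ 2) P := by
    refine Integrable.of_bound ((ha.dist hb).pow_const 2).aestronglyMeasurable ((R + R) ^ 2) ?_
    filter_upwards [h] with γ hγ
    rw [Real.norm_of_nonneg (sq_nonneg _)]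
    exact pow_le_pow_left₀ dist_nonneg ((dist_triangle_right _ _ o).trans (add_le_add hγ.1 hγ.2)) 2
  unfold quadCost
  rw [lintegral_map g1a_cost (ha.prodMk hb),
    ofReal_integral_eq_lintegral_ofReal hi (Eventually.of_forall fun _ => sq_nonneg _)]
  refine lintegral_congr fun γ => ?_
  rw [edist_dist, ENNReal.ofReal_pow dist_nonneg]

theorem exists_coupling_le {o : X} {R : ℝ} {μ ν : Measure X} (hμ : PB o R μ) (hν : PB o R ν)
    {ε : ℝ} (hε : 0 < ε) :
    ∃ q, IsCouplingOf q μ ν ∧ quadCost q ≤ ENNReal.ofReal (W2 μ ν + ε) := by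
  have h1 : wcost μ ν < ENNReal.ofReal (W2 μ ν + ε) :=
    (ENNReal.lt_ofReal_iff_toReal_lt (wcost_ne_top hμ hν)).2 (lt_add_of_pos_right _ hε)
  obtain ⟨q, hq⟩ := iInf_lt_iff.1 h1
  obtain ⟨h2, h3⟩ := iInf_lt_iff.1 hq
  exact ⟨q, h2, h3.le⟩

theorem geo_subc {γ : UCurve X} (h : IsCSGeodesic γ) {a b : ℝ} (ha : 0 ≤ a) (hab : a ≤ b)
    (hb : b ≤ 1) : IsCSGeodesic (subc γ a b) ∧ len (subc γ a b) = (b - a) * len γ := by
  have hm : ∀ t ∈ Icc (0 : ℝ) 1, a + t * (b - a) ∈ Icc (0 : ℝ) 1 := fun t ht =>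
    ⟨by nlinarith [ht.1], by nlinarith [ht.2]⟩
  have key : ∀ s ∈ Icc (0 : ℝ) 1, ∀ t ∈ Icc (0 : ℝ) 1,
      dist ((subc γ a b).ext s) ((subc γ a b).ext t) = |s - t| * ((b - a) * len γ) := by
    intro s hs t ht
    rw [subc_ext γ a b hs, subc_ext γ a b ht, geo_dist h (hm s hs) (hm t ht), add_sub_add_left_eq_sub,
      ← sub_mul, abs_mul, abs_of_nonneg (sub_nonneg.2 hab), mul_assoc]
  have hl : len (subc γ a b) = (b - a) * len γ :=
    (key 0 (left_mem_Icc.2 zero_le_one) 1 (right_mem_Icc.2 zero_le_one)).trans (by simp)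
  refine ⟨fun s t => ?_, hl⟩
  rw [← len_eq, hl, ← ext_coe, ← ext_coe, key s s.2 t t.2]

theorem marg_subc (P : Measure (UCurve X)) (a b : ℝ) {t : ℝ} (ht : t ∈ Icc (0 : ℝ) 1) :
    marg (P.map fun γ => subc γ a b) t = marg P (a + t * (b - a)) := by
  unfold marg
  rw [Measure.map_map (measurable_ext_at t) (measurable_subc a b)]
  congr 1
  funext γ
  exact subc_ext γ a b ht

variable {o : X} {R : ℝ} {μ₀ μ₁ : Measure X} {P : Measure (UCurve X)}

theorem g1b_pb [IsProbabilityMeasure P] {t : ℝ} (h : ∀ᵐ γ ∂P, γ.ext t ∈ closedBall o R) :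
    PB o R (marg P t) :=
  ⟨Measure.isProbabilityMeasure_map (measurable_ext_at t).aemeasurable,
    (mem_ae_map_iff (measurable_ext_at t).aemeasurable measurableSet_closedBall).2 h⟩

theorem g1b_ae {t : ℝ} (h : PB o R (marg P t)) : ∀ᵐ γ ∂P, γ.ext t ∈ closedBall o R :=
  ae_of_ae_map (p := fun x => x ∈ closedBall o R) (measurable_ext_at t).aemeasurable h.2

theorem g1b_len {x y : X} {r : ℝ} {γ : UCurve X} (h0 : γ.ext 0 ∈ closedBall x r)
    (h1 : γ.ext 1 ∈ closedBall y r) : len γ ≤ dist x y + 2 * r := by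
  rw [mem_closedBall] at h0 h1
  have := dist_triangle4 (γ.ext 0) x y (γ.ext 1)
  rw [dist_comm y] at this
  rw [len]
  linarith

theorem OptGeo.pb (h : OptGeo o R μ₀ μ₁ P) (t : ℝ) : PB o (3 * R) (marg P t) := by
  have := h.prob
  exact g1b_pb (h.geo.mono fun γ hγ => geo_mem_ball hγ.1 hγ.2.1 hγ.2.2 t)

theorem OptGeo.pb0 (h : OptGeo o R μ₀ μ₁ P) : PB o R μ₀ := by
  have := h.prob
  exact h.m0 ▸ g1b_pb (h.geo.mono fun γ hγ => hγ.2.1)

theorem OptGeo.pb1 (h : OptGeo o R μ₀ μ₁ P) : PB o R μ₁ := by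
  have := h.prob
  exact h.m1 ▸ g1b_pb (h.geo.mono fun γ hγ => hγ.2.2)

theorem OptGeo.len_le (h : OptGeo o R μ₀ μ₁ P) : ∀ᵐ γ ∂P, len γ ≤ 2 * R := by
  filter_upwards [h.geo] with γ hγ
  simpa using g1b_len hγ.2.1 hγ.2.2

theorem OptGeo.integrable_len (h : OptGeo o R μ₀ μ₁ P) :
    Integrable (fun γ : UCurve X => len γ ^ 2) P := by
  have := h.prob
  refine Integrable.of_bound (measurable_len.pow_const 2).aestronglyMeasurable ((2 * R) ^ 2) ?_
  filter_upwards [h.len_le] with γ hγ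
  rw [Real.norm_of_nonneg (sq_nonneg _)]
  exact pow_le_pow_left₀ dist_nonneg hγ 2

theorem OptGeo.cost_eq (h : OptGeo o R μ₀ μ₁ P) : ∫ γ, len γ ^ 2 ∂P = W2 μ₀ μ₁ := by
  have := h.prob
  refine le_antisymm h.cost ?_
  rw [← h.m0, ← h.m1]
  exact W2_le_plan (h.geo.mono fun γ hγ => hγ.2)

/-- Lengths are bounded by the distance of the supports. -/
theorem OptGeo.len_le' (h : OptGeo o R μ₀ μ₁ P) {x y : X} {r : ℝ} (h0 : PB x r μ₀)
    (h1 : PB y r μ₁) : ∀ᵐ γ ∂P, len γ ≤ dist x y + 2 * r := by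
  rw [← h.m0] at h0
  rw [← h.m1] at h1
  filter_upwards [g1b_ae h0, g1b_ae h1] with γ a0 a1 using g1b_len a0 a1

theorem optGeo_of_cd (h0 : PB o R μ₀) (h1 : PB o R μ₁) [IsProbabilityMeasure P]
    (hg : ∀ᵐ γ ∂P, IsCSGeodesic γ) (hq : IsOptCouplingOf (endpointLaw P) μ₀ μ₁) :
    OptGeo o R μ₀ μ₁ P := by
  have hm : Measurable fun γ : UCurve X => (γ.ext 0, γ.ext 1) :=
    (measurable_ext_at 0).prodMk (measurable_ext_at 1)
  rw [endpointLaw_eq] at hq
  have e0 : marg P 0 = μ₀ := by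
    rw [← hq.1.1, Measure.map_map measurable_fst hm]; rfl
  have e1 : marg P 1 = μ₁ := by
    rw [← hq.1.2, Measure.map_map measurable_snd hm]; rfl
  refine ⟨inferInstance, ?_, e0, e1, ?_⟩
  · filter_upwards [hg, g1b_ae (e0 ▸ h0), g1b_ae (e1 ▸ h1)] with γ a b c using ⟨a, b, c⟩
  · rw [integral_eq_lintegral_of_nonneg_ae (Eventually.of_forall fun γ => sq_nonneg _)
      (measurable_len.pow_const 2).aestronglyMeasurable]
    refine ENNReal.toReal_mono (wcost_ne_top h0 h1) (le_iInf₂ fun q hq' => le_of_eq_of_le ?_ (hq.2 q hq'))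
    rw [quadCost, lintegral_map (by fun_prop) hm]
    refine lintegral_congr fun γ => ?_
    rw [edist_dist, len, ENNReal.ofReal_pow dist_nonneg]

end Crest.Agent.R242
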