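import Crest.Agent.R242.G0

/-! Block G5: the entropy.
`ent_fenchel`: `z ψ + z - exp ψ ≤ z log z` for `z ≥ 0`.  `ent_dual`: `ψ₀ = log (ρ + δ)` takes values in
`[log δ, log (M + δ)]`; approximate `1_B ψ₀` in `L¹(m)` (`exists_lip_approx`) and truncate to that interval.
`ent_spread`: `ent_fenchel` with `ψ = -log m(E)` on `E = {ρ > 0}`, `-n` off `E`.
`ent_compare`: `u z = z log z`, a.e. `u ρ - u ρ* ≤ (log C + 1)(ρ - ρ*)` (if `ρ* ≥ C` then `ρ = C`;
otherwise `ρ* ≤ ρ ≤ C`), and `∫ ρ = ∫ ρ* = 1`. -/

set_option autoImplicit false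
set_option linter.unusedSectionVars false
set_option linter.unusedVariables false
open MeasureTheory Filter Set Metric
open scoped ENNReal NNReal Topology
open Crest.GeometryTopology.SyntheticRicci

noncomputable section
namespace Crest.Agent.R242

variable {X : Type*} [MetricSpace X] [MeasurableSpace X] [BorelSpace X] [ProperSpace X]
  {m : Measure X} [IsFiniteMeasureOnCompacts m] [m.IsOpenPosMeasure]

variable {M R : ℝ} {o : X} {μ : Measure X}

theorem BM.ent_integrable (h : BM m M o R μ) :
    Integrable (fun x => dens m μ x * Real.log (dens m μ x)) m := by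
  obtain ⟨C, hC⟩ := (isCompact_Icc (a := (0 : ℝ)) (b := M)).exists_bound_of_continuousOn
    Real.continuous_mul_log.continuousOn
  have hi : Integrable ((closedBall o R).indicator fun _ => C) m :=
    (integrable_indicator_iff measurableSet_closedBall).2
      (integrableOn_const (isCompact_closedBall o R).measure_lt_top.ne)
  refine hi.mono' ((dens_meas μ).mul (dens_meas μ).log).aestronglyMeasurable ?_
  filter_upwards [h.dens_le, h.1.dens_zero (m := m)] with x h1 h2
  by_cases hx : x ∈ closedBall o R
  · rw [indicator_of_mem hx]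
    exact hC _ ⟨dens_nonneg μ x, h1⟩
  · rw [indicator_of_notMem hx, h2 hx, zero_mul, norm_zero]

theorem BM.ent_le_log (h : BM m M o R μ) : Ent m μ ≤ Real.log M := by
  have := h.1.1
  rw [← one_mul (Real.log M), ← h.integral_dens_eq, ← integral_mul_const]
  refine integral_mono_ae h.ent_integrable ((dens_integrable μ).mul_const _) ?_
  filter_upwards [h.dens_le] with x hx
  rcases (dens_nonneg (m := m) μ x).eq_or_lt with h0 | h0
  · rw [← h0, zero_mul, zero_mul]
  · exact mul_le_mul_of_nonneg_left (Real.log_le_log h0 hx) h0.le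

theorem g5a_pt {z : ℝ} (hz : 0 ≤ z) (p : ℝ) : z * p + z - Real.exp p ≤ z * Real.log z := by
  rcases hz.eq_or_lt with rfl | hz
  · simpa using (Real.exp_pos p).le
  · have h := mul_le_mul_of_nonneg_left (Real.add_one_le_exp (p - Real.log z)) hz.le
    rw [Real.exp_sub, Real.exp_log hz, mul_div_cancel₀ _ hz.ne'] at h
    linarith

theorem g5a_fen [IsProbabilityMeasure μ] (hac : μ ≪ m)
    (hi : Integrable (fun x => dens m μ x * Real.log (dens m μ x)) m) {A : Set X}
    (hA : MeasurableSet A) (h0 : ∀ᵐ x ∂m, x ∉ A → dens m μ x = 0) {ψ : X → ℝ}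
    (hψ : Integrable ψ μ) (he : IntegrableOn (fun x => Real.exp (ψ x)) A m) :
    ∫ x, ψ x ∂μ + 1 - ∫ x in A, Real.exp (ψ x) ∂m ≤ Ent m μ := by
  have h1 : ∫ x, dens m μ x ∂m = 1 := by simpa using (integral_dens hac fun _ => 1).symm
  have i1 : Integrable (fun x => dens m μ x * ψ x) m := (integrable_toReal_rnDeriv_mul_iff hac).2 hψ
  have i2 : Integrable (fun x => dens m μ x * ψ x + dens m μ x) m := i1.add (dens_integrable μ)
  have i3 := (integrable_indicator_iff hA).2 he
  rw [integral_dens hac, ← h1, ← integral_add i1 (dens_integrable μ), ← integral_indicator hA,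
    ← integral_sub i2 i3]
  refine integral_mono_ae (i2.sub i3) hi ?_
  filter_upwards [h0] with x hx
  by_cases hxA : x ∈ A
  · rw [indicator_of_mem hxA]
    exact g5a_pt (dens_nonneg μ x) _
  · rw [indicator_of_notMem hxA, hx hxA]
    simp

theorem ent_fenchel (hμ : PB o R μ) (hac : μ ≪ m)
    (hi : Integrable (fun x => dens m μ x * Real.log (dens m μ x)) m) {ψ : X → ℝ}
    (hψ : Integrable ψ μ) (he : IntegrableOn (fun x => Real.exp (ψ x)) (closedBall o R) m) :
    ∫ x, ψ x ∂μ + 1 - ∫ x in closedBall o R, Real.exp (ψ x) ∂m ≤ Ent m μ := by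
  have := hμ.1
  exact g5a_fen hac hi measurableSet_closedBall hμ.dens_zero hψ he

theorem g5b_pt {M δ z φ : ℝ} (hδ : 0 < δ) (h0 : 0 ≤ z) (hM : z ≤ M) :
    z * Real.log z ≤ z * max (Real.log δ) (min (Real.log (M + δ)) φ) + z -
      Real.exp (max (Real.log δ) (min (Real.log (M + δ)) φ)) + δ +
      (2 * M + δ) * |Real.log (z + δ) - φ| := by
  have ha : Real.log δ ≤ Real.log (z + δ) := Real.log_le_log hδ (by linarith)
  have hb : Real.log (z + δ) ≤ Real.log (M + δ) := Real.log_le_log (by linarith) (by linarith)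
  have h1 : z * Real.log z ≤ z * Real.log (z + δ) := by
    rcases h0.eq_or_lt with rfl | h0
    · simp
    · exact mul_le_mul_of_nonneg_left (Real.log_le_log h0 (by linarith)) h0.le
  have he : Real.exp (Real.log (z + δ)) = z + δ := Real.exp_log (by linarith)
  have heb : Real.exp (Real.log (M + δ)) = M + δ := Real.exp_log (by linarith)
  generalize Real.log (z + δ) = p at *
  have h2 : |p - max (Real.log δ) (min (Real.log (M + δ)) φ)| ≤ |p - φ| := by
    have l1 := le_abs_self (p - φ)
    have l2 := neg_abs_le (p - φ)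
    have l3 := abs_nonneg (p - φ)
    rw [abs_le]
    rcases le_total (Real.log (M + δ)) φ with h | h
    · rw [min_eq_left h, max_eq_right (ha.trans hb)]
      constructor <;> linarith
    · rw [min_eq_right h]
      rcases le_total (Real.log δ) φ with h' | h'
      · rw [max_eq_right h']
        constructor <;> linarith
      · rw [max_eq_left h']
        constructor <;> linarith
  have h3 : max (Real.log δ) (min (Real.log (M + δ)) φ) ≤ Real.log (M + δ) :=
    max_le (ha.trans hb) (min_le_left _ _)
  generalize max (Real.log δ) (min (Real.log (M + δ)) φ) = ψ at *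
  have h4 : Real.exp ψ ≤ M + δ := heb ▸ Real.exp_le_exp.2 h3
  have h5 : Real.exp ψ * (p - ψ + 1) ≤ z + δ := by
    rw [← he, show Real.exp p = Real.exp ψ * Real.exp (p - ψ) by rw [← Real.exp_add]; congr 1; ring]
    exact mul_le_mul_of_nonneg_left (Real.add_one_le_exp _) (Real.exp_pos _).le
  obtain ⟨h6, h7⟩ := abs_le.1 h2
  have h8 := abs_nonneg (p - φ)
  generalize |p - φ| = d at *
  have h9 := mul_le_mul_of_nonneg_left h7 h0
  have h10 := mul_le_mul_of_nonneg_left h6 (Real.exp_pos ψ).le
  have h11 := mul_le_mul_of_nonneg_right h4 h8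
  have h12 := mul_le_mul_of_nonneg_right hM h8
  linarith

theorem BM.ent_dual (h : BM m M o R μ) {ε : ℝ} (hε : 0 < ε) :
    ∃ ψ : X → ℝ, Continuous ψ ∧
      Ent m μ ≤ ∫ x, ψ x ∂μ + 1 - ∫ x in closedBall o R, Real.exp (ψ x) ∂m + ε := by
  have := h.1.1
  have hM := h.pos
  have hB : MeasurableSet (closedBall o R) := measurableSet_closedBall
  have hfin : m (closedBall o R) ≠ ⊤ := (isCompact_closedBall o R).measure_lt_top.ne
  have hV : 0 ≤ m.real (closedBall o R) := measureReal_nonneg
  obtain ⟨δ, hδe⟩ : ∃ δ : ℝ, δ = ε / (2 * (m.real (closedBall o R) + 1)) := ⟨_, rfl⟩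
  have hδ : 0 < δ := by rw [hδe]; positivity
  have hδV : m.real (closedBall o R) * δ ≤ ε / 2 := by
    have : δ * (2 * (m.real (closedBall o R) + 1)) = ε := by
      rw [hδe]; exact div_mul_cancel₀ _ (by positivity)
    linarith
  have hρ := dens_integrable (m := m) μ
  have hg : Integrable ((closedBall o R).indicator fun x => Real.log (dens m μ x + δ)) m := by
    rw [integrable_indicator_iff hB]
    refine Measure.integrableOn_of_bounded (M := |Real.log δ| + |Real.log (M + δ)|) hfin
      (((dens_meas μ).add_const δ).log).aestronglyMeasurable (ae_restrict_of_ae ?_)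
    filter_upwards [h.dens_le] with x hx
    have h0 := dens_nonneg (m := m) μ x
    have ha : Real.log δ ≤ Real.log (dens m μ x + δ) := Real.log_le_log hδ (by linarith)
    have hb : Real.log (dens m μ x + δ) ≤ Real.log (M + δ) :=
      Real.log_le_log (by linarith) (by linarith)
    rw [Real.norm_eq_abs, abs_le]
    constructor <;>
      linarith [neg_abs_le (Real.log δ), le_abs_self (Real.log (M + δ)), abs_nonneg (Real.log δ),
        abs_nonneg (Real.log (M + δ))]
  obtain ⟨φ, L, hL, hc, hφ⟩ := exists_lip_approx hg (ε := ε / (2 * (2 * M + δ))) (by positivity)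
  have hφc := hL.continuous
  have hψc : Continuous fun x => max (Real.log δ) (min (Real.log (M + δ)) (φ x)) := by fun_prop
  refine ⟨_, hψc, ?_⟩
  have i1 : Integrable (fun x => dens m μ x * max (Real.log δ) (min (Real.log (M + δ)) (φ x))) m := by
    refine hρ.mul_bdd (c := |Real.log δ| + |Real.log (M + δ)|) hψc.aestronglyMeasurable
      (Eventually.of_forall fun x => ?_)
    have ha := le_max_left (Real.log δ) (min (Real.log (M + δ)) (φ x))
    have hb : max (Real.log δ) (min (Real.log (M + δ)) (φ x)) ≤ Real.log (M + δ) :=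
      max_le (Real.log_le_log hδ (by linarith)) (min_le_left _ _)
    rw [Real.norm_eq_abs, abs_le]
    constructor <;>
      linarith [neg_abs_le (Real.log δ), le_abs_self (Real.log (M + δ)), abs_nonneg (Real.log δ),
        abs_nonneg (Real.log (M + δ))]
  have i2 : Integrable ((closedBall o R).indicator fun x =>
      Real.exp (max (Real.log δ) (min (Real.log (M + δ)) (φ x)))) m :=
    (integrable_indicator_iff hB).2
      (hψc.rexp.continuousOn.integrableOn_compact (isCompact_closedBall o R))
  have i3 : Integrable ((closedBall o R).indicator fun _ => δ) m :=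
    (integrable_indicator_iff hB).2 (integrableOn_const hfin)
  have i4 : Integrable (fun x => (2 * M + δ) *
      |(closedBall o R).indicator (fun x => Real.log (dens m μ x + δ)) x - φ x|) m :=
    (hg.sub (hφc.integrable_of_hasCompactSupport hc)).abs.const_mul _
  have key := integral_mono_ae h.ent_integrable ((((i1.add hρ).sub i2).add i3).add i4) (by
    filter_upwards [h.dens_le, h.1.dens_zero (m := m)] with x hx hx0
    simp only [Pi.add_apply, Pi.sub_apply]
    by_cases hxB : x ∈ closedBall o R
    · simp only [indicator_of_mem hxB]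
      exact g5b_pt hδ (dens_nonneg μ x) hx
    · simp only [indicator_of_notMem hxB, hx0 hxB, zero_mul, add_zero, sub_zero, zero_add]
      positivity)
  rw [integral_add' (((i1.add hρ).sub i2).add i3) i4, integral_add' ((i1.add hρ).sub i2) i3,
    integral_sub' (i1.add hρ) i2, integral_add' i1 hρ, integral_indicator hB, integral_indicator hB,
    integral_const_mul, h.integral_dens_eq, setIntegral_const, smul_eq_mul] at key
  rw [integral_dens h.ac]
  have h1 := mul_le_mul_of_nonneg_left hφ (by positivity : 0 ≤ 2 * M + δ)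
  have h2 : (2 * M + δ) * (ε / (2 * (2 * M + δ))) = ε / 2 := by field_simp
  unfold Ent
  linarith

theorem ent_spread (hμ : PB o R μ) (hac : μ ≪ m)
    (hi : Integrable (fun x => dens m μ x * Real.log (dens m μ x)) m) :
    Real.exp (-Ent m μ) ≤ m.real {x | 0 < dens m μ x} := by
  have := hμ.1
  have hA : MeasurableSet {x | 0 < dens m μ x} := measurableSet_lt measurable_const (dens_meas μ)
  have h0 : ∀ x, x ∉ {x | 0 < dens m μ x} → dens m μ x = 0 := fun x hx =>
    le_antisymm (not_lt.1 hx) (dens_nonneg μ x)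
  have hfin : m {x | 0 < dens m μ x} ≠ ⊤ := by
    refine ((measure_mono_ae ?_).trans_lt (isCompact_closedBall o R).measure_lt_top).ne
    filter_upwards [hμ.dens_zero (m := m)] with x hx h1
    by_contra h2
    exact (ne_of_gt h1) (hx h2)
  have hpos : 0 < m.real {x | 0 < dens m μ x} := by
    refine ENNReal.toReal_pos (fun h1 => ?_) hfin
    have h2 : ∫ x, dens m μ x ∂m = 1 := by simpa using (integral_dens hac fun _ => 1).symm
    rw [integral_eq_zero_of_ae ((measure_eq_zero_iff_ae_notMem.1 h1).mono h0)] at h2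
    exact zero_ne_one h2
  have h := g5a_fen hac hi hA (Eventually.of_forall h0)
    (ψ := fun _ => -Real.log (m.real {x | 0 < dens m μ x})) (integrable_const _)
    (integrableOn_const hfin)
  rw [setIntegral_const, Real.exp_neg, Real.exp_log hpos, smul_eq_mul, mul_inv_cancel₀ hpos.ne',
    integral_const, probReal_univ, one_smul] at h
  rw [← Real.le_log_iff_exp_le hpos]
  linarith

theorem ent_lsc {ν : ℕ → Measure X} (hν : ∀ n, BM m M o R (ν n)) (h : BM m M o R μ)
    (hw : ∀ ψ : X → ℝ, Continuous ψ → Tendsto (fun n => ∫ x, ψ x ∂(ν n)) atTop (𝓝 (∫ x, ψ x ∂μ)))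
    {b : ℕ → ℝ} {b₀ : ℝ} (hb : ∀ n, Ent m (ν n) ≤ b n) (hb₀ : Tendsto b atTop (𝓝 b₀)) :
    Ent m μ ≤ b₀ := by
  refine le_of_forall_pos_le_add fun ε hε => ?_
  obtain ⟨ψ, hψ, h1⟩ := h.ent_dual hε
  have h2 : ∫ x, ψ x ∂μ + 1 - ∫ x in closedBall o R, Real.exp (ψ x) ∂m ≤ b₀ := by
    refine le_of_tendsto_of_tendsto' (((hw ψ hψ).add_const 1).sub_const _) hb₀ fun n => ?_
    exact (ent_fenchel (hν n).1 (hν n).ac (hν n).ent_integrable ((hν n).1.integrable hψ)
      (hψ.rexp.continuousOn.integrableOn_compact (isCompact_closedBall o R))).trans (hb n)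
  linarith

theorem g5b_tan {y z : ℝ} (hy : 0 < y) (hz : 0 ≤ z) :
    y * Real.log y - z * Real.log z ≤ (Real.log y + 1) * (y - z) := by
  rcases hz.eq_or_lt with rfl | hz
  · nlinarith
  · have h1 := Real.log_le_sub_one_of_pos (div_pos hy hz)
    rw [Real.log_div hy.ne' hz.ne'] at h1
    have h2 := mul_le_mul_of_nonneg_left h1 hz.le
    rw [mul_sub z (y / z), mul_div_cancel₀ _ hz.ne'] at h2
    linarith

theorem ent_compare {ν : Measure X} [IsProbabilityMeasure ν] (hac : ν ≪ m)
    (hi : Integrable (fun x => dens m ν x * Real.log (dens m ν x)) m) (h : BM m M o R μ)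
    (hge : ∀ᵐ x ∂m, min (dens m ν x) M ≤ dens m μ x) : Ent m μ ≤ Ent m ν := by
  have := h.1.1
  have hM := h.pos
  have i1 := dens_integrable (m := m) μ
  have i2 := dens_integrable (m := m) ν
  have e2 : ∫ x, dens m ν x ∂m = 1 := by
    have := integral_dens hac fun _ => (1 : ℝ)
    simpa using this.symm
  have key := integral_mono_ae (h.ent_integrable.sub hi) ((i1.sub i2).const_mul (Real.log M + 1)) (by
    filter_upwards [h.dens_le, hge] with x hx hx'
    simp only [Pi.sub_apply]
    have h0 := dens_nonneg (m := m) ν x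
    rcases le_total M (dens m ν x) with h1 | h1
    · rw [min_eq_right h1] at hx'
      rw [le_antisymm hx hx']
      exact g5b_tan hM h0
    · rw [min_eq_left h1] at hx'
      rcases (dens_nonneg (m := m) μ x).eq_or_lt with h2 | h2
      · rw [← h2] at hx' ⊢
        rw [le_antisymm hx' h0]
        simp
      · refine (g5b_tan h2 h0).trans (mul_le_mul_of_nonneg_right ?_ (sub_nonneg.2 hx'))
        linarith [Real.log_le_log h2 hx])
  rw [integral_sub' h.ent_integrable hi, integral_const_mul, integral_sub' i1 i2,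
    h.integral_dens_eq, e2, sub_self, mul_zero] at key
  unfold Ent
  linarith

end Crest.Agent.R242
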