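import Crest.Agent.R242.F1
import Crest.Agent.R242.G1
import Crest.Agent.R242.G5

/-! Block F3: the midpoint entropy inequality.  `P` from `IsCD`, `ν = marg P (1/2)`, `ρ = dens m ν`,
`B = (Ent μ₀ + Ent μ₁)/2 + κ W2/8`.  For `N' ≥ N`, `tau_half_ge_sq`, `ρᵢ(γ i) ∈ (0, M]` a.e. and
`exp (-y) ≥ 1 - y` give `1 - B/N' ≤ ∫ ρ^{1 - 1/N'}` (`cd_lower`).  Hölder on `closedBall o (3R)`:
the right side is `≤ (∫ ρ)^{1-1/N'} m(ball)^{1/N'} → ∫ ρ`, so `∫ ρ = 1` and `ν ≪ m`.  Then
`∫ N'(ρ - ρ^{1-1/N'}) ≤ B`; `N'(z - z^{1-1/N'}) ↑ z log z`, bounded below by `-N z^{1-1/N}`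
(integrable): monotone convergence (`ent_of_renyi`). -/

set_option autoImplicit false
set_option linter.unusedSectionVars false
set_option linter.unusedVariables false
open MeasureTheory Filter Set Metric
open scoped ENNReal NNReal Topology
open Crest.GeometryTopology.SyntheticRicci

noncomputable section
namespace Crest.Agent.R242

variable {X : Type*} [MetricSpace X] [MeasurableSpace X] [BorelSpace X] [ProperSpace X]
  {m : Measure X} [IsFiniteMeasureOnCompacts m] [m.IsOpenPosMeasure]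

theorem f3a_pt {τ ρ : ℝ≥0∞} {a N : ℝ} (hτ : ENNReal.ofReal (1 / 2 * Real.exp (-a)) ≤ τ) (h0 : 0 < ρ)
    (h1 : ρ < ⊤) : ENNReal.ofReal ((1 - a - Real.log ρ.toReal / N) / 2) ≤ τ * ρ ^ (-1 / N) := by
  have hp : 0 < ρ.toReal := ENNReal.toReal_pos h0.ne' h1.ne
  have e : ρ ^ (-1 / N) = ENNReal.ofReal (Real.exp (-(Real.log ρ.toReal / N))) := by
    conv_lhs => rw [← ENNReal.ofReal_toReal h1.ne]
    rw [ENNReal.ofReal_rpow_of_pos hp, Real.rpow_def_of_pos hp]
    congr 2
    ring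
  rw [e]
  refine le_trans ?_ (mul_le_mul_left hτ _)
  rw [← ENNReal.ofReal_mul (by positivity), mul_assoc, ← Real.exp_add]
  refine ENNReal.ofReal_le_ofReal ?_
  have := Real.add_one_le_exp (-a + -(Real.log ρ.toReal / N))
  linarith

theorem f3a_ent {o : X} {R M t : ℝ} {μ : Measure X} (h : BM m M o R μ) {P : Measure (UCurve X)}
    (hP : marg P t = μ) : Integrable (fun γ : UCurve X => Real.log (dens m μ (γ.ext t))) P ∧
      ∫ γ, Real.log (dens m μ (γ.ext t)) ∂P = Ent m μ ∧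
      ∀ᵐ γ ∂P, 0 < μ.rnDeriv m (γ.ext t) ∧ μ.rnDeriv m (γ.ext t) < ⊤ := by
  have := h.1.1
  have hm : Measurable fun x => Real.log (dens m μ x) := (dens_meas μ).log
  have h1 : Integrable (fun x => Real.log (dens m μ x)) μ :=
    (integrable_rnDeriv_smul_iff h.ac).1 h.ent_integrable
  have h2 : ∀ᵐ x ∂μ, 0 < μ.rnDeriv m x ∧ μ.rnDeriv m x < ⊤ :=
    (Measure.rnDeriv_pos h.ac).and (h.ac.ae_le (Measure.rnDeriv_lt_top μ m))
  have h3 := (integral_dens h.ac fun x => Real.log (dens m μ x)).symm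
  have ht := (measurable_ext_at (X := X) t).aemeasurable (μ := P)
  obtain ⟨F, hF⟩ : ∃ F : X → ℝ, F = fun x => Real.log (dens m μ x) := ⟨_, rfl⟩
  obtain ⟨ρ, hρ⟩ : ∃ ρ, ρ = μ.rnDeriv m := ⟨_, rfl⟩
  have e : Ent m μ = ∫ x, F x ∂μ := by rw [hF]; exact h3
  have e' : ∀ x, Real.log (dens m μ x) = F x := fun x => by rw [hF]
  rw [← hF] at hm h1
  rw [← hρ] at h2 ⊢
  simp only [e, e']
  rw [← hP] at h1 h2 ⊢
  exact ⟨(integrable_map_measure hm.aestronglyMeasurable ht).1 h1,
    (integral_map ht hm.aestronglyMeasurable).symm, ae_of_ae_map ht h2⟩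

theorem f3a_le {α : Type*} [MeasurableSpace α] {P : Measure α} {g : α → ℝ} (hg : Integrable g P) :
    ENNReal.ofReal (∫ x, g x ∂P) ≤ ∫⁻ x, ENNReal.ofReal (g x) ∂P := by
  refine (ENNReal.ofReal_le_ofReal (integral_mono hg hg.pos_part fun x => le_max_left _ _)).trans_eq ?_
  rw [ofReal_integral_eq_lintegral_ofReal hg.pos_part (ae_of_all _ fun x => le_max_right _ _)]
  simp

theorem f3a_mom {o : X} {R : ℝ} {μ : Measure X} (h : PB o R μ) : HasFiniteSecondMoment μ := by
  have := h.1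
  refine ⟨o, lt_of_le_of_lt (lintegral_mono_ae (g := fun _ => ENNReal.ofReal R ^ 2) ?_) ?_⟩
  · filter_upwards [h.ae] with x hx
    rw [edist_dist]
    exact pow_le_pow_left' (ENNReal.ofReal_le_ofReal hx) 2
  · simp

theorem cd_lower {K N : ℝ} (hN : 1 < N) (hCD : IsCD m K N) {o : X} {R M : ℝ} {μ₀ μ₁ : Measure X}
    (h₀ : BM m M o R μ₀) (h₁ : BM m M o R μ₁) :
    ∃ P, OptGeo o R μ₀ μ₁ P ∧ ∀ N' : ℝ, N ≤ N' →
      ENNReal.ofReal (1 - ((Ent m μ₀ + Ent m μ₁) / 2 + kap K * W2 μ₀ μ₁ / 8) / N') ≤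
        renyiPower m (marg P (1 / 2)) N' := by
  obtain ⟨P, hP, hg, hq, h⟩ := hCD μ₀ μ₁ h₀.1.1 h₁.1.1 (f3a_mom h₀.1) (f3a_mom h₁.1) h₀.ac h₁.ac
  have hO := optGeo_of_cd h₀.1 h₁.1 hg hq
  refine ⟨P, hO, fun N' hN' => ?_⟩
  have hN1 : 1 < N' := hN.trans_le hN'
  have key := h N' hN' ⟨1 / 2, by norm_num, by norm_num⟩
  rw [timeMarginal_eq] at key
  refine le_trans ?_ key
  obtain ⟨a1, a2, a3⟩ := f3a_ent h₀ hO.m0
  obtain ⟨b1, b2, b3⟩ := f3a_ent h₁ hO.m1
  have c0 : Integrable (fun γ : UCurve X =>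
      (Real.log (dens m μ₀ (γ.ext 0)) + Real.log (dens m μ₁ (γ.ext 1))) / 2) P := (a1.add b1).div_const 2
  have c1 : Integrable (fun γ : UCurve X => (Real.log (dens m μ₀ (γ.ext 0)) +
      Real.log (dens m μ₁ (γ.ext 1))) / 2 + kap K * len γ ^ 2 / 8) P :=
    c0.add ((hO.integrable_len.const_mul (kap K)).div_const 8)
  have c2 := (integrable_const (1 : ℝ)).sub (c1.div_const N')
  have c3 : ∫ γ, (1 - ((Real.log (dens m μ₀ (γ.ext 0)) + Real.log (dens m μ₁ (γ.ext 1))) / 2 +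
      kap K * len γ ^ 2 / 8) / N') ∂P = 1 - ((Ent m μ₀ + Ent m μ₁) / 2 + kap K * W2 μ₀ μ₁ / 8) / N' := by
    rw [integral_sub (integrable_const _) (c1.div_const N'), integral_div,
      integral_add c0 ((hO.integrable_len.const_mul (kap K)).div_const 8),
      integral_div, integral_div, integral_add a1 b1, integral_const_mul, a2, b2, hO.cost_eq]
    simp
  rw [← c3]
  refine (f3a_le c2).trans (lintegral_mono_ae ?_)
  filter_upwards [a3, b3] with γ ha hb
  have ht := tau_half_ge_sq K hN1 (dist_nonneg (x := γ.toMap 0) (y := γ.toMap 1))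
  rw [ext_zero] at ha
  rw [ext_one] at hb
  rw [show (1 : ℝ) - 1 / 2 = 1 / 2 by norm_num]
  refine le_trans ?_ (add_le_add (f3a_pt (N := N') ht ha.1 ha.2) (f3a_pt (N := N') ht hb.1 hb.2))
  refine le_trans (ENNReal.ofReal_le_ofReal (le_of_eq ?_)) ENNReal.ofReal_add_le
  simp only [Pi.sub_apply, dens, ext_zero, ext_one, len_eq]
  field_simp
  ring

theorem f3b_fatou {α : Type*} [MeasurableSpace α] {μ : Measure α} {G : ℝ → α → ℝ} {g : α → ℝ} {c : ℝ}
    (hm : ∀ n, Measurable (G n)) (hg : Measurable g)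
    (h : ∀ᶠ n in atTop, Integrable (G n) μ ∧ (∀ᵐ x ∂μ, 0 ≤ G n x) ∧ ∫ x, G n x ∂μ ≤ c)
    (hl : ∀ x, Tendsto (fun n => G n x) atTop (𝓝 (g x))) : Integrable g μ ∧ ∫ x, g x ∂μ ≤ c := by
  have h1 : ∫⁻ x, ‖g x‖ₑ ∂μ ≤ ENNReal.ofReal c :=
    calc _ = ∫⁻ x, liminf (fun n => ‖G n x‖ₑ) atTop ∂μ :=
          lintegral_congr fun x => (hl x).enorm.liminf_eq.symm
      _ ≤ _ := lintegral_liminf_le fun n => (hm n).enorm
      _ ≤ _ := liminf_le_of_frequently_le' (h.mono fun n hn => by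
          rw [← ofReal_integral_norm_eq_lintegral_enorm hn.1,
            integral_congr_ae (hn.2.1.mono fun x hx => Real.norm_of_nonneg hx)]
          exact ENNReal.ofReal_le_ofReal hn.2.2).frequently
  have h2 : Integrable g μ := ⟨hg.aestronglyMeasurable, h1.trans_lt ENNReal.ofReal_lt_top⟩
  obtain ⟨n, hn⟩ := h.exists
  rw [← ofReal_integral_norm_eq_lintegral_enorm h2,
    ENNReal.ofReal_le_ofReal_iff ((integral_nonneg_of_ae hn.2.1).trans hn.2.2)] at h1
  exact ⟨h2, (integral_mono h2 h2.norm fun x => le_abs_self _).trans h1⟩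

theorem f3b_lim {z : ℝ} (hz : 0 ≤ z) :
    Tendsto (fun n : ℝ => n * (z - z ^ (1 - 1 / n))) atTop (𝓝 (z * Real.log z)) := by
  rcases hz.eq_or_lt with rfl | hz
  · rw [zero_mul]
    refine tendsto_const_nhds.congr' ((eventually_gt_atTop (1 : ℝ)).mono fun n hn => ?_)
    have : 1 / n < 1 := (div_lt_one (by linarith)).2 hn
    simp only [Real.zero_rpow (sub_pos.2 this).ne', sub_zero, mul_zero]
  · have h := (((hasDerivAt_id (0 : ℝ)).const_sub 1).const_rpow hz).fun_neg.hasFDerivAt.lim_real 1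
    convert h using 2 with n
    · simp only [id, smul_eq_mul, mul_one, zero_add, sub_zero, Real.rpow_one, one_div]
      ring
    · simp [mul_comm]

theorem f3b_young {z n : ℝ} (hz : 0 ≤ z) (hn : 1 < n) : n * z ^ (1 - 1 / n) ≤ (n - 1) * z + 1 := by
  have h0 : 0 < n := by linarith
  have h1 : 1 / n ≤ 1 := (div_le_one h0).2 hn.le
  have h := Real.geom_mean_le_arith_mean2_weighted (sub_nonneg.2 h1) (one_div_pos.2 h0).le hz
    zero_le_one (sub_add_cancel _ _)
  rw [Real.one_rpow, mul_one] at h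
  refine (mul_le_mul_of_nonneg_left h h0.le).trans_eq ?_
  field_simp

theorem ent_of_renyi {N B R : ℝ} (hN : 1 < N) {o : X} {ν : Measure X} (hν : PB o R ν)
    (h : ∀ N' : ℝ, N ≤ N' → ENNReal.ofReal (1 - B / N') ≤ renyiPower m ν N') :
    ν ≪ m ∧ Integrable (fun x => dens m ν x * Real.log (dens m ν x)) m ∧ Ent m ν ≤ B := by
  have _ := hν.1
  have hK : MeasurableSet (closedBall o R) := measurableSet_closedBall
  have mρ : Measurable (dens m ν) := (Measure.measurable_rnDeriv ν m).ennreal_toReal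
  have h0 : ∀ x, 0 ≤ dens m ν x := fun x => ENNReal.toReal_nonneg
  have iρ : Integrable (dens m ν) m := Measure.integrable_toReal_rnDeriv
  have i1 : Integrable ((closedBall o R).indicator fun _ => (1 : ℝ)) m :=
    (integrable_indicator_iff hK).2 (integrableOn_const measure_closedBall_lt_top.ne)
  have hz : ∀ᵐ x ∂m, x ∉ closedBall o R → dens m ν x = 0 := by
    have h1 : ∫⁻ x in (closedBall o R)ᶜ, ν.rnDeriv m x ∂m = 0 :=
      nonpos_iff_eq_zero.1 ((Measure.setLIntegral_rnDeriv_le _).trans_eq hν.2)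
    rw [lintegral_eq_zero_iff (Measure.measurable_rnDeriv ν m), EventuallyEq,
      ae_restrict_iff' hK.compl] at h1
    exact h1.mono fun x hx hx' => by simp [dens, hx hx']
  have hy : ∀ n : ℝ, 1 < n → ∀ᵐ x ∂m, n * dens m ν x ^ (1 - 1 / n) ≤
      (n - 1) * dens m ν x + (closedBall o R).indicator (fun _ => (1 : ℝ)) x := fun n hn =>
    hz.mono fun x hx => by
      by_cases h1 : x ∈ closedBall o R
      · rw [indicator_of_mem h1]
        exact f3b_young (h0 x) hn
      · have : 1 / n < 1 := (div_lt_one (by linarith)).2 hn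
        rw [indicator_of_notMem h1, hx h1, Real.zero_rpow (sub_pos.2 this).ne']
        simp
  have key : ∀ n : ℝ, N ≤ n →
      Integrable (fun x => n * (dens m ν x - dens m ν x ^ (1 - 1 / n)) - dens m ν x +
        (closedBall o R).indicator (fun _ => (1 : ℝ)) x) m ∧
      (∀ᵐ x ∂m, 0 ≤ n * (dens m ν x - dens m ν x ^ (1 - 1 / n)) - dens m ν x +
        (closedBall o R).indicator (fun _ => (1 : ℝ)) x) ∧
      ∫ x, (n * (dens m ν x - dens m ν x ^ (1 - 1 / n)) - dens m ν x +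
        (closedBall o R).indicator (fun _ => (1 : ℝ)) x) ∂m ≤
        n * (∫ x, dens m ν x ∂m - 1) + (B - ∫ x, dens m ν x ∂m +
          ∫ x, (closedBall o R).indicator (fun _ => (1 : ℝ)) x ∂m) := fun n hn => by
    have hn1 : 1 < n := hN.trans_le hn
    have hn0 : 0 < n := by linarith
    have he : 0 ≤ 1 - 1 / n := sub_nonneg.2 ((div_le_one hn0).2 hn1.le)
    have i2 : Integrable (fun x => dens m ν x ^ (1 - 1 / n)) m := by
      refine (((iρ.const_mul (n - 1)).add i1).div_const n).mono' (mρ.pow_const _).aestronglyMeasurable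
        ((hy n hn1).mono fun x hx => ?_)
      rw [Real.norm_of_nonneg (Real.rpow_nonneg (h0 x) _), le_div_iff₀' hn0]
      exact hx
    have i3 : 1 - B / n ≤ ∫ x, dens m ν x ^ (1 - 1 / n) ∂m := by
      rw [← ENNReal.ofReal_le_ofReal_iff (integral_nonneg fun x => Real.rpow_nonneg (h0 x) _),
        ofReal_integral_eq_lintegral_ofReal i2 (ae_of_all _ fun x => Real.rpow_nonneg (h0 x) _)]
      refine (h n hn).trans_eq (lintegral_congr_ae ((Measure.rnDeriv_lt_top ν m).mono fun x hx => ?_))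
      beta_reduce
      rw [← ENNReal.ofReal_rpow_of_nonneg (h0 x) he, dens, ENNReal.ofReal_toReal hx.ne]
    have i4 := (iρ.sub' i2).const_mul n
    refine ⟨(i4.sub iρ).add i1, (hy n hn1).mono fun x hx => by linarith, ?_⟩
    rw [integral_add (i4.sub' iρ) i1, integral_sub i4 iρ, integral_const_mul, integral_sub iρ i2]
    have i5 := mul_le_mul_of_nonneg_left i3 hn0.le
    rw [mul_sub, mul_div_cancel₀ _ hn0.ne'] at i5
    linarith
  have hs : ∫ x, dens m ν x ∂m = 1 - (ν.singularPart m).real univ := by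
    rw [← probReal_univ (μ := ν)]
    exact Measure.integral_toReal_rnDeriv'
  have h1 : (ν.singularPart m).real univ = 0 := by
    by_contra hc
    have hp : 0 < (ν.singularPart m).real univ := lt_of_le_of_ne measureReal_nonneg (Ne.symm hc)
    obtain ⟨c, hc⟩ : ∃ c, c = B - ∫ x, dens m ν x ∂m +
      ∫ x, (closedBall o R).indicator (fun _ => (1 : ℝ)) x ∂m := ⟨_, rfl⟩
    obtain ⟨-, k1, k2⟩ := key (max N (c / (ν.singularPart m).real univ + 1)) (le_max_left _ _)
    have k3 := (integral_nonneg_of_ae k1).trans k2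
    have k4 := mul_le_mul_of_nonneg_right (le_max_right N (c / (ν.singularPart m).real univ + 1)) hp.le
    rw [add_mul, div_mul_cancel₀ _ hp.ne'] at k4
    rw [← hc, hs] at k3
    linarith
  rw [h1, sub_zero] at hs
  obtain ⟨k1, k2⟩ := f3b_fatou (μ := m)
    (g := fun x => dens m ν x * Real.log (dens m ν x) - dens m ν x +
      (closedBall o R).indicator (fun _ => (1 : ℝ)) x)
    (c := B - ∫ x, dens m ν x ∂m + ∫ x, (closedBall o R).indicator (fun _ => (1 : ℝ)) x ∂m)
    (fun n => (((mρ.sub (mρ.pow_const _)).const_mul n).sub mρ).add (measurable_const.indicator hK))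
    (((mρ.mul mρ.log).sub mρ).add (measurable_const.indicator hK))
    ((eventually_ge_atTop N).mono fun n hn => by
      obtain ⟨k1, k2, k3⟩ := key n hn
      refine ⟨k1, k2, k3.trans_eq ?_⟩
      rw [show ∫ x, dens m ν x ∂m - 1 = 0 by rw [hs, sub_self], mul_zero, zero_add])
    fun x => ((f3b_lim (h0 x)).sub_const _).add_const _
  have k3 : Integrable (fun x => dens m ν x * Real.log (dens m ν x)) m :=
    ((k1.sub i1).add iρ).congr (ae_of_all _ fun x => by simp)
  refine ⟨(Measure.singularPart_eq_zero ν m).1 (Measure.measure_univ_eq_zero.1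
    ((measureReal_eq_zero_iff (measure_ne_top _ _)).1 h1)), k3, ?_⟩
  rw [integral_add (k3.sub' iρ) i1, integral_sub k3 iρ] at k2
  unfold Ent
  linarith

theorem midCD_of_cd {K N : ℝ} (hN : 1 < N) (hCD : IsCD m K N) : MidCD m (kap K) := by
  intro o R M μ₀ μ₁ _ _ h₀ h₁
  obtain ⟨P, hP, h⟩ := cd_lower hN hCD h₀ h₁
  exact ⟨P, hP, ent_of_renyi hN (hP.pb _) h⟩

end Crest.Agent.R242
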