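import Crest.Agent.R242.A6

/-! Block G0: densities. -/

set_option autoImplicit false
set_option linter.unusedSectionVars false
set_option linter.unusedVariables false
open MeasureTheory Filter Set Metric
open scoped ENNReal NNReal Topology
open Crest.GeometryTopology.SyntheticRicci

noncomputable section
namespace Crest.Agent.R242

variable {X : Type*} [MetricSpace X] [MeasurableSpace X] [BorelSpace X] [ProperSpace X]
  {m : Measure X} [IsFiniteMeasureOnCompacts m] [m.IsOpenPosMeasure]

theorem dens_meas (μ : Measure X) : Measurable (dens m μ) := by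
  exact (Measure.measurable_rnDeriv μ m).ennreal_toReal

theorem dens_nonneg (μ : Measure X) (x : X) : 0 ≤ dens m μ x := ENNReal.toReal_nonneg

theorem dens_integrable (μ : Measure X) [IsFiniteMeasure μ] : Integrable (dens m μ) m := by
  exact Measure.integrable_toReal_rnDeriv

theorem integral_wd {ρ : X → ℝ} (hρ : AEStronglyMeasurable ρ m) (h0 : ∀ᵐ x ∂m, 0 ≤ ρ x)
    (f : X → ℝ) : ∫ x, f x ∂(wd m ρ) = ∫ x, ρ x * f x ∂m := by
  unfold wd
  rw [integral_withDensity_eq_integral_toReal_smul₀ hρ.aemeasurable.ennreal_ofReal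
    (Eventually.of_forall fun _ => ENNReal.ofReal_lt_top)]
  refine integral_congr_ae ?_
  filter_upwards [h0] with x hx
  rw [ENNReal.toReal_ofReal hx, smul_eq_mul]

theorem dens_wd {ρ : X → ℝ} (hρ : AEStronglyMeasurable ρ m) (h0 : ∀ᵐ x ∂m, 0 ≤ ρ x) :
    dens m (wd m ρ) =ᵐ[m] ρ := by
  filter_upwards [Measure.rnDeriv_withDensity₀ m hρ.aemeasurable.ennreal_ofReal, h0] with x hx h
  rw [dens, wd, hx, ENNReal.toReal_ofReal h]

theorem wd_congr {ρ η : X → ℝ} (h : ρ =ᵐ[m] η) : wd m ρ = wd m η := by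
  refine withDensity_congr_ae ?_
  filter_upwards [h] with x hx
  rw [hx]

theorem g0a_wd (μ : Measure X) [IsFiniteMeasure μ] :
    wd m (dens m μ) = m.withDensity (μ.rnDeriv m) := by
  refine withDensity_congr_ae ?_
  filter_upwards [Measure.rnDeriv_lt_top μ m] with x hx
  exact ENNReal.ofReal_toReal hx.ne

theorem wd_dens {μ : Measure X} [IsFiniteMeasure μ] (h : μ ≪ m) : wd m (dens m μ) = μ := by
  rw [g0a_wd, Measure.withDensity_rnDeriv_eq _ _ h]

theorem wd_dens_le (μ : Measure X) [IsFiniteMeasure μ] : wd m (dens m μ) ≤ μ := by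
  rw [g0a_wd]
  exact Measure.withDensity_rnDeriv_le μ m

theorem wd_le_iff {ρ : X → ℝ} (hρ : AEStronglyMeasurable ρ m) (μ : Measure X)
    [IsFiniteMeasure μ] : wd m ρ ≤ μ ↔ ∀ᵐ x ∂m, ρ x ≤ dens m μ x := by
  constructor
  · intro h
    have hm := hρ.aemeasurable.ennreal_ofReal
    have h3 : (fun x => ENNReal.ofReal (ρ x)) ≤ᵐ[m] μ.rnDeriv m := by
      refine ae_le_of_forall_setLIntegral_le_of_sigmaFinite₀ hm fun s hs _ => ?_
      have h4 : wd m ρ ≤ μ := h
      obtain ⟨t, ht, hts, htm⟩ := Measure.mutuallySingular_singularPart μ m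
      have e1 : ∫⁻ x in s, ENNReal.ofReal (ρ x) ∂m = ∫⁻ x in s ∩ t, ENNReal.ofReal (ρ x) ∂m := by
        refine setLIntegral_congr ?_
        exact (inter_ae_eq_left_of_ae_eq_univ (ae_eq_univ.2 htm)).symm
      calc ∫⁻ x in s, ENNReal.ofReal (ρ x) ∂m = wd m ρ (s ∩ t) := by
            rw [e1, wd, withDensity_apply _ (hs.inter ht)]
        _ ≤ μ (s ∩ t) := h4 _
        _ = μ.singularPart m (s ∩ t) + m.withDensity (μ.rnDeriv m) (s ∩ t) := by
            conv_lhs => rw [Measure.haveLebesgueDecomposition_add μ m]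
            rfl
        _ = ∫⁻ x in s ∩ t, μ.rnDeriv m x ∂m := by
            rw [measure_mono_null inter_subset_right hts, zero_add,
              withDensity_apply _ (hs.inter ht)]
        _ ≤ ∫⁻ x in s, μ.rnDeriv m x ∂m := lintegral_mono_set inter_subset_left
    filter_upwards [h3, Measure.rnDeriv_lt_top μ m] with x hx hlt
    exact (ENNReal.ofReal_le_iff_le_toReal hlt.ne).1 hx
  · intro h
    refine le_trans (withDensity_mono ?_) (wd_dens_le μ)
    filter_upwards [h] with x hx
    exact ENNReal.ofReal_le_ofReal hx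

theorem integral_dens {μ : Measure X} [IsFiniteMeasure μ] (h : μ ≪ m) (f : X → ℝ) :
    ∫ x, f x ∂μ = ∫ x, dens m μ x * f x ∂m := by
  rw [← integral_wd (dens_meas μ).aestronglyMeasurable (Eventually.of_forall (dens_nonneg μ)),
    wd_dens h]

theorem PB.mono {o : X} {R R' : ℝ} {μ : Measure X} (h : PB o R μ) (hR : R ≤ R') : PB o R' μ := by
  exact ⟨h.1, measure_mono_null (compl_subset_compl.2 (closedBall_subset_closedBall hR)) h.2⟩

theorem PB.ae {o : X} {R : ℝ} {μ : Measure X} (h : PB o R μ) : ∀ᵐ x ∂μ, x ∈ closedBall o R := by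
  exact h.2

theorem PB.nonneg {o : X} {R : ℝ} {μ : Measure X} (h : PB o R μ) : 0 ≤ R := by
  have := h.1
  obtain ⟨x, hx⟩ := h.ae.exists
  exact dist_nonneg.trans hx

theorem PB.integrable {o : X} {R : ℝ} {μ : Measure X} (h : PB o R μ) {f : X → ℝ}
    (hf : Continuous f) : Integrable f μ := by
  have := h.1
  obtain ⟨C, hC⟩ := (isCompact_closedBall o R).exists_bound_of_continuousOn hf.continuousOn
  refine Integrable.of_bound hf.aestronglyMeasurable C ?_
  filter_upwards [h.ae] with x hx using hC x hx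

theorem PB.dens_zero {o : X} {R : ℝ} {μ : Measure X} (h : PB o R μ) :
    ∀ᵐ x ∂m, x ∉ closedBall o R → dens m μ x = 0 := by
  have := h.1
  have h1 : ∫⁻ x in (closedBall o R)ᶜ, μ.rnDeriv m x ∂m = 0 :=
    le_antisymm ((Measure.setLIntegral_rnDeriv_le _).trans h.2.le) zero_le
  rw [lintegral_eq_zero_iff (Measure.measurable_rnDeriv μ m), EventuallyEq,
    ae_restrict_iff' measurableSet_closedBall.compl] at h1
  filter_upwards [h1] with x hx hxb
  rw [dens, hx hxb]
  rfl

theorem BM.mono {M M' R R' : ℝ} {o : X} {μ : Measure X} (h : BM m M o R μ) (hM : M ≤ M')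
    (hR : R ≤ R') : BM m M' o R' μ := by
  refine ⟨h.1.mono hR, h.2.trans (Measure.le_iff'.2 fun s => ?_)⟩
  simp only [Measure.smul_apply, smul_eq_mul]
  gcongr

theorem BM.ac {M R : ℝ} {o : X} {μ : Measure X} (h : BM m M o R μ) : μ ≪ m := by
  exact Measure.absolutelyContinuous_of_le_smul h.2

theorem BM.pos {M R : ℝ} {o : X} {μ : Measure X} (h : BM m M o R μ) : 0 < M := by
  by_contra hM
  have h1 := h.1.1
  have h2 := Measure.le_iff'.1 h.2 univ
  rw [ENNReal.ofReal_of_nonpos (not_lt.1 hM), zero_smul, measure_univ] at h2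
  simp at h2

theorem BM.dens_le {M R : ℝ} {o : X} {μ : Measure X} (h : BM m M o R μ) :
    ∀ᵐ x ∂m, dens m μ x ≤ M := by
  have h1 := h.1.1
  have h2 : μ.rnDeriv m ≤ᵐ[m] fun _ => ENNReal.ofReal M := by
    refine ae_le_of_forall_setLIntegral_le_of_sigmaFinite (Measure.measurable_rnDeriv _ _)
      fun s _ _ => ?_
    rw [Measure.setLIntegral_rnDeriv h.ac, setLIntegral_const]
    exact Measure.le_iff'.1 h.2 s
  filter_upwards [h2] with x hx using ENNReal.toReal_le_of_le_ofReal h.pos.le hx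

theorem BM.memLp {M R : ℝ} {o : X} {μ : Measure X} (h : BM m M o R μ) :
    MemLp (dens m μ) 2 m := by
  have h1 := h.1.1
  refine (memLp_two_iff_integrable_sq (dens_meas μ).aestronglyMeasurable).2
    (((dens_integrable μ).const_mul M).mono' ((dens_meas μ).pow_const 2).aestronglyMeasurable ?_)
  filter_upwards [h.dens_le] with x hx
  rw [Real.norm_of_nonneg (sq_nonneg _), sq]
  exact mul_le_mul_of_nonneg_right hx (dens_nonneg μ x)

theorem BM.integral_dens_eq {M R : ℝ} {o : X} {μ : Measure X} (h : BM m M o R μ) :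
    ∫ x, dens m μ x ∂m = 1 := by
  have h1 := h.1.1
  simpa using (integral_dens h.ac fun _ => 1).symm

theorem BM.nsq_le {M R : ℝ} {o : X} {μ : Measure X} (h : BM m M o R μ) :
    nsq m (dens m μ) ≤ M := by
  have h1 := h.1.1
  refine (integral_mono_of_nonneg (Eventually.of_forall fun x => sq_nonneg _)
    ((dens_integrable μ).const_mul M) ?_).trans_eq ?_
  · filter_upwards [h.dens_le] with x hx
    rw [sq]
    exact mul_le_mul_of_nonneg_right hx (dens_nonneg μ x)
  · rw [integral_const_mul, h.integral_dens_eq, mul_one]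

theorem BM.integrable {M R : ℝ} {o : X} {μ : Measure X} (h : BM m M o R μ) {f : X → ℝ}
    (hf : IntegrableOn f (closedBall o R) m) : Integrable f μ := by
  have h1 := Measure.restrict_mono (Subset.refl (closedBall o R)) h.2
  rw [Measure.restrict_eq_self_of_ae_mem h.1.ae, Measure.restrict_smul] at h1
  exact (Integrable.smul_measure hf ENNReal.ofReal_ne_top).mono_measure h1

theorem bm_wd {ρ : X → ℝ} {M R : ℝ} {o : X} (hρ : AEStronglyMeasurable ρ m)
    (h : ∀ᵐ x ∂m, 0 ≤ ρ x ∧ ρ x ≤ M) (h0 : ∀ᵐ x ∂m, x ∉ closedBall o R → ρ x = 0)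
    (h1 : ∫ x, ρ x ∂m = 1) : BM m M o R (wd m ρ) := by
  have hi : Integrable ρ m := .of_integral_ne_zero (h1 ▸ one_ne_zero)
  refine ⟨⟨⟨?_⟩, ?_⟩, ?_⟩
  · rw [wd, withDensity_apply _ MeasurableSet.univ, Measure.restrict_univ,
      ← ofReal_integral_eq_lintegral_ofReal hi (h.mono fun x hx => hx.1), h1, ENNReal.ofReal_one]
  · rw [wd, withDensity_apply _ measurableSet_closedBall.compl,
      setLIntegral_congr_fun_ae (g := fun _ => 0) measurableSet_closedBall.compl, lintegral_zero]
    filter_upwards [h0] with x hx hx'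
    rw [hx hx', ENNReal.ofReal_zero]
  · rw [← withDensity_const]
    exact withDensity_mono (h.mono fun x hx => ENNReal.ofReal_le_ofReal hx.2)

theorem bm_cond {A : Set X} (hA : MeasurableSet A) {o : X} {R : ℝ} (hAB : A ⊆ closedBall o R)
    (h0 : m A ≠ 0) : BM m (1 / m.real A) o R (ProbabilityTheory.cond m A) := by
  have hf : m A ≠ ⊤ := ((measure_mono hAB).trans_lt (isCompact_closedBall o R).measure_lt_top).ne
  refine ⟨⟨ProbabilityTheory.cond_isProbabilityMeasure_of_finite h0 hf, ?_⟩, ?_⟩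
  · rw [ProbabilityTheory.cond_apply hA, (disjoint_compl_right.mono_left hAB).inter_eq, measure_empty,
      mul_zero]
  · rw [one_div, Measure.real, ENNReal.ofReal_inv_of_pos (ENNReal.toReal_pos h0 hf),
      ENNReal.ofReal_toReal hf]
    refine Measure.le_iff'.2 fun s => ?_
    rw [ProbabilityTheory.cond_apply hA, Measure.smul_apply, smul_eq_mul]
    gcongr
    exact inter_subset_right

theorem integral_cond_eq {A : Set X} (hA : MeasurableSet A) (f : X → ℝ) :
    ∫ x, f x ∂(ProbabilityTheory.cond m A) = (m.real A)⁻¹ * ∫ x in A, f x ∂m := by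
  rw [ProbabilityTheory.cond, integral_smul_measure, ENNReal.toReal_inv, smul_eq_mul]
  rfl

end Crest.Agent.R242
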