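import Crest.Agent.R242.G1

/-! Block G2: gluing.
`exists_glue`: `κ = condDistrib id g Q` (or `Measure.condKernel`), `R = P ⊗ₘ κ.comap f`.
`exists_cat`: on the closed set `{p | p.1.ext 1 = p.2.ext 0}` the concatenation
`t ↦ if t ≤ 1/2 then p.1.ext (2t) else p.2.ext (2t-1)` is continuous in `(p,t)`
(`Continuous.if_le`, `ContinuousMap.curry` on the subtype), put `p.1` elsewhere
(`Measurable.dite` / `ContinuousOn.measurable_piecewise`).
`glue_geo`: glue along `γ₀.ext 1 = γ₁.ext 0`, push by `cat`; with `a, b` the two lengths and `d` the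
distance of the endpoints, `d² ≤ (a+b)² ≤ 2a² + 2b²`, `W2 ≤ ∫ d²` (`W2_le_plan`) and
`∫ (2a² + 2b²) ≤ W2`, so a.e. `a = b = d/2`; `geo_of_halves`. -/

set_option autoImplicit false
set_option linter.unusedSectionVars false
set_option linter.unusedVariables false
open MeasureTheory Filter Set Metric
open scoped ENNReal NNReal Topology
open Crest.GeometryTopology.SyntheticRicci

noncomputable section
namespace Crest.Agent.R242

variable {X : Type*} [MetricSpace X] [MeasurableSpace X] [BorelSpace X] [ProperSpace X]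

theorem exists_glue {α β Z : Type*} [MeasurableSpace α] [MeasurableSpace β] [StandardBorelSpace β]
    [Nonempty β] [MeasurableSpace Z] [StandardBorelSpace Z] (P : Measure α) (Q : Measure β)
    [IsProbabilityMeasure P] [IsProbabilityMeasure Q] {f : α → Z} {g : β → Z} (hf : Measurable f)
    (hg : Measurable g) (h : P.map f = Q.map g) :
    ∃ T : Measure (α × β), IsProbabilityMeasure T ∧ T.map Prod.fst = P ∧ T.map Prod.snd = Q ∧
      ∀ᵐ p ∂T, f p.1 = g p.2 := by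
  let κ := ProbabilityTheory.condDistrib id g Q
  have hm : Measurable (Prod.map f id : α × β → Z × β) := hf.prodMap measurable_id
  have hgm : Measurable fun b : β => (g b, b) := hg.prodMk measurable_id
  have key : (P.compProd (κ.comap f hf)).map (Prod.map f id) = Q.map fun b => (g b, b) := by
    have h1 : (Q.map g).compProd κ = Q.map fun b => (g b, b) :=
      ProbabilityTheory.compProd_map_condDistrib (X := g) (Y := id) (μ := Q) aemeasurable_id
    rw [← h1, ← h]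
    ext s hs
    rw [Measure.map_apply hm hs, Measure.compProd_apply (hm hs), Measure.compProd_apply hs,
      lintegral_map (ProbabilityTheory.Kernel.measurable_kernel_prodMk_left hs) hf]
    rfl
  refine ⟨P.compProd (κ.comap f hf), inferInstance, Measure.fst_compProd _ _, ?_, ?_⟩
  · have h2 := congrArg (Measure.map Prod.snd) key
    rw [Measure.map_map measurable_snd hm, Measure.map_map measurable_snd hgm] at h2
    exact h2.trans Measure.map_id
  · have hs : MeasurableSet {z : Z × β | z.1 = g z.2} :=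
      measurableSet_eq_fun measurable_fst (hg.comp measurable_snd)
    have h3 : ∀ᵐ z ∂(Q.map fun b => (g b, b)), z.1 = g z.2 :=
      (ae_map_iff hgm.aemeasurable hs).2 (Eventually.of_forall fun b => rfl)
    rw [← key] at h3
    exact ae_of_ae_map hm.aemeasurable h3

/-- the concatenation as a function -/
def g2bF (p : UCurve X × UCurve X) (t : ℝ) : X :=
  if t ≤ 1 / 2 then p.1.ext (2 * t) else p.2.ext (2 * t - 1)

theorem g2b_cont : Continuous fun z : {p : UCurve X × UCurve X | p.1.ext 1 = p.2.ext 0} × unitInterval =>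
    g2bF z.1.1 z.2 := by
  unfold g2bF
  refine Continuous.if_le
    (continuous_ext.comp (f := fun z : {p : UCurve X × UCurve X | p.1.ext 1 = p.2.ext 0} × unitInterval =>
      (z.1.1.1, 2 * (z.2 : ℝ))) (by fun_prop))
    (continuous_ext.comp (f := fun z : {p : UCurve X × UCurve X | p.1.ext 1 = p.2.ext 0} × unitInterval =>
      (z.1.1.2, 2 * (z.2 : ℝ) - 1)) (by fun_prop)) (by fun_prop) continuous_const fun z hz => ?_
  rw [hz]
  norm_num
  exact z.1.2

theorem g2b_ext {γ δ : UCurve X} (h : ∀ t ∈ Icc (0 : ℝ) 1, γ.ext t = δ.ext t) : γ = δ :=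
  ucurveHomeo.injective (ContinuousMap.ext fun t => by
    have := h t t.2
    rwa [ext_coe, ext_coe] at this)

theorem exists_cat : ∃ cat : UCurve X × UCurve X → UCurve X, Measurable cat ∧
    ∀ p : UCurve X × UCurve X, p.1.ext 1 = p.2.ext 0 →
      subc (cat p) 0 (1 / 2) = p.1 ∧ subc (cat p) (1 / 2) 1 = p.2 := by
  classical
  let S : Set (UCurve X × UCurve X) := {p | p.1.ext 1 = p.2.ext 0}
  have hS : IsClosed S := isClosed_eq ((continuous_ext_at 1).comp continuous_fst)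
    ((continuous_ext_at 0).comp continuous_snd)
  let g : S → UCurve X := fun p =>
    ⟨⟨fun t => g2bF p.1 t, g2b_cont.comp (continuous_const.prodMk continuous_id)⟩⟩
  have hg : Continuous g :=
    continuous_induced_rng.2 (ContinuousMap.continuous_of_continuous_uncurry _ g2b_cont)
  have hge : ∀ (p : S), ∀ t ∈ Icc (0 : ℝ) 1, (g p).ext t = g2bF p.1 t := fun p t ht =>
    ext_coe (g p) ⟨t, ht⟩
  refine ⟨fun p => if h : p ∈ S then g ⟨p, h⟩ else p.1,
    Measurable.dite (f := g) (g := fun p : (Sᶜ : Set _) => p.1.1) hg.measurable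
      (measurable_fst.comp measurable_subtype_coe) hS.measurableSet, fun p hp => ?_⟩
  have hp' : p ∈ S := hp
  simp only [dif_pos hp']
  refine ⟨g2b_ext fun t ht => ?_, g2b_ext fun t ht => ?_⟩
  · rw [subc_ext _ _ _ ht, hge _ _ ⟨by linarith [ht.1], by linarith [ht.2]⟩, g2bF,
      if_pos (by linarith [ht.2])]
    congr 1
    ring
  · rw [subc_ext _ _ _ ht, hge _ _ ⟨by linarith [ht.1], by linarith [ht.2]⟩, g2bF]
    split_ifs with h
    · obtain rfl : t = 0 := by linarith [ht.1]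
      norm_num
      exact hp
    · congr 1
      ring

theorem geo_of_halves {γ : UCurve X} (h₀ : IsCSGeodesic (subc γ 0 (1 / 2)))
    (h₁ : IsCSGeodesic (subc γ (1 / 2) 1)) (e₀ : len (subc γ 0 (1 / 2)) = len γ / 2)
    (e₁ : len (subc γ (1 / 2) 1) = len γ / 2) : IsCSGeodesic γ := by
  have k₀ : ∀ a b : ℝ, 0 ≤ a → a ≤ b → b ≤ 1 / 2 → dist (γ.ext a) (γ.ext b) ≤ (b - a) * len γ := by
    intro a b ha hab hb
    have h := geo_dist_le h₀ (2 * a) (2 * b)
    rw [subc_ext _ _ _ ⟨by linarith, by linarith⟩, subc_ext _ _ _ ⟨by linarith, by linarith⟩, e₀,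
      abs_of_nonpos (by linarith), show 0 + 2 * a * (1 / 2 - 0) = a by ring,
      show 0 + 2 * b * (1 / 2 - 0) = b by ring] at h
    linarith
  have k₁ : ∀ a b : ℝ, 1 / 2 ≤ a → a ≤ b → b ≤ 1 → dist (γ.ext a) (γ.ext b) ≤ (b - a) * len γ := by
    intro a b ha hab hb
    have h := geo_dist_le h₁ (2 * a - 1) (2 * b - 1)
    rw [subc_ext _ _ _ ⟨by linarith, by linarith⟩, subc_ext _ _ _ ⟨by linarith, by linarith⟩, e₁,
      abs_of_nonpos (by linarith), show 1 / 2 + (2 * a - 1) * (1 - 1 / 2) = a by ring,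
      show 1 / 2 + (2 * b - 1) * (1 - 1 / 2) = b by ring] at h
    linarith
  have k : ∀ a b : ℝ, 0 ≤ a → a ≤ b → b ≤ 1 → dist (γ.ext a) (γ.ext b) ≤ (b - a) * len γ := by
    intro a b ha hab hb
    rcases le_total b (1 / 2) with h | h
    · exact k₀ a b ha hab h
    rcases le_total (1 / 2) a with h' | h'
    · exact k₁ a b h' hab hb
    linarith [k₀ a _ ha h' le_rfl, k₁ _ b le_rfl h hb, dist_triangle (γ.ext a) (γ.ext (1 / 2)) (γ.ext b)]
  have e : ∀ a b : ℝ, 0 ≤ a → a ≤ b → b ≤ 1 → dist (γ.ext a) (γ.ext b) = (b - a) * len γ := by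
    intro a b ha hab hb
    refine le_antisymm (k a b ha hab hb) ?_
    have h := dist_triangle4 (γ.ext 0) (γ.ext a) (γ.ext b) (γ.ext 1)
    change len γ ≤ _ at h
    linarith [k 0 a le_rfl ha (hab.trans hb), k b 1 (ha.trans hab) hb le_rfl]
  intro s t
  rw [← ext_coe γ s, ← ext_coe γ t, ← len_eq]
  rcases le_total (s : ℝ) t with h | h
  · rw [e s t s.2.1 h t.2.2, abs_of_nonpos (sub_nonpos.2 h), neg_sub]
  · rw [dist_comm, e t s t.2.1 h s.2.2, abs_of_nonneg (sub_nonneg.2 h)]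

theorem g2c_real {a b d : ℝ} (ha : 0 ≤ a) (hb : 0 ≤ b) (hd : 0 ≤ d) (h : d ≤ a + b) :
    0 ≤ 2 * a ^ 2 + 2 * b ^ 2 - d ^ 2 ∧
      (2 * a ^ 2 + 2 * b ^ 2 - d ^ 2 = 0 → a = d / 2 ∧ b = d / 2) := by
  have h1 : d ^ 2 ≤ (a + b) ^ 2 := pow_le_pow_left₀ hd h 2
  refine ⟨by nlinarith [sq_nonneg (a - b)], fun h0 => ?_⟩
  have h2 : (a - b) ^ 2 = 0 := le_antisymm (by nlinarith) (sq_nonneg _)
  have h3 : a = b := sub_eq_zero.1 (pow_eq_zero_iff two_ne_zero |>.1 h2)
  subst h3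
  have h4 : d = 2 * a := (sq_eq_sq₀ hd (by linarith)).1 (by linarith)
  constructor <;> linarith

theorem g2c_int {P : Measure (UCurve X)} [IsProbabilityMeasure P] {o : X} {r r' s t : ℝ}
    (hs : ∀ᵐ γ ∂P, γ.ext s ∈ closedBall o r) (ht : ∀ᵐ γ ∂P, γ.ext t ∈ closedBall o r') :
    Integrable (fun γ : UCurve X => dist (γ.ext s) (γ.ext t) ^ 2) P := by
  refine Integrable.of_bound
    ((((continuous_ext_at s).dist (continuous_ext_at t)).pow 2).measurable.aestronglyMeasurable)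
    ((r + r') ^ 2) ?_
  filter_upwards [hs, ht] with γ h1 h2
  rw [Real.norm_eq_abs, abs_of_nonneg (sq_nonneg _)]
  refine pow_le_pow_left₀ dist_nonneg ?_ 2
  linarith [dist_triangle_right (γ.ext s) (γ.ext t) o, mem_closedBall.1 h1, mem_closedBall.1 h2]

theorem g2c_len (γ : UCurve X) (a b : ℝ) : len (subc γ a b) = dist (γ.ext a) (γ.ext b) := by
  unfold len
  rw [subc_ext _ _ _ ⟨le_rfl, zero_le_one⟩, subc_ext _ _ _ ⟨zero_le_one, le_rfl⟩]
  norm_num

theorem g2c_map (P : Measure (UCurve X)) (a b : ℝ) :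
    ∫ γ, len γ ^ 2 ∂(P.map fun γ => subc γ a b) = ∫ γ, dist (γ.ext a) (γ.ext b) ^ 2 ∂P := by
  rw [integral_map (measurable_subc a b).aemeasurable
    (measurable_len.pow_const 2).aestronglyMeasurable]
  simp only [g2c_len]

theorem g2c_ae {P : Measure (UCurve X)} {o : X} {R t : ℝ} (h : PB o R (marg P t)) :
    ∀ᵐ γ ∂P, γ.ext t ∈ closedBall o R :=
  ae_of_ae_map (measurable_ext_at t).aemeasurable h.ae

theorem glue_geo {o : X} {R R' : ℝ} {μ₀ μ₁ ν : Measure X} {P₀ P₁ : Measure (UCurve X)}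
    [IsProbabilityMeasure P₀] [IsProbabilityMeasure P₁] (g₀ : ∀ᵐ γ ∂P₀, IsCSGeodesic γ)
    (g₁ : ∀ᵐ γ ∂P₁, IsCSGeodesic γ) (h₀ : marg P₀ 0 = μ₀) (h₀' : marg P₀ 1 = ν)
    (h₁' : marg P₁ 0 = ν) (h₁ : marg P₁ 1 = μ₁) (hμ₀ : PB o R μ₀) (hμ₁ : PB o R μ₁)
    (hν : PB o R' ν) (c₀ : ∫ γ, len γ ^ 2 ∂P₀ ≤ W2 μ₀ μ₁ / 4)
    (c₁ : ∫ γ, len γ ^ 2 ∂P₁ ≤ W2 μ₀ μ₁ / 4) :
    ∃ P, OptGeo o R μ₀ μ₁ P ∧ (P.map fun γ => subc γ 0 (1 / 2)) = P₀ ∧
      (P.map fun γ => subc γ (1 / 2) 1) = P₁ := by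
  have := nonempty_of_isProbabilityMeasure P₁
  obtain ⟨T, hT, hT1, hT2, hT3⟩ := exists_glue P₀ P₁ (measurable_ext_at 1) (measurable_ext_at 0)
    (h₀'.trans h₁'.symm)
  obtain ⟨cat, hcat, hc⟩ := exists_cat (X := X)
  obtain ⟨P, hP⟩ : ∃ P, P = T.map cat := ⟨_, rfl⟩
  have hPp : IsProbabilityMeasure P := hP ▸ Measure.isProbabilityMeasure_map hcat.aemeasurable
  have hA : (P.map fun γ => subc γ 0 (1 / 2)) = P₀ := by
    rw [hP, Measure.map_map (measurable_subc _ _) hcat, ← hT1]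
    refine Measure.map_congr ?_
    filter_upwards [hT3] with p hp
    exact (hc p hp).1
  have hB : (P.map fun γ => subc γ (1 / 2) 1) = P₁ := by
    rw [hP, Measure.map_map (measurable_subc _ _) hcat, ← hT2]
    refine Measure.map_congr ?_
    filter_upwards [hT3] with p hp
    exact (hc p hp).2
  have m0 : marg P 0 = μ₀ := by
    rw [← h₀, ← hA, marg_subc _ _ _ ⟨le_rfl, zero_le_one⟩]
    norm_num
  have m1 : marg P 1 = μ₁ := by
    rw [← h₁, ← hB, marg_subc _ _ _ ⟨zero_le_one, le_rfl⟩]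
    norm_num
  have mh : marg P (1 / 2) = ν := by
    rw [← h₀', ← hA, marg_subc _ _ _ ⟨zero_le_one, le_rfl⟩]
    norm_num
  have b0 := g2c_ae (m0 ▸ hμ₀)
  have b1 := g2c_ae (m1 ▸ hμ₁)
  have bh := g2c_ae (mh ▸ hν)
  have gA : ∀ᵐ γ ∂P, IsCSGeodesic (subc γ 0 (1 / 2)) :=
    ae_of_ae_map (measurable_subc _ _).aemeasurable (hA ▸ g₀)
  have gB : ∀ᵐ γ ∂P, IsCSGeodesic (subc γ (1 / 2) 1) :=
    ae_of_ae_map (measurable_subc _ _).aemeasurable (hB ▸ g₁)
  rw [← hA, g2c_map] at c₀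
  rw [← hB, g2c_map] at c₁
  have iA := g2c_int b0 bh
  have iB := g2c_int bh b1
  have iD := g2c_int b0 b1
  have hW := W2_le_plan (b0.and b1)
  rw [m0, m1] at hW
  have hr := fun γ : UCurve X => g2c_real (dist_nonneg (x := γ.ext 0) (y := γ.ext (1 / 2)))
    (dist_nonneg (x := γ.ext (1 / 2)) (y := γ.ext 1)) dist_nonneg (dist_triangle _ _ _)
  have iH : Integrable (fun γ : UCurve X => 2 * dist (γ.ext 0) (γ.ext (1 / 2)) ^ 2 +
      2 * dist (γ.ext (1 / 2)) (γ.ext 1) ^ 2 - dist (γ.ext 0) (γ.ext 1) ^ 2) P :=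
    ((iA.const_mul 2).add (iB.const_mul 2)).sub iD
  have eH : ∫ γ, (2 * dist (γ.ext 0) (γ.ext (1 / 2)) ^ 2 +
      2 * dist (γ.ext (1 / 2)) (γ.ext 1) ^ 2 - dist (γ.ext 0) (γ.ext 1) ^ 2) ∂P =
      2 * ∫ γ, dist (γ.ext 0) (γ.ext (1 / 2)) ^ 2 ∂P + 2 * ∫ γ, dist (γ.ext (1 / 2)) (γ.ext 1) ^ 2 ∂P -
        ∫ γ, dist (γ.ext 0) (γ.ext 1) ^ 2 ∂P := by
    have iS : Integrable (fun γ : UCurve X => 2 * dist (γ.ext 0) (γ.ext (1 / 2)) ^ 2 +
        2 * dist (γ.ext (1 / 2)) (γ.ext 1) ^ 2) P := (iA.const_mul 2).add (iB.const_mul 2)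
    rw [integral_sub iS iD,
      integral_add (iA.const_mul 2) (iB.const_mul 2), integral_const_mul, integral_const_mul]
  have n0 : 0 ≤ ∫ γ, (2 * dist (γ.ext 0) (γ.ext (1 / 2)) ^ 2 +
      2 * dist (γ.ext (1 / 2)) (γ.ext 1) ^ 2 - dist (γ.ext 0) (γ.ext 1) ^ 2) ∂P :=
    integral_nonneg fun γ => (hr γ).1
  have z0 := (integral_eq_zero_iff_of_nonneg (fun γ => (hr γ).1) iH).1
    (le_antisymm (by rw [eH]; linarith) n0)
  refine ⟨P, ⟨hPp, ?_, m0, m1, ?_⟩, hA, hB⟩
  · filter_upwards [b0, b1, gA, gB, z0] with γ k0 k1 kA kB kz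
    obtain ⟨e0, e1⟩ := (hr γ).2 kz
    exact ⟨geo_of_halves kA kB (by rw [g2c_len]; exact e0) (by rw [g2c_len]; exact e1), k0, k1⟩
  · rw [eH] at n0
    unfold len
    linarith

end Crest.Agent.R242
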