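import Crest.Agent.R242.G1

/-! Block G3: compactness of geodesic plans (`isCompact_geo`, Prokhorov:
`isCompact_closure_of_isTightMeasureSet`, or `instCompactSpaceProbabilityMeasure` on the compact
subtype; `ProbabilityMeasure` on a separable metrizable space is metrizable).  A continuous `f` is
bounded on the compact set: truncate it.  For moving times use uniform continuity of `ψ` on
`closedBall o (3R)` and `geo_dist_le`.  Marginals are identified by `ext_of_forall_integral_eq`-type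
lemmas (`MeasureTheory.ext_of_forall_integral_eq_of_IsFiniteMeasure`). -/

set_option autoImplicit false
set_option linter.unusedSectionVars false
set_option linter.unusedVariables false
open MeasureTheory Filter Set Metric
open scoped ENNReal NNReal Topology
open Crest.GeometryTopology.SyntheticRicci

noncomputable section
namespace Crest.Agent.R242

variable {X : Type*} [MetricSpace X] [MeasurableSpace X] [BorelSpace X] [ProperSpace X]

theorem g3a_subseq {Y : Type*} [TopologicalSpace Y] [TopologicalSpace.MetrizableSpace Y]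
    [SecondCountableTopology Y] [MeasurableSpace Y] [BorelSpace Y] {K : Set Y} (hK : IsCompact K)
    (P : ℕ → Measure Y) (hp : ∀ n, IsProbabilityMeasure (P n)) (hg : ∀ n, ∀ᵐ y ∂(P n), y ∈ K) :
    ∃ (Q : Measure Y) (φ : ℕ → ℕ), StrictMono φ ∧ IsProbabilityMeasure Q ∧ (∀ᵐ y ∂Q, y ∈ K) ∧
      ∀ f : Y → ℝ, Continuous f →
        Tendsto (fun n => ∫ y, f y ∂(P (φ n))) atTop (𝓝 (∫ y, f y ∂Q)) := by
  have : CompactSpace K := isCompact_iff_compactSpace.1 hK
  have he : MeasurableEmbedding (Subtype.val : K → Y) :=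
    MeasurableEmbedding.subtype_coe hK.isClosed.measurableSet
  let P' : ℕ → ProbabilityMeasure K := fun n =>
    ⟨(P n).comap Subtype.val, he.isProbabilityMeasure_comap (by simpa using hg n)⟩
  obtain ⟨Q, φ, hφ, hl⟩ := CompactSpace.tendsto_subseq P'
  refine ⟨(Q : Measure K).map Subtype.val, φ, hφ,
    Measure.isProbabilityMeasure_map he.measurable.aemeasurable,
    he.ae_map_iff.2 (ae_of_all _ fun y => y.2), fun f hf => ?_⟩
  have h := ProbabilityMeasure.tendsto_iff_forall_integral_tendsto.1 hl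
    (BoundedContinuousFunction.mkOfCompact ⟨fun y : K => f y, hf.comp continuous_subtype_val⟩)
  rw [he.integral_map]
  refine h.congr fun n => ?_
  refine (integral_subtype_comap hK.isClosed.measurableSet f).trans ?_
  rw [Measure.restrict_eq_self_of_ae_mem (hg _)]

theorem exists_subseq_geo (o : X) (R : ℝ) (P : ℕ → Measure (UCurve X))
    (hp : ∀ n, IsProbabilityMeasure (P n))
    (hg : ∀ n, ∀ᵐ γ ∂(P n),
      IsCSGeodesic γ ∧ γ.ext 0 ∈ closedBall o R ∧ γ.ext 1 ∈ closedBall o R) :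
    ∃ (Q : Measure (UCurve X)) (φ : ℕ → ℕ), StrictMono φ ∧ IsProbabilityMeasure Q ∧
      (∀ᵐ γ ∂Q, IsCSGeodesic γ ∧ γ.ext 0 ∈ closedBall o R ∧ γ.ext 1 ∈ closedBall o R) ∧
      ∀ f : UCurve X → ℝ, Continuous f →
        Tendsto (fun n => ∫ γ, f γ ∂(P (φ n))) atTop (𝓝 (∫ γ, f γ ∂Q)) :=
  g3a_subseq (isCompact_geo o R) P hp hg

theorem g3b_int {o : X} {R : ℝ} {P : Measure (UCurve X)} [IsProbabilityMeasure P]
    (hg : ∀ᵐ γ ∂P, IsCSGeodesic γ ∧ γ.ext 0 ∈ closedBall o R ∧ γ.ext 1 ∈ closedBall o R)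
    {f : UCurve X → ℝ} (hf : Continuous f) : Integrable f P := by
  obtain ⟨C, hC⟩ := (isCompact_geo o R).exists_bound_of_continuousOn hf.continuousOn
  exact Integrable.of_bound hf.aestronglyMeasurable C (hg.mono fun γ hγ => hC γ hγ)

theorem g3b_marg (P : Measure (UCurve X)) {ψ : X → ℝ} (hψ : Continuous ψ) (t : ℝ) :
    ∫ x, ψ x ∂(marg P t) = ∫ γ, ψ (γ.ext t) ∂P :=
  integral_map (measurable_ext_at t).aemeasurable hψ.aestronglyMeasurable

theorem g3b_unif (o : X) (R : ℝ) {ψ : X → ℝ} (hψ : Continuous ψ) (t : ℝ) {ε : ℝ} (hε : 0 < ε) :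
    ∀ᶠ s in 𝓝 t, ∀ γ ∈ {γ : UCurve X |
      IsCSGeodesic γ ∧ γ.ext 0 ∈ closedBall o R ∧ γ.ext 1 ∈ closedBall o R},
      ‖ψ (γ.ext s) - ψ (γ.ext t)‖ < ε := by
  refine (isCompact_geo o R).eventually_forall_of_forall_eventually
    (P := fun s γ => ‖ψ (γ.ext s) - ψ (γ.ext t)‖ < ε) fun γ _ => ?_
  have hc : Continuous fun z : ℝ × UCurve X => ‖ψ (z.2.ext z.1) - ψ (z.2.ext t)‖ :=
    ((hψ.comp (continuous_ext.comp continuous_swap)).sub
      (hψ.comp ((continuous_ext_at t).comp continuous_snd))).norm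
  exact hc.continuousAt.eventually_lt continuousAt_const (by simpa using hε)

theorem optGeo_subseq {o : X} {R : ℝ} {μ₀ μ₁ : Measure X} {P : ℕ → Measure (UCurve X)}
    (hP : ∀ n, OptGeo o R μ₀ μ₁ (P n)) :
    ∃ (Q : Measure (UCurve X)) (φ : ℕ → ℕ), StrictMono φ ∧ OptGeo o R μ₀ μ₁ Q ∧
      ∀ (ψ : X → ℝ), Continuous ψ → ∀ (s : ℕ → ℝ) (t : ℝ), Tendsto s atTop (𝓝 t) →
        Tendsto (fun n => ∫ x, ψ x ∂(marg (P (φ n)) (s n))) atTop (𝓝 (∫ x, ψ x ∂(marg Q t))) := by
  obtain ⟨Q, φ, hφ, hQ, hg, hl⟩ := exists_subseq_geo o R P (fun n => (hP n).prob) fun n => (hP n).geo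
  have key : ∀ (ψ : X → ℝ), Continuous ψ → ∀ (s : ℕ → ℝ) (t : ℝ), Tendsto s atTop (𝓝 t) →
      Tendsto (fun n => ∫ x, ψ x ∂(marg (P (φ n)) (s n))) atTop (𝓝 (∫ x, ψ x ∂(marg Q t))) := by
    intro ψ hψ s t hs
    simp only [g3b_marg _ hψ]
    have hc : ∀ r, Continuous fun γ : UCurve X => ψ (γ.ext r) := fun r => hψ.comp (continuous_ext_at r)
    have h0 : Tendsto (fun n => ∫ γ, ψ (γ.ext (s n)) ∂(P (φ n)) - ∫ γ, ψ (γ.ext t) ∂(P (φ n)))
        atTop (𝓝 0) := by
      refine NormedAddGroup.tendsto_nhds_zero.2 fun ε hε => ?_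
      filter_upwards [hs.eventually (g3b_unif o R hψ t (half_pos hε))] with n hn
      have := (hP (φ n)).prob
      rw [← integral_sub (g3b_int (hP (φ n)).geo (hc _)) (g3b_int (hP (φ n)).geo (hc _))]
      refine (norm_integral_le_of_norm_le_const (C := ε / 2)
        ((hP (φ n)).geo.mono fun γ hγ => (hn γ hγ).le)).trans_lt ?_
      simpa using hε
    simpa using h0.add (hl _ (hc t))
  have hm : ∀ (t : ℝ) (ν : Measure X), (∀ n, marg (P n) t = ν) → marg Q t = ν := by
    intro t ν hν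
    have := (hP 0).prob
    have : IsProbabilityMeasure ν :=
      hν 0 ▸ Measure.isProbabilityMeasure_map (measurable_ext_at t).aemeasurable
    have : IsProbabilityMeasure (marg Q t) :=
      Measure.isProbabilityMeasure_map (measurable_ext_at t).aemeasurable
    refine ext_of_forall_integral_eq_of_IsFiniteMeasure fun f => ?_
    have h := key f f.continuous (fun _ => t) t tendsto_const_nhds
    simp only [hν] at h
    exact tendsto_nhds_unique h tendsto_const_nhds
  exact ⟨Q, φ, hφ, ⟨hQ, hg, hm 0 _ fun n => (hP n).m0, hm 1 _ fun n => (hP n).m1,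
    le_of_tendsto' (hl _ (continuous_len.pow 2)) fun n => (hP (φ n)).cost⟩, key⟩

end Crest.Agent.R242
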