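import Crest.Agent.R242.G1

/-! Block G4: Kantorovich potentials on a closed ball `B` (cost `d²/2`).
`IsPot.slope`: `ℓ x = sInf {dist x y | y ∈ B, φ x + ψ y = d²/2}`, attained (compactness, continuity),
`{ℓ ≤ c}` is closed; with `y*` a minimiser, `φ y ≤ (d(x,y) + ℓ x)²/2 - ψ y*`.
`exists_dual_eps`: on `K = B` (compact subtype) let `p u = inf {∫ φ dμ + ∫ ψ dν | φ ⊕ ψ ≥ u}` on
`C(K × K, ℝ)`; it is sublinear, monotone, finite, `p (φ ⊕ ψ) = ∫ φ + ∫ ψ`.  Hahn-Banach
(`exists_extension_of_le_sublinear` from the span of `-c`) gives a linear `Λ ≤ p` with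
`Λ (-c) = p (-c)`; `Λ` is positive, Riesz-Markov-Kakutani (`RealRMK.rieszMeasure`) gives a coupling `q`
with `∫ c dq = -p (-c)`; extend `φ, ψ` continuously to `X` (Tietze).
`exists_pot_ge`: `φ₁ = ψ^c`, `ψ₁ = φ₁^c`, `φ₂ = ψ₁^c` (minima over `B`, at every point of `X`); `φ₂ = φ₁` on
`B`; shift by a constant.  `exists_pot`: maximising sequence of normalised potentials,
equi-Lipschitz and bounded on `B` (`IsPot.lip`, `IsPot.bound`), Arzelà-Ascoli on `B`, Tietze,
`exists_pot_ge`, `dual_le`. -/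

set_option autoImplicit false
set_option linter.unusedSectionVars false
set_option linter.unusedVariables false
open MeasureTheory Filter Set Metric
open scoped ENNReal NNReal Topology
open Crest.GeometryTopology.SyntheticRicci

noncomputable section
namespace Crest.Agent.R242

variable {X : Type*} [MetricSpace X] [MeasurableSpace X] [BorelSpace X] [ProperSpace X]

variable {o : X} {R : ℝ} {φ ψ : X → ℝ}

theorem IsPot.le {B : Set X} (h : IsPot B φ ψ) (x : X) {y : X} (hy : y ∈ B) :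
    φ x + ψ y ≤ dist x y ^ 2 / 2 := by
  have := (h.1 x).2 ⟨y, hy, rfl⟩
  simp only at this
  linarith

theorem IsPot.symm {B : Set X} (h : IsPot B φ ψ) : IsPot B ψ φ := by
  exact ⟨fun x => by simpa only [dist_comm x] using h.2 x, fun y => by simpa only [dist_comm _ y] using h.1 y⟩

theorem IsPot.lip (h : IsPot (closedBall o R) φ ψ) (x x' : X) :
    |φ x - φ x'| ≤ dist x x' * (R + (dist x o + dist x' o) / 2) := by
  have key : ∀ a b : X, φ a - φ b ≤ dist a b * (R + (dist a o + dist b o) / 2) := fun a b => by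
    obtain ⟨y, hy, e⟩ := (h.1 b).1
    simp only at e
    have h1 := h.le a hy
    have h2 : dist y o ≤ R := hy
    have h3 := dist_triangle a b y
    have h4 := dist_triangle_right a y o
    have h5 := dist_triangle_right b y o
    have h6 : (dist a y - dist b y) * (dist a y + dist b y) ≤ dist a b * (dist a y + dist b y) :=
      mul_le_mul_of_nonneg_right (by linarith) (by positivity)
    have h7 : dist a b * (dist a y + dist b y) ≤ dist a b * (2 * R + (dist a o + dist b o)) :=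
      mul_le_mul_of_nonneg_left (by linarith) dist_nonneg
    nlinarith
  rw [abs_sub_le_iff]
  refine ⟨key x x', ?_⟩
  have := key x' x
  rwa [dist_comm x' x, add_comm (dist x' o)] at this

theorem IsPot.continuous (h : IsPot (closedBall o R) φ ψ) : Continuous φ := by
  refine continuous_iff_continuousAt.2 fun x => tendsto_iff_dist_tendsto_zero.2
    (squeeze_zero (fun _ => dist_nonneg) (fun y => h.lip y x) ?_)
  have : Continuous fun y => dist y x * (R + (dist y o + dist x o) / 2) := by fun_prop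
  simpa using this.tendsto x

theorem IsPot.bound (h : IsPot (closedBall o R) φ ψ) (h0 : φ o = 0) {x : X}
    (hx : x ∈ closedBall o R) : |φ x| ≤ 4 * R ^ 2 ∧ |ψ x| ≤ 4 * R ^ 2 := by
  have key : ∀ z ∈ closedBall o R, |φ z| ≤ 3 / 2 * R ^ 2 := fun z hz => by
    have h1 := h.lip z o
    have h2 : dist z o ≤ R := hz
    have h3 : 0 ≤ dist z o := dist_nonneg
    rw [h0, sub_zero, dist_self] at h1
    nlinarith
  refine ⟨(key x hx).trans (by nlinarith [sq_nonneg R]), ?_⟩
  obtain ⟨z, hz, e⟩ := (h.2 x).1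
  simp only at e
  have h1 := abs_le.1 (key z hz)
  have h2 : dist z o ≤ R := hz
  have h3 : dist x o ≤ R := hx
  have h4 := dist_triangle_right z x o
  have h5 : dist z x ^ 2 ≤ (2 * R) ^ 2 := pow_le_pow_left₀ dist_nonneg (by linarith) 2
  rw [abs_le]
  constructor <;> nlinarith [sq_nonneg (dist z x), sq_nonneg R]

theorem IsPot.slope (h : IsPot (closedBall o R) φ ψ) :
    ∃ ℓ : X → ℝ, Measurable ℓ ∧ (∀ x, 0 ≤ ℓ x) ∧ (∀ x, ℓ x ≤ dist x o + R) ∧
      (∀ x y, φ y - φ x ≤ dist x y * (ℓ x + dist x y / 2)) ∧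
      ∀ x, ∀ y ∈ closedBall o R, φ x + ψ y = dist x y ^ 2 / 2 → ℓ x ≤ dist x y := by
  have hφ := h.continuous
  have hψ := h.symm.continuous
  have key : ∀ x, ∃ y ∈ closedBall o R, φ x + ψ y = dist x y ^ 2 / 2 ∧
      ∀ y' ∈ closedBall o R, φ x + ψ y' = dist x y' ^ 2 / 2 → dist x y ≤ dist x y' := fun x => by
    have hc : IsCompact (closedBall o R ∩ {y | φ x + ψ y = dist x y ^ 2 / 2}) :=
      (isCompact_closedBall o R).inter_right (isClosed_eq (by fun_prop) (by fun_prop))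
    obtain ⟨y₀, hy₀, e⟩ := (h.1 x).1
    obtain ⟨y, hy, hm⟩ := hc.exists_isMinOn ⟨y₀, hy₀, by simp only [mem_ofPred_eq] at e ⊢; linarith⟩
      (f := fun y => dist x y) (by fun_prop)
    exact ⟨y, hy.1, hy.2, fun y' h1 h2 => hm ⟨h1, h2⟩⟩
  choose Y hY hE hm using key
  refine ⟨fun x => dist x (Y x), measurable_of_Iic fun c => IsClosed.measurableSet ?_,
    fun _ => dist_nonneg, fun x => ?_, fun x y => ?_, hm⟩
  · have : CompactSpace (closedBall o R) := isCompact_iff_compactSpace.1 (isCompact_closedBall o R)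
    have e : (fun x => dist x (Y x)) ⁻¹' Iic c = Prod.fst '' {p : X × closedBall o R |
        φ p.1 + ψ p.2 = dist p.1 p.2 ^ 2 / 2 ∧ dist p.1 p.2 ≤ c} := by
      ext x
      constructor
      · intro hx
        exact ⟨(x, ⟨Y x, hY x⟩), ⟨hE x, hx⟩, rfl⟩
      · rintro ⟨⟨x, y⟩, ⟨h1, h2⟩, rfl⟩
        exact (hm x y y.2 h1).trans h2
    rw [e]
    exact isClosedMap_fst_of_compactSpace _ ((isClosed_eq (by fun_prop) (by fun_prop)).inter
      (isClosed_le (f := fun p : X × closedBall o R => dist p.1 p.2) (by fun_prop) continuous_const))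
  · have h1 : dist (Y x) o ≤ R := hY x
    linarith [dist_triangle_right x (Y x) o]
  · have h1 := h.le y (hY x)
    have h2 := hE x
    have h3 : dist y (Y x) ^ 2 ≤ (dist x y + dist x (Y x)) ^ 2 :=
      pow_le_pow_left₀ dist_nonneg (dist_triangle_left _ _ _) 2
    nlinarith

variable {μ ν : Measure X}

theorem dual_le (hμ : PB o R μ) (hν : PB o R ν) (hφ : Continuous φ) (hψ : Continuous ψ)
    (h : ∀ x ∈ closedBall o R, ∀ y ∈ closedBall o R, φ x + ψ y ≤ dist x y ^ 2 / 2) :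
    ∫ x, φ x ∂μ + ∫ y, ψ y ∂ν ≤ W2 μ ν / 2 := by
  refine le_of_forall_pos_le_add fun ε hε => ?_
  obtain ⟨q, ⟨hq1, hq2⟩, hq⟩ := exists_coupling_le hμ hν hε
  have i1 : Integrable (fun p : X × X => φ p.1) q :=
    (integrable_map_measure hφ.aestronglyMeasurable measurable_fst.aemeasurable).1
      (hq1 ▸ hμ.integrable hφ)
  have i2 : Integrable (fun p : X × X => ψ p.2) q :=
    (integrable_map_measure hψ.aestronglyMeasurable measurable_snd.aemeasurable).1
      (hq2 ▸ hν.integrable hψ)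
  have a1 : ∀ᵐ p ∂q, p.1 ∈ closedBall o R :=
    ae_of_ae_map measurable_fst.aemeasurable (hq1 ▸ hμ.ae)
  have a2 : ∀ᵐ p ∂q, p.2 ∈ closedBall o R :=
    ae_of_ae_map measurable_snd.aemeasurable (hq2 ▸ hν.ae)
  have hc : Continuous fun p : X × X => dist p.1 p.2 ^ 2 := by fun_prop
  have e : quadCost q = ∫⁻ p, ENNReal.ofReal (dist p.1 p.2 ^ 2) ∂q := by
    refine lintegral_congr fun p => ?_
    rw [edist_dist, ENNReal.ofReal_pow dist_nonneg]
  have i3 : Integrable (fun p : X × X => dist p.1 p.2 ^ 2) q :=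
    ⟨hc.aestronglyMeasurable, (hasFiniteIntegral_iff_ofReal (ae_of_all _ fun p => sq_nonneg _)).2
      (e ▸ hq.trans_lt ENNReal.ofReal_lt_top)⟩
  have e3 : ∫ p, dist p.1 p.2 ^ 2 ∂q ≤ W2 μ ν + ε := by
    rw [integral_eq_lintegral_of_nonneg_ae (ae_of_all _ fun p => sq_nonneg _)
      hc.aestronglyMeasurable, ← e]
    exact ENNReal.toReal_le_of_le_ofReal (add_nonneg (W2_nonneg _ _) hε.le) hq
  have e4 : ∫ p, (φ p.1 + ψ p.2) ∂q ≤ ∫ p, dist p.1 p.2 ^ 2 / 2 ∂q := by
    refine integral_mono_ae (i1.add i2) (i3.div_const 2) ?_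
    filter_upwards [a1, a2] with p h1 h2 using h _ h1 _ h2
  have e1 : ∫ x, φ x ∂μ = ∫ p, φ p.1 ∂q := by
    rw [← hq1, integral_map measurable_fst.aemeasurable hφ.aestronglyMeasurable]
  have e2 : ∫ x, ψ x ∂ν = ∫ p, ψ p.2 ∂q := by
    rw [← hq2, integral_map measurable_snd.aemeasurable hψ.aestronglyMeasurable]
  rw [integral_add i1 i2, integral_div] at e4
  linarith

theorem g4b_hb {E : Type*} [AddCommGroup E] [Module ℝ E] (S : E → ℝ → Prop)
    (h0 : S 0 0) (hadd : ∀ x r y s, S x r → S y s → S (x + y) (r + s))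
    (hsmul : ∀ (a : ℝ) x r, 0 ≤ a → S x r → S (a • x) (a * r))
    (hpos : ∀ r, S 0 r → 0 ≤ r) (hall : ∀ x, ∃ r, S x r) :
    ∃ Λ : E →ₗ[ℝ] ℝ, ∀ x r, S x r → Λ x ≤ r := by
  let s : PointedCone ℝ (E × ℝ) :=
    { carrier := {p | S p.1 p.2}
      zero_mem' := h0
      add_mem' := fun hx hy => hadd _ _ _ _ hx hy
      smul_mem' := fun ⟨a, ha⟩ p hp => hsmul a _ _ ha hp }
  let f : (E × ℝ) →ₗ.[ℝ] ℝ := (LinearMap.snd ℝ E ℝ).toPMap (LinearMap.ker (LinearMap.fst ℝ E ℝ))
  obtain ⟨g, hg, hg'⟩ := riesz_extension s f (by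
      rintro ⟨⟨x, r⟩, hx⟩ hs
      have hx' : x = 0 := hx
      subst hx'
      exact hpos r hs) (by
      rintro ⟨x, r'⟩
      obtain ⟨r, hr⟩ := hall x
      refine ⟨⟨(0, r - r'), rfl⟩, ?_⟩
      change S (0 + x) (r - r' + r')
      rwa [zero_add, sub_add_cancel])
  refine ⟨-g.comp (LinearMap.inl ℝ E ℝ), fun x r h => ?_⟩
  have h2 : g (0, r) = r := hg ⟨(0, r), rfl⟩
  have h3 : 0 ≤ g (x, r) := hg' _ h
  have h4 : g (x, r) = g (x, 0) + g (0, r) := by rw [← map_add]; simp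
  change -g (x, 0) ≤ r
  linarith

theorem g4b_avg (hμ : PB o R μ) (hν : PB o R ν) (hφ : Continuous φ) (hψ : Continuous ψ)
    (h : ∀ x ∈ closedBall o R, ∀ y ∈ closedBall o R, 0 ≤ φ x + ψ y) :
    0 ≤ ∫ x, φ x ∂μ + ∫ y, ψ y ∂ν := by
  have := hμ.1
  have := hν.1
  have h1 : ∀ᵐ y ∂ν, 0 ≤ ∫ x, φ x ∂μ + ψ y := hν.ae.mono fun y hy => by
    have := integral_nonneg_of_ae (f := fun x => φ x + ψ y) (hμ.ae.mono fun x hx => h x hx y hy)
    rw [integral_add (hμ.integrable hφ) (integrable_const _)] at this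
    simpa using this
  have := integral_nonneg_of_ae h1
  rw [integral_add (integrable_const _) (hν.integrable hψ)] at this
  simpa using this

theorem g4b_riesz (hμ : PB o R μ) (hν : PB o R ν) {α : ℝ}
    (H : ∀ φ ψ : X → ℝ, Continuous φ → Continuous ψ →
      (∀ x ∈ closedBall o R, ∀ y ∈ closedBall o R, φ x + ψ y ≤ dist x y ^ 2 / 2) →
      ∫ x, φ x ∂μ + ∫ y, ψ y ∂ν ≤ α) :
    ∃ q : Measure (closedBall o R × closedBall o R), IsFiniteMeasure q ∧
      ∀ (u : closedBall o R × closedBall o R → ℝ) (φ ψ : X → ℝ) (s : ℝ), Continuous u →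
        Continuous φ → Continuous ψ → 0 ≤ s →
        (∀ z, u z ≤ φ z.1 + ψ z.2 + s * (dist (z.1 : X) z.2 ^ 2 / 2)) →
        ∫ z, u z ∂q ≤ ∫ x, φ x ∂μ + ∫ y, ψ y ∂ν + s * α := by
  have : CompactSpace (closedBall o R) := isCompact_iff_compactSpace.1 (isCompact_closedBall o R)
  obtain ⟨Λ, hΛ⟩ := g4b_hb
    (E := CompactlySupportedContinuousMap (closedBall o R × closedBall o R) ℝ)
    (fun u t => ∃ (φ ψ : X → ℝ) (s : ℝ), Continuous φ ∧ Continuous ψ ∧ 0 ≤ s ∧
      (∀ z, u z ≤ φ z.1 + ψ z.2 + s * (dist (z.1 : X) z.2 ^ 2 / 2)) ∧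
      t = ∫ x, φ x ∂μ + ∫ y, ψ y ∂ν + s * α)
    ⟨fun _ => 0, fun _ => 0, 0, continuous_const, continuous_const, le_rfl, by simp, by simp⟩
    (by
      rintro u _ v _ ⟨φ, ψ, s, h1, h2, h3, h4, rfl⟩ ⟨φ', ψ', s', k1, k2, k3, k4, rfl⟩
      refine ⟨fun x => φ x + φ' x, fun x => ψ x + ψ' x, s + s', h1.add k1, h2.add k2,
        add_nonneg h3 k3, fun z => ?_, ?_⟩
      · have e : (u + v) z = u z + v z := rfl
        linarith [h4 z, k4 z]
      · rw [integral_add (hμ.integrable h1) (hμ.integrable k1),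
          integral_add (hν.integrable h2) (hν.integrable k2)]
        ring)
    (by
      rintro a u _ ha ⟨φ, ψ, s, h1, h2, h3, h4, rfl⟩
      refine ⟨fun x => a * φ x, fun x => a * ψ x, a * s, continuous_const.mul h1,
        continuous_const.mul h2, mul_nonneg ha h3, fun z => ?_, ?_⟩
      · have e : (a • u) z = a * u z := rfl
        linarith [mul_le_mul_of_nonneg_left (h4 z) ha]
      · rw [integral_const_mul, integral_const_mul]
        ring)
    (by
      rintro _ ⟨φ, ψ, s, h1, h2, h3, h4, rfl⟩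
      have h5 : ∀ x ∈ closedBall o R, ∀ y ∈ closedBall o R,
          0 ≤ φ x + ψ y + s * (dist x y ^ 2 / 2) := fun x hx y hy => h4 (⟨x, hx⟩, ⟨y, hy⟩)
      rcases h3.eq_or_lt with rfl | hs
      · simpa using g4b_avg hμ hν h1 h2 fun x hx y hy => by simpa using h5 x hx y hy
      · have := H (fun x => -s⁻¹ * φ x) (fun x => -s⁻¹ * ψ x) (continuous_const.mul h1)
          (continuous_const.mul h2) fun x hx y hy => by
            have := mul_nonneg (inv_pos.2 hs).le (h5 x hx y hy)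
            rw [mul_add, inv_mul_cancel_left₀ hs.ne'] at this
            linarith
        rw [integral_const_mul, integral_const_mul, ← mul_add, neg_mul, neg_le,
          le_inv_mul_iff₀ hs] at this
        linarith)
    (by
      intro u
      obtain ⟨M, hM⟩ := isCompact_univ.exists_bound_of_continuousOn (map_continuous u).continuousOn
      exact ⟨_, fun _ => M, fun _ => 0, 0, continuous_const, continuous_const, le_rfl,
        fun z => by simpa using (le_abs_self _).trans (hM z (mem_univ z)), rfl⟩)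
  let Λp : CompactlySupportedContinuousMap (closedBall o R × closedBall o R) ℝ →ₚ[ℝ] ℝ :=
    PositiveLinearMap.mk₀ Λ fun u hu => by
      have := hΛ (-u) 0 ⟨fun _ => 0, fun _ => 0, 0, continuous_const, continuous_const, le_rfl,
        fun z => by simpa using hu z, by simp⟩
      rwa [map_neg, neg_nonpos] at this
  refine ⟨RealRMK.rieszMeasure Λp, inferInstance, fun u φ ψ s hu h1 h2 h3 h4 => ?_⟩
  exact (RealRMK.integral_rieszMeasure Λp ⟨⟨u, hu⟩, HasCompactSupport.of_compactSpace _⟩).trans_le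
    (hΛ _ _ ⟨φ, ψ, s, h1, h2, h3, h4, rfl⟩)

theorem exists_dual_eps (hμ : PB o R μ) (hν : PB o R ν) {ε : ℝ} (hε : 0 < ε) :
    ∃ φ ψ : X → ℝ, Continuous φ ∧ Continuous ψ ∧
      (∀ x ∈ closedBall o R, ∀ y ∈ closedBall o R, φ x + ψ y ≤ dist x y ^ 2 / 2) ∧
      W2 μ ν / 2 ≤ ∫ x, φ x ∂μ + ∫ y, ψ y ∂ν + ε := by
  by_contra hc
  have := hμ.1
  have := hν.1
  have : CompactSpace (closedBall o R) := isCompact_iff_compactSpace.1 (isCompact_closedBall o R)
  obtain ⟨q, hq, H⟩ := g4b_riesz hμ hν (α := W2 μ ν / 2 - ε) fun φ ψ h1 h2 h3 =>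
    not_lt.1 fun h4 => hc ⟨φ, ψ, h1, h2, h3, by linarith⟩
  have hj : Measurable fun z : closedBall o R × closedBall o R => ((z.1 : X), (z.2 : X)) := by
    fun_prop
  have hcp : IsCouplingOf (q.map fun z => ((z.1 : X), (z.2 : X))) μ ν := by
    constructor
    · rw [Measure.map_map measurable_fst hj]
      refine ext_of_forall_integral_eq_of_IsFiniteMeasure fun f => ?_
      rw [integral_map (measurable_fst.comp hj).aemeasurable f.continuous.aestronglyMeasurable]
      have a := H (fun z => f z.1) f (fun _ => 0) 0 (by fun_prop) f.continuous continuous_const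
        le_rfl (by simp)
      have b := H (fun z => -f z.1) (fun x => -f x) (fun _ => 0) 0 (by fun_prop) f.continuous.neg
        continuous_const le_rfl (by simp)
      simp only [integral_neg, integral_zero, add_zero, zero_mul, neg_le_neg_iff] at a b
      exact le_antisymm a b
    · rw [Measure.map_map measurable_snd hj]
      refine ext_of_forall_integral_eq_of_IsFiniteMeasure fun f => ?_
      rw [integral_map (measurable_snd.comp hj).aemeasurable f.continuous.aestronglyMeasurable]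
      have a := H (fun z => f z.2) (fun _ => 0) f 0 (by fun_prop) continuous_const f.continuous
        le_rfl (by simp)
      have b := H (fun z => -f z.2) (fun _ => 0) (fun x => -f x) 0 (by fun_prop) continuous_const
        f.continuous.neg le_rfl (by simp)
      simp only [integral_neg, integral_zero, add_zero, zero_add, zero_mul, neg_le_neg_iff] at a b
      exact le_antisymm a b
  have hd : Continuous fun z : closedBall o R × closedBall o R => dist (z.1 : X) z.2 ^ 2 := by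
    fun_prop
  have a := H _ (fun _ => 0) (fun _ => 0) 2 hd continuous_const continuous_const zero_le_two
    fun z => le_of_eq (by ring)
  have b := W2_le_of_coupling hcp
    (integral_nonneg (μ := q) (f := fun z => dist (z.1 : X) z.2 ^ 2) fun z => sq_nonneg _) (by
      rw [quadCost, lintegral_map (by fun_prop) hj, ofReal_integral_eq_lintegral_ofReal
        (hd.integrable_of_hasCompactSupport (HasCompactSupport.of_compactSpace _))
        (Eventually.of_forall fun z => sq_nonneg _)]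
      refine le_of_eq (lintegral_congr fun z => ?_)
      rw [edist_dist, ENNReal.ofReal_pow dist_nonneg])
  simp only [integral_zero] at a
  linarith

/-- the `c`-transform over a set -/
def g4c_ct (B : Set X) (ψ : X → ℝ) (x : X) : ℝ := sInf ((fun y => dist x y ^ 2 / 2 - ψ y) '' B)

theorem g4c_least {B : Set X} (hB : IsCompact B) (hne : B.Nonempty) (hψ : Continuous ψ) (x : X) :
    IsLeast ((fun y => dist x y ^ 2 / 2 - ψ y) '' B) (g4c_ct B ψ x) :=
  (hB.image (by fun_prop)).isLeast_sInf (hne.image _)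

theorem g4c_cont {B : Set X} (hB : IsCompact B) (hψ : Continuous ψ) : Continuous (g4c_ct B ψ) :=
  hB.continuous_sInf (f := fun x y => dist x y ^ 2 / 2 - ψ y) (by
    change Continuous fun p : X × X => dist p.1 p.2 ^ 2 / 2 - ψ p.2
    fun_prop)

theorem g4c_shift {B : Set X} (h : IsPot B φ ψ) (c : ℝ) :
    IsPot B (fun x => φ x - c) fun y => ψ y + c := by
  refine ⟨fun x => ⟨?_, ?_⟩, fun y => ⟨?_, ?_⟩⟩
  · obtain ⟨y, hy, e⟩ := (h.1 x).1
    exact ⟨y, hy, by simp only at e ⊢; linarith⟩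
  · rintro _ ⟨y, hy, rfl⟩
    have := (h.1 x).2 ⟨y, hy, rfl⟩
    simp only at this ⊢
    linarith
  · obtain ⟨x, hx, e⟩ := (h.2 y).1
    exact ⟨x, hx, by simp only at e ⊢; linarith⟩
  · rintro _ ⟨x, hx, rfl⟩
    have := (h.2 y).2 ⟨x, hx, rfl⟩
    simp only at this ⊢
    linarith

theorem exists_pot_ge (hμ : PB o R μ) (hν : PB o R ν) (hφ : Continuous φ) (hψ : Continuous ψ)
    (h : ∀ x ∈ closedBall o R, ∀ y ∈ closedBall o R, φ x + ψ y ≤ dist x y ^ 2 / 2) :
    ∃ φ' ψ' : X → ℝ, IsPot (closedBall o R) φ' ψ' ∧ φ' o = 0 ∧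
      ∫ x, φ x ∂μ + ∫ y, ψ y ∂ν ≤ ∫ x, φ' x ∂μ + ∫ y, ψ' y ∂ν := by
  have hB : IsCompact (closedBall o R) := isCompact_closedBall o R
  have hne : (closedBall o R).Nonempty := ⟨o, mem_closedBall_self hμ.nonneg⟩
  set B := closedBall o R with hBdef
  have c1 : Continuous (g4c_ct B ψ) := g4c_cont hB hψ
  have c2 : Continuous (g4c_ct B (g4c_ct B ψ)) := g4c_cont hB c1
  have c3 : Continuous (g4c_ct B (g4c_ct B (g4c_ct B ψ))) := g4c_cont hB c2
  have l1 := g4c_least hB hne hψ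
  have l2 := g4c_least hB hne c1
  have l3 := g4c_least hB hne c2
  set φ₁ := g4c_ct B ψ
  set ψ₁ := g4c_ct B φ₁
  set φ₂ := g4c_ct B ψ₁
  have h1 : ∀ x ∈ B, φ x ≤ φ₁ x := fun x hx => by
    obtain ⟨y, hy, e⟩ := (l1 x).1
    have := h x hx y hy
    simp only at e
    linarith
  have h2 : ∀ y ∈ B, ψ y ≤ ψ₁ y := fun y hy => by
    obtain ⟨x, hx, e⟩ := (l2 y).1
    have := (l1 x).2 ⟨y, hy, rfl⟩
    simp only [dist_comm y x] at e this
    linarith
  have h3 : ∀ x ∈ B, φ₂ x = φ₁ x := fun x hx => by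
    refine le_antisymm ?_ ?_
    · obtain ⟨y, hy, e⟩ := (l1 x).1
      have := (l3 x).2 ⟨y, hy, rfl⟩
      have := h2 y hy
      simp only at *
      linarith
    · obtain ⟨y, hy, e⟩ := (l3 x).1
      have := (l2 y).2 ⟨x, hx, rfl⟩
      simp only [dist_comm y x] at e this
      linarith
  have hP : IsPot B φ₂ ψ₁ := by
    refine ⟨l3, fun y => ?_⟩
    have e : (fun x => dist x y ^ 2 / 2 - φ₂ x) '' B = (fun x => dist y x ^ 2 / 2 - φ₁ x) '' B :=
      image_congr fun x hx => by rw [h3 x hx, dist_comm]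
    rw [e]
    exact l2 y
  refine ⟨_, _, g4c_shift hP (φ₂ o), sub_self _, ?_⟩
  have := hμ.1
  have := hν.1
  rw [integral_sub (hμ.integrable c3) (integrable_const _),
    integral_add (hν.integrable c2) (integrable_const _)]
  simp only [integral_const, probReal_univ, one_smul]
  have e1 : ∫ x, φ x ∂μ ≤ ∫ x, φ₂ x ∂μ := by
    refine integral_mono_ae (hμ.integrable hφ) (hμ.integrable c3) ?_
    filter_upwards [hμ.ae] with x hx using (h1 x hx).trans (h3 x hx).ge
  have e2 : ∫ x, ψ x ∂ν ≤ ∫ x, ψ₁ x ∂ν := by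
    refine integral_mono_ae (hν.integrable hψ) (hν.integrable c2) ?_
    filter_upwards [hν.ae] with x hx using h2 x hx
  linarith

theorem g4d_cont {g : X → ℝ} (h : ∀ x x', |g x - g x'| ≤ dist x x' * (R + (dist x o + dist x' o) / 2)) :
    Continuous g := by
  refine continuous_iff_continuousAt.2 fun x' => tendsto_iff_dist_tendsto_zero.2
    (squeeze_zero (fun _ => dist_nonneg) (fun x => h x x') ?_)
  have : Continuous fun x => dist x x' * (R + (dist x o + dist x' o) / 2) := by fun_prop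
  simpa using this.tendsto x'

theorem g4d_lim (hμ : PB o R μ) {f : ℕ → X → ℝ} {B : ℝ}
    (h1 : ∀ n x x', |f n x - f n x'| ≤ dist x x' * (R + (dist x o + dist x' o) / 2))
    (h2 : ∀ n, |f n o| ≤ B) (U : Ultrafilter ℕ) :
    ∃ g : X → ℝ, Continuous g ∧ (∀ x, Tendsto (fun n => f n x) U (𝓝 (g x))) ∧
      Tendsto (fun n => ∫ x, f n x ∂μ) U (𝓝 (∫ x, g x ∂μ)) := by
  have hex : ∀ x, ∃ y, Tendsto (fun n => f n x) U (𝓝 y) := fun x => by
    obtain ⟨y, -, hy⟩ := (isCompact_closedBall (0 : ℝ)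
      (B + dist x o * (R + (dist x o + dist o o) / 2))).ultrafilter_le_nhds (U.map fun n => f n x)
      (le_principal_iff.2 (mem_map.2 (univ_mem' fun n => by
        have := abs_sub_abs_le_abs_sub (f n x) (f n o)
        rw [mem_preimage, mem_closedBall_zero_iff, Real.norm_eq_abs]
        linarith [h1 n x o, h2 n])))
    exact ⟨y, hy⟩
  choose g hg using hex
  have hc : Continuous g := g4d_cont fun x x' =>
    le_of_tendsto' ((hg x).sub (hg x')).abs fun n => h1 n x x'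
  refine ⟨g, hc, hg, Metric.tendsto_nhds.2 fun ε hε => ?_⟩
  have : CompactSpace (closedBall o R) := isCompact_iff_compactSpace.1 (isCompact_closedBall o R)
  have he : Equicontinuous fun n (x : closedBall o R) => f n x := by
    refine Metric.equicontinuous_of_continuity_modulus (fun t => t * (2 * R)) ?_ _ fun x y n => ?_
    · simpa using (continuous_mul_const (2 * R)).tendsto (0 : ℝ)
    · refine (h1 n x y).trans (mul_le_mul_of_nonneg_left ?_ dist_nonneg)
      linarith [mem_closedBall.1 x.2, mem_closedBall.1 y.2]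
  have hu := UniformFun.tendsto_iff_tendstoUniformly.1
    ((he.tendsto_uniformFun_iff_pi U fun x : closedBall o R => g x).2 (tendsto_pi_nhds.2 fun x => hg x))
  have := hμ.1
  filter_upwards [Metric.tendstoUniformly_iff.1 hu (ε / 2) (half_pos hε)] with n hn
  rw [dist_eq_norm, ← integral_sub (hμ.integrable (g4d_cont (h1 n))) (hμ.integrable hc)]
  refine (norm_integral_le_of_norm_le_const (C := ε / 2) ?_).trans_lt (by simpa using hε)
  filter_upwards [hμ.ae] with x hx
  rw [← dist_eq_norm, dist_comm]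
  exact (hn ⟨x, hx⟩).le

theorem exists_pot (hμ : PB o R μ) (hν : PB o R ν) :
    ∃ φ ψ : X → ℝ, IsPot (closedBall o R) φ ψ ∧ φ o = 0 ∧
      ∫ x, φ x ∂μ + ∫ y, ψ y ∂ν = W2 μ ν / 2 := by
  have h1 : ∀ n : ℕ, ∃ φ ψ : X → ℝ, IsPot (closedBall o R) φ ψ ∧ φ o = 0 ∧
      W2 μ ν / 2 - 1 / ((n : ℝ) + 1) ≤ ∫ x, φ x ∂μ + ∫ y, ψ y ∂ν := fun n => by
    obtain ⟨φ, ψ, a1, a2, a3, a4⟩ := exists_dual_eps hμ hν (ε := 1 / ((n : ℝ) + 1)) (by positivity)
    obtain ⟨φ', ψ', b1, b2, b3⟩ := exists_pot_ge hμ hν a1 a2 a3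
    exact ⟨φ', ψ', b1, b2, by linarith⟩
  choose f g hp h0 hI using h1
  have ho := mem_closedBall_self (x := o) hμ.nonneg
  obtain ⟨φ, a1, a2, a3⟩ := g4d_lim hμ (fun n => (hp n).lip) (fun n => ((hp n).bound (h0 n) ho).1) (hyperfilter ℕ)
  obtain ⟨ψ, b1, b2, b3⟩ := g4d_lim hν (fun n => (hp n).symm.lip) (fun n => ((hp n).bound (h0 n) ho).2)
    (hyperfilter ℕ)
  obtain ⟨φ', ψ', c1, c2, c3⟩ := exists_pot_ge hμ hν a1 b1 fun x _ y hy =>
    le_of_tendsto' ((a2 x).add (b2 y)) fun n => (hp n).le x hy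
  refine ⟨φ', ψ', c1, c2, le_antisymm
    (dual_le hμ hν c1.continuous c1.symm.continuous fun x _ y hy => c1.le x hy) (le_trans ?_ c3)⟩
  have h2 := ((tendsto_one_div_add_atTop_nhds_zero_nat (𝕜 := ℝ)).const_sub (W2 μ ν / 2)).mono_left
    Nat.hyperfilter_le_atTop
  rw [sub_zero] at h2
  exact le_of_tendsto_of_tendsto' h2 (a3.add b3) hI

theorem OptGeo.pot_eq {P : Measure (UCurve X)} (hP : OptGeo o R μ ν P)
    (h : IsPot (closedBall o R) φ ψ) (he : ∫ x, φ x ∂μ + ∫ y, ψ y ∂ν = W2 μ ν / 2) :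
    ∀ᵐ γ ∂P, φ (γ.ext 0) + ψ (γ.ext 1) = len γ ^ 2 / 2 := by
  have := hP.prob
  have hφ := h.continuous
  have hψ := h.symm.continuous
  have m0 := (measurable_ext_at (X := X) 0).aemeasurable (μ := P)
  have m1 := (measurable_ext_at (X := X) 1).aemeasurable (μ := P)
  have f0 : P.map (fun γ => γ.ext 0) = μ := hP.m0
  have f1 : P.map (fun γ => γ.ext 1) = ν := hP.m1
  have i1 : Integrable (fun γ : UCurve X => φ (γ.ext 0)) P :=
    (integrable_map_measure hφ.aestronglyMeasurable m0).1 (f0 ▸ hP.pb0.integrable hφ)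
  have i2 : Integrable (fun γ : UCurve X => ψ (γ.ext 1)) P :=
    (integrable_map_measure hψ.aestronglyMeasurable m1).1 (f1 ▸ hP.pb1.integrable hψ)
  have e1 : ∫ x, φ x ∂μ = ∫ γ, φ (γ.ext 0) ∂P := by
    rw [← f0, integral_map m0 hφ.aestronglyMeasurable]
  have e2 : ∫ x, ψ x ∂ν = ∫ γ, ψ (γ.ext 1) ∂P := by
    rw [← f1, integral_map m1 hψ.aestronglyMeasurable]
  refine (integral_eq_iff_of_ae_le (i1.add i2) (hP.integrable_len.div_const 2) ?_).1 ?_
  · filter_upwards [hP.geo] with γ hγ using h.le _ hγ.2.2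
  · rw [integral_add' i1 i2, integral_div, hP.cost_eq, ← e1, ← e2, he]

theorem g4c_tv {m : Measure X} [IsFiniteMeasureOnCompacts m] [m.IsOpenPosMeasure] {ρ η f : X → ℝ}
    {C : ℝ} (i : Integrable ρ m) (j : Integrable η m) (p : ∀ᵐ x ∂m, 0 ≤ ρ x)
    (q : ∀ᵐ x ∂m, 0 ≤ η x) (a : PB o R (wd m ρ)) (b : PB o R (wd m η)) (hf : Continuous f)
    (hC : ∀ x ∈ closedBall o R, |f x| ≤ C) :
    ∫ x, f x ∂(wd m ρ) ≤ ∫ x, f x ∂(wd m η) + C * ∫ x, |ρ x - η x| ∂m := by
  have key : ∀ {ρ : X → ℝ}, Integrable ρ m → (∀ᵐ x ∂m, 0 ≤ ρ x) → PB o R (wd m ρ) →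
      (∀ᵐ x ∂m, x ∉ closedBall o R → ρ x = 0) ∧ Integrable (fun x => ρ x * f x) m := by
    intro ρ i p a
    have z : ∀ᵐ x ∂m, x ∉ closedBall o R → ρ x = 0 := by
      filter_upwards [a.dens_zero (m := m), dens_wd i.1 p] with x h1 h2 hx
      rw [← h2, h1 hx]
    refine ⟨z, (i.norm.const_mul C).mono' (i.1.mul hf.aestronglyMeasurable) ?_⟩
    filter_upwards [z] with x hx
    by_cases hb : x ∈ closedBall o R
    · rw [norm_mul, mul_comm]
      exact mul_le_mul_of_nonneg_right (hC x hb) (norm_nonneg _)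
    · simp [hx hb]
  obtain ⟨z1, i1⟩ := key i p a
  obtain ⟨z2, i2⟩ := key j q b
  have i3 : Integrable (fun x => C * |ρ x - η x|) m := (i.sub j).abs.const_mul C
  rw [integral_wd i.1 p, integral_wd j.1 q, ← integral_const_mul, ← integral_add i2 i3]
  refine integral_mono_ae i1 (i2.add i3) ?_
  filter_upwards [z1, z2] with x h1 h2
  by_cases hb : x ∈ closedBall o R
  · have h3 : (ρ x - η x) * f x ≤ C * |ρ x - η x| := by
      refine (le_abs_self _).trans ?_
      rw [abs_mul, mul_comm]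
      exact mul_le_mul_of_nonneg_right (hC x hb) (abs_nonneg _)
    linarith
  · simp [h1 hb, h2 hb]

/-- Continuity in total variation (`exists_pot`, `dual_le`, `IsPot.bound`). -/
theorem W2_tv {m : Measure X} [IsFiniteMeasureOnCompacts m] [m.IsOpenPosMeasure]
    {ρ₀ ρ₁ η₀ η₁ : X → ℝ} (i₀ : Integrable ρ₀ m) (i₁ : Integrable ρ₁ m) (j₀ : Integrable η₀ m)
    (j₁ : Integrable η₁ m) (p₀ : ∀ᵐ x ∂m, 0 ≤ ρ₀ x) (p₁ : ∀ᵐ x ∂m, 0 ≤ ρ₁ x)
    (q₀ : ∀ᵐ x ∂m, 0 ≤ η₀ x) (q₁ : ∀ᵐ x ∂m, 0 ≤ η₁ x) (a₀ : PB o R (wd m ρ₀))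
    (a₁ : PB o R (wd m ρ₁)) (b₀ : PB o R (wd m η₀)) (b₁ : PB o R (wd m η₁)) :
    W2 (wd m ρ₀) (wd m ρ₁) ≤ W2 (wd m η₀) (wd m η₁) +
      8 * R ^ 2 * (∫ x, |ρ₀ x - η₀ x| ∂m + ∫ x, |ρ₁ x - η₁ x| ∂m) := by
  obtain ⟨φ, ψ, h, h0, he⟩ := exists_pot a₀ a₁
  have h1 := dual_le b₀ b₁ h.continuous h.symm.continuous fun x _ y hy => h.le x hy
  have h2 := g4c_tv i₀ j₀ p₀ q₀ a₀ b₀ h.continuous fun x hx => (h.bound h0 hx).1
  have h3 := g4c_tv i₁ j₁ p₁ q₁ a₁ b₁ h.symm.continuous fun x hx => (h.bound h0 hx).2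
  linarith

end Crest.Agent.R242
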