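import Crest.Agent.R242.G3
import Crest.Agent.R242.G5

/-! Block H1: the functional `gd C ν = ∫ min (dens ν) C`.
`gd_approx`: `A = {ρ > C} ∪ S` (`S` an `m`-null set carrying the singular part) has
`ν(Aᶜ) + C m(A) = gd`; approximate `1_A` in `L¹(ν + m)` by a continuous compactly supported function
with values in `[0,1]` (`exists_lip_approx` for the measure `m + ν`, truncate).
`gd_usc`: the two previous lemmas. -/

set_option autoImplicit false
set_option linter.unusedSectionVars false
set_option linter.unusedVariables false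
open MeasureTheory Filter Set Metric
open scoped ENNReal NNReal Topology
open Crest.GeometryTopology.SyntheticRicci

noncomputable section
namespace Crest.Agent.R242

variable {X : Type*} [MetricSpace X] [MeasurableSpace X] [BorelSpace X] [ProperSpace X]
  {m : Measure X} [IsFiniteMeasureOnCompacts m] [m.IsOpenPosMeasure]

/-- The mass of the part of the density below the level `C`. -/
def gd (m : Measure X) (C : ℝ) (ν : Measure X) : ℝ := ∫ x, min (dens m ν x) C ∂m

variable {C R : ℝ} {o : X} {ν : Measure X}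

theorem h1a_int (ν : Measure X) [IsFiniteMeasure ν] : Integrable (dens m ν) m :=
  Measure.integrable_toReal_rnDeriv

theorem h1a_meas (ν : Measure X) : Measurable (dens m ν) :=
  (Measure.measurable_rnDeriv ν m).ennreal_toReal

theorem h1a_nonneg (ν : Measure X) (x : X) : 0 ≤ dens m ν x := ENNReal.toReal_nonneg

theorem gd_integrable (hC : 0 < C) (ν : Measure X) [IsFiniteMeasure ν] :
    Integrable (fun x => min (dens m ν x) C) m := by
  refine (h1a_int (m := m) ν).mono' ((h1a_meas ν).min measurable_const).aestronglyMeasurable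
    (Eventually.of_forall fun x => ?_)
  rw [Real.norm_eq_abs, abs_of_nonneg (le_min (h1a_nonneg ν x) hC.le)]
  exact min_le_left _ _

theorem gd_le_one (hC : 0 < C) (hν : PB o R ν) : gd m C ν ≤ 1 := by
  have := hν.1
  have h1 : ∫ x, dens m ν x ∂m = _ := Measure.integral_toReal_rnDeriv'
  have h2 : gd m C ν ≤ _ := integral_mono (gd_integrable hC ν) (h1a_int ν) fun x => min_le_left _ _
  rw [probReal_univ] at h1
  linarith [measureReal_nonneg (μ := ν.singularPart m) (s := univ)]

theorem le_of_gd (hC : 0 < C) (hν : PB o R ν) (h : 1 ≤ gd m C ν) : BM m C o R ν := by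
  have := hν.1
  have h1 : ∫ x, dens m ν x ∂m = _ := Measure.integral_toReal_rnDeriv'
  have h2 : gd m C ν ≤ _ := integral_mono (gd_integrable hC ν) (h1a_int ν) fun x => min_le_left _ _
  have h3 := measureReal_nonneg (μ := ν.singularPart m) (s := univ)
  rw [probReal_univ] at h1
  have h4 : ν.singularPart m = 0 :=
    Measure.measure_univ_eq_zero.1 ((measureReal_eq_zero_iff (measure_ne_top _ _)).1 (by linarith))
  have h5 := (integral_eq_iff_of_ae_le (gd_integrable hC ν) (h1a_int (m := m) ν)
    (Eventually.of_forall fun x => min_le_left _ _)).1 (le_antisymm h2 (by rw [gd] at h; linarith))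
  refine ⟨hν, ?_⟩
  rw [ν.haveLebesgueDecomposition_add m, h4, zero_add, ← withDensity_const]
  refine withDensity_mono ?_
  filter_upwards [h5, Measure.rnDeriv_lt_top ν m] with x a1 a2
  rw [← ENNReal.ofReal_toReal a2.ne]
  exact ENNReal.ofReal_le_ofReal (min_eq_left_iff.1 a1)

theorem gd_le_test (hC : 0 < C) (hν : PB o R ν) {h : X → ℝ} (hc : Continuous h)
    (hs : HasCompactSupport h) (h01 : ∀ x, 0 ≤ h x ∧ h x ≤ 1) :
    gd m C ν ≤ ∫ x, (1 - h x) ∂ν + C * ∫ x, h x ∂m := by
  have := hν.1
  have hb : ∀ x, ‖1 - h x‖ ≤ 1 := fun x => abs_le.2 ⟨by linarith [(h01 x).2], by linarith [(h01 x).1]⟩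
  have hm := (continuous_const.sub hc (f := fun _ => (1 : ℝ))).measurable
  have h1 := integral_mono_measure (Measure.withDensity_rnDeriv_le ν m) (f := fun x => 1 - h x)
    (Eventually.of_forall fun x => sub_nonneg.2 (h01 x).2)
    (Integrable.of_bound hm.aestronglyMeasurable 1 (Eventually.of_forall hb))
  rw [integral_withDensity_eq_integral_toReal_smul (Measure.measurable_rnDeriv ν m)
    (Measure.rnDeriv_lt_top ν m)] at h1
  have h2 : Integrable (fun x => dens m ν x * (1 - h x)) m :=
    (h1a_int ν).mul_bdd hm.aestronglyMeasurable (Eventually.of_forall hb)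
  have h3 := (hc.integrable_of_hasCompactSupport (μ := m) hs).const_mul C
  refine (integral_mono (gd_integrable hC ν) (h2.add h3) fun x => ?_).trans ?_
  · have a1 := mul_le_mul_of_nonneg_right (min_le_left (dens m ν x) C) (sub_nonneg.2 (h01 x).2)
    have a2 := mul_le_mul_of_nonneg_right (min_le_right (dens m ν x) C) (h01 x).1
    simp only [Pi.add_apply]
    linarith
  · simp only [Pi.add_apply]
    rw [integral_add h2 h3, integral_const_mul]
    exact add_le_add h1 le_rfl

theorem gd_approx (hC : 0 < C) (hν : PB o R ν) {ε : ℝ} (hε : 0 < ε) :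
    ∃ h : X → ℝ, Continuous h ∧ HasCompactSupport h ∧ (∀ x, 0 ≤ h x ∧ h x ≤ 1) ∧
      ∫ x, (1 - h x) ∂ν + C * ∫ x, h x ∂m ≤ gd m C ν + ε := by
  have := hν.1
  obtain ⟨s, hs, hs1, hs2⟩ := Measure.mutuallySingular_singularPart ν m
  set T : Set X := {x | dens m ν x ≤ C} ∩ s with hTdef
  have hT : MeasurableSet T := (measurableSet_le (dens_meas ν) measurable_const).inter hs
  have hi := gd_integrable (m := m) hC ν
  have e1 : ν.real T = ∫ x in T, min (dens m ν x) C ∂m := by
    rw [setIntegral_congr_fun hT (g := dens m ν) fun x hx => min_eq_left hx.1]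
    have h1 := Measure.setIntegral_toReal_rnDeriv_eq_withDensity' (μ := ν) (ν := m) hT
    have h2 : ν T = (ν.singularPart m + m.withDensity (ν.rnDeriv m)) T := by
      rw [← Measure.haveLebesgueDecomposition_add]
    rw [Measure.add_apply, measure_mono_null inter_subset_right hs1, zero_add] at h2
    rw [measureReal_def, h2]
    exact h1.symm
  obtain ⟨K, hKT, hK, hK1⟩ := hT.compl.exists_isCompact_sdiff_lt (μ := ν) (measure_ne_top _ _)
    (ε := ENNReal.ofReal (ε / 2)) (by simpa using hε)
  obtain ⟨U, hKU, hU, hU1⟩ := Set.exists_isOpen_lt_add (μ := m) K hK.measure_ne_top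
    (ε := ENNReal.ofReal (ε / 2 / C)) (by simp only [ne_eq, ENNReal.ofReal_eq_zero, not_le]; positivity)
  obtain ⟨f, hf1, hf0, hfc, hf⟩ := exists_continuous_one_zero_of_isCompact hK hU.isClosed_compl
    (disjoint_compl_right_iff_subset.2 hKU)
  have e2 : C * m.real K = ∫ x in K, min (dens m ν x) C ∂m := by
    rw [setIntegral_congr_ae hK.measurableSet (g := fun _ => C), setIntegral_const, smul_eq_mul,
      mul_comm]
    filter_upwards [show ∀ᵐ x ∂m, x ∈ s from hs2] with x hx hxK
    exact min_eq_right (le_of_not_ge fun h => hKT hxK ⟨h, hx⟩)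
  have e3 : ν.real T + C * m.real K ≤ gd m C ν := by
    rw [e1, e2, ← setIntegral_union (disjoint_left.2 fun x hx hx' => hKT hx' hx) hK.measurableSet
      hi.integrableOn hi.integrableOn]
    exact setIntegral_le_integral hi
      (Eventually.of_forall fun x => le_min (dens_nonneg ν x) hC.le)
  have e4 : ∫ x, (1 - f x) ∂ν ≤ ν.real T + ε / 2 := by
    calc ∫ x, (1 - f x) ∂ν ≤ ∫ x, Kᶜ.indicator 1 x ∂ν := by
          refine integral_mono_of_nonneg (Eventually.of_forall fun x => sub_nonneg.2 (hf x).2)
            ((integrable_const (1 : ℝ)).indicator hK.measurableSet.compl)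
            (Eventually.of_forall fun x => ?_)
          by_cases hx : x ∈ K
          · simp [hx, hf1 hx]
          · simpa [hx] using (hf x).1
      _ = ν.real Kᶜ := integral_indicator_one hK.measurableSet.compl
      _ ≤ ν.real (T ∪ (Tᶜ \ K)) := measureReal_mono (fun x hx => by
          by_cases h : x ∈ T
          · exact Or.inl h
          · exact Or.inr ⟨h, hx⟩)
      _ ≤ ν.real T + ν.real (Tᶜ \ K) := measureReal_union_le _ _
      _ ≤ ν.real T + ε / 2 := by
          gcongr
          exact ENNReal.toReal_le_of_le_ofReal (half_pos hε).le hK1.le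
  have e5 : ∫ x, f x ∂m ≤ m.real K + ε / 2 / C := by
    calc ∫ x, f x ∂m ≤ ∫ x, U.indicator 1 x ∂m := by
          refine integral_mono_of_nonneg (Eventually.of_forall fun x => (hf x).1)
            ((integrable_indicator_iff hU.measurableSet).2 (integrableOn_const hU1.ne_top))
            (Eventually.of_forall fun x => ?_)
          by_cases hx : x ∈ U
          · simpa [hx] using (hf x).2
          · simp [hx, hf0 hx]
      _ = m.real U := integral_indicator_one hU.measurableSet
      _ ≤ m.real K + ε / 2 / C := by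
          refine ENNReal.toReal_le_of_le_ofReal (by positivity) (hU1.le.trans_eq ?_)
          rw [ENNReal.ofReal_add measureReal_nonneg (by positivity),
            ofReal_measureReal hK.measure_ne_top]
  refine ⟨f, f.continuous, hfc, hf, ?_⟩
  have e6 := mul_le_mul_of_nonneg_left e5 hC.le
  rw [mul_add, mul_div_cancel₀ _ hC.ne'] at e6
  linarith

theorem gd_usc (hC : 0 < C) {νs : ℕ → Measure X} (hνs : ∀ n, PB o R (νs n)) (hν : PB o R ν)
    (hw : ∀ ψ : X → ℝ, Continuous ψ → Tendsto (fun n => ∫ x, ψ x ∂(νs n)) atTop (𝓝 (∫ x, ψ x ∂ν)))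
    {b : ℕ → ℝ} {b₀ : ℝ} (hb : ∀ n, b n ≤ gd m C (νs n)) (hb₀ : Tendsto b atTop (𝓝 b₀)) :
    b₀ ≤ gd m C ν := by
  refine le_of_forall_pos_le_add fun ε hε => ?_
  obtain ⟨h, hc, hs, h01, hle⟩ := gd_approx (m := m) hC hν hε
  refine le_trans ?_ hle
  exact le_of_tendsto_of_tendsto' hb₀ ((hw (fun x => 1 - h x) (by fun_prop)).add_const _)
    fun n => (hb n).trans (gd_le_test hC (hνs n) hc hs h01)

/-- The mass above the level: for some null set `S` and all small `δ`. -/
theorem exists_excess (hC : 0 < C) (hν : PB o R ν) {a : ℝ}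
    (ha : a < C * m.real {x | C < dens m ν x} + (1 - gd m C ν)) :
    ∃ (S : Set X) (δ : ℝ), MeasurableSet S ∧ m S = 0 ∧ 0 < δ ∧
      a < ν.real ({x | C + δ < dens m ν x} ∪ S) := by
  have := hν.1
  obtain ⟨T, hT, hT1, hT2⟩ := Measure.mutuallySingular_singularPart ν m
  have hA : MeasurableSet {x | C < dens m ν x} := measurableSet_lt measurable_const (h1a_meas ν)
  have h1 : gd m C ν = C * m.real {x | C < dens m ν x} + ∫ x in {x | C < dens m ν x}ᶜ, dens m ν x ∂m := by
    rw [gd, ← integral_add_compl hA (gd_integrable hC ν),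
      setIntegral_congr_fun hA (g := fun _ => C) fun x hx => min_eq_right (le_of_lt hx),
      setIntegral_congr_fun hA.compl (g := dens m ν) fun x hx => min_eq_left (not_lt.1 hx),
      setIntegral_const, smul_eq_mul, mul_comm]
  have h2 : ν.real ({x | C < dens m ν x} ∪ Tᶜ)ᶜ ≤ ∫ x in {x | C < dens m ν x}ᶜ, dens m ν x ∂m := by
    refine le_of_le_of_eq (ENNReal.toReal_mono (measure_ne_top _ _) ?_)
      (Measure.setIntegral_toReal_rnDeriv_eq_withDensity _).symm
    refine (congrArg (fun μ : Measure X => μ _) (ν.haveLebesgueDecomposition_add m)).trans_le ?_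
    rw [Measure.add_apply, compl_union, compl_compl, measure_mono_null inter_subset_right hT1, zero_add]
    exact measure_mono inter_subset_left
  rw [probReal_compl_eq_one_sub (hA.union hT.compl)] at h2
  have h3 : Monotone fun n : ℕ => {x | C + 1 / ((n : ℝ) + 1) < dens m ν x} ∪ Tᶜ := fun i j hij =>
    union_subset_union_left _ fun x hx =>
      lt_of_le_of_lt (add_le_add le_rfl (Nat.one_div_le_one_div hij)) (mem_ofPred.1 hx)
  have h4 : ⋃ n : ℕ, {x | C + 1 / ((n : ℝ) + 1) < dens m ν x} ∪ Tᶜ = {x | C < dens m ν x} ∪ Tᶜ := by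
    rw [← iUnion_union]
    congr 1
    ext x
    simp only [mem_iUnion, mem_ofPred_eq]
    refine ⟨fun ⟨n, hn⟩ => lt_trans (lt_add_of_pos_right _ Nat.one_div_pos_of_nat) hn, fun hx => ?_⟩
    obtain ⟨n, hn⟩ := exists_nat_one_div_lt (sub_pos.2 hx)
    exact ⟨n, by linarith⟩
  have h5 := (ENNReal.tendsto_toReal (measure_ne_top ν _)).comp (tendsto_measure_iUnion_atTop (μ := ν) h3)
  rw [h4] at h5
  obtain ⟨n, hn⟩ := (h5.eventually (lt_mem_nhds (a := a) (by rw [← measureReal_def]; linarith))).exists
  exact ⟨Tᶜ, _, hT.compl, hT2, Nat.one_div_pos_of_nat, hn⟩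

end Crest.Agent.R242
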