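import Crest.Agent.R242.H1

/-! Block H2: Rajala's replacement step and the bounded midpoint.
`rajala_mix`: `T = {γ | γ.ext (1/2) ∈ A}`, `P̂ = cond P T` has endpoint laws `μᵢ' ≤ (M/a) m`; `P'` from `MidCD`
for them; `cost P' ≤ W2 μ₀' μ₁' ≤ cost P̂ ≤ D²` (`W2_le_plan`); `Ent ν' ≤ log (M/a) + κD²/8`
(`BM.ent_le_log`), `ent_spread`.  New plan `P.restrict Tᶜ + (1-θ) P.restrict T + θ a P'`.
`rajala_step`: `exists_excess` with `a = max (C s) 0`, `θ = δ/(C+δ)`; the new density is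
`ρ 1_{Aᶜ} + (1-θ) ρ 1_A + θ a' ρ'` (`Measure.rnDeriv_add`, `rnDeriv_smul_left`, `rnDeriv_restrict`), and
`(1-θ)ρ > C` on `{ρ > C + δ}`.  If `gd` does not increase then `min ρ̃ C = min ρ C` a.e., so `ρ' = 0` a.e.
on `{ρ < C}`, hence `{ρ' > 0} ⊆ {ρ̃ > C}` a.e. and `m{ρ̃ > C} ≥ a'/C > s`.
`rajala_mid`: `P*` from `MidCD`, `ρ*` its midpoint density, `𝒜 = {P | OptGeo, wd (min ρ* C) ≤ marg P ½}`
(contains `P*`, closed under `optGeo_subseq` by `measure_le_of_cont`); `gd` attains its maximum `g` on `𝒜`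
(`gd_usc`).  If `g < 1` let `s = sup m{ρ_P > C}` over maximisers (`≤ 1/C`), choose a maximiser with
`m{ρ_P > C} > s - (1-g)/C` and apply `rajala_step`: contradiction.  `le_of_gd`, `ent_compare`. -/

set_option autoImplicit false
set_option linter.unusedSectionVars false
set_option linter.unusedVariables false
open MeasureTheory Filter Set Metric
open scoped ENNReal NNReal Topology
open Crest.GeometryTopology.SyntheticRicci

noncomputable section
namespace Crest.Agent.R242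

variable {X : Type*} [MetricSpace X] [MeasurableSpace X] [BorelSpace X] [ProperSpace X]
  {m : Measure X} [IsFiniteMeasureOnCompacts m] [m.IsOpenPosMeasure]

/-- All optimal plans have lengths at most `D`. -/
def LenLe (o : X) (R : ℝ) (μ₀ μ₁ : Measure X) (D : ℝ) : Prop :=
  ∀ P, OptGeo o R μ₀ μ₁ P → ∀ᵐ γ ∂P, len γ ≤ D

variable {κ M R D : ℝ} {o : X} {μ₀ μ₁ : Measure X}

theorem h2a_marg_add (S Q : Measure (UCurve X)) (t : ℝ) :
    marg (S + Q) t = marg S t + marg Q t :=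
  Measure.map_add _ _ (measurable_ext_at t)

theorem h2a_marg_smul (c : ℝ≥0∞) (Q : Measure (UCurve X)) (t : ℝ) :
    marg (c • Q) t = c • marg Q t :=
  Measure.map_smul _ _ _

theorem h2a_swap {S Q P' : Measure (UCurve X)} {c : ℝ} (hc : 0 ≤ c)
    (hP : OptGeo o R μ₀ μ₁ (S + ENNReal.ofReal c • Q)) [IsProbabilityMeasure Q]
    (hg : ∀ᵐ γ ∂Q, γ.ext 0 ∈ closedBall o R ∧ γ.ext 1 ∈ closedBall o R)
    (hi : Integrable (fun γ : UCurve X => len γ ^ 2) Q)
    (hP' : OptGeo o R (marg Q 0) (marg Q 1) P') :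
    OptGeo o R μ₀ μ₁ (S + ENNReal.ofReal c • P') := by
  have := hP'.prob
  have hS : Integrable (fun γ : UCurve X => len γ ^ 2) S :=
    hP.integrable_len.mono_measure (Measure.le_add_right le_rfl)
  refine ⟨⟨?_⟩, ?_, ?_, ?_, ?_⟩
  · have h1 := hP.prob.measure_univ
    simpa using h1
  · rw [ae_add_measure_iff]
    exact ⟨(ae_add_measure_iff.1 hP.geo).1, Measure.ae_smul_measure hP'.geo _⟩
  · rw [← hP.m0, h2a_marg_add, h2a_marg_add, h2a_marg_smul, h2a_marg_smul, hP'.m0]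
  · rw [← hP.m1, h2a_marg_add, h2a_marg_add, h2a_marg_smul, h2a_marg_smul, hP'.m1]
  · refine le_trans ?_ hP.cost
    rw [integral_add_measure hS (hP'.integrable_len.smul_measure ENNReal.ofReal_ne_top),
      integral_add_measure hS (hi.smul_measure ENNReal.ofReal_ne_top), integral_smul_measure,
      integral_smul_measure, ENNReal.toReal_ofReal hc, smul_eq_mul, smul_eq_mul]
    have h2 : ∫ γ, len γ ^ 2 ∂P' ≤ ∫ γ, len γ ^ 2 ∂Q := hP'.cost.trans (W2_le_plan hg)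
    nlinarith

theorem rajala_mix (hmid : MidCD m κ) (hκ : 0 ≤ κ) (h₀ : BM m M o R μ₀) (h₁ : BM m M o R μ₁)
    {P : Measure (UCurve X)} (hP : OptGeo o R μ₀ μ₁ P) (hD : ∀ᵐ γ ∂P, len γ ≤ D) {A : Set X}
    (hA : MeasurableSet A) (ha : 0 < (marg P (1 / 2)).real A) {θ : ℝ} (hθ : 0 ≤ θ) (hθ1 : θ ≤ 1) :
    ∃ (P' : Measure (UCurve X)) (ν' : Measure X), OptGeo o R μ₀ μ₁ P' ∧ PB o (3 * R) ν' ∧
      (marg P (1 / 2)).real A / (M * Real.exp (κ * D ^ 2 / 8)) ≤ m.real {x | 0 < dens m ν' x} ∧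
      marg P' (1 / 2) = (marg P (1 / 2)).restrict Aᶜ +
        ENNReal.ofReal (1 - θ) • (marg P (1 / 2)).restrict A +
        ENNReal.ofReal (θ * (marg P (1 / 2)).real A) • ν' := by
  have hprob := hP.prob
  have hM := h₀.pos
  set a : ℝ := (marg P (1 / 2)).real A with had
  set T : Set (UCurve X) := (fun γ => γ.ext (1 / 2)) ⁻¹' A with hTd
  have hT : MeasurableSet T := measurable_ext_at _ hA
  have hPT' : marg P (1 / 2) A = P T := Measure.map_apply (measurable_ext_at _) hA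
  have hPT : P T = ENNReal.ofReal a := by
    rw [had, Measure.real, hPT', ENNReal.ofReal_toReal (measure_ne_top _ _)]
  have ha0 : ENNReal.ofReal a ≠ 0 := (ENNReal.ofReal_pos.2 ha).ne'
  set Q : Measure (UCurve X) := ProbabilityTheory.cond P T with hQd
  have hQp : IsProbabilityMeasure Q :=
    ProbabilityTheory.cond_isProbabilityMeasure (by rw [hPT]; exact ha0)
  have hQ : Q = (ENNReal.ofReal a)⁻¹ • P.restrict T := by rw [hQd, ProbabilityTheory.cond, hPT]
  have hQ' : P.restrict T = ENNReal.ofReal a • Q := by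
    rw [hQ, smul_smul, ENNReal.mul_inv_cancel ha0 ENNReal.ofReal_ne_top, one_smul]
  have hac : Q ≪ P := ProbabilityTheory.cond_absolutelyContinuous
  have hQle : Q ≤ (ENNReal.ofReal a)⁻¹ • P := by
    rw [hQ]; exact a6a_smul_mono Measure.restrict_le_self le_rfl
  have hg : ∀ᵐ γ ∂Q, γ.ext 0 ∈ closedBall o R ∧ γ.ext 1 ∈ closedBall o R :=
    hac.ae_le (hP.geo.mono fun γ h => h.2)
  have hi : Integrable (fun γ : UCurve X => len γ ^ 2) Q :=
    (hP.integrable_len.smul_measure (ENNReal.inv_ne_top.2 ha0)).mono_measure hQle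
  have hbm : ∀ (t : ℝ) (μ : Measure X), marg P t = μ → BM m M o R μ →
      (∀ᵐ γ ∂Q, γ.ext t ∈ closedBall o R) → BM m (M / a) o R (marg Q t) := by
    intro t μ ht hμ hb
    refine ⟨g1b_pb hb, ?_⟩
    calc marg Q t ≤ marg ((ENNReal.ofReal a)⁻¹ • P) t :=
          Measure.map_mono hQle (measurable_ext_at t)
      _ = (ENNReal.ofReal a)⁻¹ • μ := by rw [h2a_marg_smul, ht]
      _ ≤ (ENNReal.ofReal a)⁻¹ • (ENNReal.ofReal M • m) := a6a_smul_mono hμ.2 le_rfl
      _ = ENNReal.ofReal (M / a) • m := by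
          rw [smul_smul, ENNReal.ofReal_div_of_pos ha, div_eq_mul_inv, mul_comm]
  have b0 := hbm 0 μ₀ hP.m0 h₀ (hg.mono fun γ h => h.1)
  have b1 := hbm 1 μ₁ hP.m1 h₁ (hg.mono fun γ h => h.2)
  obtain ⟨P', hP', hac', hint, hent⟩ :=
    hmid o R (M / a) _ _ h₀.1.nonneg (div_pos hM ha) b0 b1
  have hW : W2 (marg Q 0) (marg Q 1) ≤ D ^ 2 := by
    refine (W2_le_plan hg).trans ?_
    have h1 : ∫ γ, len γ ^ 2 ∂Q ≤ ∫ _γ, D ^ 2 ∂Q := by
      refine integral_mono_ae hi (integrable_const _) ?_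
      filter_upwards [hac.ae_le hD] with γ h
      exact pow_le_pow_left₀ dist_nonneg h 2
    exact h1.trans (by simp)
  have hE : Ent m (marg P' (1 / 2)) ≤ Real.log (M / a) + κ * D ^ 2 / 8 := by
    have e0 := b0.ent_le_log
    have e1 := b1.ent_le_log
    have e2 := mul_le_mul_of_nonneg_left hW hκ
    linarith
  have hdec : P = (P.restrict Tᶜ + ENNReal.ofReal (1 - θ) • P.restrict T) +
      ENNReal.ofReal (θ * a) • Q := by
    rw [ENNReal.ofReal_mul hθ, mul_smul, ← hQ', add_assoc, ← add_smul,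
      ← ENNReal.ofReal_add (sub_nonneg.2 hθ1) hθ, sub_add_cancel, ENNReal.ofReal_one, one_smul,
      add_comm, Measure.restrict_add_restrict_compl hT]
  refine ⟨(P.restrict Tᶜ + ENNReal.ofReal (1 - θ) • P.restrict T) + ENNReal.ofReal (θ * a) • P',
    marg P' (1 / 2), h2a_swap (mul_nonneg hθ ha.le) (hdec ▸ hP) hg hi hP', hP'.pb _, ?_, ?_⟩
  · refine le_trans ?_ (ent_spread (hP'.pb _) hac' hint)
    refine le_trans (le_of_eq ?_) (Real.exp_le_exp.2 (neg_le_neg hE))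
    rw [Real.exp_neg, Real.exp_add, Real.exp_log (div_pos hM ha)]
    field_simp
  · rw [h2a_marg_add, h2a_marg_add, h2a_marg_smul, h2a_marg_smul]
    congr 2
    · exact (Measure.restrict_map (measurable_ext_at _) hA.compl).symm
    · congr 1
      exact (Measure.restrict_map (measurable_ext_at _) hA).symm

theorem h2b_dens_add (ν₁ ν₂ : Measure X) [IsFiniteMeasure ν₁] [IsFiniteMeasure ν₂] :
    ∀ᵐ x ∂m, dens m (ν₁ + ν₂) x = dens m ν₁ x + dens m ν₂ x := by
  filter_upwards [Measure.rnDeriv_add ν₁ ν₂ m, Measure.rnDeriv_lt_top ν₁ m,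
    Measure.rnDeriv_lt_top ν₂ m] with x h h1 h2
  simp only [dens]
  rw [h, Pi.add_apply, ENNReal.toReal_add h1.ne h2.ne]

theorem h2b_dens_smul (ν : Measure X) [IsFiniteMeasure ν] {c : ℝ} (hc : 0 ≤ c) :
    ∀ᵐ x ∂m, dens m (ENNReal.ofReal c • ν) x = c * dens m ν x := by
  filter_upwards [Measure.rnDeriv_smul_left_of_ne_top ν m (r := ENNReal.ofReal c)
    ENNReal.ofReal_ne_top] with x h
  simp only [dens]
  rw [h, Pi.smul_apply, smul_eq_mul, ENNReal.toReal_mul, ENNReal.toReal_ofReal hc]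

theorem h2b_dens_restrict (ν : Measure X) [IsFiniteMeasure ν] {A : Set X} (hA : MeasurableSet A) :
    ∀ᵐ x ∂m, dens m (ν.restrict A) x = A.indicator (dens m ν) x := by
  filter_upwards [Measure.rnDeriv_restrict ν m hA] with x h
  simp only [dens]
  rw [h]
  by_cases hx : x ∈ A
  · rw [indicator_of_mem hx, indicator_of_mem hx, dens]
  · rw [indicator_of_notMem hx, indicator_of_notMem hx, ENNReal.toReal_zero]

theorem h2b_fin (ν : Measure X) [IsFiniteMeasure ν] (c : ℝ) :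
    IsFiniteMeasure (ENNReal.ofReal c • ν) :=
  ⟨by
    rw [Measure.smul_apply, smul_eq_mul]
    exact ENNReal.mul_lt_top ENNReal.ofReal_lt_top (measure_lt_top _ _)⟩

theorem h2b_dens_mix (ν ν' : Measure X) [IsFiniteMeasure ν] [IsFiniteMeasure ν'] {A : Set X}
    (hA : MeasurableSet A) {c d : ℝ} (hc : 0 ≤ c) (hd : 0 ≤ d) :
    ∀ᵐ x ∂m, dens m (ν.restrict Aᶜ + ENNReal.ofReal c • ν.restrict A + ENNReal.ofReal d • ν') x =
      Aᶜ.indicator (dens m ν) x + c * A.indicator (dens m ν) x + d * dens m ν' x := by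
  have := h2b_fin (ν.restrict A) c
  have := h2b_fin ν' d
  filter_upwards [h2b_dens_add (m := m) (ν.restrict Aᶜ + ENNReal.ofReal c • ν.restrict A)
      (ENNReal.ofReal d • ν'), h2b_dens_add (m := m) (ν.restrict Aᶜ) (ENNReal.ofReal c • ν.restrict A),
    h2b_dens_smul (m := m) (ν.restrict A) hc, h2b_dens_smul (m := m) ν' hd,
    h2b_dens_restrict (m := m) ν hA, h2b_dens_restrict (m := m) ν hA.compl] with x e1 e2 e3 e4 e5 e6
  rw [e1, e2, e3, e4, e5, e6]

theorem rajala_step (hmid : MidCD m κ) (hκ : 0 ≤ κ) (h₀ : BM m M o R μ₀) (h₁ : BM m M o R μ₁)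
    {P : Measure (UCurve X)} (hP : OptGeo o R μ₀ μ₁ P) (hD : ∀ᵐ γ ∂P, len γ ≤ D) {C s : ℝ}
    (hC : C = M * Real.exp (κ * D ^ 2 / 8)) (hlt : gd m C (marg P (1 / 2)) < 1)
    (hs : C * s < C * m.real {x | C < dens m (marg P (1 / 2)) x} + (1 - gd m C (marg P (1 / 2)))) :
    ∃ P', OptGeo o R μ₀ μ₁ P' ∧
      (∀ᵐ x ∂m, min (dens m (marg P (1 / 2)) x) C ≤ min (dens m (marg P' (1 / 2)) x) C) ∧
      (gd m C (marg P' (1 / 2)) ≤ gd m C (marg P (1 / 2)) →
        s < m.real {x | C < dens m (marg P' (1 / 2)) x}) := by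
  have hC0 : 0 < C := hC ▸ mul_pos h₀.pos (Real.exp_pos _)
  have hν := hP.pb (1 / 2)
  set ν := marg P (1 / 2) with hνdef
  have := hν.1
  have ha : max (C * s) 0 < C * m.real {x | C < dens m ν x} + (1 - gd m C ν) := by
    refine max_lt hs ?_
    have : 0 ≤ C * m.real {x | C < dens m ν x} := mul_nonneg hC0.le measureReal_nonneg
    linarith
  obtain ⟨S, δ, hS, hS0, hδ, haA⟩ := exists_excess hC0 hν ha
  set A := {x | C + δ < dens m ν x} ∪ S with hAdef
  have hA : MeasurableSet A := (measurableSet_lt measurable_const (dens_meas ν)).union hS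
  have ha0 : 0 < ν.real A := (le_max_right _ _).trans_lt haA
  have hCδ : 0 < C + δ := by linarith
  have hθ0 : 0 < δ / (C + δ) := div_pos hδ hCδ
  have hθ1 : δ / (C + δ) ≤ 1 := (div_le_one hCδ).2 (by linarith)
  obtain ⟨P', ν', hP', hν', hsp, hmix⟩ := rajala_mix hmid hκ h₀ h₁ hP hD hA ha0 hθ0.le hθ1
  rw [← hνdef] at hsp hmix
  have := hν'.1
  have := (hP'.pb (1 / 2)).1
  have hd : 0 < δ / (C + δ) * ν.real A := mul_pos hθ0 ha0
  have key : ∀ᵐ x ∂m, C < dens m (marg P' (1 / 2)) x ∨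
      dens m (marg P' (1 / 2)) x = dens m ν x + δ / (C + δ) * ν.real A * dens m ν' x := by
    filter_upwards [h2b_dens_mix (m := m) ν ν' hA (sub_nonneg.2 hθ1) hd.le,
      measure_eq_zero_iff_ae_notMem.1 hS0] with x hx hxS
    rw [← hmix] at hx
    by_cases hxA : x ∈ A
    · left
      have h1 : C + δ < dens m ν x := hxA.resolve_right hxS
      rw [hx, indicator_of_notMem (notMem_compl_iff.2 hxA), indicator_of_mem hxA]
      have h2 : 0 ≤ δ / (C + δ) * ν.real A * dens m ν' x := mul_nonneg hd.le (dens_nonneg _ _)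
      have h3 : (1 - δ / (C + δ)) * (C + δ) = C := by field_simp; ring
      have h4 : 0 < 1 - δ / (C + δ) := sub_pos.2 ((div_lt_one hCδ).2 (by linarith))
      have h5 := mul_lt_mul_of_pos_left h1 h4
      linarith
    · right
      rw [hx, indicator_of_mem (mem_compl hxA), indicator_of_notMem hxA]
      ring
  have hle : ∀ᵐ x ∂m, min (dens m ν x) C ≤ min (dens m (marg P' (1 / 2)) x) C := by
    filter_upwards [key] with x hx
    rcases hx with hx | hx
    · exact le_min ((min_le_right _ _).trans hx.le) (min_le_right _ _)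
    · refine min_le_min_right _ ?_
      rw [hx]
      exact le_add_of_nonneg_right (mul_nonneg hd.le (dens_nonneg _ _))
  refine ⟨P', hP', hle, fun hgd => ?_⟩
  have i1 := gd_integrable (m := m) hC0 ν
  have i2 := gd_integrable (m := m) hC0 (marg P' (1 / 2))
  have heq := (integral_eq_iff_of_ae_le i1 i2 hle).1 (le_antisymm (integral_mono_ae i1 i2 hle) hgd)
  have hsub : {x | 0 < dens m ν' x} ≤ᵐ[m] {x | C < dens m (marg P' (1 / 2)) x} := by
    filter_upwards [key, heq] with x hx he hpos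
    rcases hx with hx | hx
    · exact hx
    · by_contra hcon
      have h1 : dens m (marg P' (1 / 2)) x ≤ C := not_lt.1 hcon
      have h2 : 0 < δ / (C + δ) * ν.real A * dens m ν' x := mul_pos hd hpos
      have h3 := min_le_left (dens m ν x) C
      rw [min_eq_left h1] at he
      linarith
  have hfin : m {x | C < dens m (marg P' (1 / 2)) x} ≠ ⊤ :=
    ((dens_integrable (m := m) (marg P' (1 / 2))).measure_gt_lt_top hC0).ne
  have h1 : m.real {x | 0 < dens m ν' x} ≤ m.real {x | C < dens m (marg P' (1 / 2)) x} :=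
    ENNReal.toReal_mono hfin (measure_mono_ae hsub)
  have h2 : s < ν.real A / C := by
    rw [lt_div_iff₀ hC0, mul_comm]
    exact (le_max_left _ _).trans_lt haA
  rw [← hC] at hsp
  linarith

theorem h2c_bd {C R : ℝ} (hC : 0 < C) {ν : Measure X} (hν : PB o R ν) :
    m.real {x | C < dens m ν x} ≤ m.real (closedBall o R) := by
  refine ENNReal.toReal_mono (isCompact_closedBall o R).measure_lt_top.ne (measure_mono_ae ?_)
  filter_upwards [hν.dens_zero (m := m)] with x hx hx'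
  by_contra h
  have h1 : C < dens m ν x := hx'
  rw [hx h] at h1
  linarith

theorem h2c_max {C : ℝ} (hC : 0 < C) {σ : X → ℝ} (hσ : AEStronglyMeasurable σ m)
    {P₀ : Measure (UCurve X)} (h₀ : OptGeo o R μ₀ μ₁ P₀) (h₀' : wd m σ ≤ marg P₀ (1 / 2)) :
    ∃ Q, OptGeo o R μ₀ μ₁ Q ∧ wd m σ ≤ marg Q (1 / 2) ∧
      ∀ P, OptGeo o R μ₀ μ₁ P → wd m σ ≤ marg P (1 / 2) →
        gd m C (marg P (1 / 2)) ≤ gd m C (marg Q (1 / 2)) := by
  let S : Set ℝ := (fun P => gd m C (marg P (1 / 2))) ''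
    {P | OptGeo o R μ₀ μ₁ P ∧ wd m σ ≤ marg P (1 / 2)}
  have hb : BddAbove S := ⟨1, by
    rintro _ ⟨P, hP, rfl⟩
    exact gd_le_one hC (hP.1.pb _)⟩
  obtain ⟨u, -, hu, hS⟩ := exists_seq_tendsto_sSup (S := S) ⟨_, P₀, ⟨h₀, h₀'⟩, rfl⟩ hb
  choose P hP hPu using hS
  obtain ⟨Q, φ, hφ, hQ, hw⟩ := optGeo_subseq fun n => (hP n).1
  have hw' := fun ψ hψ => hw ψ hψ (fun _ => 1 / 2) (1 / 2) tendsto_const_nhds
  have := (h₀.pb (1 / 2)).1
  have : IsFiniteMeasure (wd m σ) := isFiniteMeasure_of_le _ h₀'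
  have := (hQ.pb (1 / 2)).1
  refine ⟨Q, hQ, measure_le_of_cont fun ψ hψ hc h0 => ?_, fun P' h1 h2 => ?_⟩
  · exact ge_of_tendsto' (hw' ψ hψ) fun n => integral_mono_measure (hP (φ n)).2
      (Eventually.of_forall h0) (((hP (φ n)).1.pb _).integrable hψ)
  · refine (le_csSup hb ⟨P', ⟨h1, h2⟩, rfl⟩).trans ?_
    exact gd_usc hC (fun n => (hP (φ n)).1.pb _) (hQ.pb _) hw' (fun n => (hPu (φ n)).ge)
      (hu.comp hφ.tendsto_atTop)

theorem rajala_mid (hmid : MidCD m κ) (hκ : 0 ≤ κ) (h₀ : BM m M o R μ₀) (h₁ : BM m M o R μ₁)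
    (hD : LenLe o R μ₀ μ₁ D) :
    ∃ P, OptGeo o R μ₀ μ₁ P ∧ BM m (M * Real.exp (κ * D ^ 2 / 8)) o (3 * R) (marg P (1 / 2)) ∧
      Ent m (marg P (1 / 2)) ≤ (Ent m μ₀ + Ent m μ₁) / 2 + κ * W2 μ₀ μ₁ / 8 := by
  obtain ⟨P₀, hP₀, hac, hi, hE⟩ := hmid o R M μ₀ μ₁ h₀.1.nonneg h₀.pos h₀ h₁
  set C := M * Real.exp (κ * D ^ 2 / 8) with hCdef
  have hC : 0 < C := mul_pos h₀.pos (Real.exp_pos _)
  set σ : X → ℝ := fun x => min (dens m (marg P₀ (1 / 2)) x) C with hσdef
  have hσ : AEStronglyMeasurable σ m := ((dens_meas _).min measurable_const).aestronglyMeasurable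
  have hiff : ∀ P, OptGeo o R μ₀ μ₁ P →
      (wd m σ ≤ marg P (1 / 2) ↔ ∀ᵐ x ∂m, σ x ≤ dens m (marg P (1 / 2)) x) := fun P hP => by
    have := (hP.pb (1 / 2)).1
    exact wd_le_iff hσ _
  obtain ⟨Q, hQ, hQσ, hmax⟩ := h2c_max hC hσ hP₀
    ((hiff P₀ hP₀).2 (Eventually.of_forall fun x => min_le_left _ _))
  have key : 1 ≤ gd m C (marg Q (1 / 2)) := by
    by_contra hlt
    rw [not_le] at hlt
    set g := gd m C (marg Q (1 / 2)) with hg
    let T : Set ℝ := (fun P => m.real {x | C < dens m (marg P (1 / 2)) x}) ''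
      {P | OptGeo o R μ₀ μ₁ P ∧ wd m σ ≤ marg P (1 / 2) ∧ gd m C (marg P (1 / 2)) = g}
    have hb : BddAbove T := ⟨m.real (closedBall o (3 * R)), by
      rintro _ ⟨P, hP, rfl⟩
      exact h2c_bd hC (hP.1.pb _)⟩
    have hpos : 0 < (1 - g) / C := div_pos (sub_pos.2 hlt) hC
    obtain ⟨_, ⟨P, ⟨hP, hPσ, hPg⟩, rfl⟩, hlt'⟩ := exists_lt_of_lt_csSup (s := T)
      ⟨_, Q, ⟨hQ, hQσ, rfl⟩, rfl⟩ (sub_lt_self (sSup T) hpos)
    obtain ⟨P', hP', h1, h2⟩ := rajala_step (s := sSup T) hmid hκ h₀ h₁ hP (hD P hP) hCdef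
      (hPg.trans_lt hlt) (by
        have h3 := mul_lt_mul_of_pos_left hlt' hC
        rw [mul_sub, mul_div_cancel₀ _ hC.ne'] at h3
        rw [hPg]
        linarith)
    have hP'σ : wd m σ ≤ marg P' (1 / 2) := by
      rw [hiff P' hP']
      filter_upwards [h1, (hiff P hP).1 hPσ] with x a1 a2
      exact ((le_min a2 (min_le_right _ _)).trans a1).trans (min_le_left _ _)
    have h4 : gd m C (marg P' (1 / 2)) ≤ g := hmax P' hP' hP'σ
    have h5 : g ≤ gd m C (marg P' (1 / 2)) := by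
      have := (hP.pb (1 / 2)).1
      have := (hP'.pb (1 / 2)).1
      rw [← hPg]
      exact integral_mono_ae (gd_integrable hC _) (gd_integrable hC _) h1
    exact (h2 (h4.trans hPg.ge)).not_ge (le_csSup hb ⟨P', ⟨hP', hP'σ, le_antisymm h4 h5⟩, rfl⟩)
  have hBM := le_of_gd hC (hQ.pb (1 / 2)) key
  have := (hP₀.pb (1 / 2)).1
  exact ⟨Q, hQ, hBM, (ent_compare hac hi hBM ((hiff Q hQ).1 hQσ)).trans hE⟩

end Crest.Agent.R242
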