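import Crest.Agent.R242.H2
import Crest.Agent.R242.G2

/-! Block H3: iteration on dyadic times and the limit.
`LenLe.half`: the halves `P.map (subc · 0 ½)`, `P.map (subc · ½ 1)` are geodesic plans of cost `W2/4`
(`geo_subc`, `marg_subc`, `OptGeo.cost_eq`, `W2_le_plan`); an optimal plan `P₀` from `μ₀` to `ν` glued with the
second half (`glue_geo`) is optimal from `μ₀` to `μ₁`, so its lengths are `≤ D` and those of `P₀` are half.
`rajala_dyadic`: induction on `n`; `rajala_mid`, `LenLe.half`, hypothesis for both halves with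
`3R`, `M exp(κD²/8)`, `D/2`, `glue_geo`, `marg_subc`; `1/8 + 1/24 = 1/6`.
`hasGood_of_mid`: `D = 2R+1`, `optGeo_subseq` with `s n = ⌊t 2^{φ n}⌋/2^{φ n}`, `measure_le_of_cont`,
`ent_lsc`. -/

set_option autoImplicit false
set_option linter.unusedSectionVars false
set_option linter.unusedVariables false
open MeasureTheory Filter Set Metric
open scoped ENNReal NNReal Topology
open Crest.GeometryTopology.SyntheticRicci

noncomputable section
namespace Crest.Agent.R242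

variable {X : Type*} [MetricSpace X] [MeasurableSpace X] [BorelSpace X] [ProperSpace X]
  {m : Measure X} [IsFiniteMeasureOnCompacts m] [m.IsOpenPosMeasure]

theorem h3a_piece {o : X} {R : ℝ} {μ₀ μ₁ : Measure X} {P : Measure (UCurve X)} (hP : OptGeo o R μ₀ μ₁ P)
    {a b : ℝ} (ha : 0 ≤ a) (hb : b ≤ 1) (hab : b - a = 1 / 2) {Q : Measure (UCurve X)}
    (hQ : Q = P.map fun γ => subc γ a b) :
    IsProbabilityMeasure Q ∧ (∀ᵐ γ ∂Q, IsCSGeodesic γ) ∧ marg Q 0 = marg P a ∧ marg Q 1 = marg P b ∧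
      ∫ γ, len γ ^ 2 ∂Q ≤ W2 μ₀ μ₁ / 4 ∧ W2 (marg P a) (marg P b) ≤ W2 μ₀ μ₁ / 4 ∧
      ∀ D, (∀ᵐ γ ∂P, len γ ≤ D) → ∀ᵐ γ ∂Q, len γ ≤ D / 2 := by
  have := hP.prob
  have hm := (measurable_subc (X := X) a b).aemeasurable (μ := P)
  have hg := hP.geo.mono fun γ h => geo_subc h.1 ha (by linarith) hb
  have h1 : IsProbabilityMeasure Q := hQ ▸ Measure.isProbabilityMeasure_map hm
  have h2 : marg Q 0 = marg P a := by rw [hQ, marg_subc P a b (by simp), zero_mul, add_zero]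
  have h3 : marg Q 1 = marg P b := by rw [hQ, marg_subc P a b (by simp), one_mul, add_sub_cancel]
  have h4 : ∫ γ, len γ ^ 2 ∂Q ≤ W2 μ₀ μ₁ / 4 := by
    rw [hQ, integral_map hm (continuous_len.fun_pow 2).aestronglyMeasurable, ← hP.cost_eq, ← integral_div]
    refine (integral_congr_ae (hg.mono fun γ h => ?_)).le
    simp only [h.2, hab]
    ring
  refine ⟨h1, ?_, h2, h3, h4, ?_, fun D hD => ?_⟩
  · rw [hQ]
    exact (ae_map_iff hm isClosed_geo.measurableSet).2 (hg.mono fun γ h => h.1)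
  · rw [← h2, ← h3]
    exact (W2_le_plan ((g1b_ae (h2 ▸ hP.pb a)).and (g1b_ae (h3 ▸ hP.pb b)))).trans h4
  · rw [hQ]
    refine (ae_map_iff hm (measurableSet_le measurable_len measurable_const)).2 ?_
    filter_upwards [hg, hD] with γ h h'
    rw [h.2, hab]
    linarith

theorem LenLe.half {o : X} {R D : ℝ} {μ₀ μ₁ : Measure X} (hD : LenLe o R μ₀ μ₁ D)
    {P : Measure (UCurve X)} (hP : OptGeo o R μ₀ μ₁ P) :
    LenLe o (3 * R) μ₀ (marg P (1 / 2)) (D / 2) ∧ LenLe o (3 * R) (marg P (1 / 2)) μ₁ (D / 2) ∧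
      W2 μ₀ (marg P (1 / 2)) ≤ W2 μ₀ μ₁ / 4 ∧ W2 (marg P (1 / 2)) μ₁ ≤ W2 μ₀ μ₁ / 4 := by
  obtain ⟨a1, a2, a3, a4, a5, a6, -⟩ := h3a_piece hP (a := 0) (b := 1 / 2) le_rfl (by norm_num) (by norm_num) rfl
  obtain ⟨b1, b2, b3, b4, b5, b6, -⟩ := h3a_piece hP (a := 1 / 2) (b := 1) (by norm_num) le_rfl (by norm_num) rfl
  rw [hP.m0] at a3 a6
  rw [hP.m1] at b4 b6
  refine ⟨fun Q hQ => ?_, fun Q hQ => ?_, a6, b6⟩
  · have := hQ.prob
    obtain ⟨P', hP', e, -⟩ := glue_geo (hQ.geo.mono fun _ h => h.1) b2 hQ.m0 hQ.m1 b3 b4 hP.pb0 hP.pb1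
      (hP.pb (1 / 2)) (hQ.cost.trans a6) b5
    exact (h3a_piece hP' le_rfl (by norm_num) (by norm_num) e.symm).2.2.2.2.2.2 D (hD P' hP')
  · have := hQ.prob
    obtain ⟨P', hP', -, e⟩ := glue_geo a2 (hQ.geo.mono fun _ h => h.1) a3 a4 hQ.m0 hQ.m1 hP.pb0 hP.pb1
      (hP.pb (1 / 2)) a5 (hQ.cost.trans b6)
    exact (h3a_piece hP' (by norm_num) le_rfl (by norm_num) e.symm).2.2.2.2.2.2 D (hD P' hP')

theorem rajala_dyadic {κ : ℝ} (hmid : MidCD m κ) (hκ : 0 ≤ κ) (n : ℕ) :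
    ∀ (o : X) (R M D : ℝ) (μ₀ μ₁ : Measure X), BM m M o R μ₀ → BM m M o R μ₁ →
      LenLe o R μ₀ μ₁ D → ∃ P, OptGeo o R μ₀ μ₁ P ∧ ∀ (j : ℕ) (t : ℝ), j ≤ 2 ^ n →
        t = (j : ℝ) / 2 ^ n →
        marg P t ≤ ENNReal.ofReal (M * Real.exp (κ * D ^ 2 / 6)) • m ∧
        Ent m (marg P t) ≤
          (1 - t) * Ent m μ₀ + t * Ent m μ₁ + κ / 2 * (t * (1 - t)) * W2 μ₀ μ₁ := by
  have hexp : ∀ {M : ℝ} (D c : ℝ), 0 < M → 0 < c → M ≤ M * Real.exp (κ * D ^ 2 / c) := fun D c hM hc =>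
    le_mul_of_one_le_right hM.le (Real.one_le_exp (by positivity))
  induction n with
  | zero =>
    intro o R M D μ₀ μ₁ h₀ h₁ hD
    obtain ⟨P, hP, -⟩ := rajala_mid hmid hκ h₀ h₁ hD
    refine ⟨P, hP, fun j t hj ht => ?_⟩
    rw [pow_zero] at hj
    rw [pow_zero, div_one] at ht
    rcases Nat.le_one_iff_eq_zero_or_eq_one.1 hj with rfl | rfl
    · rw [Nat.cast_zero] at ht
      rw [ht, hP.m0]
      exact ⟨(h₀.mono (hexp D 6 h₀.pos (by norm_num)) le_rfl).2, le_of_eq (by ring)⟩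
    · rw [Nat.cast_one] at ht
      rw [ht, hP.m1]
      exact ⟨(h₁.mono (hexp D 6 h₁.pos (by norm_num)) le_rfl).2, le_of_eq (by ring)⟩
  | succ n ih =>
    intro o R M D μ₀ μ₁ h₀ h₁ hD
    obtain ⟨P, hP, hν, hE⟩ := rajala_mid hmid hκ h₀ h₁ hD
    obtain ⟨l₀, l₁, w₀, w₁⟩ := hD.half hP
    have hR : R ≤ 3 * R := by linarith [h₀.1.nonneg]
    obtain ⟨P₀, hP₀, H₀⟩ := ih o (3 * R) _ (D / 2) _ _ (h₀.mono (hexp D 8 h₀.pos (by norm_num)) hR) hν l₀
    obtain ⟨P₁, hP₁, H₁⟩ := ih o (3 * R) _ (D / 2) _ _ hν (h₁.mono (hexp D 8 h₁.pos (by norm_num)) hR) l₁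
    have eM : M * Real.exp (κ * D ^ 2 / 8) * Real.exp (κ * (D / 2) ^ 2 / 6) =
        M * Real.exp (κ * D ^ 2 / 6) := by
      rw [mul_assoc, ← Real.exp_add]
      congr 2
      ring
    rw [eM] at H₀ H₁
    have := hP₀.prob
    have := hP₁.prob
    obtain ⟨Q, hQ, e₀, e₁⟩ := glue_geo (hP₀.geo.mono fun _ h => h.1) (hP₁.geo.mono fun _ h => h.1)
      hP₀.m0 hP₀.m1 hP₁.m0 hP₁.m1 h₀.1 h₁.1 hν.1 (hP₀.cost.trans w₀) (hP₁.cost.trans w₁)
    refine ⟨Q, hQ, fun j t hj ht => ?_⟩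
    have h2 : (0 : ℝ) < 2 ^ n := by positivity
    have hI : ∀ i : ℕ, i ≤ 2 ^ n → (i : ℝ) / 2 ^ n ∈ Icc (0 : ℝ) 1 := fun i hi =>
      ⟨by positivity, (div_le_one h2).2 (by exact_mod_cast hi)⟩
    rcases le_total j (2 ^ n) with hjn | hjn
    · obtain ⟨a, b⟩ := H₀ j _ hjn rfl
      have hs := hI j hjn
      set s : ℝ := (j : ℝ) / 2 ^ n with hsdef
      have et : t = 0 + s * (1 / 2 - 0) := by rw [ht, hsdef, pow_succ]; field_simp; ring
      have em : marg Q t = marg P₀ s := by rw [et, ← marg_subc Q 0 (1 / 2) hs, e₀]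
      rw [em]
      refine ⟨a, b.trans ?_⟩
      have c1 := mul_le_mul_of_nonneg_left hE hs.1
      have c2 := mul_le_mul_of_nonneg_left w₀
        (mul_nonneg (div_nonneg hκ zero_le_two) (mul_nonneg hs.1 (sub_nonneg.2 hs.2)))
      rw [et]
      linarith
    · obtain ⟨i, rfl⟩ := Nat.exists_eq_add_of_le hjn
      have hi : i ≤ 2 ^ n := by rw [pow_succ] at hj; omega
      obtain ⟨a, b⟩ := H₁ i _ hi rfl
      have hs := hI i hi
      set s : ℝ := (i : ℝ) / 2 ^ n with hsdef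
      have et : t = 1 / 2 + s * (1 - 1 / 2) := by
        rw [ht, hsdef, pow_succ]; push_cast; field_simp; ring
      have em : marg Q t = marg P₁ s := by rw [et, ← marg_subc Q (1 / 2) 1 hs, e₁]
      rw [em]
      refine ⟨a, b.trans ?_⟩
      have c1 := mul_le_mul_of_nonneg_left hE (sub_nonneg.2 hs.2)
      have c2 := mul_le_mul_of_nonneg_left w₁
        (mul_nonneg (div_nonneg hκ zero_le_two) (mul_nonneg hs.1 (sub_nonneg.2 hs.2)))
      rw [et]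
      linarith

theorem hasGood_of_mid {κ : ℝ} (hmid : MidCD m κ) (hκ : 0 ≤ κ) : HasGood m κ := by
  intro o R M μ₀ μ₁ hR hM h₀ h₁
  choose P hP hPd using fun n => rajala_dyadic hmid hκ n o R M (2 * R + 1) μ₀ μ₁ h₀ h₁
    fun P hP => hP.len_le.mono fun γ hγ => by linarith
  obtain ⟨Q, φ, hφ, hQ, hl⟩ := optGeo_subseq hP
  have key : ∀ t ∈ Icc (0 : ℝ) 1, BM m (M * Real.exp (κ * (2 * R + 1) ^ 2 / 6)) o (3 * R) (marg Q t) ∧
      Ent m (marg Q t) ≤ (1 - t) * Ent m μ₀ + t * Ent m μ₁ + κ / 2 * (t * (1 - t)) * W2 μ₀ μ₁ := by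
    intro t ht
    have hs : Tendsto (fun n => (⌊t * 2 ^ φ n⌋₊ : ℝ) / 2 ^ φ n) atTop (𝓝 t) :=
      (tendsto_nat_floor_mul_div_atTop ht.1).comp
        ((tendsto_pow_atTop_atTop_of_one_lt one_lt_two).comp hφ.tendsto_atTop)
    have hb := fun n => hPd (φ n) ⌊t * 2 ^ φ n⌋₊ _
      (Nat.floor_le_of_le (by push_cast; exact mul_le_of_le_one_left (by positivity) ht.2)) rfl
    have hB : BM m (M * Real.exp (κ * (2 * R + 1) ^ 2 / 6)) o (3 * R) (marg Q t) := by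
      refine ⟨hQ.pb t, ?_⟩
      have := (hQ.pb t).1
      have := IsFiniteMeasureOnCompacts.smul m
        (c := ENNReal.ofReal (M * Real.exp (κ * (2 * R + 1) ^ 2 / 6))) ENNReal.ofReal_ne_top
      exact measure_le_of_cont fun ψ hψ hc h0 => le_of_tendsto' (hl ψ hψ _ t hs) fun n =>
        integral_mono_measure (hb n).1 (Eventually.of_forall h0) (hψ.integrable_of_hasCompactSupport hc)
    refine ⟨hB, ent_lsc (fun n => ⟨(hP _).pb _, (hb n).1⟩) hB (fun ψ hψ => hl ψ hψ _ t hs) (fun n => (hb n).2) ?_⟩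
    exact (Continuous.tendsto (f := fun t : ℝ =>
      (1 - t) * Ent m μ₀ + t * Ent m μ₁ + κ / 2 * (t * (1 - t)) * W2 μ₀ μ₁) (by fun_prop) t).comp hs
  refine ⟨Q, hQ, fun t ht => ((key t ht).1.mono ?_ le_rfl).2, fun t ht => (key t ht).2⟩
  exact mul_le_mul_of_nonneg_left (Real.exp_le_exp.2 (by linarith)) hM.le

end Crest.Agent.R242
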