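import Crest.Agent.R242.G4
import Crest.Agent.R242.B5
import Crest.Agent.R242.C4

/-! Block I1: horizontal-vertical derivatives along geodesic plans.
`hv`: pointwise `φ(γ 0) - φ(γ t) ≥ len² t (1 - t/2)` (from `IsPot.le` at `(γ t, γ 1)` and `geo_dist`);
`Dφ(γ 0) ≤ ℓ(γ 0) ≤ len γ` a.e. (`IsPot.slope`, `wug_of_slope`, `Cmpr.ae`).  Apply `geo_young` on `[0,t]`,
`l = 1`, to `u = φ + s g`; `r ↦ ∫ Γ(u,u)(γ r)` is continuous (`Cmpr.cont`), and
`Γ(u,u) = Γφ + 2sΓ(φ,g) + s²Γg`.  So `(∫ g(γ 0) - g(γ t))/t ≤ ∫ Γ(φ,g)(γ 0) + (s/2) ∫ Γg(γ 0) + o(1)/s`;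
choose `s` small.  `hv_weight`: apply `hv` to `P` weighted by `w(γ 0)` and normalised (trivial if
`∫ w(γ 0) = 0`).
`hv_logcut`: `z₀ = χ(γ 0) > 0` a.e., `z = χ(γ t)`, `|z - z₀| ≤ 2Rt ≤ √δ`, `δ = ((2R+1)t)²`,
`β z = log (z² + δ)`: for `ξ ≥ 0` with `|ξ - z₀| ≤ √δ`, `z₀²|β' ξ - 2/z₀| ≤ 2√δ(ξ+√δ)²/(ξ²+δ) ≤ 4√δ`, so
`|β z - β z₀ - (2/z₀)(z - z₀)| ≤ 4δ/z₀²`, and `∫ z₀⁻² dP ≤ B m(ball)`.  For the main term use `hv_weight` with
`w = min (2/χ) n`; the rest is `≤ 2R ∫ (2/χ - w) χ² f dm → 0`. -/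

set_option autoImplicit false
set_option linter.unusedSectionVars false
set_option linter.unusedVariables false
open MeasureTheory Filter Set Metric
open scoped ENNReal NNReal Topology
open Crest.GeometryTopology.SyntheticRicci

noncomputable section
namespace Crest.Agent.R242

variable {X : Type*} [MetricSpace X] [MeasurableSpace X] [BorelSpace X] [ProperSpace X]
  {m : Measure X} [IsFiniteMeasureOnCompacts m] [m.IsOpenPosMeasure] [DS m m]

variable {P : Measure (UCurve X)} [IsProbabilityMeasure P] {C R : ℝ} {o : X} {φ ψ : X → ℝ}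

theorem i1a_slope (h : IsPot (closedBall o R) φ ψ) : SL m φ ∧ ∃ ℓ : X → ℝ, (∀ᵐ x ∂m, Dw m φ x ≤ ℓ x) ∧
    (∀ x, ℓ x ≤ dist x o + R) ∧
    ∀ x, ∀ y ∈ closedBall o R, φ x + ψ y = dist x y ^ 2 / 2 → ℓ x ≤ dist x y := by
  obtain ⟨ℓ, h1, h2, h3, h4, h5⟩ := h.slope
  obtain ⟨a, b⟩ := sl_of_wug (m := m) (l2b_of_continuous h.continuous) (wug_of_slope h1 h2 (fun o' R' =>
    ⟨R' + dist o' o + R, fun x hx => (h3 x).trans (by
      linarith [dist_triangle x o' o, mem_closedBall.1 hx])⟩) h4)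
  exact ⟨a, ℓ, b, h3, h5⟩

theorem IsPot.sl (h : IsPot (closedBall o R) φ ψ) :
    SL m φ ∧ ∀ᵐ x ∂m, Dw m φ x ≤ dist x o + R := by
  obtain ⟨a, ℓ, b, c, -⟩ := i1a_slope (m := m) h
  exact ⟨a, b.mono fun x hx => hx.trans (c x)⟩

theorem hv (hC : Cmpr m P C) (hp : IsPot (closedBall o R) φ ψ)
    (hg : ∀ᵐ γ ∂P, IsCSGeodesic γ ∧ γ.ext 0 ∈ closedBall o R ∧ γ.ext 1 ∈ closedBall o R)
    (he : ∀ᵐ γ ∂P, φ (γ.ext 0) + ψ (γ.ext 1) = len γ ^ 2 / 2) {g : X → ℝ} (hs : SL m g) {η : ℝ}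
    (hη : 0 < η) :
    ∀ᶠ t in 𝓝[>] (0 : ℝ), -(∫ γ, Gam m φ g (γ.ext 0) ∂P) - η ≤
      (∫ γ, (g (γ.ext t) - g (γ.ext 0)) ∂P) / t := by
  obtain ⟨hφ, ℓ, hℓ, -, hℓ2⟩ := i1a_slope (m := m) hp
  obtain ⟨-, hT⟩ := plan_of_geo hC hg
  have hI : IsInfHilbertian m := DS.hilb m
  have h0 : (0 : ℝ) ∈ Icc (0 : ℝ) 1 := ⟨le_rfl, zero_le_one⟩
  have h1 : (1 : ℝ) ∈ Icc (0 : ℝ) 1 := ⟨zero_le_one, le_rfl⟩
  have iG : ∀ (f k : X → ℝ), Integrable (fun γ : UCurve X => Gam m f k (γ.ext 0)) P :=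
    fun f k => hC.integrable hT (gam_integrableOn f k _ _) h0
  have iS : ∀ {f : X → ℝ}, SL m f → ∀ t ∈ Icc (0 : ℝ) 1, Integrable (fun γ : UCurve X => f (γ.ext t)) P :=
    fun hf t ht => hC.integrable hT (IsL2OnBalls.integrableOn hf.1 _ _) ht
  have iL : Integrable (fun γ : UCurve X => len γ ^ 2) P := by
    refine Integrable.of_bound (C := (2 * R) ^ 2) (continuous_len.pow 2).aestronglyMeasurable ?_
    filter_upwards [hg] with γ hγ
    have := dist_triangle_right (γ.ext 0) (γ.ext 1) o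
    rw [Real.norm_of_nonneg (sq_nonneg _)]
    exact pow_le_pow_left₀ dist_nonneg (by linarith [mem_closedBall.1 hγ.2.1, mem_closedBall.1 hγ.2.2]) 2
  set L := ∫ γ, len γ ^ 2 ∂P with hL
  have hL0 : 0 ≤ L := integral_nonneg fun γ => sq_nonneg _
  set A := ∫ γ, Gam m φ g (γ.ext 0) ∂P with hA
  set E := ∫ γ, Gam m g g (γ.ext 0) ∂P with hE
  set s := η / (|E| + 1) with hs'
  have hs0 : 0 < s := by positivity
  have hsE : s * E ≤ η := by
    rw [hs', div_mul_eq_mul_div, div_le_iff₀ (by positivity)]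
    nlinarith [le_abs_self E]
  have hsg := (hs.const_mul s).1
  have hu := (hφ.add hsg).1
  have ha0 : ∫ γ, Gam m (fun x => φ x + s * g x) (fun x => φ x + s * g x) (γ.ext 0) ∂P ≤
      L + 2 * s * A + s ^ 2 * E := by
    have i2 : Integrable (fun γ : UCurve X => len γ ^ 2 + 2 * s * Gam m φ g (γ.ext 0)) P :=
      iL.add ((iG _ _).const_mul _)
    rw [hL, hA, hE, ← integral_const_mul, ← integral_const_mul, ← integral_add iL ((iG _ _).const_mul _),
      ← integral_add i2 ((iG _ _).const_mul _)]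
    refine integral_mono_ae (iG _ _) (i2.add ((iG _ _).const_mul _)) ?_
    have e : ∀ᵐ x ∂m, Gam m (fun x => φ x + s * g x) (fun x => φ x + s * g x) x =
        Dw m φ x ^ 2 + 2 * s * Gam m φ g x + s ^ 2 * Gam m g g x := by
      filter_upwards [gam_add_left hI hφ hsg hu, gam_add_right hI hφ hsg hφ, gam_const_mul_left hI hs hu s,
        gam_add_right hI hφ hsg hs, gam_const_mul_right hI hs hφ s, gam_const_mul_right hI hs hs s,
        hs.gam_comm hφ, hφ.gam_self] with x a1 a2 a3 a4 a5 a6 a7 a8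
      rw [a1, a2, a3, a4, a5, a6, a7, a8]
      ring
    filter_upwards [hC.ae e h0, hC.ae hℓ h0, hC.ae (Dw_nonneg (m := m) φ) h0, hg, he] with γ b1 b2 b3 b4 b5
    have b6 : Dw m φ (γ.ext 0) ^ 2 ≤ len γ ^ 2 := pow_le_pow_left₀ b3 (b2.trans (hℓ2 _ _ b4.2.2 b5)) 2
    linarith
  have hc := hC.cont hT (gam_integrableOn (m := m) (fun x => φ x + s * g x) (fun x => φ x + s * g x) o (3 * R))
  obtain ⟨δ, hδ, hδ'⟩ := Metric.continuousWithinAt_iff.1 (hc 0 h0) (s * η / 2) (by positivity)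
  have hm : 0 < min (min δ 1) (s * η / (2 * (L + 1))) := lt_min (lt_min hδ one_pos) (by positivity)
  filter_upwards [Ioo_mem_nhdsGT hm] with t ht
  have ht0 := ht.1
  have htδ : t < δ := ht.2.trans_le ((min_le_left _ _).trans (min_le_left _ _))
  have ht1 : t ≤ 1 := ht.2.le.trans ((min_le_left _ _).trans (min_le_right _ _))
  have htL : t * L ≤ s * η / 2 := by
    have := ht.2.le.trans (min_le_right _ _)
    rw [le_div_iff₀ (by positivity)] at this
    nlinarith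
  have htI : t ∈ Icc (0 : ℝ) 1 := ⟨ht0.le, ht1⟩
  have y1 := geo_young hu hC hg le_rfl ht0.le ht1 one_pos
  have y2 : (∫ r in (0 : ℝ)..t, ∫ γ, Gam m (fun x => φ x + s * g x) (fun x => φ x + s * g x) (γ.ext r) ∂P) ≤
      t * (L + 2 * s * A + s ^ 2 * E + s * η / 2) := by
    have := intervalIntegral.integral_mono_on (μ := volume) ht0.le
      ((hc.mono (by rw [uIcc_of_le ht0.le]; exact Icc_subset_Icc_right ht1)).intervalIntegrable)
      (intervalIntegrable_const (c := L + 2 * s * A + s ^ 2 * E + s * η / 2)) fun r hr => by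
        have := hδ' ⟨hr.1, hr.2.trans ht1⟩ (by
          rw [Real.dist_eq, sub_zero, abs_of_nonneg hr.1]; exact hr.2.trans_lt htδ)
        rw [Real.dist_eq] at this
        linarith [(abs_lt.1 this).2]
    rwa [intervalIntegral.integral_const, sub_zero, smul_eq_mul] at this
  have y3 : t * (1 - t / 2) * L ≤ ∫ γ, φ (γ.ext 0) ∂P - ∫ γ, φ (γ.ext t) ∂P := by
    rw [hL, ← integral_const_mul, ← integral_sub (iS hφ 0 h0) (iS hφ t htI)]
    refine integral_mono_ae (iL.const_mul _) ((iS hφ 0 h0).sub (iS hφ t htI)) ?_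
    filter_upwards [hg, he] with γ b1 b2
    have b3 := hp.le (γ.ext t) b1.2.2
    rw [geo_dist b1.1 htI h1, mul_pow, sq_abs] at b3
    linarith
  rw [integral_add (iS hφ t htI) (iS hsg t htI), integral_add (iS hφ 0 h0) (iS hsg 0 h0), integral_const_mul,
    integral_const_mul] at y1
  rw [integral_sub (iS hs t htI) (iS hs 0 h0), le_div_iff₀ ht0]
  have y4 := (abs_le.1 y1).1
  refine le_of_mul_le_mul_left ?_ hs0
  have z1 := mul_le_mul_of_nonneg_left hsE (mul_pos ht0 hs0).le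
  have z2 := mul_le_mul_of_nonneg_left htL ht0.le
  rw [← hL] at y4
  nlinarith

theorem hv_weight (hC : Cmpr m P C) (hp : IsPot (closedBall o R) φ ψ)
    (hg : ∀ᵐ γ ∂P, IsCSGeodesic γ ∧ γ.ext 0 ∈ closedBall o R ∧ γ.ext 1 ∈ closedBall o R)
    (he : ∀ᵐ γ ∂P, φ (γ.ext 0) + ψ (γ.ext 1) = len γ ^ 2 / 2) {g : X → ℝ} (hs : SL m g)
    {w : X → ℝ} (hw : Measurable w) {B : ℝ} (hwB : ∀ x, 0 ≤ w x ∧ w x ≤ B) {η : ℝ} (hη : 0 < η) :
    ∀ᶠ t in 𝓝[>] (0 : ℝ), -(∫ γ, w (γ.ext 0) * Gam m φ g (γ.ext 0) ∂P) - η ≤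
      (∫ γ, w (γ.ext 0) * (g (γ.ext t) - g (γ.ext 0)) ∂P) / t := by
  have hW : Measurable fun γ : UCurve X => w (γ.ext 0) := hw.comp (measurable_ext_at 0)
  have hWi : Integrable (fun γ : UCurve X => w (γ.ext 0)) P :=
    Integrable.of_bound hW.aestronglyMeasurable B (Eventually.of_forall fun γ => by
      rw [Real.norm_eq_abs, abs_of_nonneg (hwB _).1]; exact (hwB _).2)
  set c := ∫ γ, w (γ.ext 0) ∂P with hc
  have hc0 : 0 ≤ c := integral_nonneg fun γ => (hwB _).1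
  rcases hc0.eq_or_lt with h0 | h0
  · have hz : (fun γ : UCurve X => w (γ.ext 0)) =ᵐ[P] 0 :=
      (integral_eq_zero_iff_of_nonneg (fun γ => (hwB _).1) hWi).1 h0.symm
    have e : ∀ F : UCurve X → ℝ, ∫ γ, w (γ.ext 0) * F γ ∂P = 0 := fun F => by
      refine integral_eq_zero_of_ae ?_
      filter_upwards [hz] with γ hγ
      simp only [Pi.zero_apply] at hγ ⊢
      rw [hγ, zero_mul]
    refine Eventually.of_forall fun t => ?_
    rw [e, e, zero_div]
    linarith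
  · set ρ : UCurve X → ℝ≥0 := fun γ => (w (γ.ext 0) / c).toNNReal with hρ
    have hρm : Measurable ρ := (hW.div_const c).real_toNNReal
    have hρc : ∀ γ, (ρ γ : ℝ) = w (γ.ext 0) / c := fun γ =>
      Real.coe_toNNReal _ (div_nonneg (hwB _).1 hc0)
    set Q : Measure (UCurve X) := P.withDensity fun γ => (ρ γ : ℝ≥0∞) with hQ
    have e : ∀ F : UCurve X → ℝ, ∫ γ, F γ ∂Q = (∫ γ, w (γ.ext 0) * F γ ∂P) / c := fun F => by
      rw [hQ, integral_withDensity_eq_integral_smul hρm, ← integral_div]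
      refine integral_congr_ae (Eventually.of_forall fun γ => ?_)
      simp only [NNReal.smul_def, smul_eq_mul, hρc]
      ring
    have hB0 : 0 ≤ B / c := div_nonneg ((hwB o).1.trans (hwB o).2) hc0
    have hle : Q ≤ ENNReal.ofReal (B / c) • P := by
      rw [hQ, ← withDensity_const]
      refine withDensity_mono (Eventually.of_forall fun γ => ?_)
      exact ENNReal.ofReal_le_ofReal (div_le_div_of_nonneg_right (hwB _).2 hc0)
    have : IsProbabilityMeasure Q := ⟨by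
      rw [hQ, withDensity_apply _ MeasurableSet.univ, Measure.restrict_univ]
      change ∫⁻ γ, ENNReal.ofReal (w (γ.ext 0) / c) ∂P = 1
      rw [← ofReal_integral_eq_lintegral_ofReal (hWi.div_const c)
        (Eventually.of_forall fun γ => div_nonneg (hwB _).1 hc0), integral_div, ← hc,
        div_self h0.ne', ENNReal.ofReal_one]⟩
    have hCQ : Cmpr m Q (B / c * C) := fun t ht => by
      have h1 : marg Q t ≤ ENNReal.ofReal (B / c) • marg P t := by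
        unfold marg
        rw [← Measure.map_smul]
        exact Measure.map_mono hle (measurable_ext_at t)
      rw [ENNReal.ofReal_mul hB0, mul_smul]
      exact h1.trans (a6a_smul_mono (hC t ht) le_rfl)
    have hac : Q ≪ P := withDensity_absolutelyContinuous _ _
    filter_upwards [hv hCQ hp (hac.ae_le hg) (hac.ae_le he) hs (div_pos hη h0)] with t ht
    rw [e, e, div_right_comm, ← neg_div, ← sub_div, div_le_div_iff_of_pos_right h0] at ht
    exact ht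

theorem i1c_log {z₀ z s : ℝ} (h0 : 0 < z₀) (hz : 0 ≤ z) (hs : 0 < s) (hd : |z - z₀| ≤ s) :
    2 / z₀ * (z - z₀) - 6 * s ^ 2 * (z₀ ^ 2)⁻¹ ≤ Real.log (z ^ 2 + s ^ 2) - Real.log (z₀ ^ 2 + s ^ 2) := by
  have ha : 0 < z ^ 2 + s ^ 2 := by positivity
  have hb : 0 < z₀ ^ 2 + s ^ 2 := by positivity
  rw [← Real.log_div ha.ne' hb.ne']
  refine le_trans ?_ (Real.one_sub_inv_le_log_of_pos (div_pos ha hb))
  obtain ⟨d, rfl⟩ : ∃ d, z = z₀ + d := ⟨z - z₀, by ring⟩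
  rw [add_sub_cancel_left, abs_le] at hd
  have key : d * (3 * z₀ * d + 2 * d ^ 2 + 2 * s ^ 2) * z₀ ≤ 6 * s ^ 2 * ((z₀ + d) ^ 2 + s ^ 2) := by
    have hd2 : d ^ 2 ≤ s ^ 2 := by nlinarith
    rcases le_total d 0 with h | h
    · have h1 : z₀ ^ 2 ≤ 2 * ((z₀ + d) ^ 2 + s ^ 2) := by nlinarith [sq_nonneg (z₀ + d + d)]
      have h2 : d * (2 * d ^ 2 + 2 * s ^ 2) * z₀ ≤ 0 :=
        mul_nonpos_of_nonpos_of_nonneg (mul_nonpos_of_nonpos_of_nonneg h (by positivity)) h0.le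
      have h3 : z₀ ^ 2 * d ^ 2 ≤ 2 * ((z₀ + d) ^ 2 + s ^ 2) * s ^ 2 :=
        mul_le_mul h1 hd2 (sq_nonneg _) (by positivity)
      nlinarith
    · have h1 : z₀ ^ 2 ≤ (z₀ + d) ^ 2 := by nlinarith
      have h3 : z₀ ^ 2 * d ^ 2 ≤ (z₀ + d) ^ 2 * s ^ 2 := mul_le_mul h1 hd2 (sq_nonneg _) (by positivity)
      have h4 : d * z₀ ≤ ((z₀ + d) ^ 2 + s ^ 2) / 2 := by nlinarith [sq_nonneg (z₀ - d)]
      have h5 : d * z₀ * (2 * d ^ 2 + 2 * s ^ 2) ≤ ((z₀ + d) ^ 2 + s ^ 2) / 2 * (4 * s ^ 2) :=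
        mul_le_mul h4 (by linarith) (by positivity) (by positivity)
      nlinarith [sq_nonneg (s ^ 2), mul_nonneg (sq_nonneg (z₀ + d)) (sq_nonneg s)]
  have e : 1 - (((z₀ + d) ^ 2 + s ^ 2) / (z₀ ^ 2 + s ^ 2))⁻¹ -
      (2 / z₀ * (z₀ + d - z₀) - 6 * s ^ 2 * (z₀ ^ 2)⁻¹) =
      (6 * s ^ 2 * ((z₀ + d) ^ 2 + s ^ 2) - d * (3 * z₀ * d + 2 * d ^ 2 + 2 * s ^ 2) * z₀) /
        (z₀ ^ 2 * ((z₀ + d) ^ 2 + s ^ 2)) := by
    field_simp
    ring
  rw [← sub_nonneg, e]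
  exact div_nonneg (sub_nonneg.2 key) (by positivity)

theorem hv_logcut (hC : Cmpr m P C) (hp : IsPot (closedBall o R) φ ψ)
    (hg : ∀ᵐ γ ∂P, IsCSGeodesic γ ∧ γ.ext 0 ∈ closedBall o R ∧ γ.ext 1 ∈ closedBall o R)
    (he : ∀ᵐ γ ∂P, φ (γ.ext 0) + ψ (γ.ext 1) = len γ ^ 2 / 2) {χ f : X → ℝ}
    (hχ : LipschitzWith 1 χ) (hχ1 : ∀ x, 0 ≤ χ x ∧ χ x ≤ 1) (hf : AEStronglyMeasurable f m) {B : ℝ}
    (hfB : ∀ᵐ x ∂m, 0 ≤ f x ∧ f x ≤ B) (h0 : marg P 0 = wd m fun x => χ x ^ 2 * f x) {η : ℝ}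
    (hη : 0 < η) :
    ∀ᶠ t in 𝓝[>] (0 : ℝ), -(∫ x, 2 * χ x * f x * Gam m φ χ x ∂m) - η ≤
      (∫ γ, (Real.log (χ (γ.ext t) ^ 2 + ((2 * R + 1) * t) ^ 2) -
        Real.log (χ (γ.ext 0) ^ 2 + ((2 * R + 1) * t) ^ 2)) ∂P) / t := by
  have hχc : Continuous χ := hχ.continuous
  have hρ : AEStronglyMeasurable (fun x => χ x ^ 2 * f x) m :=
    (hχc.pow 2).aestronglyMeasurable.mul hf
  have hρ0 : ∀ᵐ x ∂m, 0 ≤ χ x ^ 2 * f x := hfB.mono fun x hx => mul_nonneg (sq_nonneg _) hx.1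
  have hρm : AEMeasurable (fun x => ENNReal.ofReal (χ x ^ 2 * f x)) m :=
    hρ.aemeasurable.ennreal_ofReal
  have m0 := (measurable_ext_at (X := X) 0).aemeasurable (μ := P)
  have h0' : P.map (fun γ => γ.ext 0) = m.withDensity fun x => ENNReal.ofReal (χ x ^ 2 * f x) := h0
  have z01 : (0 : ℝ) ∈ Icc (0 : ℝ) 1 := ⟨le_rfl, zero_le_one⟩
  obtain ⟨-, hT⟩ := plan_of_geo hC hg
  have hR : 0 ≤ R := by
    obtain ⟨γ, hγ⟩ := hg.exists
    exact nonempty_closedBall.1 ⟨_, hγ.2.1⟩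
  have hpos : ∀ᵐ γ ∂P, 0 < χ (γ.ext 0) := by
    refine ae_of_ae_map (p := fun x => 0 < χ x) m0 ?_
    rw [h0', ae_withDensity_iff' hρm]
    refine ae_of_all _ fun x hx => (hχ1 x).1.lt_of_ne fun h => hx ?_
    simp [← h]
  have hball : ∀ᵐ x ∂m, ENNReal.ofReal (χ x ^ 2 * f x) ≠ 0 → x ∈ closedBall o R := by
    rw [← ae_withDensity_iff' hρm, ← h0']
    exact (ae_map_iff m0 isClosed_closedBall.measurableSet).2 (hg.mono fun γ hγ => hγ.2.1)
  have hKm : Measurable fun x => (χ x ^ 2)⁻¹ := (hχc.measurable.pow_const 2).inv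
  have iK : Integrable (fun γ : UCurve X => (χ (γ.ext 0) ^ 2)⁻¹) P := by
    refine (integrable_map_measure hKm.aestronglyMeasurable m0).1 ?_
    rw [h0', integrable_withDensity_iff_integrable_smul₀' hρm
      (ae_of_all _ fun _ => ENNReal.ofReal_lt_top)]
    have ib : Integrable ((closedBall o R).indicator fun _ => B) m :=
      (integrable_indicator_iff isClosed_closedBall.measurableSet).2
        (continuousOn_const.integrableOn_compact (isCompact_closedBall o R))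
    refine ib.mono' (hρm.ennreal_toReal.aestronglyMeasurable.smul hKm.aestronglyMeasurable) ?_
    filter_upwards [hball, hfB, hρ0] with x h1 h2 h3
    by_cases hx : ENNReal.ofReal (χ x ^ 2 * f x) = 0
    · rw [hx]
      simpa using indicator_nonneg (fun _ _ => h2.1.trans h2.2) x
    · have h4 : χ x ≠ 0 := fun h => hx (by simp [h])
      rw [indicator_of_mem (h1 hx), ENNReal.toReal_ofReal h3, smul_eq_mul,
        show χ x ^ 2 * f x * (χ x ^ 2)⁻¹ = f x by field_simp, Real.norm_of_nonneg h2.1]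
      exact h2.2
  have hum : Measurable fun x => 2 / χ x := measurable_const.div hχc.measurable
  have hu0 : ∀ x, 0 ≤ 2 / χ x := fun x => div_nonneg zero_le_two (hχ1 x).1
  have iU : Integrable (fun γ : UCurve X => 2 / χ (γ.ext 0)) P := by
    refine (iK.const_mul 2).mono' (hum.comp (measurable_ext_at 0)).aestronglyMeasurable ?_
    filter_upwards [hpos] with γ hγ
    rw [Real.norm_of_nonneg (hu0 _), ← div_eq_mul_inv]
    exact div_le_div_of_nonneg_left zero_le_two (by positivity)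
      (by nlinarith [(hχ1 (γ.ext 0)).2])
  have hwm : ∀ n : ℕ, Measurable fun x => min (2 / χ x) n := fun n => hum.min measurable_const
  have hw0 : ∀ (n : ℕ) x, 0 ≤ min (2 / χ x) n := fun n x => le_min (hu0 x) n.cast_nonneg
  have iW : ∀ n : ℕ, Integrable (fun γ : UCurve X => min (2 / χ (γ.ext 0)) n) P := fun n =>
    iU.mono' ((hwm n).comp (measurable_ext_at 0)).aestronglyMeasurable
      (ae_of_all _ fun γ => by rw [Real.norm_of_nonneg (hw0 n _)]; exact min_le_left _ _)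
  have hlim : Tendsto (fun n : ℕ => ∫ γ, min (2 / χ (γ.ext 0)) n ∂P) atTop
      (𝓝 (∫ γ, 2 / χ (γ.ext 0) ∂P)) := by
    refine tendsto_integral_of_dominated_convergence _ (fun n => (iW n).1) iU
      (fun n => ae_of_all _ fun γ => by rw [Real.norm_of_nonneg (hw0 n _)]; exact min_le_left _ _)
      (ae_of_all _ fun γ => tendsto_const_nhds.congr' ?_)
    filter_upwards [tendsto_natCast_atTop_atTop.eventually_ge_atTop (2 / χ (γ.ext 0))] with n hn
    exact (min_eq_left hn).symm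
  obtain ⟨n, hn⟩ := (hlim.eventually (lt_mem_nhds (show ∫ γ, 2 / χ (γ.ext 0) ∂P - η / (16 * R + 1) <
    ∫ γ, 2 / χ (γ.ext 0) ∂P from sub_lt_self _ (by positivity)))).exists
  obtain ⟨E, hE⟩ : ∃ E, E = ∫ γ, 2 / χ (γ.ext 0) ∂P - ∫ γ, min (2 / χ (γ.ext 0)) n ∂P := ⟨_, rfl⟩
  have hE1 : 2 * R * E ≤ η / 4 := by
    have h1 : E ≤ η / (16 * R + 1) := by linarith
    have h2 : 2 * R * (η / (16 * R + 1)) ≤ η / 4 := by
      rw [← mul_div_assoc, div_le_div_iff₀ (by positivity) (by positivity)]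
      nlinarith [mul_nonneg hR hη.le]
    exact (mul_le_mul_of_nonneg_left h1 (by positivity)).trans h2
  have hsl := sl_of_lip (m := m) hχ
  have hΓ : ∀ᵐ γ ∂P, |Gam m φ χ (γ.ext 0)| ≤ 2 * R := by
    filter_upwards [hC.ae (abs_gam_le (DS.hilb m) hp.sl.1 hsl.1) z01, hC.ae hp.sl.2 z01,
      hC.ae hsl.2 z01, hC.ae (Dw_nonneg χ) z01, hg] with γ h1 h2 h3 h4 h5
    have h6 : dist (γ.ext 0) o ≤ R := h5.2.1
    calc _ ≤ _ := h1
      _ ≤ 2 * R * 1 := mul_le_mul (by linarith) (by simpa using h3) h4 (by positivity)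
      _ = _ := mul_one _
  have hΓm : AEStronglyMeasurable (fun γ : UCurve X => Gam m φ χ (γ.ext 0)) P :=
    (hC.integrable hT (gam_integrableOn φ χ o _) z01).1
  have e1 : ∫ x, 2 * χ x * f x * Gam m φ χ x ∂m =
      ∫ γ, 2 / χ (γ.ext 0) * Gam m φ χ (γ.ext 0) ∂P := by
    rw [← hC.integral_marg (g := fun x => 2 / χ x * Gam m φ χ x)
      (hum.aestronglyMeasurable.mul (gam_aesm φ χ)) z01, h0, integral_wd hρ hρ0]
    refine integral_congr_ae (ae_of_all _ fun x => ?_)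
    rcases eq_or_ne (χ x) 0 with h | h
    · simp [h]
    · simp only
      field_simp
  have e2 : ∫ γ, min (2 / χ (γ.ext 0)) n * Gam m φ χ (γ.ext 0) ∂P ≤
      ∫ γ, 2 / χ (γ.ext 0) * Gam m φ χ (γ.ext 0) ∂P + 2 * R * E := by
    have i1 := iU.mul_bdd hΓm hΓ
    have i2 := (iW n).mul_bdd hΓm hΓ
    have i3 : Integrable (fun γ : UCurve X =>
        2 * R * (2 / χ (γ.ext 0) - min (2 / χ (γ.ext 0)) n)) P := (iU.sub (iW n)).const_mul _
    rw [hE, ← integral_sub iU (iW n), ← integral_const_mul, ← integral_add i1 i3]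
    refine integral_mono_ae i2 (i1.add i3) ?_
    filter_upwards [hΓ] with γ hγ
    have h1 := sub_nonneg.2 (min_le_left (2 / χ (γ.ext 0)) n)
    nlinarith [mul_nonneg h1 (show 0 ≤ Gam m φ χ (γ.ext 0) + 2 * R by linarith [(abs_le.1 hγ).1])]
  obtain ⟨K, hK⟩ : ∃ K, K = ∫ γ, (χ (γ.ext 0) ^ 2)⁻¹ ∂P := ⟨_, rfl⟩
  have hsm : ∀ᶠ t in 𝓝[>] (0 : ℝ), 6 * (2 * R + 1) ^ 2 * K * t < η / 4 := by
    refine mem_nhdsWithin_of_mem_nhds (Tendsto.eventually_lt_const (by positivity : 0 < η / 4) ?_)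
    exact Continuous.tendsto' (by fun_prop) 0 0 (by simp)
  filter_upwards [hv_weight hC hp hg he hsl.1 (hwm n) (fun x => ⟨hw0 n x, min_le_right _ _⟩)
    (by positivity : 0 < η / 4), hsm, Ioc_mem_nhdsGT zero_lt_one] with t h1 h2 ht
  have ht' : t ∈ Icc (0 : ℝ) 1 := ⟨ht.1.le, ht.2⟩
  have ht0 := ht.1
  have hs : 0 < (2 * R + 1) * t := by positivity
  have hd : ∀ᵐ γ ∂P, |χ (γ.ext t) - χ (γ.ext 0)| ≤ 2 * R * t := by
    filter_upwards [hg] with γ hγ
    have a1 := hχ.dist_le_mul (γ.ext t) (γ.ext 0)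
    have a2 := geo_dist_le hγ.1 t 0
    have a3 : len γ ≤ 2 * R := by
      have := dist_triangle_right (γ.ext 0) (γ.ext 1) o
      have b1 : dist (γ.ext 0) o ≤ R := hγ.2.1
      have b2 : dist (γ.ext 1) o ≤ R := hγ.2.2
      unfold len
      linarith
    rw [sub_zero, abs_of_pos ht0] at a2
    rw [NNReal.coe_one, one_mul, Real.dist_eq] at a1
    nlinarith
  have hlc : Continuous fun x => Real.log (χ x ^ 2 + ((2 * R + 1) * t) ^ 2) :=
    Continuous.log (by fun_prop) fun x => by positivity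
  have iL := fun {r : ℝ} (hr : r ∈ Icc (0 : ℝ) 1) => hC.integrable hT
    (hlc.continuousOn.integrableOn_compact (isCompact_closedBall o _)) hr
  have i4 : Integrable (fun γ : UCurve X =>
      min (2 / χ (γ.ext 0)) n * (χ (γ.ext t) - χ (γ.ext 0))) P :=
    (iW n).mul_bdd ((hχc.measurable.comp (measurable_ext_at t)).sub
      (hχc.measurable.comp (measurable_ext_at 0))).aestronglyMeasurable hd
  have i5 : Integrable (fun γ : UCurve X =>
      2 * R * t * (2 / χ (γ.ext 0) - min (2 / χ (γ.ext 0)) n)) P := (iU.sub (iW n)).const_mul _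
  have i6 : Integrable (fun γ : UCurve X => 6 * ((2 * R + 1) * t) ^ 2 * (χ (γ.ext 0) ^ 2)⁻¹) P :=
    iK.const_mul _
  have i7 : Integrable (fun γ : UCurve X => min (2 / χ (γ.ext 0)) n * (χ (γ.ext t) - χ (γ.ext 0)) -
      2 * R * t * (2 / χ (γ.ext 0) - min (2 / χ (γ.ext 0)) n)) P := i4.sub i5
  have e3 : ∫ γ, min (2 / χ (γ.ext 0)) n * (χ (γ.ext t) - χ (γ.ext 0)) ∂P - 2 * R * t * E -
      6 * ((2 * R + 1) * t) ^ 2 * K ≤ ∫ γ, (Real.log (χ (γ.ext t) ^ 2 + ((2 * R + 1) * t) ^ 2) -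
        Real.log (χ (γ.ext 0) ^ 2 + ((2 * R + 1) * t) ^ 2)) ∂P := by
    rw [hE, hK, ← integral_sub iU (iW n), ← integral_const_mul, ← integral_const_mul,
      ← integral_sub i4 i5, ← integral_sub i7 i6]
    refine integral_mono_ae (i7.sub i6) ((iL ht').sub (iL z01)) ?_
    filter_upwards [hpos, hd] with γ a1 a2
    have a3 := i1c_log a1 (hχ1 (γ.ext t)).1 hs (a2.trans (by nlinarith))
    have a4 := sub_nonneg.2 (min_le_left (2 / χ (γ.ext 0)) n)
    nlinarith [mul_nonneg a4 (show 0 ≤ χ (γ.ext t) - χ (γ.ext 0) + 2 * R * t by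
      linarith [(abs_le.1 a2).1])]
  rw [le_div_iff₀ ht0] at h1 ⊢
  rw [e1]
  nlinarith [mul_le_mul_of_nonneg_right e2 ht0.le, mul_le_mul_of_nonneg_right hE1 ht0.le,
    mul_le_mul_of_nonneg_right h2.le ht0.le]

end Crest.Agent.R242
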