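import Crest.Agent.R242.I1
import Crest.Agent.R242.G5

/-! Block I2: the key inequality.  `key_one`: `P` a good plan from `μ₀ = wd (χ² f)` to `μ₁`, `χ = cut o R 1`,
`OptGeo.pot_eq`.  Convexity gives `(Ent μ_t - Ent μ₀)/t ≤ Ent μ₁ - Ent μ₀ + κ W/2`.  With
`δ_t = ((2(R+1)+1)t)²`, `ψ_t = log (χ² + δ_t) + log f`: `ent_fenchel` on `closedBall o (3(R+1))` gives
`Ent μ_t ≥ ∫ ψ_t(γ t) - δ_t B m(ball)`, and `Ent μ₀ = ∫ χ² f log (χ² f) ≤ ∫ ψ_t(γ 0)`.  Use `hv_logcut` and `hv`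
for `g = log f` (`gam_chain_Icc`: `Γ(φ, log f) = Γ(φ,f)/f`), and
`Γ(φ, χ² f) = χ² Γ(φ,f) + 2χ f Γ(φ,χ)` (`gam_mul_bdd`).  `key`: `key_one` twice (`IsPot.symm`, `W2_symm`). -/

set_option autoImplicit false
set_option linter.unusedSectionVars false
set_option linter.unusedVariables false
open MeasureTheory Filter Set Metric
open scoped ENNReal NNReal Topology
open Crest.GeometryTopology.SyntheticRicci

noncomputable section
namespace Crest.Agent.R242

variable {X : Type*} [MetricSpace X] [MeasurableSpace X] [BorelSpace X] [ProperSpace X]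
  {m : Measure X} [IsFiniteMeasureOnCompacts m] [m.IsOpenPosMeasure] [DS m m]

variable {κ R : ℝ} {o : X} {φ ψ : X → ℝ}

theorem i2a_int {a g : X → ℝ} {K r : ℝ} (ha : AEStronglyMeasurable a m) (hK : ∀ᵐ x ∂m, |a x| ≤ K)
    (h0 : ∀ x, x ∉ closedBall o r → a x = 0) (hg : IntegrableOn g (closedBall o r) m) :
    Integrable (fun x => a x * g x) m := by
  refine (a5a_bdd ha hK ((integrable_indicator_iff measurableSet_closedBall).2 hg)).1.congr
    (Eventually.of_forall fun x => ?_)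
  by_cases hx : x ∈ closedBall o r
  · simp only [indicator_of_mem hx]
  · simp only [h0 x hx, zero_mul]

theorem i2a_lip (o : X) (R : ℝ) : LipschitzWith 1 (cut o R 1) := by
  simpa using cut_lip o R one_pos

theorem i2a_zero {x : X} (hx : x ∉ closedBall o (R + 1)) : cut o R 1 x = 0 :=
  cut_eq_zero one_pos (not_le.1 (mem_closedBall.not.1 hx)).le

theorem i2a_sq (o : X) (R : ℝ) (x : X) : 0 ≤ cut o R 1 x ^ 2 ∧ cut o R 1 x ^ 2 ≤ 1 :=
  ⟨sq_nonneg _, pow_le_one₀ (cut_nonneg o R 1 x) (cut_le_one o R 1 x)⟩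

/-- the Leibniz rule, integrated -/
theorem i2a_leib {f : X → ℝ} (hφ : SL m φ) (hf : SL m f) {B : ℝ} (hfB : ∀ᵐ x ∂m, 0 ≤ f x ∧ f x ≤ B) :
    ∫ x, Gam m φ (fun y => cut o R 1 y ^ 2 * f y) x ∂m =
      ∫ x, cut o R 1 x ^ 2 * Gam m φ f x ∂m + ∫ x, 2 * cut o R 1 x * f x * Gam m φ (cut o R 1) x ∂m := by
  have hI : IsInfHilbertian m := DS.hilb m
  have hc := (i2a_lip o R).continuous
  have hχ : SL m (cut o R 1) := (sl_of_lip (i2a_lip o R)).1
  have eχ : EB m (cut o R 1) := ⟨1, Eventually.of_forall fun x => by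
    rw [abs_of_nonneg (cut_nonneg o R 1 x)]; exact cut_le_one o R 1 x⟩
  have eχ2 : EB m fun x => cut o R 1 x * cut o R 1 x := ⟨1, Eventually.of_forall fun x => by
    simp only [← sq, abs_of_nonneg (i2a_sq o R x).1]; exact (i2a_sq o R x).2⟩
  have ef : EB m f := ⟨B, hfB.mono fun x hx => by rw [abs_of_nonneg hx.1]; exact hx.2⟩
  obtain ⟨s2, g2⟩ := gam_mul_bdd hI hχ hχ hφ eχ eχ
  obtain ⟨s3, g3⟩ := gam_mul_bdd hI s2 hf hφ eχ2 ef
  rw [← integral_add]
  · simp only [sq]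
    refine integral_congr_ae ?_
    filter_upwards [g2, g3, hφ.gam_comm s3, hφ.gam_comm hf, hφ.gam_comm hχ] with x a1 a2 a3 a4 a5
    rw [a3, a2, a1, a4, a5]
    ring
  · refine i2a_int (K := 1) (o := o) (r := R + 1) (hc.pow 2).aestronglyMeasurable
      (Eventually.of_forall fun x => ?_) (fun x hx => by rw [i2a_zero hx]; ring) (gam_integrableOn _ _ _ _)
    rw [abs_of_nonneg (sq_nonneg _)]
    exact (i2a_sq o R x).2
  · refine i2a_int (K := 2 * B) (o := o) (r := R + 1)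
      ((continuous_const.mul hc).aestronglyMeasurable.mul (IsL2OnBalls.aesm hf.1)) (hfB.mono fun x hx => ?_)
      (fun x hx => by rw [i2a_zero hx]; ring) (gam_integrableOn _ _ _ _)
    have h1 := cut_nonneg o R 1 x
    have h2 := cut_le_one o R 1 x
    rw [abs_of_nonneg (by have := hx.1; positivity)]
    nlinarith [hx.1, hx.2]

/-- the entropy along the plan, from below -/
theorem i2a_low {f : X → ℝ} (hf : SL m f) (hg : SL m fun x => Real.log (f x)) {δ B C r e : ℝ} (hδ : 0 < δ)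
    (hfB : ∀ᵐ x ∂m, δ ≤ f x ∧ f x ≤ B) (h₀ : ∫ x, cut o R 1 x ^ 2 * f x ∂m = 1) {μ : Measure X}
    (hμ : BM m C o r μ) (he : 0 < e) :
    ∫ x, (Real.log (cut o R 1 x ^ 2 + e) + Real.log (f x)) ∂μ - e * (B * m.real (closedBall o r)) ≤
      Ent m μ := by
  have hc := (i2a_lip o R).continuous
  have hpos : ∀ x, 0 < cut o R 1 x ^ 2 + e := fun x => by positivity
  have hl : Continuous fun x => Real.log (cut o R 1 x ^ 2 + e) :=
    ((hc.pow 2).add continuous_const).log fun x => (hpos x).ne'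
  have hexp : ∀ᵐ x ∂m, Real.exp (Real.log (cut o R 1 x ^ 2 + e) + Real.log (f x)) =
      cut o R 1 x ^ 2 * f x + e * f x := hfB.mono fun x hx => by
    rw [Real.exp_add, Real.exp_log (hpos x), Real.exp_log (hδ.trans_le hx.1)]
    ring
  have i1 : Integrable (fun x => cut o R 1 x ^ 2 * f x) m := Integrable.of_integral_ne_zero (by rw [h₀]; simp)
  have i2 := IsL2OnBalls.integrableOn hf.1 o r
  have hfen := ent_fenchel hμ.1 hμ.ac hμ.ent_integrable
    (ψ := fun x => Real.log (cut o R 1 x ^ 2 + e) + Real.log (f x))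
    (hμ.integrable ((IsL2OnBalls.integrableOn (l2b_of_continuous hl) o r).add (IsL2OnBalls.integrableOn hg.1 o r)))
    ((i1.integrableOn.add (i2.const_mul e)).congr (ae_restrict_of_ae (hexp.mono fun x hx => hx.symm)))
  rw [integral_congr_ae (ae_restrict_of_ae hexp), integral_add i1.integrableOn (i2.const_mul e),
    integral_const_mul] at hfen
  have b1 : ∫ x in closedBall o r, cut o R 1 x ^ 2 * f x ∂m ≤ 1 := by
    exact (setIntegral_le_integral i1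
      (hfB.mono fun x hx => mul_nonneg (sq_nonneg _) (hδ.le.trans hx.1))).trans h₀.le
  have b2 : ∫ x in closedBall o r, f x ∂m ≤ B * m.real (closedBall o r) := by
    have hfin : m (closedBall o r) ≠ ⊤ := (isCompact_closedBall o r).measure_lt_top.ne
    have := setIntegral_mono_ae_restrict i2 (integrableOn_const hfin)
      (ae_restrict_of_ae (hfB.mono fun x hx => hx.2))
    rwa [setIntegral_const, smul_eq_mul, mul_comm] at this
  nlinarith [mul_le_mul_of_nonneg_left b2 he.le]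

/-- the initial entropy, from above -/
theorem i2a_up {f : X → ℝ} (hf : SL m f) (hg : SL m fun x => Real.log (f x)) {δ B e : ℝ} (hδ : 0 < δ)
    (hfB : ∀ᵐ x ∂m, δ ≤ f x ∧ f x ≤ B)
    (hμ : BM m B o (R + 1) (wd m fun x => cut o R 1 x ^ 2 * f x)) (he : 0 < e) :
    Ent m (wd m fun x => cut o R 1 x ^ 2 * f x) ≤
      ∫ x, (Real.log (cut o R 1 x ^ 2 + e) + Real.log (f x)) ∂(wd m fun x => cut o R 1 x ^ 2 * f x) := by
  have hc := (i2a_lip o R).continuous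
  have hpos : ∀ x, 0 < cut o R 1 x ^ 2 + e := fun x => by positivity
  have hl : Continuous fun x => Real.log (cut o R 1 x ^ 2 + e) :=
    ((hc.pow 2).add continuous_const).log fun x => (hpos x).ne'
  have hρ : AEStronglyMeasurable (fun x => cut o R 1 x ^ 2 * f x) m :=
    (hc.pow 2).aestronglyMeasurable.mul (IsL2OnBalls.aesm hf.1)
  have h0 : ∀ᵐ x ∂m, 0 ≤ cut o R 1 x ^ 2 * f x :=
    hfB.mono fun x hx => mul_nonneg (sq_nonneg _) (hδ.le.trans hx.1)
  rw [integral_wd hρ h0]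
  refine integral_mono_ae hμ.ent_integrable (i2a_int (K := B) (o := o) (r := R + 1) hρ
    (hfB.mono fun x hx => ?_) (fun x hx => by rw [i2a_zero hx]; ring)
    ((IsL2OnBalls.integrableOn (l2b_of_continuous hl) o _).add (IsL2OnBalls.integrableOn hg.1 o _))) ?_
  · have := hδ.le.trans hx.1
    rw [abs_of_nonneg (mul_nonneg (sq_nonneg _) this)]
    nlinarith [i2a_sq o R x, hx.2]
  · filter_upwards [dens_wd hρ h0, hfB, h0] with x e1 hx hx0
    rw [e1]
    rcases (sq_nonneg (cut o R 1 x)).eq_or_lt with h | h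
    · rw [← h]
      simp
    · refine mul_le_mul_of_nonneg_left ?_ hx0
      rw [Real.log_mul h.ne' (hδ.trans_le hx.1).ne']
      gcongr
      linarith

theorem key_one (hG : HasGood m κ) (hκ : 0 ≤ κ) (hR : 0 ≤ R) {f : X → ℝ} (hf : SL m f) {δ B M : ℝ}
    (hδ : 0 < δ) (hfB : ∀ᵐ x ∂m, δ ≤ f x ∧ f x ≤ B) {μ₁ : Measure X}
    (h₀ : ∫ x, cut o R 1 x ^ 2 * f x ∂m = 1) (h₁ : BM m M o (R + 1) μ₁)
    (hp : IsPot (closedBall o (R + 1)) φ ψ)
    (he : ∫ x, φ x ∂(wd m fun x => cut o R 1 x ^ 2 * f x) + ∫ y, ψ y ∂μ₁ =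
      W2 (wd m fun x => cut o R 1 x ^ 2 * f x) μ₁ / 2) :
    -(∫ x, Gam m φ (fun y => cut o R 1 y ^ 2 * f y) x ∂m) ≤
      Ent m μ₁ - Ent m (wd m fun x => cut o R 1 x ^ 2 * f x) +
        κ / 2 * W2 (wd m fun x => cut o R 1 x ^ 2 * f x) μ₁ := by
  have hI : IsInfHilbertian m := DS.hilb m
  have hc := (i2a_lip o R).continuous
  have hf0 : ∀ᵐ x ∂m, 0 ≤ f x ∧ f x ≤ B := hfB.mono fun x hx => ⟨hδ.le.trans hx.1, hx.2⟩
  have hρ : AEStronglyMeasurable (fun x => cut o R 1 x ^ 2 * f x) m :=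
    (hc.pow 2).aestronglyMeasurable.mul (IsL2OnBalls.aesm hf.1)
  have hρ0 : ∀ᵐ x ∂m, 0 ≤ cut o R 1 x ^ 2 * f x := hf0.mono fun x hx => mul_nonneg (sq_nonneg _) hx.1
  have hμ₀ : BM m B o (R + 1) (wd m fun x => cut o R 1 x ^ 2 * f x) :=
    bm_wd hρ (hf0.mono fun x hx => ⟨mul_nonneg (sq_nonneg _) hx.1, by nlinarith [i2a_sq o R x, hx.1, hx.2]⟩)
      (Eventually.of_forall fun x hx => by rw [i2a_zero hx]; ring) h₀
  obtain ⟨P, hP⟩ := hG o (R + 1) (max B M) _ μ₁ (by linarith) (lt_max_of_lt_right h₁.pos)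
    (hμ₀.mono (le_max_left _ _) le_rfl) (h₁.mono (le_max_right _ _) le_rfl)
  have := hP.prob
  have hC := hP.cmpr
  have he' := hP.toOptGeo.pot_eq hp he
  have hT := (plan_of_geo hC hP.geo).2
  have hφ : SL m φ := hp.sl.1
  obtain ⟨hg, gg, -⟩ := gam_chain_Icc hI hf hφ (a := δ) (b := B) hfB Real.log (fun z => z⁻¹)
    (fun z hz => Real.hasDerivAt_log (hδ.trans_le hz.1).ne')
    (continuousOn_inv₀.mono fun z hz => (hδ.trans_le hz.1).ne')
  have h01 : (0 : ℝ) ∈ Icc (0 : ℝ) 1 := ⟨le_rfl, zero_le_one⟩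
  have eA : ∫ γ, Gam m φ (fun y => Real.log (f y)) (γ.ext 0) ∂P = ∫ x, cut o R 1 x ^ 2 * Gam m φ f x ∂m := by
    rw [← hC.integral_marg (gam_aesm _ _) h01, hP.m0, integral_wd hρ hρ0]
    refine integral_congr_ae ?_
    filter_upwards [gg, hφ.gam_comm hg, hφ.gam_comm hf, hfB] with x a1 a2 a3 hx
    have := (hδ.trans_le hx.1).ne'
    rw [a2, a1, a3]
    field_simp
  rw [i2a_leib hφ hf hf0]
  refine le_of_forall_pos_le_add fun η hη => ?_
  obtain ⟨V, hV⟩ : ∃ V : ℝ, V = B * m.real (closedBall o (3 * (R + 1))) := ⟨_, rfl⟩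
  have ev1 := hv hC hp hP.geo he' hg (η := η / 3) (by positivity)
  have ev2 := hv_logcut hC hp hP.geo he' (i2a_lip o R) (fun x => ⟨cut_nonneg o R 1 x, cut_le_one o R 1 x⟩)
    (IsL2OnBalls.aesm hf.1) hf0 hP.m0 (η := η / 3) (by positivity)
  have ev3 : ∀ᶠ t in 𝓝[>] (0 : ℝ), (2 * (R + 1) + 1) ^ 2 * V * t < η / 3 := by
    have : Tendsto (fun t : ℝ => (2 * (R + 1) + 1) ^ 2 * V * t) (𝓝 0) (𝓝 ((2 * (R + 1) + 1) ^ 2 * V * 0)) :=
      (continuous_const.mul continuous_id).tendsto 0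
    rw [mul_zero] at this
    exact (this.mono_left nhdsWithin_le_nhds).eventually (gt_mem_nhds (by positivity))
  obtain ⟨t, ⟨a1, a2⟩, a3, ht0, ht1⟩ := ((ev1.and ev2).and (ev3.and (Ioo_mem_nhdsGT zero_lt_one))).exists
  have ht : t ∈ Icc (0 : ℝ) 1 := ⟨ht0.le, ht1.le⟩
  obtain ⟨e, hedef⟩ : ∃ e : ℝ, e = ((2 * (R + 1) + 1) * t) ^ 2 := ⟨_, rfl⟩
  have he0 : 0 < e := by
    rw [hedef]
    positivity
  rw [← hedef] at a2
  rw [eA] at a1
  have hl : Continuous fun x => Real.log (cut o R 1 x ^ 2 + e) :=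
    ((hc.pow 2).add continuous_const).log fun x => (add_pos_of_nonneg_of_pos (sq_nonneg _) he0).ne'
  have hψm : AEStronglyMeasurable (fun x => Real.log (cut o R 1 x ^ 2 + e) + Real.log (f x)) m :=
    hl.aestronglyMeasurable.add (IsL2OnBalls.aesm hg.1)
  have b1 := i2a_low hf hg hδ hfB h₀ (μ := marg P t) ⟨hP.toOptGeo.pb t, hC t ht⟩ he0
  have b2 := i2a_up hf hg hδ hfB hμ₀ he0
  have b3 := hP.ent t ht
  rw [hC.integral_marg hψm ht, ← hV] at b1
  nth_rewrite 2 [← hP.m0] at b2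
  rw [hC.integral_marg hψm h01] at b2
  have j1 := fun s (hs : s ∈ Icc (0 : ℝ) 1) => hC.integrable hT (IsL2OnBalls.integrableOn (l2b_of_continuous hl) o _) hs
  have j2 := fun s (hs : s ∈ Icc (0 : ℝ) 1) => hC.integrable hT (IsL2OnBalls.integrableOn hg.1 o _) hs
  rw [integral_add (j1 t ht) (j2 t ht)] at b1
  rw [integral_add (j1 0 h01) (j2 0 h01)] at b2
  rw [integral_sub (j2 t ht) (j2 0 h01), le_div_iff₀ ht0] at a1
  rw [integral_sub (j1 t ht) (j1 0 h01), le_div_iff₀ ht0] at a2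
  have hW := W2_nonneg (wd m fun x => cut o R 1 x ^ 2 * f x) μ₁
  have c1 : e * V ≤ η / 3 * t := by
    have : e * V = (2 * (R + 1) + 1) ^ 2 * V * t * t := by
      rw [hedef]
      ring
    rw [this]
    exact mul_le_mul_of_nonneg_right a3.le ht0.le
  have c2 : κ / 2 * (t * (1 - t)) * W2 (wd m fun x => cut o R 1 x ^ 2 * f x) μ₁ ≤
      κ / 2 * W2 (wd m fun x => cut o R 1 x ^ 2 * f x) μ₁ * t := by
    nlinarith [mul_nonneg (mul_nonneg hκ hW) (sq_nonneg t)]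
  refine le_of_mul_le_mul_right ?_ ht0
  linarith

theorem i2b_bm (hR : 0 ≤ R) {f : X → ℝ} (hf : SL m f) {δ B : ℝ} (hδ : 0 < δ)
    (hfB : ∀ᵐ x ∂m, δ ≤ f x ∧ f x ≤ B) (h₀ : ∫ x, cut o R 1 x ^ 2 * f x ∂m = 1) :
    BM m (max B 0) o (R + 1) (wd m fun x => cut o R 1 x ^ 2 * f x) := by
  have hc : Continuous (cut o R 1) := (cut_lip o R one_pos).continuous
  refine bm_wd ((hc.pow 2).aestronglyMeasurable.mul (IsL2OnBalls.aesm hf.1)) ?_ ?_ h₀
  · filter_upwards [hfB] with x hx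
    have h0 := cut_nonneg o R 1 x
    have h1 := cut_le_one o R 1 x
    have hf0 : 0 ≤ f x := hδ.le.trans hx.1
    refine ⟨mul_nonneg (sq_nonneg _) hf0, ?_⟩
    calc cut o R 1 x ^ 2 * f x ≤ 1 * f x := mul_le_mul_of_nonneg_right (pow_le_one₀ h0 h1) hf0
      _ ≤ max B 0 := by rw [one_mul]; exact hx.2.trans (le_max_left _ _)
  · refine Eventually.of_forall fun x hx => ?_
    rw [cut_eq_zero one_pos (not_le.1 hx).le]
    simp

theorem key (hG : HasGood m κ) (hκ : 0 ≤ κ) (hR : 0 ≤ R) {f g : X → ℝ} (hf : SL m f) (hg : SL m g)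
    {δ B : ℝ} (hδ : 0 < δ) (hfB : ∀ᵐ x ∂m, δ ≤ f x ∧ f x ≤ B) (hgB : ∀ᵐ x ∂m, δ ≤ g x ∧ g x ≤ B)
    (h₀ : ∫ x, cut o R 1 x ^ 2 * f x ∂m = 1) (h₁ : ∫ x, cut o R 1 x ^ 2 * g x ∂m = 1)
    (hp : IsPot (closedBall o (R + 1)) φ ψ)
    (he : ∫ x, φ x ∂(wd m fun x => cut o R 1 x ^ 2 * f x) +
        ∫ y, ψ y ∂(wd m fun x => cut o R 1 x ^ 2 * g x) =
      W2 (wd m fun x => cut o R 1 x ^ 2 * f x) (wd m fun x => cut o R 1 x ^ 2 * g x) / 2) :
    -(∫ x, Gam m φ (fun y => cut o R 1 y ^ 2 * f y) x ∂m) -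
        ∫ x, Gam m ψ (fun y => cut o R 1 y ^ 2 * g y) x ∂m ≤
      κ * W2 (wd m fun x => cut o R 1 x ^ 2 * f x) (wd m fun x => cut o R 1 x ^ 2 * g x) := by
  have hf1 := key_one hG hκ hR hf hδ hfB h₀ (i2b_bm hR hg hδ hgB h₁) hp he
  have hg1 := key_one hG hκ hR hg hδ hgB h₁ (i2b_bm hR hf hδ hfB h₀) hp.symm
    (by rw [W2_symm, ← he, add_comm])
  rw [W2_symm (wd m fun x => cut o R 1 x ^ 2 * g x)] at hg1
  linarith

end Crest.Agent.R242
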