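import Crest.Agent.R242.E6
import Crest.Agent.R242.G4

/-! Block J1: the truncated heat flow `jm s = χ² (P_s ρ + δ)/Z_s · m`, `χ = cut o R 1`.
`jZ_near`: `Z_s ≤ ∫ P_s ρ + δ m(closedBall o (R+1)) ≤ 1 + δ m(…)` (`heat_integrable`), and
`Z_s ≥ ∫_{ball o R} P_s ρ ≥ 1 - tail` (`mass_tail` with `r₁ = r`, `r₂ = R`, `a = |C| + 1`, `ExpGrowth`).
`j_deriv`: with `u = P_s ρ`, `d = (∫ φ χ² lap)/Z - (Z'/Z) ∫ φ d(jm s)`, `Z' = ∫ χ² lap = -∫ Γ(u, χ²)`;
`φ χ² ∈ W` (`gam_mul_bg`, `SL.sw_of_ball`), `∫ φχ² lap = -∫ Γ(u, φχ²)` and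
`-Γ(u, φχ²) = -Γ(φ, χ²(u+δ)) + (u+δ)Γ(φ,χ²) - φΓ(χ²,u)`.  `D(χ²) ≤ 2` on the annulus
`A = closedBall o (R+1) \ ball o R` and `0` elsewhere (locality).  So
`d ≤ -∫ Γ(φ, χ² jf) + 8(R+1)∫_A (u+δ) + 32(R+1)²∫_A Du`, and `∫_A v ≤ (β/2) m(A) + (1/(2β))∫_A v²`.
`jm_cont`: `s ↦ χ² jf s` is continuous in `L¹` on `[0,t]` (`heat_cont`), `W2_tv` in both directions. -/

set_option autoImplicit false
set_option linter.unusedSectionVars false
set_option linter.unusedVariables false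
open MeasureTheory Filter Set Metric
open scoped ENNReal NNReal Topology
open Crest.GeometryTopology.SyntheticRicci

noncomputable section
namespace Crest.Agent.R242

variable {X : Type*} [MetricSpace X] [MeasurableSpace X] [BorelSpace X] [ProperSpace X]
  {m : Measure X} [IsFiniteMeasureOnCompacts m] [m.IsOpenPosMeasure] [DS m m]

/-- Normalisation. -/
def jZ (m : Measure X) [IsFiniteMeasureOnCompacts m] [m.IsOpenPosMeasure] [DS m m] (o : X)
    (R δ : ℝ) (ρ : X → ℝ) (s : ℝ) : ℝ :=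
  ∫ x, cut o R 1 x ^ 2 * (heat m m s ρ x + δ) ∂m

/-- Normalised flow. -/
def jf (m : Measure X) [IsFiniteMeasureOnCompacts m] [m.IsOpenPosMeasure] [DS m m] (o : X)
    (R δ : ℝ) (ρ : X → ℝ) (s : ℝ) (x : X) : ℝ :=
  (heat m m s ρ x + δ) / jZ m o R δ ρ s

/-- Truncated measure. -/
def jm (m : Measure X) [IsFiniteMeasureOnCompacts m] [m.IsOpenPosMeasure] [DS m m] (o : X)
    (R δ : ℝ) (ρ : X → ℝ) (s : ℝ) : Measure X :=
  wd m fun x => cut o R 1 x ^ 2 * jf m o R δ ρ s x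

/-- Error term. -/
def je (m : Measure X) [IsFiniteMeasureOnCompacts m] [m.IsOpenPosMeasure] [DS m m] (o : X)
    (R δ β : ℝ) (ρ : X → ℝ) (s : ℝ) : ℝ :=
  32 * (R + 1) ^ 2 * ((δ + β) * m.real (closedBall o (R + 1)) + 1 / (2 * β) *
    (∫ x in (ball o R)ᶜ, heat m m s ρ x ^ 2 ∂m +
      ∫ x in (ball o R)ᶜ, Gam m (heat m m s ρ) (heat m m s ρ) x ∂m))

variable {M r R δ β s t : ℝ} {o : X} {μ₀ μ₁ : Measure X}

theorem jZ_near (hE : ExpGrowth m) (h₀ : BM m M o r μ₀) (ht : 0 ≤ t) {ε : ℝ} (hε : 0 < ε) :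
    ∀ᶠ R in atTop, ∀ᶠ δ in 𝓝[>] (0 : ℝ), ∀ s ∈ Icc 0 t, |jZ m o R δ (dens m μ₀) s - 1| ≤ ε := by
  obtain ⟨C, hC⟩ := hE o
  have hp := h₀.1.1
  have h2 := h₀.memLp
  have hi : Integrable (dens m μ₀) m := dens_integrable μ₀
  have h0 : ∀ᵐ x ∂m, 0 ≤ dens m μ₀ x := Eventually.of_forall (dens_nonneg μ₀)
  have hT : Tendsto (fun R : ℝ => 2 * (√t * Real.exp (|C| / 2 + 2 * (|C| + 1) ^ 2 * t + (|C| + 1) * r / 2 +
      -(R / 2))) * √(nsq m (dens m μ₀))) atTop (𝓝 (2 * (√t * 0) * √(nsq m (dens m μ₀)))) :=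
    (((Real.tendsto_exp_atBot.comp (tendsto_atBot_add_const_left _ _ (tendsto_neg_atTop_atBot.comp
      (tendsto_id.atTop_div_const two_pos)))).const_mul _).const_mul _).mul_const _
  rw [mul_zero, mul_zero, zero_mul] at hT
  filter_upwards [hT.eventually_le_const hε, eventually_ge_atTop 0, eventually_ge_atTop (r + 1)]
    with R hR hR0 hR1
  have hD : Tendsto (fun δ : ℝ => m.real (closedBall o (R + 1)) * δ) (𝓝[>] 0)
      (𝓝 (m.real (closedBall o (R + 1)) * 0)) :=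
    (Continuous.tendsto (by fun_prop) 0).mono_left nhdsWithin_le_nhds
  rw [mul_zero] at hD
  filter_upwards [hD.eventually_le_const hε, self_mem_nhdsWithin] with δ hδ (hδ0 : 0 < δ) s hs
  obtain ⟨hu, hu1⟩ := heat_integrable (μ := m) h2 hi hs.1
  have hB : Integrable ((closedBall o (R + 1)).indicator fun _ => δ) m :=
    (integrableOn_const (isCompact_closedBall o (R + 1)).measure_lt_top.ne).integrable_indicator
      measurableSet_closedBall
  have hdom : ∀ x, ‖cut o R 1 x ^ 2 * (heat m m s (dens m μ₀) x + δ)‖ ≤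
      |heat m m s (dens m μ₀) x| + (closedBall o (R + 1)).indicator (fun _ => δ) x := fun x => by
    by_cases hx : x ∈ closedBall o (R + 1)
    · rw [indicator_of_mem hx, norm_mul, Real.norm_of_nonneg (sq_nonneg _)]
      refine (mul_le_of_le_one_left (norm_nonneg _)
        (pow_le_one₀ (cut_nonneg _ _ _ _) (cut_le_one _ _ _ _))).trans ((abs_add_le _ _).trans_eq ?_)
      rw [abs_of_pos hδ0]
    · rw [indicator_of_notMem hx, cut_eq_zero one_pos (not_le.1 hx).le]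
      simp
  have hI : Integrable (fun x => cut o R 1 x ^ 2 * (heat m m s (dens m μ₀) x + δ)) m :=
    (hu.abs.add hB).mono' ((((cut_lip o R one_pos).continuous.measurable.pow_const 2).mul
      ((heat_meas s _).add_const δ)).aestronglyMeasurable) (Eventually.of_forall hdom)
  have up : jZ m o R δ (dens m μ₀) s ≤ 1 + m.real (closedBall o (R + 1)) * δ := by
    refine (integral_mono hI (hu.abs.add hB) fun x => (le_abs_self _).trans (hdom x)).trans ?_
    simp only [Pi.add_apply]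
    rw [integral_add hu.abs hB, integral_indicator measurableSet_closedBall, setIntegral_const,
      smul_eq_mul]
    simp only [abs_of_nonneg (dens_nonneg μ₀ _), h₀.integral_dens_eq] at hu1
    linarith
  have lo : ∫ y in ball o R, heat m m s (dens m μ₀) y ∂m ≤ jZ m o R δ (dens m μ₀) s := by
    rw [← integral_indicator measurableSet_ball]
    refine integral_mono_ae (hu.indicator measurableSet_ball) hI ?_
    filter_upwards [heat_nonneg (μ := m) h2 hs.1 h0] with x hx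
    by_cases h : x ∈ ball o R
    · rw [indicator_of_mem h, cut_eq_one one_pos (mem_ball.1 h).le]
      linarith
    · rw [indicator_of_notMem h]
      positivity
  have tail := mass_tail (μ := m) h2 hi h0 h₀.1.dens_zero (r₂ := R) (a := |C| + 1) (by linarith)
    (by positivity) hs.1
  rw [h₀.integral_dens_eq] at tail
  have hV : √(s * m.real (closedBall o R)) ≤ √t * Real.exp (|C| * (R + 1) / 2) := by
    rw [Real.sqrt_mul hs.1, Real.exp_half]
    gcongr
    · exact hs.2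
    · refine (ENNReal.toReal_le_of_le_ofReal (Real.exp_pos _).le (hC R hR0)).trans ?_
      gcongr
      exact le_abs_self C
  have key : 2 / (R - r) * √(s * m.real (closedBall o R)) *
      Real.exp (2 * (|C| + 1) ^ 2 * s - (|C| + 1) * ((R - r) / 2)) * √(nsq m (dens m μ₀)) ≤ ε := by
    refine le_trans (mul_le_mul_of_nonneg_right ?_ (Real.sqrt_nonneg _)) hR
    calc _ ≤ 2 * (√t * Real.exp (|C| * (R + 1) / 2)) *
          Real.exp (2 * (|C| + 1) ^ 2 * t - (|C| + 1) * ((R - r) / 2)) := by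
          gcongr
          · exact div_le_self zero_le_two (by linarith)
          · exact hs.2
      _ = _ := by
          rw [mul_assoc, mul_assoc, ← Real.exp_add]
          congr 3
          ring
  exact abs_le.2 ⟨by linarith, by linarith⟩

theorem jf_props (h₀ : BM m M o r μ₀) (hδ : 0 < δ) (hs : 0 ≤ s)
    (hZ : 1 / 2 ≤ jZ m o R δ (dens m μ₀) s) :
    Measurable (jf m o R δ (dens m μ₀) s) ∧
      (∀ᵐ x ∂m, δ / jZ m o R δ (dens m μ₀) s ≤ jf m o R δ (dens m μ₀) s x ∧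
        jf m o R δ (dens m μ₀) s x ≤ 2 * (M + δ)) ∧
      ∫ x, cut o R 1 x ^ 2 * jf m o R δ (dens m μ₀) s x ∂m = 1 ∧
      BM m (2 * (M + δ)) o (R + 1) (jm m o R δ (dens m μ₀) s) ∧
      (0 < s → SL m (jf m o R δ (dens m μ₀) s)) := by
  have hp := h₀.1.1
  have hZ0 : 0 < jZ m o R δ (dens m μ₀) s := by linarith
  have hM := h₀.pos
  have h1 : Measurable (jf m o R δ (dens m μ₀) s) := ((heat_meas s _).add_const δ).div_const _
  have h2 : ∀ᵐ x ∂m, δ / jZ m o R δ (dens m μ₀) s ≤ jf m o R δ (dens m μ₀) s x ∧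
      jf m o R δ (dens m μ₀) s x ≤ 2 * (M + δ) := by
    filter_upwards [heat_mem_Icc (μ := m) h₀.memLp hM.le hs
      (h₀.dens_le.mono fun x hx => ⟨dens_nonneg μ₀ x, hx⟩)] with x hx
    refine ⟨div_le_div_of_nonneg_right (by linarith [hx.1]) hZ0.le, (div_le_iff₀ hZ0).2 ?_⟩
    nlinarith [hx.2]
  have h3 : ∫ x, cut o R 1 x ^ 2 * jf m o R δ (dens m μ₀) s x ∂m = 1 := by
    simp only [jf, ← mul_div_assoc, integral_div]
    exact div_self hZ0.ne'
  refine ⟨h1, h2, h3, bm_wd ((((cut_lip o R one_pos).continuous.measurable.pow_const 2).mul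
    h1).aestronglyMeasurable) ?_ (Eventually.of_forall fun x hx => ?_) h3, fun hs0 => ?_⟩
  · filter_upwards [h2] with x hx
    have h4 := (div_pos hδ hZ0).le.trans hx.1
    exact ⟨mul_nonneg (sq_nonneg _) h4, (mul_le_of_le_one_left h4
      (pow_le_one₀ (cut_nonneg _ _ _ _) (cut_le_one _ _ _ _))).trans hx.2⟩
  · rw [cut_eq_zero one_pos (not_le.1 hx).le, zero_pow two_ne_zero, zero_mul]
  · refine ((heat_sw (μ := m) h₀.memLp hs0).sl.affine (jZ m o R δ (dens m μ₀) s)⁻¹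
      (δ / jZ m o R δ (dens m μ₀) s)).1.congr (Eventually.of_forall fun x => ?_)
    simp only [jf]
    ring

theorem j1b_der {ρ g : X → ℝ} (hρ : MemLp ρ 2 m) (hs : 0 < s) (hg : SL m g)
    (h0 : ∀ x, x ∉ closedBall o R → g x = 0) (δ : ℝ) :
    SW m g ∧ Integrable (fun x => g x * (heat m m s ρ x + δ)) m ∧
      HasDerivAt (fun r => ∫ x, g x * (heat m m r ρ x + δ) ∂m) (-∫ x, Gam m (heat m m s ρ) g x ∂m) s := by
  have hw : SW m g := hg.sw_of_ball (ae_of_all _ h0)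
  have hi : Integrable g m :=
    (IsL2OnBalls.integrableOn hg.1 o R).integrable_of_ae_notMem_eq_zero (ae_of_all _ h0)
  have h1 : ∀ r, Integrable (fun x => g x * heat m m r ρ x) m := fun r =>
    hw.memLp.integrable_mul (heat_memLp r ρ)
  simp only [mul_add]
  refine ⟨hw, (h1 s).add (hi.mul_const δ), ?_⟩
  simp only [integral_add (h1 _) (hi.mul_const δ)]
  refine ((DerL2.hasDerivAt_integral_mul (a := fun _ => g) (fun _ => hw.memLp) (fun r => heat_memLp r ρ)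
    MemLp.zero' (lap_memLp s ρ) (DerL2.const g s _) (heat_derL2 hρ hs)).add_const _).congr_deriv ?_
  rw [(isLap_heat hρ hs).2.2 g hw]
  simp [mul_comm]

theorem j1b_pt {L c f g₁ g₂ e p q u δ β : ℝ} (hL : 1 ≤ L) (hc : |c| ≤ 4 * L ^ 2) (hf : |f| ≤ 4 * L ^ 2)
    (h₁ : |g₁| ≤ e * q) (h₂ : |g₂| ≤ e * p) (he : e ≤ 2) (hp0 : 0 ≤ p) (hp : p ≤ 2 * L) (hq : 0 ≤ q)
    (hu : 0 ≤ u) (hδ : 0 < δ) (hβ : 0 < β) :
    (c - f) * g₁ + (u + δ) * g₂ ≤ 16 * L ^ 2 * ((δ + β) * 1 + 1 / (2 * β) * (u ^ 2 + q ^ 2)) := by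
  have a1 : (c - f) * g₁ ≤ 8 * L ^ 2 * (2 * q) := by
    refine (le_abs_self _).trans ((abs_mul _ _).trans_le (mul_le_mul ((abs_sub _ _).trans (by linarith))
      (h₁.trans (mul_le_mul_of_nonneg_right he hq)) (abs_nonneg _) (by positivity)))
  have a2 : g₂ ≤ 16 * L ^ 2 := by
    nlinarith [le_abs_self g₂, mul_le_mul_of_nonneg_right he hp0]
  have a3 : u + q ≤ β + 1 / (2 * β) * (u ^ 2 + q ^ 2) := by
    rw [← sub_le_iff_le_add', one_div, inv_mul_eq_div, le_div_iff₀ (by positivity)]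
    nlinarith [sq_nonneg (u - β), sq_nonneg (q - β)]
  nlinarith [mul_le_mul_of_nonneg_left a2 (show 0 ≤ u + δ by positivity),
    mul_le_mul_of_nonneg_left a3 (show 0 ≤ 16 * L ^ 2 by positivity)]

theorem j1b_eta (o : X) (R : ℝ) : SL m (fun x => cut o R 1 x ^ 2) ∧ BG m (fun x => cut o R 1 x ^ 2) ∧
    ∀ᵐ x ∂m, Dw m (fun x => cut o R 1 x ^ 2) x ≤ 2 ∧
      (x ∈ ball o R ∨ x ∉ closedBall o (R + 1) → Dw m (fun x => cut o R 1 x ^ 2) x = 0) := by
  have hl : LipschitzWith 2 fun x => cut o R 1 x ^ 2 := LipschitzWith.of_dist_le_mul fun x y => by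
    have h1 := (cut_lip o R one_pos).dist_le_mul x y
    simp only [div_one, Real.toNNReal_one, NNReal.coe_one, one_mul, Real.dist_eq] at h1
    rw [Real.dist_eq, sq_sub_sq, abs_mul]
    refine mul_le_mul (abs_le.2 ⟨?_, ?_⟩) h1 (abs_nonneg _) (by norm_num) <;> push_cast <;>
      linarith [cut_nonneg o R 1 x, cut_nonneg o R 1 y, cut_le_one o R 1 x, cut_le_one o R 1 y]
  obtain ⟨h1, h2⟩ := sl_of_lip (m := m) hl
  refine ⟨h1, ⟨⟨1, ae_of_all _ fun x => ?_⟩, 2, h2⟩, ?_⟩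
  · rw [abs_of_nonneg (sq_nonneg _)]
    exact pow_le_one₀ (cut_nonneg _ _ _ _) (cut_le_one _ _ _ _)
  · filter_upwards [h2, h1.Dw_eq_zero, h1.Dw_local (sl_const 1).1, (sl_const (m := m) 1).2]
      with x a1 a2 a3 a4
    refine ⟨a1, ?_⟩
    rintro (hx | hx)
    · rw [a3 (by rw [cut_eq_one one_pos (mem_ball.1 hx).le, one_pow]), a4]
    · exact a2 (by rw [cut_eq_zero one_pos (not_le.1 hx).le, zero_pow two_ne_zero])

theorem j_deriv (h₀ : BM m M o r μ₀) (hR : 0 ≤ R) (hδ : 0 < δ) (hβ : 0 < β) (hs : 0 < s)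
    (hZ : 1 / 2 ≤ jZ m o R δ (dens m μ₀) s) {φ : X → ℝ} (hφ : SL m φ) (hc : Continuous φ)
    (hA : ∀ x ∈ closedBall o (R + 1), |φ x| ≤ 4 * (R + 1) ^ 2)
    (hL : ∀ᵐ x ∂m, x ∈ closedBall o (R + 1) → Dw m φ x ≤ 2 * (R + 1)) :
    ∃ d : ℝ, HasDerivAt (fun s' => ∫ x, φ x ∂(jm m o R δ (dens m μ₀) s')) d s ∧
      d ≤ -(∫ x, Gam m φ (fun y => cut o R 1 y ^ 2 * jf m o R δ (dens m μ₀) s y) x ∂m) +
        je m o R δ β (dens m μ₀) s := by
  have hI : IsInfHilbertian m := DS.hilb m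
  have hρ := h₀.memLp
  have hj := (jf_props h₀ hδ hs.le hZ).2.2.2.2 hs
  have hpos : ∀ r, 0 ≤ r → ∀ᵐ x ∂m, 0 ≤ heat m m r (dens m μ₀) x := fun r hr =>
    heat_nonneg hρ hr (ae_of_all _ (dens_nonneg μ₀))
  generalize dens m μ₀ = ρ at *
  have hu : SW m (heat m m s ρ) := heat_sw hρ hs
  obtain ⟨e1, e2, e3⟩ := j1b_eta (m := m) o R
  have e0 : ∀ x, x ∉ closedBall o (R + 1) → cut o R 1 x ^ 2 = 0 := fun x hx => by
    rw [cut_eq_zero one_pos (not_le.1 hx).le, zero_pow two_ne_zero]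
  obtain ⟨z1, z2, z3⟩ := j1b_der hρ hs e1 e0 δ
  obtain ⟨w0, w1, -⟩ := gam_mul_bg hI e1 e2 hφ hu.sl
  obtain ⟨n1, -, n3⟩ := j1b_der hρ hs w0 (fun x hx => by rw [e0 x hx, zero_mul]) δ
  obtain ⟨v0, v1, -⟩ := gam_mul_bg hI e1 e2 hj hφ
  change HasDerivAt (jZ m o R δ ρ) _ s at z3
  have hZ0 : 0 < jZ m o R δ ρ s := by linarith
  refine ⟨_, (n3.fun_div z3 hZ0.ne').congr_of_eventuallyEq ?_, ?_⟩
  · filter_upwards [lt_mem_nhds hs, z3.continuousAt.eventually (lt_mem_nhds hZ0)] with r hr hr'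
    rw [jm, integral_wd (ρ := fun x => cut o R 1 x ^ 2 * jf m o R δ ρ r x)
      (((cut_lip o R one_pos).continuous.pow 2).aestronglyMeasurable.mul
      (((heat_meas (m := m) (μ := m) r ρ).add_const δ).div_const _).aestronglyMeasurable)
      ((hpos r hr.le).mono fun x hx =>
        mul_nonneg (sq_nonneg _) (div_nonneg (by linarith) hr'.le)), ← integral_div]
    refine integral_congr_ae (ae_of_all _ fun x => ?_)
    simp only [jf]
    ring
  have hN : |∫ x, cut o R 1 x ^ 2 * φ x * (heat m m s ρ x + δ) ∂m| ≤ 4 * (R + 1) ^ 2 * jZ m o R δ ρ s := by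
    rw [jZ, ← integral_const_mul, ← Real.norm_eq_abs]
    refine norm_integral_le_of_norm_le (z2.const_mul _) ((hpos s hs.le).mono fun x hx => ?_)
    by_cases h : x ∈ closedBall o (R + 1)
    · rw [mul_comm _ (φ x), mul_assoc, Real.norm_eq_abs, abs_mul, abs_of_nonneg (a := _ * _) (by positivity)]
      exact mul_le_mul_of_nonneg_right (hA x h) (by positivity)
    · simp [e0 x h]
  rw [← div_le_iff₀ hZ0, ← abs_of_pos hZ0, ← abs_div] at hN
  have i1 := SW.integrable_gam hI hu n1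
  have i2 := SW.integrable_gam hI hu z1
  have i3 : Integrable (Gam m φ fun y => cut o R 1 y ^ 2 * jf m o R δ ρ s y) m := by
    refine (gam_integrableOn _ _ o (R + 1)).integrable_of_ae_notMem_eq_zero ?_
    filter_upwards [abs_gam_le hI hφ v0, v0.Dw_eq_zero] with x a1 a2 hx
    rwa [a2 (by rw [e0 x hx, zero_mul]), mul_zero, abs_nonpos_iff] at a1
  have hK : MeasurableSet (closedBall o (R + 1)) := measurableSet_closedBall
  have hB : MeasurableSet (ball o R)ᶜ := measurableSet_ball.compl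
  have i4 : Integrable ((closedBall o (R + 1)).indicator fun _ => (1 : ℝ)) m :=
    (integrable_indicator_iff hK).2 (integrableOn_const measure_closedBall_lt_top.ne)
  have i5 := hu.memLp.integrable_sq.indicator hB
  have i6 := (SW.integrable_gam hI hu hu).indicator hB
  have i7 := (i5.fun_add i6).const_mul (1 / (2 * β))
  have hJ : ∫ x, 16 * (R + 1) ^ 2 * ((δ + β) * (closedBall o (R + 1)).indicator (fun _ => (1 : ℝ)) x +
      1 / (2 * β) * ((ball o R)ᶜ.indicator (fun x => heat m m s ρ x ^ 2) x +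
        (ball o R)ᶜ.indicator (Gam m (heat m m s ρ) (heat m m s ρ)) x)) ∂m = je m o R δ β ρ s / 2 := by
    rw [integral_const_mul, integral_add (i4.const_mul _) i7, integral_const_mul, integral_const_mul,
      integral_add i5 i6, integral_indicator hK, integral_indicator hB, integral_indicator hB,
      setIntegral_const, smul_eq_mul, mul_one, je]
    ring
  have hJ0 : ∀ᵐ x ∂m, 0 ≤ 16 * (R + 1) ^ 2 *
      ((δ + β) * (closedBall o (R + 1)).indicator (fun _ => (1 : ℝ)) x +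
      1 / (2 * β) * ((ball o R)ᶜ.indicator (fun x => heat m m s ρ x ^ 2) x +
        (ball o R)ᶜ.indicator (Gam m (heat m m s ρ) (heat m m s ρ)) x)) :=
    hu.sl.gam_self.mono fun x hx => by
      have a1 : 0 ≤ (closedBall o (R + 1)).indicator (fun _ => (1 : ℝ)) x :=
        indicator_nonneg (fun _ _ => zero_le_one) x
      have a2 : 0 ≤ (ball o R)ᶜ.indicator (fun x => heat m m s ρ x ^ 2) x :=
        indicator_nonneg (fun _ _ => sq_nonneg _) x
      have a3 : 0 ≤ (ball o R)ᶜ.indicator (Gam m (heat m m s ρ) (heat m m s ρ)) x :=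
        indicator_apply_nonneg fun _ => hx ▸ sq_nonneg _
      positivity
  obtain ⟨c, hce⟩ : ∃ c, c = (∫ x, cut o R 1 x ^ 2 * φ x * (heat m m s ρ x + δ) ∂m) / jZ m o R δ ρ s :=
    ⟨_, rfl⟩
  rw [← hce] at hN
  have key := integral_mono_ae (((i2.const_mul c).sub' i1).fun_add (i3.const_mul (jZ m o R δ ρ s)))
    (((i4.const_mul (δ + β)).fun_add i7).const_mul (16 * (R + 1) ^ 2)) (by
      filter_upwards [hJ0, w1, v1, e3, hL, hpos s hs.le, hu.sl.gam_comm w0, hu.sl.gam_comm e1,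
        hφ.gam_comm v0, hφ.gam_comm hu.sl, abs_gam_le hI e1 hφ, abs_gam_le hI e1 hu.sl, hu.sl.gam_self,
        Dw_nonneg (m := m) φ, Dw_nonneg (m := m) (heat m m s ρ),
        gam_chain hI hu.sl hφ (fun z => (z + δ) / jZ m o R δ ρ s) (fun _ => 1 / jZ m o R δ ρ s)
          (fun z => ((hasDerivAt_id' z).add_const δ).div_const _) continuous_const fun _ => le_rfl]
        with x a0 a1 a2 a3 a4 a5 a6 a7 a8 a9 b1 b2 b3 b4 b5 b6
      change Gam m (jf m o R δ ρ s) φ x = _ at b6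
      have b7 : c * Gam m (heat m m s ρ) (fun x => cut o R 1 x ^ 2) x -
          Gam m (heat m m s ρ) (fun y => cut o R 1 y ^ 2 * φ y) x +
          jZ m o R δ ρ s * Gam m φ (fun y => cut o R 1 y ^ 2 * jf m o R δ ρ s y) x =
          (c - φ x) * Gam m (fun x => cut o R 1 x ^ 2) (heat m m s ρ) x +
            (heat m m s ρ x + δ) * Gam m (fun x => cut o R 1 x ^ 2) φ x := by
        rw [a6, a7, a8, a1, a2, b6, a9, jf]
        field_simp
        ring
      refine b7.trans_le ?_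
      by_cases hx : x ∈ ball o R ∨ x ∉ closedBall o (R + 1)
      · rw [a3.2 hx, zero_mul, abs_nonpos_iff] at b1 b2
        rwa [b1, b2, mul_zero, mul_zero, add_zero]
      · push Not at hx
        rw [indicator_of_mem hx.2, indicator_of_mem (mem_compl hx.1), indicator_of_mem (mem_compl hx.1), b3]
        exact j1b_pt (by linarith) hN (hA x hx.2) b2 b1 a3.1 b4 (a4 hx.2) b5 a5 hδ hβ)
  have k0 := integral_nonneg_of_ae hJ0
  rw [hJ] at key k0
  rw [integral_add ((i2.const_mul c).sub' i1) (i3.const_mul _), integral_sub (i2.const_mul c) i1,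
    integral_const_mul, integral_const_mul] at key
  rw [eq_div_iff hZ0.ne'] at hce
  rw [← hce, div_le_iff₀ (pow_pos hZ0 2)]
  nlinarith [mul_le_mul_of_nonneg_left key hZ0.le, mul_nonneg (mul_nonneg k0 hZ0.le) (sub_nonneg.2 hZ)]

theorem j1c_norm {ι : Type*} {l : Filter ι} {N : ι → X → ℝ} {N₀ : X → ℝ}
    (hN : ∀ i, Integrable (N i) m) (hN₀ : Integrable N₀ m) (h0 : ∫ x, N₀ x ∂m ≠ 0)
    (h : Tendsto (fun i => ∫ x, |N i x - N₀ x| ∂m) l (𝓝 0)) :
    Tendsto (fun i => ∫ x, N i x ∂m) l (𝓝 (∫ x, N₀ x ∂m)) ∧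
      Tendsto (fun i => ∫ x, |N i x / ∫ y, N i y ∂m - N₀ x / ∫ y, N₀ y ∂m| ∂m) l (𝓝 0) := by
  have hZ : Tendsto (fun i => ∫ x, N i x ∂m) l (𝓝 (∫ x, N₀ x ∂m)) := by
    rw [tendsto_iff_norm_sub_tendsto_zero]
    refine squeeze_zero (fun i => norm_nonneg _) (fun i => ?_) h
    rw [← integral_sub (hN i) hN₀]
    exact norm_integral_le_integral_norm _
  refine ⟨hZ, ?_⟩
  have h1 := hZ.inv₀ h0
  have h2 := (h1.abs.mul h).add
    ((h1.sub_const (∫ x, N₀ x ∂m)⁻¹).abs.mul_const (∫ x, |N₀ x| ∂m))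
  simp only [mul_zero, sub_self, abs_zero, zero_mul, add_zero] at h2
  refine squeeze_zero (fun i => integral_nonneg fun x => abs_nonneg _) (fun i => ?_) h2
  have hi : Integrable (fun x => |N i x - N₀ x|) m := ((hN i).sub hN₀).abs
  rw [← integral_const_mul, ← integral_const_mul, ← integral_add (hi.const_mul _)
    (hN₀.abs.const_mul _)]
  refine integral_mono (((hN i).div_const _).sub (hN₀.div_const _)).abs
    ((hi.const_mul _).add (hN₀.abs.const_mul _)) fun x => ?_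
  simp only [← abs_mul]
  refine le_trans (le_of_eq ?_) (abs_add_le _ _)
  congr 1
  ring

theorem j1c_chi (m : Measure X) [IsFiniteMeasureOnCompacts m] (o : X) (R : ℝ) (p : ℝ≥0∞) :
    MemLp (fun x => cut o R 1 x ^ 2) p m := by
  refine Continuous.memLp_of_hasCompactSupport ((cut_lip o R one_pos).continuous.pow 2) ?_
  simp only [sq]
  exact (cut_compact o R one_pos).mul_left

theorem j1c_int (o : X) (R δ s : ℝ) (ρ : X → ℝ) :
    Integrable (fun x => cut o R 1 x ^ 2 * (heat m m s ρ x + δ)) m := by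
  simp only [mul_add]
  exact ((j1c_chi m o R 2).integrable_mul (heat_memLp s ρ)).add
    ((memLp_one_iff_integrable.1 (j1c_chi m o R 1)).mul_const δ)

theorem j1c_props (h₀ : BM m M o r μ₀) (hδ : 0 < δ) (hs : 0 ≤ s)
    (hZ : 1 / 2 ≤ jZ m o R δ (dens m μ₀) s) :
    Integrable (fun x => cut o R 1 x ^ 2 * jf m o R δ (dens m μ₀) s x) m ∧
      (∀ᵐ x ∂m, 0 ≤ cut o R 1 x ^ 2 * jf m o R δ (dens m μ₀) s x) ∧
      PB o (R + 1) (wd m fun x => cut o R 1 x ^ 2 * jf m o R δ (dens m μ₀) s x) := by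
  obtain ⟨-, h2, h3, h4, -⟩ := jf_props h₀ hδ hs hZ
  refine ⟨integrable_of_integral_eq_one h3, ?_, h4.1⟩
  filter_upwards [h2] with x hx
  exact mul_nonneg (sq_nonneg _) (le_trans (div_nonneg hδ.le (by linarith)) hx.1)

theorem j1c_cont (h₀ : BM m M o r μ₀) {s₀ : ℝ} (hs₀ : 0 ≤ s₀)
    (hZ : 1 / 2 ≤ jZ m o R δ (dens m μ₀) s₀) :
    Tendsto (fun s => ∫ x, |cut o R 1 x ^ 2 * jf m o R δ (dens m μ₀) s x -
      cut o R 1 x ^ 2 * jf m o R δ (dens m μ₀) s₀ x| ∂m) (𝓝[Ici 0] s₀) (𝓝 0) := by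
  have h1 := (a5a_sqrt (heat_cont (μ := m) h₀.memLp hs₀)).const_mul
    (Real.sqrt (nsq m fun x => cut o R 1 x ^ 2))
  rw [mul_zero] at h1
  have h2 := (j1c_norm (l := 𝓝[Ici 0] s₀) (fun s => j1c_int o R δ s (dens m μ₀))
    (j1c_int o R δ s₀ (dens m μ₀)) (by
      change jZ m o R δ (dens m μ₀) s₀ ≠ 0
      linarith) (squeeze_zero (fun s => integral_nonneg fun x => abs_nonneg _) (fun s => ?_) h1)).2
  · simpa only [jf, jZ, mul_div_assoc] using h2
  · have h3 := abs_integral_mul_le (j1c_chi m o R 2)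
      ((heat_memLp (μ := m) s (dens m μ₀)).sub (heat_memLp (μ := m) s₀ (dens m μ₀))).abs
    refine le_trans (le_of_eq ?_) ((le_abs_self _).trans (h3.trans (le_of_eq ?_)))
    · congr 1
      funext x
      rw [← mul_sub, abs_mul, abs_of_nonneg (sq_nonneg _), add_sub_add_right_eq_sub]
      rfl
    · simp only [nsq, Pi.abs_apply, sq_abs, Pi.sub_apply]

theorem jm_cont (h₀ : BM m M o r μ₀) (h₁ : BM m M o r μ₁) (hδ : 0 < δ)
    (hZ : ∀ s ∈ Icc 0 t, 1 / 2 ≤ jZ m o R δ (dens m μ₀) s ∧ 1 / 2 ≤ jZ m o R δ (dens m μ₁) s) :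
    ContinuousOn (fun s => W2 (jm m o R δ (dens m μ₀) s) (jm m o R δ (dens m μ₁) s)) (Icc 0 t) := by
  intro s₀ hs₀
  have h1 := (((j1c_cont h₀ hs₀.1 (hZ s₀ hs₀).1).add (j1c_cont h₁ hs₀.1 (hZ s₀ hs₀).2)).const_mul
    (8 * (R + 1) ^ 2)).mono_left (nhdsWithin_mono s₀ (Icc_subset_Ici_self : Icc 0 t ⊆ Ici 0))
  simp only [add_zero, mul_zero] at h1
  rw [ContinuousWithinAt, tendsto_iff_norm_sub_tendsto_zero]
  refine squeeze_zero' (Eventually.of_forall fun s => norm_nonneg _) ?_ h1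
  filter_upwards [self_mem_nhdsWithin] with s hs
  obtain ⟨a1, a2, a3⟩ := j1c_props h₀ hδ hs.1 (hZ s hs).1
  obtain ⟨b1, b2, b3⟩ := j1c_props h₁ hδ hs.1 (hZ s hs).2
  obtain ⟨c1, c2, c3⟩ := j1c_props h₀ hδ hs₀.1 (hZ s₀ hs₀).1
  obtain ⟨d1, d2, d3⟩ := j1c_props h₁ hδ hs₀.1 (hZ s₀ hs₀).2
  have e1 := W2_tv a1 b1 c1 d1 a2 b2 c2 d2 a3 b3 c3 d3
  have e2 := W2_tv c1 d1 a1 b1 c2 d2 a2 b2 c3 d3 a3 b3
  simp only [abs_sub_comm (cut o R 1 _ ^ 2 * jf m o R δ _ s₀ _)] at e2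
  rw [Real.norm_eq_abs, abs_le]
  simp only [jm]
  constructor <;> linarith

theorem je_cont (h₀ : BM m M o r μ₀) : ContinuousOn (je m o R δ β (dens m μ₀)) (Ioi 0) := by
  have h1 := (setIntegral_sq_heat_cont (μ := m) h₀.memLp (ball o R)ᶜ).mono Ioi_subset_Ici_self
  have h2 := setIntegral_gam_heat_cont (μ := m) h₀.memLp (ball o R)ᶜ
  exact continuousOn_const.mul (continuousOn_const.add (continuousOn_const.mul (h1.add h2)))

/-- `dg_tail`, `dg_tail_grad`, `BM.nsq_le`. -/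
theorem je_integral_le (h₀ : BM m M o r μ₀) (hr : r ≤ R) (hδ : 0 < δ) (hβ : 0 < β) {a s₀ : ℝ}
    (ha : 0 ≤ a) (hs₀ : 0 < s₀) (ht : s₀ ≤ t) :
    (∀ s, 0 < s → 0 ≤ je m o R δ β (dens m μ₀) s) ∧
    ∫ s in s₀..t, je m o R δ β (dens m μ₀) s ≤
      32 * (R + 1) ^ 2 * (t * (δ + β) * m.real (closedBall o (R + 1)) +
        (t + 1) / (2 * β) * Real.exp (4 * a ^ 2 * t - 2 * a * (R - r)) * M) := by
  have hg := h₀.memLp
  have hz := PB.dens_zero (m := m) h₀.1
  have hM := h₀.pos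
  have hB : 0 ≤ m.real (closedBall o (R + 1)) := measureReal_nonneg
  have hsub : uIcc s₀ t ⊆ Ioi 0 := by
    rw [uIcc_of_le ht]; exact fun u hu => hs₀.trans_le hu.1
  refine ⟨fun s hs => ?_, ?_⟩
  · have h1 : 0 ≤ ∫ x in (ball o R)ᶜ, heat m m s (dens m μ₀) x ^ 2 ∂m :=
      integral_nonneg fun x => sq_nonneg _
    have h2 : 0 ≤ ∫ x in (ball o R)ᶜ,
        Gam m (heat m m s (dens m μ₀)) (heat m m s (dens m μ₀)) x ∂m := by
      refine integral_nonneg_of_ae (ae_restrict_of_ae ?_)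
      filter_upwards [(heat_sw (μ := m) hg hs).sl.gam_self] with x hx
      rw [hx]; exact sq_nonneg _
    unfold je
    positivity
  · have c1 := ((setIntegral_sq_heat_cont (μ := m) hg (ball o R)ᶜ).mono
      (hsub.trans Ioi_subset_Ici_self)).intervalIntegrable (μ := volume)
    have c2 := ((setIntegral_gam_heat_cont (μ := m) hg (ball o R)ᶜ).mono hsub).intervalIntegrable
      (μ := volume)
    set E := Real.exp (4 * a ^ 2 * t - 2 * a * (R - r)) with hE
    have hE0 : 0 < E := Real.exp_pos _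
    have hn := h₀.nsq_le
    have e1 : ∫ s in s₀..t, ∫ x in (ball o R)ᶜ, heat m m s (dens m μ₀) x ^ 2 ∂m ≤ t * (E * M) := by
      have : ∫ s in s₀..t, ∫ x in (ball o R)ᶜ, heat m m s (dens m μ₀) x ^ 2 ∂m ≤
          ∫ s in s₀..t, E * M := by
        refine intervalIntegral.integral_mono_on ht c1 intervalIntegrable_const fun s hs => ?_
        refine (dg_tail (μ := m) hg hz hr ha (hs₀.le.trans hs.1)).trans ?_
        refine mul_le_mul (Real.exp_le_exp.2 ?_) hn (nsq_nonneg _) hE0.le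
        have := mul_le_mul_of_nonneg_left hs.2 (by positivity : 0 ≤ 4 * a ^ 2)
        linarith
      rw [intervalIntegral.integral_const, smul_eq_mul] at this
      refine this.trans (mul_le_mul_of_nonneg_right (by linarith) (by positivity))
    have e2 := (dg_tail_grad (μ := m) hg hz hr ha hs₀ ht).trans
      (mul_le_mul_of_nonneg_left hn hE0.le)
    unfold je
    rw [intervalIntegral.integral_const_mul, intervalIntegral.integral_add intervalIntegrable_const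
      ((c1.add c2).const_mul _), intervalIntegral.integral_const, smul_eq_mul,
      intervalIntegral.integral_const_mul, intervalIntegral.integral_add c1 c2]
    refine mul_le_mul_of_nonneg_left (add_le_add ?_ ?_) (by positivity)
    · rw [mul_assoc t]
      exact mul_le_mul_of_nonneg_right (by linarith) (by positivity)
    · have h3 := mul_le_mul_of_nonneg_left (add_le_add e1 e2) (by positivity : 0 ≤ 1 / (2 * β))
      refine h3.trans_eq ?_
      ring

theorem j1c_zero (h₀ : BM m M o r μ₀) (hr : r ≤ R) :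
    (∀ᶠ δ in 𝓝[>] (0 : ℝ), 1 / 2 ≤ jZ m o R δ (dens m μ₀) 0) ∧
    Tendsto (fun δ => ∫ x, |cut o R 1 x ^ 2 * jf m o R δ (dens m μ₀) 0 x - dens m μ₀ x| ∂m)
      (𝓝[>] 0) (𝓝 0) := by
  have := h₀.1.1
  have h1 : Tendsto (fun δ : ℝ => |δ| * ∫ x, cut o R 1 x ^ 2 ∂m) (𝓝[>] 0) (𝓝 0) := by
    have h : Continuous fun δ : ℝ => |δ| * ∫ x, cut o R 1 x ^ 2 ∂m := by fun_prop
    simpa using (h.tendsto 0).mono_left nhdsWithin_le_nhds
  obtain ⟨h2, h3⟩ := j1c_norm (l := 𝓝[>] (0 : ℝ)) (fun δ => j1c_int o R δ 0 (dens m μ₀))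
    (dens_integrable μ₀) (by rw [h₀.integral_dens_eq]; exact one_ne_zero) (h1.congr fun δ => by
      rw [← integral_const_mul]
      refine integral_congr_ae ?_
      filter_upwards [heat_zero (μ := m) h₀.memLp, h₀.1.dens_zero (m := m)] with x hx hx0
      rw [hx]
      by_cases hb : x ∈ closedBall o r
      · rw [cut_eq_one one_pos ((mem_closedBall.1 hb).trans hr)]
        simp
      · rw [hx0 hb, zero_add, sub_zero, abs_mul, abs_of_nonneg (sq_nonneg (cut o R 1 x)), mul_comm])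
  rw [h₀.integral_dens_eq] at h2 h3
  refine ⟨h2.eventually (eventually_ge_nhds (by norm_num)), ?_⟩
  simpa only [jf, jZ, mul_div_assoc, div_one] using h3

/-- At time `0`, as `δ → 0` (`heat_zero`, `W2_tv`; `χ = 1` on the support). -/
theorem jm_zero (h₀ : BM m M o r μ₀) (h₁ : BM m M o r μ₁) (hr : r ≤ R) {ε : ℝ} (hε : 0 < ε) :
    ∀ᶠ δ in 𝓝[>] (0 : ℝ),
      W2 (jm m o R δ (dens m μ₀) 0) (jm m o R δ (dens m μ₁) 0) ≤ W2 μ₀ μ₁ + ε := by
  have := h₀.1.1
  have := h₁.1.1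
  obtain ⟨z₀, t₀⟩ := j1c_zero h₀ hr
  obtain ⟨z₁, t₁⟩ := j1c_zero h₁ hr
  have h1 := (t₀.add t₁).const_mul (8 * (R + 1) ^ 2)
  simp only [add_zero, mul_zero] at h1
  filter_upwards [z₀, z₁, h1.eventually (eventually_le_nhds hε), self_mem_nhdsWithin] with
    δ z₀ z₁ h2 hδ
  obtain ⟨a1, a2, a3⟩ := j1c_props h₀ hδ le_rfl z₀
  obtain ⟨b1, b2, b3⟩ := j1c_props h₁ hδ le_rfl z₁
  have e₀ := wd_dens h₀.ac
  have e₁ := wd_dens h₁.ac
  have e1 := W2_tv a1 b1 (dens_integrable μ₀) (dens_integrable μ₁) a2 b2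
    (Eventually.of_forall (dens_nonneg μ₀)) (Eventually.of_forall (dens_nonneg μ₁)) a3 b3
    (by rw [e₀]; exact h₀.1.mono (by linarith)) (by rw [e₁]; exact h₁.1.mono (by linarith))
  rw [e₀, e₁] at e1
  simp only [jm]
  linarith

end Crest.Agent.R242
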