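import Crest.Agent.R242.J1
import Crest.Agent.R242.I2
import Crest.Agent.R242.A3

/-! Block J2: contraction of the transport cost along the heat flow.
`j_dini`: potentials `φ, ψ` for the pair at time `s` (`exists_pot` on `closedBall o (R+1)`), `dual_le` at time
`s - k`, `j_deriv` for `φ` and `ψ` (`IsPot.sl`, `IsPot.bound`, `IsPot.symm`), `key`.
`j_step`: `dini_left` on `[s₀,t]` with `c = 2κ`, `je_integral_le`, `s₀ → 0` by `jm_cont`.
`contraction`: `a = |C| + 1` (`ExpGrowth`), `β = exp (-a (R - r))`; choose `R` large (also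
`R ≥ dist o' o + R₀`), then `δ ≤ 1/2` small (`jZ_near`, `jm_zero`); `νᵢ = jm t`, `exists_coupling_le`; on
`closedBall o' R₀`, `χ = 1` and `|(u + δ)/Z - u| ≤ 2(M |1 - Z| + δ)`. -/

set_option autoImplicit false
set_option linter.unusedSectionVars false
set_option linter.unusedVariables false
open MeasureTheory Filter Set Metric
open scoped ENNReal NNReal Topology
open Crest.GeometryTopology.SyntheticRicci

noncomputable section
namespace Crest.Agent.R242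

variable {X : Type*} [MetricSpace X] [MeasurableSpace X] [BorelSpace X] [ProperSpace X]
  {m : Measure X} [IsFiniteMeasureOnCompacts m] [m.IsOpenPosMeasure] [DS m m]

variable {κ M r R δ β t : ℝ} {o : X} {μ₀ μ₁ : Measure X}

theorem j_dini (hG : HasGood m κ) (hκ : 0 ≤ κ) (h₀ : BM m M o r μ₀) (h₁ : BM m M o r μ₁)
    (hR : 0 ≤ R) (hδ : 0 < δ) (hβ : 0 < β)
    (hZ : ∀ s ∈ Icc 0 t, 1 / 2 ≤ jZ m o R δ (dens m μ₀) s ∧ 1 / 2 ≤ jZ m o R δ (dens m μ₁) s)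
    {s : ℝ} (hs : s ∈ Ioc 0 t) {η : ℝ} (hη : 0 < η) :
    ∀ᶠ k in 𝓝[>] (0 : ℝ),
      W2 (jm m o R δ (dens m μ₀) s) (jm m o R δ (dens m μ₁) s) -
          W2 (jm m o R δ (dens m μ₀) (s - k)) (jm m o R δ (dens m μ₁) (s - k)) ≤
        k * (2 * κ * W2 (jm m o R δ (dens m μ₀) s) (jm m o R δ (dens m μ₁) s) +
          2 * (je m o R δ β (dens m μ₀) s + je m o R δ β (dens m μ₁) s) + η) := by
  obtain ⟨z₀, z₁⟩ := hZ s ⟨hs.1.le, hs.2⟩
  obtain ⟨-, a₀, b₀, c₀, e₀⟩ := jf_props h₀ hδ hs.1.le z₀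
  obtain ⟨-, a₁, b₁, c₁, e₁⟩ := jf_props h₁ hδ hs.1.le z₁
  obtain ⟨φ, ψ, hp, h0, he⟩ := exists_pot c₀.1 c₁.1
  have hL : ∀ {φ ψ : X → ℝ}, IsPot (closedBall o (R + 1)) φ ψ →
      ∀ᵐ x ∂m, x ∈ closedBall o (R + 1) → Dw m φ x ≤ 2 * (R + 1) := fun hp => by
    filter_upwards [(IsPot.sl (m := m) hp).2] with x hx hb
    linarith [mem_closedBall.1 hb]
  obtain ⟨d₀, p₀, q₀⟩ := j_deriv h₀ hR hδ hβ hs.1 z₀ (IsPot.sl hp).1 hp.continuous
    (fun x hx => (hp.bound h0 hx).1) (hL hp)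
  obtain ⟨d₁, p₁, q₁⟩ := j_deriv h₁ hR hδ hβ hs.1 z₁ (IsPot.sl hp.symm).1 hp.symm.continuous
    (fun x hx => (hp.bound h0 hx).2) (hL hp.symm)
  have hk := key (δ := min (δ / jZ m o R δ (dens m μ₀) s) (δ / jZ m o R δ (dens m μ₁) s))
    (B := 2 * (M + δ)) hG hκ hR (e₀ hs.1) (e₁ hs.1)
    (lt_min (div_pos hδ (by linarith)) (div_pos hδ (by linarith)))
    (a₀.mono fun x hx => ⟨(min_le_left _ _).trans hx.1, hx.2⟩)
    (a₁.mono fun x hx => ⟨(min_le_right _ _).trans hx.1, hx.2⟩) b₀ b₁ hp he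
  have hd : HasDerivAt (fun k => ∫ x, φ x ∂(jm m o R δ (dens m μ₀) (s - k)) +
      ∫ x, ψ x ∂(jm m o R δ (dens m μ₁) (s - k))) (-(d₀ + d₁)) 0 :=
    HasDerivAt.comp_const_sub (f := fun s' => ∫ x, φ x ∂(jm m o R δ (dens m μ₀) s') +
      ∫ x, ψ x ∂(jm m o R δ (dens m μ₁) s')) s 0 (by simpa only [sub_zero] using p₀.fun_add p₁)
  filter_upwards [hd.tendsto_slope_zero_right.eventually
    (lt_mem_nhds (show -(d₀ + d₁) - η / 2 < -(d₀ + d₁) by linarith)), Ioo_mem_nhdsGT hs.1] with k h1 h2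
  obtain ⟨w₀, w₁⟩ := hZ (s - k) ⟨by linarith [h2.2], by linarith [h2.1, hs.2]⟩
  have h3 := dual_le (jf_props h₀ hδ (by linarith [h2.2]) w₀).2.2.2.1.1
    (jf_props h₁ hδ (by linarith [h2.2]) w₁).2.2.2.1.1 hp.continuous hp.symm.continuous
    fun x _ y hy => hp.le x hy
  rw [zero_add, sub_zero, smul_eq_mul, lt_inv_mul_iff₀ h2.1] at h1
  have h4 : d₀ + d₁ ≤ κ * W2 (jm m o R δ (dens m μ₀) s) (jm m o R δ (dens m μ₁) s) +
      (je m o R δ β (dens m μ₀) s + je m o R δ β (dens m μ₁) s) := by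
    unfold jm
    linarith
  nlinarith [mul_le_mul_of_nonneg_left h4 h2.1.le]

theorem j_step (hG : HasGood m κ) (hκ : 0 ≤ κ) (h₀ : BM m M o r μ₀) (h₁ : BM m M o r μ₁)
    (hr : r ≤ R) (hδ : 0 < δ) (hβ : 0 < β) (ht : 0 < t)
    (hZ : ∀ s ∈ Icc 0 t, 1 / 2 ≤ jZ m o R δ (dens m μ₀) s ∧ 1 / 2 ≤ jZ m o R δ (dens m μ₁) s)
    {a : ℝ} (ha : 0 ≤ a) :
    W2 (jm m o R δ (dens m μ₀) t) (jm m o R δ (dens m μ₁) t) ≤
      Real.exp (2 * κ * t) * (W2 (jm m o R δ (dens m μ₀) 0) (jm m o R δ (dens m μ₁) 0) +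
        128 * (R + 1) ^ 2 * (t * (δ + β) * m.real (closedBall o (R + 1)) +
          (t + 1) / (2 * β) * Real.exp (4 * a ^ 2 * t - 2 * a * (R - r)) * M)) := by
  have hW := jm_cont h₀ h₁ hδ hZ
  have hd := fun s hs η hη =>
    j_dini (s := s) (η := η) hG hκ h₀ h₁ (h₀.1.nonneg.trans hr) hδ hβ hZ hs hη
  have i₀ := fun s₀ h1 h2 => je_integral_le (s₀ := s₀) (t := t) h₀ hr hδ hβ ha h1 h2
  have i₁ := fun s₀ h1 h2 => je_integral_le (s₀ := s₀) (t := t) h₁ hr hδ hβ ha h1 h2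
  have c₀ := je_cont (R := R) (δ := δ) (β := β) h₀
  have c₁ := je_cont (R := R) (δ := δ) (β := β) h₁
  have hW0 : ∀ s, 0 ≤ W2 (jm m o R δ (dens m μ₀) s) (jm m o R δ (dens m μ₁) s) :=
    fun s => ENNReal.toReal_nonneg
  generalize t * (δ + β) * m.real (closedBall o (R + 1)) +
    (t + 1) / (2 * β) * Real.exp (4 * a ^ 2 * t - 2 * a * (R - r)) * M = B at i₀ i₁ ⊢
  generalize je m o R δ β (dens m μ₀) = e₀ at hd i₀ c₀
  generalize je m o R δ β (dens m μ₁) = e₁ at hd i₁ c₁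
  obtain ⟨W, hWe⟩ : ∃ W : ℝ → ℝ,
      ∀ s, W2 (jm m o R δ (dens m μ₀) s) (jm m o R δ (dens m μ₁) s) = W s := ⟨_, fun _ => rfl⟩
  simp only [hWe] at hW hd hW0 ⊢
  have key : ∀ s₀ ∈ Ioc 0 t, W t ≤ Real.exp (2 * κ * t) * (W s₀ + 128 * (R + 1) ^ 2 * B) := by
    intro s₀ hs₀
    have sub : Icc s₀ t ⊆ Ioi 0 := fun x hx => hs₀.1.trans_le hx.1
    have ce : ContinuousOn (fun x => 2 * (e₀ x + e₁ x)) (Icc s₀ t) :=
      continuousOn_const.mul ((c₀.mono sub).add (c₁.mono sub))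
    have h1 := dini_left (W := W) (e := fun x => 2 * (e₀ x + e₁ x)) (c := 2 * κ) hs₀.2
      (hW.mono (Icc_subset_Icc_left hs₀.1.le)) ce
      fun s hs η hη => hd s ⟨hs₀.1.trans hs.1, hs.2⟩ η hη
    have h2 : ∫ x in s₀..t, Real.exp (2 * κ * (t - x)) * (2 * (e₀ x + e₁ x)) ≤
        ∫ x in s₀..t, Real.exp (2 * κ * t) * (2 * (e₀ x + e₁ x)) := by
      refine intervalIntegral.integral_mono_on hs₀.2
        ((ContinuousOn.mul (by fun_prop) ce).intervalIntegrable_of_Icc hs₀.2)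
        ((continuousOn_const.mul ce).intervalIntegrable_of_Icc hs₀.2) fun x hx => ?_
      have hx0 : 0 < x := sub hx
      refine mul_le_mul_of_nonneg_right (Real.exp_le_exp.2 ?_) (mul_nonneg zero_le_two
        (add_nonneg ((i₀ s₀ hs₀.1 hs₀.2).1 x hx0) ((i₁ s₀ hs₀.1 hs₀.2).1 x hx0)))
      exact mul_le_mul_of_nonneg_left (by linarith) (by positivity)
    rw [intervalIntegral.integral_const_mul, intervalIntegral.integral_const_mul,
      intervalIntegral.integral_add ((c₀.mono sub).intervalIntegrable_of_Icc hs₀.2)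
        ((c₁.mono sub).intervalIntegrable_of_Icc hs₀.2)] at h2
    have h3 : Real.exp (2 * κ * (t - s₀)) * W s₀ ≤ Real.exp (2 * κ * t) * W s₀ :=
      mul_le_mul_of_nonneg_right (Real.exp_le_exp.2
        (mul_le_mul_of_nonneg_left (by linarith [hs₀.1]) (by positivity))) (hW0 s₀)
    have h4 := mul_le_mul_of_nonneg_left (add_le_add (i₀ s₀ hs₀.1 hs₀.2).2 (i₁ s₀ hs₀.1 hs₀.2).2)
      (Real.exp_pos (2 * κ * t)).le
    linarith
  have hlim : Tendsto W (𝓝[>] 0) (𝓝 (W 0)) :=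
    ((hW 0 ⟨le_rfl, ht.le⟩).mono_of_mem_nhdsWithin (Icc_mem_nhdsGT ht)).tendsto
  exact ge_of_tendsto ((hlim.add_const _).const_mul _)
    (mem_of_superset (Ioc_mem_nhdsGT ht) key)

theorem j2c_dens (h₀ : BM m M o r μ₀) (hδ : 0 < δ) (ht : 0 ≤ t) {e : ℝ} (he : e ≤ 1 / 2)
    (hZ : |jZ m o R δ (dens m μ₀) t - 1| ≤ e) : ∀ᵐ x ∂m, dist x o ≤ R →
      |dens m (jm m o R δ (dens m μ₀) t) x - heat m m t (dens m μ₀) x| ≤ 2 * (M * e + δ) := by
  have hZ' := abs_le.1 hZ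
  have hZ2 : 1 / 2 ≤ jZ m o R δ (dens m μ₀) t := by linarith [hZ'.1]
  obtain ⟨hm, hb, -⟩ := jf_props h₀ hδ ht hZ2
  have hc : Continuous (cut o R 1) := (cut_lip o R one_pos).continuous
  have h1 := dens_wd (m := m) (ρ := fun x => cut o R 1 x ^ 2 * jf m o R δ (dens m μ₀) t x)
    (((hc.pow 2).measurable.mul hm).aestronglyMeasurable)
    (hb.mono fun x hx => mul_nonneg (sq_nonneg _) (le_trans (by positivity) hx.1))
  have h2 := heat_mem_Icc (μ := m) h₀.memLp h₀.pos.le ht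
    (h₀.dens_le.mono fun x hx => ⟨dens_nonneg μ₀ x, hx⟩)
  filter_upwards [h1, h2] with x hx hu hxR
  rw [jm, hx, cut_eq_one one_pos hxR, one_pow, one_mul, jf]
  set Z := jZ m o R δ (dens m μ₀) t
  set u := heat m m t (dens m μ₀) x
  have hZ0 : 0 < Z := by linarith
  have e1 : (u + δ) / Z - u = (δ - u * (Z - 1)) / Z := by field_simp; ring
  have e2 : |u * (Z - 1)| ≤ M * e := by
    rw [abs_mul, abs_of_nonneg hu.1]
    exact mul_le_mul hu.2 hZ (abs_nonneg _) h₀.pos.le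
  have e3 : |δ - u * (Z - 1)| ≤ M * e + δ := by
    have := abs_sub δ (u * (Z - 1))
    rw [abs_of_pos hδ] at this
    linarith
  rw [e1, abs_div, abs_of_pos hZ0, div_le_iff₀ hZ0]
  have e4 : 0 ≤ M * e + δ := (abs_nonneg _).trans e3
  nlinarith

theorem j2c_tail (hE : ExpGrowth m) (o : X) (r : ℝ) (hM : 0 ≤ M) (ht : 0 ≤ t) {η : ℝ} (hη : 0 < η) :
    ∃ a : ℝ, 0 ≤ a ∧ ∀ᶠ R : ℝ in atTop,
      128 * (R + 1) ^ 2 * (t * Real.exp (-(a * (R - r))) * m.real (closedBall o (R + 1)) +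
        (t + 1) / (2 * Real.exp (-(a * (R - r)))) * Real.exp (4 * a ^ 2 * t - 2 * a * (R - r)) * M) ≤ η := by
  obtain ⟨C, hC⟩ := hE o
  refine ⟨|C| + 1, by positivity, ?_⟩
  set a := |C| + 1 with ha
  have h1 := (((Real.tendsto_pow_mul_exp_neg_atTop_nhds_zero 2).comp
    (tendsto_atTop_add_const_right atTop 1 tendsto_id)).const_mul
    (128 * (t * Real.exp (a * r + 2 * |C| + 1) + (t + 1) / 2 * Real.exp (4 * a ^ 2 * t + a * r + 1) * M)))
  rw [mul_zero] at h1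
  filter_upwards [h1.eventually (ge_mem_nhds hη), eventually_ge_atTop 0] with R hR hR0
  refine le_trans ?_ hR
  have hV : m.real (closedBall o (R + 1)) ≤ Real.exp (|C| * (R + 1 + 1)) :=
    (ENNReal.toReal_le_of_le_ofReal (Real.exp_pos _).le (hC (R + 1) (by linarith))).trans
      (Real.exp_le_exp.2 (mul_le_mul_of_nonneg_right (le_abs_self C) (by linarith)))
  have b1 : Real.exp (-(a * (R - r))) * m.real (closedBall o (R + 1)) ≤
      Real.exp (a * r + 2 * |C| + 1) * Real.exp (-(R + 1)) := by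
    refine (mul_le_mul_of_nonneg_left hV (Real.exp_pos _).le).trans (le_of_eq ?_)
    rw [← Real.exp_add, ← Real.exp_add, ha]
    congr 1
    ring
  have b2 : Real.exp (4 * a ^ 2 * t - 2 * a * (R - r)) / Real.exp (-(a * (R - r))) ≤
      Real.exp (4 * a ^ 2 * t + a * r + 1) * Real.exp (-(R + 1)) := by
    rw [← Real.exp_sub, ← Real.exp_add, Real.exp_le_exp]
    have := mul_nonneg (abs_nonneg C) hR0
    have e : a * R = |C| * R + R := by rw [ha]; ring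
    linarith
  have c1 := mul_le_mul_of_nonneg_left b1 ht
  have c2 := mul_le_mul_of_nonneg_left b2 (show 0 ≤ (t + 1) / 2 * M by positivity)
  simp only [Function.comp, id]
  calc _ = 128 * (R + 1) ^ 2 * (t * (Real.exp (-(a * (R - r))) * m.real (closedBall o (R + 1))) +
        (t + 1) / 2 * M * (Real.exp (4 * a ^ 2 * t - 2 * a * (R - r)) / Real.exp (-(a * (R - r))))) := by
        field_simp
    _ ≤ 128 * (R + 1) ^ 2 * _ := mul_le_mul_of_nonneg_left (add_le_add c1 c2) (by positivity)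
    _ = _ := by ring

theorem contraction (hG : HasGood m κ) (hκ : 0 ≤ κ) (hE : ExpGrowth m) (h₀ : BM m M o r μ₀)
    (h₁ : BM m M o r μ₁) (ht : 0 < t) (o' : X) (R₀ : ℝ) {ε : ℝ} (hε : 0 < ε) :
    ∃ (ν₀ ν₁ : Measure X) (q : Measure (X × X)), IsProbabilityMeasure ν₀ ∧
      IsProbabilityMeasure ν₁ ∧ ν₀ ≤ ENNReal.ofReal (2 * M + 1) • m ∧
      ν₁ ≤ ENNReal.ofReal (2 * M + 1) • m ∧ IsCouplingOf q ν₀ ν₁ ∧
      quadCost q ≤ ENNReal.ofReal (Real.exp (2 * κ * t) * W2 μ₀ μ₁ + ε) ∧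
      (∀ᵐ x ∂m, x ∈ closedBall o' R₀ → |dens m ν₀ x - heat m m t (dens m μ₀) x| ≤ ε) ∧
      ∀ᵐ x ∂m, x ∈ closedBall o' R₀ → |dens m ν₁ x - heat m m t (dens m μ₁) x| ≤ ε := by
  have hM := h₀.pos
  have hE0 := Real.exp_pos (2 * κ * t)
  have hη : 0 < ε / (4 * Real.exp (2 * κ * t)) := by positivity
  set η := ε / (4 * Real.exp (2 * κ * t)) with hηdef
  have he : 0 < min (1 / 2) (ε / (4 * M)) := by positivity
  set e := min (1 / 2) (ε / (4 * M)) with hedef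
  have he1 : e ≤ 1 / 2 := min_le_left _ _
  have he2 : M * e ≤ ε / 4 :=
    (mul_le_mul_of_nonneg_left (min_le_right _ _) hM.le).trans_eq (by field_simp)
  obtain ⟨a, ha, hT⟩ := j2c_tail hE o r hM.le ht.le hη
  obtain ⟨R, ⟨⟨hT, hZ₀⟩, hZ₁⟩, hr, hR⟩ := (((hT.and (jZ_near hE h₀ ht.le he)).and
    (jZ_near hE h₁ ht.le he)).and ((eventually_ge_atTop r).and
      (eventually_ge_atTop (R₀ + dist o' o)))).exists
  have hlim : Tendsto (fun δ : ℝ => 128 * (R + 1) ^ 2 * t * m.real (closedBall o (R + 1)) * δ)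
      (𝓝[>] 0) (𝓝 0) := by
    have := (tendsto_id (x := 𝓝 (0 : ℝ))).const_mul (128 * (R + 1) ^ 2 * t * m.real (closedBall o (R + 1)))
    rw [mul_zero] at this
    exact this.mono_left nhdsWithin_le_nhds
  obtain ⟨δ, ⟨⟨z₀, z₁⟩, hW, hT'⟩, hδ⟩ := (((hZ₀.and hZ₁).and ((jm_zero h₀ h₁ hr hη).and
    (hlim.eventually (ge_mem_nhds hη)))).and
      (Ioc_mem_nhdsGT (show (0 : ℝ) < min (1 / 2) (ε / 4) by positivity))).exists
  have hδ1 : δ ≤ 1 / 2 := hδ.2.trans (min_le_left _ _)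
  have hδ2 : δ ≤ ε / 4 := hδ.2.trans (min_le_right _ _)
  have hZ : ∀ s ∈ Icc 0 t, 1 / 2 ≤ jZ m o R δ (dens m μ₀) s ∧ 1 / 2 ≤ jZ m o R δ (dens m μ₁) s :=
    fun s hs => ⟨by linarith [(abs_le.1 (z₀ s hs)).1], by linarith [(abs_le.1 (z₁ s hs)).1]⟩
  have htt : t ∈ Icc 0 t := ⟨ht.le, le_rfl⟩
  have b₀ := ((jf_props h₀ hδ.1 ht.le (hZ t htt).1).2.2.2.1).mono
    (show 2 * (M + δ) ≤ 2 * M + 1 by linarith) le_rfl
  have b₁ := ((jf_props h₁ hδ.1 ht.le (hZ t htt).2).2.2.2.1).mono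
    (show 2 * (M + δ) ≤ 2 * M + 1 by linarith) le_rfl
  have hs := j_step hG hκ h₀ h₁ hr hδ.1 (Real.exp_pos (-(a * (R - r)))) ht hZ ha
  obtain ⟨q, hq, hc⟩ := exists_coupling_le b₀.1 b₁.1 (show 0 < ε / 4 by positivity)
  have hd : ∀ x ∈ closedBall o' R₀, dist x o ≤ R := fun x hx => by
    have := dist_triangle x o' o
    rw [mem_closedBall] at hx
    linarith
  refine ⟨_, _, q, b₀.1.1, b₁.1.1, b₀.2, b₁.2, hq, hc.trans (ENNReal.ofReal_le_ofReal ?_), ?_, ?_⟩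
  · have h3 : Real.exp (2 * κ * t) * η = ε / 4 := by rw [hηdef]; field_simp
    have h4 := hs.trans (mul_le_mul_of_nonneg_left (c := W2 μ₀ μ₁ + η + η + η) (by linarith) hE0.le)
    linarith
  · filter_upwards [j2c_dens h₀ hδ.1 ht.le he1 (z₀ t htt)] with x hx hx'
    linarith [hx (hd x hx')]
  · filter_upwards [j2c_dens h₁ hδ.1 ht.le he1 (z₁ t htt)] with x hx hx'
    linarith [hx (hd x hx')]

end Crest.Agent.R242
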