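import Crest.Agent.R242.J2

/-! Block K1: from contraction to the gradient estimate (Kuwada), two measures.
`kuw_measure`: `ψ` Lipschitz with `∫ |Γf - ψ| ≤ η/(M (gfac κ (R+1) + 1))` (`exists_lip_approx`), `L = Lip ψ`.
`S = closedBall o (R+1) ×ˢ closedBall o (R+1)`, `α = q S`.  Off `S`, a.e. `|f y - f x| ≤ 2B d²` (both values
vanish or `d ≥ 1`).  If `α ≠ 0`, the marginals `νᵢ'` of `cond q S` satisfy `BM m (M/α) o (R+1)`, `α W2 ≤ c`
(`W2_le_of_coupling`); take a good plan `σ`, `geo_young` on `[0,1]`, and for each `r`: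
`α∫ Γf(σ r) ≤ α∫ ψ(σ 0) + L α∫ len + M gfac ‖Γf - ψ‖₁`, `α∫ ψ dν₀' ≤ ∫ Γf dν₀ + M‖Γf - ψ‖₁`,
`α∫ len ≤ √c`.
`kuw_heat`: `kuw_measure` with `2M+1`, `contraction`, `heat_symm`, `ε → 0` (`f` and `Γf` vanish off the
ball and are integrable). -/

set_option autoImplicit false
set_option linter.unusedSectionVars false
set_option linter.unusedVariables false
open MeasureTheory Filter Set Metric
open scoped ENNReal NNReal Topology
open Crest.GeometryTopology.SyntheticRicci

noncomputable section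
namespace Crest.Agent.R242

variable {X : Type*} [MetricSpace X] [MeasurableSpace X] [BorelSpace X] [ProperSpace X]
  {m : Measure X} [IsFiniteMeasureOnCompacts m] [m.IsOpenPosMeasure] [DS m m]

variable {κ B R : ℝ} {o : X} {f : X → ℝ}

theorem k1a_int {μ : Measure X} {C : ℝ} (h : μ ≤ ENNReal.ofReal C • m) {g : X → ℝ}
    (hg : Integrable g m) : Integrable g μ :=
  (hg.smul_measure ENNReal.ofReal_ne_top).mono_measure h

theorem k1a_cmp {μ : Measure X} {C ε : ℝ} (hC : 0 ≤ C) (h : μ ≤ ENNReal.ofReal C • m) {g ψ : X → ℝ}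
    (hg : Integrable g m) (hψ : Integrable ψ m) (hε : ∫ x, |g x - ψ x| ∂m ≤ ε) :
    |∫ x, g x ∂μ - ∫ x, ψ x ∂μ| ≤ C * ε := by
  rw [← integral_sub (k1a_int h hg) (k1a_int h hψ)]
  refine abs_integral_le_integral_abs.trans ((integral_mono_measure h
    (Eventually.of_forall fun x => abs_nonneg _)
    ((hg.sub hψ).abs.smul_measure ENNReal.ofReal_ne_top)).trans ?_)
  rw [integral_smul_measure, ENNReal.toReal_ofReal hC, smul_eq_mul]
  exact mul_le_mul_of_nonneg_left hε hC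

theorem k1a_plan (hG : HasGood m κ) (hf : SW m f) (hR : 0 ≤ R) {ψ : X → ℝ} {L : ℝ≥0} {ε M l : ℝ}
    (hψ : LipschitzWith L ψ) (hψi : Integrable ψ m) (hε : ∫ x, |Gam m f f x - ψ x| ∂m ≤ ε)
    {μ₀ μ₁ : Measure X} (h0 : BM m M o R μ₀) (h1 : BM m M o R μ₁) (hl : 0 < l) :
    |∫ x, f x ∂μ₁ - ∫ x, f x ∂μ₀| ≤ l / 2 * (∫ x, Gam m f f x ∂μ₀ + M * (gfac κ R + 1) * ε +
      L * Real.sqrt (W2 μ₀ μ₁)) + W2 μ₀ μ₁ / (2 * l) := by
  have hM := h0.pos
  obtain ⟨P, hP⟩ := hG o R M μ₀ μ₁ hR hM h0 h1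
  have := hP.prob
  have hΓ : Integrable (Gam m f f) m := SW.integrable_gam (DS.hilb m) hf hf
  have hC : 0 ≤ M * gfac κ R := mul_nonneg hM.le (Real.exp_nonneg _)
  have hT := (plan_of_geo hP.cmpr hP.geo).2
  have hy := geo_young hf.sl hP.cmpr hP.geo le_rfl zero_le_one le_rfl hl
  have m0 : (0 : ℝ) ∈ Icc (0 : ℝ) 1 := ⟨le_rfl, zero_le_one⟩
  rw [← hP.cmpr.integral_marg hf.1.1 ⟨zero_le_one, le_rfl⟩, ← hP.cmpr.integral_marg hf.1.1 m0,
    hP.m0, hP.m1, hP.toOptGeo.cost_eq, sub_zero, div_mul_eq_mul_div 1, one_mul] at hy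
  have i2 := hP.toOptGeo.integrable_len
  have l2 : MemLp (len : UCurve X → ℝ) 2 P :=
    (memLp_two_iff_integrable_sq measurable_len.aestronglyMeasurable).2 i2
  have hlen : ∫ γ, len γ ∂P ≤ Real.sqrt (W2 μ₀ μ₁) := by
    have := ProbabilityTheory.variance_nonneg (len : UCurve X → ℝ) P
    rw [ProbabilityTheory.variance_eq_sub l2, sub_nonneg] at this
    exact Real.le_sqrt_of_sq_le (this.trans_eq hP.toOptGeo.cost_eq)
  have key : ∀ r ∈ Icc (0 : ℝ) 1, ∫ γ, Gam m f f (γ.ext r) ∂P ≤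
      ∫ x, Gam m f f x ∂μ₀ + M * (gfac κ R + 1) * ε + L * Real.sqrt (W2 μ₀ μ₁) := fun r hr => by
    have a1 := (abs_le.1 (k1a_cmp hC (hP.cmpr r hr) hΓ hψi hε)).2
    have a2 := (abs_le.1 (k1a_cmp hM.le h0.2 hΓ hψi hε)).1
    have a3 : ∫ γ, ψ (γ.ext r) ∂P ≤ ∫ γ, (ψ (γ.ext 0) + L * len γ) ∂P := by
      refine integral_mono_ae (hP.cmpr.integrable hT hψi.integrableOn hr)
        ((hP.cmpr.integrable hT hψi.integrableOn m0).add
          ((l2.integrable one_le_two).const_mul _)) ?_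
      filter_upwards [hP.geo] with γ hγ
      have b1 := hψ.dist_le_mul (γ.ext r) (γ.ext 0)
      have b2 := geo_dist hγ.1 hr m0
      have b3 : |r - 0| * len γ ≤ len γ :=
        mul_le_of_le_one_left dist_nonneg (by rw [sub_zero, abs_of_nonneg hr.1]; exact hr.2)
      rw [Real.dist_eq, b2] at b1
      linarith [le_abs_self (ψ (γ.ext r) - ψ (γ.ext 0)), mul_le_mul_of_nonneg_left b3 L.coe_nonneg]
    rw [integral_add (hP.cmpr.integrable hT hψi.integrableOn m0)
      ((l2.integrable one_le_two).const_mul _), integral_const_mul,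
      ← hP.cmpr.integral_marg hψi.1 hr, ← hP.cmpr.integral_marg hψi.1 m0, hP.m0] at a3
    rw [← hP.cmpr.integral_marg hΓ.1 hr]
    linarith [mul_le_mul_of_nonneg_left hlen L.coe_nonneg]
  have := intervalIntegral.integral_mono_on (μ := volume) zero_le_one
    ((hP.cmpr.cont hT hΓ.integrableOn).intervalIntegrable_of_Icc zero_le_one)
    intervalIntegrable_const key
  rw [intervalIntegral.integral_const, sub_zero, one_smul] at this
  exact hy.trans (add_le_add (mul_le_mul_of_nonneg_left this (by positivity)) le_rfl)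

theorem k1a_le {q : Measure (X × X)} {T : X × X → X} (hT : Measurable T) (S : Set (X × X)) :
    (ProbabilityTheory.cond q S).map T ≤ (q S)⁻¹ • q.map T := by
  rw [ProbabilityTheory.cond, Measure.map_smul]
  exact a6a_smul_mono (Measure.map_mono Measure.restrict_le_self hT) le_rfl

theorem k1a_map {q : Measure (X × X)} {T : X × X → X} (hT : Measurable T) (S : Set (X × X))
    {g : X → ℝ} (hg : AEStronglyMeasurable g (q.map T)) :
    ∫ x, g x ∂(ProbabilityTheory.cond q S).map T = (q.real S)⁻¹ * ∫ p in S, g (T p) ∂q := by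
  rw [integral_map hT.aemeasurable
    (hg.mono_ac (Measure.absolutelyContinuous_of_le_smul (k1a_le hT S))), ProbabilityTheory.cond,
    integral_smul_measure, ENNReal.toReal_inv, smul_eq_mul, measureReal_def]

theorem k1a_inv {q : Measure (X × X)} [IsFiniteMeasure q] {S : Set (X × X)} (h : 0 < q.real S)
    (c : ℝ) : (q S)⁻¹ * ENNReal.ofReal c = ENNReal.ofReal (c / q.real S) := by
  rw [ENNReal.ofReal_div_of_pos h, ofReal_measureReal, ENNReal.div_eq_inv_mul]

theorem k1a_bm {q : Measure (X × X)} [IsProbabilityMeasure q] {T : X × X → X} (hT : Measurable T)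
    {S : Set (X × X)} (hS : MeasurableSet S) (h : 0 < q.real S) {M : ℝ}
    (hM : q.map T ≤ ENNReal.ofReal M • m) (hb : ∀ p ∈ S, T p ∈ closedBall o R) :
    BM m (M / q.real S) o R ((ProbabilityTheory.cond q S).map T) := by
  have h' : q S ≠ 0 := fun h0 => by simp [measureReal_def, h0] at h
  have := ProbabilityTheory.cond_isProbabilityMeasure h'
  refine ⟨⟨Measure.isProbabilityMeasure_map hT.aemeasurable, ?_⟩, (k1a_le hT S).trans ?_⟩
  · rw [Measure.map_apply hT measurableSet_closedBall.compl, ProbabilityTheory.cond_apply hS,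
      eq_empty_of_forall_notMem (s := S ∩ T ⁻¹' (closedBall o R)ᶜ) fun p hp => hp.2 (hb p hp.1),
      measure_empty, mul_zero]
  · rw [← k1a_inv h, mul_smul]
    exact a6a_smul_mono hM le_rfl

theorem k1a_cost {q : Measure (X × X)} {c : ℝ} (hc : 0 ≤ c) (h : quadCost q ≤ ENNReal.ofReal c) :
    Integrable (fun p : X × X => dist p.1 p.2 ^ 2) q ∧ ∫ p, dist p.1 p.2 ^ 2 ∂q ≤ c := by
  have e : quadCost q = ∫⁻ p, ENNReal.ofReal (dist p.1 p.2 ^ 2) ∂q :=
    lintegral_congr fun p => by rw [edist_dist, ENNReal.ofReal_pow dist_nonneg]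
  have hm : AEStronglyMeasurable (fun p : X × X => dist p.1 p.2 ^ 2) q :=
    (continuous_dist.pow 2).aestronglyMeasurable
  have h0 : 0 ≤ᵐ[q] fun p : X × X => dist p.1 p.2 ^ 2 := Eventually.of_forall fun p => sq_nonneg _
  rw [e] at h
  refine ⟨(lintegral_ofReal_ne_top_iff_integrable hm h0).1
    (ne_top_of_le_ne_top ENNReal.ofReal_ne_top h), ?_⟩
  rw [integral_eq_lintegral_of_nonneg_ae h0 hm]
  exact ENNReal.toReal_le_of_le_ofReal hc h

theorem k1a_off {x y : X} (hB0 : 0 ≤ B) (hy : |f y| ≤ B) (hx0 : x ∉ closedBall o R → f x = 0)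
    (hy0 : y ∉ closedBall o R → f y = 0) (hx : x ∉ closedBall o (R + 1)) :
    |f y - f x| ≤ 2 * B * dist x y ^ 2 := by
  rw [mem_closedBall, not_le] at hx
  rw [hx0 fun h => by rw [mem_closedBall] at h; linarith, sub_zero]
  by_cases h : y ∈ closedBall o R
  · rw [mem_closedBall] at h
    have h1 : 1 ≤ dist x y := by linarith [dist_triangle x y o]
    nlinarith [mul_le_mul_of_nonneg_left (one_le_pow₀ (n := 2) h1) hB0]
  · rw [hy0 h, abs_zero]
    positivity

theorem kuw_measure (hG : HasGood m κ) (hf : SW m f) (hB0 : 0 ≤ B) (hB : ∀ᵐ x ∂m, |f x| ≤ B)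
    (hR : 0 ≤ R) (h0 : ∀ᵐ x ∂m, x ∉ closedBall o R → f x = 0) {M η : ℝ} (hM : 0 < M) (hη : 0 < η) :
    ∃ L : ℝ, 0 ≤ L ∧ ∀ (ν₀ ν₁ : Measure X) (q : Measure (X × X)) (c l : ℝ),
      IsProbabilityMeasure ν₀ → IsProbabilityMeasure ν₁ → ν₀ ≤ ENNReal.ofReal M • m →
      ν₁ ≤ ENNReal.ofReal M • m → IsCouplingOf q ν₀ ν₁ → 0 ≤ c → quadCost q ≤ ENNReal.ofReal c →
      0 < l → |∫ x, f x ∂ν₁ - ∫ x, f x ∂ν₀| ≤
        l / 2 * (∫ x, Gam m f f x ∂ν₀ + η + L * Real.sqrt c) + c / (2 * l) + 2 * B * c := by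
  have hΓ : Integrable (Gam m f f) m := SW.integrable_gam (DS.hilb m) hf hf
  have hΓ0 : ∀ᵐ x ∂m, 0 ≤ Gam m f f x := by
    filter_upwards [hf.sl.gam_self] with x hx
    rw [hx]
    positivity
  have hg : 0 < gfac κ (R + 1) := Real.exp_pos _
  obtain ⟨ψ, L, hψ, hψK, hε⟩ := exists_lip_approx hΓ (ε := η / (M * (gfac κ (R + 1) + 1)))
    (by positivity)
  refine ⟨L, L.2, fun ν₀ ν₁ q c l p0 p1 c0 c1 hq hc hqc hl => ?_⟩
  obtain ⟨rfl, rfl⟩ := hq
  have : IsProbabilityMeasure q := ⟨by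
    simpa [Measure.map_apply measurable_fst] using p0.measure_univ⟩
  have a0 := Measure.absolutelyContinuous_of_le_smul c0
  have a1 := Measure.absolutelyContinuous_of_le_smul c1
  have f0 : Integrable f (q.map Prod.fst) := Integrable.of_bound (hf.1.1.mono_ac a0) B (a0.ae_le hB)
  have f1 : Integrable f (q.map Prod.snd) := Integrable.of_bound (hf.1.1.mono_ac a1) B (a1.ae_le hB)
  have g0 := k1a_int c0 hΓ
  have F0 : Integrable (fun p : X × X => f p.1) q := f0.comp_measurable measurable_fst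
  have F1 : Integrable (fun p : X × X => f p.2) q := f1.comp_measurable measurable_snd
  have G0 : Integrable (fun p : X × X => Gam m f f p.1) q := g0.comp_measurable measurable_fst
  obtain ⟨S, hS⟩ : ∃ S, S = closedBall o (R + 1) ×ˢ closedBall o (R + 1) := ⟨_, rfl⟩
  have mS : MeasurableSet S := hS ▸ measurableSet_closedBall.prod measurableSet_closedBall
  obtain ⟨d1, d2⟩ := k1a_cost hc hqc
  have off : |∫ p in Sᶜ, (f p.2 - f p.1) ∂q| ≤ 2 * B * c := by
    have b1 : ∀ᵐ p ∂q, p ∈ Sᶜ → ‖f p.2 - f p.1‖ ≤ 2 * B * dist p.1 p.2 ^ 2 := by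
      filter_upwards [ae_of_ae_map measurable_fst.aemeasurable (a0.ae_le (hB.and h0)),
        ae_of_ae_map measurable_snd.aemeasurable (a1.ae_le (hB.and h0))] with p u v hp
      rw [hS, mem_compl_iff, mem_prod, not_and_or] at hp
      rcases hp with hp | hp
      · exact k1a_off hB0 v.1 u.2 v.2 hp
      · rw [norm_sub_rev, dist_comm]
        exact k1a_off hB0 u.1 v.2 u.2 hp
    refine (norm_integral_le_of_norm_le (d1.const_mul (2 * B)).integrableOn
      ((ae_restrict_iff' mS.compl).2 b1)).trans ((setIntegral_le_integral (d1.const_mul (2 * B))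
        (Eventually.of_forall fun p => by positivity)).trans ?_)
    rw [integral_const_mul]
    exact mul_le_mul_of_nonneg_left d2 (by positivity)
  have hΓq : 0 ≤ᵐ[q] fun p : X × X => Gam m f f p.1 :=
    ae_of_ae_map measurable_fst.aemeasurable (a0.ae_le hΓ0)
  have on : |∫ p in S, (f p.2 - f p.1) ∂q| ≤
      l / 2 * (∫ p, Gam m f f p.1 ∂q + η + L * Real.sqrt c) + c / (2 * l) := by
    rcases (measureReal_nonneg (μ := q) (s := S)).eq_or_lt with hα | hα
    · rw [setIntegral_measure_zero _ ((measureReal_eq_zero_iff (measure_ne_top _ _)).1 hα.symm),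
        abs_zero]
      have := integral_nonneg_of_ae hΓq
      positivity
    have hW : W2 ((ProbabilityTheory.cond q S).map Prod.fst)
        ((ProbabilityTheory.cond q S).map Prod.snd) ≤ c / q.real S := by
      refine W2_le_of_coupling ⟨rfl, rfl⟩ (by positivity) ?_
      rw [← k1a_inv hα, quadCost, ProbabilityTheory.cond, lintegral_smul_measure, smul_eq_mul]
      exact mul_le_mul_right ((setLIntegral_le_lintegral _ _).trans hqc) _
    have k := k1a_plan hG hf (by linarith) hψ (hψ.continuous.integrable_of_hasCompactSupport hψK) hε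
      (k1a_bm measurable_fst mS hα c0 fun p hp => (hS ▸ hp : p ∈ _ ×ˢ _).1)
      (k1a_bm measurable_snd mS hα c1 fun p hp => (hS ▸ hp : p ∈ _ ×ˢ _).2) hl
    rw [k1a_map measurable_fst S f0.1, k1a_map measurable_snd S f1.1, k1a_map measurable_fst S g0.1,
      ← mul_sub, abs_mul, abs_inv, abs_of_pos hα, inv_mul_le_iff₀ hα,
      ← integral_sub F1.integrableOn F0.integrableOn] at k
    have e1 := setIntegral_le_integral (s := S) G0 hΓq
    have hα1 : q.real S ≤ 1 := measureReal_le_one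
    generalize W2 (X := X) _ _ = W at hW k
    generalize q.real S = α at hα hα1 hW k
    rw [le_div_iff₀ hα] at hW
    have e2 : α * Real.sqrt W ≤ Real.sqrt c := by
      rcases le_total W 0 with h | h
      · rw [Real.sqrt_eq_zero'.2 h, mul_zero]
        positivity
      · refine Real.le_sqrt_of_sq_le ?_
        rw [mul_pow, Real.sq_sqrt h]
        nlinarith [mul_nonneg h hα.le]
    have e3 : α * (l / 2 * (α⁻¹ * ∫ p in S, Gam m f f p.1 ∂q + M / α * (gfac κ (R + 1) + 1) *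
        (η / (M * (gfac κ (R + 1) + 1))) + L * Real.sqrt W) + W / (2 * l)) =
        l / 2 * (∫ p in S, Gam m f f p.1 ∂q + η + L * (α * Real.sqrt W)) + W * α / (2 * l) := by
      field_simp
    rw [e3] at k
    refine k.trans ?_
    gcongr
  rw [integral_map measurable_fst.aemeasurable f0.1, integral_map measurable_snd.aemeasurable f1.1,
    integral_map measurable_fst.aemeasurable g0.1, ← integral_sub F1 F0,
    ← integral_add_compl (f := fun p : X × X => f p.2 - f p.1) mS (F1.sub F0)]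
  exact (abs_add_le _ _).trans (add_le_add on off)

theorem k1b_cmp {ν : Measure X} [IsProbabilityMeasure ν] {M ε : ℝ} (hν : ν ≤ ENNReal.ofReal M • m)
    {u g : X → ℝ} (hu : Measurable u) (hg : Integrable g m) {A : Set X} (h0 : ∀ᵐ x ∂m, x ∉ A → g x = 0)
    (he : ∀ᵐ x ∂m, x ∈ A → |dens m ν x - u x| ≤ ε) :
    |∫ x, g x ∂ν - ∫ x, u x * g x ∂m| ≤ ε * ∫ x, |g x| ∂m := by
  have hac : ν ≪ m := Measure.absolutelyContinuous_of_le_smul hν
  have i1 : Integrable (fun x => dens m ν x * g x) m :=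
    (integrable_toReal_rnDeriv_mul_iff hac).2 ((hg.smul_measure ENNReal.ofReal_ne_top).mono_measure hν)
  have hb : ∀ᵐ x ∂m, ‖(dens m ν x - u x) * g x‖ ≤ ε * |g x| := by
    filter_upwards [h0, he] with x h1 h2
    by_cases hx : x ∈ A
    · rw [Real.norm_eq_abs, abs_mul]
      exact mul_le_mul_of_nonneg_right (h2 hx) (abs_nonneg _)
    · simp [h1 hx]
  have i2 : Integrable (fun x => (dens m ν x - u x) * g x) m :=
    (hg.abs.const_mul ε).mono' (((dens_meas ν).sub hu).aestronglyMeasurable.mul hg.1) hb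
  have e : ∫ x, u x * g x ∂m = ∫ x, dens m ν x * g x ∂m - ∫ x, (dens m ν x - u x) * g x ∂m := by
    rw [← integral_sub i1 i2]
    congr 1
    funext x
    ring
  rw [integral_dens hac, e, sub_sub_cancel, ← integral_const_mul]
  exact norm_integral_le_of_norm_le (hg.abs.const_mul ε) hb

theorem kuw_heat (hG : HasGood m κ) (hκ : 0 ≤ κ) (hE : ExpGrowth m) (hf : SW m f) (hB0 : 0 ≤ B)
    (hB : ∀ᵐ x ∂m, |f x| ≤ B) (hR : 0 ≤ R) (h0 : ∀ᵐ x ∂m, x ∉ closedBall o R → f x = 0)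
    {t M η : ℝ} (ht : 0 < t) (hM : 0 < M) (hη : 0 < η) :
    ∃ L : ℝ, 0 ≤ L ∧ ∀ (o' : X) (r l : ℝ) (μ₀ μ₁ : Measure X), BM m M o' r μ₀ → BM m M o' r μ₁ →
      0 < l → |∫ x, heat m m t f x ∂μ₁ - ∫ x, heat m m t f x ∂μ₀| ≤
        l / 2 * (∫ x, heat m m t (dens m μ₀) x * Gam m f f x ∂m + η +
            L * Real.sqrt (Real.exp (2 * κ * t) * W2 μ₀ μ₁)) +
          Real.exp (2 * κ * t) * W2 μ₀ μ₁ / (2 * l) + 2 * B * (Real.exp (2 * κ * t) * W2 μ₀ μ₁) := by
  obtain ⟨L, hL, H⟩ := kuw_measure hG hf hB0 hB hR h0 (M := 2 * M + 1) (by positivity) hη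
  refine ⟨L, hL, fun o' r l μ₀ μ₁ h₀ h₁ hl => ?_⟩
  have i1 : Integrable f m :=
    (IsL2OnBalls.integrableOn (l2b_of_memLp hf.memLp) o R).integrable_of_ae_notMem_eq_zero h0
  have i2 : Integrable (Gam m f f) m := SW.integrable_gam (DS.hilb (m := m) (μ := m)) hf hf
  have h0' : ∀ᵐ x ∂m, x ∉ closedBall o R → Gam m f f x = 0 := by
    filter_upwards [h0, hf.sl.Dw_eq_zero, hf.sl.gam_self] with x a1 a2 a3 hx
    rw [a3, a2 (a1 hx)]
    simp
  have e : ∀ {μ : Measure X}, BM m M o' r μ →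
      ∫ x, heat m m t f x ∂μ = ∫ x, heat m m t (dens m μ) x * f x ∂m := fun h => by
    have := h.1.1
    rw [integral_dens h.ac, heat_symm h.memLp hf.memLp ht.le]
  rw [e h₀, e h₁]
  have hc : 0 ≤ Real.exp (2 * κ * t) * W2 μ₀ μ₁ := mul_nonneg (Real.exp_pos _).le (W2_nonneg _ _)
  have key := fun ε (hε : 0 < ε) => contraction hG hκ hE h₀ h₁ ht o R hε
  generalize Real.exp (2 * κ * t) * W2 μ₀ μ₁ = c at hc key ⊢
  have hΦ : Continuous fun ε : ℝ => l / 2 * (∫ x, heat m m t (dens m μ₀) x * Gam m f f x ∂m +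
      ε * ∫ x, |Gam m f f x| ∂m + η + L * Real.sqrt (c + ε)) + (c + ε) / (2 * l) + 2 * B * (c + ε) +
      2 * (ε * ∫ x, |f x| ∂m) := by fun_prop
  have h2 := (hΦ.tendsto 0).mono_left (nhdsWithin_le_nhds (s := Ioi 0))
  simp only [zero_mul, add_zero, mul_zero] at h2
  refine ge_of_tendsto h2 (eventually_mem_nhdsWithin.mono fun ε (hε : 0 < ε) => ?_)
  obtain ⟨ν₀, ν₁, q, p₀, p₁, a₀, a₁, hq, hcost, b₀, b₁⟩ := key ε hε
  have k1 := H ν₀ ν₁ q (c + ε) l p₀ p₁ a₀ a₁ hq (by linarith) hcost hl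
  have k2 := abs_le.1 (k1b_cmp a₀ (heat_meas t _) i1 h0 b₀)
  have k3 := abs_le.1 (k1b_cmp a₁ (heat_meas t _) i1 h0 b₁)
  have k4 := mul_le_mul_of_nonneg_left (abs_le.1 (k1b_cmp a₀ (heat_meas t _) i2 h0' b₀)).2 (half_pos hl).le
  have k5 := abs_le.1 k1
  exact abs_le.2 ⟨by linarith [k2.1, k2.2, k3.1, k3.2, k5.1], by linarith [k2.1, k2.2, k3.1, k3.2, k5.2]⟩

end Crest.Agent.R242
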