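import Crest.Agent.R242.K1

/-! Block K2: the gradient estimate.
`kuw_plan`: `μᵢ = marg P (i/n)` satisfy `BM m C o' R'` (`Plan.cmpr`, `Plan.tracks`); `Wᵢ = W2 μᵢ μᵢ₊₁` has
`Wᵢ ≤ (1/n) Eᵢ`, `Eᵢ` the kinetic energy on `[i/n,(i+1)/n]` (`W2_le_plan`, `Plan.sq_dist_le`), `∑ Eᵢ = E`.
Use `kuw_heat` on each piece with `l e^{2κt}/n`; `∫ P_t(dens μᵢ) Γf = ∫ S dμᵢ`; `∑ Wᵢ ≤ E/n`,
`(1/n)∑ √Wᵢ ≤ √(E/n)`, Riemann sums of the continuous `r ↦ ∫ S(γ r)` (`Cmpr.cont`); `n → ∞`, `η → 0`.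
`ge_cpt`: `exists_heat_L1`, `wug_of_young`, `SL.Dw_le`.  `ge_of_good`: `exists_trunc`,
`exists_cutoff_approx`; both sides are continuous in energy (`en_heat_le`, `heat_sub_fun`,
`tendsto_gam_L1`, `heat_mem_Icc`); if `X` is empty everything is `0`. -/

set_option autoImplicit false
set_option linter.unusedSectionVars false
set_option linter.unusedVariables false
open MeasureTheory Filter Set Metric
open scoped ENNReal NNReal Topology
open Crest.GeometryTopology.SyntheticRicci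

noncomputable section
namespace Crest.Agent.R242

variable {X : Type*} [MetricSpace X] [MeasurableSpace X] [BorelSpace X] [ProperSpace X]
  {m : Measure X} [IsFiniteMeasureOnCompacts m] [m.IsOpenPosMeasure] [DS m m]

variable {κ B R : ℝ} {o : X} {f : X → ℝ}

theorem k2a_tele {A F : ℝ → ℝ} {δ : ℝ} (hδ : 0 < δ)
    (h : ∀ a b, 0 ≤ a → a < b → b ≤ 1 → b - a ≤ δ → |A b - A a| ≤ F b - F a) :
    |A 1 - A 0| ≤ F 1 - F 0 := by
  obtain ⟨n, hn⟩ := exists_nat_one_div_lt hδ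
  have hp : (0 : ℝ) < (n : ℝ) + 1 := by positivity
  have key : ∀ i : ℕ, i ≤ n + 1 → |A (i / (n + 1)) - A 0| ≤ F (i / (n + 1)) - F 0 := by
    intro i
    induction i with
    | zero => intro _; simp
    | succ i ih =>
      intro hi
      have h1 := ih (by omega)
      have hi' : ((i + 1 : ℕ) : ℝ) ≤ (n : ℝ) + 1 := by exact_mod_cast hi
      have h2 := h (i / (n + 1)) ((i + 1 : ℕ) / (n + 1)) (by positivity)
        (div_lt_div_of_pos_right (by push_cast; linarith) hp) ((div_le_one hp).2 hi')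
        (by rw [← sub_div]; push_cast; rw [add_sub_cancel_left]; exact hn.le)
      have h3 := abs_sub_le (A ((i + 1 : ℕ) / (n + 1))) (A (i / (n + 1))) (A 0)
      linarith
  have := key (n + 1) le_rfl
  rwa [Nat.cast_succ, div_self hp.ne'] at this

theorem k2a_abs {A g e : ℝ → ℝ} {c l B : ℝ} (hc : 0 < c) (hl : 0 < l) (hB : 0 ≤ B)
    (hg : ContinuousOn g (Icc 0 1)) (he0 : e 0 = 0)
    (he : ∀ a b, 0 ≤ a → a ≤ b → b ≤ 1 → e a ≤ e b)
    (h : ∀ η : ℝ, 0 < η → ∃ L : ℝ, 0 ≤ L ∧ ∀ a b lam : ℝ, 0 ≤ a → a < b → b ≤ 1 → 0 < lam →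
      ∃ w : ℝ, 0 ≤ w ∧ w ≤ (b - a) * (e b - e a) ∧
      |A b - A a| ≤ lam / 2 * (g a + η + L * Real.sqrt (c * w)) + c * w / (2 * lam) +
        2 * B * (c * w)) :
    |A 1 - A 0| ≤ l / 2 * (c * ∫ r in (0 : ℝ)..1, g r) + 1 / (2 * l) * e 1 := by
  have hE : 0 ≤ e 1 := he0 ▸ he 0 1 le_rfl zero_le_one le_rfl
  refine le_of_forall_pos_le_add fun ε₀ hε₀ => ?_
  obtain ⟨ε, hε, hεe⟩ : ∃ ε : ℝ, 0 < ε ∧ ε * (3 * (l * c / 2) + e 1) = ε₀ :=
    ⟨ε₀ / (3 * (l * c / 2) + e 1), by positivity, div_mul_cancel₀ _ (by positivity)⟩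
  obtain ⟨L, hL, hA⟩ := h ε hε
  obtain ⟨δ₁, hδ₁, hu⟩ := Metric.uniformContinuousOn_iff_le.1
    (isCompact_Icc.uniformContinuousOn_of_continuous hg) ε hε
  have t1 : Tendsto (fun δ : ℝ => L * Real.sqrt (c * (δ * e 1))) (𝓝[>] 0) (𝓝 0) := by
    have : Continuous fun δ : ℝ => L * Real.sqrt (c * (δ * e 1)) := by fun_prop
    simpa using (this.tendsto 0).mono_left nhdsWithin_le_nhds
  have t2 : Tendsto (fun δ : ℝ => 2 * B * c * δ) (𝓝[>] 0) (𝓝 0) := by
    have : Continuous fun δ : ℝ => 2 * B * c * δ := by fun_prop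
    simpa using (this.tendsto 0).mono_left nhdsWithin_le_nhds
  have t3 : ∀ᶠ δ : ℝ in 𝓝[>] 0, δ ≤ δ₁ :=
    mem_nhdsWithin_of_mem_nhds (Iic_mem_nhds hδ₁)
  obtain ⟨δ, ⟨⟨hδa, hδb⟩, hδc⟩, hδ⟩ := ((((t1.eventually (ge_mem_nhds hε)).and
    (t2.eventually (ge_mem_nhds hε))).and t3).and self_mem_nhdsWithin).exists
  have hδ' : 0 < δ := hδ
  have hi : ∀ a b, 0 ≤ a → a ≤ b → b ≤ 1 → IntervalIntegrable g volume a b := fun a b ha hab hb =>
    (hg.mono (by rw [uIcc_of_le hab]; exact Icc_subset_Icc ha hb)).intervalIntegrable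
  have key := k2a_tele (A := A) (F := fun s => l * c / 2 * ((∫ r in (0 : ℝ)..s, g r) + 3 * ε * s) +
      (1 / (2 * l) + ε) * e s) hδ' fun a b ha hab hb hd => by
    have hba : 0 < b - a := sub_pos.2 hab
    obtain ⟨w, hw0, hw, h1⟩ := hA a b (l * c * (b - a)) ha hab hb (by positivity)
    have hD0 : 0 ≤ e b - e a := sub_nonneg.2 (he a b ha hab.le hb)
    have hD1 : e b - e a ≤ e 1 := by
      have a1 := he 0 a le_rfl ha (hab.le.trans hb)
      have a2 := he b 1 (ha.trans hab.le) hb le_rfl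
      linarith
    have b1 : L * Real.sqrt (c * w) ≤ ε := by
      refine le_trans (mul_le_mul_of_nonneg_left (Real.sqrt_le_sqrt ?_) hL) hδa
      exact mul_le_mul_of_nonneg_left (hw.trans (mul_le_mul hd hD1 hD0 hδ'.le)) hc.le
    have b2 : c * w / (2 * (l * c * (b - a))) ≤ 1 / (2 * l) * (e b - e a) := by
      rw [div_le_iff₀ (by positivity)]
      have : 1 / (2 * l) * (e b - e a) * (2 * (l * c * (b - a))) = c * ((b - a) * (e b - e a)) := by
        field_simp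
      rw [this]
      exact mul_le_mul_of_nonneg_left hw hc.le
    have b3 : 2 * B * (c * w) ≤ ε * (e b - e a) := by
      have a1 : w ≤ δ * (e b - e a) := hw.trans (mul_le_mul_of_nonneg_right hd hD0)
      have a2 := mul_le_mul_of_nonneg_left a1 (by positivity : 0 ≤ 2 * B * c)
      have a3 := mul_le_mul_of_nonneg_right hδb hD0
      linarith
    have b4 : (b - a) * (g a - ε) ≤ ∫ r in a..b, g r := by
      have := intervalIntegral.integral_mono_on (f := fun _ => g a - ε) hab.le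
        intervalIntegrable_const (hi a b ha hab.le hb) fun x hx => by
          have a1 := hu x ⟨ha.trans hx.1, hx.2.trans hb⟩ a ⟨ha, hab.le.trans hb⟩ (by
            rw [Real.dist_eq, abs_of_nonneg (sub_nonneg.2 hx.1)]
            linarith [hx.2])
          rw [Real.dist_eq] at a1
          linarith [(abs_le.1 a1).1]
      simpa only [intervalIntegral.integral_const, smul_eq_mul] using this
    have b5 := intervalIntegral.integral_add_adjacent_intervals (hi 0 a le_rfl ha (hab.le.trans hb))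
      (hi a b ha hab.le hb)
    have b6 : l * c * (b - a) / 2 * (g a + ε + L * Real.sqrt (c * w)) ≤
        l * c / 2 * ((∫ r in a..b, g r) + 3 * ε * (b - a)) := by
      have a1 := mul_le_mul_of_nonneg_left b1 hba.le
      have a2 : (b - a) * (g a + ε + L * Real.sqrt (c * w)) ≤
          (∫ r in a..b, g r) + 3 * ε * (b - a) := by linarith
      have a3 := mul_le_mul_of_nonneg_left a2 (by positivity : 0 ≤ l * c / 2)
      linarith
    rw [← b5]
    linarith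
  simp only [intervalIntegral.integral_same, he0] at key
  linarith

theorem k2a_meas (a b : ℝ) :
    Measurable fun γ : UCurve X => ∫⁻ t in Icc a b, upperSpeed γ t ^ 2 :=
  Measurable.lintegral_prod_right' (f := fun p : UCurve X × ℝ => upperSpeed p.1 p.2 ^ 2)
    (measurable_upperSpeed.pow_const 2)

theorem k2a_split (P : Measure (UCurve X)) {a b : ℝ} (ha : 0 ≤ a) (hab : a ≤ b) :
    ∫⁻ γ, (∫⁻ t in Icc (0 : ℝ) a, upperSpeed γ t ^ 2) ∂P +
      ∫⁻ γ, (∫⁻ t in Icc a b, upperSpeed γ t ^ 2) ∂P =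
      ∫⁻ γ, (∫⁻ t in Icc (0 : ℝ) b, upperSpeed γ t ^ 2) ∂P := by
  rw [← lintegral_add_left (k2a_meas 0 a)]
  exact lintegral_congr fun γ => a3b_split _ ha hab

theorem k2a_W {P : Measure (UCurve X)} (hP : Plan m P) {a b : ℝ} (ha : 0 ≤ a) (hab : a ≤ b)
    (hb : b ≤ 1) :
    (∫⁻ γ, (∫⁻ t in Icc (0 : ℝ) a, upperSpeed γ t ^ 2) ∂P).toReal ≤
      (∫⁻ γ, (∫⁻ t in Icc (0 : ℝ) b, upperSpeed γ t ^ 2) ∂P).toReal ∧
    W2 (marg P a) (marg P b) ≤ (b - a) *
      ((∫⁻ γ, (∫⁻ t in Icc (0 : ℝ) b, upperSpeed γ t ^ 2) ∂P).toReal -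
        (∫⁻ γ, (∫⁻ t in Icc (0 : ℝ) a, upperSpeed γ t ^ 2) ∂P).toReal) := by
  have := hP.prob
  obtain ⟨o, R, -, hT⟩ := hP.tracks
  have h1 := k2a_split P ha hab
  have h2 := k2a_split P (ha.trans hab) hb
  have h3 := hP.1.2.2.2
  rw [← h2, ENNReal.add_lt_top, ← h1, ENNReal.add_lt_top] at h3
  have h4 := congrArg ENNReal.toReal h1
  rw [ENNReal.toReal_add h3.1.1.ne h3.1.2.ne] at h4
  refine ⟨by rw [← h4]; exact le_add_of_nonneg_right ENNReal.toReal_nonneg, ?_⟩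
  rw [← h4, add_sub_cancel_left]
  refine (W2_le_plan (o := o) (R := R) (hT.mono fun γ h => ⟨h a, h b⟩)).trans ?_
  have hm : Continuous fun γ : UCurve X => dist (γ.ext a) (γ.ext b) ^ 2 :=
    ((continuous_ext_at a).dist (continuous_ext_at b)).pow 2
  rw [integral_eq_lintegral_of_nonneg_ae (Eventually.of_forall fun γ => sq_nonneg _)
    hm.measurable.aestronglyMeasurable, ← ENNReal.toReal_ofReal (sub_nonneg.2 hab),
    ← ENNReal.toReal_mul]
  refine ENNReal.toReal_mono (ENNReal.mul_ne_top ENNReal.ofReal_ne_top h3.1.2.ne) ?_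
  refine le_trans (le_of_eq ?_) (hP.sq_dist_le ha hab hb)
  refine lintegral_congr fun γ => ?_
  rw [edist_dist, ENNReal.ofReal_pow dist_nonneg]

theorem kuw_plan (hG : HasGood m κ) (hκ : 0 ≤ κ) (hE : ExpGrowth m) (hf : SW m f) (hB0 : 0 ≤ B)
    (hB : ∀ᵐ x ∂m, |f x| ≤ B) (hR : 0 ≤ R) (h0 : ∀ᵐ x ∂m, x ∉ closedBall o R → f x = 0)
    {t : ℝ} (ht : 0 < t) {S : X → ℝ} (hS : Measurable S) (hS0 : ∀ x, 0 ≤ S x) (hSi : Integrable S m)
    (hSd : ∀ (h : X → ℝ) (M : ℝ), MemLp h 2 m → (∀ᵐ x ∂m, 0 ≤ h x ∧ h x ≤ M) →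
      ∫ x, h x * S x ∂m = ∫ x, heat m m t h x * Gam m f f x ∂m)
    {P : Measure (UCurve X)} (hP : Plan m P) {l : ℝ} (hl : 0 < l) :
    |∫ γ, heat m m t f (γ.ext 1) ∂P - ∫ γ, heat m m t f (γ.ext 0) ∂P| ≤
      l / 2 * (∫ r in (0 : ℝ)..1, ∫ γ, (Real.exp (κ * t) * Real.sqrt (S (γ.ext r))) ^ 2 ∂P) +
        1 / (2 * l) * (∫⁻ γ, (∫⁻ t in Icc (0 : ℝ) 1, upperSpeed γ t ^ 2) ∂P).toReal := by
  have := hP.prob
  obtain ⟨C, hC0, hC⟩ := hP.cmpr
  obtain ⟨o', R', -, hT⟩ := hP.tracks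
  have hBM : ∀ a ∈ Icc (0 : ℝ) 1, BM m C o' R' (marg P a) := fun a ha =>
    ⟨g1b_pb (hT.mono fun γ h => h a), hC a ha⟩
  have e1 : ∀ r : ℝ, ∫ γ, (Real.exp (κ * t) * Real.sqrt (S (γ.ext r))) ^ 2 ∂P =
      Real.exp (2 * κ * t) * ∫ γ, S (γ.ext r) ∂P := fun r => by
    rw [← integral_const_mul]
    refine integral_congr_ae (Eventually.of_forall fun γ => ?_)
    simp only
    rw [mul_pow, Real.sq_sqrt (hS0 _), ← Real.exp_nat_mul]
    congr 2
    push_cast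
    ring
  simp only [e1]
  rw [intervalIntegral.integral_const_mul]
  refine k2a_abs (A := fun s => ∫ γ, heat m m t f (γ.ext s) ∂P) (g := fun r => ∫ γ, S (γ.ext r) ∂P)
    (e := fun s => (∫⁻ γ, (∫⁻ t in Icc (0 : ℝ) s, upperSpeed γ t ^ 2) ∂P).toReal) (B := B)
    (Real.exp_pos _) hl hB0 (hC.cont hT hSi.integrableOn) (by simp)
    (fun a b ha hab hb => (k2a_W hP ha hab hb).1) fun η hη => ?_
  obtain ⟨L, hL, h⟩ := kuw_heat hG hκ hE hf hB0 hB hR h0 ht hC0 hη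
  refine ⟨L, hL, fun a b lam ha hab hb hlam => ⟨W2 (marg P a) (marg P b), W2_nonneg _ _,
    (k2a_W hP ha hab.le hb).2, ?_⟩⟩
  have ha' : a ∈ Icc (0 : ℝ) 1 := ⟨ha, hab.le.trans hb⟩
  have hb' : b ∈ Icc (0 : ℝ) 1 := ⟨ha.trans hab.le, hb⟩
  have h1 := h o' R' lam _ _ (hBM a ha') (hBM b hb') hlam
  have := (hBM a ha').1.1
  rw [← hSd _ C (hBM a ha').memLp ((hBM a ha').dens_le.mono fun x hx => ⟨dens_nonneg _ x, hx⟩),
    ← integral_dens (hBM a ha').ac, hC.integral_marg hSi.aestronglyMeasurable ha',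
    hC.integral_marg (heat_meas t f).aestronglyMeasurable ha',
    hC.integral_marg (heat_meas t f).aestronglyMeasurable hb'] at h1
  exact h1

theorem ge_cpt (hG : HasGood m κ) (hκ : 0 ≤ κ) (hE : ExpGrowth m) (hf : SW m f) (hB0 : 0 ≤ B)
    (hB : ∀ᵐ x ∂m, |f x| ≤ B) (hR : 0 ≤ R) (h0 : ∀ᵐ x ∂m, x ∉ closedBall o R → f x = 0)
    {h : X → ℝ} {M t : ℝ} (hh : MemLp h 2 m) (hM : ∀ᵐ x ∂m, 0 ≤ h x ∧ h x ≤ M) (ht : 0 < t) :
    ∫ x, h x * Gam m (heat m m t f) (heat m m t f) x ∂m ≤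
      Real.exp (2 * κ * t) * ∫ x, heat m m t h x * Gam m f f x ∂m := by
  have hI : IsInfHilbertian m := DS.hilb (μ := m)
  have hu : SW m (heat m m t f) := hf.heat ht.le
  obtain ⟨S, hS, hS0, hSi, hSd⟩ := exists_heat_L1 (μ := m) (SW.integrable_gam hI hf hf)
    (hf.sl.gam_self.mono fun x hx => by rw [hx]; positivity) ht.le
  have hq : MemLp (fun x => Real.sqrt (S x)) 2 m := by
    rw [memLp_two_iff_integrable_sq hS.sqrt.aestronglyMeasurable]
    exact hSi.congr (Eventually.of_forall fun x => (Real.sq_sqrt (hS0 x)).symm)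
  have hw := wug_of_young (G := fun x => Real.exp (κ * t) * Real.sqrt (S x)) (l2b_of_memLp hu.memLp)
    (l2b_of_memLp (hq.const_mul _)) (Eventually.of_forall fun x => by positivity)
    fun P hP l hl => kuw_plan hG hκ hE hf hB0 hB hR h0 ht hS hS0 hSi hSd hP hl
  have hb : ∀ᵐ x ∂m, ‖h x‖ ≤ M := hM.mono fun x hx => by
    rw [Real.norm_eq_abs, abs_of_nonneg hx.1]
    exact hx.2
  rw [← hSd h M hh hM, ← integral_const_mul]
  refine integral_mono_ae ((SW.integrable_gam hI hu hu).bdd_mul hh.1 hb)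
    ((hSi.bdd_mul hh.1 hb).const_mul _) ?_
  filter_upwards [hM, hu.sl.gam_self, hu.sl.Dw_le hw, Dw_nonneg (m := m) (heat m m t f)]
    with x h1 h2 h3 h4
  have h5 : Dw m (heat m m t f) x ^ 2 ≤ Real.exp (2 * κ * t) * S x := by
    refine (pow_le_pow_left₀ h4 h3 2).trans (le_of_eq ?_)
    rw [mul_pow, Real.sq_sqrt (hS0 x), ← Real.exp_nat_mul]
    congr 2
    push_cast
    ring
  rw [h2, mul_left_comm]
  exact mul_le_mul_of_nonneg_left h5 h1.1

theorem k2b_mul {w g₀ : X → ℝ} {g : ℕ → X → ℝ} {M : ℝ} (hw : AEStronglyMeasurable w m)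
    (hM : ∀ᵐ x ∂m, 0 ≤ w x ∧ w x ≤ M) (hg : ∀ n, Integrable (g n) m) (hg₀ : Integrable g₀ m)
    (h : Tendsto (fun n => ∫ x, |g n x - g₀ x| ∂m) atTop (𝓝 0)) :
    Tendsto (fun n => ∫ x, w x * g n x ∂m) atTop (𝓝 (∫ x, w x * g₀ x ∂m)) := by
  have hb : ∀ᵐ x ∂m, ‖w x‖ ≤ M := hM.mono fun x hx => by
    rw [Real.norm_eq_abs, abs_of_nonneg hx.1]
    exact hx.2
  rw [tendsto_iff_norm_sub_tendsto_zero]
  have h1 := h.const_mul M
  rw [mul_zero] at h1
  refine squeeze_zero (fun _ => norm_nonneg _) (fun n => ?_) h1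
  rw [← integral_sub ((hg n).bdd_mul hw hb) (hg₀.bdd_mul hw hb), ← integral_const_mul]
  refine norm_integral_le_of_norm_le (((hg n).sub hg₀).abs.const_mul M) (hb.mono fun x hx => ?_)
  rw [← mul_sub, norm_mul]
  exact mul_le_mul_of_nonneg_right hx (norm_nonneg _)

theorem k2b_lim {F : ℕ → X → ℝ} (hf : SW m f) (hF : ∀ n, SW m (F n))
    (hl : Tendsto (fun n => en m m fun x => F n x - f x) atTop (𝓝 0)) {h : X → ℝ} {M t : ℝ}
    (hh : MemLp h 2 m) (hM : ∀ᵐ x ∂m, 0 ≤ h x ∧ h x ≤ M) (ht : 0 < t)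
    (H : ∀ n, ∫ x, h x * Gam m (heat m m t (F n)) (heat m m t (F n)) x ∂m ≤
      Real.exp (2 * κ * t) * ∫ x, heat m m t h x * Gam m (F n) (F n) x ∂m) :
    ∫ x, h x * Gam m (heat m m t f) (heat m m t f) x ∂m ≤
      Real.exp (2 * κ * t) * ∫ x, heat m m t h x * Gam m f f x ∂m := by
  have hI : IsInfHilbertian m := DS.hilb (μ := m)
  have hu : SW m (heat m m t f) := hf.heat ht.le
  have hU : ∀ n, SW m (heat m m t (F n)) := fun n => (hF n).heat ht.le
  have hl' : Tendsto (fun n => en m m fun x => heat m m t (F n) x - heat m m t f x) atTop (𝓝 0) := by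
    refine squeeze_zero (fun n => en_nonneg ((hU n).sub hu).sl) (fun n => ?_) hl
    rw [← en_congr (heat_sub_fun (hF n).memLp hf.memLp t)]
    exact en_heat_le ((hF n).sub hf) ht.le
  have l1 := k2b_mul hh.1 hM (fun n => SW.integrable_gam hI (hU n) (hU n))
    (SW.integrable_gam hI hu hu)
    (tendsto_gam_L1 (Eventually.of_forall hU) (Eventually.of_forall hU) hu hu hl' hl')
  have l2 := k2b_mul (heat_memLp (μ := m) t h).1
    (heat_mem_Icc hh (le_max_right M 0) ht.le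
      (hM.mono fun x hx => ⟨hx.1, hx.2.trans (le_max_left _ _)⟩))
    (fun n => SW.integrable_gam hI (hF n) (hF n)) (SW.integrable_gam hI hf hf)
    (tendsto_gam_L1 (Eventually.of_forall hF) (Eventually.of_forall hF) hf hf hl hl)
  exact le_of_tendsto_of_tendsto' l1 (l2.const_mul _) H

theorem ge_of_good (hG : HasGood m κ) (hκ : 0 ≤ κ) (hE : ExpGrowth m) : GE m m κ := by
  intro f h M t hf hh hM ht
  rcases isEmpty_or_nonempty X with hX | ⟨⟨o⟩⟩
  · simp [integral_of_isEmpty]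
  obtain ⟨h1, -, h2⟩ := exists_trunc (μ := m) hf
  refine k2b_lim hf h1 h2 hh hM ht fun n => ?_
  obtain ⟨h3, -, h4⟩ := exists_cutoff_approx (μ := m) (h1 n) o
  refine k2b_lim (h1 n) h3 h4 hh hM ht fun k => ?_
  refine ge_cpt hG hκ hE (h3 k) (Nat.cast_nonneg n) (Eventually.of_forall fun x => ?_)
    (R := (k : ℝ) + 1) (o := o) (by positivity) (Eventually.of_forall fun x hx => ?_) hh hM ht
  · have hc0 : 0 ≤ cut o k 1 x := le_max_left _ _
    have hc1 : cut o k 1 x ≤ 1 := max_le zero_le_one (min_le_left _ _)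
    rw [abs_mul, abs_of_nonneg hc0]
    exact (mul_le_of_le_one_left (abs_nonneg _) hc1).trans (c3b_abs_le _ _ (Nat.cast_nonneg n)).1
  · rw [mem_closedBall, not_le] at hx
    have : cut o k 1 x = 0 := max_eq_left ((min_le_right _ _).trans (by rw [div_one]; linarith))
    rw [this, zero_mul]

end Crest.Agent.R242
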