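import Crest.Agent.R242.G1
import Crest.Agent.R242.B5

/-! Block L1: Sobolev-to-Lipschitz.
`dualLip_of_Dw`: both measures live on `closedBall x (dist x y + r)`; good plan, `plan_of_geo`, the definition
of weak upper gradient (`wug_mono` to the constant `b`), `upperSpeed_geo`, `OptGeo.len_le'`.
`DualLip.lipAE`: `v x = lim_{n} ∫ u d(cond m (closedBall x (1/(n+1))))` (Cauchy by the hypothesis with
`x = y`, `bm_cond`, `BM.mono`), `v` is `b`-Lipschitz; for measurable `A ⊆ closedBall x r` of positive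
measure `|avg_A u - v x| ≤ 2br`, so `|∫_A (u - v)| ≤ 3br m(A)` and `|u - v| ≤ 3br` a.e. on the ball;
countable cover, `r → 0`. -/

set_option autoImplicit false
set_option linter.unusedSectionVars false
set_option linter.unusedVariables false
open MeasureTheory Filter Set Metric
open scoped ENNReal NNReal Topology
open Crest.GeometryTopology.SyntheticRicci

noncomputable section
namespace Crest.Agent.R242

variable {X : Type*} [MetricSpace X] [MeasurableSpace X] [BorelSpace X] [ProperSpace X]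
  {m : Measure X} [IsFiniteMeasureOnCompacts m] [m.IsOpenPosMeasure]

theorem l1a_ae {o : X} {R : ℝ} {μ : Measure X} (h : PB o R μ) : ∀ᵐ z ∂μ, z ∈ closedBall o R := h.2

theorem l1a_int {u : X → ℝ} (hu : IsL2OnBalls m u) {M R : ℝ} {o : X} {μ : Measure X} (h : BM m M o R μ) :
    Integrable u μ := by
  rw [← Measure.restrict_eq_self_of_ae_mem (l1a_ae h.1)]
  have h1 : μ.restrict (closedBall o R) ≤ ENNReal.ofReal M • m.restrict (closedBall o R) := by
    rw [← Measure.restrict_smul]
    exact Measure.restrict_mono_measure h.2 _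
  exact ((IsL2OnBalls.integrableOn hu o R).integrable.smul_measure ENNReal.ofReal_ne_top).mono_measure h1

theorem dualLip_of_Dw {κ : ℝ} (hG : HasGood m κ) {u : X → ℝ} {b : ℝ} (hb : 0 ≤ b) (hu : SL m u)
    (h : ∀ᵐ x ∂m, Dw m u x ≤ b) : DualLip m u b := by
  intro x y r M μ₀ μ₁ hr h0 h1
  have hd : 0 ≤ dist x y := dist_nonneg
  have h0' : BM m (max M 1) x (dist x y + r) μ₀ := h0.mono (le_max_left _ _) (by linarith)
  have h1' : BM m (max M 1) x (dist x y + r) μ₁ := by
    refine ⟨⟨h1.1.1, measure_mono_null (compl_subset_compl.2 (closedBall_subset_closedBall' ?_)) h1.1.2⟩,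
      (h1.mono (le_max_left _ _) le_rfl).2⟩
    rw [dist_comm, add_comm]
  obtain ⟨P, hP⟩ := hG x _ _ μ₀ μ₁ (by linarith) (lt_max_of_lt_right one_pos) h0' h1'
  have := hP.prob
  have hpl := (plan_of_geo hP.cmpr hP.geo).1
  have hw := (wug_mono hu.wug (l2b_of_continuous (continuous_const (y := b))) h).2.2 P hpl.1 hpl.2
  have hle : ∫⁻ γ, ENNReal.ofReal |u (γ.toMap 1) - u (γ.toMap 0)| ∂P ≤
      ENNReal.ofReal (b * (dist x y + 2 * r)) := by
    refine hw.trans ?_
    calc _ ≤ ∫⁻ _γ, ENNReal.ofReal (b * (dist x y + 2 * r)) ∂P := by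
          refine lintegral_mono_ae ?_
          filter_upwards [hP.geo, hP.toOptGeo.len_le' h0.1 h1.1] with γ hg hl
          rw [← restrict_Ioo_eq_restrict_Icc]
          calc _ ≤ ∫⁻ _t in Ioo (0 : ℝ) 1, ENNReal.ofReal (b * (dist x y + 2 * r)) := by
                refine setLIntegral_mono' measurableSet_Ioo fun t ht => ?_
                rw [upperSpeed_geo hg.1 ht, ← ENNReal.ofReal_mul hb]
                exact ENNReal.ofReal_le_ofReal (mul_le_mul_of_nonneg_left hl hb)
            _ = _ := by simp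
      _ = _ := by simp
  have i0 := l1a_int hu.1 h0
  have i1 := l1a_int hu.1 h1
  rw [← hP.m0] at i0
  rw [← hP.m1] at i1
  have j0 : Integrable (fun γ : UCurve X => u (γ.ext 0)) P :=
    (integrable_map_measure i0.1 (measurable_ext_at 0).aemeasurable).1 i0
  have j1 : Integrable (fun γ : UCurve X => u (γ.ext 1)) P :=
    (integrable_map_measure i1.1 (measurable_ext_at 1).aemeasurable).1 i1
  rw [← hP.m0, ← hP.m1, marg, marg, integral_map (measurable_ext_at 0).aemeasurable i0.1,
    integral_map (measurable_ext_at 1).aemeasurable i1.1, abs_sub_comm, ← integral_sub j1 j0]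
  refine (norm_integral_le_lintegral_norm fun γ : UCurve X => u (γ.ext 1) - u (γ.ext 0)).trans ?_
  refine ENNReal.toReal_le_of_le_ofReal (by positivity) (le_of_eq_of_le ?_ hle)
  simp only [Real.norm_eq_abs, ext_zero, ext_one]

theorem l1b_avg {u : X → ℝ} {b : ℝ} (h : DualLip m u b) {x y : X} {r : ℝ} (hr : 0 < r) {A B : Set X}
    (hA : MeasurableSet A) (hB : MeasurableSet B) (hAx : A ⊆ closedBall x r) (hBy : B ⊆ closedBall y r)
    (hA0 : m A ≠ 0) (hB0 : m B ≠ 0) :
    |⨍ z in A, u z ∂m - ⨍ z in B, u z ∂m| ≤ b * (dist x y + 2 * r) := by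
  rw [setAverage_eq', setAverage_eq']
  exact h x y r _ _ _ hr ((bm_cond hA hAx hA0).mono (le_max_left _ _) le_rfl)
    ((bm_cond hB hBy hB0).mono (le_max_right _ _) le_rfl)

theorem l1b_ae {u : X → ℝ} {b : ℝ} (hu : IsL2OnBalls m u) (h : DualLip m u b) (x : X) {r : ℝ}
    (hr : 0 < r) : ∀ᵐ z ∂m, z ∈ closedBall x r →
      |u z - ⨍ y in closedBall x r, u y ∂m| ≤ b * (2 * r) := by
  have hi := IsL2OnBalls.integrableOn hu x r
  have hf : m (closedBall x r) ≠ ⊤ := measure_closedBall_lt_top.ne
  set c := ⨍ y in closedBall x r, u y ∂m with hc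
  have key : ∀ ε : ℝ, |ε| = 1 →
      0 ≤ᵐ[m.restrict (closedBall x r)] fun z => b * (2 * r) - ε * c + ε * u z := fun ε hε => by
    refine ae_nonneg_restrict_of_forall_setIntegral_nonneg_inter
      ((integrableOn_const hf).add (hi.const_mul ε)) fun s hs hs' => ?_
    rcases eq_or_ne (m (s ∩ closedBall x r)) 0 with h0 | h0
    · rw [setIntegral_measure_zero _ h0]
    have h1 := l1b_avg h hr (hs.inter measurableSet_closedBall) measurableSet_closedBall
      inter_subset_right subset_rfl h0 (measure_closedBall_pos m x hr).ne'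
    rw [integral_add (integrableOn_const hs'.ne).integrable ((hi.mono_set inter_subset_right).const_mul ε),
      setIntegral_const, integral_const_mul, ← measure_smul_setAverage u hs'.ne, smul_eq_mul, smul_eq_mul,
      mul_left_comm ε, ← mul_add]
    refine mul_nonneg measureReal_nonneg ?_
    rw [dist_self, zero_add, ← one_mul |_|, ← hε, ← abs_mul] at h1
    linarith [(abs_le.1 h1).1]
  rw [← ae_restrict_iff' measurableSet_closedBall]
  filter_upwards [key 1 abs_one, key (-1) (by simp)] with z a1 a2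
  simp only [Pi.zero_apply] at a1 a2
  exact abs_le.2 ⟨by linarith, by linarith⟩

theorem DualLip.lipAE {u : X → ℝ} {b : ℝ} (hb : 0 ≤ b) (hu : IsL2OnBalls m u)
    (h : DualLip m u b) : LipAE m u b := by
  obtain ⟨D, hD, hd⟩ := TopologicalSpace.exists_countable_dense X
  have hr : ∀ n : ℕ, (0 : ℝ) < 1 / ((n : ℝ) + 1) := fun n => Nat.one_div_pos_of_nat
  have h1 := (ae_ball_iff hD).2 fun x _ => ae_all_iff.2 fun n : ℕ => l1b_ae hu h x (hr n)
  obtain ⟨v, hv, he⟩ := LipschitzOnWith.extend_real (K := b.toNNReal) (f := u)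
    (s := {z | ∀ x ∈ D, ∀ n : ℕ, z ∈ closedBall x (1 / ((n : ℝ) + 1)) →
      |u z - ⨍ y in closedBall x (1 / ((n : ℝ) + 1)), u y ∂m| ≤ b * (2 * (1 / ((n : ℝ) + 1)))})
    (LipschitzOnWith.of_dist_le_mul fun z hz w hw => by
      have ht : Tendsto (fun n : ℕ => b * (dist z w + 8 * (1 / ((n : ℝ) + 1)))) atTop
          (𝓝 (b * (dist z w + 8 * 0))) :=
        ((tendsto_one_div_add_atTop_nhds_zero_nat.const_mul 8).const_add _).const_mul b
      rw [mul_zero, add_zero] at ht
      rw [Real.coe_toNNReal b hb, Real.dist_eq]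
      refine ge_of_tendsto' ht fun n => ?_
      obtain ⟨x, hx, a1⟩ := hd.exists_dist_lt z (hr n)
      obtain ⟨y, hy, a2⟩ := hd.exists_dist_lt w (hr n)
      have a3 := abs_le.1 (hz x hx n a1.le)
      have a4 := abs_le.1 (hw y hy n a2.le)
      have a5 := abs_le.1 (l1b_avg h (hr n) measurableSet_closedBall measurableSet_closedBall subset_rfl
        subset_rfl (measure_closedBall_pos m x (hr n)).ne' (measure_closedBall_pos m y (hr n)).ne')
      have a6 : b * dist x y ≤ b * (dist z w + 2 * (1 / ((n : ℝ) + 1))) :=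
        mul_le_mul_of_nonneg_left (by linarith [dist_triangle4 x z w y, dist_comm x z]) hb
      exact abs_le.2 ⟨by linarith [a3.1, a4.2, a5.1], by linarith [a3.2, a4.1, a5.2]⟩)
  exact ⟨v, hv, h1.mono fun z hz => he hz⟩

theorem l1a_avg {v : X → ℝ} {b : ℝ} (hb : 0 ≤ b) (hv : LipschitzWith b.toNNReal v) {M r : ℝ} {x : X}
    {μ : Measure X} (h : BM m M x r μ) : |∫ z, v z ∂μ - v x| ≤ b * r := by
  have := h.1.1
  have i0 := l1a_int (l2b_of_continuous hv.continuous) h
  have e : ∫ z, v z ∂μ - v x = ∫ z, (v z - v x) ∂μ := by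
    rw [integral_sub i0 (integrable_const _)]
    simp
  rw [e]
  have h2 := norm_integral_le_of_norm_le_const (μ := μ) (f := fun z => v z - v x) (C := b * r) (by
    filter_upwards [l1a_ae h.1] with z hz
    have h3 := hv.dist_le_mul z x
    rw [Real.coe_toNNReal _ hb] at h3
    exact h3.trans (mul_le_mul_of_nonneg_left hz hb))
  simpa using h2

theorem LipAE.dualLip {u : X → ℝ} {b : ℝ} (hb : 0 ≤ b) (h : LipAE m u b) : DualLip m u b := by
  obtain ⟨v, hv, huv⟩ := h
  intro x y r M μ₀ μ₁ hr h0 h1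
  rw [integral_congr_ae ((Measure.absolutelyContinuous_of_le_smul h0.2).ae_eq huv),
    integral_congr_ae ((Measure.absolutelyContinuous_of_le_smul h1.2).ae_eq huv)]
  have a0 := abs_le.1 (l1a_avg hb hv h0)
  have a1 := abs_le.1 (l1a_avg hb hv h1)
  have h3 := hv.dist_le_mul x y
  rw [Real.coe_toNNReal _ hb, Real.dist_eq, abs_le] at h3
  rw [abs_le]
  constructor <;> nlinarith [a0.1, a0.2, a1.1, a1.2, h3.1, h3.2]

theorem sobLip_of_good {κ : ℝ} (hG : HasGood m κ) : SobLip m :=
  fun _ _ hb hu h => DualLip.lipAE hb hu.1 (dualLip_of_Dw hG hb hu h)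

end Crest.Agent.R242
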