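import Crest.Agent.R242.E3
import Crest.Agent.R242.E4

/-! Block L2, task b (helper12): the smoothing estimate from the gradient estimate. -/

set_option autoImplicit false
set_option linter.unusedSectionVars false
set_option linter.unusedVariables false
open MeasureTheory Filter Set Metric
open scoped ENNReal NNReal Topology
open Crest.GeometryTopology.SyntheticRicci

noncomputable section
namespace Crest.Agent.R242

variable {X : Type*} [MetricSpace X] [MeasurableSpace X] [BorelSpace X] [ProperSpace X]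
  {m : Measure X} [IsFiniteMeasureOnCompacts m] [m.IsOpenPosMeasure] {μ : Measure X} [DS m μ]

theorem l2b_ae (μ : Measure X) [DS m μ] {p : X → Prop} (h : ∀ᵐ x ∂m, p x) : ∀ᵐ x ∂μ, p x :=
  (DS.ac₁ m μ).ae_le h

theorem l2b_mul2 {a b : X → ℝ} {M : ℝ} (ha : AEStronglyMeasurable a μ) (hM : ∀ᵐ x ∂μ, |a x| ≤ M)
    (hb : MemLp b 2 μ) : MemLp (fun x => a x * b x) 2 μ := by
  refine (hb.const_mul M).of_le (ha.mul hb.1) ?_
  filter_upwards [hM] with x hx
  rw [norm_mul, norm_mul, Real.norm_eq_abs, Real.norm_eq_abs M]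
  exact mul_le_mul_of_nonneg_right (hx.trans (le_abs_self _)) (norm_nonneg _)

theorem l2b_mul1 {a b : X → ℝ} {M : ℝ} (ha : AEStronglyMeasurable a μ) (hM : ∀ᵐ x ∂μ, |a x| ≤ M)
    (hb : Integrable b μ) : Integrable (fun x => a x * b x) μ :=
  hb.bdd_mul ha (c := M) (by simpa only [Real.norm_eq_abs] using hM)

theorem l2b_clamp {h : X → ℝ} (hh : MemLp h 2 m) {s : ℝ} (hs : 0 < s) :
    DerL2 μ (fun r => heat m μ (max r 0) h) (lap m μ s h) s (𝓝[≠] 0) := by
  refine Tendsto.congr' ?_ (heat_derL2 (μ := μ) hh hs)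
  have : ∀ᶠ k : ℝ in 𝓝[≠] 0, -s < k := mem_nhdsWithin_of_mem_nhds (Ioi_mem_nhds (by linarith))
  filter_upwards [this] with k hk
  rw [max_eq_left (by linarith : 0 ≤ s + k), max_eq_left hs.le]

theorem l2b_alg {H g a b : X → ℝ} (hH : IsLap m μ H a) (hg : IsLap m μ g b) {N : ℝ}
    (hH' : ∀ᵐ x ∂m, |H x| ≤ N) (hg' : ∀ᵐ x ∂m, |g x| ≤ N) :
    2 * ∫ x, H x * Gam m g g x ∂μ =
      ∫ x, (a x * g x + H x * -b x) * g x ∂μ + ∫ x, H x * g x * -b x ∂μ := by
  have hI := DS.hilb (m := m) μ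
  have L2 : ∀ {u : X → ℝ}, MemLp u 2 m → MemLp u 2 μ := fun hu => (DS.memLp_iff m μ).2 hu
  have hHs : SW m H := hH.1
  have hgs : SW m g := hg.1
  have hHb : EB m H := ⟨_, hH'⟩
  have hgb : EB m g := ⟨_, hg'⟩
  have hp1 : MemLp (fun x => a x * g x) 2 μ := by
    simpa only [mul_comm] using l2b_mul2 (L2 hgs.memLp).1 (l2b_ae μ hg') (L2 hH.2.1)
  have hp2 : MemLp (fun x => H x * -b x) 2 μ := l2b_mul2 (L2 hHs.memLp).1 (l2b_ae μ hH') (L2 hg.2.1).neg
  have e1 := hH.2.2 _ (hgs.mul_bdd hI hgs hgb hgb)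
  have e2 := hg.2.2 _ (hHs.mul_bdd hI hgs hHb hgb)
  have i1 : Integrable (fun x => g x * Gam m g H x) μ :=
    l2b_mul1 (L2 hgs.memLp).1 (l2b_ae μ hg') (e4a_gam μ hgs hHs)
  have i2 : Integrable (fun x => H x * Gam m g g x) μ :=
    l2b_mul1 (L2 hHs.memLp).1 (l2b_ae μ hH') (e4a_gam μ hgs hgs)
  have e3 : ∫ x, Gam m H (fun y => g y * g y) x ∂μ = 2 * ∫ x, g x * Gam m g H x ∂μ := by
    rw [← integral_const_mul]
    refine integral_congr_ae (l2b_ae (m := m) μ ?_)
    obtain ⟨k1, k2⟩ := gam_mul_bdd hI hgs.sl hgs.sl hHs.sl hgb hgb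
    filter_upwards [k2, SL.gam_comm hHs.sl k1] with x h2 h3
    rw [h3, h2]
    ring
  have e4 : ∫ x, Gam m g (fun y => H y * g y) x ∂μ =
      ∫ x, H x * Gam m g g x ∂μ + ∫ x, g x * Gam m g H x ∂μ := by
    rw [← integral_add i2 i1]
    refine integral_congr_ae (l2b_ae (m := m) μ ?_)
    obtain ⟨k1, k2⟩ := gam_mul_bdd hI hHs.sl hgs.sl hgs.sl hHb hgb
    filter_upwards [k2, SL.gam_comm hgs.sl k1, SL.gam_comm hHs.sl hgs.sl] with x h2 h3 h4
    rw [h3, h2, h4]
  have j1 : Integrable (fun x => a x * g x * g x) μ := hp1.integrable_mul (L2 hgs.memLp)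
  have j2 : Integrable (fun x => H x * -b x * g x) μ := hp2.integrable_mul (L2 hgs.memLp)
  have e5 : ∫ x, (a x * g x + H x * -b x) * g x ∂μ =
      ∫ x, a x * (g x * g x) ∂μ - ∫ x, b x * (H x * g x) ∂μ := by
    simp only [add_mul]
    rw [integral_add j1 j2, sub_eq_add_neg, ← integral_neg]
    congr 1 <;> exact integral_congr_ae (Eventually.of_forall fun x => by ring)
  have e6 : ∫ x, H x * g x * -b x ∂μ = -∫ x, b x * (H x * g x) ∂μ := by
    rw [← integral_neg]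
    exact integral_congr_ae (Eventually.of_forall fun x => by ring)
  rw [e5, e6]
  linarith

/-- the derivative of `Φ` -/
theorem l2b_deriv {f h : X → ℝ} (hf : MemLp f 2 m) {M t s : ℝ} (hM0 : 0 ≤ M) (hM : ∀ᵐ x ∂m, |f x| ≤ M)
    (hh : MemLp h 2 m) (h1 : ∀ᵐ x ∂m, 0 ≤ h x ∧ h x ≤ 1) (hs : 0 < s) (hst : s < t) :
    HasDerivAt (fun r => ∫ x, (heat m μ (max r 0) h x * heat m μ (t - r) f x) * heat m μ (t - r) f x ∂μ)
      (2 * ∫ x, heat m μ s h x * Gam m (heat m μ (t - s) f) (heat m μ (t - s) f) x ∂μ) s := by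
  have hI := DS.hilb (m := m) μ
  have hts : 0 < t - s := by linarith
  have L2 : ∀ {u : X → ℝ}, MemLp u 2 m → MemLp u 2 μ := fun hu => (DS.memLp_iff m μ).2 hu
  have haM : ∀ r : ℝ, ∀ᵐ x ∂m, |heat m μ (max r 0) h x| ≤ M + 1 := fun r => by
    filter_upwards [heat_mem_Icc (μ := μ) hh zero_le_one (le_max_right r 0) h1] with x hx
    rw [abs_of_nonneg hx.1]
    linarith [hx.2]
  have hgM : ∀ᵐ x ∂m, |heat m μ (t - s) f x| ≤ M + 1 := by
    filter_upwards [abs_heat_le (μ := μ) hf hM0 hts.le hM] with x hx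
    linarith
  have hA := l2b_clamp (μ := μ) hh hs
  have hB : DerL2 μ (fun r => heat m μ (t - r) f) (fun x => -lap m μ (t - s) f x) s (𝓝[≠] 0) :=
    DerL2.rev (u := fun r => heat m μ r f) (heat_derL2 hf hts)
  have hb' : MemLp (fun x => -lap m μ (t - s) f x) 2 μ := (L2 (lap_memLp _ _)).neg
  have hP := DerL2.mul (a := fun r => heat m μ (max r 0) h) (b := fun r => heat m μ (t - r) f)
    (M := M + 1) le_rfl (fun r => L2 (heat_memLp _ _)) (fun r => L2 (heat_memLp _ _))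
    (L2 (lap_memLp _ _)) hb' (Eventually.of_forall fun k => l2b_ae μ (haM (s + k))) (l2b_ae μ (haM s))
    (l2b_ae μ hgM) hA hB
  have hp : ∀ r : ℝ, MemLp (fun x => heat m μ (max r 0) h x * heat m μ (t - r) f x) 2 μ := fun r =>
    l2b_mul2 (L2 (heat_memLp _ _)).1 (l2b_ae μ (haM r)) (L2 (heat_memLp _ _))
  have hp1 : MemLp (fun x => lap m μ s h x * heat m μ (t - s) f x) 2 μ := by
    simpa only [mul_comm] using l2b_mul2 (L2 (heat_memLp _ _)).1 (l2b_ae μ hgM) (L2 (lap_memLp s h))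
  have hp2 : MemLp (fun x => heat m μ (max s 0) h x * -lap m μ (t - s) f x) 2 μ :=
    l2b_mul2 (L2 (heat_memLp _ _)).1 (l2b_ae μ (haM s)) hb'
  have hp12 : MemLp (fun x => lap m μ s h x * heat m μ (t - s) f x +
      heat m μ (max s 0) h x * -lap m μ (t - s) f x) 2 μ := hp1.add hp2
  have hD := DerL2.hasDerivAt_integral_mul
    (a := fun r x => heat m μ (max r 0) h x * heat m μ (t - r) f x) (b := fun r => heat m μ (t - r) f)
    hp (fun r => L2 (heat_memLp _ _)) hp12 hb' hP hB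
  have hHM := haM s
  rw [max_eq_left hs.le] at hHM
  rw [l2b_alg (isLap_heat (μ := μ) hh hs) (isLap_heat (μ := μ) hf hts) hHM hgM]
  simpa only [max_eq_left hs.le] using hD

theorem l2b_test {κ : ℝ} (hG : GE m μ κ) (hκ : 0 ≤ κ) {f h : X → ℝ} (hf : MemLp f 2 m) {M t : ℝ}
    (hM0 : 0 ≤ M) (hM : ∀ᵐ x ∂m, |f x| ≤ M) (ht : 0 < t) (hh : MemLp h 2 m) (hi : Integrable h m)
    (h1 : ∀ᵐ x ∂m, 0 ≤ h x ∧ h x ≤ 1) :
    ∫ x, h x * Gam m (heat m μ t f) (heat m μ t f) x ∂μ ≤
      Real.exp (2 * κ * t) * M ^ 2 / (2 * t) * ∫ x, |h x| ∂μ := by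
  set c := ∫ x, h x * Gam m (heat m μ t f) (heat m μ t f) x ∂μ with hc
  set T := ∫ x, |h x| ∂μ with hT
  set E := Real.exp (2 * κ * t) with hE
  have hE0 : 0 < E := Real.exp_pos _
  set Φ := fun r => ∫ x, (heat m μ (max r 0) h x * heat m μ (t - r) f x) * heat m μ (t - r) f x ∂μ with hΦ
  have hlow : ∀ s, 0 < s → s < t → 2 * c / E ≤
      2 * ∫ x, heat m μ s h x * Gam m (heat m μ (t - s) f) (heat m μ (t - s) f) x ∂μ := fun s hs hst => by
    have hts : 0 < t - s := by linarith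
    have hgs := heat_sw (μ := μ) hf hts
    have k1 := hG _ h 1 s hgs hh h1 hs
    rw [← heat_heat hf hs.le hts.le, add_sub_cancel] at k1
    have k2 : 0 ≤ ∫ x, heat m μ s h x * Gam m (heat m μ (t - s) f) (heat m μ (t - s) f) x ∂μ := by
      refine integral_nonneg_of_ae (l2b_ae (m := m) μ ?_)
      filter_upwards [heat_mem_Icc (μ := μ) hh zero_le_one hs.le h1, hgs.sl.gam_self] with x h2 h3
      rw [h3]
      exact mul_nonneg h2.1 (sq_nonneg _)
    have k3 : Real.exp (2 * κ * s) ≤ E := Real.exp_le_exp.2 (by nlinarith)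
    rw [div_le_iff₀ hE0]
    nlinarith
  have h0 : ∀ s, 0 ≤ Φ s := fun s => by
    refine integral_nonneg_of_ae (l2b_ae (m := m) μ ?_)
    filter_upwards [heat_mem_Icc (μ := μ) hh zero_le_one (le_max_right s 0) h1] with x h2
    rw [mul_assoc]
    exact mul_nonneg h2.1 (mul_self_nonneg _)
  have hup : ∀ s, s < t → Φ s ≤ M ^ 2 * T := fun s hst => by
    obtain ⟨k1, k2⟩ := heat_integrable (μ := μ) hh hi (le_max_right s 0)
    refine le_trans ?_ (mul_le_mul_of_nonneg_left k2 (sq_nonneg M))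
    rw [← integral_const_mul]
    refine integral_mono_of_nonneg (l2b_ae (m := m) μ ?_) (((DS.integrable_iff m μ).2 k1).abs.const_mul _) (l2b_ae (m := m) μ ?_)
    · filter_upwards [heat_mem_Icc (μ := μ) hh zero_le_one (le_max_right s 0) h1] with x h2
      rw [mul_assoc]
      exact mul_nonneg h2.1 (mul_self_nonneg _)
    · filter_upwards [heat_mem_Icc (μ := μ) hh zero_le_one (le_max_right s 0) h1,
        abs_heat_le (μ := μ) hf hM0 (by linarith : 0 ≤ t - s) hM] with x h2 h3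
      rw [abs_of_nonneg h2.1, mul_assoc, mul_comm]
      refine mul_le_mul_of_nonneg_right ?_ h2.1
      rw [← sq, ← sq_abs]
      exact pow_le_pow_left₀ (abs_nonneg _) h3 2
  have key : ∀ δ, 0 < δ → δ < t / 2 → 2 * c / E * (t - 2 * δ) ≤ M ^ 2 * T := fun δ hδ hδt => by
    have hd : ∀ s ∈ Icc δ (t - δ), HasDerivAt Φ
        (2 * ∫ x, heat m μ s h x * Gam m (heat m μ (t - s) f) (heat m μ (t - s) f) x ∂μ) s := fun s hs =>
      l2b_deriv hf hM0 hM hh h1 (by linarith [hs.1]) (by linarith [hs.2])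
    obtain ⟨ξ, hξ, e⟩ := exists_hasDerivAt_eq_slope Φ _ (by linarith : δ < t - δ)
      (fun s hs => (hd s hs).continuousAt.continuousWithinAt) fun s hs => hd s (Ioo_subset_Icc_self hs)
    have k1 := hlow ξ (by linarith [hξ.1]) (by linarith [hξ.2])
    rw [e, le_div_iff₀ (by linarith)] at k1
    have k2 := h0 δ
    have k3 := hup (t - δ) (by linarith)
    have e2 : t - 2 * δ = t - δ - δ := by ring
    rw [e2]
    linarith
  have lim : Tendsto (fun δ : ℝ => 2 * c / E * (t - 2 * δ)) (𝓝[>] 0) (𝓝 (2 * c / E * (t - 2 * 0))) :=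
    tendsto_nhdsWithin_of_tendsto_nhds (Continuous.tendsto (by fun_prop) 0)
  have k4 : 2 * c / E * (t - 2 * 0) ≤ M ^ 2 * T := by
    refine le_of_tendsto lim ?_
    filter_upwards [Ioo_mem_nhdsGT (by linarith : 0 < t / 2)] with δ hδ
    exact key δ hδ.1 hδ.2
  rw [mul_zero, sub_zero, div_mul_eq_mul_div, div_le_iff₀ hE0] at k4
  rw [div_mul_eq_mul_div, le_div_iff₀ (by linarith)]
  linarith

theorem l2b_smooth {κ : ℝ} (h : GE m μ κ) (hκ : 0 ≤ κ) {f : X → ℝ} (hf : MemLp f 2 m) {M t : ℝ}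
    (hM0 : 0 ≤ M) (hM : ∀ᵐ x ∂m, |f x| ≤ M) (ht : 0 < t) :
    ∀ᵐ x ∂m, Dw m (heat m μ t f) x ≤ Real.exp (κ * t) * M / Real.sqrt (2 * t) := by
  have := DS.finComp m μ
  have := DS.openPos m μ
  have hu := heat_sw (μ := μ) hf ht
  have k1 : Gam m (heat m μ t f) (heat m μ t f) ≤ᵐ[μ] fun _ => Real.exp (2 * κ * t) * M ^ 2 / (2 * t) := by
    refine ae_le_of_setIntegral (m := μ) (fun o R => (e4a_gam μ hu hu).integrableOn)
      (fun o R => integrableOn_const (measure_ball_lt_top).ne) fun A hA hb => ?_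
    have hfin : m A ≠ ⊤ := hb.measure_lt_top.ne
    have k2 := l2b_test h hκ hf hM0 hM ht (h := A.indicator fun _ => 1)
      (memLp_indicator_const 2 hA 1 (Or.inr hfin))
      ((integrable_indicator_iff hA).2 (integrableOn_const hfin))
      (Eventually.of_forall fun x => by by_cases hx : x ∈ A <;> simp [hx])
    have e1 : (fun x => A.indicator (fun _ => (1 : ℝ)) x * Gam m (heat m μ t f) (heat m μ t f) x) =
        A.indicator (Gam m (heat m μ t f) (heat m μ t f)) := by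
      funext x
      by_cases hx : x ∈ A <;> simp [hx]
    have e2 : (fun x => |A.indicator (fun _ => (1 : ℝ)) x|) = A.indicator fun _ => 1 := by
      funext x
      by_cases hx : x ∈ A <;> simp [hx]
    rw [e1, e2, integral_indicator hA, integral_indicator hA] at k2
    refine k2.trans_eq ?_
    simp [mul_comm]
  filter_upwards [e1a_ae m μ k1, hu.sl.gam_self] with x h1 h2
  rw [h2] at h1
  refine (abs_le_of_sq_le_sq' ?_ (by positivity)).2
  rw [div_pow, mul_pow, Real.sq_sqrt (by linarith), ← Real.exp_nat_mul]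
  refine h1.trans_eq ?_
  congr 3
  push_cast
  ring

end Crest.Agent.R242
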