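import Crest.Agent.R242.E3
import Crest.Agent.R242.E4
import Crest.Agent.R242.L2AuxB

/-! Block L2: consequences of the gradient estimate and of the weak Bochner inequality.
`GE.Dw_heat_le`: test with `h = 1_A`, `A` bounded; `heat_integrable`; `ae_le_of_setIntegral` for `μ`.
`GE.smooth`: `h = 1_A`, `Φ s = ∫ P_s h · (P_{t-s} f)²` is continuous on `[0,t]` and for `s ∈ (0,t)`,
`g = P_{t-s} f`: `Φ' = ∫ lap s h · g² - 2∫ P_s h · g · lap = 2∫ P_s h Γ(g,g) ≥ 2e^{-2κt}∫ h Γ(P_t f)`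
(`DerL2.rev`, `DerL2.mul`, `DerL2.hasDerivAt_integral_mul`, `gam_mul_bdd`, `SW.mul_bdd`, `heat_heat`);
`Φ t ≤ M² μ(A)`, `Φ 0 ≥ 0`.
`GE.wb`: both sides of `GE` agree at `t = 0`; right derivatives by `IsLap.derW_zero`, `IsLap.derL2_zero`,
`(Γ(P_t g) - Γ g)/t = Γ(q_t, P_t g + g)`, `tendsto_gam_L1`.
`WB.gam_sw`: `u = Γ(g,g) ∈ L² ∩ L^∞`, `h = P_{2t} u`: `∫ lap (2t) u · u = -en (P_t u)` (`lap_add`, `heat_symm`), so
`en (P_t u) ≤ 2L²∫|Γ(g,a)| + 2K nsq u`; `sw_of_heat_en`.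
`WB.weak`: apply `WB` to `P_t h`, `∫ lap t h · u = -∫ Γ(P_t h, u)`, `t → 0`.
`WB.interp`: `Φ s = ∫ P_s h₀ · Γ(P_{t-s} u)` (clamp `s` to `[0,t]` in the second factor), continuous on `[0,t]`
(`tendsto_bdd_mul_L1`), `Φ' = ∫ lap s h₀ Γg - 2∫ P_s h₀ Γ(g, lap) ≥ -2κ₁Φ - 2C₁L²T` (`DerW.rev`, `DerW.gam`);
mean value inequality for `exp (2κ₁ s) Φ s`.
`ge_of_wb`: for bounded `u`, `u_l = l res l u` has `D(P_r u_l) ≤ l M` (`heat_res`), `WB.interp` with `A = ∅`,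
`l → ∞` (`en_res_tendsto`), then `exists_trunc`. -/

set_option autoImplicit false
set_option linter.unusedSectionVars false
set_option linter.unusedVariables false
open MeasureTheory Filter Set Metric
open scoped ENNReal NNReal Topology
open Crest.GeometryTopology.SyntheticRicci

noncomputable section
namespace Crest.Agent.R242

variable {X : Type*} [MetricSpace X] [MeasurableSpace X] [BorelSpace X] [ProperSpace X]
  {m : Measure X} [IsFiniteMeasureOnCompacts m] [m.IsOpenPosMeasure] {μ : Measure X} [DS m μ]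

variable {κ : ℝ} {k : X → ℝ}

theorem GE.Dw_heat_le (h : GE m μ κ) {u : X → ℝ} (hu : SW m u) {L t : ℝ} (hL0 : 0 ≤ L)
    (hL : ∀ᵐ x ∂m, Dw m u x ≤ L) (ht : 0 ≤ t) :
    ∀ᵐ x ∂m, Dw m (heat m μ t u) x ≤ Real.exp (κ * t) * L := by
  have hI : IsInfHilbertian m := DS.hilb μ
  rcases ht.eq_or_lt with rfl | ht
  · rw [Dw_congr (heat_zero hu.memLp), mul_zero, Real.exp_zero, one_mul]
    exact hL
  have := DS.finComp m μ
  have := DS.openPos m μ
  have hw : SW m (heat m μ t u) := hu.heat ht.le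
  have key : Gam m (heat m μ t u) (heat m μ t u) ≤ᵐ[μ] fun _ => Real.exp (2 * κ * t) * L ^ 2 := by
    refine ae_le_of_setIntegral (m := μ) (fun o R => (e4a_gam μ hw hw).integrableOn)
      (fun o R => integrableOn_const measure_ball_lt_top.ne) fun A hA hAb => ?_
    have hfin : m A ≠ ⊤ := hAb.measure_lt_top.ne
    have h2 : MemLp (A.indicator fun _ => (1 : ℝ)) 2 m :=
      memLp_indicator_const 2 hA 1 (Or.inr hfin)
    have hi : Integrable (A.indicator fun _ => (1 : ℝ)) m :=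
      (integrable_indicator_iff hA).2 (integrableOn_const hfin)
    have h01 : ∀ᵐ x ∂m, 0 ≤ A.indicator (fun _ => (1 : ℝ)) x ∧ A.indicator (fun _ => (1 : ℝ)) x ≤ 1 :=
      Eventually.of_forall fun x => by by_cases hx : x ∈ A <;> simp [hx]
    have h3 := h u _ 1 t hu h2 h01 ht
    obtain ⟨h4, h5⟩ := heat_integrable (μ := μ) h2 hi ht.le
    have h6 : ∫ x, heat m μ t (A.indicator fun _ => (1 : ℝ)) x * Gam m u u x ∂μ ≤
        ∫ x, L ^ 2 * |heat m μ t (A.indicator fun _ => (1 : ℝ)) x| ∂μ := by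
      refine integral_mono_ae (e4b_int μ (heat_memLp t _) (SW.memLp_gam hI hu.sl hL hu))
        (((DS.integrable_iff m μ).2 h4).abs.const_mul _) (c4c_ae m μ ?_)
      filter_upwards [hu.sl.gam_self, hL, Dw_nonneg (m := m) u] with x e1 e2 e3
      rw [e1, mul_comm (L ^ 2)]
      exact mul_le_mul (le_abs_self _) (pow_le_pow_left₀ e3 e2 2) (sq_nonneg _) (abs_nonneg _)
    have h7 : ∫ x, |A.indicator (fun _ => (1 : ℝ)) x| ∂μ = μ.real A := by
      rw [← integral_indicator_one hA]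
      refine integral_congr_ae (Eventually.of_forall fun x => ?_)
      by_cases hx : x ∈ A <;> simp [hx]
    have h8 : ∫ x in A, Gam m (heat m μ t u) (heat m μ t u) x ∂μ =
        ∫ x, A.indicator (fun _ => (1 : ℝ)) x * Gam m (heat m μ t u) (heat m μ t u) x ∂μ := by
      rw [← integral_indicator hA]
      refine integral_congr_ae (Eventually.of_forall fun x => ?_)
      by_cases hx : x ∈ A <;> simp [hx]
    rw [integral_const_mul] at h6
    rw [h8, setIntegral_const, smul_eq_mul, mul_comm (μ.real A), mul_assoc]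
    refine h3.trans (mul_le_mul_of_nonneg_left (h6.trans ?_) (Real.exp_pos _).le)
    exact mul_le_mul_of_nonneg_left (h5.trans h7.le) (sq_nonneg _)
  filter_upwards [e1a_ae m μ key, hw.sl.gam_self] with x e1 e2
  rw [e2] at e1
  refine le_trans (le_abs_self _) (abs_le_of_sq_le_sq ?_ (by positivity))
  rwa [mul_pow, ← Real.exp_nat_mul, Nat.cast_ofNat, ← mul_assoc]

theorem GE.smooth (h : GE m μ κ) (hκ : 0 ≤ κ) {f : X → ℝ} (hf : MemLp f 2 m) {M t : ℝ}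
    (hM0 : 0 ≤ M) (hM : ∀ᵐ x ∂m, |f x| ≤ M) (ht : 0 < t) :
    ∀ᵐ x ∂m, Dw m (heat m μ t f) x ≤ Real.exp (κ * t) * M / Real.sqrt (2 * t) :=
  l2b_smooth h hκ hf hM0 hM ht

theorem GE.wb (h : GE m μ κ) : WB m μ fun _ => -κ := by
  intro g a w c M hg ha hb hw hM
  have hI : IsInfHilbertian m := DS.hilb μ
  obtain ⟨L₀, hL₀⟩ := hb.2
  set L : ℝ := max L₀ 0
  have hL : ∀ᵐ x ∂m, Dw m g x ≤ L := hL₀.mono fun x hx => le_max_of_le_left hx
  have hL0 : 0 ≤ L := le_max_right _ _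
  have hbd : ∀ r ∈ Icc (0 : ℝ) 1, ∀ᵐ x ∂m, Dw m (heat m μ r g) x ≤ Real.exp |κ| * L := by
    intro r hr
    filter_upwards [h.Dw_heat_le hg.sw hL0 hL hr.1] with x hx
    refine hx.trans (mul_le_mul_of_nonneg_right (Real.exp_le_exp.2 ?_) hL0)
    nlinarith [le_abs_self κ, abs_nonneg κ, hr.1, hr.2]
  have hl : 𝓝[>] (0 : ℝ) ≤ 𝓝[≠] 0 := nhdsWithin_mono _ fun x hx => ne_of_gt hx
  have hev : ∀ᶠ k in 𝓝[>] (0 : ℝ), k ∈ Ioo (0 : ℝ) 1 := Ioo_mem_nhdsGT zero_lt_one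
  have hz := heat_zero (μ := μ) hg.sw.memLp
  have hG2 : MemLp (Gam m g g) 2 m := SW.memLp_gam hI hg.sw.sl hL hg.sw
  have hm : ∀ {f : X → ℝ}, MemLp f 2 m → MemLp f 2 μ := fun hf => (DS.memLp_iff m μ).2 hf
  have hGk : ∀ r ∈ Icc (0 : ℝ) 1, MemLp (Gam m (heat m μ r g) (heat m μ r g)) 2 m := fun r hr =>
    SW.memLp_gam hI (hg.sw.heat hr.1).sl (hbd r hr) (hg.sw.heat hr.1)
  have d1 : DerL2 μ (fun r => Gam m (heat m μ r g) (heat m μ r g))
      (fun x => 2 * Gam m a (heat m μ 0 g) x) 0 (𝓝[>] 0) :=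
    DerW.gam (g := fun r => heat m μ r g) hl
      (hev.mono fun k hk => by
        rw [zero_add]; exact ⟨hg.sw.heat hk.1.le, hbd k (Ioo_subset_Icc_self hk)⟩)
      (hg.sw.heat le_rfl) (hbd 0 ⟨le_rfl, zero_le_one⟩) ha (hg.derW_zero ha)
  have hag : Gam m a g =ᵐ[m] Gam m g a := SL.gam_comm ha.sl hg.sw.sl
  have hga : MemLp (Gam m a g) 2 m := (SW.memLp_gam hI hg.sw.sl hL ha).ae_eq hag.symm
  simp only [DerL2, zero_add, gam_congr hz hz, gam_congr (EventuallyEq.refl _ a) hz] at d1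
  have t1 : Tendsto (fun k => (∫ x, w x * Gam m (heat m μ k g) (heat m μ k g) x ∂μ -
      ∫ x, w x * Gam m g g x ∂μ) / k) (𝓝[>] 0) (𝓝 (2 * ∫ x, w x * Gam m g a x ∂μ)) := by
    have := tendsto_integral_mul (μ := μ) (l := 𝓝[>] (0 : ℝ)) (a := fun _ => w) (a₀ := w)
      (b := fun k x => (Gam m (heat m μ k g) (heat m μ k g) x - Gam m g g x) / k)
      (b₀ := fun x => 2 * Gam m a g x) (Eventually.of_forall fun _ => hm hw.sw.memLp)
      (hev.mono fun k hk => by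
        simpa only [div_eq_inv_mul, Pi.sub_apply] using
          (hm ((hGk k (Ioo_subset_Icc_self hk)).sub hG2)).const_mul k⁻¹)
      (hm hw.sw.memLp) (hm (hga.const_mul 2)) (by simp [nsq]) d1
    have e : ∫ x, w x * (2 * Gam m a g x) ∂μ = 2 * ∫ x, w x * Gam m g a x ∂μ := by
      rw [← integral_const_mul]
      refine integral_congr_ae (c4c_ae m μ ?_)
      filter_upwards [hag] with x hx
      rw [hx]; ring
    rw [e] at this
    refine this.congr' (hev.mono fun k hk => ?_)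
    simp only
    rw [← integral_sub (e4b_int μ hw.sw.memLp (hGk k (Ioo_subset_Icc_self hk)))
      (e4b_int μ hw.sw.memLp hG2), ← integral_div]
    exact integral_congr_ae (Eventually.of_forall fun x => by ring)
  have t2 : Tendsto (fun k => (∫ x, heat m μ k w x * Gam m g g x ∂μ -
      ∫ x, w x * Gam m g g x ∂μ) / k) (𝓝[>] 0) (𝓝 (∫ x, c x * Gam m g g x ∂μ)) := by
    have := DerL2.integral_mul (μ := μ) (a := fun r => heat m μ r w) (b := fun _ => Gam m g g) hl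
      (fun r => hm (heat_memLp r w)) (fun _ => hm hG2) (hm hw.memLp) MemLp.zero' hw.derL2_zero
      (DerL2.const _ _ _)
    have e : ∫ x, heat m μ 0 w x * Gam m g g x ∂μ = ∫ x, w x * Gam m g g x ∂μ := by
      refine integral_congr_ae (c4c_ae m μ ?_)
      filter_upwards [heat_zero (μ := μ) hw.sw.memLp] with x hx
      rw [hx]
    simpa only [zero_add, e, mul_zero, integral_zero, add_zero] using this
  have hd : HasDerivAt (fun k : ℝ => Real.exp (2 * κ * k)) (2 * κ) 0 := by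
    simpa using ((hasDerivAt_id (0 : ℝ)).const_mul (2 * κ)).exp
  have t3 : Tendsto (fun k : ℝ => (Real.exp (2 * κ * k) - 1) / k) (𝓝[>] 0) (𝓝 (2 * κ)) := by
    simpa [div_eq_inv_mul] using hd.tendsto_slope_zero_right
  have t4 : Tendsto (fun k : ℝ => Real.exp (2 * κ * k)) (𝓝[>] 0) (𝓝 1) := by
    simpa using hd.continuousAt.tendsto.mono_left nhdsWithin_le_nhds
  have fin := le_of_tendsto_of_tendsto t1
    ((t4.mul t2).add (t3.mul_const (∫ x, w x * Gam m g g x ∂μ))) (hev.mono fun k hk => by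
      have h1 := h g w M k hg.sw hw.sw.memLp hM hk.1
      simp only
      rw [← mul_div_assoc, div_mul_eq_mul_div, ← add_div]
      exact div_le_div_of_nonneg_right (by linarith) hk.1.le)
  have e : ∫ x, -κ * w x * Gam m g g x ∂μ = -κ * ∫ x, w x * Gam m g g x ∂μ := by
    rw [← integral_const_mul]
    exact integral_congr_ae (Eventually.of_forall fun x => mul_assoc _ _ _)
  rw [e]
  linarith

theorem WB.gam_sw (h : WB m μ k) (hk : AEStronglyMeasurable k m) (hkb : EB m k) {g a : X → ℝ}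
    (hg : IsLap m μ g a) (ha : SW m a) (hb : BG m g) : SW m (Gam m g g) := by
  have hI : IsInfHilbertian m := DS.hilb μ
  obtain ⟨L, hL⟩ := hb.2
  obtain ⟨K, hK⟩ := hkb
  have hu2 : MemLp (Gam m g g) 2 m := SW.memLp_gam hI hg.sw.sl hL hg.sw
  have huM : ∀ᵐ x ∂m, 0 ≤ Gam m g g x ∧ Gam m g g x ≤ L ^ 2 := by
    filter_upwards [hg.sw.sl.gam_self, hL, Dw_nonneg (m := m) g] with x h1 h2 h3
    rw [h1]
    exact ⟨sq_nonneg _, pow_le_pow_left₀ h3 h2 2⟩
  refine (sw_of_heat_en (μ := μ) hu2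
    (b := 2 * (K * L ^ 2 * ∫ x, |Gam m g g x| ∂μ + L ^ 2 * ∫ x, |Gam m g a x| ∂μ)) fun t ht => ?_).1
  have ht2 : 0 < t + t := by linarith
  have hH := heat_mem_Icc (μ := μ) hu2 (sq_nonneg L) ht2.le huM
  have h1 := h g a _ _ _ hg ha hb (isLap_heat hu2 ht2) hH
  have h2 : ∫ x, lap m μ (t + t) (Gam m g g) x * Gam m g g x ∂μ =
      -en m μ (heat m μ t (Gam m g g)) := by
    rw [lap_add hu2 ht ht.le, heat_symm (lap_memLp _ _) hu2 ht.le, en,
      (isLap_heat (μ := μ) hu2 ht).2.2 _ (heat_sw hu2 ht), neg_neg]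
  have hHm : AEStronglyMeasurable (heat m μ (t + t) (Gam m g g)) μ :=
    (heat_meas _ _).aestronglyMeasurable
  have hHb : ∀ᵐ x ∂m, |heat m μ (t + t) (Gam m g g) x| ≤ L ^ 2 :=
    hH.mono fun x hx => by rw [abs_of_nonneg hx.1]; exact hx.2
  have h3 := (a5a_bdd (M := K * L ^ 2) (a := fun x => k x * heat m μ (t + t) (Gam m g g) x)
    ((c4c_aesm μ hk).mul hHm) (c4c_ae m μ (by
      filter_upwards [hK, hHb] with x h1 h2
      rw [abs_mul]
      exact mul_le_mul h1 h2 (abs_nonneg _) ((abs_nonneg _).trans h1)))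
    (e4a_gam μ hg.sw hg.sw)).2
  have h4 := (a5a_bdd hHm (c4c_ae m μ hHb) (e4a_gam μ hg.sw ha)).2
  rw [h2] at h1
  have h5 := neg_abs_le (∫ x, k x * heat m μ (t + t) (Gam m g g) x * Gam m g g x ∂μ)
  have h6 := neg_abs_le (∫ x, heat m μ (t + t) (Gam m g g) x * Gam m g a x ∂μ)
  linarith

theorem WB.weak (h : WB m μ k) (hk : AEStronglyMeasurable k m) (hkb : EB m k) {g a w : X → ℝ}
    (hg : IsLap m μ g a) (ha : SW m a) (hb : BG m g) (hw : SW m w) {M : ℝ}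
    (hM : ∀ᵐ x ∂m, 0 ≤ w x ∧ w x ≤ M) :
    ∫ x, k x * w x * Gam m g g x ∂μ ≤
      -(1 / 2) * ∫ x, Gam m w (Gam m g g) x ∂μ - ∫ x, w x * Gam m g a x ∂μ := by
  have hI : IsInfHilbertian m := DS.hilb μ
  have hu : SW m (Gam m g g) := h.gam_sw hk hkb hg ha hb
  obtain ⟨L, hL⟩ := hb.2
  obtain ⟨K, hK⟩ := hkb
  have hw2 : MemLp w 2 m := hw.memLp
  have hM' : ∀ᵐ x ∂m, 0 ≤ w x ∧ w x ≤ max M 0 :=
    hM.mono fun x hx => ⟨hx.1, hx.2.trans (le_max_left _ _)⟩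
  have hlim : ∀ b : X → ℝ, MemLp b 2 m →
      Tendsto (fun t => ∫ x, heat m μ t w x * b x ∂μ) (𝓝[>] 0) (𝓝 (∫ x, w x * b x ∂μ)) :=
    fun b hb => tendsto_integral_mul (b := fun _ => b)
      (Eventually.of_forall fun t => (DS.memLp_iff m μ).2 (heat_memLp t w))
      (Eventually.of_forall fun _ => (DS.memLp_iff m μ).2 hb) ((DS.memLp_iff m μ).2 hw2)
      ((DS.memLp_iff m μ).2 hb) (heat_tendsto_zero hw2) (by simp [nsq])
  have hsw : ∀ᶠ t in 𝓝[>] (0 : ℝ), SW m (heat m μ t w) :=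
    eventually_nhdsWithin_of_forall fun t ht => heat_sw hw2 ht
  have hen : en m μ (fun x => Gam m g g x - Gam m g g x) = 0 := by
    simp only [sub_self]
    rw [en_eq (sl_const 0).1, nsq_congr (g := fun _ => 0) (c4c_ae m μ (sl_const 0).2)]
    simp [nsq]
  have hG := tendsto_gam_L1 (μ := μ) (g := fun _ => Gam m g g) hsw (Eventually.of_forall fun _ => hu)
    hw hu (en_heat_tendsto_zero hw) (by simp only [hen]; exact tendsto_const_nhds)
  have hG' : Tendsto (fun t => ∫ x, Gam m (heat m μ t w) (Gam m g g) x ∂μ) (𝓝[>] 0)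
      (𝓝 (∫ x, Gam m w (Gam m g g) x ∂μ)) := by
    rw [tendsto_iff_norm_sub_tendsto_zero]
    refine squeeze_zero' (Eventually.of_forall fun _ => norm_nonneg _) (hsw.mono fun t ht => ?_) hG
    rw [← integral_sub (e4a_gam μ ht hu) (e4a_gam μ hw hu)]
    exact norm_integral_le_integral_norm _
  have hA := hlim (fun x => k x * Gam m g g x) (c3b_mul hu.memLp hk hK)
  have hB := hlim (Gam m g a) (SW.memLp_gam hI hg.sw.sl hL ha)
  have e : ∀ v : X → ℝ, ∫ x, k x * v x * Gam m g g x ∂μ = ∫ x, v x * (k x * Gam m g g x) ∂μ :=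
    fun v => integral_congr_ae (Eventually.of_forall fun x => by ring)
  rw [e]
  refine le_of_tendsto_of_tendsto hA ((hG'.const_mul (-(1 / 2))).sub hB)
    (eventually_nhdsWithin_of_forall fun t ht => ?_)
  have ht' : 0 < t := ht
  have h1 := h g a _ _ _ hg ha hb (isLap_heat hw2 ht')
    (heat_mem_Icc (μ := μ) hw2 (le_max_right M 0) ht'.le hM')
  rw [e] at h1
  have h2 := (isLap_heat (μ := μ) hw2 ht').2.2 _ hu
  dsimp only
  rw [h2]
  linarith

theorem l2d_cont {u h₀ : X → ℝ} (hu : SW m u) (hh : MemLp h₀ 2 m) {M t : ℝ}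
    (hM : ∀ᵐ x ∂m, |h₀ x| ≤ M) (hM0 : 0 ≤ M) :
    ContinuousOn (fun s => ∫ x, heat m μ s h₀ x *
      Gam m (heat m μ (t - s) u) (heat m μ (t - s) u) x ∂μ) (Icc 0 t) := by
  intro s hs
  have hs' : 0 ≤ t - s := sub_nonneg.2 hs.2
  have hev : ∀ᶠ r in 𝓝[Icc 0 t] s, r ∈ Icc 0 t := self_mem_nhdsWithin
  have hsw : ∀ᶠ r in 𝓝[Icc 0 t] s, SW m (heat m μ (t - r) u) :=
    hev.mono fun r hr => hu.heat (sub_nonneg.2 hr.2)
  have h1 : Tendsto (fun r : ℝ => t - r) (𝓝[Icc 0 t] s) (𝓝[Ici 0] (t - s)) :=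
    tendsto_nhdsWithin_iff.2 ⟨((continuous_const.sub continuous_id).tendsto s).mono_left nhdsWithin_le_nhds,
      hev.mono fun r hr => sub_nonneg.2 hr.2⟩
  have h2 := (en_heat_cont (μ := μ) hu hs').comp h1
  refine tendsto_bdd_mul_L1 (M := M) (hev.mono fun r hr => ⟨(DS.memLp_iff m μ).2 (heat_memLp r h₀),
    c4c_ae m μ (abs_heat_le hh hM0 hr.1 hM)⟩) ((DS.memLp_iff m μ).2 (heat_memLp s h₀))
    (c4c_ae m μ (abs_heat_le hh hM0 hs.1 hM)) (hsw.mono fun r hr => e4a_gam μ hr hr)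
    (e4a_gam μ (hu.heat hs') (hu.heat hs'))
    ((heat_cont hh hs.1).mono_left (nhdsWithin_mono _ Icc_subset_Ici_self))
    (tendsto_gam_L1 hsw hsw (hu.heat hs') (hu.heat hs') h2 h2)

theorem l2d_deriv {u h₀ : X → ℝ} (hu : SW m u) (hh : MemLp h₀ 2 m) {L t s : ℝ}
    (hL : ∀ r ∈ Icc 0 t, ∀ᵐ x ∂m, Dw m (heat m μ r u) x ≤ L) (hs : s ∈ Ioo 0 t) :
    HasDerivAt (fun s => ∫ x, heat m μ s h₀ x *
      Gam m (heat m μ (t - s) u) (heat m μ (t - s) u) x ∂μ)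
      (∫ x, lap m μ s h₀ x * Gam m (heat m μ (t - s) u) (heat m μ (t - s) u) x ∂μ -
        2 * ∫ x, heat m μ s h₀ x * Gam m (heat m μ (t - s) u) (lap m μ (t - s) u) x ∂μ) s := by
  classical
  have hI : IsInfHilbertian m := DS.hilb μ
  have hs' : 0 < t - s := sub_pos.2 hs.2
  have hIcc : ∀ r ∈ Icc 0 t, t - r ∈ Icc 0 t := fun r hr => ⟨sub_nonneg.2 hr.2, sub_le_self _ hr.1⟩
  have hsI : s ∈ Icc 0 t := Ioo_subset_Icc_self hs
  have hlap : SW m (lap m μ (t - s) u) := lap_sw hu.memLp hs'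
  have hg : SW m (heat m μ (t - s) u) := hu.heat hs'.le
  have hneg : SW m fun x => -lap m μ (t - s) u x := by
    simpa using hlap.const_mul (-1)
  have hnear : ∀ᶠ k in 𝓝 (0 : ℝ), s + k ∈ Icc 0 t := by
    have : Tendsto (fun k : ℝ => s + k) (𝓝 0) (𝓝 s) := by
      exact Continuous.tendsto' (by fun_prop) (0 : ℝ) s (by simp)
    exact this (Icc_mem_nhds hs.1 hs.2)
  have hnear' : ∀ᶠ k in 𝓝 (0 : ℝ), 0 ≤ t - s + k := by
    have : Tendsto (fun k : ℝ => t - s + k) (𝓝 0) (𝓝 (t - s)) := by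
      exact Continuous.tendsto' (by fun_prop) (0 : ℝ) (t - s) (by simp)
    exact this (Ici_mem_nhds hs')
  have d1 : DerW m μ (fun r => heat m μ (t - r) u) (fun x => -lap m μ (t - s) u x) s (𝓝[≠] 0) :=
    DerW.rev (u := fun r => heat m μ r u) (hnear'.mono fun k hk => hu.heat hk) hlap
      (heat_derW hu.memLp hs')
  have d2 := DerW.gam (g := fun r => heat m μ (t - r) u) (s := s) (L := L) le_rfl
    ((hnear.filter_mono nhdsWithin_le_nhds).mono fun k hk =>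
      ⟨hu.heat (hIcc _ hk).1, hL _ (hIcc _ hk)⟩) hg (hL _ (hIcc _ hsI)) hneg d1
  let b : ℝ → X → ℝ := fun r =>
    if r ∈ Icc 0 t then Gam m (heat m μ (t - r) u) (heat m μ (t - r) u) else fun _ => 0
  have hb : ∀ r ∈ Icc 0 t, b r = Gam m (heat m μ (t - r) u) (heat m μ (t - r) u) :=
    fun r hr => if_pos hr
  have hbm : ∀ r, MemLp (b r) 2 μ := by
    intro r
    by_cases hr : r ∈ Icc 0 t
    · rw [hb r hr]
      exact (c4c_gam_le μ (hu.heat (hIcc r hr).1) (hu.heat (hIcc r hr).1) (hL _ (hIcc r hr))).1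
    · have : b r = fun _ => 0 := if_neg hr
      rw [this]
      exact MemLp.zero
  have d3 : DerL2 μ b (fun x => 2 * Gam m (fun x => -lap m μ (t - s) u x) (heat m μ (t - s) u) x) s
      (𝓝[≠] 0) := by
    unfold DerL2 at d2 ⊢
    refine Tendsto.congr' ?_ d2
    filter_upwards [hnear.filter_mono nhdsWithin_le_nhds] with k hk
    rw [hb _ hk, hb _ hsI]
  have d4 := DerL2.hasDerivAt_integral_mul (a := fun r => heat m μ r h₀) (b := b) (s := s)
    (fun r => (DS.memLp_iff m μ).2 (heat_memLp r h₀)) hbm ((DS.memLp_iff m μ).2 (lap_memLp s h₀))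
    ((c4c_gam_le μ hneg hg (hL _ (hIcc _ hsI))).1.const_mul 2) (heat_derL2 hh hs.1) d3
  rw [hb _ hsI] at d4
  have e : ∫ x, heat m μ s h₀ x * (2 * Gam m (fun x => -lap m μ (t - s) u x) (heat m μ (t - s) u) x) ∂μ =
      -(2 * ∫ x, heat m μ s h₀ x * Gam m (heat m μ (t - s) u) (lap m μ (t - s) u) x ∂μ) := by
    rw [← integral_const_mul, ← integral_neg]
    refine integral_congr_ae (c4c_ae m μ ?_)
    filter_upwards [gam_const_mul_left hI hlap.sl hg.sl (-1), hlap.sl.gam_comm hg.sl] with x h1 h2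
    simp only [neg_mul, one_mul] at h1
    rw [h1, h2]
    ring
  rw [e, ← sub_eq_add_neg] at d4
  refine d4.congr_of_eventuallyEq ?_
  filter_upwards [Icc_mem_nhds hs.1 hs.2] with r hr
  rw [hb r hr]

theorem l2d_low (hk : AEStronglyMeasurable k m) (hkb : EB m k) {κ₁ C₁ : ℝ}
    {A : Set X} (hA : MeasurableSet A) (hC : 0 ≤ C₁)
    (hkl : ∀ᵐ x ∂m, -κ₁ - A.indicator (fun _ => C₁) x ≤ k x) {g w : X → ℝ} (hg : SW m g) {L M T : ℝ}
    (hL : ∀ᵐ x ∂m, Dw m g x ≤ L) (hw : AEStronglyMeasurable w m) (hM : ∀ᵐ x ∂m, 0 ≤ w x ∧ w x ≤ M)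
    (hTi : IntegrableOn w A m) (hT : ∫ x in A, w x ∂μ ≤ T) :
    -κ₁ * ∫ x, w x * Gam m g g x ∂μ - C₁ * L ^ 2 * T ≤ ∫ x, k x * w x * Gam m g g x ∂μ := by
  obtain ⟨K, hK⟩ := hkb
  have i1 : Integrable (fun x => w x * Gam m g g x) μ :=
    (a5a_bdd (M := M) (c4c_aesm μ hw) (c4c_ae m μ (hM.mono fun x hx => by
      rw [abs_of_nonneg hx.1]; exact hx.2)) (e4a_gam μ hg hg)).1
  have i2 : Integrable (fun x => k x * (w x * Gam m g g x)) μ :=
    (a5a_bdd (c4c_aesm μ hk) (c4c_ae m μ hK) i1).1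
  have i3 : Integrable (A.indicator w) μ :=
    (integrable_indicator_iff hA).2 ((DS.integrableOn_iff m μ).2 hTi)
  have h1 : ∫ x, (-κ₁ * (w x * Gam m g g x) - C₁ * L ^ 2 * A.indicator w x) ∂μ ≤
      ∫ x, k x * (w x * Gam m g g x) ∂μ := by
    refine integral_mono_ae ((i1.const_mul _).sub (i3.const_mul _)) i2 (c4c_ae m μ ?_)
    filter_upwards [hkl, hL, hM, hg.sl.gam_self, Dw_nonneg (m := m) g] with x a1 a2 a3 a4 a5
    have b1 : Gam m g g x ≤ L ^ 2 := by rw [a4]; exact pow_le_pow_left₀ a5 a2 2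
    have b2 : 0 ≤ w x * Gam m g g x := mul_nonneg a3.1 (by rw [a4]; positivity)
    have b3 := mul_le_mul_of_nonneg_right a1 b2
    by_cases hx : x ∈ A
    · simp only [indicator_of_mem hx] at b3 ⊢
      have b4 := mul_le_mul_of_nonneg_left b1 (mul_nonneg hC a3.1)
      nlinarith
    · simp only [indicator_of_notMem hx] at b3 ⊢
      linarith
  rw [integral_sub (i1.const_mul _) (i3.const_mul _), integral_const_mul, integral_const_mul,
    integral_indicator hA] at h1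
  have h2 := mul_le_mul_of_nonneg_left hT (mul_nonneg hC (sq_nonneg L))
  simp only [mul_assoc] at h1 h2 ⊢
  linarith

theorem WB.interp (h : WB m μ k) (hk : AEStronglyMeasurable k m) (hkb : EB m k) {κ₁ C₁ : ℝ}
    {A : Set X} (hA : MeasurableSet A) (hC : 0 ≤ C₁)
    (hkl : ∀ᵐ x ∂m, -κ₁ - A.indicator (fun _ => C₁) x ≤ k x) {u : X → ℝ} (hu : SW m u)
    (hub : EB m u) {L t : ℝ} (ht : 0 < t)
    (hL : ∀ r ∈ Icc 0 t, ∀ᵐ x ∂m, Dw m (heat m μ r u) x ≤ L) {h₀ : X → ℝ} {M T : ℝ}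
    (hh : MemLp h₀ 2 m) (hM : ∀ᵐ x ∂m, 0 ≤ h₀ x ∧ h₀ x ≤ M) (hT0 : 0 ≤ T)
    (hTi : ∀ s ∈ Icc 0 t, IntegrableOn (heat m μ s h₀) A m)
    (hT : ∀ s ∈ Icc 0 t, ∫ x in A, heat m μ s h₀ x ∂μ ≤ T) :
    ∫ x, h₀ x * Gam m (heat m μ t u) (heat m μ t u) x ∂μ ≤
      Real.exp (2 * κ₁ * t) * ∫ x, heat m μ t h₀ x * Gam m u u x ∂μ +
        2 * C₁ * t * Real.exp (2 * |κ₁| * t) * L ^ 2 * T := by
  have hM' : ∀ᵐ x ∂m, 0 ≤ h₀ x ∧ h₀ x ≤ |M| := hM.mono fun x hx => ⟨hx.1, hx.2.trans (le_abs_self M)⟩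
  have hMa : ∀ᵐ x ∂m, |h₀ x| ≤ |M| := hM'.mono fun x hx => by rw [abs_of_nonneg hx.1]; exact hx.2
  obtain ⟨U, hU⟩ := hub
  have hU' : ∀ᵐ x ∂m, |u x| ≤ |U| := hU.mono fun x hx => hx.trans (le_abs_self U)
  set Φ : ℝ → ℝ := fun s => ∫ x, heat m μ s h₀ x *
      Gam m (heat m μ (t - s) u) (heat m μ (t - s) u) x ∂μ with hΦ
  have hc : ContinuousOn Φ (Icc 0 t) := l2d_cont hu hh hMa (abs_nonneg M)
  have hd : ∀ s ∈ Ioo 0 t, ∃ D, HasDerivAt (fun r => Real.exp (2 * κ₁ * r) * Φ r) D s ∧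
      -(2 * C₁ * Real.exp (2 * |κ₁| * t) * L ^ 2 * T) ≤ D := by
    intro s hs
    have hs' : 0 < t - s := sub_pos.2 hs.2
    have hsI : s ∈ Icc 0 t := Ioo_subset_Icc_self hs
    have hLs := hL (t - s) ⟨hs'.le, sub_le_self _ hs.1.le⟩
    have hw := heat_mem_Icc (μ := μ) hh (abs_nonneg M) hs.1.le hM'
    have d1 := l2d_deriv (μ := μ) hu hh hL hs
    have d2 : HasDerivAt (fun r => Real.exp (2 * κ₁ * r)) (Real.exp (2 * κ₁ * s) * (2 * κ₁)) s := by
      simpa using ((hasDerivAt_id s).const_mul (2 * κ₁)).exp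
    refine ⟨_, d2.mul d1, ?_⟩
    have w1 := h _ _ _ _ |M| (isLap_heat hu.memLp hs') (lap_sw hu.memLp hs')
      ⟨⟨|U|, abs_heat_le hu.memLp (abs_nonneg U) hs'.le hU'⟩, L, hLs⟩ (isLap_heat hh hs.1) hw
    have w2 := l2d_low (μ := μ) hk hkb hA hC hkl (hu.heat hs'.le) hLs (heat_memLp s h₀).1 hw (hTi s hsI)
      (hT s hsI)
    have e1 : Real.exp (2 * κ₁ * s) ≤ Real.exp (2 * |κ₁| * t) := by
      refine Real.exp_le_exp.2 ?_
      have := mul_le_mul (le_abs_self κ₁) hs.2.le hs.1.le (abs_nonneg κ₁)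
      linarith
    have e2 := mul_le_mul_of_nonneg_right e1 (show 0 ≤ C₁ * L ^ 2 * T by positivity)
    have e3 := mul_le_mul_of_nonneg_left (w2.trans w1) (Real.exp_pos (2 * κ₁ * s)).le
    linarith
  have key := (convex_Icc 0 t).mul_sub_le_image_sub_of_le_deriv
    (f := fun r => Real.exp (2 * κ₁ * r) * Φ r) (C := -(2 * C₁ * Real.exp (2 * |κ₁| * t) * L ^ 2 * T))
    (ContinuousOn.mul (by fun_prop) hc)
    (fun s hs => by
      rw [interior_Icc] at hs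
      obtain ⟨D, hD, -⟩ := hd s hs
      exact hD.differentiableAt.differentiableWithinAt)
    (fun s hs => by
      rw [interior_Icc] at hs
      obtain ⟨D, hD, hD'⟩ := hd s hs
      rw [hD.deriv]
      exact hD') 0 (left_mem_Icc.2 ht.le) t (right_mem_Icc.2 ht.le) ht.le
  have e0 : Φ 0 = ∫ x, h₀ x * Gam m (heat m μ t u) (heat m μ t u) x ∂μ := by
    simp only [hΦ, sub_zero]
    refine integral_congr_ae (c4c_ae m μ ?_)
    filter_upwards [heat_zero (μ := μ) hh] with x hx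
    rw [hx]
  have et : Φ t = ∫ x, heat m μ t h₀ x * Gam m u u x ∂μ := by
    simp only [hΦ, sub_self]
    rw [gam_congr (heat_zero (μ := μ) hu.memLp) (heat_zero (μ := μ) hu.memLp)]
  simp only [mul_zero, Real.exp_zero, one_mul, sub_zero, e0, et] at key
  linarith

theorem l2e_lim {ι : Type*} {l : Filter ι} {u : ι → X → ℝ} {u₀ w : X → ℝ} {M : ℝ}
    (hw : AEStronglyMeasurable w m) (hM : ∀ᵐ x ∂m, 0 ≤ w x ∧ w x ≤ M) (hu : ∀ᶠ i in l, SW m (u i))
    (hu₀ : SW m u₀) (h : Tendsto (fun i => en m μ fun x => u i x - u₀ x) l (𝓝 0)) :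
    Tendsto (fun i => ∫ x, w x * Gam m (u i) (u i) x ∂μ) l (𝓝 (∫ x, w x * Gam m u₀ u₀ x ∂μ)) := by
  have hw' := c4c_aesm μ hw
  have hM' : ∀ᵐ x ∂μ, |w x| ≤ M := c4c_ae m μ (hM.mono fun x hx => by
    rw [abs_of_nonneg hx.1]; exact hx.2)
  have h1 := (tendsto_gam_L1 (μ := μ) hu hu hu₀ hu₀ h h).const_mul M
  rw [mul_zero] at h1
  rw [tendsto_iff_norm_sub_tendsto_zero]
  refine squeeze_zero' (Eventually.of_forall fun _ => norm_nonneg _) ?_ h1
  filter_upwards [hu] with i hi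
  have a := e4a_gam μ hi hi
  have b := e4a_gam μ hu₀ hu₀
  rw [← integral_sub (a5a_bdd hw' hM' a).1 (a5a_bdd hw' hM' b).1]
  simp only [← mul_sub]
  exact (a5a_bdd hw' hM' (a.sub b)).2

theorem l2e_pass {ι : Type*} {l : Filter ι} [l.NeBot] {u : ι → X → ℝ} {u₀ w : X → ℝ} {M t c : ℝ}
    (hw : MemLp w 2 m) (hM0 : 0 ≤ M) (hM : ∀ᵐ x ∂m, 0 ≤ w x ∧ w x ≤ M) (ht : 0 ≤ t)
    (hu : ∀ᶠ i in l, SW m (u i) ∧ ∫ x, w x * Gam m (heat m μ t (u i)) (heat m μ t (u i)) x ∂μ ≤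
      c * ∫ x, heat m μ t w x * Gam m (u i) (u i) x ∂μ)
    (hu₀ : SW m u₀) (h : Tendsto (fun i => en m μ fun x => u i x - u₀ x) l (𝓝 0)) :
    ∫ x, w x * Gam m (heat m μ t u₀) (heat m μ t u₀) x ∂μ ≤
      c * ∫ x, heat m μ t w x * Gam m u₀ u₀ x ∂μ := by
  have hs : ∀ᶠ i in l, SW m (u i) := hu.mono fun i hi => hi.1
  have h1 : Tendsto (fun i => en m μ fun x => heat m μ t (u i) x - heat m μ t u₀ x) l (𝓝 0) := by
    refine squeeze_zero' ?_ ?_ h
    · filter_upwards [hs] with i hi using en_nonneg ((hi.heat ht).sub (hu₀.heat ht)).sl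
    · filter_upwards [hs] with i hi
      rw [← en_congr (heat_sub_fun hi.memLp hu₀.memLp t)]
      exact en_heat_le (hi.sub hu₀) ht
  exact le_of_tendsto_of_tendsto
    (l2e_lim hw.1 hM (hs.mono fun i hi => hi.heat ht) (hu₀.heat ht) h1)
    ((l2e_lim (heat_memLp t w).1 (heat_mem_Icc hw hM0 ht hM) hs hu₀ h).const_mul c)
    (hu.mono fun i hi => hi.2)

theorem ge_of_wb (h : WB m μ k) (hk : AEStronglyMeasurable k m) (hkb : EB m k)
    (hkl : ∀ᵐ x ∂m, -κ ≤ k x) {l₀ : ℝ} (hl₀ : 0 < l₀)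
    (hres : ∀ l, l₀ ≤ l → ∀ (w : X → ℝ) (M : ℝ), MemLp w 2 m → 0 ≤ M → (∀ᵐ x ∂m, |w x| ≤ M) →
      ∀ᵐ x ∂m, Dw m (res m μ l w) x ≤ M) : GE m μ κ := by
  intro f w M t hf hw hM ht
  have hM' : ∀ᵐ x ∂m, 0 ≤ w x ∧ w x ≤ |M| := hM.mono fun x hx => ⟨hx.1, hx.2.trans (le_abs_self M)⟩
  have key : ∀ (u : X → ℝ) (B : ℝ), SW m u → 0 ≤ B → (∀ᵐ x ∂m, |u x| ≤ B) →
      ∫ x, w x * Gam m (heat m μ t u) (heat m μ t u) x ∂μ ≤
        Real.exp (2 * κ * t) * ∫ x, heat m μ t w x * Gam m u u x ∂μ := by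
    intro u B hu hB hb
    refine l2e_pass hw (abs_nonneg M) hM' ht.le ?_ hu (en_res_tendsto hu)
    filter_upwards [eventually_ge_atTop l₀] with l hl
    have hl0 : 0 < l := hl₀.trans_le hl
    have hs : SW m fun x => l * res m μ l u x := (res_isLap hu.memLp hl0).sw.const_mul l
    refine ⟨hs, ?_⟩
    have := h.interp hk hkb (κ₁ := κ) (C₁ := 0) (A := ∅) MeasurableSet.empty le_rfl
      (by simpa using hkl) hs ⟨B, abs_res_le hu.memLp hB hl0 hb⟩ (L := l * B) ht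
      (fun r hr => by
        rw [Dw_congr (heat_const_mul (res_memLp l u) l r), heat_res hu.memLp hl0 hr.1]
        filter_upwards [(SL.const_mul (res_isLap (μ := μ) (heat_memLp (μ := μ) r u) hl0).sw.sl l).2,
          hres l hl _ B (heat_memLp (μ := μ) r u) hB (abs_heat_le hu.memLp hB hr.1 hb)] with x h1 h2
        rw [h1, abs_of_pos hl0]
        exact mul_le_mul_of_nonneg_left h2 hl0.le)
      hw hM (T := 0) le_rfl (fun _ _ => integrableOn_empty) (fun _ _ => by simp)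
    simpa using this
  obtain ⟨h1, -, h2⟩ := exists_trunc (μ := μ) hf
  exact l2e_pass hw (abs_nonneg M) hM' ht.le (Eventually.of_forall fun n => ⟨h1 n,
    key _ n (h1 n) n.cast_nonneg (Eventually.of_forall fun x =>
      (c3b_abs_le (n : ℝ) (f x) n.cast_nonneg).1)⟩) hf h2

end Crest.Agent.R242
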