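import Crest.Agent.R242.L1
import Crest.Agent.R242.L2

/-! Block L3: test functions.
`res_grad_small`: `b t = e^{κt} M/√(2t)`; `GE.smooth`, `SobLip`, `LipAE.dualLip` give `DualLip (P_t g) (b t)`;
`res_laplace` against `dens μ₀ - dens μ₁` gives `DualLip (res l g) (∫ e^{-lt} b t)`, and
`∫ e^{-(l-κ)t}/√(2t) dt → 0`; `DualLip.lipAE`, `LipAE.sl`.
`Tst.gam_sw`: polarisation, `Gam u v = (Γ(u+v) - Γ(u-v))/4` a.e.
`exists_tst_cut`: `ζ = cut o (R+1) 1` (WLOG `R ≥ 0`), `P_r ζ` has an `e^κ`-Lipschitz representative `v_r` for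
`r ≤ 1` (`GE.Dw_heat_le`), `v_r → ζ` in `L²`, hence uniformly on `closedBall o (R+4)` (`exists_ball_lower`);
`η z = Real.smoothTransition (3z - 1)`, `w = η ∘ P_r ζ` (`tst_heat`, `Tst.chain`) is `1` on `ball o (R+1)` and `0` on
the annulus `R+2 ≤ dist ≤ R+4`; `χ = cut o (R+2) 1 · w` (`IsLap.mul_cut`).
`Tst.exists_testFn`: Lipschitz representative; a.e. bounds of a continuous function hold everywhere
(on open sets), `IsLap.unique` for `weakLaplacian`.
`exists_lip_W_approx`: `cut o n 1 · v_n`, `v_n` the Lipschitz representative of `P_{1/(n+1)} h` (`GE.smooth`);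
`en_heat_tendsto_zero`, `exists_cutoff_approx`, `gam_mul_bg`. -/

set_option autoImplicit false
set_option linter.unusedSectionVars false
set_option linter.unusedVariables false
open MeasureTheory Filter Set Metric
open scoped ENNReal NNReal Topology
open Crest.GeometryTopology.SyntheticRicci

noncomputable section
namespace Crest.Agent.R242

variable {X : Type*} [MetricSpace X] [MeasurableSpace X] [BorelSpace X] [ProperSpace X]
  {m : Measure X} [IsFiniteMeasureOnCompacts m] [m.IsOpenPosMeasure] [DS m m]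

variable {κ : ℝ}

theorem l3a_int (hκ : 0 ≤ κ) {ε : ℝ} (hε : 0 < ε) : ∃ l₀ : ℝ, 0 < l₀ ∧ ∀ l, l₀ ≤ l →
    ∃ F : ℝ → ℝ, IntegrableOn F (Ioi 0) ∧
      (∀ t, 0 < t → Real.exp (-l * t) * (Real.exp (κ * t) / Real.sqrt (2 * t)) ≤ F t) ∧
      ∫ t in Ioi (0 : ℝ), F t ≤ ε := by
  have hG : 0 < Real.Gamma (1 / 2) := Real.Gamma_pos_of_pos (by norm_num)
  have h1 : 0 < (Real.Gamma (1 / 2) / ε) ^ 2 := by positivity
  refine ⟨κ + (Real.Gamma (1 / 2) / ε) ^ 2, by positivity, fun l hl => ?_⟩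
  have hr : 0 < l - κ := by linarith
  have key := Real.integral_rpow_mul_exp_neg_mul_Ioi (a := 1 / 2) (by norm_num) hr
  refine ⟨_, .of_integral_ne_zero (by rw [key]; positivity), fun t ht => ?_, key.trans_le ?_⟩
  · rw [show (1 / 2 - 1 : ℝ) = -(1 / 2) by norm_num, Real.rpow_neg ht.le, ← Real.sqrt_eq_rpow,
      mul_div_assoc', ← Real.exp_add, mul_comm (√t)⁻¹, ← div_eq_mul_inv,
      show -l * t + κ * t = -((l - κ) * t) by ring]
    exact div_le_div_of_nonneg_left (Real.exp_pos _).le (Real.sqrt_pos.2 ht)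
      (Real.sqrt_le_sqrt (by linarith))
  · rw [← Real.sqrt_eq_rpow, ← le_div_iff₀ hG]
    refine Real.sqrt_le_iff.2 ⟨by positivity, ?_⟩
    rw [one_div (l - κ), ← inv_div _ ε, inv_pow]
    exact inv_anti₀ h1 (by linarith)

theorem l3a_pair {M R R' : ℝ} {x y : X} {μ₀ μ₁ : Measure X} (h₀ : BM m M x R μ₀)
    (h₁ : BM m M y R' μ₁) {u : X → ℝ} (hu : MemLp u 2 m) :
    ∫ z, u z ∂μ₀ - ∫ z, u z ∂μ₁ = ∫ z, u z * (dens m μ₀ - dens m μ₁) z ∂m := by
  have := h₀.1.1
  have := h₁.1.1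
  rw [integral_dens h₀.ac, integral_dens h₁.ac]
  refine (integral_sub (h₀.memLp.integrable_mul hu) (h₁.memLp.integrable_mul hu)).symm.trans ?_
  exact integral_congr_ae (Eventually.of_forall fun z => by simp only [Pi.sub_apply, Pi.mul_apply]; ring)

theorem res_grad_small (hS : SobLip m) (h : GE m m κ) (hκ : 0 ≤ κ) {ε : ℝ} (hε : 0 < ε) :
    ∃ l₀ : ℝ, 0 < l₀ ∧ ∀ l, l₀ ≤ l → ∀ (g : X → ℝ) (M : ℝ), MemLp g 2 m → 0 ≤ M →
      (∀ᵐ x ∂m, |g x| ≤ M) → ∀ᵐ x ∂m, Dw m (res m m l g) x ≤ ε * M := by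
  obtain ⟨l₀, hl₀, H⟩ := l3a_int hκ hε
  refine ⟨l₀, hl₀, fun l hl g M hg hM hb => ?_⟩
  obtain ⟨F, hFi, hF, hFε⟩ := H l hl
  have hεM := mul_nonneg hε.le hM
  refine (LipAE.sl hεM (DualLip.lipAE hεM (l2b_of_memLp (res_memLp l g))
    fun x y r M' μ₀ μ₁ hr h₀ h₁ => ?_)).2
  have hD : 0 ≤ M * (dist x y + 2 * r) := by positivity
  rw [l3a_pair h₀ h₁ (res_memLp l g), res_laplace hg (h₀.memLp.sub h₁.memLp) (hl₀.trans_le hl),
    ← Real.norm_eq_abs]
  refine (norm_integral_le_of_norm_le (hFi.mul_const (M * (dist x y + 2 * r))) ?_).trans ?_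
  · refine (ae_restrict_iff' measurableSet_Ioi).2 (Eventually.of_forall fun t ht => ?_)
    have ht' : 0 < t := ht
    have hb0 : 0 ≤ Real.exp (κ * t) * M / Real.sqrt (2 * t) := by positivity
    have h2 := LipAE.dualLip hb0 (hS _ _ hb0 (heat_sw (μ := m) hg ht').sl (h.smooth hκ hg hM hb ht'))
      x y r M' μ₀ μ₁ hr h₀ h₁
    rw [l3a_pair h₀ h₁ (heat_memLp t g)] at h2
    rw [norm_mul, Real.norm_of_nonneg (Real.exp_pos _).le]
    refine (mul_le_mul_of_nonneg_left h2 (Real.exp_pos _).le).trans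
      (le_of_eq_of_le ?_ (mul_le_mul_of_nonneg_right (hF t ht') hD))
    ring
  · rw [integral_mul_const, mul_assoc]
    exact mul_le_mul_of_nonneg_right hFε hD

theorem Tst.gam_self_sw (h : GE m m κ) {g a : X → ℝ} (hg : Tst m g a) : SW m (Gam m g g) :=
  WB.gam_sw (GE.wb h) aestronglyMeasurable_const ⟨|κ|, Eventually.of_forall fun _ => by simp⟩
    hg.1 hg.2.1 hg.2.2

theorem Tst.add {u a v b : X → ℝ} (hu : Tst m u a) (hv : Tst m v b) :
    Tst m (fun x => u x + v x) fun x => a x + b x := by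
  obtain ⟨⟨M, hM⟩, L, hL⟩ := hu.2.2
  obtain ⟨⟨M', hM'⟩, L', hL'⟩ := hv.2.2
  refine ⟨hu.1.add hv.1, hu.2.1.add hv.2.1, ⟨M + M', ?_⟩, L + L', ?_⟩
  · filter_upwards [hM, hM'] with x h1 h2
    exact (abs_add_le _ _).trans (add_le_add h1 h2)
  · filter_upwards [hL, hL', (hu.1.sw.sl.add hv.1.sw.sl).2] with x h1 h2 h3
    exact h3.trans (add_le_add h1 h2)

theorem Tst.sub {u a v b : X → ℝ} (hu : Tst m u a) (hv : Tst m v b) :
    Tst m (fun x => u x - v x) fun x => a x - b x := by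
  obtain ⟨⟨M, hM⟩, L, hL⟩ := hu.2.2
  obtain ⟨⟨M', hM'⟩, L', hL'⟩ := hv.2.2
  refine ⟨hu.1.sub hv.1, hu.2.1.sub hv.2.1, ⟨M + M', ?_⟩, L + L', ?_⟩
  · filter_upwards [hM, hM'] with x h1 h2
    exact (abs_sub _ _).trans (add_le_add h1 h2)
  · filter_upwards [hL, hL', (hu.1.sw.sl.sub hv.1.sw.sl).2] with x h1 h2 h3
    exact h3.trans (add_le_add h1 h2)

theorem Tst.gam_sw (h : GE m m κ) {u a v b : X → ℝ} (hu : Tst m u a) (hv : Tst m v b) :
    SW m (Gam m u v) := by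
  refine ((((hu.add hv).gam_self_sw h).sub ((hu.sub hv).gam_self_sw h)).const_mul (1 / 4)).congr ?_
  filter_upwards [(hu.add hv).1.sw.sl.gam_self, (hu.sub hv).1.sw.sl.gam_self] with x h1 h2
  rw [h1, h2]
  simp only [gradPairing]
  ring

theorem Tst.mul (h : GE m m κ) {u a v b : X → ℝ} (hu : Tst m u a) (hv : Tst m v b) :
    Tst m (fun x => u x * v x) fun x => u x * b x + v x * a x + 2 * Gam m u v x := by
  have hI := DS.hilb (m := m) (μ := m)
  exact ⟨hu.1.mul hv.1 hu.2.2 hv.2.2,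
    ((SW.mul_bg hI hu.1.sw.sl hu.2.2 hv.2.1).add (SW.mul_bg hI hv.1.sw.sl hv.2.2 hu.2.1)).add
      ((hu.gam_sw h hv).const_mul 2), BG.mul hI hu.1.sw.sl hv.1.sw.sl hu.2.2 hv.2.2⟩

theorem l3b_comp {u : X → ℝ} (hu : SL m u) (hb : BG m u) {ψ : ℝ → ℝ} (hψ : ContDiff ℝ 1 ψ) :
    SL m (fun x => ψ (u x)) ∧ BG m fun x => ψ (u x) := by
  obtain ⟨⟨M, hM⟩, L, hL⟩ := hb
  have hab : ∀ᵐ x ∂m, u x ∈ Icc (-M) M := hM.mono fun x hx => abs_le.1 hx
  have hc := hψ.continuous_deriv le_rfl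
  obtain ⟨h1, -, h2⟩ := gam_chain_Icc (DS.hilb (m := m) (μ := m)) hu hu hab ψ (deriv ψ)
    (fun z _ => (hψ.differentiable one_ne_zero z).hasDerivAt) hc.continuousOn
  obtain ⟨A, hA⟩ := (isCompact_Icc (a := -M) (b := M)).exists_bound_of_continuousOn
    hψ.continuous.continuousOn
  obtain ⟨B, hB⟩ := (isCompact_Icc (a := -M) (b := M)).exists_bound_of_continuousOn hc.continuousOn
  refine ⟨h1, ⟨A, hab.mono fun x hx => hA _ hx⟩, B * L, ?_⟩
  filter_upwards [hab, hL, h2, Dw_nonneg (m := m) u] with x hx e1 e2 e3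
  rw [e2]
  exact mul_le_mul (hB _ hx) e1 e3 ((norm_nonneg _).trans (hB _ hx))

theorem Tst.chain (h : GE m m κ) {u a : X → ℝ} (hu : Tst m u a) {η : ℝ → ℝ} (hη : ContDiff ℝ 3 η)
    (h0 : η 0 = 0) :
    Tst m (fun x => η (u x)) fun x =>
      deriv η (u x) * a x + deriv (deriv η) (u x) * Gam m u u x := by
  have hI := DS.hilb (m := m) (μ := m)
  have h2 : ContDiff ℝ 2 (deriv η) := ContDiff.deriv' (n := 2) hη
  have h1 : ContDiff ℝ 1 (deriv (deriv η)) := ContDiff.deriv' (n := 1) h2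
  have c0 := l3b_comp hu.1.sw.sl hu.2.2 (hη.of_le (by norm_num))
  have c1 := l3b_comp hu.1.sw.sl hu.2.2 (h2.of_le (by norm_num))
  have c2 := l3b_comp hu.1.sw.sl hu.2.2 h1
  obtain ⟨M, hM⟩ := hu.2.2.1
  refine ⟨hu.1.chain hu.2.2 (p := -|M|) (q := |M|) ?_ ⟨neg_nonpos.2 (abs_nonneg M), abs_nonneg M⟩
      η (deriv η) (deriv (deriv η)) h0
      (fun z _ => (hη.differentiable (by norm_num) z).hasDerivAt)
      (fun z _ => (h2.differentiable (by norm_num) z).hasDerivAt) h1.continuous.continuousOn,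
    (SW.mul_bg hI c1.1 c1.2 hu.2.1).add (SW.mul_bg hI c2.1 c2.2 (hu.gam_self_sw h)), c0.2⟩
  filter_upwards [hM] with x hx
  exact abs_le.1 (hx.trans (le_abs_self M))

theorem tst_heat (h : GE m m κ) {u : X → ℝ} (hu : SW m u) (hb : BG m u) {t : ℝ} (ht : 0 < t) :
    Tst m (heat m m t u) (lap m m t u) := by
  obtain ⟨⟨M, hM⟩, L, hL⟩ := hb
  exact ⟨isLap_heat hu.memLp ht, lap_sw hu.memLp ht,
    ⟨|M|, abs_heat_le hu.memLp (abs_nonneg M) ht.le (hM.mono fun x hx => hx.trans (le_abs_self M))⟩,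
    _, h.Dw_heat_le hu (abs_nonneg L) (hL.mono fun x hx => hx.trans (le_abs_self L)) ht.le⟩

theorem l3c_unif {K : Set X} (hK : IsCompact K) (L : ℝ≥0) {ε : ℝ} (hε : 0 < ε) :
    ∃ θ : ℝ, 0 < θ ∧ ∀ g : X → ℝ, LipschitzWith L g → MemLp g 2 m → nsq m g < θ →
      ∀ x ∈ K, |g x| ≤ ε := by
  have hc : 0 < ε / (2 * (L + 1)) := by positivity
  obtain ⟨η, hη, hb⟩ := exists_ball_lower (m := m) hK hc
  refine ⟨(ε / 2) ^ 2 * η, by positivity, fun g hg h2 hn x hx => ?_⟩
  by_contra hlt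
  rw [not_le] at hlt
  have hfin : m (ball x (ε / (2 * (L + 1)))) ≠ ⊤ :=
    ((measure_mono ball_subset_closedBall).trans_lt (isCompact_closedBall x _).measure_lt_top).ne
  have hi : Integrable (fun y => g y ^ 2) m := h2.integrable_sq
  have h1 := setIntegral_ge_of_const_le_real (f := fun y => g y ^ 2) (c := (ε / 2) ^ 2)
    measurableSet_ball hfin (fun y hy => by
      have a1 := hg.dist_le_mul x y
      rw [Real.dist_eq, dist_comm] at a1
      have a2 : (L : ℝ) * dist y x ≤ L * (ε / (2 * (L + 1))) :=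
        mul_le_mul_of_nonneg_left (mem_ball.1 hy).le L.2
      have a3 : (L : ℝ) * (ε / (2 * (L + 1))) + ε / (2 * (L + 1)) = ε / 2 := by
        field_simp
      have a4 := abs_sub_abs_le_abs_sub (g x) (g y)
      rw [← sq_abs (g y)]
      exact pow_le_pow_left₀ (by positivity) (by linarith) 2) hi.integrableOn
  have h3 := setIntegral_le_integral (s := ball x (ε / (2 * (L + 1)))) hi
    (Eventually.of_forall fun y => sq_nonneg _)
  have h4 : η ≤ m.real (ball x (ε / (2 * (L + 1)))) :=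
    (ENNReal.ofReal_le_iff_le_toReal hfin).1 (hb x hx)
  have h5 := mul_le_mul_of_nonneg_left h4 (sq_nonneg (ε / 2))
  unfold nsq at hn
  linarith

theorem l3c_close (hS : SobLip m) (h : GE m m κ) (hκ : 0 ≤ κ) {ζ : X → ℝ} (hζ : LipschitzWith 1 ζ)
    (hc : HasCompactSupport ζ) {K : Set X} (hK : IsCompact K) {ε : ℝ} (hε : 0 < ε) :
    ∃ r : ℝ, 0 < r ∧ ∀ᵐ x ∂m, x ∈ K → |heat m m r ζ x - ζ x| ≤ ε := by
  have hw : SW m ζ := sw_of_lip hζ hc
  obtain ⟨θ, hθ, hu⟩ := l3c_unif (m := m) hK ((Real.exp κ).toNNReal + 1) hε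
  have t1 := (heat_tendsto_zero (μ := m) hw.memLp).eventually (gt_mem_nhds hθ)
  have t2 : ∀ᶠ r : ℝ in 𝓝[>] 0, r ≤ 1 := mem_nhdsWithin_of_mem_nhds (Iic_mem_nhds one_pos)
  obtain ⟨r, ⟨h1, h2⟩, hr⟩ := ((t1.and t2).and self_mem_nhdsWithin).exists
  have hr0 : 0 < r := hr
  have hD := h.Dw_heat_le hw zero_le_one ((sl_of_lip (m := m) hζ).2.mono fun x hx => by simpa using hx)
    hr0.le
  obtain ⟨v, hv, hvu⟩ := hS (heat m m r ζ) (Real.exp κ) (Real.exp_pos κ).le (hw.heat hr0.le).sl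
    (hD.mono fun x hx => hx.trans (by
      rw [mul_one]
      exact Real.exp_le_exp.2 (mul_le_of_le_one_right hκ h2)))
  have he : (fun x => heat m m r ζ x - ζ x) =ᵐ[m] fun x => v x - ζ x :=
    hvu.mono fun x hx => by simp only [hx]
  have key := hu (fun x => v x - ζ x) (hv.sub hζ)
    ((memLp_congr_ae he).1 ((heat_memLp r ζ).sub hw.memLp)) (by rwa [← nsq_congr he])
  refine ⟨r, hr0, hvu.mono fun x hx hxK => ?_⟩
  rw [hx]
  exact key x hxK

theorem exists_tst_cut (hS : SobLip m) (h : GE m m κ) (hκ : 0 ≤ κ) (o : X) (R : ℝ) :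
    ∃ (χ c : X → ℝ) (R' : ℝ), Tst m χ c ∧ (∀ᵐ x ∂m, x ∈ ball o R → χ x = 1) ∧
      ∀ᵐ x ∂m, x ∉ closedBall o R' → χ x = 0 := by
  have hI : IsInfHilbertian m := DS.hilb m
  have hl : LipschitzWith 1 (cut o R 1) := by simpa using cut_lip o R one_pos
  obtain ⟨r, hr, hcl⟩ := l3c_close hS h hκ hl (cut_compact o R one_pos)
    (isCompact_closedBall o (R + 2)) (by norm_num : (0 : ℝ) < 1 / 3)
  have hη : ContDiff ℝ 3 fun z : ℝ => Real.smoothTransition (3 * z - 1) :=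
    (Real.smoothTransition.contDiff (n := 3)).comp (by fun_prop)
  have hw := (tst_heat h (sw_of_lip hl (cut_compact o R one_pos))
    (cut_bddLip o R one_pos).sl.2 hr).chain h hη
      (Real.smoothTransition.zero_of_nonpos (by norm_num))
  obtain ⟨hs, hb⟩ := (cut_bddLip o (R + 1) one_pos).sl (m := m)
  have h0 : ∀ᵐ x ∂m, Real.smoothTransition (3 * heat m m r (cut o R 1) x - 1) = 0 ∨
      Dw m (cut o (R + 1) 1) x = 0 := by
    filter_upwards [hcl, hs.Dw_eq_zero, hs.Dw_local (sl_const 1).1, (sl_const (m := m) 1).2]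
      with x h1 h2 h3 h4
    rcases le_total (dist x o) (R + 1) with h5 | h5
    · right
      rw [h3 (cut_eq_one one_pos h5), h4]
    · rcases le_total (dist x o) (R + 2) with h6 | h6
      · left
        have := h1 h6
        rw [cut_eq_zero one_pos h5] at this
        exact Real.smoothTransition.zero_of_nonpos (by linarith [(abs_le.1 this).2])
      · right
        exact h2 (cut_eq_zero one_pos (by linarith))
  refine ⟨_, _, R + 2, ⟨hw.1.mul_cut hs hb h0, SW.mul_bg hI hs hb hw.2.1,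
    BG.mul hI hs hw.1.sw.sl hb hw.2.2⟩, ?_, Eventually.of_forall fun x hx => ?_⟩
  · filter_upwards [hcl] with x h1 hx
    have h2 : dist x o ≤ R := (mem_ball.1 hx).le
    have := h1 (mem_closedBall.2 (by linarith))
    rw [cut_eq_one one_pos h2] at this
    rw [cut_eq_one one_pos (by linarith), one_mul]
    exact Real.smoothTransition.one_of_one_le (by linarith [(abs_le.1 this).1])
  · rw [mem_closedBall, not_le] at hx
    rw [cut_eq_zero one_pos (by linarith), zero_mul]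

theorem l3d_all {p : X → Prop} (hp : IsClosed {x | p x}) (h : ∀ᵐ x ∂m, p x) (x : X) : p x :=
  hp.closure_subset (m.dense_of_ae h x)

theorem Tst.exists_testFn (hS : SobLip m) {g a : X → ℝ} (hg : Tst m g a) {o : X} {R : ℝ}
    (h0 : ∀ᵐ x ∂m, x ∉ closedBall o R → g x = 0) :
    ∃ v : X → ℝ, IsTestFn m v ∧ HasCompactSupport v ∧ v =ᵐ[m] g ∧ weakLaplacian m v =ᵐ[m] a := by
  obtain ⟨hl, ha, ⟨B, hB⟩, L, hL⟩ := hg
  obtain ⟨v, hv, hgv⟩ := hS g (max L 0) (le_max_right _ _) hl.sw.sl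
    (hL.mono fun x hx => hx.trans (le_max_left _ _))
  have hlv : IsLap m m v a := hl.congr hgv (EventuallyEq.refl _ _)
  have hex : ∃ L, IsWeakLaplacian m v L := ⟨a, hlv⟩
  have hw : weakLaplacian m v =ᵐ[m] a := by
    rw [weakLaplacian, dif_pos hex]
    exact IsLap.unique (μ := m) (Classical.choose_spec hex) hlv
  refine ⟨v, ⟨⟨B, l3d_all (m := m) (isClosed_le hv.continuous.abs continuous_const) ?_⟩, ⟨_, hv⟩, hex,
    ha.congr hw.symm⟩, HasCompactSupport.intro (isCompact_closedBall o R) fun x hx => ?_, hgv.symm, hw⟩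
  · filter_upwards [hB, hgv] with x h1 h2
    rwa [← h2]
  · refine (l3d_all (m := m) (p := fun x => x ∈ closedBall o R ∨ v x = 0)
      (isClosed_closedBall.union (isClosed_eq hv.continuous continuous_const)) ?_ x).resolve_left hx
    filter_upwards [h0, hgv] with y h1 h2
    exact or_iff_not_imp_left.2 fun hy => h2 ▸ h1 hy

theorem exists_lip_W_approx (hS : SobLip m) (h : GE m m κ) (hκ : 0 ≤ κ) (o : X) {w : X → ℝ}
    (hw : SW m w) {M : ℝ} (hM0 : 0 ≤ M) (hM : ∀ᵐ x ∂m, 0 ≤ w x ∧ w x ≤ M) :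
    ∃ v : ℕ → X → ℝ, (∀ n, (∃ L : ℝ≥0, LipschitzWith L (v n)) ∧ HasCompactSupport (v n) ∧
        ∀ x, 0 ≤ v n x ∧ v n x ≤ M) ∧
      Tendsto (fun n => nsq m fun x => v n x - w x) atTop (𝓝 0) ∧
      Tendsto (fun n => en m m fun x => v n x - w x) atTop (𝓝 0) := by
  have hI : IsInfHilbertian m := DS.hilb m
  have ht : ∀ n : ℕ, (0 : ℝ) < 1 / ((n : ℝ) + 1) := fun n => Nat.one_div_pos_of_nat
  have htt : Tendsto (fun n : ℕ => 1 / ((n : ℝ) + 1)) atTop (𝓝[>] 0) :=
    tendsto_nhdsWithin_iff.2 ⟨tendsto_one_div_add_atTop_nhds_zero_nat, Eventually.of_forall ht⟩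
  have hM' : ∀ᵐ x ∂m, |w x| ≤ M := hM.mono fun x hx => by rw [abs_of_nonneg hx.1]; exact hx.2
  have hP : ∀ n : ℕ, SW m (heat m m (1 / ((n : ℝ) + 1)) w) := fun n => heat_sw hw.memLp (ht n)
  choose u hu hPu using fun n : ℕ => hS _ _ (by positivity) (hP n).sl
    (GE.smooth h hκ hw.memLp hM0 hM' (ht n))
  have hub : ∀ n x, 0 ≤ u n x ∧ u n x ≤ M := fun n => by
    refine l3d_all (m := m) ((isClosed_le continuous_const (hu n).continuous).inter
      (isClosed_le (hu n).continuous continuous_const)) ?_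
    filter_upwards [heat_mem_Icc (μ := m) hw.memLp hM0 (ht n).le hM, hPu n] with x h1 h2
    rwa [← h2]
  have hcut : ∀ n : ℕ, SL m (cut o n 1) ∧ BG m (cut o n 1) := fun n =>
    (cut_bddLip o (n : ℝ) one_pos).sl
  have hc1 : ∀ (n : ℕ) x, |cut o (n : ℝ) 1 x| ≤ 1 := fun n x => by
    rw [abs_of_nonneg (cut_nonneg o (n : ℝ) 1 x)]
    exact cut_le_one o (n : ℝ) 1 x
  obtain ⟨e0, e1, e2⟩ := exists_cutoff_approx (μ := m) hw o
  set d : ℕ → X → ℝ := fun n x => heat m m (1 / ((n : ℝ) + 1)) w x - w x with hd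
  set e : ℕ → X → ℝ := fun n x => cut o n 1 x * w x - w x with he
  have hdw : ∀ n, SW m (d n) := fun n => (hP n).sub hw
  have hew : ∀ n, SW m (e n) := fun n => (e0 n).sub hw
  have hcd : ∀ n : ℕ, SW m fun x => cut o n 1 x * d n x := fun n =>
    SW.mul_bg hI (hcut n).1 (hcut n).2 (hdw n)
  have d1 : Tendsto (fun n => nsq m (d n)) atTop (𝓝 0) := (heat_tendsto_zero hw.memLp).comp htt
  have d2 : Tendsto (fun n => en m m (d n)) atTop (𝓝 0) := (en_heat_tendsto_zero hw).comp htt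
  have hae : ∀ n : ℕ, (fun x => cut o n 1 x * u n x - w x) =ᵐ[m]
      fun x => cut o n 1 x * d n x + e n x := fun n => by
    filter_upwards [hPu n] with x hx
    simp only [hd, he, ← hx]
    ring
  refine ⟨fun n x => cut o n 1 x * u n x, fun n => ⟨?_, (cut_compact o _ one_pos).mul_right, fun x =>
    ⟨mul_nonneg (cut_nonneg _ _ _ _) (hub n x).1,
      (mul_le_of_le_one_left (hub n x).1 (cut_le_one _ _ _ _)).trans (hub n x).2⟩⟩, ?_, ?_⟩
  · exact ((cut_bddLip o (n : ℝ) one_pos).mul ⟨⟨M, fun x => by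
      rw [abs_of_nonneg (hub n x).1]; exact (hub n x).2⟩, _, hu n⟩).2
  · simp only [fun n => nsq_congr (hae n)]
    refine a5b_add (Eventually.of_forall fun n => (hcd n).memLp)
      (Eventually.of_forall fun n => (hew n).memLp)
      (a5b_small (c := 1) (Eventually.of_forall fun n => ?_) d1) e1
    rw [one_mul]
    refine nsq_mono (hdw n).memLp (Eventually.of_forall fun x => ?_)
    rw [abs_mul]
    exact mul_le_of_le_one_left (abs_nonneg _) (hc1 n x)
  · simp only [fun n => en_congr (μ := m) (hae n), fun n => en_eq (μ := m) ((hcd n).add (hew n)).sl]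
    simp only [fun n => en_eq (μ := m) (hdw n).sl] at d2
    have e3 : Tendsto (fun n => nsq m (Dw m (e n))) atTop (𝓝 0) := by
      simpa only [fun n => en_eq (μ := m) (hew n).sl] using (show Tendsto (fun n => en m m (e n)) _ _ from e2)
    have d3 : Tendsto (fun n => nsq m fun x => |d n x|) atTop (𝓝 0) := by
      simpa only [nsq, sq_abs] using d1
    have m1 : ∀ n, MemLp (fun x => Dw m (d n) x + |d n x|) 2 m := fun n =>
      (hdw n).memLp_Dw.add (hdw n).memLp.abs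
    refine a5b_small (c := 1) (Eventually.of_forall fun n => ?_)
      (a5b_add (Eventually.of_forall m1) (Eventually.of_forall fun n => (hew n).memLp_Dw)
        (a5b_add (Eventually.of_forall fun n => (hdw n).memLp_Dw)
          (Eventually.of_forall fun n => (hdw n).memLp.abs) d2 d3) e3)
    rw [one_mul]
    refine nsq_mono ((m1 n).add (hew n).memLp_Dw) ?_
    filter_upwards [((hcd n).sl.add (hew n).sl).2,
      (gam_mul_bg hI (hcut n).1 (hcut n).2 (hdw n).sl (hdw n).sl).2.2,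
      (sl_of_lip (m := m) (cut_lip o (n : ℝ) one_pos)).2, Dw_nonneg (m := m) (d n),
      Dw_nonneg (m := m) fun x => cut o n 1 x * d n x + e n x] with x h2 h3 h4 h5 h6
    have h7 : Dw m (cut o n 1) x ≤ 1 := by simpa using h4
    have h8 := mul_le_of_le_one_left h5 (hc1 n x)
    have h9 := mul_le_of_le_one_right (abs_nonneg (d n x)) h7
    rw [abs_of_nonneg h6]
    exact le_trans (by linarith) (le_abs_self _)

end Crest.Agent.R242
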