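import Crest.Agent.R242.L3
import Crest.Agent.R242.G0

/-! Block M1: the weighted measure `μ = e^{-V} m`.
`isLap_wm`: test with `e^{V} v` resp. `e^{-V} v` (`SW.mul_bg`, `gam_mul_bg`, `gam_chain_Icc`):
`Γ(u, e^V v) = e^V Γ(u,v) + v e^V Γ(u,V)`.
`res_wm_grad`: `L` with `DV ≤ L`, `ε = 1/(1+L)`, `l₀ ≥ L² + 1` and from `res_grad_small`.  `u = res m μ l w`
satisfies `u = res m m l (w - Γ(V,u))` (`res_isLap`, `isLap_wm`, `IsLap.res_eq`).  Put `u₀ = 0`,
`u_{n+1} = res m m l (w - Γ(V,u_n))`: `D u_n ≤ M` by induction and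
`en (u_{n+1} - u) ≤ L² en (u_n - u)/(4l)` (`res_sub_fun`, `en_res_le`); `Dw_le_of_tendsto`.
`hess_tst`: `exists_tst_cut` for a ball containing the support of `h`, `Tst.mul`, `Tst.exists_testFn`;
on the open ball `v = g`, so Laplacians (`IsLap.eq_on_open`), `Γ(h,·)`, `Γ(F,·)`, `Γ(·,·)` and
`Γ(F, Γ/2)` agree a.e. (`gam_local`, `Tst.gam_self_sw`); off the ball `h = 0` and `Dh = 0`. -/

set_option autoImplicit false
set_option linter.unusedSectionVars false
set_option linter.unusedVariables false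
open MeasureTheory Filter Set Metric
open scoped ENNReal NNReal Topology
open Crest.GeometryTopology.SyntheticRicci

noncomputable section
namespace Crest.Agent.R242

variable {X : Type*} [MetricSpace X] [MeasurableSpace X] [BorelSpace X] [ProperSpace X]
  {m : Measure X} [IsFiniteMeasureOnCompacts m] [m.IsOpenPosMeasure]

theorem m1a_cont {V : X → ℝ} (hV : BddLip V) : Continuous V := by
  obtain ⟨-, L, hL⟩ := hV
  exact hL.continuous

theorem m1a_le {V : X → ℝ} {B : ℝ} (h : ∀ x, -B ≤ V x) :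
    wm m V ≤ ENNReal.ofReal (Real.exp B) • m := by
  rw [← withDensity_const]
  refine withDensity_mono (Eventually.of_forall fun x => ?_)
  exact ENNReal.ofReal_le_ofReal (Real.exp_le_exp.2 (by linarith [h x]))

theorem m1a_ge {V : X → ℝ} (hV : BddLip V) {B : ℝ} (h : ∀ x, V x ≤ B) :
    m ≤ ENNReal.ofReal (Real.exp B) • wm m V := by
  have hc := m1a_cont hV
  have hm : Measurable fun x => ENNReal.ofReal (Real.exp (-V x)) :=
    (Real.continuous_exp.comp hc.neg).measurable.ennreal_ofReal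
  unfold wm wd
  rw [← withDensity_smul _ hm]
  conv_lhs => rw [← withDensity_one (μ := m)]
  refine withDensity_mono (Eventually.of_forall fun x => ?_)
  simp only [Pi.smul_apply, smul_eq_mul, Pi.one_apply]
  rw [← ENNReal.ofReal_mul (Real.exp_pos _).le, ← Real.exp_add, ← ENNReal.ofReal_one]
  exact ENNReal.ofReal_le_ofReal (Real.one_le_exp (by linarith [h x]))

theorem ds_wm (hI : IsInfHilbertian m) {V : X → ℝ} (hV : BddLip V) : DS m (wm m V) := by
  obtain ⟨B, hB⟩ := hV.1
  refine ⟨hI, (Real.exp B).toNNReal, ?_, ?_⟩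
  · exact m1a_le fun x => (abs_le.1 (hB x)).1
  · exact m1a_ge hV fun x => (abs_le.1 (hB x)).2

theorem integral_wm {V : X → ℝ} (hV : BddLip V) (f : X → ℝ) :
    ∫ x, f x ∂(wm m V) = ∫ x, Real.exp (-V x) * f x ∂m :=
  integral_wd (Real.continuous_exp.comp (m1a_cont hV).neg).aestronglyMeasurable
    (Eventually.of_forall fun x => (Real.exp_pos _).le) f

theorem wm_le {V : X → ℝ} (hV : BddLip V) (h0 : ∀ x, 0 ≤ V x) : wm m V ≤ m := by
  have := m1a_le (m := m) (V := V) (B := 0) (by simpa using h0)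
  simpa using this

theorem le_wm {V : X → ℝ} (hV : BddLip V) {B : ℝ} (h : ∀ x, V x ≤ B) :
    m ≤ ENNReal.ofReal (Real.exp B) • wm m V :=
  m1a_ge hV h

variable [DS m m] {κ : ℝ}

theorem hess_tst (hS : SobLip m) (hge : GE m m κ) (hκ : 0 ≤ κ) {F G : X → ℝ} (hF : BddLip F)
    (hH : HasWeakHessLe m F G) {g b : X → ℝ} (hg : Tst m g b) {h : X → ℝ} {L : ℝ≥0}
    (hh : LipschitzWith L h) (hc : HasCompactSupport h) (h0 : ∀ x, 0 ≤ h x) :
    -(∫ x, (Gam m h g x + h x * b x) * Gam m F g x ∂m) -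
        ∫ x, h x * Gam m F (fun y => Gam m g g y / 2) x ∂m ≤
      ∫ x, h x * G x * Gam m g g x ∂m := by
  rcases isEmpty_or_nonempty X with hX | ⟨⟨o⟩⟩
  · simp [integral_of_isEmpty]
  have hI : IsInfHilbertian m := DS.hilb m
  obtain ⟨R, hR⟩ := hc.isCompact.isBounded.subset_ball o
  have hz : ∀ x, x ∉ ball o R → h x = 0 := fun x hx =>
    image_eq_zero_of_notMem_tsupport fun h' => hx (hR h')
  obtain ⟨χ, c, R', hχ, h1, h2⟩ := exists_tst_cut hS hge hκ o R
  have hu := Tst.mul hge hχ hg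
  obtain ⟨v, hv, hvc, hvu, hva⟩ := hu.exists_testFn hS (o := o) (R := R')
    (h2.mono fun x hx hx' => by rw [hx hx', zero_mul])
  have key := hH v hv hvc h ⟨L, hh⟩ hc h0
  generalize (fun x => χ x * b x + g x * c x + 2 * Gam m χ g x) = a at hu hva
  have e0 : ∀ᵐ x ∂m, x ∈ ball o R → (fun x => χ x * g x) x = g x :=
    h1.mono fun x hx hx' => by simp only [hx hx', one_mul]
  generalize (fun x => χ x * g x) = u at hu hvu e0
  have e1 : gradPairing m h v = Gam m h u := gam_congr (EventuallyEq.refl _ _) hvu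
  have e2 : gradPairing m F v = Gam m F u := gam_congr (EventuallyEq.refl _ _) hvu
  have e3 : gradPairing m v v = Gam m u u := gam_congr hvu hvu
  rw [weakHess, e1, e2, e3] at key
  have su := hu.1.sw.sl
  have sg := hg.1.sw.sl
  have sh := (sl_of_lip (m := m) hh).1
  have sF := (hF.sl (m := m)).1
  have half : ∀ {w d : X → ℝ}, Tst m w d → SL m fun y => Gam m w w y / 2 := fun hw =>
    ((hw.gam_self_sw hge).const_mul 2⁻¹).sl.congr (ae_of_all _ fun y => by simp only; ring)
  have loc := (hu.1.eq_on_open hg.1 isOpen_ball e0).and <| e0.and <|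
    (gam_local hI sh sh su sg).and <| (gam_local hI sF sF su sg).and <|
    (gam_local hI su sg su sg).and <| (gam_local hI sF sF (half hu) (half hg)).and <|
    sh.Dw_eq_zero.and <| (abs_gam_le hI sh su).and (abs_gam_le hI sh sg)
  refine le_of_eq_of_le (congrArg₂ (fun s t : ℝ => -s - t) ?_ ?_) (key.trans_eq ?_)
  · refine integral_congr_ae ?_
    filter_upwards [loc, hva] with x ⟨a1, a2, a3, a4, a5, a6, a7, a8, a9⟩ b1
    by_cases hx : x ∈ ball o R
    · rw [b1, a1 hx, a3 rfl (a2 hx), a4 rfl (a2 hx)]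
    · rw [a7 (hz x hx), zero_mul, abs_nonpos_iff] at a8 a9
      simp only [a8, a9, hz x hx, zero_mul, add_zero]
  · refine integral_congr_ae ?_
    filter_upwards [loc] with x ⟨a1, a2, a3, a4, a5, a6, a7, a8, a9⟩
    by_cases hx : x ∈ ball o R
    · exact congrArg (h x * ·) (a6 rfl (by rw [a5 (a2 hx) (a2 hx)])).symm
    · simp only [hz x hx, zero_mul]
  · refine integral_congr_ae ?_
    filter_upwards [loc] with x ⟨a1, a2, a3, a4, a5, a6, a7, a8, a9⟩
    by_cases hx : x ∈ ball o R
    · rw [a5 (a2 hx) (a2 hx)]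
    · simp only [hz x hx, zero_mul]

variable {μ : Measure X} [DS m μ] {V : X → ℝ}

theorem m1a_exp (hI : IsInfHilbertian m) {W : X → ℝ} (hW : BddLip W) {u v : X → ℝ} (hu : SW m u)
    (hv : SW m v) : SW m (fun x => Real.exp (W x) * v x) ∧
      ∀ᵐ x ∂m, Gam m u (fun x => Real.exp (W x) * v x) x =
        Real.exp (W x) * Gam m u v x + Real.exp (W x) * v x * Gam m W u x := by
  have hE := hW.exp.sl (m := m)
  have hs : SW m fun x => Real.exp (W x) * v x := SW.mul_bg hI hE.1 hE.2 hv
  refine ⟨hs, ?_⟩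
  obtain ⟨B, hB⟩ := hW.1
  have h1 := (gam_mul_bg hI hE.1 hE.2 hv.sl hu.sl).2.1
  have h2 := (gam_chain_Icc hI (hW.sl (m := m)).1 hu.sl (a := -B) (b := B)
    (Eventually.of_forall fun x => abs_le.1 (hB x)) Real.exp Real.exp
    (fun z _ => Real.hasDerivAt_exp z) Real.continuous_exp.continuousOn).2.1
  filter_upwards [h1, h2, hu.sl.gam_comm hs.sl, hu.sl.gam_comm hv.sl] with x e1 e2 e3 e4
  rw [e3, e1, e2, e4]
  ring

theorem isLap_wm (hV : BddLip V) (hμ : μ = wm m V) {u a : X → ℝ} (hu : SW m u) :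
    IsLap m μ u a ↔ IsLap m m u fun x => a x + Gam m V u x := by
  have hI : IsInfHilbertian m := DS.hilb m
  have hVs := hV.sl (m := m)
  obtain ⟨L, hL⟩ := hVs.2.2
  have hG : MemLp (Gam m V u) 2 m := SW.memLp_gam hI hVs.1 hL hu
  constructor
  · rintro ⟨-, ha, h⟩
    refine ⟨hu, ha.add hG, fun v hv => ?_⟩
    obtain ⟨hs, he⟩ := m1a_exp hI hV hu hv
    have h1 := h _ hs
    rw [hμ, integral_wm hV, integral_wm hV] at h1
    have e1 : ∫ x, Real.exp (-V x) * Gam m u (fun x => Real.exp (V x) * v x) x ∂m =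
        ∫ x, Gam m u v x + Gam m V u x * v x ∂m := by
      refine integral_congr_ae ?_
      filter_upwards [he] with x hx
      rw [hx, Real.exp_neg]
      field_simp
    have e2 : ∫ x, Real.exp (-V x) * (a x * (Real.exp (V x) * v x)) ∂m = ∫ x, a x * v x ∂m := by
      refine integral_congr_ae (Eventually.of_forall fun x => ?_)
      simp only [Real.exp_neg]
      field_simp
    have i1 : Integrable (Gam m u v) m := SW.integrable_gam hI hu hv
    have i2 : Integrable (fun x => Gam m V u x * v x) m := hG.integrable_mul hv.memLp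
    have i3 : Integrable (fun x => a x * v x) m := ha.integrable_mul hv.memLp
    rw [e1, e2, integral_add i1 i2] at h1
    simp only [add_mul]
    rw [integral_add i3 i2]
    linarith
  · rintro ⟨-, ha', h⟩
    have ha : MemLp a 2 m := by
      have := ha'.sub hG
      refine (memLp_congr_ae (Eventually.of_forall fun x => ?_)).1 this
      simp
    refine ⟨hu, ha, fun v hv => ?_⟩
    obtain ⟨hs, he⟩ := m1a_exp hI hV.neg hu hv
    have h1 := h _ hs
    rw [hμ, integral_wm hV, integral_wm hV]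
    have hneg := gam_const_mul_left hI hVs.1 hu.sl (-1)
    have i1 : Integrable (Gam m u fun x => Real.exp (-V x) * v x) m := SW.integrable_gam hI hu hs
    have i2 : Integrable (fun x => Gam m V u x * (Real.exp (-V x) * v x)) m :=
      hG.integrable_mul hs.memLp
    have i3 : Integrable (fun x => a x * (Real.exp (-V x) * v x)) m := ha.integrable_mul hs.memLp
    have e1 : ∫ x, Real.exp (-V x) * Gam m u v x ∂m =
        ∫ x, Gam m u (fun x => Real.exp (-V x) * v x) x +
          Gam m V u x * (Real.exp (-V x) * v x) ∂m := by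
      refine integral_congr_ae ?_
      filter_upwards [he, hneg] with x hx hn
      have hn' : Gam m (fun y => -V y) u x = -Gam m V u x := by
        simpa using hn
      rw [hx, hn']
      ring
    have e2 : ∫ x, Real.exp (-V x) * (a x * v x) ∂m =
        ∫ x, a x * (Real.exp (-V x) * v x) ∂m := by
      refine integral_congr_ae (Eventually.of_forall fun x => ?_)
      ring
    simp only [add_mul] at h1
    rw [integral_add i3 i2] at h1
    rw [e1, e2, integral_add i1 i2]
    linarith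

theorem m1c_contr {L l : ℝ} (hVs : SL m V) (hVL : ∀ᵐ x ∂m, Dw m V x ≤ L) (hl : L ^ 2 + 1 ≤ l)
    {w u v : X → ℝ} (hw : MemLp w 2 m) (hu : SW m u) (hv : SW m v) :
    en m m (fun x => res m m l (fun y => w y - Gam m V v y) x - res m m l (fun y => w y - Gam m V u y) x) ≤
      1 / 4 * en m m fun x => v x - u x := by
  have hI : IsInfHilbertian m := DS.hilb m
  have hl0 : 0 < l := by nlinarith
  have h1 : MemLp (fun y => w y - Gam m V v y) 2 m := hw.sub (SW.memLp_gam hI hVs hVL hv)
  have h2 : MemLp (fun y => w y - Gam m V u y) 2 m := hw.sub (SW.memLp_gam hI hVs hVL hu)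
  have h3 : MemLp (fun y => w y - Gam m V v y - (w y - Gam m V u y)) 2 m := h1.sub h2
  have hs := hv.sub hu
  have h4 := (a5b_le (c := L) hs.memLp_Dw h3.1 (by
    filter_upwards [gam_sub_right hI hv.sl hu.sl hVs, abs_gam_le hI hVs hs.sl, hVL,
      Dw_nonneg (m := m) fun x => v x - u x] with x a1 a2 a3 a4
    rw [sub_sub_sub_cancel_left, abs_sub_comm, ← a1, abs_of_nonneg a4]
    exact a2.trans (mul_le_mul_of_nonneg_right a3 a4))).2
  rw [← en_eq hs.sl] at h4
  rw [← en_congr (res_sub_fun h1 h2 l)]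
  refine (en_res_le h3 hl0).trans ?_
  rw [div_le_iff₀ (by positivity)]
  nlinarith [en_nonneg (μ := m) hs.sl]

theorem res_wm_grad (hS : SobLip m) (hge : GE m m κ) (hκ : 0 ≤ κ) (hV : BddLip V)
    (hμ : μ = wm m V) :
    ∃ l₀ : ℝ, 0 < l₀ ∧ ∀ l, l₀ ≤ l → ∀ (w : X → ℝ) (M : ℝ), MemLp w 2 m → 0 ≤ M →
      (∀ᵐ x ∂m, |w x| ≤ M) → ∀ᵐ x ∂m, Dw m (res m μ l w) x ≤ M := by
  have hI : IsInfHilbertian m := DS.hilb m
  obtain ⟨L, hL⟩ := hV.2
  obtain ⟨hVs, hVL⟩ := sl_of_lip (m := m) hL
  obtain ⟨l₁, hl₁, hg⟩ := res_grad_small hS hge hκ (ε := 1 / (1 + L)) (by positivity)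
  refine ⟨max l₁ (L ^ 2 + 1), lt_max_of_lt_left hl₁, fun l hl w M hw hM hwM => ?_⟩
  have hl0 : 0 < l := hl₁.trans_le ((le_max_left _ _).trans hl)
  have hu := res_isLap (μ := μ) hw hl0
  generalize res m μ l w = u at hu ⊢
  have e := ((isLap_wm hV hμ hu.1).1 hu).res_eq hl0
  simp only [show ∀ a b c : ℝ, a - (a - b + c) = b - c from fun a b c => by ring] at e
  let U : ℕ → X → ℝ := fun n => Nat.rec (fun _ => 0) (fun _ v => res m m l fun y => w y - Gam m V v y) n
  have key : ∀ n, (SW m (U n) ∧ ∀ᵐ x ∂m, Dw m (U n) x ≤ M) ∧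
      en m m (fun x => U n x - u x) ≤ (1 / 4) ^ n * en m m fun x => U 0 x - u x := by
    intro n
    induction n with
    | zero => exact ⟨⟨sw_zero, (sl_const (m := m) 0).2.mono fun x hx => hx.trans_le hM⟩, by simp⟩
    | succ n ih =>
      obtain ⟨⟨h1, h2⟩, h3⟩ := ih
      have h4 : MemLp (fun y => w y - Gam m V (U n) y) 2 m := hw.sub (SW.memLp_gam hI hVs hVL h1)
      refine ⟨⟨(res_isLap h4 hl0).1, ?_⟩, ?_⟩
      · have := hg l ((le_max_left _ _).trans hl) _ ((1 + L) * M) h4 (by positivity) (by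
          filter_upwards [hwM, abs_gam_le hI hVs h1.sl, hVL, h2, Dw_nonneg (m := m) (U n)]
            with x a1 a2 a3 a4 a5
          have := mul_le_mul a3 a4 a5 L.2
          linarith [abs_sub (w x) (Gam m V (U n) x)])
        rwa [← mul_assoc, one_div_mul_cancel (by positivity), one_mul] at this
      · have h5 := m1c_contr hVs hVL ((le_max_right _ _).trans hl) hw hu.1 h1
        refine ((en_congr ((ae_eq_refl _).sub e.symm)).trans_le h5).trans ?_
        rw [pow_succ', mul_assoc]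
        exact mul_le_mul_of_nonneg_left h3 (by norm_num)
  refine Dw_le_of_tendsto (μ := m) (l := atTop) (Eventually.of_forall fun n => (key n).1) hu.1
    (squeeze_zero (fun n => en_nonneg ((key n).1.1.sub hu.1).sl) (fun n => (key n).2) ?_)
  simpa using (tendsto_pow_atTop_nhds_zero_of_lt_one (r := (1 / 4 : ℝ)) (by norm_num) (by norm_num)).mul_const _

end Crest.Agent.R242
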