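import Crest.Agent.R242.M1

/-! Block M2: the Bochner inequality for `μ = e^{-V} m`, `V = (B_F - F)/ε`, lower bound `-κ - G/ε`.
`wb_lip`: `h' = e^{-V} h` is Lipschitz with compact support; `e^{-V} Γ(h,·) = Γ(h',·) + h' Γ(V,·)`, so the right
side is `{-½∫Γ(h',Γg) + ∫ b(Γ(h',g) + h'b)} + {-∫ Γ(V,g)(Γ(h',g) + h'b) - ∫ h'Γ(V,Γg/2)}`; the first
bracket is `≥ -κ∫h'Γg` (`WB.weak` for `GE.wb`, `IsLap.integral_mul`), the second is `-1/ε` times the left
side of `hess_tst` (`Γ(V,·) = -Γ(F,·)/ε`).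
`wb_W`: `exists_lip_W_approx` (if `X` is empty all integrals vanish); `tendsto_gam_L1`, `tendsto_bdd_mul_L1`.
`Ctx.wb`: `b = a + Γ(V,g)`, `g_n = heat m m (1/(n+1)) g ∈ Tst` with Laplacian `heat m m (1/(n+1)) b → b` in `L²`
(`isLap_wm`, `IsLap.lap_eq`, `tst_heat`), `D g_n ≤ e^κ L`; `-∫Γ(h,Γg_n)dμ = ∫ c Γg_n dμ`; `Γg_n → Γg`,
`Γ(V,g_n) → Γ(V,g)`, `Γ(h,g_n) → Γ(h,g)` in `L²` (`∫ Dh² D(g_n - g)² → 0` by `tendsto_bdd_mul_L1`);
finally `IsLap.integral_mul`. -/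

set_option autoImplicit false
set_option linter.unusedSectionVars false
set_option linter.unusedVariables false
open MeasureTheory Filter Set Metric
open scoped ENNReal NNReal Topology
open Crest.GeometryTopology.SyntheticRicci

noncomputable section
namespace Crest.Agent.R242

variable {X : Type*} [MetricSpace X] [MeasurableSpace X] [BorelSpace X] [ProperSpace X]
  {m : Measure X} [IsFiniteMeasureOnCompacts m] [m.IsOpenPosMeasure] [DS m m]

/-- The standing hypotheses. -/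
structure Ctx (m : Measure X) [IsFiniteMeasureOnCompacts m] [m.IsOpenPosMeasure] [DS m m] (κ : ℝ)
    (F G : X → ℝ) (BF BG : ℝ) (LF : ℝ≥0) : Prop where
  good : HasGood m κ
  k0 : 0 ≤ κ
  ge : GE m m κ
  Fb : ∀ x, |F x| ≤ BF
  Fl : LipschitzWith LF F
  Gb : ∀ x, |G x| ≤ BG
  Gc : Continuous G
  hess : HasWeakHessLe m F G

/-- The potential. -/
def pot (F : X → ℝ) (BF ε : ℝ) (x : X) : ℝ := (BF - F x) / ε

variable {κ BF BG ε : ℝ} {LF : ℝ≥0} {F G : X → ℝ}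

theorem Ctx.pot_bddLip (H : Ctx m κ F G BF BG LF) (ε : ℝ) : BddLip (pot F BF ε) := by
  refine ⟨⟨(|BF| + BF) / |ε|, fun x => ?_⟩, (LF / |ε|).toNNReal, LipschitzWith.of_dist_le_mul fun x y => ?_⟩
  · rw [pot, abs_div]
    exact div_le_div_of_nonneg_right ((abs_sub _ _).trans (add_le_add le_rfl (H.Fb x))) (abs_nonneg _)
  · have h := H.Fl.dist_le_mul x y
    rw [Real.dist_eq] at h ⊢
    rw [pot, pot, ← sub_div, abs_div, sub_sub_sub_cancel_left, abs_sub_comm,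
      Real.coe_toNNReal _ (by positivity), div_mul_eq_mul_div]
    exact div_le_div_of_nonneg_right h (abs_nonneg _)

theorem Ctx.pot_mem (H : Ctx m κ F G BF BG LF) (hε : 0 < ε) (x : X) :
    0 ≤ pot F BF ε x ∧ pot F BF ε x ≤ 2 * BF / ε := by
  obtain ⟨h1, h2⟩ := abs_le.1 (H.Fb x)
  exact ⟨div_nonneg (by linarith) hε.le, div_le_div_of_nonneg_right (by linarith) hε.le⟩

theorem Ctx.pot_lip (H : Ctx m κ F G BF BG LF) (hε : 0 < ε) (x y : X) :
    |pot F BF ε x - pot F BF ε y| ≤ LF / ε * dist x y := by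
  have h := H.Fl.dist_le_mul x y
  rw [Real.dist_eq] at h
  rw [pot, pot, ← sub_div, abs_div, sub_sub_sub_cancel_left, abs_sub_comm, abs_of_pos hε, div_mul_eq_mul_div]
  exact div_le_div_of_nonneg_right h hε.le

variable {μ : Measure X} [DS m μ]

theorem Ctx.wb_lip (H : Ctx m κ F G BF BG LF) (hε : 0 < ε) (hμ : μ = wm m (pot F BF ε))
    {g b : X → ℝ} (hg : Tst m g b) {h : X → ℝ} {L : ℝ≥0} (hh : LipschitzWith L h)
    (hc : HasCompactSupport h) (h0 : ∀ x, 0 ≤ h x) :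
    ∫ x, (-κ - G x / ε) * h x * Gam m g g x ∂μ ≤
      -(1 / 2) * ∫ x, Gam m h (Gam m g g) x ∂μ +
        ∫ x, (b x - Gam m (pot F BF ε) g x) *
          (Gam m h g x + h x * (b x - Gam m (pot F BF ε) g x)) ∂μ := by
  have hI : IsInfHilbertian m := DS.hilb m
  have hV := H.pot_bddLip ε
  obtain ⟨B, hB⟩ := hh.continuous.bounded_above_of_compact_support hc
  obtain ⟨⟨M, hM⟩, L', hL'⟩ := hV.neg.exp.mul ⟨⟨B, hB⟩, L, hh⟩
  obtain ⟨A, hA⟩ := hV.neg.exp.1
  set w : X → ℝ := fun x => Real.exp (-pot F BF ε x) * h x with hw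
  have hwc : HasCompactSupport w := hc.mul_left
  have hw0 : ∀ x, 0 ≤ w x := fun x => mul_nonneg (Real.exp_pos _).le (h0 x)
  have hwW := sw_of_lip (m := m) hL' hwc
  have hwm := hL'.continuous.aestronglyMeasurable (μ := m)
  have hF := sl_of_lip (m := m) H.Fl
  have hQ := hg.gam_self_sw H.ge
  have hQ2 : SW m fun y => Gam m g g y / 2 := by
    simpa only [div_eq_inv_mul] using hQ.const_mul 2⁻¹
  obtain ⟨Lg, hLg⟩ := hg.2.2.2
  have key : ∀ {k : X → ℝ}, SL m k → ∀ᵐ x ∂m, Gam m (pot F BF ε) k x = -ε⁻¹ * Gam m F k x ∧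
      Real.exp (-pot F BF ε x) * Gam m h k x = Gam m w k x - ε⁻¹ * w x * Gam m F k x := fun hk => by
    obtain ⟨a1, a2, -⟩ := gam_chain_Icc hI hF.1 hk (Eventually.of_forall fun x => abs_le.1 (H.Fb x))
      (fun z => Real.exp (-((BF - z) / ε))) (fun z => Real.exp (-((BF - z) / ε)) * -(-1 / ε))
      (fun z _ => (((hasDerivAt_id' z).const_sub BF).div_const ε).fun_neg.exp) (by fun_prop)
    filter_upwards [a2, gam_chain hI hF.1 hk (fun z => (BF - z) / ε) (fun _ => -1 / ε)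
      (fun z => ((hasDerivAt_id' z).const_sub BF).div_const ε) continuous_const fun _ => le_rfl,
      (gam_mul_bdd hI a1 (sl_of_lip hh).1 hk ⟨A, Eventually.of_forall hA⟩
        ⟨B, Eventually.of_forall hB⟩).2] with x b1 b2 b3
    refine ⟨b2.trans (by ring), ?_⟩
    rw [show Gam m w _ x = _ from b3, b1]
    simp only [hw, pot]
    ring
  have h1 := (GE.wb H.ge).weak aestronglyMeasurable_const ⟨|-κ|, Eventually.of_forall fun _ => le_rfl⟩
    hg.1 hg.2.1 hg.2.2 hwW (Eventually.of_forall fun x => ⟨hw0 x, (le_abs_self _).trans (hM x)⟩)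
  have h2 := hg.1.integral_mul hLg hwW ⟨M, Eventually.of_forall hM⟩ hg.2.1
  have h3 := hess_tst (sobLip_of_good H.good) H.ge H.k0 ⟨⟨BF, H.Fb⟩, LF, H.Fl⟩ H.hess hg hL' hwc hw0
  have i0 := (SW.integrable_gam hI hg.1.sw hg.1.sw).bdd_mul hwm (Eventually.of_forall hM)
  have i1 : Integrable (fun x => -κ * w x * Gam m g g x) m := by
    simpa only [mul_assoc] using i0.const_mul (-κ)
  have i2 : Integrable (fun x => w x * G x * Gam m g g x) m := by
    simpa only [mul_left_comm, mul_assoc] using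
      i0.bdd_mul H.Gc.aestronglyMeasurable (Eventually.of_forall H.Gb)
  have i3 := SW.integrable_gam hI hwW hQ
  have i4 : Integrable (fun x => w x * Gam m F (fun y => Gam m g g y / 2) x) m :=
    hwW.memLp.integrable_mul (SW.memLp_gam hI hF.1 hF.2 hQ2)
  have iW : MemLp (fun x => Gam m w g x + w x * b x) 2 m :=
    (SW.memLp_gam hI hwW.sl (sl_of_lip hL').2 hg.1.sw).add
      (c3b_mul hg.1.memLp hwm (Eventually.of_forall hM))
  have i5 : Integrable (fun x => b x * (Gam m w g x + w x * b x)) m := hg.1.memLp.integrable_mul iW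
  have i6 : Integrable (fun x => (Gam m w g x + w x * b x) * Gam m F g x) m :=
    iW.integrable_mul (SW.memLp_gam hI hF.1 hF.2 hg.1.sw)
  have e1 : ∫ x, (-κ - G x / ε) * h x * Gam m g g x ∂μ =
      ∫ x, -κ * w x * Gam m g g x ∂m - ε⁻¹ * ∫ x, w x * G x * Gam m g g x ∂m := by
    rw [hμ, integral_wm hV, ← integral_const_mul, ← integral_sub i1 (i2.const_mul _)]
    exact integral_congr_ae (Eventually.of_forall fun x => by simp only [hw]; ring)
  have e2 : ∫ x, Gam m h (Gam m g g) x ∂μ = ∫ x, Gam m w (Gam m g g) x ∂m -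
      2 * ε⁻¹ * ∫ x, w x * Gam m F (fun y => Gam m g g y / 2) x ∂m := by
    rw [hμ, integral_wm hV, ← integral_const_mul, ← integral_sub i3 (i4.const_mul _)]
    refine integral_congr_ae ?_
    filter_upwards [key hQ.sl, gam_const_mul_right hI hQ.sl hF.1 2⁻¹] with x a1 a2
    simp only [div_eq_inv_mul, a1.2, a2]
    ring
  have e3 : ∫ x, (b x - Gam m (pot F BF ε) g x) *
      (Gam m h g x + h x * (b x - Gam m (pot F BF ε) g x)) ∂μ =
      ∫ x, b x * (Gam m w g x + w x * b x) ∂m +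
        ε⁻¹ * ∫ x, (Gam m w g x + w x * b x) * Gam m F g x ∂m := by
    rw [hμ, integral_wm hV, ← integral_const_mul, ← integral_add i5 (i6.const_mul _)]
    refine integral_congr_ae ?_
    filter_upwards [key hg.1.sw.sl] with x a1
    rw [a1.1, eq_add_of_sub_eq a1.2.symm]
    simp only [hw]
    ring
  rw [e1, e2, e3]
  nlinarith [mul_le_mul_of_nonneg_left h3 (inv_pos.2 hε).le]

theorem Ctx.m2a_aesm (H : Ctx m κ F G BF BG LF) (ε : ℝ) :
    AEStronglyMeasurable (fun x => -κ - G x / ε) m :=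
  (continuous_const.sub (H.Gc.div_const ε)).aestronglyMeasurable

theorem Ctx.m2a_k (H : Ctx m κ F G BF BG LF) (hε : 0 < ε) (x : X) : |-κ - G x / ε| ≤ κ + BG / ε := by
  refine (abs_sub _ _).trans (add_le_add (by rw [abs_neg, abs_of_nonneg H.k0]) ?_)
  rw [abs_div, abs_of_pos hε]
  exact div_le_div_of_nonneg_right (H.Gb x) hε.le

theorem m2a_nsq (μ : Measure X) [DS m μ] {u : ℕ → X → ℝ} (hu : ∀ n, MemLp (u n) 2 m)
    (h : Tendsto (fun n => nsq m (u n)) atTop (𝓝 0)) : Tendsto (fun n => nsq μ (u n)) atTop (𝓝 0) := by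
  obtain ⟨C, -, hC⟩ := DS.exists_cmp m μ
  exact squeeze_zero (fun n => nsq_nonneg _)
    (fun n => (hC _ (Eventually.of_forall fun x => sq_nonneg _) (hu n).integrable_sq).1)
    (by simpa only [mul_zero, nsq] using h.const_mul C)

theorem Ctx.wb_W (H : Ctx m κ F G BF BG LF) (hε : 0 < ε) (hμ : μ = wm m (pot F BF ε))
    {g b : X → ℝ} (hg : Tst m g b) {h : X → ℝ} (hh : SW m h) {M : ℝ}
    (hM : ∀ᵐ x ∂m, 0 ≤ h x ∧ h x ≤ M) :
    ∫ x, (-κ - G x / ε) * h x * Gam m g g x ∂μ ≤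
      -(1 / 2) * ∫ x, Gam m h (Gam m g g) x ∂μ +
        ∫ x, (b x - Gam m (pot F BF ε) g x) *
          (Gam m h g x + h x * (b x - Gam m (pot F BF ε) g x)) ∂μ := by
  rcases isEmpty_or_nonempty X with hX | ⟨⟨o⟩⟩
  · simp [integral_of_isEmpty]
  have hI : IsInfHilbertian m := DS.hilb μ
  have hM' : ∀ᵐ x ∂m, 0 ≤ h x ∧ h x ≤ |M| := hM.mono fun x hx => ⟨hx.1, hx.2.trans (le_abs_self M)⟩
  obtain ⟨v, hv, h1, h2⟩ := exists_lip_W_approx (sobLip_of_good H.good) H.ge H.k0 o hh (abs_nonneg M) hM'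
  have hw : ∀ n, SW m (v n) := fun n => by
    obtain ⟨⟨L, hL⟩, hc, -⟩ := hv n
    exact sw_of_lip hL hc
  have hS := Tst.gam_self_sw H.ge hg
  have hgw : SW m g := hg.1.1
  obtain ⟨L, hL⟩ := hg.2.2.2
  obtain ⟨hVs, -, LV, hLV⟩ := (H.pot_bddLip ε).sl (m := m)
  have toμ : ∀ {f : X → ℝ}, MemLp f 2 m → MemLp f 2 μ := fun hf => (DS.memLp_iff m μ).2 hf
  have hc : MemLp (fun x => b x - Gam m (pot F BF ε) g x) 2 μ :=
    toμ (hg.2.1.memLp.sub (SW.memLp_gam hI hVs hLV hgw))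
  have e1 := m2a_nsq μ (fun n => ((hw n).sub hh).memLp) h1
  have e2 : Tendsto (fun n => en m μ fun x => v n x - h x) atTop (𝓝 0) := by
    simp only [en_eq ((hw _).sub hh).sl] at h2 ⊢
    exact m2a_nsq μ (fun n => ((hw n).sub hh).memLp_Dw) h2
  have hkS : MemLp (fun x => (-κ - G x / ε) * Gam m g g x) 2 μ :=
    toμ (c3b_mul hS.memLp (H.m2a_aesm ε) (Eventually.of_forall (H.m2a_k hε)))
  have t1 := tendsto_integral_mul (.of_forall fun n => toμ (hw n).memLp) (.of_forall fun _ => hkS)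
    (toμ hh.memLp) hkS e1 (by simp [nsq])
  have i2 : ∀ {f : X → ℝ}, SW m f → Integrable (Gam m f (Gam m g g)) μ := fun hf =>
    (DS.integrable_iff m μ).2 (SW.integrable_gam hI hf hS)
  have t2 : Tendsto (fun n => ∫ x, Gam m (v n) (Gam m g g) x ∂μ) atTop (𝓝 (∫ x, Gam m h (Gam m g g) x ∂μ)) := by
    rw [tendsto_iff_norm_sub_tendsto_zero]
    refine squeeze_zero (fun _ => norm_nonneg _) (fun n => ?_)
      (tendsto_gam_L1 (μ := μ) (.of_forall hw) (.of_forall fun _ => hS) hh hS e2 ?_)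
    · rw [← integral_sub (i2 (hw n)) (i2 hh)]
      exact norm_integral_le_integral_norm _
    · simp only [sub_self, en_eq (sl_const (m := m) 0).1]
      rw [nsq_congr (c4c_ae m μ (sl_const (m := m) 0).2)]
      simp [nsq]
  have m3 : ∀ {f : X → ℝ}, SW m f → MemLp (Gam m f g) 2 μ := fun hf => (c4c_gam_le μ hf hgw hL).1
  have t3 := tendsto_integral_mul (l := atTop) (.of_forall fun _ : ℕ => hc) (.of_forall fun n => m3 (hw n)) hc (m3 hh)
    (by simp [nsq]) (by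
      refine squeeze_zero (fun n => nsq_nonneg _) (fun n => ?_) (by simpa using e2.const_mul (L ^ 2))
      refine le_trans (le_of_eq (nsq_congr (c4c_ae m μ ?_))) (c4c_gam_le μ ((hw n).sub hh) hgw hL).2
      filter_upwards [gam_sub_left hI (hw n).sl hh.sl hgw.sl] with x hx using hx.symm)
  have t4 := tendsto_bdd_mul_L1 (M := |M|) (.of_forall fun n => ⟨toμ (hw n).memLp, .of_forall fun x => by
      rw [abs_of_nonneg ((hv n).2.2 x).1]; exact ((hv n).2.2 x).2⟩) (toμ hh.memLp)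
    (c4c_ae m μ (hM'.mono fun x hx => by rw [abs_of_nonneg hx.1]; exact hx.2))
    (.of_forall fun _ => hc.integrable_sq) hc.integrable_sq e1 (by simp)
  have key : ∀ {f : X → ℝ}, SW m f → (∀ᵐ x ∂m, 0 ≤ f x ∧ f x ≤ |M|) →
      ∫ x, (b x - Gam m (pot F BF ε) g x) * (Gam m f g x + f x * (b x - Gam m (pot F BF ε) g x)) ∂μ =
        ∫ x, (b x - Gam m (pot F BF ε) g x) * Gam m f g x ∂μ +
          ∫ x, f x * (b x - Gam m (pot F BF ε) g x) ^ 2 ∂μ := fun hf hb => by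
    refine Eq.trans ?_ (integral_add (hc.integrable_mul (m3 hf)) (a5a_bdd (M := |M|) (toμ hf.memLp).1
      (c4c_ae m μ (hb.mono fun x hx => by rw [abs_of_nonneg hx.1]; exact hx.2)) hc.integrable_sq).1)
    exact integral_congr_ae (.of_forall fun x => by simp only; ring)
  have key' : ∀ f : X → ℝ, ∫ x, (-κ - G x / ε) * f x * Gam m g g x ∂μ =
      ∫ x, f x * ((-κ - G x / ε) * Gam m g g x) ∂μ := fun f =>
    integral_congr_ae (.of_forall fun x => by simp only; ring)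
  rw [key', key hh hM']
  refine le_of_tendsto_of_tendsto' t1 ((t2.const_mul _).add (t3.add t4)) fun n => ?_
  obtain ⟨⟨L', hL'⟩, hc', h0⟩ := hv n
  have := H.wb_lip hε hμ hg hL' hc' fun x => (h0 x).1
  rwa [key', key (hw n) (.of_forall h0)] at this

theorem m2c_cmp (μ : Measure X) [DS m μ] {ι : Type*} {l : Filter ι} {f : ι → X → ℝ}
    (hf : ∀ᶠ i in l, MemLp (f i) 2 m) (h : Tendsto (fun i => nsq m (f i)) l (𝓝 0)) :
    Tendsto (fun i => nsq μ (f i)) l (𝓝 0) := by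
  obtain ⟨C, -, hC⟩ := DS.exists_cmp m μ
  refine squeeze_zero' (Eventually.of_forall fun _ => nsq_nonneg _) (hf.mono fun i hi =>
    (hC _ (Eventually.of_forall fun x => sq_nonneg (f i x)) hi.integrable_sq).1) ?_
  simpa only [nsq, mul_zero] using h.const_mul C

theorem m2c_dom {ι : Type*} {l : Filter ι} {u f : ι → X → ℝ} {K : ℝ}
    (hu : ∀ᶠ i in l, SW m (u i) ∧ AEStronglyMeasurable (f i) m ∧ ∀ᵐ x ∂m, |f i x| ≤ K * Dw m (u i) x)
    (h : Tendsto (fun i => en m μ (u i)) l (𝓝 0)) : Tendsto (fun i => nsq μ (f i)) l (𝓝 0) := by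
  refine a5b_small (c := K ^ 2) (g := fun i => Dw m (u i)) (hu.mono fun i hi => ?_)
    (h.congr' (hu.mono fun i hi => en_eq hi.1.sl))
  refine (a5b_le ((DS.memLp_iff m μ).2 hi.1.memLp_Dw) (hi.2.1.mono_ac (DS.ac₁ m μ))
    ((DS.ac₁ m μ).ae_le ?_)).2
  filter_upwards [hi.2.2, Dw_nonneg (m := m) (u i)] with x h1 h2
  rwa [abs_of_nonneg h2]

theorem m2c_bdd {ι : Type*} {l : Filter ι} {u : ι → X → ℝ} {u₀ w : X → ℝ} {K : ℝ} (hw : SL m w)
    (hK : ∀ᵐ x ∂m, Dw m w x ≤ K) (hu : ∀ᶠ i in l, SW m (u i)) (h₀ : SW m u₀)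
    (h : Tendsto (fun i => en m μ fun x => u i x - u₀ x) l (𝓝 0)) :
    Tendsto (fun i => nsq μ fun x => Gam m w (u i) x - Gam m w u₀ x) l (𝓝 0) := by
  have hI : IsInfHilbertian m := DS.hilb μ
  refine m2c_dom (K := K) (hu.mono fun i hi => ⟨hi.sub h₀, (gam_aesm _ _).sub (gam_aesm _ _), ?_⟩) h
  filter_upwards [gam_sub_right hI hi.sl h₀.sl hw, abs_gam_le hI hw (hi.sub h₀).sl, hK,
    Dw_nonneg (m := m) fun x => u i x - u₀ x] with x h1 h2 h3 h4
  rw [← h1]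
  exact h2.trans (mul_le_mul_of_nonneg_right h3 h4)

theorem m2c_self {ι : Type*} {l : Filter ι} {u : ι → X → ℝ} {u₀ : X → ℝ} {L : ℝ}
    (hu : ∀ᶠ i in l, SW m (u i) ∧ ∀ᵐ x ∂m, Dw m (u i) x ≤ L) (h₀ : SW m u₀)
    (hL : ∀ᵐ x ∂m, Dw m u₀ x ≤ L) (h : Tendsto (fun i => en m μ fun x => u i x - u₀ x) l (𝓝 0)) :
    Tendsto (fun i => nsq μ fun x => Gam m (u i) (u i) x - Gam m u₀ u₀ x) l (𝓝 0) := by
  refine m2c_dom (K := 2 * L)
    (hu.mono fun i hi => ⟨hi.1.sub h₀, (gam_aesm _ _).sub (gam_aesm _ _), ?_⟩) h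
  filter_upwards [hi.1.sl.gam_self, h₀.sl.gam_self, hi.1.sl.abs_Dw_sub h₀.sl, hi.2, hL,
    Dw_nonneg (m := m) (u i), Dw_nonneg (m := m) u₀] with x h1 h2 h3 h4 h5 h6 h7
  rw [h1, h2, sq_sub_sq, abs_mul, abs_of_nonneg (add_nonneg h6 h7)]
  exact mul_le_mul (by linarith) h3 (abs_nonneg _) (by linarith)

theorem m2c_sw {ι : Type*} {l : Filter ι} {u : ι → X → ℝ} {u₀ w : X → ℝ} {L : ℝ} (hw : SW m w)
    (hu : ∀ᶠ i in l, SW m (u i) ∧ ∀ᵐ x ∂m, Dw m (u i) x ≤ L) (h₀ : SW m u₀)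
    (hL : ∀ᵐ x ∂m, Dw m u₀ x ≤ L) (h : Tendsto (fun i => en m μ fun x => u i x - u₀ x) l (𝓝 0)) :
    Tendsto (fun i => nsq μ fun x => Gam m w (u i) x - Gam m w u₀ x) l (𝓝 0) := by
  have hI : IsInfHilbertian m := DS.hilb μ
  have hae : ∀ {p : X → Prop}, (∀ᵐ x ∂m, p x) → ∀ᵐ x ∂μ, p x := fun hp => (DS.ac₁ m μ).ae_le hp
  set d : ι → X → ℝ := fun i => Dw m fun x => u i x - u₀ x with hd
  have hdS : ∀ᶠ i in l, MemLp (d i) 2 μ ∧ ∀ᵐ x ∂μ, |d i x| ≤ 2 * L := by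
    filter_upwards [hu] with i hi
    refine ⟨(DS.memLp_iff m μ).2 (hi.1.sub h₀).memLp_Dw, hae ?_⟩
    filter_upwards [(hi.1.sl.sub h₀.sl).2, hi.2, hL, Dw_nonneg (m := m) fun x => u i x - u₀ x]
      with x h1 h2 h3 h4
    rw [abs_of_nonneg h4]
    linarith
  have hi : Integrable (fun x => Dw m w x ^ 2) μ := ((DS.memLp_iff m μ).2 hw.memLp_Dw).integrable_sq
  have hM0 : ∀ᵐ x ∂μ, |(fun _ : X => (0 : ℝ)) x| ≤ 2 * L := by
    refine hae ?_
    filter_upwards [hL, Dw_nonneg (m := m) u₀] with x a1 a2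
    rw [abs_zero]
    linarith
  have hd0 : Tendsto (fun i => nsq μ (d i)) l (𝓝 0) :=
    h.congr' (hu.mono fun i hi => en_eq (hi.1.sub h₀).sl)
  have t4 := tendsto_bdd_mul_L1 (h := d) (g := fun _ x => Dw m w x ^ 2) (h₀ := fun _ => 0)
    (M := 2 * L) hdS MemLp.zero' hM0 (Eventually.of_forall fun _ => hi) hi
    (by simpa using hd0) (by simpa using tendsto_const_nhds)
  refine squeeze_zero' (g := fun i => 2 * L * ∫ x, d i x * Dw m w x ^ 2 ∂μ)
    (Eventually.of_forall fun _ => nsq_nonneg _) ?_ (by simpa using t4.const_mul (2 * L))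
  filter_upwards [hu, hdS] with i hk hk'
  rw [← integral_const_mul]
  refine integral_mono_of_nonneg (Eventually.of_forall fun _ => sq_nonneg _)
    ((a5a_bdd hk'.1.1 hk'.2 hi).1.const_mul _) ?_
  filter_upwards [hae (gam_sub_right hI hk.1.sl h₀.sl hw.sl), hae (abs_gam_le hI hw.sl (hk.1.sub h₀).sl),
    hk'.2, hae (Dw_nonneg (m := m) fun y => u i y - u₀ y)] with x a0 a1 a2 a4
  have a5 := pow_le_pow_left₀ (abs_nonneg _) a1 2
  rw [sq_abs, a0] at a5
  have a6 : 0 ≤ d i x * Dw m w x ^ 2 := mul_nonneg a4 (sq_nonneg _)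
  have a7 := mul_le_mul_of_nonneg_right ((le_abs_self _).trans a2) a6
  refine a5.trans (le_trans (le_of_eq ?_) a7)
  simp only [hd]
  ring

theorem Ctx.wb (H : Ctx m κ F G BF BG LF) (hε : 0 < ε) (hμ : μ = wm m (pot F BF ε)) :
    WB m μ fun x => -κ - G x / ε := by
  intro g a h c M hg ha hgb hh hM
  have hI : IsInfHilbertian m := DS.hilb μ
  have hae : ∀ {p : X → Prop}, (∀ᵐ x ∂m, p x) → ∀ᵐ x ∂μ, p x := fun hp => (DS.ac₁ m μ).ae_le hp
  have hL2 : ∀ {f : X → ℝ}, MemLp f 2 m → MemLp f 2 μ := fun hf => (DS.memLp_iff m μ).2 hf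
  have hV := H.pot_bddLip ε
  set V := pot F BF ε with hVdef
  obtain ⟨hVs, -, K, hK⟩ := hV.sl (m := m)
  obtain ⟨L₀, hL₀⟩ := hgb.2
  have hκ := H.k0
  set L := Real.exp κ * max L₀ 0 with hLdef
  have hL1 : ∀ᵐ x ∂m, Dw m g x ≤ max L₀ 0 := hL₀.mono fun x hx => hx.trans (le_max_left _ _)
  have hL : ∀ᵐ x ∂m, Dw m g x ≤ L := hL1.mono fun x hx =>
    hx.trans (le_mul_of_one_le_left (le_max_right _ _) (Real.one_le_exp hκ))
  have hb : IsLap m m g fun x => a x + Gam m V g x := (isLap_wm hV hμ hg.sw).1 hg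
  set b : X → ℝ := fun x => a x + Gam m V g x with hbdef
  have hev : ∀ᶠ t in 𝓝[>] (0 : ℝ), t ∈ Ioo (0 : ℝ) 1 := Ioo_mem_nhdsGT one_pos
  have hu : ∀ᶠ t in 𝓝[>] (0 : ℝ), SW m (heat m m t g) ∧ ∀ᵐ x ∂m, Dw m (heat m m t g) x ≤ L := by
    filter_upwards [hev] with t ht
    refine ⟨hg.sw.heat ht.1.le, ?_⟩
    filter_upwards [H.ge.Dw_heat_le hg.sw (le_max_right L₀ 0) hL1 ht.1.le] with x hx
    refine hx.trans (mul_le_mul_of_nonneg_right (Real.exp_le_exp.2 ?_) (le_max_right _ _))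
    exact mul_le_of_le_one_right hκ ht.2.le
  have hen : Tendsto (fun t => en m μ fun x => heat m m t g x - g x) (𝓝[>] 0) (𝓝 0) := by
    have h1 := en_heat_tendsto_zero (μ := m) hg.sw
    have h2 : Tendsto (fun t => nsq m (Dw m fun x => heat m m t g x - g x)) (𝓝[>] 0) (𝓝 0) :=
      h1.congr' (hu.mono fun t ht => en_eq (ht.1.sub hg.sw).sl)
    exact (m2c_cmp μ (hu.mono fun t ht => (ht.1.sub hg.sw).memLp_Dw) h2).congr'
      (hu.mono fun t ht => (en_eq (ht.1.sub hg.sw).sl).symm)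
  have hbt : Tendsto (fun t => nsq μ fun x => heat m m t b x - b x) (𝓝[>] 0) (𝓝 0) :=
    m2c_cmp μ (Eventually.of_forall fun t => (heat_memLp t b).sub hb.memLp)
      (heat_tendsto_zero (μ := m) hb.memLp)
  have tV := m2c_bdd hVs hK (hu.mono fun t ht => ht.1) hg.sw hen
  have th := m2c_sw hh.sw hu hg.sw hL hen
  have tg := m2c_self hu hg.sw hL hen
  have mV : ∀ {u : X → ℝ}, SW m u → MemLp (Gam m V u) 2 μ := fun hu => hL2 (SW.memLp_gam hI hVs hK hu)
  have mh : ∀ {u : X → ℝ}, SW m u → (∀ᵐ x ∂m, Dw m u x ≤ L) → MemLp (Gam m h u) 2 μ := fun hu hD =>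
    hL2 ((SW.memLp_gam hI hu.sl hD hh.sw).ae_eq (hu.sl.gam_comm hh.sw.sl))
  have mg : ∀ {u : X → ℝ}, SW m u → (∀ᵐ x ∂m, Dw m u x ≤ L) → MemLp (Gam m u u) 2 μ := fun hu hD =>
    hL2 (SW.memLp_gam hI hu.sl hD hu)
  have hhM : ∀ᵐ x ∂μ, |h x| ≤ M := hae (hM.mono fun x hx => by rw [abs_of_nonneg hx.1]; exact hx.2)
  have mhh : MemLp h 2 μ := hL2 hh.sw.memLp
  have mul : ∀ {f : X → ℝ}, MemLp f 2 μ → MemLp (fun x => h x * f x) 2 μ ∧
      nsq μ (fun x => h x * f x) ≤ M ^ 2 * nsq μ f := fun hf =>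
    a5b_le hf (mhh.1.mul hf.1) (hhM.mono fun x hx => by
      rw [abs_mul]; exact mul_le_mul_of_nonneg_right hx (abs_nonneg _))
  have ma : MemLp a 2 μ := hL2 ha.memLp
  set A : ℝ → X → ℝ := fun t x => heat m m t b x - Gam m V (heat m m t g) x with hA
  have mA : ∀ᶠ t in 𝓝[>] (0 : ℝ), MemLp (A t) 2 μ :=
    hu.mono fun t ht => (hL2 (heat_memLp t b)).sub (mV ht.1)
  have tA : Tendsto (fun t => nsq μ fun x => A t x - a x) (𝓝[>] 0) (𝓝 0) := by
    have tV' : Tendsto (fun t => nsq μ fun x => -1 * (Gam m V (heat m m t g) x - Gam m V g x))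
        (𝓝[>] 0) (𝓝 0) :=
      a5b_small (c := (-1) ^ 2) (Eventually.of_forall fun t => (a5b_const_mul _ _).le) tV
    refine (a5b_add (Eventually.of_forall fun t => hL2 ((heat_memLp t b).sub hb.memLp))
      (hu.mono fun t ht => ((mV ht.1).sub (mV hg.sw)).const_mul (-1)) hbt tV').congr fun t => ?_
    congr 1
    funext x
    simp only [hA, hbdef, Pi.sub_apply]
    ring
  have tB : Tendsto (fun t => nsq μ fun x => (Gam m h (heat m m t g) x + h x * A t x) -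
      (Gam m h g x + h x * a x)) (𝓝[>] 0) (𝓝 0) := by
    have t1 : Tendsto (fun t => nsq μ fun x => h x * (A t x - a x)) (𝓝[>] 0) (𝓝 0) :=
      a5b_small (mA.mono fun t ht => (mul (ht.sub ma)).2) tA
    refine (a5b_add (hu.mono fun t ht => (mh ht.1 ht.2).sub (mh hg.sw hL))
      (mA.mono fun t ht => (mul (ht.sub ma)).1) th t1).congr fun t => ?_
    congr 1
    funext x
    simp only [Pi.sub_apply]
    ring
  have mk : MemLp (fun x => (-κ - G x / ε) * h x) 2 μ := by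
    refine (a5b_le (c := κ + BG / ε) mhh
      ((continuous_const.sub (H.Gc.div_const ε)).aestronglyMeasurable.mul mhh.1)
      (Eventually.of_forall fun x => ?_)).1
    show |(-κ - G x / ε) * h x| ≤ _
    rw [abs_mul]
    refine mul_le_mul_of_nonneg_right ?_ (abs_nonneg _)
    have h1 := abs_le.1 (H.Gb x)
    have h2 := div_le_div_of_nonneg_right h1.2 hε.le
    have h3 := div_le_div_of_nonneg_right h1.1 hε.le
    rw [neg_div] at h3
    exact abs_le.2 ⟨by linarith, by linarith⟩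
  have mc : MemLp c 2 μ := hL2 hh.memLp
  have c0 : ∀ f : X → ℝ, Tendsto (fun _ : ℝ => nsq μ fun x => f x - f x) (𝓝[>] 0) (𝓝 0) := fun f => by
    simp [nsq]
  have l1 := tendsto_integral_mul (Eventually.of_forall fun _ => mk) (hu.mono fun t ht => mg ht.1 ht.2)
    mk (mg hg.sw hL) (c0 _) tg
  have l2 := tendsto_integral_mul (Eventually.of_forall fun _ => mc) (hu.mono fun t ht => mg ht.1 ht.2)
    mc (mg hg.sw hL) (c0 _) tg
  have l3 := tendsto_integral_mul mA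
    ((hu.and mA).mono fun t ht => (mh ht.1.1 ht.1.2).add (mul ht.2).1) ma
    ((mh hg.sw hL).add (mul ma).1) tA tB
  have e := hg.integral_mul hL hh.sw ⟨M, (DS.ac₂ m μ).ae_le hhM⟩ ha
  rw [e, sub_neg_eq_add]
  refine le_of_tendsto_of_tendsto l1 ((l2.const_mul (1 / 2)).add l3) ?_
  filter_upwards [hev] with t ht
  have hT := tst_heat H.ge hg.sw hgb ht.1
  rw [hb.lap_eq ht.1] at hT
  have h1 := H.wb_W hε hμ hT hh.sw hM
  rw [hh.2.2 _ (hT.gam_self_sw H.ge)] at h1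
  refine h1.trans (le_of_eq ?_)
  simp only [hA, Pi.add_apply]
  ring

/-- `ge_of_wb`, `res_wm_grad`, `sobLip_of_good`. -/
theorem Ctx.ge_wm (H : Ctx m κ F G BF BG LF) (hε : 0 < ε) (hμ : μ = wm m (pot F BF ε)) :
    GE m μ (κ + BG / ε) := by
  obtain ⟨l₀, hl₀, h⟩ := res_wm_grad (sobLip_of_good H.good) H.ge H.k0 (H.pot_bddLip ε) hμ
  refine ge_of_wb (H.wb hε hμ) (H.m2a_aesm ε) ⟨_, Eventually.of_forall (H.m2a_k hε)⟩
    (Eventually.of_forall fun x => ?_) hl₀ h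
  exact (abs_le.1 (H.m2a_k hε x)).1

end Crest.Agent.R242
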