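import Crest.Agent.R242.N2

/-! Block N3: the limits.
`nErr_tendsto`: for `0 < ε ≤ 1` the factors `exp (2|κ + c/ε| εt)`, `exp (2(κ + BG/ε) εt)` are bounded, and the
rest is `≤ K ε^{-2} exp (-α/ε)`, `α = ρ²/(40t) - 2ℓ²/t - 3BF > 0`
(`Real.tendsto_pow_mul_exp_neg_atTop_nhds_zero`).
`ll_fixed`: uniform measures on the three balls (`bm_cond`, `BM.mono`), `ll_eps`, `ε → 0` (if the first
factor is negative the claim is trivial since `|F| ≤ BF`).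
`ll`: for `δ₁ ≤ ρ` and `t` small, let `r → 0`, `η → 0`; then `t → 0` using
`(∫ s in 0..t, exp (2cs) - t)/t² → c`; then `δ₁ → 0`. -/

set_option autoImplicit false
set_option linter.unusedSectionVars false
set_option linter.unusedVariables false
open MeasureTheory Filter Set Metric
open scoped ENNReal NNReal Topology
open Crest.GeometryTopology.SyntheticRicci

noncomputable section
namespace Crest.Agent.R242

variable {X : Type*} [MetricSpace X] [MeasurableSpace X] [BorelSpace X] [ProperSpace X]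
  {m : Measure X} [IsFiniteMeasureOnCompacts m] [m.IsOpenPosMeasure] [DS m m]

theorem n3a_lim {α : ℝ} (hα : 0 < α) {K : ℝ → ℝ} (hK : Continuous K) :
    Tendsto (fun ε => K ε * Real.exp (-α * ε⁻¹)) (𝓝[>] 0) (𝓝 0) := by
  have h1 : Tendsto (fun ε : ℝ => Real.exp (-α * ε⁻¹)) (𝓝[>] 0) (𝓝 0) :=
    Real.tendsto_exp_atBot.comp
      (tendsto_inv_nhdsGT_zero.const_mul_atTop_of_neg (neg_lt_zero.2 hα))
  simpa using ((hK.tendsto 0).mono_left nhdsWithin_le_nhds).mul h1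

theorem n3a_sqrt {A : ℝ} (hA : 0 ≤ A) (B ε : ℝ) :
    Real.sqrt (A * Real.exp (2 * B / ε)) = Real.sqrt A * Real.exp (B * ε⁻¹) := by
  rw [Real.sqrt_mul hA, show 2 * B / ε = B * ε⁻¹ + B * ε⁻¹ by ring, Real.exp_add,
    Real.sqrt_mul_self (Real.exp_pos _).le]

theorem nErr_tendsto {κ c BG BF LF ℓ ρ t A₁ A₂ : ℝ} (hκ : 0 ≤ κ) (hBG : 0 ≤ BG) (hBF : 0 ≤ BF)
    (hLF : 0 ≤ LF) (hℓ : 0 < ℓ) (hρ : 0 < ρ) (ht : 0 < t) (hA₁ : 0 ≤ A₁) (hA₂ : 0 ≤ A₂)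
    (h : 2 * ℓ ^ 2 / t + 3 * BF < ρ ^ 2 / (40 * t)) :
    Tendsto (fun ε => ε * nErr κ c BG BF LF ℓ ρ t A₁ A₂ ε) (𝓝[>] 0) (𝓝 0) := by
  refine (n3a_lim (α := ρ ^ 2 / (40 * t) - (2 * ℓ ^ 2 / t + 3 * BF)) (sub_pos.2 h)
    (K := fun ε => t * (2 * (BG + |c|) * t) * Real.exp (2 * |κ * ε + c| * t) ^ 2 *
      Real.exp (2 * (κ * ε + BG) * t) ^ 2 * (ε + ℓ / t + LF / 2) ^ 2 *
      (3 / ρ * Real.sqrt (ε * t * A₁) * Real.sqrt A₂)) (by fun_prop)).congr' ?_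
  filter_upwards [self_mem_nhdsWithin] with ε hε
  have hε : 0 < ε := hε
  have e1 : 2 * |κ + c / ε| * (ε * t) = 2 * |κ * ε + c| * t := by
    rw [show κ * ε + c = (κ + c / ε) * ε by field_simp, abs_mul, abs_of_pos hε]
    ring
  have e2 : 2 * (κ + BG / ε) * (ε * t) = 2 * (κ * ε + BG) * t := by field_simp
  have e3 : Real.exp (-(ρ ^ 2 / (40 * t) - (2 * ℓ ^ 2 / t + 3 * BF)) * ε⁻¹) =
      Real.exp (ℓ ^ 2 / (ε * t) + BF / ε) ^ 2 * Real.exp (-(ρ ^ 2 / (40 * (ε * t)))) *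
        Real.exp (BF * ε⁻¹) := by
    rw [sq (Real.exp _), ← Real.exp_add, ← Real.exp_add, ← Real.exp_add]
    congr 1
    field_simp
    ring
  rw [nErr, e1, e2, e3, n3a_sqrt hA₂]
  field_simp

theorem nTail_tendsto {BF δ₁ r t A₁ A₂ : ℝ} (hr : r < δ₁) (ht : 0 < t) (hA₁ : 0 ≤ A₁)
    (hA₂ : 0 ≤ A₂) (h : BF < (δ₁ - r) ^ 2 / (32 * t)) :
    Tendsto (fun ε => nTail BF δ₁ r t A₁ A₂ ε) (𝓝[>] 0) (𝓝 0) := by
  refine (n3a_lim (α := (δ₁ - r) ^ 2 / (32 * t) - BF) (sub_pos.2 h)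
    (K := fun ε => 2 / (δ₁ - r) * Real.sqrt (ε * t * A₁) * Real.sqrt A₂) (by fun_prop)).congr' ?_
  filter_upwards [self_mem_nhdsWithin] with ε hε
  have hε : 0 < ε := hε
  have e3 : Real.exp (-((δ₁ - r) ^ 2 / (32 * t) - BF) * ε⁻¹) =
      Real.exp (-((δ₁ - r) ^ 2 / (32 * (ε * t)))) * Real.exp (BF * ε⁻¹) := by
    rw [← Real.exp_add]
    congr 1
    field_simp
    ring
  rw [nTail, e3, n3a_sqrt hA₂]
  ring

variable {κ BF BG : ℝ} {LF : ℝ≥0} {F G : X → ℝ}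

theorem Ctx.ll_fixed (H : Ctx m κ F G BF BG LF) {x y₀ y₁ : X} {ρ c ℓ r t η δ₁ : ℝ}
    (hℓ : 0 < ℓ) (hℓρ : ℓ ≤ ρ / 100) (h₀ : dist x y₀ = ℓ) (h₁ : dist x y₁ = ℓ)
    (h₀₁ : dist y₀ y₁ = 2 * ℓ) (hc : ∀ z ∈ ball x ρ, G z ≤ c) (hr : 0 < r) (hrℓ : r ≤ ℓ)
    (ht : 0 < t) (hη : 0 < η) (hrδ : r < δ₁) (hδρ : δ₁ ≤ ρ)
    (hs₁ : 2 * ℓ ^ 2 / t + 3 * BF < ρ ^ 2 / (40 * t)) (hs₂ : BF < (δ₁ - r) ^ 2 / (32 * t)) :
    (ℓ - r) ^ 2 / (2 * t * (1 + η)) - F x - LF * δ₁ ≤ -((F y₀ + F y₁) / 2) + LF * r +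
      (ℓ + 2 * r) ^ 2 / (2 * t ^ 2) * ∫ s in (0 : ℝ)..t, Real.exp (2 * c * s) := by
  have hBF : 0 ≤ BF := (abs_nonneg _).trans (H.Fb x)
  have hBG : 0 ≤ BG := (abs_nonneg _).trans (H.Gb x)
  have hρ : 0 < ρ := by linarith
  have hy₀ := abs_le.1 (H.Fb y₀)
  have hy₁ := abs_le.1 (H.Fb y₁)
  have hI : 0 ≤ (ℓ + 2 * r) ^ 2 / (2 * t ^ 2) * ∫ s in (0 : ℝ)..t, Real.exp (2 * c * s) :=
    mul_nonneg (by positivity)
      (intervalIntegral.integral_nonneg ht.le fun s _ => (Real.exp_pos _).le)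
  have hLr : 0 ≤ (LF : ℝ) * r := by positivity
  rcases lt_or_ge ((ℓ - r) ^ 2 / (2 * t * (1 + η)) + BF - F x - LF * δ₁) 0 with hw | hw
  · linarith [hy₀.2, hy₁.2]
  have hb : ∀ y : X, BM m (1 / m.real (closedBall y r)) y r
      (ProbabilityTheory.cond m (closedBall y r)) := fun y =>
    bm_cond measurableSet_closedBall subset_rfl (measure_closedBall_pos m y hr).ne'
  obtain ⟨M₀, hM, hM₀, hM₁, hM₂⟩ : ∃ M₀ : ℝ, 0 ≤ M₀ ∧ 1 / m.real (closedBall y₀ r) ≤ M₀ ∧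
      1 / m.real (closedBall y₁ r) ≤ M₀ ∧ 1 / m.real (closedBall x r) ≤ M₀ := by
    have p0 := (hb y₀).pos
    have p1 := (hb y₁).pos
    have p2 := (hb x).pos
    exact ⟨1 / m.real (closedBall y₀ r) + 1 / m.real (closedBall y₁ r) + 1 / m.real (closedBall x r),
      by linarith, by linarith, by linarith, by linarith⟩
  have hg : 0 ≤ M₀ * gfac κ ρ := mul_nonneg hM (Real.exp_pos _).le
  have t1 := nErr_tendsto (c := c) H.k0 hBG hBF LF.coe_nonneg hℓ hρ ht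
    (measureReal_nonneg (μ := m) (s := closedBall x ρ)) hg hs₁
  have t2 := nTail_tendsto hrδ ht (measureReal_nonneg (μ := m) (s := closedBall x δ₁)) hM hs₂
  have t3 : Tendsto (fun ε : ℝ => ∫ s in (0 : ℝ)..t, Real.exp (2 * (ε * κ + c) * s)) (𝓝[>] 0)
      (𝓝 (∫ s in (0 : ℝ)..t, Real.exp (2 * c * s))) := by
    have hc : Continuous fun ε : ℝ => ∫ s in (0 : ℝ)..t, Real.exp (2 * (ε * κ + c) * s) :=
      intervalIntegral.continuous_parametric_intervalIntegral_of_continuous'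
        (f := fun (ε s : ℝ) => Real.exp (2 * (ε * κ + c) * s)) (by fun_prop) 0 t
    have := (hc.tendsto 0).mono_left (nhdsWithin_le_nhds (s := Ioi (0 : ℝ)))
    simpa using this
  have t4 : Tendsto (fun ε : ℝ => ε * Real.log (2 + 2 * M₀ * nsq m (cut x ρ 1))) (𝓝[>] 0) (𝓝 0) := by
    have hc : Continuous fun ε : ℝ => ε * Real.log (2 + 2 * M₀ * nsq m (cut x ρ 1)) := by fun_prop
    have := (hc.tendsto 0).mono_left (nhdsWithin_le_nhds (s := Ioi (0 : ℝ)))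
    simpa using this
  have l1 := (t2.const_sub 1).const_mul ((ℓ - r) ^ 2 / (2 * t * (1 + η)) + BF - F x - LF * δ₁)
  have l2 := ((t4.const_add ((BF - F y₀ + LF * r) / 2 + (BF - F y₁ + LF * r) / 2)).add
    (t3.const_mul ((ℓ + 2 * r) ^ 2 / (2 * t ^ 2)))).add (t1.const_mul 2)
  have key := le_of_tendsto_of_tendsto l1 l2 (by
    filter_upwards [self_mem_nhdsWithin] with ε hε
    have := H.ll_eps hε hℓ hℓρ h₀ h₁ h₀₁ hc hr hrℓ ht hη hrδ hδρ ((hb y₀).mono hM₀ le_rfl)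
      ((hb y₁).mono hM₁ le_rfl) ((hb x).mono hM₂ le_rfl) hw
    rw [mul_assoc 2 ε] at this
    exact this)
  linarith

theorem n3c_int {c t : ℝ} (ht : 0 < t) (h : |2 * c| * t ≤ 1) :
    ∫ s in (0 : ℝ)..t, Real.exp (2 * c * s) ≤ t + c * t ^ 2 + 4 * c ^ 2 * t ^ 3 := by
  have h1 : ∫ s in (0 : ℝ)..t, Real.exp (2 * c * s) ≤
      ∫ s in (0 : ℝ)..t, (2 * c * s + (1 + 4 * c ^ 2 * t ^ 2)) := by
    refine intervalIntegral.integral_mono_on ht.le (Continuous.intervalIntegrable (by fun_prop) _ _)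
      (Continuous.intervalIntegrable (by fun_prop) _ _) fun s hs => ?_
    have h2 : |2 * c * s| ≤ 1 := by
      rw [abs_mul, abs_of_nonneg hs.1]
      exact (mul_le_mul_of_nonneg_left hs.2 (abs_nonneg _)).trans h
    have h3 := (abs_le.1 (Real.abs_exp_sub_one_sub_id_le h2)).2
    have h4 : s ^ 2 ≤ t ^ 2 := pow_le_pow_left₀ hs.1 hs.2 2
    nlinarith [mul_le_mul_of_nonneg_left h4 (sq_nonneg c)]
  refine h1.trans (le_of_eq ?_)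
  rw [intervalIntegral.integral_add (Continuous.intervalIntegrable (by fun_prop) _ _)
    (Continuous.intervalIntegrable (by fun_prop) _ _), intervalIntegral.integral_const_mul,
    integral_id, intervalIntegral.integral_const]
  simp only [smul_eq_mul]
  ring

theorem n3c_ev {a b c : ℝ} (h : a < c) : ∀ᶠ t in 𝓝[>] (0 : ℝ), a + b * t < c := by
  have : Tendsto (fun t : ℝ => a + b * t) (𝓝 0) (𝓝 (a + b * 0)) :=
    Continuous.tendsto (by fun_prop) 0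
  exact (this.mono_left nhdsWithin_le_nhds).eventually_lt_const (by simpa using h)

theorem n3c_le {a b c : ℝ} (h : ∀ᶠ t in 𝓝[>] (0 : ℝ), a ≤ c + b * t) : a ≤ c := by
  by_contra h'
  obtain ⟨t, h1, h2⟩ := (h.and (n3c_ev (b := b) (not_le.1 h'))).exists
  linarith

theorem Ctx.ll (H : Ctx m κ F G BF BG LF) {x y₀ y₁ : X} {ρ c ℓ : ℝ}
    (hℓ : 0 < ℓ) (hℓρ : ℓ ≤ ρ / 100) (h₀ : dist x y₀ = ℓ) (h₁ : dist x y₁ = ℓ)
    (h₀₁ : dist y₀ y₁ = 2 * ℓ) (hc : ∀ z ∈ ball x ρ, G z ≤ c) :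
    F y₀ + F y₁ - 2 * F x ≤ c * ℓ ^ 2 := by
  have hρ : 0 < ρ := by linarith
  have step : ∀ δ₁ t : ℝ, 0 < δ₁ → δ₁ ≤ ρ → 0 < t → 2 * ℓ ^ 2 + 3 * BF * t < ρ ^ 2 / 40 →
      0 + BF * t < δ₁ ^ 2 / 32 → ℓ ^ 2 / (2 * t) - F x - LF * δ₁ ≤ -((F y₀ + F y₁) / 2) +
        ℓ ^ 2 / (2 * t ^ 2) * ∫ s in (0 : ℝ)..t, Real.exp (2 * c * s) := by
    intro δ₁ t hδ hδρ ht a₁ a₂
    have b₁ : 2 * ℓ ^ 2 / t + 3 * BF < ρ ^ 2 / (40 * t) := by
      rw [div_add' _ _ _ ht.ne', ← div_div]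
      exact div_lt_div_of_pos_right a₁ ht
    have b₂ : ∀ᶠ r in 𝓝[>] (0 : ℝ), BF < (δ₁ - r) ^ 2 / (32 * t) := by
      have : Tendsto (fun r : ℝ => (δ₁ - r) ^ 2 / (32 * t)) (𝓝 0) (𝓝 ((δ₁ - 0) ^ 2 / (32 * t))) :=
        Continuous.tendsto (by fun_prop) 0
      refine (this.mono_left nhdsWithin_le_nhds).eventually_const_lt ?_
      rw [sub_zero, ← div_div, lt_div_iff₀ ht]
      linarith
    have t₁ : Tendsto (fun r : ℝ => (ℓ - r) ^ 2 / (2 * t * (1 + r)) - F x - LF * δ₁) (𝓝 0)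
        (𝓝 ((ℓ - 0) ^ 2 / (2 * t * (1 + 0)) - F x - LF * δ₁)) :=
      ContinuousAt.tendsto (f := fun r : ℝ => (ℓ - r) ^ 2 / (2 * t * (1 + r)) - F x - LF * δ₁)
        (by fun_prop (disch := positivity))
    have t₂ : Tendsto (fun r : ℝ => -((F y₀ + F y₁) / 2) + LF * r +
        (ℓ + 2 * r) ^ 2 / (2 * t ^ 2) * ∫ s in (0 : ℝ)..t, Real.exp (2 * c * s)) (𝓝 0)
        (𝓝 (-((F y₀ + F y₁) / 2) + LF * 0 +
          (ℓ + 2 * 0) ^ 2 / (2 * t ^ 2) * ∫ s in (0 : ℝ)..t, Real.exp (2 * c * s))) :=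
      Continuous.tendsto (by fun_prop) 0
    have := le_of_tendsto_of_tendsto (t₁.mono_left nhdsWithin_le_nhds)
      (t₂.mono_left nhdsWithin_le_nhds) (by
        filter_upwards [b₂, Ioo_mem_nhdsGT hℓ, Ioo_mem_nhdsGT hδ] with r r₁ r₂ r₃
        exact H.ll_fixed hℓ hℓρ h₀ h₁ h₀₁ hc r₂.1 r₂.2.le ht r₂.1 r₃.2 hδρ b₁ r₁)
    simpa using this
  have step₂ : ∀ δ₁ : ℝ, 0 < δ₁ → δ₁ ≤ ρ → F y₀ + F y₁ - 2 * F x ≤ c * ℓ ^ 2 + 2 * LF * δ₁ := by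
    intro δ₁ hδ hδρ
    refine n3c_le (b := 4 * c ^ 2 * ℓ ^ 2) ?_
    filter_upwards [self_mem_nhdsWithin,
      n3c_ev (a := 2 * ℓ ^ 2) (b := 3 * BF) (c := ρ ^ 2 / 40) (by nlinarith),
      n3c_ev (a := 0) (b := BF) (c := δ₁ ^ 2 / 32) (by positivity),
      n3c_ev (a := 0) (b := |2 * c|) (c := 1) one_pos] with t ht a₁ a₂ a₃
    have ht' : 0 < t := ht
    have e₁ := step δ₁ t hδ hδρ ht' a₁ a₂
    have e₂ := mul_le_mul_of_nonneg_left (n3c_int ht' (c := c) (by linarith))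
      (show 0 ≤ ℓ ^ 2 / (2 * t ^ 2) by positivity)
    have e₃ : ℓ ^ 2 / (2 * t ^ 2) * (t + c * t ^ 2 + 4 * c ^ 2 * t ^ 3) =
        ℓ ^ 2 / (2 * t) + c * ℓ ^ 2 / 2 + 2 * c ^ 2 * ℓ ^ 2 * t := by
      field_simp
      ring
    linarith
  refine n3c_le (b := 2 * LF) ?_
  filter_upwards [Ioo_mem_nhdsGT hρ] with δ hδ using step₂ δ hδ.1 hδ.2.le

end Crest.Agent.R242
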