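import Crest.Agent.R242.A1

/-! Block O1: from second differences to the distributional inequality.
`second_diff`: `(φ(t+k) + φ(t-k) - 2φ t)/k² → φ'' t` boundedly (Taylor / mean value), and
`∫ f(t) φ(t ± k) dt = ∫ f(t ∓ k) φ t dt` over `ℝ` (`integral_add_right_eq_self`; `φ` has compact support in
`(0,1)`).  `secondDeriv_of_ll`: if `len γ = 0` the curve is constant, take `g = 0`.  Otherwise `G` is uniformly
continuous near the compact image of `γ` (proper space): `ρ` with `G z ≤ G (γ t) + η'` on `ball (γ t) ρ`;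
`ℓ = k · len γ ≤ ρ/100`; `geo_dist`. -/

set_option autoImplicit false
set_option linter.unusedSectionVars false
set_option linter.unusedVariables false
open MeasureTheory Filter Set Metric
open scoped ENNReal NNReal Topology
open Crest.GeometryTopology.SyntheticRicci

noncomputable section
namespace Crest.Agent.R242

variable {X : Type*} [MetricSpace X] [ProperSpace X]

theorem o1a_deriv {f φ : ℝ → ℝ} (hf : Continuous f) (hφ : ContDiff ℝ 1 φ) (hc : HasCompactSupport φ)
    (x : ℝ) : HasDerivAt (fun k => ∫ t, f t * φ (k + t)) (∫ t, f t * deriv φ (x + t)) x := by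
  have e : ∀ (ψ : ℝ → ℝ) (k : ℝ), convolution (fun t => f (-t)) ψ (ContinuousLinearMap.mul ℝ ℝ)
      volume k = ∫ t, f t * ψ (k + t) := fun ψ k => by
    rw [convolution_def, ← integral_neg_eq_self]
    simp
  have := hc.hasDerivAt_convolution_right (ContinuousLinearMap.mul ℝ ℝ) (μ := volume)
    (f₀ := fun t => f (-t)) (hf.comp continuous_neg).locallyIntegrable hφ x
  rwa [e, funext (e φ)] at this

theorem o1a_test {Φ Φ' : ℝ → ℝ} {a c k₀ : ℝ} (h1 : ∀ x, HasDerivAt Φ (Φ' x) x)
    (h2 : HasDerivAt Φ' a 0) (hk : 0 < k₀)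
    (h : ∀ k, 0 < k → k < k₀ → Φ k + Φ (-k) - 2 * Φ 0 ≤ k ^ 2 * c) : a ≤ c := by
  refine le_of_forall_lt_imp_le_of_dense fun b hb => ?_
  have d1 : ∀ x, HasDerivAt (fun k => Φ k + Φ (-k) - k ^ 2 * b)
      (Φ' x + Φ' (-x) * -1 - 2 * x * b) x := fun x => by
    simpa using ((h1 x).fun_add ((h1 (-x)).comp x (hasDerivAt_neg x))).fun_sub
      ((hasDerivAt_pow 2 x).mul_const b)
  have d2 : HasDerivAt (fun x => Φ' x + Φ' (-x) * -1 - 2 * x * b) (a + a * -1 * -1 - 2 * 1 * b) 0 :=
    (h2.fun_add ((HasDerivAt.comp_of_eq 0 h2 (hasDerivAt_neg 0) neg_zero.symm).mul_const _)).fun_sub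
      (((hasDerivAt_id' 0).const_mul 2).mul_const b)
  have e : deriv (fun k => Φ k + Φ (-k) - k ^ 2 * b) = _ := funext fun x => (d1 x).deriv
  have hm : IsLocalMin (fun k => Φ k + Φ (-k) - k ^ 2 * b) 0 :=
    isLocalMin_of_deriv_deriv_pos (by rw [e, d2.deriv]; linarith) (by rw [e]; simp)
      (d1 0).continuousAt
  obtain ⟨k, k1, k2, k3⟩ := ((hm.filter_mono nhdsWithin_le_nhds).and (Ioo_mem_nhdsGT hk)).exists
  have := h k k2 k3
  simp only [neg_zero] at k1
  exact le_of_mul_le_mul_left (by linarith) (pow_pos k2 2)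

theorem second_diff {f g : ℝ → ℝ} (hf : Continuous f) (hg : Continuous g)
    (h : ∀ η : ℝ, 0 < η → ∃ k₀ : ℝ, 0 < k₀ ∧ ∀ k t : ℝ, 0 < k → k < k₀ → k ≤ t → t + k ≤ 1 →
      f (t + k) + f (t - k) - 2 * f t ≤ k ^ 2 * (g t + η))
    (φ : ℝ → ℝ) (hφ : ContDiff ℝ ((⊤ : ℕ∞) : WithTop ℕ∞) φ) (hc : HasCompactSupport φ)
    (hs : tsupport φ ⊆ Ioo (0 : ℝ) 1) (h0 : ∀ t, 0 ≤ φ t) :
    ∫ t in Icc (0 : ℝ) 1, f t * iteratedDeriv 2 φ t ≤ ∫ t in Icc (0 : ℝ) 1, g t * φ t := by
  have c1 : ContDiff ℝ 1 φ := hφ.of_le (by exact_mod_cast le_top)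
  have c2 : ContDiff ℝ 1 (deriv φ) := (contDiff_infty_iff_deriv.1 hφ).2.of_le (by exact_mod_cast le_top)
  have hI : ∀ t, t ∉ Icc (0 : ℝ) 1 → t ∉ tsupport φ := fun t ht h => ht (Ioo_subset_Icc_self (hs h))
  have hi : ∀ {u : ℝ → ℝ}, Continuous u → Integrable fun t => u t * φ t := fun hu =>
    (hu.mul c1.continuous).integrable_of_hasCompactSupport hc.mul_left
  obtain ⟨δ, hδ, hδ'⟩ := hc.isCompact.exists_thickening_subset_open isOpen_Ioo hs
  rw [setIntegral_eq_integral_of_forall_compl_eq_zero fun t ht => by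
      rw [iteratedDeriv_succ, iteratedDeriv_one, image_eq_zero_of_notMem_tsupport fun h =>
        hI t ht (tsupport_deriv_subset (tsupport_deriv_subset h)), mul_zero],
    setIntegral_eq_integral_of_forall_compl_eq_zero fun t ht => by
      rw [image_eq_zero_of_notMem_tsupport (hI t ht), mul_zero]]
  have key : ∀ η : ℝ, 0 < η →
      ∫ t, f t * iteratedDeriv 2 φ t ≤ (∫ t, g t * φ t) + η * ∫ t, φ t := fun η hη => by
    obtain ⟨k₀, hk₀, H⟩ := h η hη
    have := o1a_test (c := ∫ t, (g t + η) * φ t) (o1a_deriv hf c1 hc) (o1a_deriv hf c2 hc.deriv 0)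
      (lt_min hk₀ hδ) fun k k0 k1 => by
        have e1 : ∫ t, f t * φ (k + t) = ∫ t, f (t - k) * φ t := by
          rw [← integral_sub_right_eq_self _ k]; simp
        have e2 : ∫ t, f t * φ (-k + t) = ∫ t, f (t + k) * φ t := by
          rw [← integral_add_right_eq_self _ k]; simp
        have i1 := hi (u := fun t => f (t - k)) (by fun_prop)
        have i2 := hi (u := fun t => f (t + k)) (by fun_prop)
        simp only [zero_add]
        rw [e1, e2, ← integral_add i1 i2, ← integral_const_mul,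
          ← integral_sub (i1.fun_add i2) ((hi hf).const_mul 2), ← integral_const_mul]
        refine integral_mono ((i1.fun_add i2).sub ((hi hf).const_mul 2))
          ((hi (hg.add continuous_const)).const_mul _) fun t => ?_
        by_cases ht : t ∈ tsupport φ
        · have m : ∀ s, |s - t| < δ → s ∈ Ioo (0 : ℝ) 1 := fun s hs =>
            hδ' (mem_thickening_iff.2 ⟨t, ht, hs⟩)
          have k2 : |k| < δ := by rw [abs_of_pos k0]; exact (lt_min_iff.1 k1).2
          have := mul_le_mul_of_nonneg_right (H k t k0 (lt_min_iff.1 k1).1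
            (by linarith [(m (t - k) (by simpa using k2)).1]) (m (t + k) (by simpa using k2)).2.le) (h0 t)
          beta_reduce
          linarith
        · simp [image_eq_zero_of_notMem_tsupport ht]
    simp only [zero_add, add_mul] at this
    rw [integral_add (hi hg) (hi continuous_const), integral_const_mul] at this
    simpa only [iteratedDeriv_succ, iteratedDeriv_zero, one_mul] using this
  have lim : Tendsto (fun η : ℝ => (∫ t, g t * φ t) + η * ∫ t, φ t) (𝓝[>] 0)
      (𝓝 (∫ t, g t * φ t)) :=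
    (Continuous.tendsto' (by fun_prop) 0 _ (by simp)).mono_left nhdsWithin_le_nhds
  exact ge_of_tendsto lim (eventually_mem_nhdsWithin.mono key)

theorem secondDeriv_of_ll {F G : X → ℝ} (hF : Continuous F) (hG : Continuous G)
    (h : ∀ (x y₀ y₁ : X) (ρ c ℓ : ℝ), 0 < ℓ → ℓ ≤ ρ / 100 → dist x y₀ = ℓ → dist x y₁ = ℓ →
      dist y₀ y₁ = 2 * ℓ → (∀ z ∈ ball x ρ, G z ≤ c) → F y₀ + F y₁ - 2 * F x ≤ c * ℓ ^ 2)
    {γ : UCurve X} (hγ : IsCSGeodesic γ) : SecondDerivAlongLe F G γ := by
  intro φ hφ hc hs h0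
  have hγc := continuous_ext_right γ
  have key := second_diff (f := fun t => F (γ.ext t)) (g := fun t => len γ ^ 2 * G (γ.ext t))
    (hF.comp hγc) (continuous_const.mul (hG.comp hγc)) ?_ φ hφ hc hs h0
  · simp only [mul_assoc, integral_const_mul] at key
    rwa [← len_eq]
  intro η hη
  rcases (show 0 ≤ len γ from dist_nonneg).eq_or_lt with hL | hL
  · refine ⟨1, one_pos, fun k t hk _ _ _ => ?_⟩
    have e : ∀ s, γ.ext s = γ.ext t := fun s =>
      dist_le_zero.1 (by simpa [← hL] using geo_dist_le hγ s t)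
    simp only [e (t + k), e (t - k), ← hL]
    nlinarith [mul_pos (pow_pos hk 2) hη]
  obtain ⟨δ, hδ, hU⟩ := Metric.uniformContinuousOn_iff.1
    ((isCompact_closedBall (γ.ext 0) (len γ + 1)).uniformContinuousOn_of_continuous hG.continuousOn)
    (η / len γ ^ 2) (by positivity)
  refine ⟨min δ 1 / 100 / len γ, by positivity, fun k t hk hk0 h1 h2 => ?_⟩
  have ht : t ∈ Icc (0 : ℝ) 1 := ⟨by linarith, by linarith⟩
  have ha : t + k ∈ Icc (0 : ℝ) 1 := ⟨by linarith, h2⟩
  have hb : t - k ∈ Icc (0 : ℝ) 1 := ⟨by linarith, by linarith⟩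
  have hd : dist (γ.ext t) (γ.ext 0) ≤ len γ := by
    rw [geo_dist hγ ht ⟨le_rfl, zero_le_one⟩, sub_zero, abs_of_nonneg ht.1]
    exact mul_le_of_le_one_left hL.le ht.2
  have := h (γ.ext t) (γ.ext (t + k)) (γ.ext (t - k)) (min δ 1) (G (γ.ext t) + η / len γ ^ 2)
    (k * len γ) (by positivity) ((lt_div_iff₀ hL).1 hk0).le
    (by rw [geo_dist hγ ht ha, show t - (t + k) = -k by ring, abs_neg, abs_of_pos hk])
    (by rw [geo_dist hγ ht hb, show t - (t - k) = k by ring, abs_of_pos hk])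
    (by rw [geo_dist hγ ha hb, show t + k - (t - k) = 2 * k by ring, abs_of_pos (by positivity)]; ring)
    (fun z hz => by
      have hz' : dist z (γ.ext t) < min δ 1 := hz
      have := hU z (mem_closedBall.2 (by
          linarith [dist_triangle z (γ.ext t) (γ.ext 0), min_le_right δ 1]))
        (γ.ext t) (mem_closedBall.2 (by linarith)) (hz'.trans_le (min_le_left _ _))
      rw [Real.dist_eq] at this
      linarith [(abs_lt.1 this).2])
  refine this.trans_eq ?_
  field_simp

end Crest.Agent.R242
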