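import Crest.Agent.R242.F2
import Crest.Agent.R242.F3
import Crest.Agent.R242.H3
import Crest.Agent.R242.K2
import Crest.Agent.R242.N3
import Crest.Agent.R242.O1

/-! Row 242: assembly. -/

set_option autoImplicit false
set_option linter.unusedSectionVars false
set_option linter.unusedVariables false
open MeasureTheory Filter Set Metric
open scoped ENNReal NNReal Topology
open Crest.GeometryTopology.SyntheticRicci

noncomputable section
namespace Crest.Agent.R242



theorem main
    (X : Type*) [MetricSpace X] [CompleteSpace X] [TopologicalSpace.SeparableSpace X]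
    [MeasurableSpace X] [BorelSpace X] (m : MeasureTheory.Measure X)
    [MeasureTheory.Measure.IsOpenPosMeasure m] (hfin : IsFiniteOnBalls m)
    (K N : ℝ) (hN : 1 < N) (hRCD : IsRCD m K N)
    (F G : X → ℝ) (hFb : ∃ B : ℝ, ∀ x, |F x| ≤ B) (hFl : ∃ L : NNReal, LipschitzWith L F)
    (hGb : ∃ B : ℝ, ∀ x, |G x| ≤ B) (hGc : Continuous G)
    (hH : HasWeakHessLe m F G) (γ : UCurve X) (hγ : IsCSGeodesic γ) :
    SecondDerivAlongLe F G γ := by
  obtain ⟨BF, hBF⟩ := hFb
  obtain ⟨LF, hLF⟩ := hFl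
  obtain ⟨BG, hBG⟩ := hGb
  have hD : Dbl m := dbl_of_cd hfin hN hRCD.1
  haveI : ProperSpace X := proper_of_dbl hfin hD
  haveI : IsFiniteMeasureOnCompacts m := finComp_of_fin hfin
  haveI : DS m m := ⟨hRCD.2, 1, by simp, by simp⟩
  have hG : HasGood m (kap K) := hasGood_of_mid (midCD_of_cd hN hRCD.1) (kap_nonneg K)
  have H : Ctx m (kap K) F G BF BG LF :=
    ⟨hG, kap_nonneg K, ge_of_good hG (kap_nonneg K) (expGrowth_of_dbl hfin hD), hBF, hLF, hBG, hGc,
      hH⟩
  exact secondDeriv_of_ll hLF.continuous hGc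
    (fun x y₀ y₁ ρ c ℓ h1 h2 h3 h4 h5 h6 => H.ll h1 h2 h3 h4 h5 h6) hγ

end Crest.Agent.R242
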