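import Crest.Agent.R242.L2
import Crest.Agent.R242.E6
import Crest.Agent.R242.B5
import Crest.Agent.R242.G1

/-! Block N1: the log-Harnack inequality along a geodesic plan.
`log_harnack`: `u s = log (1 + P_{τ-s} f)`, `w s = P_s (u s)`, `A s = ∫ w s (γ (s/τ)) dP = ∫ w s · h (s/τ) dμ`.
`u s ∈ W`, `0 ≤ u s ≤ log (1+M)`, `D(u s) ≤ L`; for `s ∈ (0,τ)`: `IsLap.chain` and `DerL2.comp`, `DerL2.rev`
(extend `log (1 + z)` from `[0,M]` by `exists_C1_ext`) give `Δu + ∂u = -Γ(u,u)`, so `w` has `L²` derivative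
`-P_s Γ(u s)` (`DerL2.heat_comp`).  `A (s+k) - A s = ∫ (w (s+k) - w s)(γ((s+k)/τ)) + ∫ (w s (γ((s+k)/τ)) - w s (γ(s/τ)))`;
first term: compression (`Cmpr.integral_abs_le`, `L¹ ≤ L²` on the ball) and `Cmpr.cont`; second: `geo_young`
with `l = 2τ e^{-2κ₁s}` and `Cmpr.cont`; hypothesis `hge`, `heat_symm`; `dini_right`.
`harnack_local`: good plan on `closedBall x (dist x y + r)`, `h θ = dens μ (marg P θ)`,
`BM μ (M₀ gfac Λ) x (ρ/10) (marg P θ)` (`G0` for the measure `μ`, `DS.finComp`, `DS.openPos`), `GE.Dw_heat_le`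
(twice), `WB.interp` with `A = (ball x ρ)ᶜ` and `T` from `mass_tail_compl` (`r₁ = ρ/10`, `r₂ = ρ`,
`a = d/(4τ)`, `d = 9ρ/20`), `OptGeo.len_le'`.
`heat_lower`: `∫ P_τ g dμ₁ = ∫ g P_τ(dens μ μ₁) dμ ≥ w ∫_{ball} P_τ(dens μ μ₁)`, `mass_tail` with
`a = (δ₁ - r)/(8τ)`. -/

set_option autoImplicit false
set_option linter.unusedSectionVars false
set_option linter.unusedVariables false
open MeasureTheory Filter Set Metric
open scoped ENNReal NNReal Topology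
open Crest.GeometryTopology.SyntheticRicci

noncomputable section
namespace Crest.Agent.R242

variable {X : Type*} [MetricSpace X] [MeasurableSpace X] [BorelSpace X] [ProperSpace X]
  {m : Measure X} [IsFiniteMeasureOnCompacts m] [m.IsOpenPosMeasure] {μ : Measure X} [DS m μ]

theorem n1a_lim {P : Measure (UCurve X)} [IsProbabilityMeasure P] {C : ℝ} (hC0 : 0 ≤ C)
    (hC : Cmpr m P C) {o : X} {R : ℝ} (hT : Tracks P o R) {l : Filter ℝ} {g : ℝ → X → ℝ}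
    {g₀ : X → ℝ} {θ : ℝ → ℝ} {θ₀ : ℝ} (hθ : Tendsto θ l (𝓝[Icc 0 1] θ₀)) (hθ₀ : θ₀ ∈ Icc (0 : ℝ) 1)
    (hg : ∀ i, MemLp (g i) 2 m) (hg₀ : MemLp g₀ 2 m)
    (hG : Tendsto (fun i => nsq μ fun x => g i x - g₀ x) l (𝓝 0)) :
    Tendsto (fun i => ∫ γ, g i (γ.ext (θ i)) ∂P) l (𝓝 (∫ γ, g₀ (γ.ext θ₀) ∂P)) := by
  have hI : ∀ {f : X → ℝ}, MemLp f 2 m → IntegrableOn f (closedBall o R) m := fun hf =>
    IsL2OnBalls.integrableOn (l2b_of_memLp hf) o R
  have hd : ∀ i, MemLp (fun x => g i x - g₀ x) 2 m := fun i => (hg i).sub hg₀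
  have hK : MeasurableSet (closedBall o R) := measurableSet_closedBall
  have h1 : MemLp ((closedBall o R).indicator fun _ => (1 : ℝ)) 2 m :=
    memLp_indicator_const 2 hK 1 (.inr measure_closedBall_lt_top.ne)
  obtain ⟨D, -, hD⟩ := DS.exists_cmp m μ
  have h2 := tendsto_integral_mul (μ := μ) (l := l) (b := fun i x => |g i x - g₀ x|) (b₀ := fun _ => 0)
    (.of_forall fun _ => (DS.memLp_iff m μ).2 h1) (.of_forall fun i => (DS.memLp_iff m μ).2 (hd i).abs)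
    ((DS.memLp_iff m μ).2 h1) MemLp.zero' (by simpa [nsq] using tendsto_const_nhds) (by simpa [nsq] using hG)
  have h3 := (h2.const_mul D).const_mul C
  simp only [mul_zero, integral_zero] at h3
  have h4 := (hC.cont hT (hI hg₀) θ₀ hθ₀).tendsto.comp hθ
  have h5 : Tendsto (fun i => ∫ γ, (g i (γ.ext (θ i)) - g₀ (γ.ext (θ i))) ∂P) l (𝓝 0) := by
    refine squeeze_zero_norm' ?_ h3
    filter_upwards [hθ.eventually self_mem_nhdsWithin] with i hi
    refine abs_integral_le_integral_abs.trans ((hC.integral_abs_le hC0 hT (hI (hd i)) hi).trans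
      (mul_le_mul_of_nonneg_left (le_of_eq_of_le ?_ (hD _ (ae_of_all _ fun x => mul_nonneg
        (indicator_nonneg (fun _ _ => zero_le_one) x) (abs_nonneg _))
        (h1.integrable_mul (hd i).abs)).2) hC0))
    rw [← integral_indicator hK]
    refine integral_congr_ae (ae_of_all _ fun x => ?_)
    by_cases hx : x ∈ closedBall o R <;> simp [hx]
  have h6 := h5.add h4
  rw [zero_add] at h6
  refine h6.congr' ?_
  filter_upwards [hθ.eventually self_mem_nhdsWithin] with i hi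
  rw [integral_sub (hC.integrable hT (hI (hg i)) hi) (hC.integrable hT (hI hg₀) hi)]
  simp

theorem n1a_step {P : Measure (UCurve X)} [IsProbabilityMeasure P] {C : ℝ} (hC0 : 0 ≤ C)
    (hC : Cmpr m P C) {o : X} {R : ℝ}
    (hg : ∀ᵐ γ ∂P, IsCSGeodesic γ ∧ γ.ext 0 ∈ closedBall o R ∧ γ.ext 1 ∈ closedBall o R)
    {w : ℝ → X → ℝ} {w' : X → ℝ} {s τ l η : ℝ} (hw : ∀ r, MemLp (w r) 2 m) (hw' : MemLp w' 2 m)
    (hs : s ∈ Ioo 0 τ) (hsl : SL m (w s)) (hD : DerL2 μ w w' s (𝓝[≠] 0)) (hl : 0 < l) (hη : 0 < η) :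
    ∀ᶠ k in 𝓝[>] (0 : ℝ), ∫ γ, w (s + k) (γ.ext ((s + k) / τ)) ∂P - ∫ γ, w s (γ.ext (s / τ)) ∂P ≤
      k * (∫ γ, w' (γ.ext (s / τ)) ∂P + l / 2 * ((∫ γ, Gam m (w s) (w s) (γ.ext (s / τ)) ∂P) * (1 / τ)) +
        1 / τ / (2 * l) * ∫ γ, len γ ^ 2 ∂P + η) := by
  have hτ : 0 < τ := hs.1.trans hs.2
  have hT := (plan_of_geo hC hg).2
  have h0 : s / τ ∈ Ioo (0 : ℝ) 1 := ⟨div_pos hs.1 hτ, (div_lt_one hτ).2 hs.2⟩
  have hθ : HasDerivAt (fun k : ℝ => (s + k) / τ) (1 / τ) 0 := ((hasDerivAt_id' 0).const_add s).div_const τ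
  have hθ1 : Tendsto (fun k : ℝ => (s + k) / τ) (𝓝[>] 0) (𝓝 (s / τ)) := by
    simpa using hθ.continuousAt.tendsto.mono_left nhdsWithin_le_nhds
  have hθ2 : ∀ᶠ k in 𝓝[>] (0 : ℝ), (s + k) / τ ∈ Icc (0 : ℝ) 1 := hθ1.eventually (Icc_mem_nhds h0.1 h0.2)
  have h1 := n1a_lim (μ := μ) hC0 hC hT (g := fun k x => (w (s + k) x - w s x) / k)
    (tendsto_nhdsWithin_iff.2 ⟨hθ1, hθ2⟩) (Ioo_subset_Icc_self h0) (a5b_quot hw s) hw'
    (hD.mono_left (nhdsGT_le_nhdsNE 0))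
  have hF := hC.cont hT (gam_integrableOn (m := m) (w s) (w s) o (3 * R))
  have h2 := intervalIntegral.integral_hasDerivAt_right (IntervalIntegrable.refl (μ := volume))
    ((hF.mono Ioo_subset_Icc_self).stronglyMeasurableAtFilter isOpen_Ioo _ h0)
    (hF.continuousAt (Icc_mem_nhds h0.1 h0.2))
  have h3 := (HasDerivAt.comp (h₂ := fun u => ∫ x in s / τ..u, ∫ γ, Gam m (w s) (w s) (γ.ext x) ∂P) 0
    (by rwa [add_zero]) hθ).const_mul (l / 2)
  filter_upwards [a3c_slope h3 (by simp) (lt_add_of_pos_right _ (half_pos hη)), hθ2,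
    h1.eventually (gt_mem_nhds (lt_add_of_pos_right _ (half_pos hη))), self_mem_nhdsWithin]
    with k a1 a2 a3 a4
  have hk : 0 < k := a4
  have hI : ∀ r, Integrable (fun γ : UCurve X => w r (γ.ext ((s + k) / τ))) P := fun r =>
    hC.integrable hT (IsL2OnBalls.integrableOn (l2b_of_memLp (hw r)) o _) a2
  have a5 := (le_abs_self _).trans (geo_young hsl hC hg h0.1.le
    (div_le_div_of_nonneg_right (le_add_of_nonneg_right hk.le) hτ.le) a2.2 hl)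
  rw [integral_div, integral_sub (hI _) (hI _), div_lt_iff₀ hk] at a3
  rw [show (s + k) / τ - s / τ = k * (1 / τ) by ring, mul_div_assoc] at a5
  simp only [Function.comp] at a1
  linarith

theorem n1a_cont {u : ℝ → X → ℝ} (hu : ∀ r, MemLp (u r) 2 m) {s : ℝ} (hs : 0 ≤ s) {l : Filter ℝ}
    (hl : l ≤ 𝓝[Ici 0] s) (h : Tendsto (fun r => nsq μ fun x => u r x - u s x) l (𝓝 0)) :
    Tendsto (fun r => nsq μ fun x => heat m μ r (u r) x - heat m μ s (u s) x) l (𝓝 0) := by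
  have hm : ∀ r f, MemLp (heat m μ r f) 2 μ := fun r f => (DS.memLp_iff m μ).2 (heat_memLp r f)
  have h1 : Tendsto (fun r => nsq μ (heat m μ r fun x => u r x - u s x)) l (𝓝 0) :=
    squeeze_zero' (.of_forall fun _ => nsq_nonneg _) (mem_of_superset (hl self_mem_nhdsWithin)
      fun r hr => nsq_heat_le ((hu r).sub (hu s)) hr) h
  refine (a5b_add (.of_forall fun r => hm _ _) (.of_forall fun r => (hm _ _).sub (hm _ _)) h1
    ((heat_cont (hu s) hs).mono_left hl)).congr fun r => nsq_congr (c4c_ae m μ ?_)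
  filter_upwards [heat_sub_fun (μ := μ) (hu r) (hu s) r] with x hx
  rw [hx, Pi.sub_apply]; ring

theorem log_harnack {P : Measure (UCurve X)} [IsProbabilityMeasure P] {C : ℝ} (hC : Cmpr m P C)
    {o : X} {R : ℝ}
    (hg : ∀ᵐ γ ∂P, IsCSGeodesic γ ∧ γ.ext 0 ∈ closedBall o R ∧ γ.ext 1 ∈ closedBall o R)
    {h : ℝ → X → ℝ}
    (hh : ∀ θ ∈ Icc (0 : ℝ) 1, MemLp (h θ) 2 m ∧ (∀ᵐ x ∂m, 0 ≤ h θ x) ∧ marg P θ = wd μ (h θ))
    {f : X → ℝ} (hf : SW m f) {M L τ κ₁ e : ℝ} (hτ : 0 < τ) (he : 0 ≤ e) (hM0 : 0 ≤ M)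
    (hM : ∀ᵐ x ∂m, 0 ≤ f x ∧ f x ≤ M)
    (hL : ∀ r ∈ Icc 0 τ, ∀ᵐ x ∂m, Dw m (heat m μ r f) x ≤ L)
    (hge : ∀ u : X → ℝ, SW m u → EB m u → (∀ᵐ x ∂m, Dw m u x ≤ L) → ∀ s ∈ Ioo 0 τ,
      ∀ θ ∈ Icc (0 : ℝ) 1, ∫ x, h θ x * Gam m (heat m μ s u) (heat m μ s u) x ∂μ ≤
        Real.exp (2 * κ₁ * s) * ∫ x, heat m μ s (h θ) x * Gam m u u x ∂μ + e) :
    ∫ x, heat m μ τ (fun z => Real.log (1 + f z)) x ∂(marg P 1) -
        ∫ x, Real.log (1 + heat m μ τ f x) ∂(marg P 0) ≤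
      (∫ γ, len γ ^ 2 ∂P) / (4 * τ ^ 2) * (∫ s in (0 : ℝ)..τ, Real.exp (2 * κ₁ * s)) +
        τ * Real.exp (2 * |κ₁| * τ) * e := by
  have hI : IsInfHilbertian m := DS.hilb μ
  obtain ⟨hP, hT⟩ := plan_of_geo hC hg
  clear hC
  obtain ⟨C, hC0, hC⟩ := hP.cmpr
  have d1 : ∀ z ∈ Icc 0 M, HasDerivAt (fun z => Real.log (1 + z)) (1 / (1 + z)) z := fun z hz =>
    ((hasDerivAt_id' z).const_add 1).log (by linarith [hz.1])
  have c1 : ContinuousOn (fun z : ℝ => 1 / (1 + z)) (Icc 0 M) :=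
    continuousOn_const.div (by fun_prop) fun z hz => by linarith [hz.1]
  obtain ⟨ψ, ψ', K, p1, p2, p3, p4⟩ := exists_C1_ext hM0 _ _ d1 c1
  have hψ : LipschitzWith K.toNNReal ψ := lipschitzWith_of_nnnorm_deriv_le (fun z => (p1 z).differentiableAt)
    fun z => by
      rw [(p1 z).deriv, ← NNReal.coe_le_coe]
      exact (p3 z).trans (Real.le_coe_toNNReal K)
  have hu : ∀ r, MemLp (fun x => ψ (heat m μ (τ - r) f x)) 2 m := fun r =>
    hψ.comp_memLp (by simpa using (p4 0 ⟨le_rfl, hM0⟩).1) (heat_memLp _ f)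
  have hv : ∀ r, r ≤ τ → ∀ᵐ x ∂m, heat m μ (τ - r) f x ∈ Icc 0 M := fun r hr =>
    heat_mem_Icc hf.memLp hM0 (sub_nonneg.2 hr) hM
  have key := dini_right (A := fun s => ∫ γ, heat m μ s (fun x => ψ (heat m μ (τ - s) f x)) (γ.ext (s / τ)) ∂P)
    (e := fun s => (∫ γ, len γ ^ 2 ∂P) / (4 * τ ^ 2) * Real.exp (2 * κ₁ * s) + Real.exp (2 * |κ₁| * τ) * e)
    hτ.le (fun s hs => ?_) (by fun_prop) fun s hs η hη => ?_
  · rw [intervalIntegral.integral_add (Continuous.intervalIntegrable (by fun_prop) _ _)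
      intervalIntegrable_const, intervalIntegral.integral_const_mul, intervalIntegral.integral_const,
      div_self hτ.ne', zero_div, sub_self, heat_congr (g := fun z => Real.log (1 + f z)) (by
        filter_upwards [heat_zero (μ := μ) hf.memLp, hM] with x a1 a2
        rw [a1, (p4 _ a2).1]), ← hC.integral_marg (heat_meas _ _).aestronglyMeasurable ⟨zero_le_one, le_rfl⟩,
      integral_congr_ae (μ := P) (g := fun γ => Real.log (1 + heat m μ τ f (γ.ext 0))) (by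
        filter_upwards [hC.ae (heat_zero (μ := μ) (hu 0)) ⟨le_rfl, zero_le_one⟩,
          hC.ae (hv 0 hτ.le) ⟨le_rfl, zero_le_one⟩] with γ a1 a2
        rw [a1, (p4 _ a2).1, sub_zero]),
      ← hC.integral_marg (g := fun x => Real.log (1 + heat m μ τ f x))
        ((heat_meas _ _).const_add 1).log.aestronglyMeasurable ⟨le_rfl, zero_le_one⟩] at key
    simpa [mul_assoc] using key
  · refine n1a_lim (μ := μ) hC0.le hC hT (ContinuousWithinAt.tendsto_nhdsWithin (f := fun s => s / τ)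
      (by fun_prop) fun r hr => ⟨div_nonneg hr.1 hτ.le, (div_le_one hτ).2 hr.2⟩)
      ⟨div_nonneg hs.1 hτ.le, (div_le_one hτ).2 hs.2⟩ (fun _ => heat_memLp _ _) (heat_memLp _ _)
      (n1a_cont hu hs.1 (nhdsWithin_mono _ Icc_subset_Ici_self) (a5b_small (c := K.toNNReal ^ 2)
        (.of_forall fun r => (a5b_le ((DS.memLp_iff m μ).2 ((heat_memLp _ f).sub (heat_memLp _ f)))
          ((DS.memLp_iff m μ).2 ((hu r).sub (hu s))).1 (ae_of_all _ fun x => hψ.dist_le_mul _ _)).2)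
        ((heat_cont hf.memLp (sub_nonneg.2 hs.2)).comp (ContinuousWithinAt.tendsto_nhdsWithin
          (f := fun s => τ - s) (by fun_prop) fun r hr => sub_nonneg.2 hr.2))))
  · have ht : 0 < τ - s := sub_pos.2 hs.2
    have hv := hv s hs.2.le
    have hL := hL (τ - s) ⟨ht.le, by linarith [hs.1]⟩
    have l1 := isLap_heat (μ := μ) hf.memLp ht
    have l2 := (l1.chain ⟨⟨M, hv.mono fun x hx => by rw [abs_of_nonneg hx.1]; exact hx.2⟩, L, hL⟩ hv
      ⟨le_rfl, hM0⟩ _ _ (fun z => -1 / (1 + z) ^ 2) (by simp) d1 (fun z hz => by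
        simpa using ((hasDerivAt_id' z).const_add 1).fun_inv (by linarith [hz.1]))
      (continuousOn_const.div (by fun_prop) fun z hz => pow_ne_zero 2 (by linarith [hz.1]))).congr
      (v := fun x => ψ (heat m μ (τ - s) f x)) (hv.mono fun x hx => (p4 _ hx).1.symm) EventuallyEq.rfl
    have g1 := (gam_chain_Icc hI l1.sw.sl l1.sw.sl hv ψ ψ' (fun z _ => p1 z) p2.continuousOn).2.2
    have g2 : ∀ᵐ x ∂m, Dw m (fun x => ψ (heat m μ (τ - s) f x)) x ≤ L := by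
      filter_upwards [g1, hv, hL, Dw_nonneg (m := m) (heat m μ (τ - s) f)] with x a1 a2 a3 a4
      rw [a1, (p4 _ a2).2, abs_of_nonneg (by have := a2.1; positivity)]
      exact (mul_le_of_le_one_left a4 ((div_le_one (by linarith [a2.1])).2 (by linarith [a2.1]))).trans a3
    have g3 := SW.memLp_gam hI l2.sw.sl g2 l2.sw
    have l3 := DerL2.heat_comp hs.1 hu (c3b_mul (lap_memLp (μ := μ) (τ - s) f).neg
      (p2.measurable.comp (heat_meas _ _)).aestronglyMeasurable (ae_of_all _ fun x => p3 _))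
      (DerL2.comp le_rfl (fun r => (DS.memLp_iff m μ).2 (heat_memLp (τ - r) f))
        ((DS.memLp_iff m μ).2 (lap_memLp (τ - s) f).neg) ψ ψ' p1 p2 p3 (heat_derL2 hf.memLp ht).rev) l2
    rw [heat_congr (g := fun x => -1 * Gam m (fun x => ψ (heat m μ (τ - s) f x))
      (fun x => ψ (heat m μ (τ - s) f x)) x) (by
        filter_upwards [g1, hv, l1.sw.sl.gam_self, l2.sw.sl.gam_self] with x a1 a2 a3 a4
        simp only [Function.comp, Pi.neg_apply]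
        rw [a4, a1, a3, (p4 _ a2).2, mul_pow, sq_abs, div_pow]
        ring)] at l3
    have h0 : s / τ ∈ Icc (0 : ℝ) 1 := ⟨div_nonneg hs.1.le hτ.le, (div_le_one hτ).2 hs.2.le⟩
    obtain ⟨q1, q2, q3⟩ := hh _ h0
    have _ := DS.finComp m μ
    have _ := DS.openPos m μ
    have q4 := hge _ l2.sw ⟨M, hv.mono fun x hx => by
      beta_reduce
      rw [(p4 _ hx).1, abs_of_nonneg (Real.log_nonneg (by linarith [hx.1]))]
      linarith [Real.log_le_sub_one_of_pos (show 0 < 1 + heat m μ (τ - s) f x by linarith [hx.1]), hx.2]⟩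
      g2 s hs _ h0
    filter_upwards [n1a_step hC0.le hC hg (w := fun r => heat m μ r fun x => ψ (heat m μ (τ - r) f x))
      (fun _ => heat_memLp _ _) (heat_memLp _ _) hs (l2.sw.heat hs.1.le).sl l3
      (l := 2 * τ * Real.exp (-(2 * κ₁ * s))) (by positivity) hη, self_mem_nhdsWithin] with k a1 a2
    refine a1.trans (mul_le_mul_of_nonneg_left (add_le_add_left ?_ _) (le_of_lt a2))
    rw [← hC.integral_marg (heat_meas _ _).aestronglyMeasurable h0, ← hC.integral_marg (gam_aesm _ _) h0,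
      q3, integral_wd (c4c_aesm μ q1.1) (c4c_ae m μ q2), integral_wd (c4c_aesm μ q1.1) (c4c_ae m μ q2),
      ← heat_symm q1 (g3.const_mul _) hs.1.le]
    simp only [neg_mul, one_mul, mul_neg, integral_neg]
    have b1 : Real.exp (-(2 * κ₁ * s)) ≤ Real.exp (2 * |κ₁| * τ) := Real.exp_le_exp.2 (by
      nlinarith [neg_abs_le κ₁, abs_nonneg κ₁, hs.1, hs.2])
    have b2 := mul_le_mul_of_nonneg_left q4 (Real.exp_pos (-(2 * κ₁ * s))).le
    rw [mul_add, ← mul_assoc, ← Real.exp_add, neg_add_cancel, Real.exp_zero, one_mul] at b2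
    have b3 : 1 / τ / (2 * (2 * τ * Real.exp (-(2 * κ₁ * s)))) * ∫ γ, len γ ^ 2 ∂P =
        (∫ γ, len γ ^ 2 ∂P) / (4 * τ ^ 2) * Real.exp (2 * κ₁ * s) := by
      rw [Real.exp_neg]; field_simp; ring
    have b4 : ∀ y, 2 * τ * Real.exp (-(2 * κ₁ * s)) / 2 * (y * (1 / τ)) = Real.exp (-(2 * κ₁ * s)) * y :=
      fun y => by field_simp
    rw [b3, b4]
    linarith [mul_le_mul_of_nonneg_right b1 he]

theorem harnack_local {κ κ₁ κ₂ C₁ : ℝ} {k : X → ℝ} (hG : HasGood m κ) (hκ : 0 ≤ κ)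
    (h₂ : GE m μ κ₂) (hκ₂ : 0 ≤ κ₂) (hW : WB m μ k) (hk : AEStronglyMeasurable k m) (hkb : EB m k)
    {x y : X} {ρ r M₀ Λ : ℝ} (hr : 0 < r) (hxy : 3 * (dist x y + r) ≤ ρ / 10) (hC₁ : 0 ≤ C₁)
    (hkl : ∀ᵐ z ∂m, -κ₁ - (ball x ρ)ᶜ.indicator (fun _ => C₁) z ≤ k z) (hμ : μ ≤ m) (hΛ0 : 0 < Λ)
    (hΛ : m ≤ ENNReal.ofReal Λ • μ) {μ₀ μ₁ : Measure X} (b₀ : BM m M₀ y r μ₀) (b₁ : BM m M₀ x r μ₁)
    {f : X → ℝ} (hf : SW m f) {B L₀ τ : ℝ} (hB0 : 0 ≤ B) (hB : ∀ᵐ z ∂m, 0 ≤ f z ∧ f z ≤ B)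
    (hL0 : 0 ≤ L₀) (hL : ∀ᵐ z ∂m, Dw m f z ≤ L₀) (hτ : 0 < τ) :
    ∫ z, heat m μ τ (fun z => Real.log (1 + f z)) z ∂μ₁ -
        ∫ z, Real.log (1 + heat m μ τ f z) ∂μ₀ ≤
      (dist x y + 2 * r) ^ 2 / (4 * τ ^ 2) * (∫ s in (0 : ℝ)..τ, Real.exp (2 * κ₁ * s)) +
        τ * Real.exp (2 * |κ₁| * τ) * (2 * C₁ * τ * Real.exp (2 * |κ₁| * τ) *
          (Real.exp (2 * κ₂ * τ) * L₀) ^ 2 *
          (3 / ρ * Real.sqrt (τ * m.real (closedBall x ρ)) * Real.exp (-(ρ ^ 2 / (40 * τ))) *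
            Real.sqrt (M₀ * gfac κ ρ * Λ))) := by
  have := DS.finComp m μ
  have := DS.openPos m μ
  have hR : 0 < dist x y + r := by positivity
  have hρ : 0 < ρ := by linarith
  have hM₀ := b₀.pos
  have b₀' : BM m M₀ x (dist x y + r) μ₀ := by
    refine ⟨⟨b₀.1.1, measure_mono_null (compl_subset_compl.2 fun z hz => ?_) b₀.1.2⟩, b₀.2⟩
    rw [mem_closedBall] at hz ⊢
    linarith [dist_triangle z y x, dist_comm x y]
  obtain ⟨P, hP⟩ := hG x (dist x y + r) M₀ μ₀ μ₁ hR.le hM₀ b₀'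
    (b₁.mono le_rfl (by linarith [dist_nonneg (x := x) (y := y)]))
  have := hP.prob
  have hg0 : 0 < gfac κ ρ := Real.exp_pos _
  have hgf : gfac κ (dist x y + r) ≤ gfac κ ρ := by
    unfold gfac
    gcongr <;> linarith
  have hb : ∀ θ ∈ Icc (0 : ℝ) 1, BM μ (M₀ * gfac κ ρ * Λ) x (ρ / 10) (marg P θ) := by
    intro θ hθ
    refine ⟨(hP.toOptGeo.pb θ).mono hxy, (hP.cmpr θ hθ).trans ?_⟩
    rw [ENNReal.ofReal_mul (by positivity : 0 ≤ M₀ * gfac κ ρ), ← smul_smul]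
    exact a6a_smul_mono hΛ (ENNReal.ofReal_le_ofReal (by gcongr))
  have hh : ∀ θ ∈ Icc (0 : ℝ) 1, MemLp (dens μ (marg P θ)) 2 m ∧
      (∀ᵐ z ∂m, 0 ≤ dens μ (marg P θ) z) ∧ marg P θ = wd μ (dens μ (marg P θ)) := by
    intro θ hθ
    have := (hb θ hθ).1.1
    exact ⟨(DS.memLp_iff m μ).1 (hb θ hθ).memLp, Eventually.of_forall (dens_nonneg _),
      (wd_dens (hb θ hθ).ac).symm⟩
  have hD : ∀ (u : X → ℝ) (L : ℝ), SW m u → 0 ≤ L → (∀ᵐ z ∂m, Dw m u z ≤ L) → ∀ s ∈ Icc 0 τ,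
      ∀ᵐ z ∂m, Dw m (heat m μ s u) z ≤ Real.exp (κ₂ * τ) * L := by
    intro u L hu hL0 hL s hs
    filter_upwards [h₂.Dw_heat_le hu hL0 hL hs.1] with z hz
    refine hz.trans ?_
    gcongr
    exact hs.2
  set T := 3 / ρ * Real.sqrt (τ * m.real (closedBall x ρ)) * Real.exp (-(ρ ^ 2 / (40 * τ))) *
    Real.sqrt (M₀ * gfac κ ρ * Λ) with hT
  have hT0 : 0 ≤ T := by positivity
  have key := log_harnack (μ := μ) (κ₁ := κ₁) (e := 2 * C₁ * τ * Real.exp (2 * |κ₁| * τ) *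
      (Real.exp (2 * κ₂ * τ) * L₀) ^ 2 * T) hP.cmpr hP.geo hh hf hτ (by positivity) hB0 hB
    (hD f L₀ hf hL0 hL) ?_
  · rw [hP.m0, hP.m1] at key
    refine key.trans ?_
    have hI : 0 ≤ ∫ s in (0 : ℝ)..τ, Real.exp (2 * κ₁ * s) :=
      intervalIntegral.integral_nonneg hτ.le fun s _ => (Real.exp_pos _).le
    have hlen : ∫ γ, len γ ^ 2 ∂P ≤ (dist x y + 2 * r) ^ 2 := by
      have h1 := integral_mono_ae hP.toOptGeo.integrable_len
        (integrable_const ((dist x y + 2 * r) ^ 2)) ?_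
      · simpa using h1
      filter_upwards [hP.toOptGeo.len_le' b₀.1 b₁.1] with γ hγ
      rw [dist_comm y x] at hγ
      exact pow_le_pow_left₀ dist_nonneg hγ 2
    gcongr
  intro u hu hub huL s hs θ hθ
  have := (hb θ hθ).1.1
  have hi : Integrable (dens μ (marg P θ)) m := (DS.integrable_iff m μ).1 (dens_integrable _)
  have h1 := hW.interp hk hkb measurableSet_ball.compl hC₁ hkl hu hub hs.1
    (fun t ht => hD u _ hu (by positivity) huL t ⟨ht.1, ht.2.trans hs.2.le⟩)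
    (M := M₀ * gfac κ ρ * Λ) (hh θ hθ).1
    (by
      filter_upwards [(DS.ac₂ m μ).ae_le (hb θ hθ).dens_le] with z hz
      exact ⟨dens_nonneg _ _, hz⟩) hT0
    (fun t ht => (heat_integrable (hh θ hθ).1 hi ht.1).1.integrableOn) ?_
  · refine h1.trans (add_le_add le_rfl ?_)
    have e : Real.exp (κ₂ * τ) * (Real.exp (κ₂ * τ) * L₀) = Real.exp (2 * κ₂ * τ) * L₀ := by
      rw [← mul_assoc, ← Real.exp_add]
      congr 2
      ring
    rw [e]
    gcongr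
    · exact hs.2.le
    · exact hs.2.le
  intro t ht
  have htτ : t ≤ τ := ht.2.trans hs.2.le
  refine (mass_tail_compl (μ := μ) (hh θ hθ).1 hi (hh θ hθ).2.1 (r₁ := ρ / 10)
    ((DS.ac₂ m μ).ae_le (hb θ hθ).1.dens_zero) (by linarith) (a := 9 * ρ / (80 * τ))
    (by positivity) ht.1).trans ?_
  rw [hT]
  have ht0 := ht.1
  gcongr ?_ * √(?_ * ?_) * Real.exp ?_ * √?_
  · rw [div_le_div_iff₀ (by linarith) hρ]
    linarith
  · exact ENNReal.toReal_mono (isCompact_closedBall x ρ).measure_lt_top.ne (hμ _)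
  · calc _ ≤ 2 * (9 * ρ / (80 * τ)) ^ 2 * τ - 9 * ρ / (80 * τ) * ((ρ - ρ / 10) / 2) := by gcongr
      _ = -(ρ ^ 2 / (40 * τ)) - ρ ^ 2 / (3200 * τ) := by
        field_simp
        ring
      _ ≤ _ := sub_le_self _ (by positivity)
  · exact (hb θ hθ).nsq_le

theorem heat_lower {g : X → ℝ} (hg : MemLp g 2 m) (hg0 : ∀ᵐ z ∂m, 0 ≤ g z) {x : X}
    {δ₁ w r M₁ τ : ℝ} (hw : 0 ≤ w) (hgw : ∀ᵐ z ∂m, z ∈ ball x δ₁ → w ≤ g z) {μ₁ : Measure X}
    (b₁ : BM μ M₁ x r μ₁) (hr : r < δ₁) (hτ : 0 < τ) :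
    w * (1 - 2 / (δ₁ - r) * Real.sqrt (τ * μ.real (closedBall x δ₁)) *
        Real.exp (-((δ₁ - r) ^ 2 / (32 * τ))) * Real.sqrt M₁) ≤ ∫ z, heat m μ τ g z ∂μ₁ := by
  have := DS.finComp m μ
  have := DS.openPos m μ
  have := b₁.1.1
  have hd : 0 < δ₁ - r := sub_pos.2 hr
  have hρ : MemLp (dens μ μ₁) 2 m := (DS.memLp_iff m μ).1 b₁.memLp
  have hρi : Integrable (dens μ μ₁) m := (DS.integrable_iff m μ).1 (dens_integrable μ₁)
  have hρ0 : ∀ᵐ y ∂m, 0 ≤ dens μ μ₁ y := Eventually.of_forall (dens_nonneg μ₁)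
  have h1 := mass_tail (μ := μ) hρ hρi hρ0 (a := (δ₁ - r) / (8 * τ)) (e1a_ae m μ b₁.1.dens_zero) hr
    (by positivity) hτ.le
  have e1 : 2 * ((δ₁ - r) / (8 * τ)) ^ 2 * τ - (δ₁ - r) / (8 * τ) * ((δ₁ - r) / 2) =
      -((δ₁ - r) ^ 2 / (32 * τ)) := by
    field_simp
    ring
  rw [e1, b₁.integral_dens_eq] at h1
  have h2 : 2 / (δ₁ - r) * Real.sqrt (τ * μ.real (closedBall x δ₁)) *
      Real.exp (-((δ₁ - r) ^ 2 / (32 * τ))) * Real.sqrt (nsq μ (dens μ μ₁)) ≤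
      2 / (δ₁ - r) * Real.sqrt (τ * μ.real (closedBall x δ₁)) *
      Real.exp (-((δ₁ - r) ^ 2 / (32 * τ))) * Real.sqrt M₁ :=
    mul_le_mul_of_nonneg_left (Real.sqrt_le_sqrt b₁.nsq_le) (by positivity)
  have hH : Integrable (heat m μ τ (dens μ μ₁)) μ :=
    (DS.integrable_iff m μ).2 (heat_integrable (μ := μ) hρ hρi hτ.le).1
  have hHg : Integrable (fun z => heat m μ τ (dens μ μ₁) z * g z) μ :=
    e4b_int μ (heat_memLp τ _) hg
  have hH0 := c4c_ae m μ (heat_nonneg (μ := μ) hρ hτ.le hρ0)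
  have h3 : w * ∫ y in ball x δ₁, heat m μ τ (dens μ μ₁) y ∂μ ≤
      ∫ z, heat m μ τ (dens μ μ₁) z * g z ∂μ := by
    rw [← integral_const_mul, ← integral_indicator measurableSet_ball]
    refine integral_mono_ae ((hH.const_mul w).indicator measurableSet_ball) hHg ?_
    filter_upwards [hH0, c4c_ae m μ hg0, c4c_ae m μ hgw] with z a1 a2 a3
    by_cases hz : z ∈ ball x δ₁
    · rw [indicator_of_mem hz, mul_comm]
      exact mul_le_mul_of_nonneg_left (a3 hz) a1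
    · rw [indicator_of_notMem hz]
      exact mul_nonneg a1 a2
  rw [integral_dens b₁.ac, ← heat_symm hρ hg hτ.le]
  exact (mul_le_mul_of_nonneg_left (by linarith) hw).trans h3

end Crest.Agent.R242
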