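import Crest.Agent.R242.N1
import Crest.Agent.R242.M2

/-! Block N2: the local inequality at scale `ε` (`τ = ε t`, `τ' = τ(1+η)`, `V = pot F BF ε`).
`harnack_upper`: `∫ log W dμ₀ ≤ ½ log ∫ W² dμ₀` (from `log y ≤ y - 1`), `W = 1 + P_τ f`,
`∫ W² dμ₀ ≤ 2 + 2M₀ e^{v}∫_{B}(P_τ f)² dμ ≤ e^{v}(2 + 2M₀ nsq χ)` by `dg_quad`, `integral_wm`.
`nf_props`: `D ≤ 2ℓ`, the exponent is in `[0, ℓ²/τ + BF/ε]` and `(ℓ/τ + LF/(2ε))`-Lipschitz.
`ll_one`: `harnack_local` (`κ₁ = κ + c/ε`, `κ₂ = κ + BG/ε`, `C₁ = (BG + |c|)/ε`, `Λ = exp (2BF/ε)`, `Ctx.wb`,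
`Ctx.ge_wm`, `wm_le`, `le_wm`) plus `harnack_upper` with `v = (BF - F y + LF r)/ε`.
`ll_eps`: `μ = wm m V` (`ds_wm`), add `ll_one` for `y₀`, `y₁`; `heat_add_fun`; `heat_lower` for
`g = log (1+f₀) + log (1+f₁) ≥ (D₀² + D₁²)/(4τ') + V ≥ w̄/ε` on `ball x δ₁` (`D₀ + D₁ ≥ 2(ℓ - r)`),
`BM μ (M₀ exp(2BF/ε)) x r μ₁`; substitute `s = εσ` in the time integral; multiply by `ε`. -/

set_option autoImplicit false
set_option linter.unusedSectionVars false
set_option linter.unusedVariables false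
open MeasureTheory Filter Set Metric
open scoped ENNReal NNReal Topology
open Crest.GeometryTopology.SyntheticRicci

noncomputable section
namespace Crest.Agent.R242

variable {X : Type*} [MetricSpace X] [MeasurableSpace X] [BorelSpace X] [ProperSpace X]
  {m : Measure X} [IsFiniteMeasureOnCompacts m] [m.IsOpenPosMeasure] [DS m m]

/-- The test function. -/
def nf (x y : X) (ρ r ℓ τ' : ℝ) (V : X → ℝ) (z : X) : ℝ :=
  cut x ρ 1 z * Real.exp (min (infDist z (closedBall y r)) (2 * ℓ) ^ 2 / (4 * τ') + V z / 2)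

/-- The error of the local Harnack inequality. -/
def nErr (κ c BG BF LF ℓ ρ t A₁ A₂ ε : ℝ) : ℝ :=
  ε * t * Real.exp (2 * |κ + c / ε| * (ε * t)) *
    (2 * ((BG + |c|) / ε) * (ε * t) * Real.exp (2 * |κ + c / ε| * (ε * t)) *
      (Real.exp (2 * (κ + BG / ε) * (ε * t)) *
        (Real.exp (ℓ ^ 2 / (ε * t) + BF / ε) * (1 + ℓ / (ε * t) + LF / (2 * ε)))) ^ 2 *
      (3 / ρ * Real.sqrt (ε * t * A₁) * Real.exp (-(ρ ^ 2 / (40 * (ε * t)))) *
        Real.sqrt (A₂ * Real.exp (2 * BF / ε))))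

/-- The mass that leaves the small ball. -/
def nTail (BF δ₁ r t A₁ A₂ ε : ℝ) : ℝ :=
  2 / (δ₁ - r) * Real.sqrt (ε * t * A₁) * Real.exp (-((δ₁ - r) ^ 2 / (32 * (ε * t)))) *
    Real.sqrt (A₂ * Real.exp (2 * BF / ε))

variable {κ BF BG ε : ℝ} {LF : ℝ≥0} {F G : X → ℝ}

theorem n2a_log {u Q : ℝ} (hu : 0 ≤ u) (hQ : 0 < Q) :
    Real.log (1 + u) ≤ 1 / 2 * Real.log Q + 1 / 2 * ((2 + 2 * u ^ 2) / Q - 1) := by
  have h1 : 0 < 1 + u := by linarith
  have h2 := Real.log_le_sub_one_of_pos (div_pos (pow_pos h1 2) hQ)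
  rw [Real.log_div (pow_pos h1 2).ne' hQ.ne', Real.log_pow] at h2
  have h3 : (1 + u) ^ 2 / Q ≤ (2 + 2 * u ^ 2) / Q :=
    div_le_div_of_nonneg_right (by nlinarith [sq_nonneg (1 - u)]) hQ.le
  push_cast at h2
  linarith

theorem harnack_upper {μ : Measure X} [DS m μ] {V D χ : X → ℝ} (hV : BddLip V)
    (hV0 : ∀ z, 0 ≤ V z) (hμ : μ = wm m V) (hD : BddLip D) (hD1 : LipschitzWith 1 D)
    (hχ : BddLip χ) (hχc : HasCompactSupport χ) (hχ0 : ∀ z, 0 ≤ χ z) {y : X} {r M₀ v τ τ' : ℝ}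
    {μ₀ : Measure X} (b₀ : BM m M₀ y r μ₀) (hD0 : ∀ z ∈ closedBall y r, D z = 0)
    (hv : ∀ z ∈ closedBall y r, V z ≤ v) (hτ : 0 ≤ τ) (hτ' : τ < τ') :
    ∫ z, Real.log (1 + heat m μ τ (fun z => χ z * Real.exp (D z ^ 2 / (4 * τ') + V z / 2)) z) ∂μ₀ ≤
      v / 2 + 1 / 2 * Real.log (2 + 2 * M₀ * nsq m χ) := by
  have := b₀.1.1
  obtain ⟨LV, hLV⟩ := hV.2
  obtain ⟨Lχ, hLχ⟩ := hχ.2
  have cV := hLV.continuous
  have cD := hD1.continuous
  have cχ := hLχ.continuous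
  set f : X → ℝ := fun z => χ z * Real.exp (D z ^ 2 / (4 * τ') + V z / 2) with hf
  have cf : Continuous f := by fun_prop
  have hfm : MemLp f 2 m := cf.memLp_of_hasCompactSupport hχc.mul_right
  set u := heat m μ τ f with hu
  have hu0 : ∀ᵐ z ∂μ₀, 0 ≤ u z := b₀.ac.ae_le (heat_nonneg hfm hτ
    (Eventually.of_forall fun z => mul_nonneg (hχ0 z) (Real.exp_pos _).le))
  have hum : MemLp u 2 m := heat_memLp τ f
  have hi : Integrable (fun z => u z ^ 2) m := hum.integrable_sq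
  have hi₀ : Integrable (fun z => u z ^ 2) μ₀ := b₀.integrable hi.integrableOn
  have hM := b₀.pos
  have hv0 : 0 ≤ v := (hV0 y).trans (hv y (mem_closedBall_self b₀.1.nonneg))
  have hn : 0 ≤ nsq m χ := integral_nonneg fun _ => sq_nonneg _
  have hB : MeasurableSet (closedBall y r) := measurableSet_closedBall
  have hτ0 : 0 < τ' := hτ.trans_lt hτ'
  -- the chain of inequalities
  have s1 : ∫ z, u z ^ 2 ∂μ₀ ≤ M₀ * ∫ z in closedBall y r, u z ^ 2 ∂m := by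
    have h1 := Measure.restrict_mono (Subset.refl (closedBall y r)) b₀.2
    rw [Measure.restrict_eq_self_of_ae_mem b₀.1.ae, Measure.restrict_smul] at h1
    have := integral_mono_measure h1 (Eventually.of_forall fun z => sq_nonneg (u z))
      (hi.integrableOn.smul_measure ENNReal.ofReal_ne_top)
    rwa [integral_smul_measure, ENNReal.toReal_ofReal hM.le, smul_eq_mul] at this
  have s2 : ∫ z in closedBall y r, u z ^ 2 ∂m ≤ Real.exp v * ∫ z in closedBall y r, u z ^ 2 ∂μ := by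
    rw [← integral_indicator hB, ← integral_indicator hB, hμ, integral_wm hV, ← integral_const_mul]
    have hi' : Integrable (fun z => Real.exp (-V z) * (closedBall y r).indicator (fun z => u z ^ 2) z) m :=
      (hi.indicator hB).bdd_mul (c := 1) (by fun_prop) (Eventually.of_forall fun z => by
        rw [Real.norm_of_nonneg (Real.exp_pos _).le, Real.exp_le_one_iff, neg_nonpos]
        exact hV0 z)
    refine integral_mono (hi.indicator hB) (hi'.const_mul _) fun z => ?_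
    by_cases hz : z ∈ closedBall y r
    · simp only [indicator_of_mem hz]
      rw [← mul_assoc, ← Real.exp_add]
      exact le_mul_of_one_le_left (sq_nonneg _) (Real.one_le_exp (by linarith [hv z hz]))
    · simp [indicator_of_notMem hz]
  have s3 : ∫ z in closedBall y r, u z ^ 2 ∂μ ≤ nsq m χ := by
    refine (dg_quad hD hD1 hfm hτ hτ' hB hD0).trans (le_of_eq ?_)
    rw [hμ, integral_wm hV]
    refine integral_congr_ae (Eventually.of_forall fun z => ?_)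
    simp only [hf]
    rw [mul_pow, ← Real.exp_nat_mul, mul_left_comm (Real.exp _) (χ z ^ 2), mul_left_comm, ← Real.exp_add,
      ← Real.exp_add]
    rw [show -V z + (-D z ^ 2 / (2 * τ') + ((2 : ℕ) : ℝ) * (D z ^ 2 / (4 * τ') + V z / 2)) = 0 by
      push_cast; field_simp; ring, Real.exp_zero, mul_one]
  have s4 : ∫ z, u z ^ 2 ∂μ₀ ≤ M₀ * (Real.exp v * nsq m χ) :=
    s1.trans (mul_le_mul_of_nonneg_left (s2.trans (mul_le_mul_of_nonneg_left s3 (Real.exp_pos _).le)) hM.le)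
  have hP : 0 < 2 + 2 * M₀ * nsq m χ := by positivity
  set Q : ℝ := Real.exp v * (2 + 2 * M₀ * nsq m χ) with hQ
  have hQ0 : 0 < Q := mul_pos (Real.exp_pos _) hP
  have hi₁ : Integrable (fun z => (2 + 2 * u z ^ 2) / Q) μ₀ :=
    ((integrable_const _).add (hi₀.const_mul 2)).div_const Q
  have hi₂ : Integrable (fun z => 1 / 2 * ((2 + 2 * u z ^ 2) / Q - 1)) μ₀ :=
    (hi₁.sub (integrable_const _)).const_mul _
  calc ∫ z, Real.log (1 + u z) ∂μ₀
      ≤ ∫ z, (1 / 2 * Real.log Q + 1 / 2 * ((2 + 2 * u z ^ 2) / Q - 1)) ∂μ₀ :=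
        integral_mono_of_nonneg (hu0.mono fun z hz => Real.log_nonneg (by linarith))
          ((integrable_const _).add hi₂) (hu0.mono fun z hz => n2a_log hz hQ0)
    _ = 1 / 2 * Real.log Q + 1 / 2 * ((2 + 2 * ∫ z, u z ^ 2 ∂μ₀) / Q - 1) := by
        rw [integral_add (integrable_const _) hi₂, integral_const_mul (1 / 2) fun z => _ - _,
          integral_sub hi₁ (integrable_const _), integral_div, integral_add (integrable_const _) (hi₀.const_mul 2),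
          integral_const_mul 2]
        simp
    _ ≤ 1 / 2 * Real.log Q := by
        have h1 : 1 ≤ Real.exp v := Real.one_le_exp hv0
        have h2 : (2 + 2 * ∫ z, u z ^ 2 ∂μ₀) / Q ≤ 1 := by
          rw [div_le_one hQ0, hQ]
          nlinarith
        linarith
    _ = _ := by
        rw [hQ, Real.log_mul (Real.exp_pos _).ne' hP.ne', Real.log_exp]
        ring

theorem n2b_D (B : Set X) {ℓ : ℝ} (hℓ : 0 < ℓ) :
    LipschitzWith 1 (fun z => min (infDist z B) (2 * ℓ)) ∧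
      ∀ z, 0 ≤ min (infDist z B) (2 * ℓ) ∧ min (infDist z B) (2 * ℓ) ≤ 2 * ℓ :=
  ⟨(lipschitz_infDist_pt B).min_const _, fun _ =>
    ⟨le_min infDist_nonneg (by positivity), min_le_right _ _⟩⟩

theorem n2b_lip {χ e : X → ℝ} {E L : ℝ} (hχ : LipschitzWith 1 χ) (h01 : ∀ z, 0 ≤ χ z ∧ χ z ≤ 1)
    (hE : ∀ z, e z ≤ E) (hL : ∀ z w, |e z - e w| ≤ L * dist z w) :
    LipschitzWith (Real.exp E * (1 + L)).toNNReal fun z => χ z * Real.exp (e z) := by
  refine LipschitzWith.of_dist_le' fun z w => ?_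
  have h1 : |χ z - χ w| ≤ dist z w := by simpa [Real.dist_eq] using hχ.dist_le_mul z w
  have h2 := (a4a_exp (hE z) (hE w)).trans (mul_le_mul_of_nonneg_left (hL z w) (Real.exp_pos E).le)
  have h3 : Real.exp (e z) ≤ Real.exp E := Real.exp_le_exp.2 (hE z)
  rw [Real.dist_eq, show χ z * Real.exp (e z) - χ w * Real.exp (e w) =
    (χ z - χ w) * Real.exp (e z) + χ w * (Real.exp (e z) - Real.exp (e w)) by ring]
  refine (abs_add_le _ _).trans ?_
  rw [abs_mul, abs_mul, abs_of_pos (Real.exp_pos _), abs_of_nonneg (h01 w).1]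
  have h4 := mul_le_mul h1 h3 (Real.exp_pos _).le dist_nonneg
  have h5 := (mul_le_of_le_one_left (abs_nonneg _) (h01 w).2).trans h2
  linarith

theorem Ctx.nf_props (H : Ctx m κ F G BF BG LF) (hε : 0 < ε) (x y : X) {ρ r ℓ τ τ' : ℝ}
    (hr : 0 ≤ r) (hℓ : 0 < ℓ) (hτ : 0 < τ) (hτ' : τ ≤ τ') :
    SW m (nf x y ρ r ℓ τ' (pot F BF ε)) ∧
      (∀ z, 0 ≤ nf x y ρ r ℓ τ' (pot F BF ε) z ∧
        nf x y ρ r ℓ τ' (pot F BF ε) z ≤ Real.exp (ℓ ^ 2 / τ + BF / ε)) ∧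
      ∀ᵐ z ∂m, Dw m (nf x y ρ r ℓ τ' (pot F BF ε)) z ≤
        Real.exp (ℓ ^ 2 / τ + BF / ε) * (1 + ℓ / τ + LF / (2 * ε)) := by
  obtain ⟨hD, hD'⟩ := n2b_D (closedBall y r) hℓ
  have hτ0 : 0 < τ' := hτ.trans_le hτ'
  have hχ : LipschitzWith 1 (cut x ρ 1) := by simpa using cut_lip x ρ one_pos
  have h01 : ∀ z, 0 ≤ cut x ρ 1 z ∧ cut x ρ 1 z ≤ 1 := fun z => ⟨cut_nonneg _ _ _ _, cut_le_one _ _ _ _⟩
  have hE : ∀ z, min (infDist z (closedBall y r)) (2 * ℓ) ^ 2 / (4 * τ') + pot F BF ε z / 2 ≤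
      ℓ ^ 2 / τ + BF / ε := fun z => by
    have h1 : min (infDist z (closedBall y r)) (2 * ℓ) ^ 2 / (4 * τ') ≤ (2 * ℓ) ^ 2 / (4 * τ) := by
      have := (hD' z).1
      have := (hD' z).2
      gcongr
    have h2 := (H.pot_mem hε z).2
    have h3 : (2 * ℓ) ^ 2 / (4 * τ) = ℓ ^ 2 / τ := by ring
    have h4 : 2 * BF / ε = 2 * (BF / ε) := by ring
    linarith
  have hL : ∀ z w, |min (infDist z (closedBall y r)) (2 * ℓ) ^ 2 / (4 * τ') + pot F BF ε z / 2 -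
      (min (infDist w (closedBall y r)) (2 * ℓ) ^ 2 / (4 * τ') + pot F BF ε w / 2)| ≤
      (ℓ / τ + LF / (2 * ε)) * dist z w := fun z w => by
    have h1 := hD.dist_le_mul z w
    have h2 := H.pot_lip hε z w
    obtain ⟨a0, a1⟩ := hD' z
    obtain ⟨b0, b1⟩ := hD' w
    rw [NNReal.coe_one, one_mul, Real.dist_eq] at h1
    generalize min (infDist z (closedBall y r)) (2 * ℓ) = a at *
    generalize min (infDist w (closedBall y r)) (2 * ℓ) = b at *
    have h3 : |(a + b) / (4 * τ') * (a - b)| ≤ ℓ / τ * dist z w := by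
      rw [abs_mul, abs_of_nonneg (by positivity : 0 ≤ (a + b) / (4 * τ'))]
      refine mul_le_mul ?_ h1 (abs_nonneg _) (by positivity)
      calc _ ≤ 4 * ℓ / (4 * τ) := by gcongr; linarith
        _ = _ := by ring
    rw [show a ^ 2 / (4 * τ') + pot F BF ε z / 2 - (b ^ 2 / (4 * τ') + pot F BF ε w / 2) =
      (a + b) / (4 * τ') * (a - b) + (pot F BF ε z - pot F BF ε w) / 2 by ring]
    refine (abs_add_le _ _).trans ?_
    rw [abs_div, abs_two]
    have h4 : (LF : ℝ) / (2 * ε) * dist z w = LF / ε * dist z w / 2 := by ring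
    linarith
  have hlip := n2b_lip hχ h01 hE hL
  refine ⟨sw_of_lip hlip (cut_compact x ρ one_pos).mul_right, fun z =>
    ⟨mul_nonneg (h01 z).1 (Real.exp_pos _).le,
      (mul_le_of_le_one_left (Real.exp_pos _).le (h01 z).2).trans (Real.exp_le_exp.2 (hE z))⟩, ?_⟩
  filter_upwards [(sl_of_lip (m := m) hlip).2] with z hz
  rw [Real.coe_toNNReal _ (by positivity), ← add_assoc] at hz
  exact hz

theorem Ctx.ll_one (H : Ctx m κ F G BF BG LF) (hε : 0 < ε) {μ : Measure X} [DS m μ]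
    (hμ : μ = wm m (pot F BF ε)) {x y : X} {ρ c ℓ r t η M₀ : ℝ} (hℓ : 0 < ℓ) (hℓρ : ℓ ≤ ρ / 100)
    (hxy : dist x y = ℓ) (hc : ∀ z ∈ ball x ρ, G z ≤ c) (hr : 0 < r) (hrℓ : r ≤ ℓ) (ht : 0 < t)
    (hη : 0 < η) {μ₀ μ₁ : Measure X} (b₀ : BM m M₀ y r μ₀) (b₁ : BM m M₀ x r μ₁) :
    ∫ z, heat m μ (ε * t)
        (fun z => Real.log (1 + nf x y ρ r ℓ (ε * t * (1 + η)) (pot F BF ε) z)) z ∂μ₁ ≤
      (BF - F y + LF * r) / (2 * ε) + 1 / 2 * Real.log (2 + 2 * M₀ * nsq m (cut x ρ 1)) +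
        (ℓ + 2 * r) ^ 2 / (4 * (ε * t) ^ 2) *
          (∫ s in (0 : ℝ)..(ε * t), Real.exp (2 * (κ + c / ε) * s)) +
        nErr κ c BG BF LF ℓ ρ t (m.real (closedBall x ρ)) (M₀ * gfac κ ρ) ε := by
  have hτ : 0 < ε * t := mul_pos hε ht
  have hτ' : ε * t < ε * t * (1 + η) := lt_mul_of_one_lt_right hτ (by linarith)
  obtain ⟨hD, hD'⟩ := n2b_D (closedBall y r) hℓ
  obtain ⟨h1, h2, h3⟩ := H.nf_props hε x y (ρ := ρ) hr.le hℓ hτ hτ'.le
  have hV := H.pot_bddLip ε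
  have hBG : 0 ≤ BG := (abs_nonneg _).trans (H.Gb x)
  have hκ := H.k0
  have hA := harnack_local (μ := μ) (κ₁ := κ + c / ε) (C₁ := (BG + |c|) / ε) (x := x) (y := y) (ρ := ρ)
    (Λ := Real.exp (2 * BF / ε)) H.good hκ (H.ge_wm hε hμ) (by positivity) (H.wb hε hμ)
    (continuous_const.sub (H.Gc.div_const ε)).aestronglyMeasurable
    ⟨κ + BG / ε, Eventually.of_forall fun z => by
      refine (abs_sub _ _).trans ?_
      rw [abs_neg, abs_of_nonneg hκ, abs_div, abs_of_pos hε]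
      have := H.Gb z
      gcongr⟩
    hr (by rw [hxy]; linarith) (by positivity)
    (Eventually.of_forall fun z => by
      by_cases hz : z ∈ ball x ρ
      · rw [indicator_of_notMem (not_not.2 hz)]
        have := div_le_div_of_nonneg_right (hc z hz) hε.le
        linarith
      · rw [indicator_of_mem hz]
        have h4 : G z ≤ c + (BG + |c|) := by linarith [(abs_le.1 (H.Gb z)).2, neg_abs_le c]
        have := div_le_div_of_nonneg_right h4 hε.le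
        rw [add_div] at this
        linarith)
    (hμ ▸ wm_le hV fun z => (H.pot_mem hε z).1) (Real.exp_pos _)
    (hμ ▸ le_wm hV fun z => (H.pot_mem hε z).2) b₀ b₁ h1 (Real.exp_pos _).le
    (Eventually.of_forall h2) (by positivity) h3 hτ
  have hB := harnack_upper (v := (BF - F y + LF * r) / ε) hV (fun z => (H.pot_mem hε z).1) hμ
    ⟨⟨2 * ℓ, fun z => by rw [abs_of_nonneg (hD' z).1]; exact (hD' z).2⟩, 1, hD⟩ hD
    (cut_bddLip x ρ one_pos) (cut_compact x ρ one_pos) (cut_nonneg x ρ 1) b₀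
    (fun z hz => by rw [infDist_zero_of_mem hz, min_eq_left (by positivity)])
    (fun z hz => by
      have h4 := (H.Fl.dist_le_mul z y).trans (mul_le_mul_of_nonneg_left (mem_closedBall.1 hz) LF.2)
      rw [Real.dist_eq] at h4
      exact div_le_div_of_nonneg_right (by linarith [(abs_le.1 h4).1]) hε.le) hτ.le hτ'
  rw [hxy] at hA
  have e : (BF - F y + LF * r) / (2 * ε) = (BF - F y + LF * r) / ε / 2 := by ring
  unfold nErr
  unfold nf at hA ⊢
  linarith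
theorem n2c_memLp {f : X → ℝ} (hf : MemLp f 2 m) (h0 : ∀ z, 0 ≤ f z) :
    MemLp (fun z => Real.log (1 + f z)) 2 m := by
  refine hf.mono' ((hf.1.aemeasurable.const_add 1).log.aestronglyMeasurable)
    (Eventually.of_forall fun z => ?_)
  have h1 := h0 z
  rw [Real.norm_of_nonneg (Real.log_nonneg (by linarith))]
  linarith [Real.log_le_sub_one_of_pos (show 0 < 1 + f z by linarith)]

theorem n2c_inf (z y : X) {r : ℝ} (hr : 0 ≤ r) : dist z y - r ≤ infDist z (closedBall y r) := by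
  refine (le_infDist (nonempty_closedBall.2 hr)).2 fun w hw => ?_
  linarith [dist_triangle z w y, mem_closedBall.1 hw]

theorem n2c_sq {a b ℓ r : ℝ} (ha : 0 ≤ a) (hb : 0 ≤ b) (hr : 0 ≤ r) (hrℓ : r ≤ ℓ)
    (hab : 2 * (ℓ - r) ≤ a + b) : 2 * (ℓ - r) ^ 2 ≤ min a (2 * ℓ) ^ 2 + min b (2 * ℓ) ^ 2 := by
  have h1 : 0 ≤ min a (2 * ℓ) := le_min ha (by linarith)
  have h2 : 0 ≤ min b (2 * ℓ) := le_min hb (by linarith)
  have h3 : 2 * (ℓ - r) ≤ min a (2 * ℓ) + min b (2 * ℓ) := by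
    rcases min_cases a (2 * ℓ) with h | h <;> rcases min_cases b (2 * ℓ) with h' | h' <;> linarith
  have h4 : (2 * (ℓ - r)) ^ 2 ≤ (min a (2 * ℓ) + min b (2 * ℓ)) ^ 2 :=
    pow_le_pow_left₀ (by linarith) h3 2
  nlinarith [sq_nonneg (min a (2 * ℓ) - min b (2 * ℓ))]

theorem n2c_log {x y z : X} {ρ r ℓ τ' : ℝ} (V : X → ℝ) (hz : dist z x ≤ ρ) :
    min (infDist z (closedBall y r)) (2 * ℓ) ^ 2 / (4 * τ') + V z / 2 ≤
      Real.log (1 + nf x y ρ r ℓ τ' V z) := by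
  rw [nf, cut_eq_one one_pos hz, one_mul, Real.le_log_iff_exp_le (by positivity)]
  linarith

theorem n2c_int {f : X → ℝ} (hf : MemLp f 2 m) {M r : ℝ} {x : X} {ν : Measure X} (b : BM m M x r ν) :
    Integrable f ν := by
  have : IsFiniteMeasure (m.restrict (closedBall x r)) :=
    isFiniteMeasure_restrict.2 (isCompact_closedBall x r).measure_lt_top.ne
  exact b.integrable ((hf.restrict _).integrable one_le_two)

theorem n2c_time (κ c t : ℝ) {ε : ℝ} (hε : 0 < ε) :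
    ∫ s in (0 : ℝ)..(ε * t), Real.exp (2 * (κ + c / ε) * s) =
      ε * ∫ s in (0 : ℝ)..t, Real.exp (2 * (ε * κ + c) * s) := by
  have h := intervalIntegral.smul_integral_comp_mul_left
    (fun s => Real.exp (2 * (κ + c / ε) * s)) ε (a := 0) (b := t)
  rw [mul_zero, smul_eq_mul] at h
  rw [← h]
  congr 1
  refine intervalIntegral.integral_congr fun s _ => ?_
  congr 1
  field_simp


theorem Ctx.ll_eps (H : Ctx m κ F G BF BG LF) (hε : 0 < ε) {x y₀ y₁ : X} {ρ c ℓ r t η δ₁ M₀ : ℝ}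
    (hℓ : 0 < ℓ) (hℓρ : ℓ ≤ ρ / 100) (h₀ : dist x y₀ = ℓ) (h₁ : dist x y₁ = ℓ)
    (h₀₁ : dist y₀ y₁ = 2 * ℓ) (hc : ∀ z ∈ ball x ρ, G z ≤ c) (hr : 0 < r) (hrℓ : r ≤ ℓ)
    (ht : 0 < t) (hη : 0 < η) (hrδ : r < δ₁) (hδρ : δ₁ ≤ ρ) {ν₀ ν₁ μ₁ : Measure X}
    (b₀ : BM m M₀ y₀ r ν₀) (b₁ : BM m M₀ y₁ r ν₁) (b : BM m M₀ x r μ₁)
    (hw : 0 ≤ (ℓ - r) ^ 2 / (2 * t * (1 + η)) + BF - F x - LF * δ₁) :
    ((ℓ - r) ^ 2 / (2 * t * (1 + η)) + BF - F x - LF * δ₁) *
        (1 - nTail BF δ₁ r t (m.real (closedBall x δ₁)) M₀ ε) ≤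
      (BF - F y₀ + LF * r) / 2 + (BF - F y₁ + LF * r) / 2 +
        ε * Real.log (2 + 2 * M₀ * nsq m (cut x ρ 1)) +
        (ℓ + 2 * r) ^ 2 / (2 * t ^ 2) * (∫ s in (0 : ℝ)..t, Real.exp (2 * (ε * κ + c) * s)) +
        2 * ε * nErr κ c BG BF LF ℓ ρ t (m.real (closedBall x ρ)) (M₀ * gfac κ ρ) ε := by
  have hV := H.pot_bddLip ε
  obtain ⟨μ, hμ⟩ : ∃ μ : Measure X, μ = wm m (pot F BF ε) := ⟨_, rfl⟩
  have : DS m μ := hμ ▸ ds_wm (DS.hilb (m := m) (μ := m)) hV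
  have hτ : 0 < ε * t := mul_pos hε ht
  have hτ' : ε * t ≤ ε * t * (1 + η) := le_mul_of_one_le_right hτ.le (by linarith)
  have hμm : μ ≤ m := hμ ▸ wm_le hV fun z => (H.pot_mem hε z).1
  have hmμ : m ≤ ENNReal.ofReal (Real.exp (2 * BF / ε)) • μ :=
    hμ ▸ le_wm hV fun z => (H.pot_mem hε z).2
  have bμ : BM μ (M₀ * Real.exp (2 * BF / ε)) x r μ₁ := by
    refine ⟨b.1, b.2.trans (Measure.le_iff'.2 fun s => ?_)⟩
    have h := Measure.le_iff'.1 hmμ s
    simp only [Measure.smul_apply, smul_eq_mul] at h ⊢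
    rw [ENNReal.ofReal_mul b.pos.le, mul_assoc]
    gcongr
  have e₀ := H.ll_one hε hμ hℓ hℓρ h₀ hc hr hrℓ ht hη b₀ b
  have e₁ := H.ll_one hε hμ hℓ hℓρ h₁ hc hr hrℓ ht hη b₁ b
  obtain ⟨s₀, p₀, -⟩ := H.nf_props hε x y₀ (ρ := ρ) hr.le hℓ hτ hτ'
  obtain ⟨s₁, p₁, -⟩ := H.nf_props hε x y₁ (ρ := ρ) hr.le hℓ hτ hτ'
  have m₀ := n2c_memLp s₀.memLp fun z => (p₀ z).1
  have m₁ := n2c_memLp s₁.memLp fun z => (p₁ z).1
  have hl := heat_lower (μ := μ) (m₀.add m₁) (Eventually.of_forall fun z => add_nonneg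
      (Real.log_nonneg (by linarith [(p₀ z).1])) (Real.log_nonneg (by linarith [(p₁ z).1])))
    (x := x) (δ₁ := δ₁) (div_nonneg hw hε.le) (Eventually.of_forall fun z hz => ?_) bμ hrδ hτ
  swap
  · have hz' := mem_ball.1 hz
    have a₀ := n2c_log (y := y₀) (r := r) (ℓ := ℓ) (τ' := ε * t * (1 + η)) (pot F BF ε)
      (hz'.le.trans hδρ)
    have a₁ := n2c_log (y := y₁) (r := r) (ℓ := ℓ) (τ' := ε * t * (1 + η)) (pot F BF ε)
      (hz'.le.trans hδρ)
    have a₂ := n2c_sq (infDist_nonneg (x := z) (s := closedBall y₀ r))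
      (infDist_nonneg (x := z) (s := closedBall y₁ r)) hr.le hrℓ (by
        linarith [n2c_inf z y₀ hr.le, n2c_inf z y₁ hr.le, dist_triangle_left y₀ y₁ z])
    have a₃ := div_le_div_of_nonneg_right a₂ (show 0 ≤ 4 * (ε * t * (1 + η)) by positivity)
    have a₄ : F z ≤ F x + LF * δ₁ := by
      have h := H.Fl.dist_le_mul z x
      rw [Real.dist_eq] at h
      have h' : (LF : ℝ) * dist z x ≤ LF * δ₁ := mul_le_mul_of_nonneg_left hz'.le LF.2
      linarith [le_abs_self (F z - F x)]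
    have a₅ : (BF - F x - LF * δ₁) / ε ≤ pot F BF ε z :=
      div_le_div_of_nonneg_right (by linarith) hε.le
    have a₆ : ((ℓ - r) ^ 2 / (2 * t * (1 + η)) + BF - F x - LF * δ₁) / ε =
        2 * (ℓ - r) ^ 2 / (4 * (ε * t * (1 + η))) + (BF - F x - LF * δ₁) / ε := by
      field_simp
      ring
    rw [add_div] at a₃
    simp only [Pi.add_apply]
    linarith
  have hadd := integral_congr_ae (b.ac.ae_eq (heat_add_fun (μ := μ) m₀ m₁ (ε * t)))
  rw [integral_add (n2c_int (heat_memLp _ _) b) (n2c_int (heat_memLp _ _) b)] at hadd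
  replace hl := hl.trans_eq hadd
  have hT : 2 / (δ₁ - r) * Real.sqrt (ε * t * μ.real (closedBall x δ₁)) *
      Real.exp (-((δ₁ - r) ^ 2 / (32 * (ε * t)))) * Real.sqrt (M₀ * Real.exp (2 * BF / ε)) ≤
      nTail BF δ₁ r t (m.real (closedBall x δ₁)) M₀ ε := by
    have h1 : μ.real (closedBall x δ₁) ≤ m.real (closedBall x δ₁) :=
      ENNReal.toReal_mono (isCompact_closedBall x δ₁).measure_lt_top.ne (Measure.le_iff'.1 hμm _)
    have h2 : 0 < δ₁ - r := sub_pos.2 hrδ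
    unfold nTail
    gcongr
  have hl' := (mul_le_mul_of_nonneg_left (sub_le_sub_left hT 1) (div_nonneg hw hε.le)).trans
    (hl.trans (add_le_add e₀ e₁))
  rw [n2c_time κ c t hε, div_mul_eq_mul_div, div_le_iff₀ hε] at hl'
  refine hl'.trans_eq ?_
  field_simp
  ring

end Crest.Agent.R242
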